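import Crest.Agent.R013.NB7_92
import Crest.Agent.R013.BTor6_914
import Crest.Agent.R013.RZ4_365
import Crest.Agent.R013.OneD_622

/-!
# B-NB, part 8: the theorem inside `Ω = AlgebraicClosure K`, constants `κ → Ω`
-/

set_option autoImplicit false
set_option linter.unusedSectionVars false
set_option linter.style.haveILetI false

namespace Crest.Agent.R013.NB_92

open Module Crest.Agent.R013.Gl946 Crest.Agent.R013.CutCov_92
open Crest.Agent.R013.Annu_930 (MN)
open Crest.Agent.R013.Half_930 (Am Ap)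
open Crest.Agent.R013.A2a_275 (Cpl toCpl norm_toCpl)
open Crest.Agent.R013.BTor4_914 (LDiv)
open Crest.NumberTheoryR.Sect
open scoped NNReal

section Alg

variable {K : Type*} [Field K] {Ω : Type*} [Field Ω] [Algebra K Ω]

/-- constants in a subfield -/
@[reducible] def algC {κ : Type*} [Field κ] [Algebra κ Ω] (S : IntermediateField K Ω)
    (h : ∀ a : κ, algebraMap κ Ω a ∈ S) : Algebra κ S :=
  ((algebraMap κ Ω).codRestrict S h).toAlgebra

/-- inclusions -/
@[reducible] def algS (S T : IntermediateField K Ω) (h : S ≤ T) : Algebra S T :=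
  (IntermediateField.inclusion h).toRingHom.toAlgebra

end Alg

section LD

/-- `LDiv` for a re-patched class -/
theorem ldiv_of_patched {κ E : Type} [NontriviallyNormedField κ] [NormedField E]
    [NormedAlgebra κ E] [IsUltrametricDist E] [CompleteSpace E] {y : E} {L M : Type} [Field L]
    [Algebra κ L] [Field M] [Algebra L M] [Algebra κ M] {hG : IsGauss κ y} {ι1 : L →+* E} {x : L}
    {ρ1 : κ} {N : ℕ} {h h' : M} (hP : Patched hG ι1 x ρ1 N h h') (h0 : h ≠ 0)
    (hh : LDiv κ N h) :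
    LDiv κ N h' := by
  have key : ∀ (w : Valuation M ℝ≥0) (b : M), b ≠ 0 → w (h' / b - 1) < 1 → w h' = w b := by
    intro w b hb hw
    have h1 : w (h' / b) = 1 := by
      have : h' / b = 1 + (h' / b - 1) := by ring
      rw [this, Valuation.map_add_eq_of_lt_left w (by rw [map_one]; exact hw), map_one]
    rw [map_div₀] at h1
    exact (div_eq_one_iff_eq ((w.ne_zero_iff).2 hb)).1 h1
  intro w hw
  obtain ⟨g, hg, h1 | h1⟩ := hP.val w (Or.inr hw)
  · exact ⟨g, by rw [key w _ (pow_ne_zero _ hg) h1, map_pow]⟩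
  · obtain ⟨a, ha⟩ := hh w hw
    refine ⟨a * g, ?_⟩
    rw [key w _ (mul_ne_zero h0 (pow_ne_zero _ hg)) h1, map_mul, map_pow, ha, map_mul, mul_pow]

end LD

section Main

variable {k : Type} [Field k] [CharZero k] {K : Type} [Field K] [Algebra k K]
  [Algebra (RatFunc k) K] [IsScalarTower k (RatFunc k) K] [FiniteDimensional (RatFunc k) K]
  {κ E : Type} [NontriviallyNormedField κ] [CompleteSpace κ] [IsUltrametricDist κ]
  [CharZero κ] [NormedField E] [NormedAlgebra κ E] [IsUltrametricDist E] [CompleteSpace E]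
  {y : E} (hG : IsGauss κ y) {π₀ : κ} (hπ : IsUnif π₀) (hd : DenseRat κ y) {s : ℝ≥0} (hs : 1 < s)
  [Algebra k κ] [Algebra κ (AlgebraicClosure K)] [IsScalarTower k κ (AlgebraicClosure K)]
  [Algebra.IsAlgebraic k κ]

/-- **B-NB** inside `Ω = AlgebraicClosure K`. -/
theorem exists_nb (v : Valuation (AlgebraicClosure K) ℝ≥0)
    (hv : ∀ a : κ, v (algebraMap κ (AlgebraicClosure K) a) = ‖a‖₊)
    (S : Subfield (AlgebraicClosure K)) (i i1 : S →+* E)
    (L M : IntermediateField K (AlgebraicClosure K))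
    (hκL : ∀ a : κ, algebraMap κ (AlgebraicClosure K) a ∈ L) (hLM : L ≤ M)
    (fM : FiniteDimensional K M) (hMU : M ≤ maxUnramified k K) (hLS : ∀ a ∈ L, a ∈ S)
    {x : K} (hx : Transcendental k x) {ϖ ρ1 : κ} (hϖ0 : ϖ ≠ 0) (hρ0 : ρ1 ≠ 0)
    (hi : ∀ (a : κ) (h : algebraMap κ (AlgebraicClosure K) a ∈ S),
      i ⟨algebraMap κ (AlgebraicClosure K) a, h⟩ = algebraMap κ E a)
    (hix : ∀ h : algebraMap K (AlgebraicClosure K) x ∈ S,
      i ⟨algebraMap K (AlgebraicClosure K) x, h⟩ = algebraMap κ E ϖ * y)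
    (hi1 : ∀ (a : κ) (h : algebraMap κ (AlgebraicClosure K) a ∈ S),
      i1 ⟨algebraMap κ (AlgebraicClosure K) a, h⟩ = algebraMap κ E a)
    (hi1x : ∀ h : algebraMap K (AlgebraicClosure K) x ∈ S,
      i1 ⟨algebraMap K (AlgebraicClosure K) x, h⟩ = algebraMap κ E ρ1 * y)
    (hρ : ‖ρ1‖₊ * s ≤ ‖ϖ‖₊) (hiP : ∀ a, i a ∈ FP hG hπ hd) (hiM : ∀ a, i a ∈ MN hG hs)
    -- class 1
    {l : ℕ} (hl0 : 0 < l) (hl : ‖(l : κ)‖ = 1) {ζ : κ} (hζ : IsPrimitiveRoot ζ l)
    (h : AlgebraicClosure K) (hM : h ∈ M) (h0 : h ≠ 0) (hLD : LDiv k l (⟨h, hM⟩ : M))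
    (hgt : ∀ w : Valuation (AlgebraicClosure K) ℝ≥0,
      (∀ a : κ, w (algebraMap κ (AlgebraicClosure K) a) = ‖a‖₊) →
      w (algebraMap K (AlgebraicClosure K) x) = ‖ρ1‖₊ → ∃ g ∈ M, w (h - g ^ l) < w h)
    (hnp : ∀ g ∈ M, ¬ v (h - g ^ l) < v h)
    (hvx : v (algebraMap K (AlgebraicClosure K) x) < ‖ρ1‖₊)
    (Φ : FP hG hπ hd →+* Cpl v) (hΦ : ∀ a : S, Φ ⟨i a, hiP a⟩ = toCpl v a)
    (hΦb : ∀ z (_ : z ∈ AP hG) (hz' : z ∈ FP hG hπ hd), ‖Φ ⟨z, hz'⟩‖ ≤ ‖z‖)
    -- class 2
    {l' : ℕ} (hl'0 : 0 < l') {ζ' : κ} (hζ' : IsPrimitiveRoot ζ' l')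
    (h2 : AlgebraicClosure K) (h2L : h2 ∈ L)
    (hLD2 : LDiv k l' (⟨h2, h2L⟩ : L)) (hnp2 : ∀ g ∈ L, g ^ l' ≠ h2)
    (g2 : E) (hg2P : g2 ∈ FP hG hπ hd) (hg2M : g2 ∈ MN hG hs) (hg2 : g2 ^ l' = i ⟨h2, hLS _ h2L⟩) :
    ∃ (U : IntermediateField K (AlgebraicClosure K)) (V : Type) (_ : CommRing V) (_ : Algebra E V)
      (d : ℕ) (X : Edge (gaussDatum hG hπ hd) V d) (j : U →+* V) (σ : V →ₐ[E] E),
      FiniteDimensional K U ∧ U ≤ maxUnramified k K ∧ L ≤ U ∧
      NBOut (gaussDatum hG hπ hd) (Am hG hπ hd hs) (Ap hG hπ hd hs) U V d X j σ ∧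
      ∀ (a : AlgebraicClosure K) (hL : a ∈ L) (hU : a ∈ U), σ (j ⟨a, hU⟩) = i ⟨a, hLS a hL⟩ := by
  classical
  -- the fields
  have hκM : ∀ a : κ, algebraMap κ (AlgebraicClosure K) a ∈ M := fun a => hLM (hκL a)
  letI aL : Algebra κ L := algC L hκL
  letI aM : Algebra κ M := algC M hκM
  letI aLM : Algebra L M := algS L M hLM
  haveI : IsScalarTower κ L M := IsScalarTower.of_algebraMap_eq fun _ => rfl
  haveI : IsScalarTower K L M := IsScalarTower.of_algebraMap_eq fun _ => rfl
  haveI : FiniteDimensional L M := Module.Finite.of_restrictScalars_finite K L M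
  haveI fL : FiniteDimensional K L := by
    have hinj : Function.Injective (IntermediateField.inclusion hLM).toLinearMap :=
      (IntermediateField.inclusion hLM).toRingHom.injective
    exact FiniteDimensional.of_injective (IntermediateField.inclusion hLM).toLinearMap hinj
  haveI : IsScalarTower k κ M := IsScalarTower.of_algebraMap_eq fun a => Subtype.ext
    (IsScalarTower.algebraMap_apply k κ (AlgebraicClosure K) a)
  -- the circles
  have hKS : ∀ a : K, algebraMap K (AlgebraicClosure K) a ∈ S := fun a => hLS _ (L.algebraMap_mem a)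
  let inS : L →+* S := (algebraMap L (AlgebraicClosure K)).codRestrict S fun a => hLS a a.2
  let ι : L →+* E := i.comp inS
  let ι1 : L →+* E := i1.comp inS
  let xL : L := algebraMap K L x
  have C : Circ κ y ι xL ϖ := ⟨hϖ0, fun a => hi a (hLS _ (hκL a)), hix (hKS x)⟩
  have C1 : Circ κ y ι1 xL ρ1 := ⟨hρ0, fun a => hi1 a (hLS _ (hκL a)), hi1x (hKS x)⟩
  -- finiteness over `k(x)`
  haveI : FiniteDimensional (IntermediateField.adjoin k {x}) K := One_622.finite_adjoin x hx
  haveI : IsScalarTower (IntermediateField.adjoin k {x}) K L := inferInstance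
  haveI : FiniteDimensional (IntermediateField.adjoin k {x}) L :=
    FiniteDimensional.trans (IntermediateField.adjoin k {x}) K L
  have hkk : ∀ a : k, algebraMap K L (algebraMap k K a) = algebraMap κ L (algebraMap k κ a) := by
    intro a
    apply Subtype.ext
    change algebraMap K (AlgebraicClosure K) (algebraMap k K a) =
      algebraMap κ (AlgebraicClosure K) (algebraMap k κ a)
    rw [← IsScalarTower.algebraMap_apply k κ, ← IsScalarTower.algebraMap_apply k K]
  have hadj : ∀ {ι' : L →+* E} {ρ : κ}, Circ κ y ι' xL ρ →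
      ∀ z : IntermediateField.adjoin k {x}, ι' (algebraMap (IntermediateField.adjoin k {x}) L z) ∈
        KY hG := by
    intro ι' ρ C' z
    let T : IntermediateField k K :=
      { ((KY hG).comap (ι'.comp (algebraMap K L))) with
        algebraMap_mem' := fun a => by
          change ι' (algebraMap K L (algebraMap k K a)) ∈ KY hG
          rw [hkk, C'.const]
          exact const_mem_KY hG _ }
    have hT : IntermediateField.adjoin k {x} ≤ T := by
      rw [IntermediateField.adjoin_le_iff, Set.singleton_subset_iff]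
      change ι' xL ∈ KY hG
      rw [C'.x]
      exact mul_mem (const_mem_KY hG _) (y_mem_KY hG)
    exact hT z.2
  -- re-patching
  have hl00 : l ≠ 0 := hl0.ne'
  obtain ⟨h', hP⟩ := exists_patched (M := M) hG hπ hd C1 (hadj C1) hl ⟨h, hM⟩
    (fun e => h0 (congrArg Subtype.val e)) (by
      intro w hw
      obtain ⟨W, hW⟩ := RZ_365.exists_ext_val (K := AlgebraicClosure K) w
      have hW' : ∀ (a : AlgebraicClosure K) (ha : a ∈ M), W a = w ⟨a, ha⟩ := fun a ha => hW ⟨a, ha⟩
      have h1 : ∀ a : κ, W (algebraMap κ (AlgebraicClosure K) a) = ‖a‖₊ := by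
        intro a
        rw [hW' _ (hκM a)]
        have := hw (algebraMap κ L a) (by rw [C1.const]; exact const_mem_KY hG a)
        rw [C1.const] at this
        rw [← nnnorm_algebraMap' E a, ← this]
        rfl
      have h2 : W (algebraMap K (AlgebraicClosure K) x) = ‖ρ1‖₊ := by
        rw [hW' _ (M.algebraMap_mem x)]
        have := hw xL (by rw [C1.x]; exact mul_mem (const_mem_KY hG _) (y_mem_KY hG))
        rw [C1.x, nnnorm_mul, nnnorm_algebraMap'] at this
        have hy1 : ‖y‖₊ = 1 := NNReal.eq hG.norm_eq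
        rw [hy1, mul_one] at this
        rw [← this]
        rfl
      obtain ⟨g, hg, h3⟩ := hgt W h1 h2
      refine ⟨⟨g, hg⟩, ?_⟩
      rw [hW' _ (sub_mem hM (pow_mem hg l)), hW' _ hM] at h3
      exact h3)
  have hM0 : (⟨h, hM⟩ : M) ≠ 0 := fun e => h0 (congrArg Subtype.val e)
  have hLD' : LDiv k l h' := by
    refine BTor6_914.LDiv.of_alg (k' := κ) ?_
    exact ldiv_of_patched hP hM0 (BTor6_914.LDiv.mono (k' := κ) hLD)
  -- the roots
  have hMunr : IsUnramifiedEverywhere k K M := Unr5_957.le_maxUnramified_iff.mp hMU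
  have hLunr : IsUnramifiedEverywhere k K L := Unr5_957.le_maxUnramified_iff.mp (hLM.trans hMU)
  obtain ⟨y1, hy1⟩ := IsAlgClosed.exists_pow_nat_eq (h' : AlgebraicClosure K) hl0
  obtain ⟨y2, hy2⟩ := IsAlgClosed.exists_pow_nat_eq h2 hl'0
  have hy1U : y1 ∈ maxUnramified k K :=
    Unr10_957.kummer_mem_maxUnramified hMunr hl00 (h := h') hLD' hy1
  have hy2U : y2 ∈ maxUnramified k K :=
    Unr10_957.kummer_mem_maxUnramified hLunr hl'0.ne' (h := ⟨h2, h2L⟩) hLD2 hy2
  -- the Galois closure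
  let A0 : IntermediateField K (AlgebraicClosure K) := M ⊔ IntermediateField.adjoin K {y1, y2}
  haveI : FiniteDimensional K (IntermediateField.adjoin K {y1, y2}) :=
    IntermediateField.finiteDimensional_adjoin fun z _ => Algebra.IsIntegral.isIntegral z
  haveI : FiniteDimensional K A0 := by
    change FiniteDimensional K (M ⊔ IntermediateField.adjoin K {y1, y2} : IntermediateField K _)
    infer_instance
  let Kh : IntermediateField K (AlgebraicClosure K) := IntermediateField.normalClosure K A0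
    (AlgebraicClosure K)
  haveI fKh : FiniteDimensional K Kh := by
    change FiniteDimensional K (IntermediateField.normalClosure K A0 (AlgebraicClosure K))
    infer_instance
  haveI nKh : Normal K Kh := by
    change Normal K (IntermediateField.normalClosure K A0 (AlgebraicClosure K))
    infer_instance
  have hA0 : A0 ≤ Kh := A0.le_normalClosure
  have hKhU : Kh ≤ maxUnramified k K := by
    haveI : Normal K (maxUnramified k K) := Unr5_957.normal_maxUnramified
    have hA0U : A0 ≤ maxUnramified k K := by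
      refine sup_le hMU ?_
      rw [IntermediateField.adjoin_le_iff]
      rintro z (rfl | hz)
      · exact hy1U
      · rw [Set.mem_singleton_iff] at hz; rw [hz]; exact hy2U
    exact IntermediateField.normalClosure_le_iff_of_normal.2 hA0U
  have hMKh : M ≤ Kh := le_sup_left.trans hA0
  have hy1K : y1 ∈ Kh := hA0 ((le_sup_right : _ ≤ A0)
    (IntermediateField.subset_adjoin _ _ (Set.mem_insert _ _)))
  have hy2K : y2 ∈ Kh := hA0 ((le_sup_right : _ ≤ A0)
    (IntermediateField.subset_adjoin _ _ (Set.mem_insert_of_mem _ rfl)))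
  letI aMK : Algebra M Kh := algS M Kh hMKh
  letI aLK : Algebra L Kh := algS L Kh (hLM.trans hMKh)
  haveI : IsScalarTower L M Kh := IsScalarTower.of_algebraMap_eq fun _ => rfl
  haveI : IsScalarTower K L Kh := IsScalarTower.of_algebraMap_eq fun _ => rfl
  haveI : FiniteDimensional L Kh := Module.Finite.of_restrictScalars_finite K L Kh
  haveI : CharZero K := charZero_of_injective_algebraMap (algebraMap k K).injective
  haveI : CharZero (AlgebraicClosure K) :=
    charZero_of_injective_algebraMap (algebraMap K (AlgebraicClosure K)).injective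
  haveI : CharZero (Cpl v) := charZero_of_injective_ringHom (toCpl v).injective
  haveI : IsGalois K Kh := { to_isSeparable := inferInstance, to_normal := inferInstance }
  haveI : IsGalois L Kh := IsGalois.tower_top_of_isGalois K L Kh
  -- no root at `v`
  let κ' : M →+* Cpl v := (toCpl v).comp (algebraMap M (AlgebraicClosure K))
  have hΦKY : ∀ z (hz : z ∈ KY hG), Φ ⟨z, KY_le_FP hG hπ hd hz⟩ ∈ clS v M.toSubfield := by
    intro z hz
    obtain ⟨θ, hθ, -⟩ := C.exists_theta hG
    have e : (⟨z, KY_le_FP hG hπ hd hz⟩ : FP hG hπ hd) = ⟨i (inS (θ ⟨z, hz⟩)), hiP _⟩ :=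
      Subtype.ext (hθ ⟨z, hz⟩).symm
    rw [e, hΦ]
    exact toCpl_mem_clS v _ (hLM (θ ⟨z, hz⟩).2)
  have hno : ∀ w ∈ Subring.closure (Set.range Φ ∪ Set.range κ'), w ^ l ≠ κ' h' := by
    intro w hw hwl
    have hwc : w ∈ clS v M.toSubfield := by
      have : Subring.closure (Set.range Φ ∪ Set.range κ') ≤ (clS v M.toSubfield).toSubring := by
        rw [Subring.closure_le]
        rintro _ (⟨z, rfl⟩ | ⟨z, rfl⟩)
        · exact Phi_mem_clS hG hπ hd v _ Φ hΦKY hΦb z
        · exact toCpl_mem_clS v _ z.2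
      exact this hw
    have hh'0 : ((h' : M) : AlgebraicClosure K) ≠ 0 := fun e => hP.ne (Subtype.ext e)
    obtain ⟨g, hg, h3⟩ := exists_pow_lt v M.toSubfield hwc hh'0 hl00 hwl
    obtain ⟨g1, hg1, h4⟩ := hP.inside (v.comap (algebraMap M (AlgebraicClosure K)))
      (fun a => hv a) hvx
    have h5 := pow_transfer (v.comap (algebraMap M (AlgebraicClosure K))) (h := ⟨h, hM⟩) (h' := h')
      (g := ⟨g, hg⟩) (g1 := g1) hM0 hg1 h3 h4
    exact hnp _ (((⟨g, hg⟩ : M) / g1).2) h5
  obtain ⟨U, V, iV1, iV2, d, X, j, σ, hO, hι⟩ := exists_nbout2 (Kh := Kh) hG hπ hd hs C C1 hρ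
    (hadj C) (fun a => hiP _) (fun a => hiM _) hl0 hζ hP ⟨y1, hy1K⟩ (Subtype.ext hy1) Φ κ'
    (fun a => hΦ _) hno hl'0 hζ' (⟨h2, h2L⟩ : L) ⟨y2, hy2K⟩ (Subtype.ext hy2) (by
      rintro ⟨a, ha⟩
      refine hnp2 a a.2 ?_
      rw [← hy2]
      exact congrArg (fun z : Kh => (z : AlgebraicClosure K) ^ l') ha) g2 hg2P hg2M hg2
  -- the field `U`
  let gU : U →+* AlgebraicClosure K := (algebraMap Kh (AlgebraicClosure K)).comp (algebraMap U Kh)
  have hgL : ∀ a : L, gU (algebraMap L U a) = a := fun a => rfl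
  let U' : IntermediateField K (AlgebraicClosure K) :=
    gU.fieldRange.toIntermediateField fun a => ⟨algebraMap L U (algebraMap K L a), rfl⟩
  let f : U' ≃+* U := (RingEquiv.ofBijective (gU.codRestrict U' fun a => ⟨a, rfl⟩)
    ⟨fun a b hab => gU.injective (congrArg (fun z : U' => (z : AlgebraicClosure K)) hab), by
      rintro ⟨_, a, rfl⟩; exact ⟨a, rfl⟩⟩).symm
  have hf : ∀ (a : L) (hU : (a : AlgebraicClosure K) ∈ U'), f ⟨a, hU⟩ = algebraMap L U a := by
    intro a hU
    rw [RingEquiv.symm_apply_eq]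
    exact Subtype.ext (hgL a).symm
  have hU'Kh : U' ≤ Kh := by
    rintro _ ⟨a, rfl⟩
    exact (algebraMap U Kh a).2
  refine ⟨U', V, iV1, iV2, d, X, j.comp f.toRingHom, σ, ?_, hU'Kh.trans hKhU, ?_, hO.congr f, ?_⟩
  · have hinj : Function.Injective (IntermediateField.inclusion hU'Kh).toLinearMap :=
      (IntermediateField.inclusion hU'Kh).toRingHom.injective
    exact FiniteDimensional.of_injective (IntermediateField.inclusion hU'Kh).toLinearMap hinj
  · intro a ha
    exact ⟨algebraMap L U ⟨a, ha⟩, rfl⟩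
  · intro a ha hU
    have h3 := hι ⟨a, ha⟩
    rw [← hf ⟨a, ha⟩ hU] at h3
    exact h3

end Main

end Crest.Agent.R013.NB_92
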