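import Crest.Agent.R013.NB8_102
import Crest.Agent.R013.RR20_948

/-!
# Row 13, C-NB, part 9: cyclic topological covers of a function field with a loop
-/

set_option autoImplicit false
set_option linter.unusedSectionVars false
set_option linter.style.haveILetI false

noncomputable section

namespace Crest.Agent.R013.NB_102

open Module Filter Topology Polynomial
open Crest.Agent.R013.Gl946 Crest.Agent.R013.TopE1_957 Crest.Agent.R013.RR20_948
open Crest.NumberTheoryR.Sect
open scoped NNReal

universe u

theorem ratHom_poly {k K : Type*} [Field k] [Field K] [Algebra k K] (y : K)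
    (hy : Transcendental k y) (f : k[X]) :
    ratHom y hy (algebraMap k[X] (RatFunc k) f) = aeval y f := by
  have h : (ratHom y hy).comp (IsScalarTower.toAlgHom k k[X] (RatFunc k)) =
      (aeval y : k[X] →ₐ[k] K) := by
    apply Polynomial.algHom_ext
    change ratHom y hy (algebraMap k[X] (RatFunc k) X) = aeval y X
    rw [RatFunc.algebraMap_X, ratHom_X, aeval_X]
  exact congrArg (fun φ : k[X] →ₐ[k] K => φ f) h

section

variable {k : Type u} [NontriviallyNormedField k] [IsUltrametricDist k] [CompleteSpace k]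
  {U : Type u} [Field U] [CharZero U] [Algebra k U]

theorem transcendental_of_gauss {y : U} {w0 : Valuation U ℝ≥0}
    (hg : ∀ (f : k[X]) (i : ℕ), ‖f.coeff i‖ ≤ w0 (aeval y f)) : Transcendental k y :=
  transcendental_iff_injective.2 (aeval_injective hg)

/-- A place with `v y ≤ 1` has a residue polynomial. -/
theorem exists_poly_lt_one {k U : Type*} [Field k] [Field U] [Algebra k U] (y : U)
    (hy : Transcendental k y)
    (hfin : @FiniteDimensional (RatFunc k) U _ _ (ratAlg y hy).toModule)
    (v : Valuation U ℝ≥0) (hv : IsPlace k v) (h1 : v y ≤ 1) :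
    ∃ P : k[X], P ≠ 0 ∧ v (aeval y P) < 1 := by
  letI := ratAlg y hy
  have hfin' : FiniteDimensional (RatFunc k) U := hfin
  obtain ⟨f, hf0, hf1⟩ := exists_lt_one (F := RatFunc k) v hv.2
  have hle : ∀ P : k[X], v (aeval y P) ≤ 1 := by
    intro P
    rw [aeval_eq_sum_range]
    refine Valuation.map_sum_le v fun i _ => ?_
    rw [Algebra.smul_def, map_mul, map_pow]
    have h2 : v (algebraMap k U (P.coeff i)) ≤ 1 := by
      rcases eq_or_ne (P.coeff i) 0 with h | h
      · rw [h, map_zero, map_zero]; exact zero_le_one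
      · exact (hv.1 _ h).le
    exact mul_le_one' h2 (pow_le_one₀ zero_le h1)
  refine ⟨f.num, RatFunc.num_ne_zero hf0, ?_⟩
  have e1 : algebraMap (RatFunc k) U f * aeval y f.denom = aeval y f.num := by
    rw [← ratHom_poly y hy, ← ratHom_poly y hy]
    change ratHom y hy f * _ = _
    rw [← map_mul]
    congr 1
    have h3 := RatFunc.num_div_denom f
    rw [div_eq_iff (RatFunc.algebraMap_ne_zero f.denom_ne_zero)] at h3
    exact h3.symm
  rw [← e1, map_mul]
  calc v (algebraMap (RatFunc k) U f) * v (aeval y f.denom)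
      ≤ v (algebraMap (RatFunc k) U f) * 1 := mul_le_mul_right (hle _) _
    _ < 1 := by rw [mul_one]; exact hf1

/-- **CYCLIC TOPOLOGICAL COVERS.**  A function field `U/k` with a loop of norms through the Gauss
norm of `k(y)` has, for every `n ≥ 1`, a cyclic extension of degree `n` which is completely split at
all norms and all places. -/
theorem cover_of_loop [Algebra (RatFunc k) U] [IsScalarTower k (RatFunc k) U]
    [FiniteDimensional (RatFunc k) U] {π : k} (hπ : IsUnif π) (y : U) (w0 : Valuation U ℝ≥0)
    (hL : LoopAt k y w0) (n : ℕ) [NeZero n] :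
    ∃ (W : Type u) (_ : Field W) (_ : Algebra U W), FiniteDimensional U W ∧ finrank U W = n ∧
      IsGalois U W ∧ (∃ σ : W ≃ₐ[U] W, orderOf σ = n ∧ Subgroup.zpowers σ = ⊤) ∧
      (∀ v : Valuation U ℝ≥0, (∀ c : k, v (algebraMap k U c) ≤ ‖c‖₊) → SplitAt v W) ∧
      (∀ v : Valuation U ℝ≥0, IsPlace k v → SplitAt v W) := by
  have hy : Transcendental k y := transcendental_of_gauss hL.gauss
  have hfin : @FiniteDimensional (RatFunc k) U _ _ (ratAlg y hy).toModule := ratAlg_finite y hy
  obtain ⟨W, i1, i2, h1, h2, h3, h4, h5, h6⟩ :=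
    @exists_cyclic_cover k _ _ _ U _ _ _ π hπ y w0 hL (RatFunc k) _ (ratAlg y hy) hfin
      (algebraMap k[X] (RatFunc k)) (fun f => ratHom_poly y hy f)
      (fun x => ⟨x.num, x.denom, x.denom_ne_zero, (RatFunc.num_div_denom x).symm⟩) n _
  refine ⟨W, i1, i2, h1, h2, h3, h4, h5, fun v hv => h6 v hv.1 fun hle => ?_⟩
  exact exists_poly_lt_one y hy hfin v hv hle

end

end Crest.Agent.R013.NB_102
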