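import Crest.Agent.R013.Set13_803
import Crest.Agent.R013.Gl20_946

/-!
# Row 13, B-SET, part 14: `K C` is finite over `C(y)`
-/

set_option autoImplicit false
set_option linter.unusedSectionVars false
set_option linter.style.haveILetI false

noncomputable section

namespace Crest.Agent.R013.Set_803

open scoped NNReal Topology
open Filter PowerSeries Crest.NumberTheoryR.Sect Crest.Agent.R013.A2a_275 Crest.Agent.R013.Gl946
  Crest.Agent.R013.SE_669 Crest.Agent.R013.CGood_588

variable {k : Type*} [Field k] {Ω : Type*} [Field Ω] [Algebra k Ω]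
variable {p : ℕ} [hp : Fact p.Prime] [Algebra ℚ_[p] k] {v P : Valuation Ω ℝ≥0}
  {C : IntermediateField k Ω}

namespace DiscData

variable {R : ℝ≥0} {x q c : Ω} (D : DiscData p v P C R x q c)
  [FiniteDimensional ℚ_[p] k] [FiniteDimensional k C]

include D in
theorem not_algebraic (f : Polynomial C) (hf : f ≠ 0) : Polynomial.aeval x f ≠ 0 := by
  intro h0
  obtain ⟨q', hq'⟩ : ∃ q' : C, q' = ⟨q, D.qC⟩ := ⟨_, rfl⟩
  obtain ⟨c', hc'⟩ : ∃ c' : C, c' = ⟨c, D.cC⟩ := ⟨_, rfl⟩
  have hc'0 : c' ≠ 0 := fun h => D.c0 (by rw [hc'] at h; exact congrArg Subtype.val h)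
  -- `f(q + c t)`
  obtain ⟨g, hgd⟩ : ∃ g : Polynomial C,
    g = f.comp (Polynomial.C q' + Polynomial.C c' * Polynomial.X) := ⟨_, rfl⟩
  have hdeg : (Polynomial.C q' + Polynomial.C c' * Polynomial.X).natDegree ≠ 0 := by
    rw [add_comm, Polynomial.natDegree_add_C, Polynomial.natDegree_C_mul_X _ hc'0]
    exact one_ne_zero
  have hg : g ≠ 0 := by
    intro hg0
    rw [hgd, Polynomial.comp_eq_zero_iff] at hg0
    rcases hg0 with h | ⟨-, h⟩
    · exact hf h
    · apply hdeg
      rw [h, Polynomial.natDegree_C]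
  have h3 : Polynomial.aeval ((x - q) / c) g = 0 := by
    have e : Polynomial.aeval ((x - q) / c) (Polynomial.C q' + Polynomial.C c' * Polynomial.X) =
        x := by
      rw [map_add, map_mul, Polynomial.aeval_C, Polynomial.aeval_C, Polynomial.aeval_X, hq', hc']
      exact D.x_eq.symm
    rw [hgd, Polynomial.aeval_comp, e, h0]
  have h4 := psum_eq_aeval g ((x - q) / c) (g.natDegree + 1) (by omega)
  have h5 := D.gauss (g.natDegree + 1) (fun i => ((g.coeff i : C) : Ω)) (fun i => (g.coeff i : C).2)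
  rw [h4, h3, map_zero] at h5
  have h6 := Finset.le_sup (f := fun i => v ((g.coeff i : C) : Ω))
    (s := Finset.range (g.natDegree + 1)) (b := g.natDegree) (by simp)
  rw [← h5] at h6
  have h7 : v ((g.coeff g.natDegree : C) : Ω) = 0 := le_antisymm h6 zero_le
  rw [_root_.map_eq_zero] at h7
  exact hg (Polynomial.leadingCoeff_eq_zero.1 (Subtype.ext h7))

include D in
theorem transcendental_x : Transcendental k x := by
  rintro ⟨f, hf, hf0⟩
  refine D.not_algebraic (f.map (algebraMap k C)) ((Polynomial.map_ne_zero_iff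
    (algebraMap k C).injective).2 hf) ?_
  rw [Polynomial.aeval_map_algebraMap]
  exact hf0

end DiscData

/-- a finite extension stays finite over a bigger base, ring hom form. -/
theorem finite_of_le {F L : Type*} [Field F] [Field L] {F' : Type*} [Field F'] (i : F →+* L)
    (j : F' →+* L) (h : ∀ a, ∃ b, j b = i a) (hfin : i.Finite) : j.Finite := by
  letI := i.toAlgebra
  letI := j.toAlgebra
  have h1 : Module.Finite F L := hfin
  obtain ⟨S, hS⟩ := h1.fg_top
  refine ⟨⟨S, ?_⟩⟩
  rw [eq_top_iff]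
  intro l _
  have hl : l ∈ Submodule.span F (S : Set L) := by rw [hS]; trivial
  refine Submodule.span_induction ?_ ?_ ?_ ?_ hl
  · intro s hs; exact Submodule.subset_span hs
  · exact zero_mem _
  · intro a b _ _ ha hb; exact add_mem ha hb
  · intro a b _ hb
    obtain ⟨a', ha'⟩ := h a
    have : a • b = a' • b := by
      rw [Algebra.smul_def, Algebra.smul_def]
      change i a * b = j a' * b
      rw [ha']
    rw [this]
    exact Submodule.smul_mem _ _ hb

namespace DiscData

variable {R : ℝ≥0} {x q c : Ω} (D : DiscData p v P C R x q c)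
  [FiniteDimensional ℚ_[p] k] [FiniteDimensional k C]
  {E : Type*} [NormedField E] [IsUltrametricDist E] [CompleteSpace E]
  (A : NAlg D.hv C E) {y : E} (hy : IsG D.hv C A y)

theorem psi_range (ρ : C) (hρ : v ρ < R) (h0 : ρ ≠ 0) {z : Ω}
    (hz : z ∈ Subfield.closure ((C : Set Ω) ∪ {x})) : ∃ b, D.psi A hy ρ hρ h0 b = z := by
  have h1 : Subfield.closure ((C : Set Ω) ∪ {x}) ≤ (D.psi A hy ρ hρ h0).fieldRange := by
    rw [Subfield.closure_le]
    rintro _ (ha | rfl)
    · exact ⟨_, D.psi_const A hy ρ hρ h0 ⟨_, ha⟩⟩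
    · refine ⟨⟨A.algebraMap ρ, D.const_mem A hy ρ⟩ * ⟨y, D.y_mem A hy⟩, ?_⟩
      rw [map_mul, D.psi_const, D.psi_y, mul_div_cancel₀]
      exact fun h => h0 (Subtype.ext h)
  exact h1 hz

/-- **finiteness** over `C(y)` -/
theorem finite_theta {K : Type*} [Field K] [Algebra k K] [Algebra K Ω] [IsScalarTower k K Ω]
    [Algebra (RatFunc k) K] [IsScalarTower k (RatFunc k) K] [FiniteDimensional (RatFunc k) K]
    (xK : K) (hx : algebraMap K Ω xK = x) {N : Type*} [Field N] [Algebra K N] [Algebra N Ω]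
    [IsScalarTower K N Ω] [FiniteDimensional K N] (ρ : C) (hρ : v ρ < R) (h0 : ρ ≠ 0)
    (θ : KYC A hy →+* N) (hθ : ∀ z, algebraMap N Ω (θ z) = D.psi A hy ρ hρ h0 z) : θ.Finite := by
  have htr : Transcendental k xK := by
    intro h
    apply D.transcendental_x
    rw [← hx]
    exact h.algebraMap
  have hf := finite_adjoin (k := k) xK htr
  have hfin : FiniteDimensional (IntermediateField.adjoin k {xK}) N :=
    FiniteDimensional.trans (IntermediateField.adjoin k {xK}) K N
  refine finite_of_le (algebraMap (IntermediateField.adjoin k {xK}) N) θ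
    (fun a => ?_) (RingHom.finite_algebraMap.2 hfin)
  -- `a ∈ k(x)`
  have hmem : algebraMap K Ω a ∈ (D.psi A hy ρ hρ h0).fieldRange := by
    have h1 : IntermediateField.adjoin k {xK} ≤
        ((D.psi A hy ρ hρ h0).fieldRange.comap (algebraMap K Ω)).toIntermediateField (fun b => by
          rw [Subfield.mem_comap, ← IsScalarTower.algebraMap_apply k K Ω]
          exact ⟨_, D.psi_const A hy ρ hρ h0 (algebraMap k C b)⟩) := by
      rw [IntermediateField.adjoin_le_iff]
      rintro _ h
      rw [Set.mem_singleton_iff.1 h]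
      change algebraMap K Ω xK ∈ (D.psi A hy ρ hρ h0).fieldRange
      rw [hx]
      refine ⟨⟨A.algebraMap ρ, D.const_mem A hy ρ⟩ * ⟨y, D.y_mem A hy⟩, ?_⟩
      rw [map_mul, D.psi_const, D.psi_y, mul_div_cancel₀]
      exact fun h => h0 (Subtype.ext h)
    exact h1 a.2
  obtain ⟨b, hb⟩ := hmem
  refine ⟨b, (algebraMap N Ω).injective ?_⟩
  rw [hθ, hb]
  change algebraMap K Ω a = algebraMap N Ω (algebraMap K N a)
  rw [← IsScalarTower.algebraMap_apply K N Ω]

end DiscData

end Crest.Agent.R013.Set_803
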