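import Crest.Agent.R013.NB8_92
import Crest.Agent.R013.Cls2_914
import Crest.Agent.R013.BTor10_914
import Crest.Agent.R013.Set14_803
import Crest.Agent.R013.LiftM_168

/-!
# B-NB, part 9: the theorem for `DiscData` (803) at the circle `|x| = |π|`
-/

set_option autoImplicit false
set_option linter.unusedSectionVars false
set_option linter.style.haveILetI false

noncomputable section

namespace Crest.Agent.R013.NB_92

open Module Crest.Agent.R013.Gl946 Crest.Agent.R013.CutCov_92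
open Crest.Agent.R013.Annu_930 (MN)
open Crest.Agent.R013.Half_930 (Am Ap mem_MN_of_both)
open Crest.Agent.R013.A2a_275 (Cpl toCpl norm_toCpl)
open Crest.Agent.R013.BTor4_914 (LDiv)
open Crest.Agent.R013.BTor6_914 (LC Lbar LC_le_Lbar LC_mono)
open Crest.Agent.R013.Set_803
open Crest.NumberTheoryR.Sect
open scoped NNReal

section Up

/-- `LDiv` over an algebraic extension of the field of functions -/
theorem ldiv_up {k F F' : Type*} [Field k] [Field F] [Field F'] [Algebra k F] [Algebra k F']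
    [Algebra F F'] [IsScalarTower k F F'] [Algebra.IsAlgebraic F F'] {l : ℕ} {h : F}
    (hh : LDiv k l h) : LDiv k l (algebraMap F F' h) := by
  intro w hw
  obtain ⟨a, ha⟩ := hh (w.comap (algebraMap F F')) (by
    refine ⟨fun c hc => ?_, ?_⟩
    · rw [Valuation.comap_apply, ← IsScalarTower.algebraMap_apply]
      exact hw.1 c hc
    · by_contra hcon
      push Not at hcon
      obtain ⟨b, hb0, hb1⟩ := hw.2
      refine hb1 (Unr9_957.trivial_of_trivial (F := F) (E := F') w (fun z hz => ?_) b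
        ((Valuation.ne_zero_iff w).1 hb0))
      exact hcon z ((Valuation.ne_zero_iff _).2 hz))
  exact ⟨algebraMap F F' a, ha⟩

end Up

section Level

variable {p : ℕ} [hp : Fact p.Prime] {k : Type} [Field k] [CharZero k] [Algebra ℚ_[p] k]
  [FiniteDimensional ℚ_[p] k] {K : Type} [Field K] [Algebra k K] [Algebra (RatFunc k) K]
  [IsScalarTower k (RatFunc k) K] [FiniteDimensional (RatFunc k) K]
  {v P : Valuation (AlgebraicClosure K) ℝ≥0}
  {C : IntermediateField k (AlgebraicClosure K)} [FiniteDimensional k C] {R : ℝ≥0} {x : K}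
  {q c : AlgebraicClosure K}
  (D : DiscData p v P C R (algebraMap K (AlgebraicClosure K) x) q c)
  {E : Type} [NormedField E] [IsUltrametricDist E] [CompleteSpace E]
  (A : NAlg D.hv C E) {y : E} (hy : IsG D.hv C A y)

/-- The output of B-NB at the level `C`, for the circle `|x| = |π|` in the circle field `E` over
`C`. -/
def NBLevel {π₀ : C} (hπ₀ : @IsUnif C (nC D.hv C).toNormedField π₀) (hd : DenseR D.hv C A y)
    {s : ℝ≥0} (hs : 1 < s) (π : C) (hπ0 : π ≠ 0) (hπR : v (π : AlgebraicClosure K) < R) : Prop :=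
  letI := nC D.hv C
  haveI := ultra_nC D.hv C
  haveI := complete_nC D.hv C
  letI := A
  ∃ (U : IntermediateField K (AlgebraicClosure K)) (V : Type) (_ : CommRing V) (_ : Algebra E V)
    (d : ℕ) (X : Edge (gaussDatum hy hπ₀ hd) V d) (j : U →+* V) (σ : V →ₐ[E] E),
    FiniteDimensional K U ∧ U ≤ maxUnramified k K ∧ (∀ a ∈ C, a ∈ U) ∧
    NBOut (gaussDatum hy hπ₀ hd) (Am hy hπ₀ hd hs) (Ap hy hπ₀ hd hs) U V d X j σ ∧
    (∀ u, σ (j u) ∈ MN hy hs) ∧
    ∀ (a : AlgebraicClosure K) (_ : a ∈ LC (⊥ : IntermediateField K (AlgebraicClosure K)) C)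
      (hU : a ∈ U) (hS : a ∈ D.SD), σ (j ⟨a, hU⟩) = D.iota A hy π hπR hπ0 ⟨a, hS⟩

/-- the algebraic closure of `K` as a field over `C` with the norm of `v` -/
theorem nb_level {π₀ : C} (hπ₀ : @IsUnif C (nC D.hv C).toNormedField π₀)
    (hd : DenseR D.hv C A y) {s : ℝ≥0} (hs : 1 < s)
    (hSD : ∀ f ∈ LC (⊥ : IntermediateField K (AlgebraicClosure K)) C, f ∈ D.SD)
    {M : IntermediateField K (AlgebraicClosure K)} [FiniteDimensional K M]
    (hMU : M ≤ maxUnramified k K)
    -- the circles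
    {π ρ1 ρ2 : C} (hπ0 : π ≠ 0) (h10 : ρ1 ≠ 0) (h20 : ρ2 ≠ 0)
    (h1π : v (ρ1 : AlgebraicClosure K) * s ≤ v (π : AlgebraicClosure K))
    (hq1 : v q < v (ρ1 : AlgebraicClosure K)) (hc1 : v c < v (ρ1 : AlgebraicClosure K))
    (hπ2 : v (π : AlgebraicClosure K) * s < v (ρ2 : AlgebraicClosure K))
    (h2R : v (ρ2 : AlgebraicClosure K) ≤ R) (hπR : v (π : AlgebraicClosure K) < R)
    -- class 1
    {l : ℕ} (hl : l.Prime) (hlp : l ≠ p) {ζ : C} (hζ : IsPrimitiveRoot ζ l)
    (h : AlgebraicClosure K) (hM : h ∈ LC M C) (h0 : h ≠ 0)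
    (hLD : LDiv k l (⟨h, hM⟩ : LC M C))
    (hgt : ∀ w : Valuation (AlgebraicClosure K) ℝ≥0, ExtendsPadicNorm k (AlgebraicClosure K) p w →
      1 < w ((algebraMap K (AlgebraicClosure K) x - q) / c) → ∃ g ∈ LC M C, w (h - g ^ l) < w h)
    (hnp : ∀ g ∈ LC M C, ¬ v (h - g ^ l) < v h)
    -- class 2
    (h2 : AlgebraicClosure K) (h2L : h2 ∈ LC (⊥ : IntermediateField K (AlgebraicClosure K)) C)
    (hLD2 : LDiv k l (⟨h2, h2L⟩ : LC (⊥ : IntermediateField K (AlgebraicClosure K)) C))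
    (hnp2 : ∀ g ∈ LC (⊥ : IntermediateField K (AlgebraicClosure K)) C, g ^ l ≠ h2)
    (hf : letI := nC D.hv C; haveI := ultra_nC D.hv C
      ∃ g : Good3_940.FDisc C ‖ρ2‖ (norm_pos_iff.mpr h20), g ≠ 0 ∧
        BTor3_914.resF (k := C) (R := (R : ℝ)) (by exact_mod_cast D.hR) (norm_pos_iff.mpr h20)
          (by rw [norm_nC]; exact_mod_cast h2R) (D.kap ⟨h2, hSD h2 h2L⟩) = g ^ l) :
    NBLevel D A hy hπ₀ hd hs π hπ0 hπR := by
  classical
  letI iN : NontriviallyNormedField C := nC D.hv C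
  haveI iU : IsUltrametricDist C := ultra_nC D.hv C
  haveI iC : CompleteSpace C := complete_nC D.hv C
  letI iA : NormedAlgebra C E := A
  haveI : CharZero C := charZero_of_injective_algebraMap (algebraMap k C).injective
  haveI : Algebra.IsAlgebraic k C := Algebra.IsAlgebraic.of_finite _ _
  have hnn : ∀ a : C, v (a : AlgebraicClosure K) = ‖a‖₊ := fun a =>
    (NNReal.eq (norm_nC D.hv C a) : ‖a‖₊ = _).symm
  have h1R : v (ρ1 : AlgebraicClosure K) < R := by
    refine lt_of_le_of_lt ?_ hπR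
    refine le_trans ?_ h1π
    exact le_mul_of_one_le_right zero_le hs.le
  have hs0 : (1 : ℝ≥0) ≤ s := hs.le
  have hqπ : v q < v (π : AlgebraicClosure K) :=
    hq1.trans_le ((le_mul_of_one_le_right zero_le hs0).trans h1π)
  have hcπ : v c < v (π : AlgebraicClosure K) :=
    hc1.trans_le ((le_mul_of_one_le_right zero_le hs0).trans h1π)
  have hπ2' : v (π : AlgebraicClosure K) < v (ρ2 : AlgebraicClosure K) :=
    (le_mul_of_one_le_right zero_le hs0).trans_lt hπ2
  -- the two circles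
  let S := D.SD
  let i : S →+* E := D.iota A hy π hπR hπ0
  let i1 : S →+* E := D.iota A hy ρ1 h1R h10
  have hCLC : ∀ a : C, (a : AlgebraicClosure K) ∈
      LC (⊥ : IntermediateField K (AlgebraicClosure K)) C := fun a =>
    (le_sup_right : IntermediateField.adjoin K (C : Set (AlgebraicClosure K)) ≤
      LC (⊥ : IntermediateField K (AlgebraicClosure K)) C)
      (IntermediateField.subset_adjoin _ _ a.2)
  have hLM : LC (⊥ : IntermediateField K (AlgebraicClosure K)) C ≤ LC M C :=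
    sup_le_sup_right bot_le _
  haveI fM : FiniteDimensional K (LC M C) := LiftM_168.fd_lv M C
  have hMU' : LC M C ≤ maxUnramified k K := LiftM_168.lv_le_maxUnramified hMU C
  have hx : Transcendental k x := by
    intro hh
    exact D.transcendental_x (hh.algebraMap (A := AlgebraicClosure K))
  obtain ⟨Φ, hΦ, hΦb⟩ := D.exists_Phi A hy π hπR hπ0 hqπ hcπ hπ₀ hd
  obtain ⟨g2, hg20, hg2, hg2P, hg2M⟩ := Cls2_914.exists_g2 D A hy h20 h2R
    ((hqπ.trans hπ2')) (hcπ.trans hπ2') π hπ0 hπ2' ⟨h2, hSD h2 h2L⟩ hf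
  have hln : ‖(l : C)‖ = 1 := by
    have h1 := LiftL_168.natCast_val D.hv l
    have h2 : ((l : C) : AlgebraicClosure K) = (l : AlgebraicClosure K) := by simp
    have h3 : v ((l : C) : AlgebraicClosure K) = 1 := by
      rw [h2, h1]
      apply NNReal.eq
      rw [coe_nnnorm, NNReal.coe_one]
      exact Padic.norm_natCast_eq_one_iff.2 ((Nat.coprime_primes hp.out hl).2 hlp.symm)
    rw [hnn] at h3
    exact congrArg NNReal.toReal h3
  obtain ⟨U, V, iV1, iV2, d, X, j, σ, hU1, hU2, hU3, hO, hι⟩ :=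
    exists_nb (κ := C) (E := E) hy hπ₀ hd hs v hnn S i i1
      (LC (⊥ : IntermediateField K (AlgebraicClosure K)) C) (LC M C) hCLC hLM fM hMU'
      (fun a ha => hSD a ha) hx hπ0 h10
      (fun a h => D.iota_const A hy π hπR hπ0 a h) (fun h => D.iota_x A hy π hπR hπ0 h)
      (fun a h => D.iota_const A hy ρ1 h1R h10 a h) (fun h => D.iota_x A hy ρ1 h1R h10 h)
      (by rw [← hnn, ← hnn]; exact h1π)
      (fun a => D.iota_mem_FP A hy π hπR hπ0 hπ₀ hd a)
      (fun a => D.iota_mem_MN A hy π hπR hπ0 hs (hπ2.trans_le h2R) a)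
      hl.pos hln hζ h hM h0 hLD
      (by
        intro w hw hwx
        obtain ⟨e1, e2⟩ := D.out_norm (w := w) (r := v (ρ1 : AlgebraicClosure K))
          (fun a ha => (hw ⟨a, ha⟩).trans (hnn ⟨a, ha⟩).symm) (by rw [hwx, hnn]) hq1 hc1
        exact hgt w e1 e2)
      hnp
      (by
        rw [← hnn, D.x_eq]
        refine (v.map_add _ _).trans_lt (max_lt hq1 ?_)
        rw [map_mul, gaussAt_norm D.gauss, mul_one]
        exact hc1)
      Φ hΦ hΦb hl.pos hζ h2 h2L hLD2 hnp2 g2 (hg2P π₀ hπ₀ hd) (hg2M s hs hπ2) hg2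
  refine ⟨U, V, iV1, iV2, d, X, j, σ, hU1, hU2, fun a ha => hU3 (hCLC ⟨a, ha⟩), hO,
    fun u => mem_MN_of_both hy hπ₀ hd hs (hO.mem_Ap u) (hO.mem_Am u), fun a ha hU hS => hι a ha hU⟩

end Level

end Crest.Agent.R013.NB_92
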