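import Crest.Agent.R013.SetMN_930
import Crest.Agent.R013.NB3_92
import Crest.Agent.R013.Gl14_946

/-!
# Row 13, part B: the half rings `Am`, `Ap` in 92's `Half`, and the values of 92's `Out` in `MN`
-/

set_option autoImplicit false
set_option linter.unusedSectionVars false

noncomputable section

namespace Crest.Agent.R013.NBH_930

open scoped NNReal TensorProduct
open Crest.Agent.R013.Gl946 Crest.Agent.R013.Annu_930 Crest.Agent.R013.Half_930
  Crest.Agent.R013.NB_92

variable {k E : Type*} [NontriviallyNormedField k] [IsUltrametricDist k] [CompleteSpace k]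
  [NormedField E] [NormedAlgebra k E] [IsUltrametricDist E] [CompleteSpace E]
  {y : E} (hG : IsGauss k y) {π : k} (hπ : IsUnif π) (hd : DenseRat k y) {s : ℝ≥0} (hs : 1 < s)
  {L : Type*} [Field L] [Algebra (gaussDatum hG hπ hd).F0 L]
  (iota : L →ₐ[(gaussDatum hG hπ hd).F0] E)

/-- 92's `Half` for an embedding with values in `FP` and `MN`. -/
theorem half_of (h1 : ∀ l, iota l ∈ FP hG hπ hd) (h2 : ∀ l, iota l ∈ MN hG hs) :
    Half iota (Am hG hπ hd hs) (Ap hG hπ hd hs) where
  FP_le := FP_le_Am hG hπ hd hs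
  RU_le := RU_le_Ap hG hπ hd hs
  iota_FP := h1
  iota_Ap := fun l => MN_le_Ap hG hπ hd hs (h2 l)

variable {K : Type*} [Field K] [Algebra (gaussDatum hG hπ hd).F0 K] [Algebra L K]
  [IsScalarTower (gaussDatum hG hπ hd).F0 L K]

/-- the values of 92's `Out` are meromorphic on the closed annulus -/
theorem out_mem_MN {U : IntermediateField L K} [FiniteDimensional (gaussDatum hG hπ hd).F0 U]
    {e : E ⊗[(gaussDatum hG hπ hd).F0] U} {j : (E ⊗[(gaussDatum hG hπ hd).F0] U) →ₐ[E] E}
    (h : Out iota (Am hG hπ hd hs) (Ap hG hπ hd hs) U e j) (u : U) :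
    j ((1 : E) ⊗ₜ[(gaussDatum hG hπ hd).F0] u) ∈ MN hG hs :=
  mem_MN_of_both hG hπ hd hs (h.mem_Ap u) (h.mem_Am u)

end Crest.Agent.R013.NBH_930
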