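import Crest.Agent.R013.NB10_92
import Crest.Agent.R013.TopB_803

/-!
# B-NB: `NBP` of TopB_803
-/

set_option autoImplicit false
set_option linter.unusedSectionVars false
set_option linter.style.haveILetI false

namespace Crest.Agent.R013.NBP_92

open Crest.Agent.R013.Gl946 Crest.Agent.R013.CutCov_92 Crest.Agent.R013.NB_92
open Crest.Agent.R013.BTor6_914 (LC Lbar LC_le_Lbar LC_mono)
open Crest.Agent.R013.Set_803
open Crest.NumberTheoryR.Sect
open scoped NNReal

/-- `NBDisc` in the shape of `TopB_803` -/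
theorem nbData_of {p : ℕ} [hp : Fact p.Prime] {k : Type} [Field k] [Algebra ℚ_[p] k]
    [FiniteDimensional ℚ_[p] k] {K : Type} [Field K] [Algebra k K] [Algebra (RatFunc k) K]
    [IsScalarTower k (RatFunc k) K] [FiniteDimensional (RatFunc k) K]
    {v P : Valuation (AlgebraicClosure K) ℝ≥0} {C : IntermediateField k (AlgebraicClosure K)}
    {R : ℝ≥0} {x : K} {q c : AlgebraicClosure K} {s : ℝ≥0} {hs : 1 < s} {π : AlgebraicClosure K}
    (h : NBDisc p v P C R x q c hs π) : TopB_803.NBData p k K P x s hs π v := by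
  obtain ⟨C2, fC2, hC2, D2, E, iE, iEu, iEc, A, y, hy, hd, π₀, hπ₀, π', hπ'0, hπ'R, rfl, hSD, U, V,
    iV1, iV2, d, X, j, σ, h1, h2, h3, h4, h5, h6⟩ := h
  let iE' : NontriviallyNormedField E :=
    { iE with
      non_trivial := by
        letI := nC D2.hv C2
        letI := A
        obtain ⟨a, ha⟩ := NontriviallyNormedField.non_trivial (α := C2)
        refine ⟨algebraMap C2 E a, ?_⟩
        rw [norm_algebraMap']
        exact ha }
  exact ⟨C2, fC2, π'.2, fun e => hπ'0 (Subtype.ext e), q, c, R, D2,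
    fun f => hSD _ ((LC (⊥ : IntermediateField K (AlgebraicClosure K)) C2).algebraMap_mem f),
    hπ'R, E, iE', A, iEu, iEc, y, hy, hd, π₀, hπ₀, U, V, iV1, iV2, d, X, j, σ, h1, h2, h3, h4,
    fun f hf hfU hfD => h6 f hf hfU hfD⟩

/-- **B-NB**, the literal statement `NBP` of TopB_803. -/
theorem nbP (p : ℕ) [hp : Fact p.Prime] : TopB_803.NBP p := by
  intro s hs a hsa k _ _ _ K _ _ _ _ _ hc hg P x hP hx C π q c R v M l Y hV hL
  haveI : FiniteDimensional (RatFunc k) K := ‹FunctionField k K›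
  have hpn : ‖(p : ℚ_[p])‖₊ = (p : ℝ≥0)⁻¹ := by
    apply NNReal.eq
    rw [coe_nnnorm, Padic.norm_p, NNReal.coe_inv, NNReal.coe_natCast]
  have hp1 : (1 : ℝ≥0) < p := by exact_mod_cast hp.out.one_lt
  have hp0 : (0 : ℝ≥0) < p := zero_lt_one.trans hp1
  have hpa : (0 : ℝ≥0) < (p : ℝ≥0) ^ a := pow_pos hp0 a
  rw [hpn] at hV hsa
  have hsa' : s < (p : ℝ≥0) ^ (a + 1) := by
    have h1 : s ≤ (p : ℝ≥0) ^ a := by
      rw [inv_pow, ← div_eq_mul_inv] at hsa
      exact (div_le_one₀ hpa).1 hsa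
    refine h1.trans_lt ?_
    rw [pow_succ]
    exact lt_mul_of_one_lt_right hpa hp1
  obtain ⟨C1, h, hU, f1, hC1, h0, hLD, hgt, hnp⟩ := hL
  haveI := f1
  haveI : CharZero k := charZero_of_injective_algebraMap (algebraMap ℚ_[p] k).injective
  exact nbData_of (nb_of_vdata hc hg hP hx hs hsa' hV (C1 := C1) (h := h)
    ⟨f1, hU, h0, hLD, hgt, fun C' fC' _ g hg => by
      haveI := fC'
      exact hnp g (LC_le_Lbar hg)⟩)

end Crest.Agent.R013.NBP_92
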