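import Mathlib

/-!
# R013 / NidB (helper429): limits along an ultrafilter in vector spaces over `ℚ_[p]`

`Lm p U f a`: the sequence `f` lies (eventually along `U`) in a finite dimensional subspace and
`φ (f n) → φ a` for every linear functional `φ`.  Limits of subspaces of constant dimension.
-/

set_option autoImplicit false
set_option linter.all false

namespace Crest.Agent.R013.NidB_429

open Filter Topology Module

section basic

variable (p : ℕ) [Fact p.Prime] {V : Type*} [AddCommGroup V] [Module ℚ_[p] V]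

/-- convergence along the ultrafilter `U` inside a finite dimensional subspace -/
def Lm (U : Ultrafilter ℕ) (f : ℕ → V) (a : V) : Prop :=
  (∃ W : Submodule ℚ_[p] V, FiniteDimensional ℚ_[p] W ∧ ∀ᶠ n in (U : Filter ℕ), f n ∈ W) ∧
    ∀ φ : V →ₗ[ℚ_[p]] ℚ_[p], Tendsto (fun n => φ (f n)) U (𝓝 (φ a))

variable {p} {U : Ultrafilter ℕ} {f g : ℕ → V} {a c : V}

theorem Lm.uniq (h : Lm p U f a) (h' : Lm p U f c) : a = c := by
  rw [← sub_eq_zero, ← Module.forall_dual_apply_eq_zero_iff ℚ_[p]]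
  intro φ
  rw [map_sub, sub_eq_zero]
  exact tendsto_nhds_unique (h.2 φ) (h'.2 φ)

theorem Lm.mem (h : Lm p U f a) (W : Submodule ℚ_[p] V) (hW : ∀ᶠ n in (U : Filter ℕ), f n ∈ W) :
    a ∈ W := by
  by_contra ha
  obtain ⟨φ, h1, h2⟩ := Submodule.exists_dual_map_eq_bot_of_notMem ha inferInstance
  apply h1
  refine tendsto_nhds_unique (h.2 φ) ?_
  refine (tendsto_const_nhds (x := (0 : ℚ_[p]))).congr' ?_
  filter_upwards [hW] with n hn
  have : φ (f n) ∈ W.map φ := Submodule.mem_map_of_mem hn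
  rw [h2, Submodule.mem_bot] at this
  exact this.symm

theorem Lm.congr (h : Lm p U f a) (hfg : ∀ᶠ n in (U : Filter ℕ), f n = g n) : Lm p U g a := by
  obtain ⟨⟨W, hW, hf⟩, h2⟩ := h
  refine ⟨⟨W, hW, ?_⟩, fun φ => (h2 φ).congr' ?_⟩
  · filter_upwards [hf, hfg] with n h3 h4
    rw [← h4]; exact h3
  · filter_upwards [hfg] with n h4
    rw [h4]

theorem Lm.of_sum {ι : Type*} [Fintype ι] (b : ι → V) {y : ℕ → ι → ℚ_[p]} {y' : ι → ℚ_[p]}
    (hy : ∀ i, Tendsto (fun n => y n i) U (𝓝 (y' i)))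
    (hf : ∀ᶠ n in (U : Filter ℕ), f n = ∑ i, y n i • b i) : Lm p U f (∑ i, y' i • b i) := by
  refine ⟨⟨Submodule.span ℚ_[p] (Set.range b),
    FiniteDimensional.span_of_finite _ (Set.finite_range b), ?_⟩, fun φ => ?_⟩
  · filter_upwards [hf] with n hn
    rw [hn]
    exact Submodule.sum_mem _ fun i _ => Submodule.smul_mem _ _ (Submodule.subset_span ⟨i, rfl⟩)
  · have h1 : Tendsto (fun n => ∑ i, y n i * φ (b i)) U (𝓝 (∑ i, y' i * φ (b i))) :=
      tendsto_finset_sum _ fun i _ => (hy i).mul_const _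
    rw [map_sum]
    simp only [map_smul, smul_eq_mul]
    refine h1.congr' ?_
    filter_upwards [hf] with n hn
    rw [hn, map_sum]
    simp only [map_smul, smul_eq_mul]

theorem Lm.const (a : V) : Lm p U (fun _ => a) a := by
  refine ⟨⟨Submodule.span ℚ_[p] {a}, inferInstance,
    Eventually.of_forall fun _ => Submodule.mem_span_singleton_self a⟩, fun φ => tendsto_const_nhds⟩

theorem Lm.add (h : Lm p U f a) (h' : Lm p U g c) : Lm p U (fun n => f n + g n) (a + c) := by
  obtain ⟨⟨W, hW, hf⟩, h2⟩ := h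
  obtain ⟨⟨W', hW', hf'⟩, h2'⟩ := h'
  refine ⟨⟨W ⊔ W', inferInstance, ?_⟩, fun φ => ?_⟩
  · filter_upwards [hf, hf'] with n h3 h4
    exact Submodule.add_mem_sup h3 h4
  · simp only [map_add]
    exact (h2 φ).add (h2' φ)

theorem Lm.smul {x : ℕ → ℚ_[p]} {x' : ℚ_[p]} (hx : Tendsto x U (𝓝 x')) (h : Lm p U f a) :
    Lm p U (fun n => x n • f n) (x' • a) := by
  obtain ⟨⟨W, hW, hf⟩, h2⟩ := h
  refine ⟨⟨W, hW, ?_⟩, fun φ => ?_⟩
  · filter_upwards [hf] with n h3
    exact W.smul_mem _ h3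
  · simp only [map_smul, smul_eq_mul]
    exact hx.mul (h2 φ)

/-- coordinates with respect to a basis of a finite dimensional subspace -/
theorem Lm.coord (h : Lm p U f a) {m : ℕ} {b : Fin m → V} (hb : LinearIndependent ℚ_[p] b)
    {y : ℕ → Fin m → ℚ_[p]} (hf : ∀ᶠ n in (U : Filter ℕ), f n = ∑ i, y n i • b i) :
    ∃ y' : Fin m → ℚ_[p], (∀ i, Tendsto (fun n => y n i) U (𝓝 (y' i))) ∧
      a = ∑ i, y' i • b i := by
  have ha : a ∈ Submodule.span ℚ_[p] (Set.range b) := h.mem _ (by
    filter_upwards [hf] with n hn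
    rw [hn]
    exact Submodule.sum_mem _ fun i _ => Submodule.smul_mem _ _ (Submodule.subset_span ⟨i, rfl⟩))
  obtain ⟨y', hy'⟩ := (Submodule.mem_span_range_iff_exists_fun ℚ_[p]).1 ha
  refine ⟨y', fun i => ?_, hy'.symm⟩
  obtain ⟨φ, hφ⟩ := LinearMap.exists_extend (p := Submodule.span ℚ_[p] (Set.range b))
    ((Finsupp.lapply i).comp (hb.repr))
  have key : ∀ z : Fin m → ℚ_[p], φ (∑ j, z j • b j) = z i := by
    intro z
    have h1 : ∀ j, φ (b j) = if j = i then 1 else 0 := by
      intro j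
      have h2 := congrArg (fun ψ : Submodule.span ℚ_[p] (Set.range b) →ₗ[ℚ_[p]] ℚ_[p] =>
        ψ ⟨b j, Submodule.subset_span ⟨j, rfl⟩⟩) hφ
      simp only [LinearMap.comp_apply, Submodule.subtype_apply] at h2
      rw [h2]
      have h3 : hb.repr ⟨b j, Submodule.subset_span ⟨j, rfl⟩⟩ = Finsupp.single j 1 :=
        hb.repr_eq_single j _ rfl
      simp only [LinearEquiv.coe_coe, h3, Finsupp.lapply_apply, Finsupp.single_apply]
    rw [map_sum]
    simp only [map_smul, h1, smul_eq_mul, mul_ite, mul_one, mul_zero, Finset.sum_ite_eq',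
      Finset.mem_univ, if_true]
  have h1 := h.2 φ
  rw [← hy', key] at h1
  refine h1.congr' ?_
  filter_upwards [hf] with n hn
  rw [hn, key]

/-- a finite dimensional subspace has a finite basis -/
theorem exists_fin_basis (W : Submodule ℚ_[p] V) [FiniteDimensional ℚ_[p] W] :
    ∃ (m : ℕ) (b : Fin m → V), LinearIndependent ℚ_[p] b ∧ (∀ i, b i ∈ W) ∧
      ∀ a ∈ W, ∃ y : Fin m → ℚ_[p], a = ∑ i, y i • b i := by
  let B := Module.finBasis ℚ_[p] W
  refine ⟨_, fun i => (B i : V), ?_, fun i => (B i).2, fun a ha => ?_⟩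
  · exact B.linearIndependent.map' W.subtype (Submodule.ker_subtype W)
  · refine ⟨fun i => B.repr ⟨a, ha⟩ i, ?_⟩
    have h1 := congrArg W.subtype (B.sum_repr ⟨a, ha⟩)
    rw [map_sum] at h1
    exact h1.symm

theorem Lm.exists_sum (h : Lm p U f a) : ∃ (m : ℕ) (b : Fin m → V) (y : ℕ → Fin m → ℚ_[p])
    (y' : Fin m → ℚ_[p]), (∀ i, Tendsto (fun n => y n i) U (𝓝 (y' i))) ∧
      (∀ᶠ n in (U : Filter ℕ), f n = ∑ i, y n i • b i) ∧ a = ∑ i, y' i • b i := by
  obtain ⟨W, hW, hf⟩ := h.1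
  obtain ⟨m, b, hb, hbW, hb2⟩ := exists_fin_basis W
  choose! y hy using hb2
  have hf' : ∀ᶠ n in (U : Filter ℕ), f n = ∑ i, y (f n) i • b i := by
    filter_upwards [hf] with n hn
    exact hy _ hn
  obtain ⟨y', h1, h2⟩ := h.coord hb hf'
  exact ⟨m, b, fun n => y (f n), y', h1, hf', h2⟩

/-- compactness -/
theorem exists_lim {ι : Type*} [Fintype ι] {y : ℕ → ι → ℚ_[p]} {C : ℝ}
    (hC : ∀ᶠ n in (U : Filter ℕ), ∀ i, ‖y n i‖ ≤ C) :
    ∃ y' : ι → ℚ_[p], ∀ i, Tendsto (fun n => y n i) U (𝓝 (y' i)) := by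
  have hK := isCompact_closedBall (0 : ι → ℚ_[p]) (max C 0)
  obtain ⟨y', -, h⟩ := hK.ultrafilter_le_nhds (U.map y) (by
    rw [le_principal_iff]
    show ∀ᶠ n in (U : Filter ℕ), y n ∈ Metric.closedBall (0 : ι → ℚ_[p]) (max C 0)
    filter_upwards [hC] with n hn
    rw [mem_closedBall_zero_iff, pi_norm_le_iff_of_nonneg (le_max_right _ _)]
    exact fun i => (hn i).trans (le_max_left _ _))
  refine ⟨y', fun i => ?_⟩
  have h2 : Tendsto y U (𝓝 y') := h
  exact (tendsto_pi_nhds.1 h2) i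

/-- along an ultrafilter a function to a finite type is constant -/
theorem exists_eventually_eq {T : Type*} [Finite T] (g : ℕ → T) :
    ∃ t, ∀ᶠ n in (U : Filter ℕ), g n = t := by
  exact (Ultrafilter.eventually_exists_iff (f := U) (P := fun t n => g n = t)).1
    (Eventually.of_forall fun n => ⟨g n, rfl⟩)

/-- normalisation of a sequence of non-zero vectors -/
theorem exists_normalise {W : Submodule ℚ_[p] V} [FiniteDimensional ℚ_[p] W]
    (hf : ∀ᶠ n in (U : Filter ℕ), f n ∈ W) (h0 : ∀ᶠ n in (U : Filter ℕ), f n ≠ 0) :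
    ∃ (c : ℕ → ℚ_[p]) (a : V), (∀ᶠ n in (U : Filter ℕ), c n ≠ 0) ∧ a ≠ 0 ∧
      Lm p U (fun n => c n • f n) a := by
  obtain ⟨m, b, hb, hbW, hb2⟩ := exists_fin_basis W
  choose! y hy using hb2
  have hex : ∀ n, ∃ (c : ℚ_[p]) (i : Fin m → Prop), (f n ∈ W → f n ≠ 0 →
      c ≠ 0 ∧ (∀ j, ‖c * y (f n) j‖ ≤ 1) ∧ ∃ j, c * y (f n) j = 1) := by
    intro n
    by_cases h1 : f n ∈ W ∧ f n ≠ 0
    · have hne : (Finset.univ : Finset (Fin m)).Nonempty := by
        rw [Finset.univ_nonempty_iff]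
        by_contra hemp
        rw [not_nonempty_iff] at hemp
        apply h1.2
        rw [hy _ h1.1]
        simp
      obtain ⟨j, -, hj⟩ := Finset.exists_max_image Finset.univ (fun j => ‖y (f n) j‖) hne
      have hj0 : y (f n) j ≠ 0 := by
        intro h2
        apply h1.2
        rw [hy _ h1.1]
        refine Finset.sum_eq_zero fun l _ => ?_
        have := hj l (Finset.mem_univ _)
        rw [h2, norm_zero] at this
        rw [norm_le_zero_iff.1 this, zero_smul]
      refine ⟨(y (f n) j)⁻¹, fun _ => True, fun _ _ => ⟨inv_ne_zero hj0, fun l => ?_, j,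
        inv_mul_cancel₀ hj0⟩⟩
      rw [norm_mul, norm_inv, inv_mul_le_iff₀ (norm_pos_iff.2 hj0), mul_one]
      exact hj l (Finset.mem_univ _)
    · exact ⟨0, fun _ => True, fun h2 h3 => absurd ⟨h2, h3⟩ h1⟩
  choose c _ hc using hex
  obtain ⟨y', hy'⟩ := exists_lim (U := U) (y := fun n j => c n * y (f n) j) (C := 1) (by
    filter_upwards [hf, h0] with n h1 h2
    exact (hc n h1 h2).2.1)
  have hj : ∃ j, ∀ᶠ n in (U : Filter ℕ), c n * y (f n) j = 1 := by
    refine (Ultrafilter.eventually_exists_iff (f := U)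
      (P := fun j n => c n * y (f n) j = 1)).1 ?_
    filter_upwards [hf, h0] with n h1 h2
    exact (hc n h1 h2).2.2
  obtain ⟨j, hj⟩ := hj
  refine ⟨c, ∑ i, y' i • b i, ?_, ?_, Lm.of_sum b hy' ?_⟩
  · filter_upwards [hf, h0] with n h1 h2
    exact (hc n h1 h2).1
  · intro hzero
    have h1 : y' j = 0 := by
      have := Fintype.linearIndependent_iff.1 hb y' hzero
      exact this j
    have h2 : y' j = 1 := by
      refine tendsto_nhds_unique (hy' j) ((tendsto_const_nhds (x := (1 : ℚ_[p]))).congr' ?_)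
      filter_upwards [hj] with n hn
      exact hn.symm
    rw [h1] at h2
    exact zero_ne_one h2
  · filter_upwards [hf] with n hn
    conv_lhs => rw [hy _ hn]
    rw [Finset.smul_sum]
    simp only [smul_smul]

end basic

section alg

variable {p : ℕ} [Fact p.Prime] {K : Type*} [Field K] [Algebra ℚ_[p] K]
  {U : Ultrafilter ℕ} {f g : ℕ → K} {a c : K}

theorem Lm.mul (h : Lm p U f a) (h' : Lm p U g c) : Lm p U (fun n => f n * g n) (a * c) := by
  obtain ⟨m, b, y, y', h1, h2, h3⟩ := h.exists_sum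
  obtain ⟨m', b', z, z', h1', h2', h3'⟩ := h'.exists_sum
  have key : a * c = ∑ i : Fin m × Fin m', (y' i.1 * z' i.2) • (b i.1 * b' i.2) := by
    rw [h3, h3', Finset.sum_mul_sum, Fintype.sum_prod_type]
    simp only [smul_mul_smul_comm]
  rw [key]
  refine Lm.of_sum (y := fun n i => y n i.1 * z n i.2) _ (fun i => (h1 i.1).mul (h1' i.2)) ?_
  filter_upwards [h2, h2'] with n h4 h5
  rw [h4, h5, Finset.sum_mul_sum, Fintype.sum_prod_type]
  simp only [smul_mul_smul_comm]

theorem Lm.const_mul (x : K) (h : Lm p U f a) : Lm p U (fun n => x * f n) (x * a) :=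
  (Lm.const x).mul h

/-- cancellation of a factor with non-zero limit -/
theorem cancel {e v : ℕ → K} {e' u : K} (he : Lm p U e e') (he' : e' ≠ 0)
    {W : Submodule ℚ_[p] K} [FiniteDimensional ℚ_[p] W]
    (hv : ∀ᶠ n in (U : Filter ℕ), v n ∈ W) (hu : Lm p U (fun n => e n * v n) u) :
    ∃ v', Lm p U v v' ∧ e' * v' = u := by
  by_cases h0 : ∀ᶠ n in (U : Filter ℕ), v n = 0
  · have h1 : Lm p U v 0 := (Lm.const (0 : K)).congr (by filter_upwards [h0] with n hn using hn.symm)
    refine ⟨0, h1, ?_⟩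
    exact (he.mul h1).uniq hu
  · rw [← Ultrafilter.eventually_not] at h0
    obtain ⟨c, a, hc, ha, hl⟩ := exists_normalise hv h0
    have h2 := he.mul hl
    have h3 : Lm p U (fun n => c n • (e n * v n)) (e' * a) :=
      h2.congr (Eventually.of_forall fun n => mul_smul_comm _ _ _)
    have hδ : ∃ δ : ℝ, 0 < δ ∧ ∀ᶠ n in (U : Filter ℕ), δ ≤ ‖c n‖ := by
      by_contra hcon
      push Not at hcon
      have hlim : Tendsto c U (𝓝 0) := by
        rw [Metric.tendsto_nhds]
        intro ε hε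
        have h4 := hcon ε hε
        filter_upwards [h4] with n hn
        rw [dist_zero_right]
        exact hn
      have h5 := Lm.smul hlim hu
      rw [zero_smul] at h5
      exact mul_ne_zero he' ha (h3.uniq h5)
    obtain ⟨δ, hδ0, hδ⟩ := hδ
    obtain ⟨d, hd⟩ := exists_lim (U := U) (ι := Unit) (y := fun n _ => (c n)⁻¹) (C := δ⁻¹) (by
      filter_upwards [hδ] with n hn
      intro _
      rw [norm_inv]
      exact inv_anti₀ hδ0 hn)
    have h6 := Lm.smul (hd ()) hl
    have h7 : Lm p U v (d () • a) := h6.congr (by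
      filter_upwards [hc] with n hn
      rw [smul_smul, inv_mul_cancel₀ hn, one_smul])
    exact ⟨d () • a, h7, (he.mul h7).uniq hu⟩

theorem Lm.ne_zero (h : Lm p U f a) (ha : a ≠ 0) : ∀ᶠ n in (U : Filter ℕ), f n ≠ 0 := by
  rw [Ultrafilter.eventually_not]
  intro h0
  apply ha
  exact h.uniq ((Lm.const (0 : K)).congr (by filter_upwards [h0] with n hn using hn.symm))

end alg

section pivot

variable {p : ℕ} [Fact p.Prime]

/-- pivot bases of subspaces of `ℚ_[p] ^ m` with coordinates in `ℤ_[p]` -/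
theorem exists_pivot {m : ℕ} (d : ℕ) : ∀ T : Submodule ℚ_[p] (Fin m → ℚ_[p]),
    finrank ℚ_[p] T = d → ∃ (e : Fin d → Fin m → ℚ_[p]) (f : Fin d → Fin m),
      (∀ i j, e i (f j) = if i = j then 1 else 0) ∧ (∀ i a, ‖e i a‖ ≤ 1) ∧ (∀ i, e i ∈ T) := by
  induction d with
  | zero =>
    intro T _
    exact ⟨fun i => i.elim0, fun i => i.elim0, fun i => i.elim0, fun i => i.elim0,
      fun i => i.elim0⟩
  | succ d ih =>
    intro T hT
    obtain ⟨v, hv, hv0⟩ : ∃ v ∈ T, v ≠ 0 := by
      rw [← Submodule.ne_bot_iff]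
      rintro rfl
      rw [finrank_bot] at hT
      omega
    have hne : (Finset.univ : Finset (Fin m)).Nonempty := by
      rw [Finset.univ_nonempty_iff]
      by_contra hemp
      rw [not_nonempty_iff] at hemp
      exact hv0 (funext fun i => (hemp.false i).elim)
    obtain ⟨a0, -, ha0⟩ := Finset.exists_max_image Finset.univ (fun j => ‖v j‖) hne
    have hva : v a0 ≠ 0 := by
      intro h2
      apply hv0
      funext l
      have := ha0 l (Finset.mem_univ _)
      rw [h2, norm_zero] at this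
      exact norm_le_zero_iff.1 this
    set v1 : Fin m → ℚ_[p] := (v a0)⁻¹ • v with hv1
    have hv1T : v1 ∈ T := T.smul_mem _ hv
    have hv1a : v1 a0 = 1 := by rw [hv1, Pi.smul_apply, smul_eq_mul, inv_mul_cancel₀ hva]
    have hv1n : ∀ l, ‖v1 l‖ ≤ 1 := by
      intro l
      rw [hv1, Pi.smul_apply, smul_eq_mul, norm_mul, norm_inv,
        inv_mul_le_iff₀ (norm_pos_iff.2 hva), mul_one]
      exact ha0 l (Finset.mem_univ _)
    -- the hyperplane section
    let φ : T →ₗ[ℚ_[p]] ℚ_[p] := (LinearMap.proj a0).comp T.subtype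
    have hφs : Function.Surjective φ := by
      intro c
      refine ⟨c • ⟨v1, hv1T⟩, ?_⟩
      rw [map_smul]
      show c • v1 a0 = c
      rw [hv1a, smul_eq_mul, mul_one]
    have hker : finrank ℚ_[p] (LinearMap.ker φ) = d := by
      have h1 := LinearMap.finrank_range_add_finrank_ker φ
      rw [LinearMap.range_eq_top.2 hφs, finrank_top, finrank_self, hT] at h1
      omega
    let T' : Submodule ℚ_[p] (Fin m → ℚ_[p]) := (LinearMap.ker φ).map T.subtype
    have hT' : finrank ℚ_[p] T' = d := by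
      rw [← hker]
      exact (Submodule.equivMapOfInjective T.subtype T.injective_subtype
          (LinearMap.ker φ)).finrank_eq.symm
    obtain ⟨e, f, h1, h2, h3⟩ := ih T' hT'
    have he0 : ∀ i, e i a0 = 0 := by
      intro i
      obtain ⟨y, hy, hy2⟩ := h3 i
      rw [← hy2]
      exact hy
    have heT : ∀ i, e i ∈ T := by
      intro i
      obtain ⟨y, hy, hy2⟩ := h3 i
      rw [← hy2]
      exact y.2
    set w : Fin m → ℚ_[p] := v1 - ∑ i, v1 (f i) • e i with hw
    refine ⟨Fin.cons w e, Fin.cons a0 f, ?_, ?_, ?_⟩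
    · intro i j
      refine Fin.cases ?_ (fun i => ?_) i <;> refine Fin.cases ?_ (fun j => ?_) j
      · simp only [Fin.cons_zero, if_true]
        rw [hw, Pi.sub_apply, Finset.sum_apply, hv1a]
        simp [he0]
      · simp only [Fin.cons_zero, Fin.cons_succ]
        rw [if_neg (Fin.succ_ne_zero j).symm, hw, Pi.sub_apply, Finset.sum_apply]
        simp [h1]
      · simp only [Fin.cons_zero, Fin.cons_succ]
        rw [he0, if_neg (Fin.succ_ne_zero i)]
      · simp only [Fin.cons_succ, h1, Fin.succ_inj]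
    · intro i a
      refine Fin.cases ?_ (fun i => ?_) i
      · simp only [Fin.cons_zero]
        rw [hw, Pi.sub_apply, Finset.sum_apply]
        have hmem : ∀ x : ℚ_[p], ‖x‖ ≤ 1 ↔ x ∈ PadicInt.subring p := fun x => Iff.rfl
        rw [hmem]
        refine sub_mem ((hmem _).1 (hv1n a)) (sum_mem fun i _ => ?_)
        rw [Pi.smul_apply, smul_eq_mul]
        exact mul_mem ((hmem _).1 (hv1n _)) ((hmem _).1 (h2 i a))
      · simp only [Fin.cons_succ]; exact h2 i a
    · intro i
      refine Fin.cases ?_ (fun i => ?_) i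
      · simp only [Fin.cons_zero]
        exact T.sub_mem hv1T (T.sum_mem fun i _ => T.smul_mem _ (heT i))
      · simp only [Fin.cons_succ]; exact heT i

theorem pivot_indep {m d : ℕ} {e : Fin d → Fin m → ℚ_[p]} {f : Fin d → Fin m}
    (h1 : ∀ i j, e i (f j) = if i = j then 1 else 0) : LinearIndependent ℚ_[p] e := by
  rw [Fintype.linearIndependent_iff]
  intro g hg j
  have := congrFun hg (f j)
  rw [Finset.sum_apply] at this
  simpa [h1] using this

theorem pivot_span {m d : ℕ} {T : Submodule ℚ_[p] (Fin m → ℚ_[p])} (hT : finrank ℚ_[p] T = d)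
    {e : Fin d → Fin m → ℚ_[p]} {f : Fin d → Fin m}
    (h1 : ∀ i j, e i (f j) = if i = j then 1 else 0) (h3 : ∀ i, e i ∈ T)
    {y : Fin m → ℚ_[p]} (hy : y ∈ T) : y = ∑ i, y (f i) • e i := by
  have hind := pivot_indep h1
  have hspan : Submodule.span ℚ_[p] (Set.range e) = T := by
    refine Submodule.eq_of_le_of_finrank_eq (Submodule.span_le.2 ?_) ?_
    · rintro _ ⟨i, rfl⟩; exact h3 i
    · rw [finrank_span_eq_card hind, hT, Fintype.card_fin]
  rw [← hspan] at hy
  obtain ⟨c, hc⟩ := (Submodule.mem_span_range_iff_exists_fun ℚ_[p]).1 hy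
  have hcf : ∀ j, y (f j) = c j := by
    intro j
    rw [← hc, Finset.sum_apply]
    simp [h1]
  simp only [hcf]
  exact hc.symm

end pivot

section limits

variable {p : ℕ} [Fact p.Prime] {V : Type*} [AddCommGroup V] [Module ℚ_[p] V]
  {U : Ultrafilter ℕ}

variable (U) in
/-- the limit of a sequence of subspaces along `U` -/
def LimQ (T : ℕ → Submodule ℚ_[p] V) : Submodule ℚ_[p] V where
  carrier := {a | ∃ f : ℕ → V, (∀ᶠ n in (U : Filter ℕ), f n ∈ T n) ∧ Lm p U f a}
  add_mem' := by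
    rintro a c ⟨f, h1, h2⟩ ⟨g, h3, h4⟩
    refine ⟨_, ?_, h2.add h4⟩
    filter_upwards [h1, h3] with n h5 h6
    exact add_mem h5 h6
  zero_mem' := ⟨fun _ => 0, Eventually.of_forall fun n => zero_mem _, Lm.const 0⟩
  smul_mem' := by
    rintro x a ⟨f, h1, h2⟩
    refine ⟨_, ?_, Lm.smul (tendsto_const_nhds (x := x)) h2⟩
    filter_upwards [h1] with n h5
    exact Submodule.smul_mem _ _ h5

theorem mem_LimQ {T : ℕ → Submodule ℚ_[p] V} {a : V} :
    a ∈ LimQ U T ↔ ∃ f : ℕ → V, (∀ᶠ n in (U : Filter ℕ), f n ∈ T n) ∧ Lm p U f a := Iff.rfl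

/-- limits of subspaces of dimension `d` in a finite dimensional space have dimension `d` -/
theorem finrank_LimQ {W : Submodule ℚ_[p] V} [FiniteDimensional ℚ_[p] W]
    {T : ℕ → Submodule ℚ_[p] V} {d : ℕ} (hT : ∀ᶠ n in (U : Filter ℕ), T n ≤ W)
    (hd : ∀ᶠ n in (U : Filter ℕ), finrank ℚ_[p] (T n) = d) :
    finrank ℚ_[p] (LimQ U T) = d ∧ LimQ U T ≤ W := by
  obtain ⟨m, b, hb, hbW, hb2⟩ := exists_fin_basis W
  let L : (Fin m → ℚ_[p]) →ₗ[ℚ_[p]] V := Fintype.linearCombination ℚ_[p] b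
  have hL : ∀ x, L x = ∑ i, x i • b i := fun x => Fintype.linearCombination_apply _ _ _
  have hLinj : Function.Injective L := by
    rw [← LinearMap.ker_eq_bot, LinearMap.ker_eq_bot']
    intro x hx
    rw [hL] at hx
    funext i
    exact Fintype.linearIndependent_iff.1 hb x hx i
  have hLW : ∀ S : Submodule ℚ_[p] V, S ≤ W → (S.comap L).map L = S := by
    intro S hS
    refine le_antisymm (Submodule.map_comap_le _ _) ?_
    intro a ha
    obtain ⟨y, hy⟩ := hb2 a (hS ha)
    refine ⟨y, ?_, ?_⟩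
    · show L y ∈ S
      rw [hL, ← hy]; exact ha
    · rw [hL, ← hy]
  have hfr : ∀ S : Submodule ℚ_[p] V, S ≤ W → finrank ℚ_[p] (S.comap L) = finrank ℚ_[p] S := by
    intro S hS
    conv_rhs => rw [← hLW S hS]
    exact (Submodule.equivMapOfInjective L hLinj _).finrank_eq
  have hex : ∀ n, ∃ (e : Fin d → Fin m → ℚ_[p]) (f : Fin d → Fin m),
      (T n ≤ W → finrank ℚ_[p] (T n) = d →
      (∀ i j, e i (f j) = if i = j then 1 else 0) ∧ (∀ i a, ‖e i a‖ ≤ 1) ∧
        (∀ i, e i ∈ (T n).comap L)) := by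
    intro n
    by_cases h : T n ≤ W ∧ finrank ℚ_[p] (T n) = d
    · obtain ⟨e, f, h1, h2, h3⟩ := exists_pivot d ((T n).comap L) (by rw [hfr _ h.1, h.2])
      exact ⟨e, f, fun _ _ => ⟨h1, h2, h3⟩⟩
    · by_cases hm : Nonempty (Fin d → Fin m)
      · obtain ⟨f⟩ := hm
        exact ⟨fun _ _ => 0, f, fun h1 h2 => absurd ⟨h1, h2⟩ h⟩
      · exfalso
        apply hm
        obtain ⟨n', h1, h2⟩ := (hT.and hd).exists
        obtain ⟨e, f, -⟩ := exists_pivot d ((T n').comap L) (by rw [hfr _ h1, h2])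
        exact ⟨f⟩
  choose e f hef using hex
  obtain ⟨f', hf'⟩ := exists_eventually_eq (U := U) f
  obtain ⟨e', he'⟩ := exists_lim (U := U) (ι := Fin d × Fin m)
    (y := fun n x => e n x.1 x.2) (C := 1) (by
      filter_upwards [hT, hd] with n h1 h2
      intro i
      exact (hef n h1 h2).2.1 _ _)
  let E : Fin d → Fin m → ℚ_[p] := fun i a => e' (i, a)
  have hE : ∀ i j, E i (f' j) = if i = j then 1 else 0 := by
    intro i j
    refine tendsto_nhds_unique (he' (i, f' j)) ?_
    refine (tendsto_const_nhds (x := (if i = j then (1 : ℚ_[p]) else 0))).congr' ?_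
    filter_upwards [hT, hd, hf'] with n h1 h2 h3
    have := (hef n h1 h2).1 i j
    rw [h3] at this
    exact this.symm
  have hEmem : ∀ i, L (E i) ∈ LimQ U T := by
    intro i
    refine ⟨fun n => L (e n i), ?_, ?_⟩
    · filter_upwards [hT, hd] with n h1 h2
      exact (hef n h1 h2).2.2 i
    · rw [hL]
      exact Lm.of_sum (y := fun n a => e n i a) b (fun a => he' (i, a))
        (Eventually.of_forall fun n => hL _)
  have hEind : LinearIndependent ℚ_[p] (fun i => L (E i)) :=
    (pivot_indep hE).map' L (LinearMap.ker_eq_bot.2 hLinj)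
  have hS : LimQ U T = Submodule.span ℚ_[p] (Set.range fun i => L (E i)) := by
    refine le_antisymm ?_ (Submodule.span_le.2 (by rintro _ ⟨i, rfl⟩; exact hEmem i))
    rintro a ⟨g, hg1, hg2⟩
    choose! y hy using hb2
    have hg3 : ∀ᶠ n in (U : Filter ℕ), g n = ∑ i, y (g n) i • b i := by
      filter_upwards [hg1, hT] with n h1 h2
      exact hy _ (h2 h1)
    obtain ⟨y', h1, h2⟩ := hg2.coord hb hg3
    have h3 : y' = ∑ i, y' (f' i) • E i := by
      funext a
      refine tendsto_nhds_unique (h1 a) ?_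
      have h4 : Tendsto (fun n => ∑ i, y (g n) (f' i) * e n i a) U
          (𝓝 (∑ i, y' (f' i) * e' (i, a))) :=
        tendsto_finset_sum _ fun i _ => (h1 (f' i)).mul (he' (i, a))
      have h5 : (∑ i, y' (f' i) • E i) a = ∑ i, y' (f' i) * e' (i, a) := by
        rw [Finset.sum_apply]; rfl
      rw [h5]
      refine h4.congr' ?_
      filter_upwards [hT, hd, hf', hg1, hg3] with n h6 h7 h8 h9 h10
      have h11 : y (g n) ∈ (T n).comap L := by
        show L (y (g n)) ∈ T n
        rw [hL, ← h10]; exact h9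
      have h12 := pivot_span (by rw [hfr _ h6, h7]) (hef n h6 h7).1 (hef n h6 h7).2.2 h11
      have h13 := congrFun h12 a
      rw [Finset.sum_apply] at h13
      rw [h13]
      refine Finset.sum_congr rfl fun i _ => ?_
      rw [Pi.smul_apply, smul_eq_mul, h8]
    rw [h2, ← hL, h3, map_sum]
    refine Submodule.sum_mem _ fun i _ => ?_
    rw [map_smul]
    exact Submodule.smul_mem _ _ (Submodule.subset_span ⟨i, rfl⟩)
  constructor
  · rw [hS, finrank_span_eq_card hEind, Fintype.card_fin]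
  · rintro a ⟨g, hg1, hg2⟩
    exact hg2.mem W (by filter_upwards [hg1, hT] with n h1 h2 using h2 h1)

end limits

section limitsK

variable {p : ℕ} [Fact p.Prime] {k K : Type*} [Field k] [Algebra ℚ_[p] k]
  [FiniteDimensional ℚ_[p] k] [Field K] [Algebra k K] [Algebra ℚ_[p] K] [IsScalarTower ℚ_[p] k K]
  {U : Ultrafilter ℕ}

variable (p U) in
/-- the limit of a sequence of `k`-subspaces along `U` -/
def LimK (T : ℕ → Submodule k K) : Submodule k K where
  carrier := {a | ∃ f : ℕ → K, (∀ᶠ n in (U : Filter ℕ), f n ∈ T n) ∧ Lm p U f a}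
  add_mem' := by
    rintro a c ⟨f, h1, h2⟩ ⟨g, h3, h4⟩
    refine ⟨_, ?_, h2.add h4⟩
    filter_upwards [h1, h3] with n h5 h6
    exact add_mem h5 h6
  zero_mem' := ⟨fun _ => 0, Eventually.of_forall fun n => zero_mem _, Lm.const 0⟩
  smul_mem' := by
    rintro x a ⟨f, h1, h2⟩
    refine ⟨fun n => x • f n, ?_, ?_⟩
    · filter_upwards [h1] with n h5
      exact Submodule.smul_mem _ _ h5
    · simp only [Algebra.smul_def]
      exact Lm.const_mul _ h2

theorem mem_LimK {T : ℕ → Submodule k K} {a : K} :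
    a ∈ LimK p U T ↔ ∃ f : ℕ → K, (∀ᶠ n in (U : Filter ℕ), f n ∈ T n) ∧ Lm p U f a := Iff.rfl

theorem finiteDimensional_restrict (W : Submodule k K) [FiniteDimensional k W] :
    FiniteDimensional ℚ_[p] (W.restrictScalars ℚ_[p]) :=
  FiniteDimensional.trans ℚ_[p] k W

theorem finrank_LimK {W : Submodule k K} [FiniteDimensional k W]
    {T : ℕ → Submodule k K} {d : ℕ} (hT : ∀ᶠ n in (U : Filter ℕ), T n ≤ W)
    (hd : ∀ᶠ n in (U : Filter ℕ), finrank k (T n) = d) :
    finrank k (LimK p U T) = d ∧ LimK p U T ≤ W := by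
  have := finiteDimensional_restrict (p := p) W
  have h1 := finrank_LimQ (U := U) (W := W.restrictScalars ℚ_[p])
    (T := fun n => (T n).restrictScalars ℚ_[p]) (d := finrank ℚ_[p] k * d)
    (by filter_upwards [hT] with n hn using hn)
    (by
      filter_upwards [hd] with n hn
      rw [← hn]
      exact (Module.finrank_mul_finrank ℚ_[p] k (T n)).symm)
  have h2 : LimQ U (fun n => (T n).restrictScalars ℚ_[p]) =
      (LimK p U T).restrictScalars ℚ_[p] := rfl
  rw [h2] at h1
  refine ⟨?_, h1.2⟩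
  have h3 : finrank ℚ_[p] k * finrank k (LimK p U T) = finrank ℚ_[p] k * d := by
    rw [← h1.1]
    exact Module.finrank_mul_finrank ℚ_[p] k (LimK p U T)
  exact Nat.eq_of_mul_eq_mul_left (finrank_pos) h3

end limitsK

end Crest.Agent.R013.NidB_429
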