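import Crest.Agent.R013.NidA_429
import Crest.Agent.R013.NidB_429
import Crest.Agent.R013.RR12_948

/-!
# R013 / NidC (helper429): limits of effective divisors over a finite extension of `ℚ_[p]`

`Cv p U R E E'`: the subspaces `LD (2R - E n)` converge to `LD (2R - E')` along `U`.
-/

set_option autoImplicit false
set_option linter.all false

namespace Crest.Agent.R013.NidC_429

open WithZero Module Filter Topology
open Crest.Agent.R013.RR7_948 Crest.Agent.R013.RR8_948 Crest.Agent.R013.RR9_948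
open Crest.Agent.R013.RR11_948 Crest.Agent.R013.RR12_948 Crest.Agent.R013.PicD_398
open Crest.Agent.R013.NidA_429 Crest.Agent.R013.NidB_429

section general

variable {k : Type*} [Field k] {K : Type*} [Field K] [Algebra k K] [Algebra (RatFunc k) K]
  [IsScalarTower k (RatFunc k) K] [FiniteDimensional (RatFunc k) K]
  [Algebra.IsSeparable (RatFunc k) K]

/-- effective divisors of the degree of `R` -/
def Eff (R : Pl k K →₀ ℤ) : Set (Pl k K →₀ ℤ) := {E | 0 ≤ E ∧ degD E = degD R}

theorem le_of_LD_le (hc : algebraicClosure k K = ⊥) {A B : Pl k K →₀ ℤ}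
    (hA : 3 * (gen k K : ℤ) ≤ degD A) (h : LD A ≤ LD B) : A ≤ B := by
  intro P
  obtain ⟨s, hs, hs2⟩ := bpf hc hA P
  have := (mem_LD.1 (h hs)) P
  rw [hs2, exp_le_exp] at this
  exact this

theorem eq_of_le_of_degD {A B : Pl k K →₀ ℤ} (h : A ≤ B) (hd : degD A = degD B) : A = B := by
  have h1 : (0 : Pl k K →₀ ℤ) ≤ B - A := sub_nonneg.2 h
  have h2 := eq_zero_of_nonneg h1 (by rw [degD_sub, hd, sub_self])
  exact (sub_eq_zero.1 h2).symm

theorem mul_inv_mem_LD {D : Pl k K →₀ ℤ} {f h : K} (hh : h ≠ 0) (hf : f ∈ LD D) :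
    f * h⁻¹ ∈ LD (D + divf (k := k) h) := by
  rw [mem_LD] at hf ⊢
  intro P
  rw [map_mul, map_inv₀, v_eq hh P, ← exp_neg, neg_neg, Finsupp.add_apply, exp_add]
  exact mul_le_mul_left (hf P) _

theorem mul_mem_LD_sub {D : Pl k K →₀ ℤ} {f h : K} (hh : h ≠ 0) (hf : f ∈ LD D) :
    h * f ∈ LD (D - divf (k := k) h) := by
  have h1 := mul_inv_mem_LD (k := k) (inv_ne_zero hh) hf
  rw [inv_inv, divf_inv hh, ← sub_eq_add_neg, mul_comm] at h1
  exact h1

theorem divf_algebraMap {c : k} (hc : c ≠ 0) : divf (k := k) (algebraMap k K c) = 0 := by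
  have h0 : algebraMap k K c ≠ 0 := by simpa using hc
  ext P
  have h1 := v_eq (k := k) h0 P
  rw [P.const c hc, ← exp_zero, exp_inj] at h1
  simpa using h1.symm

theorem degD_two (R : Pl k K →₀ ℤ) : degD (2 • R) = 2 * degD R := by
  rw [two_nsmul, degD_add]; ring

theorem degD_three (R : Pl k K →₀ ℤ) : degD (3 • R) = 3 * degD R := by
  rw [show (3 : ℕ) = 2 + 1 from rfl, add_smul, one_smul, degD_add, degD_two]; ring

theorem infinite_k (p : ℕ) [Fact p.Prime] (k : Type*) [Field k] [Algebra ℚ_[p] k] :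
    Infinite k := by
  have : Infinite ℚ_[p] := inferInstance
  exact Infinite.of_injective _ (algebraMap ℚ_[p] k).injective

end general

section lim

variable {p : ℕ} [Fact p.Prime] {k : Type*} [Field k] [Algebra ℚ_[p] k]
  [FiniteDimensional ℚ_[p] k] {K : Type*} [Field K] [Algebra k K] [Algebra (RatFunc k) K]
  [IsScalarTower k (RatFunc k) K] [FiniteDimensional (RatFunc k) K]
  [Algebra.IsSeparable (RatFunc k) K] [Algebra ℚ_[p] K] [IsScalarTower ℚ_[p] k K]
  {U : Ultrafilter ℕ} {R : Pl k K →₀ ℤ}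

variable (p U R) in
/-- convergence of effective divisors -/
def Cv (E : ℕ → (Pl k K →₀ ℤ)) (E' : Pl k K →₀ ℤ) : Prop :=
  LimK p U (fun n => LD (2 • R - E n)) = LD (2 • R - E')

theorem LD_sub_le {A E : Pl k K →₀ ℤ} (hE : 0 ≤ E) : LD (A - E) ≤ LD A :=
  LD_mono (sub_le_self _ hE)

theorem Cv.const (E : Pl k K →₀ ℤ) : Cv p U R (fun _ => E) E := by
  refine le_antisymm ?_ ?_
  · rintro a ⟨f, h1, h2⟩
    exact h2.mem ((LD (2 • R - E)).restrictScalars ℚ_[p]) h1
  · intro a ha
    exact ⟨fun _ => a, Eventually.of_forall fun _ => ha, Lm.const a⟩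

theorem Cv.exists_seq {E : ℕ → (Pl k K →₀ ℤ)} {E' : Pl k K →₀ ℤ} (h : Cv p U R E E') {s : K}
    (hs : s ∈ LD (2 • R - E')) :
    ∃ f : ℕ → K, (∀ᶠ n in (U : Filter ℕ), f n ∈ LD (2 • R - E n)) ∧ Lm p U f s := by
  unfold Cv at h
  rw [← h] at hs
  exact hs

theorem Cv.mem {E : ℕ → (Pl k K →₀ ℤ)} {E' : Pl k K →₀ ℤ} (h : Cv p U R E E') {s : K}
    {f : ℕ → K} (hf : ∀ᶠ n in (U : Filter ℕ), f n ∈ LD (2 • R - E n)) (hl : Lm p U f s) :
    s ∈ LD (2 • R - E') := by
  unfold Cv at h
  rw [← h]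
  exact ⟨f, hf, hl⟩

theorem ell_Eff (hc : algebraicClosure k K = ⊥) (hR : 3 * (gen k K : ℤ) + 1 ≤ degD R)
    {E : Pl k K →₀ ℤ} (hE : E ∈ Eff R) :
    (finrank k (LD (2 • R - E)) : ℤ) = degD R + 1 - gen k K := by
  have hg : (0 : ℤ) ≤ gen k K := Int.natCast_nonneg _
  have h1 : degD (2 • R - E) = degD R := by rw [degD_sub, degD_two, hE.2]; ring
  have h2 := ell_eq_of_lt hc (D := 2 • R - E) (by rw [h1]; omega)
  rw [h1] at h2
  exact h2

/-- compactness: every sequence of effective divisors converges along `U` -/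
theorem exists_cv (hc : algebraicClosure k K = ⊥) (hR : 3 * (gen k K : ℤ) + 1 ≤ degD R)
    {E : ℕ → (Pl k K →₀ ℤ)} (hE : ∀ n, E n ∈ Eff R) : ∃ E' ∈ Eff R, Cv p U R E E' := by
  have hg : (0 : ℤ) ≤ gen k K := Int.natCast_nonneg _
  have := infinite_k p k
  have := RR11_948.LD_finite (2 • R)
  have := RR11_948.LD_finite (2 • R + 3 • R)
  have h1 := finrank_LimK (p := p) (U := U) (W := LD (2 • R)) (T := fun n => LD (2 • R - E n))
    (d := (degD R + 1 - gen k K).toNat)
    (Eventually.of_forall fun n => LD_sub_le (hE n).1)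
    (Eventually.of_forall fun n => by
      have := ell_Eff hc hR (hE n)
      omega)
  have h2 := finrank_LimK (p := p) (U := U) (W := LD (2 • R + 3 • R))
    (T := fun n => LD ((2 • R - E n) + 3 • R))
    (d := (4 * degD R + 1 - gen k K).toNat)
    (Eventually.of_forall fun n => LD_mono (add_le_add_left (sub_le_self _ (hE n).1) _))
    (Eventually.of_forall fun n => by
      have h3 : degD ((2 • R - E n) + 3 • R) = 4 * degD R := by
        rw [degD_add, degD_sub, degD_two, degD_three, (hE n).2]; ring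
      have h4 := ell_eq_of_lt hc (D := (2 • R - E n) + 3 • R) (by rw [h3]; omega)
      rw [h3] at h4
      show ell ((2 • R - E n) + 3 • R) = _
      omega)
  obtain ⟨E', h3, h4, h5⟩ := exists_eff hc hR (S := LimK p U (fun n => LD (2 • R - E n))) h1.2
    (by rw [h1.1]; omega) (by
      intro s₁ hs₁ s₂ hs₂
      have hle : ((LD (3 • R)).map (mulL k s₁) ⊔ (LD (3 • R)).map (mulL k s₂) : Submodule k K) ≤
          LimK p U (fun n => LD ((2 • R - E n) + 3 • R)) := by
        have key : ∀ s ∈ LimK p U (fun n => LD (2 • R - E n)),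
            (LD (3 • R)).map (mulL k s) ≤ LimK p U (fun n => LD ((2 • R - E n) + 3 • R)) := by
          rintro s ⟨f, hf, hl⟩ _ ⟨t, ht, rfl⟩
          refine ⟨fun n => f n * t, ?_, ?_⟩
          · filter_upwards [hf] with n hn
            exact mul_mem_LD hn ht
          · exact hl.mul (Lm.const t)
        exact sup_le (key s₁ hs₁) (key s₂ hs₂)
      have : FiniteDimensional k (LimK p U (fun n => LD ((2 • R - E n) + 3 • R))) :=
        Submodule.finiteDimensional_of_le h2.2
      have h6 := Submodule.finrank_mono hle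
      rw [h2.1] at h6
      omega)
  exact ⟨E', ⟨h3, h4⟩, h5⟩

/-- limits of relations `div h_n = E_n + F_n + Q_n - 3R` -/
theorem closed3 (hc : algebraicClosure k K = ⊥) (hR : 3 * (gen k K : ℤ) + 1 ≤ degD R)
    {E F Q : ℕ → (Pl k K →₀ ℤ)} {E' F' Q' : Pl k K →₀ ℤ} (hE' : E' ∈ Eff R) (hF' : F' ∈ Eff R)
    (hQ' : Q' ∈ Eff R) (hE : Cv p U R E E') (hF : Cv p U R F F') (hQ : Cv p U R Q Q')
    {h : ℕ → K} {h' : K} (hh : Lm p U h h') (hh' : h' ≠ 0)
    (hdiv : ∀ᶠ n in (U : Filter ℕ), divf (k := k) (h n) = E n + F n + Q n - 3 • R) :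
    divf (k := k) h' = E' + F' + Q' - 3 • R := by
  have hg : (0 : ℤ) ≤ gen k K := Int.natCast_nonneg _
  have hdE : degD (2 • R - E') = degD R := by rw [degD_sub, degD_two, hE'.2]; ring
  have hdF : degD (2 • R - F') = degD R := by rw [degD_sub, degD_two, hF'.2]; ring
  have hdQ : degD (2 • R - Q') = degD R := by rw [degD_sub, degD_two, hQ'.2]; ring
  have h3 := RR11_948.LD_finite (3 • R)
  have h4 := finiteDimensional_restrict (p := p) (LD (3 • R))
  have key : ∀ s ∈ LD (2 • R - E'), ∀ t ∈ LD (2 • R - F'), ∀ u ∈ LD (2 • R - Q'),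
      u * t * s ∈ LD (3 • R - divf (k := k) h') := by
    intro s hs t ht u hu
    obtain ⟨fs, hs1, hs2⟩ := hE.exists_seq hs
    obtain ⟨ft, ht1, ht2⟩ := hF.exists_seq ht
    obtain ⟨fu, hu1, hu2⟩ := hQ.exists_seq hu
    have hne := hh.ne_zero hh'
    have h5 : Lm p U (fun n => h n * (fu n * ft n * fs n * (h n)⁻¹)) (u * t * s) := by
      refine ((hu2.mul ht2).mul hs2).congr ?_
      filter_upwards [hne] with n hn
      field_simp
    obtain ⟨v', hv1, hv2⟩ := cancel hh hh' (W := (LD (3 • R)).restrictScalars ℚ_[p]) (by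
      filter_upwards [hs1, ht1, hu1, hdiv, hne] with n a1 a2 a3 a4 a5
      have h6 := mul_inv_mem_LD (k := k) a5 (mul_mem_LD (mul_mem_LD a3 a2) a1)
      rw [a4] at h6
      have h7 : 2 • R - Q n + (2 • R - F n) + (2 • R - E n) + (E n + F n + Q n - 3 • R) =
          3 • R := by
        simp only [two_nsmul, show (3 : ℕ) = 2 + 1 from rfl, add_smul, one_smul]
        abel
      rw [h7] at h6
      exact h6) h5
    have hv3 : v' ∈ LD (3 • R) := hv1.mem ((LD (3 • R)).restrictScalars ℚ_[p]) (by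
      filter_upwards [hs1, ht1, hu1, hdiv, hne] with n a1 a2 a3 a4 a5
      have h6 := mul_inv_mem_LD (k := k) a5 (mul_mem_LD (mul_mem_LD a3 a2) a1)
      rw [a4] at h6
      have h7 : 2 • R - Q n + (2 • R - F n) + (2 • R - E n) + (E n + F n + Q n - 3 • R) =
          3 • R := by
        simp only [two_nsmul, show (3 : ℕ) = 2 + 1 from rfl, add_smul, one_smul]
        abel
      rw [h7] at h6
      exact h6)
    rw [← hv2]
    exact mul_mem_LD_sub hh' hv3
  have step1 : ∀ t ∈ LD (2 • R - F'), ∀ u ∈ LD (2 • R - Q'),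
      u * t ∈ LD (3 • R - divf (k := k) h' - (2 • R - E')) := fun t ht u hu =>
    mem_LD_sub hc (by rw [hdE]; omega) fun s hs => key s hs t ht u hu
  have step2 : ∀ u ∈ LD (2 • R - Q'),
      u ∈ LD (3 • R - divf (k := k) h' - (2 • R - E') - (2 • R - F')) := fun u hu =>
    mem_LD_sub hc (by rw [hdF]; omega) fun t ht => step1 t ht u hu
  have step3 := le_of_LD_le hc (by rw [hdQ]; omega) step2
  have hle : divf (k := k) h' ≤ E' + F' + Q' - 3 • R := by
    have h8 := add_le_add_left step3 (divf (k := k) h' + Q' - 2 • R)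
    have h9 : 2 • R - Q' + (divf (k := k) h' + Q' - 2 • R) = divf (k := k) h' := by abel
    have h10 : 3 • R - divf (k := k) h' - (2 • R - E') - (2 • R - F') +
        (divf (k := k) h' + Q' - 2 • R) = E' + F' + Q' - 3 • R := by
      simp only [two_nsmul, show (3 : ℕ) = 2 + 1 from rfl, add_smul, one_smul]
      abel
    rw [h9, h10] at h8
    exact h8
  refine eq_of_le_of_degD hle ?_
  rw [degD_divf hh', degD_sub, degD_add, degD_add, degD_three, hE'.2, hF'.2, hQ'.2]
  ring

end lim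

end Crest.Agent.R013.NidC_429
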