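import Crest.Agent.R013.NidC_429

/-!
# R013 / NidD (helper429): linear equivalence and limits: closedness and lifting
-/

set_option autoImplicit false
set_option linter.all false

namespace Crest.Agent.R013.NidC_429

open WithZero Module Filter Topology
open Crest.Agent.R013.RR7_948 Crest.Agent.R013.RR8_948 Crest.Agent.R013.RR9_948
open Crest.Agent.R013.RR11_948 Crest.Agent.R013.RR12_948 Crest.Agent.R013.PicD_398
open Crest.Agent.R013.NidA_429 Crest.Agent.R013.NidB_429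

section general

variable {k : Type*} [Field k] {K : Type*} [Field K] [Algebra k K] [Algebra (RatFunc k) K]
  [IsScalarTower k (RatFunc k) K] [FiniteDimensional (RatFunc k) K]
  [Algebra.IsSeparable (RatFunc k) K]

theorem exists_ne_zero_LD (hc : algebraicClosure k K = ⊥) {D : Pl k K →₀ ℤ}
    (hD : (gen k K : ℤ) ≤ degD D) : ∃ f ∈ LD D, f ≠ 0 := by
  obtain ⟨f, hf, h⟩ := ell_pos_iff.1 (ell_pos_of hc hD)
  exact ⟨f, (mem_LD_iff hf).2 h, hf⟩

/-- the effective divisor `D + div f` -/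
theorem add_divf_nonneg {D : Pl k K →₀ ℤ} {f : K} (hf : f ∈ LD D) (hf0 : f ≠ 0) :
    0 ≤ D + divf (k := k) f := (mem_LD_iff hf0).1 hf

theorem exists_Eff (hc : algebraicClosure k K = ⊥) {R D : Pl k K →₀ ℤ}
    (hR : (gen k K : ℤ) ≤ degD R) (hD : degD D = degD R) :
    ∃ E ∈ Eff R, ∃ f : K, f ≠ 0 ∧ E = D + divf (k := k) f := by
  obtain ⟨f, hf, hf0⟩ := exists_ne_zero_LD hc (D := D) (by rw [hD]; exact hR)
  exact ⟨_, ⟨add_divf_nonneg hf hf0, by rw [degD_add, degD_divf hf0, hD, add_zero]⟩, f, hf0, rfl⟩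

end general

section lim

variable {p : ℕ} [Fact p.Prime] {k : Type*} [Field k] [Algebra ℚ_[p] k]
  [FiniteDimensional ℚ_[p] k] {K : Type*} [Field K] [Algebra k K] [Algebra (RatFunc k) K]
  [IsScalarTower k (RatFunc k) K] [FiniteDimensional (RatFunc k) K]
  [Algebra.IsSeparable (RatFunc k) K] [Algebra ℚ_[p] K] [IsScalarTower ℚ_[p] k K]
  {U : Ultrafilter ℕ} {R : Pl k K →₀ ℤ}

/-- linear equivalence relations `E + F + Q ~ 3R` are closed -/
theorem closedT (hc : algebraicClosure k K = ⊥) (hR : 3 * (gen k K : ℤ) + 1 ≤ degD R)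
    {E F Q : ℕ → (Pl k K →₀ ℤ)} {E' F' Q' : Pl k K →₀ ℤ}
    (hEn : ∀ n, E n ∈ Eff R) (hFn : ∀ n, F n ∈ Eff R) (hQn : ∀ n, Q n ∈ Eff R)
    (hE' : E' ∈ Eff R) (hF' : F' ∈ Eff R)
    (hQ' : Q' ∈ Eff R) (hE : Cv p U R E E') (hF : Cv p U R F F') (hQ : Cv p U R Q Q')
    (hdiv : ∀ᶠ n in (U : Filter ℕ), ∃ f : K, f ≠ 0 ∧
      divf (k := k) f = E n + F n + Q n - 3 • R) :
    ∃ f : K, f ≠ 0 ∧ divf (k := k) f = E' + F' + Q' - 3 • R := by
  have hex : ∀ n, ∃ f : K, (∃ f : K, f ≠ 0 ∧ divf (k := k) f = E n + F n + Q n - 3 • R) →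
      f ≠ 0 ∧ divf (k := k) f = E n + F n + Q n - 3 • R := by
    intro n
    by_cases h : ∃ f : K, f ≠ 0 ∧ divf (k := k) f = E n + F n + Q n - 3 • R
    · obtain ⟨f, hf⟩ := h
      exact ⟨f, fun _ => hf⟩
    · exact ⟨0, fun h' => absurd h' h⟩
  choose h hh using hex
  have h1 : ∀ᶠ n in (U : Filter ℕ), h n ≠ 0 ∧ divf (k := k) (h n) = E n + F n + Q n - 3 • R := by
    filter_upwards [hdiv] with n hn
    exact hh n hn
  have := RR11_948.LD_finite (3 • R)
  have := finiteDimensional_restrict (p := p) (LD (3 • R))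
  obtain ⟨c, a, hc0, ha, hl⟩ := exists_normalise (U := U) (f := h)
    (W := (LD (3 • R)).restrictScalars ℚ_[p]) (by
      filter_upwards [h1] with n hn
      show h n ∈ LD (3 • R)
      rw [mem_LD_iff hn.1, hn.2]
      have : 3 • R + (E n + F n + Q n - 3 • R) = E n + F n + Q n := by abel
      rw [this]
      exact add_nonneg (add_nonneg (hEn n).1 (hFn n).1) (hQn n).1) (by
      filter_upwards [h1] with n hn using hn.1)
  refine ⟨a, ha, closed3 hc hR hE' hF' hQ' hE hF hQ hl ha ?_⟩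
  filter_upwards [h1, hc0] with n hn hcn
  have h2 : c n • h n = algebraMap k K (algebraMap ℚ_[p] k (c n)) * h n := by
    rw [Algebra.smul_def, IsScalarTower.algebraMap_apply ℚ_[p] k K]
  have h3 : algebraMap ℚ_[p] k (c n) ≠ 0 := by simpa using hcn
  rw [h2, divf_mul (by simpa using h3) hn.1, divf_algebraMap h3, zero_add, hn.2]

/-- `Cv` from one inclusion -/
theorem Cv.of_le (hc : algebraicClosure k K = ⊥) (hR : 3 * (gen k K : ℤ) + 1 ≤ degD R)
    {E : ℕ → (Pl k K →₀ ℤ)} {E' : Pl k K →₀ ℤ} (hEn : ∀ n, E n ∈ Eff R) (hE' : E' ∈ Eff R)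
    (h : LD (2 • R - E') ≤ LimK p U (fun n => LD (2 • R - E n))) : Cv p U R E E' := by
  have := RR11_948.LD_finite (2 • R)
  have h1 := finrank_LimK (p := p) (U := U) (W := LD (2 • R)) (T := fun n => LD (2 • R - E n))
    (d := (degD R + 1 - gen k K).toNat)
    (Eventually.of_forall fun n => LD_sub_le (hEn n).1)
    (Eventually.of_forall fun n => by
      have := ell_Eff hc hR (hEn n)
      omega)
  have h2 := ell_Eff hc hR hE'
  have : FiniteDimensional k (LimK p U (fun n => LD (2 • R - E n))) :=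
    Submodule.finiteDimensional_of_le h1.2
  exact (Submodule.eq_of_le_of_finrank_eq h (by rw [h1.1]; omega)).symm

/-- lifting of linear equivalence: if `Et n → Et'` and `E' ~ Et'` then `E' = lim E n` with
`E n ~ Et n` -/
theorem lift (hc : algebraicClosure k K = ⊥) (hR : 3 * (gen k K : ℤ) + 1 ≤ degD R)
    {Et : ℕ → (Pl k K →₀ ℤ)} {Et' E' : Pl k K →₀ ℤ} (hEtn : ∀ n, Et n ∈ Eff R)
    (hEt' : Et' ∈ Eff R) (hE' : E' ∈ Eff R) (hcv : Cv p U R Et Et') {φ : K} (hφ : φ ≠ 0)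
    (hE'φ : E' = Et' + divf (k := k) φ) :
    ∃ E : ℕ → (Pl k K →₀ ℤ), (∀ n, E n ∈ Eff R) ∧ Cv p U R E E' ∧
      ∀ᶠ n in (U : Filter ℕ), ∃ ψ : K, ψ ≠ 0 ∧ E n = Et n + divf (k := k) ψ := by
  have hg : (0 : ℤ) ≤ gen k K := Int.natCast_nonneg _
  have hdeg : ∀ {E : Pl k K →₀ ℤ}, E ∈ Eff R → degD (2 • R - E) = degD R := by
    intro E hE
    rw [degD_sub, degD_two, hE.2]; ring
  -- an auxiliary section
  obtain ⟨e', he', he'0⟩ := exists_ne_zero_LD hc (D := 2 • R - Et') (by rw [hdeg hEt']; omega)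
  obtain ⟨e, hen, hel⟩ := hcv.exists_seq he'
  have hen0 := hel.ne_zero he'0
  classical
  let Q : ℕ → (Pl k K →₀ ℤ) := fun n =>
    if e n ∈ LD (2 • R - Et n) ∧ e n ≠ 0 then 2 • R - Et n + divf (k := k) (e n) else E'
  have hQ : ∀ᶠ n in (U : Filter ℕ), Q n = 2 • R - Et n + divf (k := k) (e n) := by
    filter_upwards [hen, hen0] with n h1 h2
    exact if_pos ⟨h1, h2⟩
  have hQn : ∀ n, Q n ∈ Eff R := by
    intro n
    by_cases h : e n ∈ LD (2 • R - Et n) ∧ e n ≠ 0
    · have : Q n = 2 • R - Et n + divf (k := k) (e n) := if_pos h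
      rw [this]
      refine ⟨add_divf_nonneg h.1 h.2, ?_⟩
      rw [degD_add, degD_divf h.2, hdeg (hEtn n), add_zero]
    · have : Q n = E' := if_neg h
      rw [this]; exact hE'
  obtain ⟨Q', hQ', hQcv⟩ := exists_cv (p := p) (U := U) hc hR hQn
  -- a constant section of `R`
  obtain ⟨z, hz, hz0⟩ := exists_ne_zero_LD hc (D := R) (by omega)
  have hZ : R + divf (k := k) z ∈ Eff R :=
    ⟨add_divf_nonneg hz hz0, by rw [degD_add, degD_divf hz0, add_zero]⟩
  have h3R : 3 • R = 2 • R + R := by rw [show (3 : ℕ) = 2 + 1 from rfl, add_smul, one_smul]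
  have hdive' : divf (k := k) e' = Et' + Q' - 2 • R := by
    have h1 := closed3 hc hR hEt' hQ' hZ hcv hQcv (Cv.const _) (hel.mul (Lm.const z))
      (mul_ne_zero he'0 hz0) (by
        filter_upwards [hQ, hen0] with n h1 h2
        rw [divf_mul h2 hz0, h1, h3R]
        abel)
    rw [divf_mul he'0 hz0, h3R] at h1
    have h2 : divf (k := k) e' + divf (k := k) z - divf (k := k) z =
      Et' + Q' + (R + divf (k := k) z) - (2 • R + R) - divf (k := k) z := by rw [h1]
    rw [add_sub_cancel_right] at h2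
    rw [h2]
    abel
  -- the section `φ e'`
  have hw' : φ * e' ∈ LD (2 • R - Q') := by
    rw [mem_LD_iff (mul_ne_zero hφ he'0), divf_mul hφ he'0, hdive']
    have h1 : 2 • R - Q' + (divf (k := k) φ + (Et' + Q' - 2 • R)) =
        Et' + divf (k := k) φ := by abel
    rw [h1, ← hE'φ]
    exact hE'.1
  obtain ⟨w, hwn, hwl⟩ := hQcv.exists_seq hw'
  have hwn0 := hwl.ne_zero (mul_ne_zero hφ he'0)
  let E : ℕ → (Pl k K →₀ ℤ) := fun n =>
    if w n ∈ LD (2 • R - Q n) ∧ w n ≠ 0 then 2 • R - Q n + divf (k := k) (w n) else E'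
  have hE : ∀ᶠ n in (U : Filter ℕ), E n = 2 • R - Q n + divf (k := k) (w n) := by
    filter_upwards [hwn, hwn0] with n h1 h2
    exact if_pos ⟨h1, h2⟩
  have hEn : ∀ n, E n ∈ Eff R := by
    intro n
    by_cases h : w n ∈ LD (2 • R - Q n) ∧ w n ≠ 0
    · have : E n = 2 • R - Q n + divf (k := k) (w n) := if_pos h
      rw [this]
      refine ⟨add_divf_nonneg h.1 h.2, ?_⟩
      rw [degD_add, degD_divf h.2, hdeg (hQn n), add_zero]
    · have : E n = E' := if_neg h
      rw [this]; exact hE'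
  have hEdiv : ∀ᶠ n in (U : Filter ℕ), E n = Et n + divf (k := k) (w n * (e n)⁻¹) := by
    filter_upwards [hE, hQ, hen0, hwn0] with n h1 h2 h3 h4
    rw [h1, h2, divf_mul h4 (inv_ne_zero h3), divf_inv h3]
    abel
  refine ⟨E, hEn, Cv.of_le hc hR hEn hE' ?_, ?_⟩
  · intro s' hs'
    -- `t' = s' / φ`
    have ht' : s' * φ⁻¹ ∈ LD (2 • R - Et') := by
      have h1 := mul_inv_mem_LD (k := k) hφ hs'
      have h2 : 2 • R - E' + divf (k := k) φ = 2 • R - Et' := by rw [hE'φ]; abel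
      rw [h2] at h1
      exact h1
    obtain ⟨t, htn, htl⟩ := hcv.exists_seq ht'
    have h2R := RR11_948.LD_finite (2 • R)
    have := finiteDimensional_restrict (p := p) (LD (2 • R))
    have hsn : ∀ᶠ n in (U : Filter ℕ), t n * w n * (e n)⁻¹ ∈ LD (2 • R - E n) := by
      filter_upwards [hEdiv, hen0, hwn0, htn] with n h1 h2 h3 h4
      have h5 := mul_inv_mem_LD (k := k) (h := (w n * (e n)⁻¹)⁻¹)
        (inv_ne_zero (mul_ne_zero h3 (inv_ne_zero h2))) h4
      rw [inv_inv, divf_inv (mul_ne_zero h3 (inv_ne_zero h2)), ← mul_assoc] at h5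
      have h6 : 2 • R - Et n + -divf (k := k) (w n * (e n)⁻¹) = 2 • R - E n := by
        rw [h1]; abel
      rw [h6] at h5
      exact h5
    have hlim : Lm p U (fun n => e n * (t n * w n * (e n)⁻¹)) (s' * φ⁻¹ * (φ * e')) := by
      refine (htl.mul hwl).congr ?_
      filter_upwards [hen0] with n h1
      field_simp
    obtain ⟨v', hv1, hv2⟩ := cancel hel he'0 (W := (LD (2 • R)).restrictScalars ℚ_[p]) (by
      filter_upwards [hsn] with n h1
      exact LD_sub_le (hEn n).1 h1) hlim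
    have hv3 : v' = s' := by
      have h1 : s' * φ⁻¹ * (φ * e') = e' * s' := by field_simp
      rw [h1] at hv2
      exact mul_left_cancel₀ he'0 hv2
    rw [← hv3]
    exact ⟨_, hsn, hv1⟩
  · filter_upwards [hEdiv, hen0, hwn0] with n h1 h2 h3
    exact ⟨_, mul_ne_zero h3 (inv_ne_zero h2), h1⟩

end lim

end Crest.Agent.R013.NidC_429
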