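import Crest.Agent.R013.NidD_429

/-!
# R013 / NidE (helper429): reductions mod `p^j` of effective divisors; separation and continuity
-/

set_option autoImplicit false
set_option linter.all false

namespace Crest.Agent.R013.NidC_429

open WithZero Module Filter Topology
open Crest.Agent.R013.RR7_948 Crest.Agent.R013.RR8_948 Crest.Agent.R013.RR9_948
open Crest.Agent.R013.RR11_948 Crest.Agent.R013.RR12_948 Crest.Agent.R013.PicD_398
open Crest.Agent.R013.NidA_429 Crest.Agent.R013.NidB_429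

section padic

variable {p : ℕ} [Fact p.Prime]

theorem toZModPow_eq_iff (j : ℕ) (x y : ℤ_[p]) :
    PadicInt.toZModPow j x = PadicInt.toZModPow j y ↔ ‖x - y‖ ≤ (p : ℝ) ^ (-(j : ℤ)) := by
  rw [PadicInt.norm_le_pow_iff_mem_span_pow, ← PadicInt.ker_toZModPow, RingHom.mem_ker, map_sub,
    sub_eq_zero]

end padic

section rho

variable {p : ℕ} [Fact p.Prime] {k : Type*} [Field k] [Algebra ℚ_[p] k]
  [FiniteDimensional ℚ_[p] k] {K : Type*} [Field K] [Algebra k K] [Algebra (RatFunc k) K]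
  [IsScalarTower k (RatFunc k) K] [FiniteDimensional (RatFunc k) K]
  [Algebra.IsSeparable (RatFunc k) K] [Algebra ℚ_[p] K] [IsScalarTower ℚ_[p] k K]
  {U : Ultrafilter ℕ} {R : Pl k K →₀ ℤ}

variable (p R) in
/-- the reduction mod `p^j` of the lattice of `LD (2R - E)` -/
def rho {m : ℕ} (b : Fin m → K) (j : ℕ) (E : Pl k K →₀ ℤ) : Set (Fin m → ZMod (p ^ j)) :=
  {y | ∃ x : Fin m → ℤ_[p], (∑ i, (x i : ℚ_[p]) • b i) ∈ LD (2 • R - E) ∧
    ∀ i, PadicInt.toZModPow j (x i) = y i}

/-- separation: equal reductions mod `p^n` for all `n` ⇒ equal limits -/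
theorem sep (hc : algebraicClosure k K = ⊥) (hR : 3 * (gen k K : ℤ) + 1 ≤ degD R)
    (hU : (U : Filter ℕ) ≤ atTop)
    {m : ℕ} {b : Fin m → K} (hb : LinearIndependent ℚ_[p] b)
    (hb2 : ∀ a ∈ LD (2 • R), ∃ y : Fin m → ℚ_[p], a = ∑ i, y i • b i)
    {F G : ℕ → (Pl k K →₀ ℤ)} {F' G' : Pl k K →₀ ℤ} (hFn : ∀ n, F n ∈ Eff R)
    (hF' : F' ∈ Eff R) (hG' : G' ∈ Eff R) (hF : Cv p U R F F') (hG : Cv p U R G G')
    (hrho : ∀ n, rho p R b n (F n) = rho p R b n (G n)) : F' = G' := by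
  have hg : (0 : ℤ) ≤ gen k K := Int.natCast_nonneg _
  have hdeg : ∀ {E : Pl k K →₀ ℤ}, E ∈ Eff R → degD (2 • R - E) = degD R := by
    intro E hE
    rw [degD_sub, degD_two, hE.2]; ring
  have hle : LD (2 • R - F') ≤ LD (2 • R - G') := by
    intro s hs
    obtain ⟨f, hf1, hf2⟩ := hF.exists_seq hs
    choose! y hy using hb2
    have hfy : ∀ᶠ n in (U : Filter ℕ), f n = ∑ i, y (f n) i • b i := by
      filter_upwards [hf1] with n hn
      exact hy _ (LD_sub_le (hFn n).1 hn)
    obtain ⟨y', h1, h2⟩ := hf2.coord hb hfy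
    -- scaling
    obtain ⟨N, hN⟩ : ∃ N : ℕ, ∀ i, ‖(p : ℚ_[p]) ^ N * y' i‖ < 1 := by
      have hlim : Tendsto (fun N : ℕ => ((p : ℝ)⁻¹) ^ N) atTop (𝓝 0) :=
        tendsto_pow_atTop_nhds_zero_of_lt_one (by positivity)
          (inv_lt_one_of_one_lt₀ (by exact_mod_cast (Fact.out : p.Prime).one_lt))
      have hev : ∀ i, ∀ᶠ N : ℕ in atTop, ((p : ℝ)⁻¹) ^ N * ‖y' i‖ < 1 := by
        intro i
        have h3 : Tendsto (fun N : ℕ => ((p : ℝ)⁻¹) ^ N * ‖y' i‖) atTop (𝓝 (0 * ‖y' i‖)) :=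
          hlim.mul_const _
        rw [zero_mul] at h3
        exact h3.eventually (gt_mem_nhds zero_lt_one)
      obtain ⟨N, hN⟩ := (eventually_all.2 hev).exists
      refine ⟨N, fun i => ?_⟩
      rw [norm_mul, norm_pow, Padic.norm_p]
      exact hN i
    have hp0 : (p : ℚ_[p]) ^ N ≠ 0 := pow_ne_zero _ (by
      exact_mod_cast (Fact.out : p.Prime).ne_zero)
    set c : ℚ_[p] := (p : ℚ_[p]) ^ N with hcdef
    have hlim2 : ∀ i, Tendsto (fun n => c * y (f n) i) U (𝓝 (c * y' i)) :=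
      fun i => (h1 i).const_mul c
    have hsmall : ∀ᶠ n in (U : Filter ℕ), ∀ i, ‖c * y (f n) i‖ ≤ 1 := by
      refine eventually_all.2 fun i => ?_
      have h3 := (hlim2 i).norm.eventually (gt_mem_nhds (hN i))
      filter_upwards [h3] with n hn using hn.le
    -- approximants in the other sequence
    have hex : ∀ n, ∃ x' : Fin m → ℤ_[p], (f n ∈ LD (2 • R - F n) →
        (f n = ∑ i, y (f n) i • b i) → (∀ i, ‖c * y (f n) i‖ ≤ 1) →
        (∑ i, (x' i : ℚ_[p]) • b i) ∈ LD (2 • R - G n) ∧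
          ∀ i, ‖(x' i : ℚ_[p]) - c * y (f n) i‖ ≤ (p : ℝ) ^ (-(n : ℤ))) := by
      intro n
      by_cases h : f n ∈ LD (2 • R - F n) ∧ (f n = ∑ i, y (f n) i • b i) ∧
          (∀ i, ‖c * y (f n) i‖ ≤ 1)
      · obtain ⟨h3, h4, h5⟩ := h
        let x : Fin m → ℤ_[p] := fun i => ⟨c * y (f n) i, h5 i⟩
        have hx : (fun i => PadicInt.toZModPow n (x i)) ∈ rho p R b n (F n) := by
          refine ⟨x, ?_, fun i => rfl⟩
          have h6 : ∑ i, (x i : ℚ_[p]) • b i = algebraMap k K (algebraMap ℚ_[p] k c) * f n := by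
            conv_rhs => rw [h4]
            rw [← IsScalarTower.algebraMap_apply, ← Algebra.smul_def, Finset.smul_sum]
            exact Finset.sum_congr rfl fun i _ => (smul_smul _ _ _).symm
          rw [h6, ← Algebra.smul_def]
          exact Submodule.smul_mem _ _ h3
        rw [hrho n] at hx
        obtain ⟨x', hx1, hx2⟩ := hx
        refine ⟨x', fun _ _ _ => ⟨hx1, fun i => ?_⟩⟩
        have h7 := (toZModPow_eq_iff n (x' i) (x i)).1 (hx2 i)
        exact h7
      · exact ⟨0, fun h3 h4 h5 => absurd ⟨h3, h4, h5⟩ h⟩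
    choose x' hx' using hex
    have hlim3 : ∀ i, Tendsto (fun n => ((x' n i : ℤ_[p]) : ℚ_[p])) U (𝓝 (c * y' i)) := by
      intro i
      have h3 : Tendsto (fun n => ((x' n i : ℤ_[p]) : ℚ_[p]) - c * y (f n) i) U (𝓝 0) := by
        have h4 : Tendsto (fun n : ℕ => (p : ℝ) ^ (-(n : ℤ))) U (𝓝 0) := by
          have h5 : Tendsto (fun n : ℕ => ((p : ℝ)⁻¹) ^ n) atTop (𝓝 0) :=
            tendsto_pow_atTop_nhds_zero_of_lt_one (by positivity)
              (inv_lt_one_of_one_lt₀ (by exact_mod_cast (Fact.out : p.Prime).one_lt))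
          refine (h5.mono_left hU).congr fun n => ?_
          rw [zpow_neg, zpow_natCast, inv_pow]
        refine squeeze_zero_norm' ?_ h4
        filter_upwards [hf1, hfy, hsmall] with n a1 a2 a3
        exact (hx' n a1 a2 a3).2 i
      have h5 := h3.add (hlim2 i)
      rw [zero_add] at h5
      exact h5.congr fun n => sub_add_cancel _ _
    have hmem : (∑ i, (c * y' i) • b i) ∈ LD (2 • R - G') := by
      refine hG.mem ?_ (Lm.of_sum (y := fun n i => ((x' n i : ℤ_[p]) : ℚ_[p])) b hlim3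
        (Eventually.of_forall fun n => rfl))
      filter_upwards [hf1, hfy, hsmall] with n a1 a2 a3
      exact (hx' n a1 a2 a3).1
    have h8 : ∑ i, (c * y' i) • b i = algebraMap k K (algebraMap ℚ_[p] k c) * s := by
      rw [h2, ← IsScalarTower.algebraMap_apply, ← Algebra.smul_def, Finset.smul_sum]
      exact Finset.sum_congr rfl fun i _ => (smul_smul _ _ _).symm
    have h9 : s = (algebraMap ℚ_[p] k c)⁻¹ • (∑ i, (c * y' i) • b i) := by
      rw [h8, ← Algebra.smul_def, smul_smul, inv_mul_cancel₀ (by simpa using hp0), one_smul]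
    rw [h9]
    exact Submodule.smul_mem _ _ hmem
  have h1 := le_of_LD_le hc (by rw [hdeg hF']; omega) hle
  have h2 : 2 • R - F' = 2 • R - G' :=
    eq_of_le_of_degD h1 (by rw [hdeg hF', hdeg hG'])
  exact sub_right_injective h2

/-- continuity of the reductions -/
theorem cont {m : ℕ} {b : Fin m → K} (hb : LinearIndependent ℚ_[p] b)
    (hb2 : ∀ a ∈ LD (2 • R), ∃ y : Fin m → ℚ_[p], a = ∑ i, y i • b i)
    {E : ℕ → (Pl k K →₀ ℤ)} {E' : Pl k K →₀ ℤ} (hEn : ∀ n, E n ∈ Eff R)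
    (hE : Cv p U R E E') (j : ℕ) :
    ∀ᶠ n in (U : Filter ℕ), rho p R b j (E n) = rho p R b j E' := by
  have : NeZero (p ^ j) := ⟨pow_ne_zero _ (Fact.out : p.Prime).ne_zero⟩
  have : Finite (Set (Fin m → ZMod (p ^ j))) := inferInstance
  obtain ⟨t, ht⟩ := exists_eventually_eq (U := U) (fun n => rho p R b j (E n))
  have hpj : (0 : ℝ) < (p : ℝ) ^ (-(j : ℤ)) := zpow_pos (by
    exact_mod_cast (Fact.out : p.Prime).pos) _
  have key : t = rho p R b j E' := by
    refine Set.Subset.antisymm ?_ ?_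
    · intro z hz
      have hex : ∀ n, ∃ x : Fin m → ℤ_[p], (rho p R b j (E n) = t →
          (∑ i, (x i : ℚ_[p]) • b i) ∈ LD (2 • R - E n) ∧
            ∀ i, PadicInt.toZModPow j (x i) = z i) := by
        intro n
        by_cases h : rho p R b j (E n) = t
        · rw [← h] at hz
          obtain ⟨x, hx⟩ := hz
          exact ⟨x, fun _ => hx⟩
        · exact ⟨0, fun h' => absurd h' h⟩
      choose x hx using hex
      obtain ⟨x', hx'⟩ := exists_lim (U := U) (y := fun n i => ((x n i : ℤ_[p]) : ℚ_[p]))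
        (C := 1) (Eventually.of_forall fun n i => (x n i).2)
      have hx1 : ∀ i, ‖x' i‖ ≤ 1 := fun i =>
        le_of_tendsto (hx' i).norm (Eventually.of_forall fun n => (x n i).2)
      refine ⟨fun i => ⟨x' i, hx1 i⟩, ?_, fun i => ?_⟩
      · refine hE.mem ?_ (Lm.of_sum (y := fun n i => ((x n i : ℤ_[p]) : ℚ_[p])) b hx'
          (Eventually.of_forall fun n => rfl))
        filter_upwards [ht] with n hn
        exact (hx n hn).1
      · have h1 : ∀ᶠ n in (U : Filter ℕ), ‖((x n i : ℤ_[p]) : ℚ_[p]) - x' i‖ ≤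
            (p : ℝ) ^ (-(j : ℤ)) := by
          have h2 : Tendsto (fun n => ‖((x n i : ℤ_[p]) : ℚ_[p]) - x' i‖) U (𝓝 0) := by
            have h3 := ((hx' i).sub_const (x' i)).norm
            rw [sub_self, norm_zero] at h3
            exact h3
          filter_upwards [h2.eventually (gt_mem_nhds hpj)] with n hn using hn.le
        obtain ⟨n, hn1, hn2⟩ := (h1.and ht).exists
        rw [← (hx n hn2).2 i]
        exact ((toZModPow_eq_iff j (x n i) ⟨x' i, hx1 i⟩).2 hn1).symm
    · rintro z ⟨x, hx1, hx2⟩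
      obtain ⟨f, hf1, hf2⟩ := hE.exists_seq hx1
      choose! y hy using hb2
      have hfy : ∀ᶠ n in (U : Filter ℕ), f n = ∑ i, y (f n) i • b i := by
        filter_upwards [hf1] with n hn
        exact hy _ (LD_sub_le (hEn n).1 hn)
      obtain ⟨y', h1, h2⟩ := hf2.coord hb hfy
      have hyx : y' = fun i => (x i : ℚ_[p]) := by
        have h3 : ∑ i, (y' i - (x i : ℚ_[p])) • b i = 0 := by
          simp only [sub_smul, Finset.sum_sub_distrib]
          rw [← h2, sub_self]
        funext i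
        exact sub_eq_zero.1 (Fintype.linearIndependent_iff.1 hb _ h3 i)
      have h4 : ∀ᶠ n in (U : Filter ℕ), ∀ i, ‖y (f n) i - (x i : ℚ_[p])‖ ≤
          (p : ℝ) ^ (-(j : ℤ)) := by
        refine eventually_all.2 fun i => ?_
        have h5 := ((h1 i).sub_const ((x i : ℤ_[p]) : ℚ_[p])).norm
        rw [hyx, sub_self, norm_zero] at h5
        filter_upwards [h5.eventually (gt_mem_nhds hpj)] with n hn using hn.le
      obtain ⟨n, ⟨hn1, hn2⟩, hn3, hn4⟩ := ((h4.and hfy).and (hf1.and ht)).exists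
      rw [← hn4]
      have hle1 : (p : ℝ) ^ (-(j : ℤ)) ≤ 1 := by
        rw [zpow_neg, zpow_natCast]
        exact inv_le_one_of_one_le₀ (one_le_pow₀ (by
          exact_mod_cast (Fact.out : p.Prime).one_lt.le))
      have hy1 : ∀ i, ‖y (f n) i‖ ≤ 1 := by
        intro i
        have h6 : y (f n) i = (y (f n) i - (x i : ℚ_[p])) + (x i : ℚ_[p]) := by ring
        rw [h6]
        exact (Padic.nonarchimedean _ _).trans (max_le ((hn1 i).trans hle1) (x i).2)
      refine ⟨fun i => ⟨y (f n) i, hy1 i⟩, ?_, fun i => ?_⟩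
      · show (∑ i, y (f n) i • b i) ∈ _
        rw [← hn2]; exact hn3
      · rw [← hx2 i]
        exact (toZModPow_eq_iff j ⟨y (f n) i, hy1 i⟩ (x i)).2 (hn1 i)
  rw [← key]
  exact ht

end rho

end Crest.Agent.R013.NidC_429
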