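import Mathlib

/-!
# The non-bridge criterion, in the language of idempotents (row 13, part B)

`B` = `K^ ⊗ E` (`E` = the field of a circle), `B1`, `B2` the two patch subrings (outside, inside),
`eP` = the idempotent of the disc at the place `P`, `Am`, `Ap` = elements whose `eP`-part extends to
the inner resp. outer half of a long annulus, `e0` = the idempotent of an `A`-component.
`G` = `Gal(K^/K)`.  If `K^` is not connected over the disc (`hout`) and not connected over the
outside (`hin`), then `e0` is not a bridge: idempotents `ε ∈ B1`, `δ ∈ B2`, fixed by the stabiliser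
of `e0`, which agree away from `e0` are equal.
-/

set_option autoImplicit false
set_option linter.unusedSectionVars false

namespace Crest.Agent.R013.NonCut_92

variable {E B G : Type*} [Field E] [CharZero E] [CommRing B] [Algebra E B] [FiniteDimensional E B]

/-- rank of an idempotent -/
noncomputable def rk (E : Type*) {B : Type*} [Field E] [CommRing B] [Algebra E B] (e : B) : ℕ :=
  Module.finrank E (LinearMap.range (Algebra.lmul E B e : B →ₗ[E] B))

omit [CharZero E] in
theorem trace_idem {e : B} (he : e * e = e) : Algebra.trace E B e = (rk E e : E) := by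
  have hp : LinearMap.IsProj (LinearMap.range (Algebra.lmul E B e : B →ₗ[E] B))
      (Algebra.lmul E B e : B →ₗ[E] B) := by
    refine ⟨fun x => ⟨x, rfl⟩, ?_⟩
    rintro _ ⟨x, rfl⟩
    simp [← mul_assoc, he]
  rw [Algebra.trace_apply]
  exact hp.trace

omit [CharZero E] in
theorem rk_eq_zero {e : B} (h : rk E e = 0) : e = 0 := by
  unfold rk at h
  have h1 := Submodule.finrank_eq_zero.1 h
  have h2 : (Algebra.lmul E B e : B →ₗ[E] B) 1 ∈
      LinearMap.range (Algebra.lmul E B e : B →ₗ[E] B) := ⟨1, rfl⟩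
  rw [h1] at h2
  simpa using h2

theorem rk_add {e f : B} (he : e * e = e) (hf : f * f = f) (hef : e * f = 0) :
    rk E (e + f) = rk E e + rk E f := by
  have h : (e + f) * (e + f) = e + f := by
    linear_combination he + hf + 2 * hef
  have := trace_idem (E := E) h
  rw [map_add, trace_idem he, trace_idem hf] at this
  exact_mod_cast this.symm

theorem rk_map (g : B ≃ₐ[E] B) {e : B} (he : e * e = e) : rk E (g e) = rk E e := by
  have h : g e * g e = g e := by rw [← map_mul, he]
  have h1 := trace_idem (E := E) h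
  rw [Algebra.trace_eq_of_algEquiv g, trace_idem he] at h1
  exact_mod_cast h1.symm

/-- minimal idempotents with a property stable under products -/
theorem exists_min (P : B → Prop) (hP : ∃ x, x * x = x ∧ P x)
    (hmul : ∀ x y, P x → P y → P (x * y)) (E : Type*) [Field E] [CharZero E] [Algebra E B]
    [FiniteDimensional E B] :
    ∃ x, x * x = x ∧ P x ∧ ∀ y, y * y = y → P y → x * y = x := by
  classical
  have hex : ∃ n, ∃ x : B, x * x = x ∧ P x ∧ rk E x = n := by
    obtain ⟨x, h1, h2⟩ := hP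
    exact ⟨_, x, h1, h2, rfl⟩
  obtain ⟨x, h1, h2, h3⟩ := Nat.find_spec hex
  refine ⟨x, h1, h2, fun y hy hPy => ?_⟩
  have h4 : (x * y) * (x * y) = x * y := by linear_combination (y * y) * h1 + x * hy
  have h5 : Nat.find hex ≤ rk E (x * y) :=
    Nat.find_le ⟨x * y, h4, hmul x y h2 hPy, rfl⟩
  have h6 : (x * (1 - y)) * (x * (1 - y)) = x * (1 - y) := by
    linear_combination (1 - y) ^ 2 * h1 + x * hy
  have h7 : rk E (x * y + x * (1 - y)) = rk E (x * y) + rk E (x * (1 - y)) :=
    rk_add h4 h6 (by linear_combination (-x * x) * hy)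
  have h8 : x * y + x * (1 - y) = x := by ring
  rw [h8, h3] at h7
  have h9 : x * (1 - y) = 0 := rk_eq_zero (E := E) (by omega)
  linear_combination -h9

section

variable [Group G] [Finite G] (ρ : G →* (B ≃ₐ[E] B))
  (B1 B2 Am Ap : Subring B) (eP e0 : B)

/-- The hypotheses. -/
structure Data : Prop where
  inter : ∀ x ∈ B1, x ∈ B2 → x * x = x → x = 0 ∨ x = 1
  fixed : ∀ x : B, x * x = x → eP * x = x → (∀ g, ρ g x = x) → x = 0 ∨ x = eP
  g1 : ∀ g, ∀ x ∈ B1, ρ g x ∈ B1
  g2 : ∀ g, ∀ x ∈ B2, ρ g x ∈ B2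
  gm : ∀ g, ∀ x ∈ Am, ρ g x ∈ Am
  gp : ∀ g, ∀ x ∈ Ap, ρ g x ∈ Ap
  geP : ∀ g, ρ g eP = eP
  B1p : B1 ≤ Ap
  B2m : B2 ≤ Am
  eP_idem : eP * eP = eP
  eP2 : eP ∈ B2
  ePp : eP ∈ Ap
  e0_idem : e0 * e0 = e0
  e0P : eP * e0 = e0
  e0m : e0 ∈ Am
  e0p : e0 ∈ Ap
  e0_ne : e0 ≠ 0
  atom : ∀ x ∈ Am, x ∈ Ap → x * x = x → x * e0 = 0 ∨ x * e0 = e0

variable {ρ B1 B2 Am Ap eP e0} (D : Data ρ B1 B2 Am Ap eP e0)

include D

namespace Data

omit [CharZero E] [FiniteDimensional E B] [Finite G] in
theorem idem (g : G) : ρ g e0 * ρ g e0 = ρ g e0 := by rw [← map_mul, D.e0_idem]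

omit [CharZero E] [FiniteDimensional E B] [Finite G] in
theorem atom' (g : G) (x : B) (h1 : x ∈ Am) (h2 : x ∈ Ap) (hx : x * x = x) :
    x * ρ g e0 = 0 ∨ x * ρ g e0 = ρ g e0 := by
  have key : ∀ y : B, ρ g (ρ g⁻¹ y) = y := by
    intro y
    rw [← AlgEquiv.mul_apply, ← map_mul, mul_inv_cancel, map_one]; rfl
  have hy : ρ g⁻¹ x * ρ g⁻¹ x = ρ g⁻¹ x := by rw [← map_mul, hx]
  rcases D.atom _ (D.gm g⁻¹ x h1) (D.gp g⁻¹ x h2) hy with h | h
  · left
    have := congrArg (ρ g) h
    rwa [map_mul, key, map_zero] at this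
  · right
    have := congrArg (ρ g) h
    rwa [map_mul, key] at this

omit [CharZero E] [FiniteDimensional E B] [Finite G] in
/-- `eP ∏ (1 - g e0) = 0` -/
theorem prod_zero [Fintype G] : eP * ∏ g : G, (1 - ρ g e0) = 0 := by
  classical
  have hid : (∏ g : G, (1 - ρ g e0)) * (∏ g : G, (1 - ρ g e0)) = ∏ g : G, (1 - ρ g e0) := by
    rw [← Finset.prod_mul_distrib]
    refine Finset.prod_congr rfl fun g _ => ?_
    linear_combination D.idem g
  have hinv : ∀ h, ρ h (∏ g : G, (1 - ρ g e0)) = ∏ g : G, (1 - ρ g e0) := by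
    intro h
    rw [map_prod]
    refine Fintype.prod_equiv (Equiv.mulLeft h) _ _ fun g => ?_
    rw [map_sub, map_one, Equiv.coe_mulLeft, map_mul, AlgEquiv.mul_apply]
  have h0 : (∏ g : G, (1 - ρ g e0)) * e0 = 0 := by
    rw [← Finset.mul_prod_erase Finset.univ _ (Finset.mem_univ (1 : G)), map_one,
      AlgEquiv.one_apply]
    linear_combination -(∏ g ∈ Finset.univ.erase (1 : G), (1 - ρ g e0)) * D.e0_idem
  rcases D.fixed (eP * ∏ g : G, (1 - ρ g e0))
    (by linear_combination (∏ g : G, (1 - ρ g e0)) ^ 2 * D.eP_idem + eP * hid)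
    (by linear_combination (∏ g : G, (1 - ρ g e0)) * D.eP_idem)
    (fun g => by rw [map_mul, D.geP, hinv]) with h | h
  · exact h
  · exfalso
    apply D.e0_ne
    have : eP * (∏ g : G, (1 - ρ g e0)) * e0 = eP * e0 := by rw [h]
    rw [D.e0P, mul_assoc, h0, mul_zero] at this
    exact this.symm

omit [CharZero E] [FiniteDimensional E B] in
/-- an element below `eP` killed by all `g e0` is zero -/
theorem eq_zero (s : B) (hs : eP * s = s) (h : ∀ g, ρ g e0 * s = 0) : s = 0 := by
  classical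
  have := Fintype.ofFinite G
  have h1 : (∏ g : G, (1 - ρ g e0)) * s = s := by
    have : ∀ t : Finset G, (∏ g ∈ t, (1 - ρ g e0)) * s = s := by
      intro t
      induction t using Finset.induction_on with
      | empty => simp
      | insert a t ha ih =>
        rw [Finset.prod_insert ha, mul_assoc, ih]
        linear_combination -(h a)
    exact this _
  have h2 := D.prod_zero
  calc s = eP * ((∏ g : G, (1 - ρ g e0)) * s) := by rw [h1, hs]
    _ = (eP * ∏ g : G, (1 - ρ g e0)) * s := by ring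
    _ = 0 := by rw [h2, zero_mul]

omit [CharZero E] [FiniteDimensional E B] in
/-- Idempotents which are constant on the components are determined by them. -/
theorem eq_of_T (z : B) (hz : z * z = z) (hzm : z ∈ Am) (hzp : z ∈ Ap) [Fintype G]
    [DecidablePred fun g : G => z * ρ g e0 = ρ g e0] :
    eP * z = eP * (1 - ∏ g ∈ Finset.univ.filter (fun g : G => z * ρ g e0 = ρ g e0),
      (1 - ρ g e0)) := by
  classical
  set T := Finset.univ.filter (fun g : G => z * ρ g e0 = ρ g e0) with hT
  have h1 : (1 - z) * ∏ g ∈ T, (1 - ρ g e0) = 1 - z := by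
    have : ∀ t ⊆ T, (1 - z) * ∏ g ∈ t, (1 - ρ g e0) = 1 - z := by
      intro t
      induction t using Finset.induction_on with
      | empty => simp
      | insert a t ha ih =>
        intro hsub
        rw [Finset.prod_insert ha]
        have haT : z * ρ a e0 = ρ a e0 := (Finset.mem_filter.1 (hsub (Finset.mem_insert_self a t))).2
        have ih' := ih (fun x hx => hsub (Finset.mem_insert_of_mem hx))
        linear_combination (1 - ρ a e0) * ih' + haT
    exact this T subset_rfl
  have h2 : eP * z * ∏ g ∈ T, (1 - ρ g e0) = 0 := by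
    refine D.eq_zero _ (by linear_combination (z * ∏ g ∈ T, (1 - ρ g e0)) * D.eP_idem) ?_
    intro g
    by_cases hg : z * ρ g e0 = ρ g e0
    · have hgT : g ∈ T := Finset.mem_filter.2 ⟨Finset.mem_univ _, hg⟩
      rw [← Finset.mul_prod_erase T _ hgT]
      linear_combination (-eP * z * ∏ x ∈ T.erase g, (1 - ρ x e0)) * D.idem g
    · have : z * ρ g e0 = 0 := (D.atom' g z hzm hzp hz).resolve_right hg
      linear_combination (eP * ∏ g ∈ T, (1 - ρ g e0)) * this
  linear_combination eP * h1 + h2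

omit [CharZero E] [FiniteDimensional E B] in
/-- An idempotent fixed by the stabiliser of `e0` is constant on `e0`. -/
theorem const (x : B) (hx : x * x = x) (hfix : ∀ g, ρ g e0 = e0 → ρ g x = x) :
    e0 * x = 0 ∨ e0 * x = e0 := by
  classical
  have := Fintype.ofFinite G
  have hex : (e0 * x) * (e0 * x) = e0 * x := by
    linear_combination (x * x) * D.e0_idem + e0 * hx
  have hidg : ∀ g, ρ g (e0 * x) * ρ g (e0 * x) = ρ g (e0 * x) := fun g => by
    rw [← map_mul, hex]
  set y := ∏ g : G, (1 - ρ g (e0 * x)) with hy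
  have hyy : y * y = y := by
    rw [hy, ← Finset.prod_mul_distrib]
    refine Finset.prod_congr rfl fun g _ => ?_
    linear_combination hidg g
  have hyinv : ∀ h, ρ h y = y := by
    intro h
    rw [hy, map_prod]
    refine Fintype.prod_equiv (Equiv.mulLeft h) _ _ fun g => ?_
    rw [map_sub, map_one, Equiv.coe_mulLeft, map_mul ρ, AlgEquiv.mul_apply]
  have hPg : ∀ g, eP * ρ g (e0 * x) = ρ g (e0 * x) := by
    intro g
    conv_lhs => rw [← D.geP g, ← map_mul]
    congr 1
    linear_combination x * D.e0P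
  have hsub : eP * (1 - y) = 1 - y := by
    have : ∀ t : Finset G, eP * (1 - ∏ g ∈ t, (1 - ρ g (e0 * x))) =
        1 - ∏ g ∈ t, (1 - ρ g (e0 * x)) := by
      intro t
      induction t using Finset.induction_on with
      | empty => simp
      | insert a t ha ih =>
        rw [Finset.prod_insert ha]
        linear_combination ih + (∏ g ∈ t, (1 - ρ g (e0 * x))) * hPg a
    exact this _
  have hcase : ∀ t : Finset G, e0 * ∏ g ∈ t, (1 - ρ g (e0 * x)) = e0 ∨
      e0 * ∏ g ∈ t, (1 - ρ g (e0 * x)) = e0 - e0 * x := by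
    intro t
    induction t using Finset.induction_on with
    | empty => left; simp
    | insert a t ha ih =>
      rw [Finset.prod_insert ha]
      by_cases hga : ρ a e0 = e0
      · have h1 : ρ a (e0 * x) = e0 * x := by rw [map_mul, hga, hfix a hga]
        right
        rw [h1]
        rcases ih with ih | ih
        · linear_combination (1 - e0 * x) * ih - x * D.e0_idem
        · linear_combination (1 - e0 * x) * ih + (-x + x * x) * D.e0_idem + e0 * hx
      · have h0 : e0 * ρ a e0 = 0 := by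
          rcases D.atom' a e0 D.e0m D.e0p D.e0_idem with h | h
          · exact h
          · exfalso
            apply hga
            -- `e0 * a e0 = a e0`; by the atom property applied to `a e0`, also `a e0 * e0 = e0`
            rcases D.atom (ρ a e0) (D.gm a _ D.e0m) (D.gp a _ D.e0p) (D.idem a) with h' | h'
            · have : ρ a e0 = 0 := by rw [← h, mul_comm]; exact h'
              exfalso
              apply D.e0_ne
              have h3 := congrArg (ρ a).symm this
              rwa [AlgEquiv.symm_apply_apply, map_zero] at h3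
            · rw [mul_comm] at h'
              rw [← h, h']
        have h1 : e0 * ρ a (e0 * x) = 0 := by
          rw [map_mul]; linear_combination ρ a x * h0
        rcases ih with ih | ih
        · left; linear_combination ih - (∏ g ∈ t, (1 - ρ g (e0 * x))) * h1
        · right; linear_combination ih - (∏ g ∈ t, (1 - ρ g (e0 * x))) * h1
  rcases D.fixed (1 - y) (by linear_combination hyy) hsub
    (fun g => by rw [map_sub, map_one, hyinv]) with h | h
  · left
    have h1 : (e0 * x) * y = 0 := by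
      rw [hy, ← Finset.mul_prod_erase Finset.univ _ (Finset.mem_univ (1 : G)), map_one,
        AlgEquiv.one_apply]
      linear_combination (-∏ g ∈ Finset.univ.erase (1 : G), (1 - ρ g (e0 * x))) * hex
    linear_combination h1 + (e0 * x) * h
  · rcases hcase Finset.univ with h1 | h1
    · exfalso
      apply D.e0_ne
      have h2 : e0 * y = e0 := h1
      have h3 := D.e0P
      linear_combination -e0 * h - h3 - h2
    · right
      have h2 : e0 * y = e0 - e0 * x := h1
      have h3 := D.e0P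
      linear_combination e0 * h + h3 + h2

/-- minimal idempotent of the cover over the disc, above `e0` -/
theorem exists_beta : ∃ b, b * b = b ∧ (b ∈ B2 ∧ b ∈ Ap ∧ b * e0 = e0) ∧
    ∀ y, y * y = y → (y ∈ B2 ∧ y ∈ Ap ∧ y * e0 = e0) → b * y = b :=
  exists_min (E := E) (fun x => x ∈ B2 ∧ x ∈ Ap ∧ x * e0 = e0)
    ⟨eP, D.eP_idem, D.eP2, D.ePp, D.e0P⟩
    (fun x y hx hy => ⟨mul_mem hx.1 hy.1, mul_mem hx.2.1 hy.2.1, by
      rw [mul_assoc, hy.2.2, hx.2.2]⟩)

/-- minimal idempotent of the cover over the outside, above `e0` -/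
theorem exists_gamma : ∃ c, c * c = c ∧ (c ∈ B1 ∧ c ∈ Am ∧ (1 - eP) * c ∈ B2 ∧ c * e0 = e0) ∧
    ∀ y, y * y = y → (y ∈ B1 ∧ y ∈ Am ∧ (1 - eP) * y ∈ B2 ∧ y * e0 = e0) → c * y = c :=
  exists_min (E := E) (fun x => x ∈ B1 ∧ x ∈ Am ∧ (1 - eP) * x ∈ B2 ∧ x * e0 = e0)
    ⟨1, one_mul 1, one_mem _, one_mem _, by
      rw [mul_one]; exact sub_mem (one_mem _) D.eP2, one_mul _⟩
    (fun x y hx hy => ⟨mul_mem hx.1 hy.1, mul_mem hx.2.1 hy.2.1, by
      have : (1 - eP) * (x * y) = ((1 - eP) * x) * ((1 - eP) * y) := by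
        linear_combination (-x * y) * D.eP_idem
      rw [this]; exact mul_mem hx.2.2.1 hy.2.2.1, by rw [mul_assoc, hy.2.2.2, hx.2.2.2]⟩)

omit [CharZero E] [FiniteDimensional E B] in
/-- If the cover is disconnected over the outside, then `e0` does not extend to the disc. -/
theorem not_mem_of_in (hin : ∃ z, z * z = z ∧ z ∈ B1 ∧ z ∈ Am ∧ (1 - eP) * z ∈ B2 ∧ z ≠ 0 ∧ z ≠ 1) :
    e0 ∉ B2 := by
  classical
  have := Fintype.ofFinite G
  intro he2
  obtain ⟨z, hz, hz1, hzm, hzP, hz0, hz1'⟩ := hin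
  have h1 := D.eq_of_T z hz hzm (D.B1p hz1)
  have h2 : eP * z ∈ B2 := by
    rw [h1]
    refine mul_mem D.eP2 (sub_mem (one_mem _) (prod_mem fun g _ => ?_))
    exact sub_mem (one_mem _) (D.g2 g _ he2)
  have h3 : z ∈ B2 := by
    have : z = eP * z + (1 - eP) * z := by ring
    rw [this]; exact add_mem h2 hzP
  rcases D.inter z hz1 h3 hz with h | h
  · exact hz0 h
  · exact hz1' h

/-- Key counting step on the disc side. -/
theorem exists_in (hin : e0 ∉ B2)
    (δ : B) (hδ : δ * δ = δ) (hδ2 : δ ∈ B2) (hδp : δ ∈ Ap) (hδ0 : δ * e0 = e0) :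
    ∃ g : G, ρ g e0 * e0 = 0 ∧ ρ g e0 * δ = ρ g e0 ∧ e0 * ρ g δ = e0 := by
  classical
  have := Fintype.ofFinite G
  obtain ⟨b, hb, ⟨hb2, hbp, hb0⟩, hbmin⟩ := D.exists_beta
  have hbP : b * eP = b := hbmin eP D.eP_idem ⟨D.eP2, D.ePp, D.e0P⟩
  have hbδ : b * δ = b := hbmin δ hδ ⟨hδ2, hδp, hδ0⟩
  by_cases hcase : ∃ g : G, ρ g e0 ≠ e0 ∧ b * ρ g e0 = ρ g e0
  · obtain ⟨g, hg, hbg⟩ := hcase
    have h0 : ρ g e0 * e0 = 0 := by
      rcases D.atom (ρ g e0) (D.gm g _ D.e0m) (D.gp g _ D.e0p) (D.idem g) with h | h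
      · exact h
      · exfalso
        rcases D.atom' g e0 D.e0m D.e0p D.e0_idem with h' | h'
        · apply D.e0_ne; rw [← h, mul_comm, h']
        · exact hg (by rw [← h', mul_comm, h])
    refine ⟨g, h0, by rw [← hbg]; linear_combination (ρ g e0) * hbδ, ?_⟩
    -- `g b` is above `e0`
    have hgb : ρ g b * ρ g b = ρ g b := by rw [← map_mul, hb]
    have hgb0 : ρ g b * ρ g e0 = ρ g e0 := by rw [← map_mul, hb0]
    have h1 : ρ g b * e0 = e0 := by
      rcases D.atom (ρ g b) (D.B2m (D.g2 g _ hb2)) (D.gp g _ hbp) hgb with h | h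
      · exfalso
        have h2 := hbmin (1 - ρ g b) (by linear_combination hgb)
          ⟨sub_mem (one_mem _) (D.g2 g _ hb2), sub_mem (one_mem _) (D.gp g _ hbp), by
            linear_combination -h⟩
        have h3 : ρ g e0 = 0 := by
          linear_combination -hgb0 - (ρ g b) * hbg - (ρ g e0) * h2
        exact D.e0_ne ((map_eq_zero_iff (ρ g) (ρ g).injective).1 h3)
      · exact h
    have h2 : ρ g b * ρ g δ = ρ g b := by rw [← map_mul, hbδ]
    rw [← h1]
    linear_combination e0 * h2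
  · exfalso
    push Not at hcase
    -- then `b = e0`
    have hbe : b = e0 := by
      have h1 : b * (1 - e0) = 0 := by
        refine D.eq_zero _ (by linear_combination (1 - e0) * hbP) fun g => ?_
        by_cases hg : ρ g e0 = e0
        · rw [hg]; linear_combination (-b) * D.e0_idem
        · rcases D.atom' g b (D.B2m hb2) hbp hb with h | h
          · linear_combination (1 - e0) * h
          · exact absurd h (hcase g hg)
      linear_combination h1 + hb0
    exact hin (hbe ▸ hb2)

/-- Key counting step on the outer side. -/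
theorem exists_out (hout : ∃ z, z * z = z ∧ z ∈ B2 ∧ z ∈ Ap ∧ eP * z = z ∧ z ≠ 0 ∧ z ≠ eP)
    (ε : B) (hε : ε * ε = ε) (hε1 : ε ∈ B1) (hεm : ε ∈ Am) (hεP : (1 - eP) * ε ∈ B2)
    (hε0 : ε * e0 = 0) :
    ∃ g : G, ρ g e0 * e0 = 0 ∧ ρ g e0 * ε = 0 ∧ e0 * ρ g ε = 0 := by
  classical
  have := Fintype.ofFinite G
  obtain ⟨b, hb, ⟨hb1, hbm, hb2, hb0⟩, hbmin⟩ := D.exists_gamma
  have key : ∀ x, x * x = x → x ∈ B1 → x ∈ Am → (1 - eP) * x ∈ B2 → x * e0 = 0 → b * x = 0 := by
    intro x hx h1 h2 h3 h4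
    have := hbmin (1 - x) (by linear_combination hx) ⟨sub_mem (one_mem _) h1,
      sub_mem (one_mem _) h2, by
        have : (1 - eP) * (1 - x) = (1 - eP) - (1 - eP) * x := by ring
        rw [this]; exact sub_mem (sub_mem (one_mem _) D.eP2) h3, by linear_combination -h4⟩
    linear_combination -this
  have hbε : b * ε = 0 := key ε hε hε1 hεm hεP hε0
  by_cases hcase : ∃ g : G, ρ g e0 ≠ e0 ∧ b * ρ g e0 = ρ g e0
  · obtain ⟨g, hg, hbg⟩ := hcase
    have h0 : ρ g e0 * e0 = 0 := by
      rcases D.atom (ρ g e0) (D.gm g _ D.e0m) (D.gp g _ D.e0p) (D.idem g) with h | h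
      · exact h
      · exfalso
        rcases D.atom' g e0 D.e0m D.e0p D.e0_idem with h' | h'
        · apply D.e0_ne; rw [← h, mul_comm, h']
        · exact hg (by rw [← h', mul_comm, h])
    refine ⟨g, h0, by rw [← hbg]; linear_combination (ρ g e0) * hbε, ?_⟩
    have hgb : ρ g b * ρ g b = ρ g b := by rw [← map_mul, hb]
    have hgb0 : ρ g b * ρ g e0 = ρ g e0 := by rw [← map_mul, hb0]
    have h1 : ρ g b * e0 = e0 := by
      rcases D.atom (ρ g b) (D.gm g _ hbm) (D.gp g _ (D.B1p hb1)) hgb with h | h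
      · exfalso
        have h2 := key (ρ g b) hgb (D.g1 g _ hb1) (D.gm g _ hbm) (by
          have : (1 - eP) * ρ g b = ρ g ((1 - eP) * b) := by
            rw [map_mul, map_sub, map_one, D.geP]
          rw [this]; exact D.g2 g _ hb2) h
        have h3 : ρ g e0 = 0 := by
          linear_combination -hgb0 - (ρ g b) * hbg + (ρ g e0) * h2
        exact D.e0_ne ((map_eq_zero_iff (ρ g) (ρ g).injective).1 h3)
      · exact h
    have h2 : ρ g b * ρ g ε = 0 := by rw [← map_mul, hbε, map_zero]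
    rw [← h1]
    linear_combination e0 * h2
  · exfalso
    push Not at hcase
    have hbe : eP * b = e0 := by
      have h1 : eP * b * (1 - e0) = 0 := by
        refine D.eq_zero _ (by linear_combination (b * (1 - e0)) * D.eP_idem) fun g => ?_
        by_cases hg : ρ g e0 = e0
        · rw [hg]; linear_combination (-eP * b) * D.e0_idem
        · rcases D.atom' g b hbm (D.B1p hb1) hb with h | h
          · linear_combination (eP * (1 - e0)) * h
          · exact absurd h (hcase g hg)
      linear_combination h1 + eP * hb0 + D.e0P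
    obtain ⟨z, hz, hz2, hzp, hzP, hz0, hz1⟩ := hout
    have h1 := D.eq_of_T z hz (D.B2m hz2) hzp
    set T := Finset.univ.filter (fun g : G => z * ρ g e0 = ρ g e0) with hT
    -- `y = 1 - ∏_{T} (1 - g b)`
    set y := 1 - ∏ g ∈ T, (1 - ρ g b) with hy
    have hP1 : eP * ∏ g ∈ T, (1 - ρ g b) = eP * ∏ g ∈ T, (1 - ρ g e0) := by
      have : ∀ t : Finset G, eP * ∏ g ∈ t, (1 - ρ g b) = eP * ∏ g ∈ t, (1 - ρ g e0) := by
        intro t
        induction t using Finset.induction_on with
        | empty => simp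
        | insert a t ha ih =>
          rw [Finset.prod_insert ha, Finset.prod_insert ha]
          have h2 : eP * ρ a b = ρ a e0 := by
            conv_lhs => rw [← D.geP a, ← map_mul, hbe]
          have h3 : eP * ρ a e0 = ρ a e0 := by
            conv_lhs => rw [← D.geP a, ← map_mul, D.e0P]
          linear_combination (1 - ρ a b) * ih -
            (∏ g ∈ t, (1 - ρ g e0)) * h2 + (∏ g ∈ t, (1 - ρ g e0)) * h3
      exact this T
    have hyP : eP * y = z := by
      rw [hy]; linear_combination -h1 + hzP - hP1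
    have hyy : y * y = y := by
      have : (∏ g ∈ T, (1 - ρ g b)) * (∏ g ∈ T, (1 - ρ g b)) = ∏ g ∈ T, (1 - ρ g b) := by
        rw [← Finset.prod_mul_distrib]
        refine Finset.prod_congr rfl fun g _ => ?_
        have : ρ g b * ρ g b = ρ g b := by rw [← map_mul, hb]
        linear_combination this
      rw [hy]; linear_combination this
    have hy1 : y ∈ B1 := sub_mem (one_mem _) (prod_mem fun g _ =>
      sub_mem (one_mem _) (D.g1 g _ hb1))
    have hy2 : (1 - eP) * y ∈ B2 := by
      have : ∀ t : Finset G, (1 - eP) * (1 - ∏ g ∈ t, (1 - ρ g b)) ∈ B2 := by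
        intro t
        induction t using Finset.induction_on with
        | empty => simp
        | insert a t ha ih =>
          rw [Finset.prod_insert ha]
          have h2 : (1 - eP) * ρ a b ∈ B2 := by
            have : (1 - eP) * ρ a b = ρ a ((1 - eP) * b) := by
              rw [map_mul, map_sub, map_one, D.geP]
            rw [this]; exact D.g2 a _ hb2
          have h3 : (1 - eP) * (1 - (1 - ρ a b) * ∏ g ∈ t, (1 - ρ g b)) =
              (1 - eP) * (1 - ∏ g ∈ t, (1 - ρ g b)) + ((1 - eP) * ρ a b) *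
              (1 - (1 - eP) * (1 - ∏ g ∈ t, (1 - ρ g b))) := by
            linear_combination ((ρ a b) * (1 - ∏ g ∈ t, (1 - ρ g b))) * D.eP_idem
          rw [h3]
          exact add_mem ih (mul_mem h2 (sub_mem (one_mem _) ih))
      exact this T
    have hyB2 : y ∈ B2 := by
      have : y = eP * y + (1 - eP) * y := by ring
      rw [this, hyP]; exact add_mem hz2 hy2
    rcases D.inter y hy1 hyB2 hyy with h | h
    · apply hz0; rw [← hyP, h, mul_zero]
    · apply hz1; rw [← hyP, h, mul_one]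

/-- **NON-CUT**, with the direct form of the condition on the disc side. -/
theorem noncut'
    (hin : e0 ∉ B2)
    (hout : ∃ z, z * z = z ∧ z ∈ B2 ∧ z ∈ Ap ∧ eP * z = z ∧ z ≠ 0 ∧ z ≠ eP)
    (ε δ : B) (hε : ε * ε = ε) (hδ : δ * δ = δ) (hε1 : ε ∈ B1) (hδ2 : δ ∈ B2)
    (hεf : ∀ g, ρ g e0 = e0 → ρ g ε = ε) (hδf : ∀ g, ρ g e0 = e0 → ρ g δ = δ)
    (hεδ : (1 - e0) * ε = (1 - e0) * δ) : ε = δ := by
  -- the case `e0 ε = 0`, `e0 δ = e0` is impossible
  have main : ∀ ε δ : B, ε * ε = ε → δ * δ = δ → ε ∈ B1 → δ ∈ B2 →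
      (1 - e0) * ε = (1 - e0) * δ → e0 * ε = 0 → e0 * δ = e0 → False := by
    intro ε δ hε hδ hε1 hδ2 h hε0 hδ0
    have hδε : δ = ε + e0 := by linear_combination -h - hε0 + hδ0
    have hδp : δ ∈ Ap := by rw [hδε]; exact add_mem (D.B1p hε1) D.e0p
    have hεδ : ε = δ - e0 := by rw [hδε]; ring
    have hεm : ε ∈ Am := by rw [hεδ]; exact sub_mem (D.B2m hδ2) D.e0m
    have hεP : (1 - eP) * ε ∈ B2 := by
      have : (1 - eP) * ε = (1 - eP) * δ := by rw [hεδ]; linear_combination D.e0P
      rw [this]; exact mul_mem (sub_mem (one_mem _) D.eP2) hδ2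
    obtain ⟨g, g1, g2, g3⟩ := D.exists_in hin δ hδ hδ2 hδp (by linear_combination hδ0)
    obtain ⟨g', g1', g2', g3'⟩ := D.exists_out hout ε hε hε1 hεm hεP (by linear_combination hε0)
    have hgδ : ρ g δ = ρ g ε + ρ g e0 := by rw [← map_add, ← hδε]
    have hgδ' : ρ g' δ = ρ g' ε + ρ g' e0 := by rw [← map_add, ← hδε]
    have igδ : ρ g δ * ρ g δ = ρ g δ := by rw [← map_mul, hδ]
    have igδ' : ρ g' δ * ρ g' δ = ρ g' δ := by rw [← map_mul, hδ]
    -- (in): `(1 - δ)(1 - gδ) = 0`
    have hx : (1 - δ) * (1 - ρ g δ) = (1 - ε) * (1 - ρ g ε) := by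
      have e1 : ρ g ε = ρ g δ - ρ g e0 := by rw [hgδ]; ring
      rw [e1, hεδ]
      linear_combination g2 + g3 - g1
    have hx0 : (1 - δ) * (1 - ρ g δ) = 0 := by
      rcases D.inter ((1 - δ) * (1 - ρ g δ))
        (by rw [hx]; exact mul_mem (sub_mem (one_mem _) hε1) (sub_mem (one_mem _) (D.g1 g _ hε1)))
        (mul_mem (sub_mem (one_mem _) hδ2) (sub_mem (one_mem _) (D.g2 g _ hδ2)))
        (by linear_combination ((1 - ρ g δ) ^ 2) * hδ + (1 - δ) * igδ) with h' | h'
      · exact h'
      · exfalso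
        apply D.e0_ne
        linear_combination (-e0) * h' - (1 - ρ g δ) * hδ0
    -- (out): `δ g'δ = 0`
    have hy : δ * ρ g' δ = ε * ρ g' ε := by
      rw [hδε, map_add]
      linear_combination g3' + g2' + g1'
    have hy0 : δ * ρ g' δ = 0 := by
      rcases D.inter (δ * ρ g' δ)
        (by rw [hy]; exact mul_mem hε1 (D.g1 g' _ hε1))
        (mul_mem hδ2 (D.g2 g' _ hδ2))
        (by linear_combination (ρ g' δ) ^ 2 * hδ + δ * igδ') with h' | h'
      · exact h'
      · exfalso
        apply D.e0_ne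
        rw [hy] at h'
        linear_combination (-e0) * h' + (ρ g' ε) * hε0
    -- count
    have r1 : rk E (ρ g δ) = rk E δ := rk_map _ hδ
    have r1' : rk E (ρ g' δ) = rk E δ := rk_map _ hδ
    have r2 : rk E (δ + (1 - δ)) = rk E δ + rk E (1 - δ) :=
      rk_add hδ (by linear_combination hδ) (by linear_combination -hδ)
    -- (in): `gδ = (1 - δ) + (gδ δ)`
    have i1 : (ρ g δ * δ) * (ρ g δ * δ) = ρ g δ * δ := by
      linear_combination (δ ^ 2) * igδ + ρ g δ * hδ
    have r3 : rk E ((1 - δ) + ρ g δ * δ) = rk E (1 - δ) + rk E (ρ g δ * δ) :=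
      rk_add (by linear_combination hδ) i1 (by linear_combination (-ρ g δ) * hδ)
    have e3 : (1 - δ) + ρ g δ * δ = ρ g δ := by linear_combination hx0
    rw [e3, r1] at r3
    -- `gδ δ ≥ e0`
    have i2 : (ρ g δ * δ - e0) * (ρ g δ * δ - e0) = ρ g δ * δ - e0 := by
      linear_combination i1 + D.e0_idem - 2 * δ * g3 - 2 * hδ0
    have r4 : rk E (e0 + (ρ g δ * δ - e0)) = rk E e0 + rk E (ρ g δ * δ - e0) :=
      rk_add D.e0_idem i2 (by linear_combination δ * g3 + hδ0 - D.e0_idem)
    have e4 : e0 + (ρ g δ * δ - e0) = ρ g δ * δ := by ring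
    rw [e4] at r4
    -- (out)
    have i5 : (1 - δ - ρ g' δ) * (1 - δ - ρ g' δ) = 1 - δ - ρ g' δ := by
      linear_combination hδ + igδ' + 2 * hy0
    have r5 : rk E (ρ g' δ + (1 - δ - ρ g' δ)) = rk E (ρ g' δ) + rk E (1 - δ - ρ g' δ) :=
      rk_add igδ' i5 (by linear_combination -igδ' - hy0)
    have e5 : ρ g' δ + (1 - δ - ρ g' δ) = 1 - δ := by ring
    rw [e5, r1'] at r5
    have r6 : 0 < rk E e0 := by
      rcases Nat.eq_zero_or_pos (rk E e0) with h0 | h0
      · exact absurd (rk_eq_zero h0) D.e0_ne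
      · exact h0
    omega
  rcases D.const ε hε hεf with h1 | h1 <;> rcases D.const δ hδ hδf with h2 | h2
  · linear_combination hεδ + h1 - h2
  · exact (main ε δ hε hδ hε1 hδ2 hεδ h1 h2).elim
  · exact (main (1 - ε) (1 - δ) (by linear_combination hε) (by linear_combination hδ)
      (sub_mem (one_mem _) hε1) (sub_mem (one_mem _) hδ2)
      (by linear_combination -hεδ) (by linear_combination -h1)
      (by linear_combination -h2)).elim
  · linear_combination hεδ + h1 - h2

/-- **NON-CUT.** -/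
theorem noncut
    (hin : ∃ z, z * z = z ∧ z ∈ B1 ∧ z ∈ Am ∧ (1 - eP) * z ∈ B2 ∧ z ≠ 0 ∧ z ≠ 1)
    (hout : ∃ z, z * z = z ∧ z ∈ B2 ∧ z ∈ Ap ∧ eP * z = z ∧ z ≠ 0 ∧ z ≠ eP)
    (ε δ : B) (hε : ε * ε = ε) (hδ : δ * δ = δ) (hε1 : ε ∈ B1) (hδ2 : δ ∈ B2)
    (hεf : ∀ g, ρ g e0 = e0 → ρ g ε = ε) (hδf : ∀ g, ρ g e0 = e0 → ρ g δ = δ)
    (hεδ : (1 - e0) * ε = (1 - e0) * δ) : ε = δ :=
  D.noncut' (D.not_mem_of_in hin) hout ε δ hε hδ hε1 hδ2 hεf hδf hεδ

end Data

end

end Crest.Agent.R013.NonCut_92
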