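import Crest.Agent.R013.EE4_809

/-!
# R013 / Nrm1: the norm at radius `t` of a bounded series on an annulus (helper671)

`An ρ a` : `a` is bounded at radius `ρ` (and at radius one, as an element of `EE k C`);
`gr t a = sup ‖a_n‖ t^n`, for `ρ ≤ t ≤ 1`: ultrametric, multiplicative, continuous in `t` on the
closed interval `[ρ, 1]`, monomial near `t = 1`.
-/

set_option autoImplicit false
set_option linter.all false

namespace Crest.Agent.R013.Nrm_671

open Filter Topology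
open Crest.Agent.R013.Cell_408 Crest.Agent.R013.EE809

variable {k : Type*} [NontriviallyNormedField k] [CompleteSpace k]
variable {C : Type*} [NormedField C] [IsUltrametricDist C] [NormedAlgebra k C]

/-- bounded at radius `ρ` -/
def An (ρ : ℝ) (a : EE k C) : Prop := ∃ M : ℝ, Bdd ρ M a

/-- norm at radius `t` -/
noncomputable def gr (t : ℝ) (a : EE k C) : ℝ := ⨆ n : ℤ, ‖a.co n‖ * t ^ n

theorem gr_one (a : EE k C) : gr 1 a = gn a := by
  unfold gr gn
  congr 1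
  funext n
  rw [one_zpow, mul_one]

section An

variable {ρ : ℝ} (hρ : 0 < ρ)

include hρ

theorem An.add {a b : EE k C} (ha : An ρ a) (hb : An ρ b) : An ρ (a + b) := by
  obtain ⟨M, hM⟩ := ha
  obtain ⟨N, hN⟩ := hb
  exact ⟨max M N, (hM.le (le_max_left _ _)).add hρ (hN.le (le_max_right _ _))⟩

theorem An.sub {a b : EE k C} (ha : An ρ a) (hb : An ρ b) : An ρ (a - b) := by
  obtain ⟨M, hM⟩ := ha
  obtain ⟨N, hN⟩ := hb
  exact ⟨max M N, (hM.le (le_max_left _ _)).sub hρ (hN.le (le_max_right _ _))⟩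

theorem An.mul {a b : EE k C} (ha : An ρ a) (hb : An ρ b) : An ρ (a * b) := by
  obtain ⟨M, hM⟩ := ha
  obtain ⟨N, hN⟩ := hb
  exact ⟨M * N, hM.mul hρ hN⟩

omit hρ in
theorem An.neg {a : EE k C} (ha : An ρ a) : An ρ (-a) := by
  obtain ⟨M, hM⟩ := ha
  exact ⟨M, hM.neg⟩

omit hρ in
theorem An.one : An ρ (1 : EE k C) := ⟨1, Bdd.one⟩

omit hρ in
theorem An.zero : An ρ (0 : EE k C) := ⟨0, Bdd.zero le_rfl⟩

theorem An.mono (n : ℤ) (c : C) (hc : FinDef k (fun _ : Unit => c)) :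
    An ρ (EE809.mono n c hc : EE k C) := ⟨_, Bdd.mono hρ n c hc⟩

/-- a common bound on the whole interval -/
theorem An.bound {a : EE k C} (ha : An ρ a) : ∃ M : ℝ, 0 < M ∧ (∀ n, ‖a.co n‖ ≤ M) ∧
    (∀ n, ‖a.co n‖ * ρ ^ n ≤ M) ∧ ∀ t, ρ ≤ t → t ≤ 1 → Bdd t M a := by
  obtain ⟨M, hM⟩ := ha
  obtain ⟨N, hN, hN'⟩ := a.bd'
  have h1 : Bdd 1 (max M N) a := by
    intro n
    rw [one_zpow, mul_one]
    exact (hN' n).trans (le_max_right _ _)
  have h2 : Bdd ρ (max M N) a := hM.le (le_max_left _ _)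
  exact ⟨max M N, lt_max_of_lt_right hN, fun n => (hN' n).trans (le_max_right _ _), h2,
    fun t ht1 ht2 => h2.interp hρ ht1 ht2 h1⟩

variable {t : ℝ} (h1 : ρ ≤ t) (h2 : t ≤ 1)

include h1 h2

theorem An.bddAbove {a : EE k C} (ha : An ρ a) :
    BddAbove (Set.range fun n : ℤ => ‖a.co n‖ * t ^ n) := by
  obtain ⟨M, -, -, -, hM⟩ := ha.bound hρ
  exact ⟨M, by rintro _ ⟨n, rfl⟩; exact hM t h1 h2 n⟩

theorem le_gr {a : EE k C} (ha : An ρ a) (n : ℤ) : ‖a.co n‖ * t ^ n ≤ gr t a :=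
  le_ciSup (ha.bddAbove hρ h1 h2) n

theorem bdd_gr {a : EE k C} (ha : An ρ a) : Bdd t (gr t a) a := le_gr hρ h1 h2 ha

omit hρ h1 h2 in
theorem gr_le {a : EE k C} {M : ℝ} (h : Bdd t M a) : gr t a ≤ M := ciSup_le h

theorem gr_nonneg (a : EE k C) : 0 ≤ gr t a :=
  Real.iSup_nonneg fun n => mul_nonneg (norm_nonneg _) (zpow_nonneg (hρ.le.trans h1) _)

theorem gr_pos {a : EE k C} (ha : An ρ a) (h : a ≠ 0) : 0 < gr t a := by
  have hne : ∃ i, a.co i ≠ 0 := by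
    by_contra h'
    push Not at h'
    exact h (EE.ext h')
  obtain ⟨i, hi⟩ := hne
  exact (mul_pos (norm_pos_iff.2 hi) (zpow_pos (hρ.trans_le h1) _)).trans_le (le_gr hρ h1 h2 ha i)

omit h2 in
theorem gr_zero : gr t (0 : EE k C) = 0 := by
  refine le_antisymm (gr_le (Bdd.zero le_rfl)) ?_
  exact Real.iSup_nonneg fun n => mul_nonneg (norm_nonneg _) (zpow_nonneg (hρ.le.trans h1) _)

theorem gr_add_le {a b : EE k C} (ha : An ρ a) (hb : An ρ b) :
    gr t (a + b) ≤ max (gr t a) (gr t b) :=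
  gr_le (((bdd_gr hρ h1 h2 ha).le (le_max_left _ _)).add (hρ.trans_le h1)
    ((bdd_gr hρ h1 h2 hb).le (le_max_right _ _)))

theorem gr_mul_le {a b : EE k C} (ha : An ρ a) (hb : An ρ b) :
    gr t (a * b) ≤ gr t a * gr t b :=
  gr_le ((bdd_gr hρ h1 h2 ha).mul (hρ.trans_le h1) (bdd_gr hρ h1 h2 hb))

end An

/-! ### the open interval: terms tend to zero, multiplicativity -/

theorem tendsto_term {ρ t : ℝ} (hρ : 0 < ρ) (h1 : ρ < t) (h2 : t < 1) {a : EE k C} (ha : An ρ a) :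
    Tendsto (fun n : ℤ => ‖a.co n‖ * t ^ n) cofinite (𝓝 0) := by
  obtain ⟨M, hM0, hM1, hM2, -⟩ := ha.bound hρ
  have ht : 0 < t := hρ.trans h1
  rw [Int.cofinite_eq]
  refine Tendsto.sup ?_ ?_
  · -- at `-∞`
    have h3 : Tendsto (fun n : ℤ => M * (ρ / t) ^ (-n).toNat) atBot (𝓝 0) := by
      have h4 : Tendsto (fun m : ℕ => M * (ρ / t) ^ m) atTop (𝓝 (M * 0)) :=
        (tendsto_pow_atTop_nhds_zero_of_lt_one (by positivity) ((div_lt_one ht).2 h1)).const_mul M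
      rw [mul_zero] at h4
      have h5 : Tendsto (fun n : ℤ => (-n).toNat) atBot atTop := by
        rw [tendsto_atTop]
        intro b
        rw [eventually_atBot]
        exact ⟨-(b : ℤ), fun n hn => by omega⟩
      exact h4.comp h5
    refine squeeze_zero' (Eventually.of_forall fun n => mul_nonneg (norm_nonneg _)
      (zpow_nonneg ht.le _)) ?_ h3
    rw [eventually_atBot]
    refine ⟨0, fun n hn => ?_⟩
    obtain ⟨m, hm⟩ := Int.eq_ofNat_of_zero_le (show 0 ≤ -n by omega)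
    have hn' : n = -(m : ℤ) := by omega
    have h6 := hM2 n
    rw [hn', neg_neg, Int.toNat_natCast]
    rw [hn', zpow_neg, zpow_natCast] at h6
    rw [zpow_neg, zpow_natCast, div_pow]
    calc ‖a.co (-(m : ℤ))‖ * (t ^ m)⁻¹
        = (‖a.co (-(m : ℤ))‖ * (ρ ^ m)⁻¹) * (ρ ^ m * (t ^ m)⁻¹) := by
          field_simp
      _ ≤ M * (ρ ^ m * (t ^ m)⁻¹) := mul_le_mul_of_nonneg_right h6 (by positivity)
      _ = M * (ρ ^ m / t ^ m) := by rw [div_eq_mul_inv]
  · have h3 : Tendsto (fun n : ℤ => M * t ^ n.toNat) atTop (𝓝 0) := by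
      have h4 : Tendsto (fun m : ℕ => M * t ^ m) atTop (𝓝 (M * 0)) :=
        (tendsto_pow_atTop_nhds_zero_of_lt_one ht.le h2).const_mul M
      rw [mul_zero] at h4
      have h5 : Tendsto (fun n : ℤ => n.toNat) atTop atTop := by
        rw [tendsto_atTop]
        intro b
        rw [eventually_atTop]
        exact ⟨(b : ℤ), fun n hn => by omega⟩
      exact h4.comp h5
    refine squeeze_zero' (Eventually.of_forall fun n => mul_nonneg (norm_nonneg _)
      (zpow_nonneg ht.le _)) ?_ h3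
    rw [eventually_atTop]
    refine ⟨0, fun n hn => ?_⟩
    obtain ⟨m, rfl⟩ := Int.eq_ofNat_of_zero_le hn
    rw [Int.toNat_natCast, zpow_natCast]
    exact mul_le_mul_of_nonneg_right (hM1 _) (by positivity)

/-- the least index of maximal term -/
theorem exists_lead {ρ t : ℝ} (hρ : 0 < ρ) (h1 : ρ < t) (h2 : t < 1) {a : EE k C} (ha : An ρ a)
    (h0 : a ≠ 0) : ∃ i : ℤ, ‖a.co i‖ * t ^ i = gr t a ∧ ∀ n < i, ‖a.co n‖ * t ^ n < gr t a := by
  have hpos := gr_pos hρ h1.le h2.le ha h0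
  set g : ℤ → ℝ := fun n => ‖a.co n‖ * t ^ n with hg
  have hlt : gr t a / 2 < gr t a := by linarith
  obtain ⟨n0, hn0⟩ := exists_lt_of_lt_ciSup (f := g) hlt
  have hn0' : gr t a / 2 < g n0 := hn0
  have hfin : {n | g n0 ≤ g n}.Finite := by
    have h3 := (tendsto_term hρ h1 h2 ha).eventually (gt_mem_nhds (show (0 : ℝ) < g n0 by linarith))
    rw [eventually_cofinite] at h3
    refine h3.subset fun n hn => ?_
    exact not_lt.2 hn
  obtain ⟨m, hm1, hm2⟩ := Set.exists_max_image _ g hfin ⟨n0, le_refl (g n0)⟩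
  have hmax : ∀ n, g n ≤ g m := by
    intro n
    by_cases hn : g n0 ≤ g n
    · exact hm2 n hn
    · exact (not_le.1 hn).le.trans hm1
  have hgm : g m = gr t a := le_antisymm (le_gr hρ h1.le h2.le ha m) (ciSup_le hmax)
  have hfin2 : {n | g n = gr t a}.Finite := hfin.subset fun n hn => by
    have hn' : g n = gr t a := hn
    show g n0 ≤ g n
    rw [hn', ← hgm]
    exact hm1
  obtain ⟨i, hi1, hi2⟩ := Set.exists_min_image _ (fun n : ℤ => n) hfin2 ⟨m, hgm⟩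
  refine ⟨i, hi1, fun n hn => lt_of_le_of_ne (le_gr hρ h1.le h2.le ha n) fun h => ?_⟩
  exact absurd (hi2 n h) (not_le.2 hn)

theorem gr_mul_of_lt {ρ t : ℝ} (hρ : 0 < ρ) (h1 : ρ < t) (h2 : t < 1) {a b : EE k C}
    (ha : An ρ a) (hb : An ρ b) : gr t (a * b) = gr t a * gr t b := by
  have ht : 0 < t := hρ.trans h1
  by_cases ha0 : a = 0
  · rw [ha0, zero_mul, gr_zero hρ h1.le, zero_mul]
  by_cases hb0 : b = 0
  · rw [hb0, mul_zero, gr_zero hρ h1.le, mul_zero]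
  refine le_antisymm (gr_mul_le hρ h1.le h2.le ha hb) ?_
  obtain ⟨i, hi, hi'⟩ := exists_lead hρ h1 h2 ha ha0
  obtain ⟨j, hj, hj'⟩ := exists_lead hρ h1 h2 hb hb0
  have hA := gr_pos hρ h1.le h2.le ha ha0
  have hB := gr_pos hρ h1.le h2.le hb hb0
  have htz : 0 < t ^ (i + j) := zpow_pos ht _
  set r := gr t a * gr t b / t ^ (i + j) with hr
  have hr0 : 0 < r := by positivity
  have hsplit : ∀ m : ℤ, t ^ (i + j) = t ^ m * t ^ (i + j - m) := by
    intro m
    rw [← zpow_add₀ ht.ne']; congr 1; ring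
  have hterm : ∀ m : ℤ, ‖a.co m * b.co (i + j - m)‖ * t ^ (i + j) =
      (‖a.co m‖ * t ^ m) * (‖b.co (i + j - m)‖ * t ^ (i + j - m)) := by
    intro m
    rw [hsplit m, norm_mul]; ring
  have hlt : ∀ m, m ≠ i → ‖a.co m * b.co (i + j - m)‖ < r := by
    intro m hm
    rw [hr, lt_div_iff₀ htz, hterm]
    rcases lt_or_gt_of_ne hm with h | h
    · exact mul_lt_mul_of_lt_of_le_of_nonneg_of_pos (hi' m h) (le_gr hρ h1.le h2.le hb _)
        (mul_nonneg (norm_nonneg _) (zpow_nonneg ht.le _)) hB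
    · calc (‖a.co m‖ * t ^ m) * (‖b.co (i + j - m)‖ * t ^ (i + j - m))
          ≤ gr t a * (‖b.co (i + j - m)‖ * t ^ (i + j - m)) :=
            mul_le_mul_of_nonneg_right (le_gr hρ h1.le h2.le ha _)
              (mul_nonneg (norm_nonneg _) (zpow_nonneg ht.le _))
        _ < gr t a * gr t b := mul_lt_mul_of_pos_left (hj' _ (by omega)) hA
  have heq : ‖a.co i * b.co (i + j - i)‖ = r := by
    rw [hr, eq_div_iff htz.ne', hterm, add_sub_cancel_left, hi, hj]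
  have hco : ‖(a * b).co (i + j)‖ = r := by
    rw [co_mul, (summable_conv a b _).tsum_eq_add_tsum_ite i]
    have h3 : ‖∑' m, (if m = i then 0 else a.co m * b.co (i + j - m))‖ < r := by
      refine norm_tsum_lt hr0 ?_ fun m => ?_
      · refine (tendsto_conv a b (i + j)).congr' ?_
        rw [EventuallyEq, eventually_cofinite]
        refine (Set.finite_singleton i).subset fun m hm => ?_
        by_contra hne
        apply hm
        rw [if_neg (show ¬ m = i from hne)]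
      · by_cases hm : m = i
        · rw [if_pos hm, norm_zero]; exact hr0
        · rw [if_neg hm]
          exact hlt m hm
    rw [add_comm, IsUltrametricDist.norm_add_eq_max_of_norm_ne_norm (by rw [heq]; exact h3.ne),
      heq, max_eq_right h3.le]
  have := le_gr hρ h1.le h2.le (ha.mul hρ hb) (i + j)
  rw [hco, hr, div_mul_cancel₀ _ htz.ne'] at this
  exact this

/-! ### continuity in the radius -/

theorem gr_usc {ρ : ℝ} (hρ : 0 < ρ) {a : EE k C} (ha : An ρ a) {t₀ : ℝ} (h0 : t₀ ∈ Set.Icc ρ 1)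
    {ε : ℝ} (hε : 0 < ε) : ∀ᶠ t in 𝓝[Set.Icc ρ 1] t₀, gr t a ≤ gr t₀ a + ε := by
  obtain ⟨M, hM0, hM1, hM2, -⟩ := ha.bound hρ
  have ht0 : 0 < t₀ := hρ.trans_le h0.1
  have hle : ∀ n, ‖a.co n‖ * t₀ ^ n ≤ gr t₀ a + ε := fun n =>
    (le_gr hρ h0.1 h0.2 ha n).trans (by linarith)
  have hmem : ∀ᶠ t in 𝓝[Set.Icc ρ 1] t₀, t ∈ Set.Icc ρ 1 := eventually_mem_nhdsWithin
  have hgn : 0 ≤ gr t₀ a := gr_nonneg hρ h0.1 h0.2 a
  -- right tail
  have hT : ∃ N : ℕ, ∀ᶠ t in 𝓝[Set.Icc ρ 1] t₀, ∀ n : ℤ, (N : ℤ) ≤ n →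
      ‖a.co n‖ * t ^ n ≤ gr t₀ a + ε := by
    rcases h0.2.eq_or_lt with h | h
    · refine ⟨0, hmem.mono fun t ht n hn => ?_⟩
      obtain ⟨m, rfl⟩ := Int.eq_ofNat_of_zero_le (by simpa using hn)
      refine le_trans (mul_le_mul_of_nonneg_left ?_ (norm_nonneg _)) (hle m)
      rw [h, one_zpow, zpow_natCast]
      exact pow_le_one₀ (hρ.le.trans ht.1) ht.2
    · obtain ⟨t1, h3, h4⟩ := exists_between h
      obtain ⟨N, hN⟩ := exists_pow_lt_of_lt_one (x := ε / M) (y := t1) (by positivity) h4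
      refine ⟨N, ?_⟩
      have h5 : ∀ᶠ t in 𝓝[Set.Icc ρ 1] t₀, t < t1 :=
        mem_nhdsWithin_of_mem_nhds (Iio_mem_nhds h3)
      filter_upwards [hmem, h5] with t ht ht1 n hn
      obtain ⟨m, rfl⟩ := Int.eq_ofNat_of_zero_le (show 0 ≤ n by omega)
      have hmN : N ≤ m := by exact_mod_cast hn
      rw [zpow_natCast]
      have ht' : 0 ≤ t := hρ.le.trans ht.1
      calc ‖a.co m‖ * t ^ m ≤ M * t1 ^ N := by
            refine mul_le_mul (hM1 _) ?_ (pow_nonneg ht' _) hM0.le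
            calc t ^ m ≤ t1 ^ m := pow_le_pow_left₀ ht' ht1.le _
              _ ≤ t1 ^ N := pow_le_pow_of_le_one (ht'.trans ht1.le) h4.le hmN
        _ ≤ M * (ε / M) := mul_le_mul_of_nonneg_left hN.le hM0.le
        _ = ε := by field_simp
        _ ≤ gr t₀ a + ε := by linarith
  -- left tail
  have hT' : ∃ N : ℕ, ∀ᶠ t in 𝓝[Set.Icc ρ 1] t₀, ∀ n : ℤ, n ≤ -(N : ℤ) →
      ‖a.co n‖ * t ^ n ≤ gr t₀ a + ε := by
    rcases h0.1.eq_or_lt with h | h
    · refine ⟨0, hmem.mono fun t ht n hn => ?_⟩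
      obtain ⟨m, hm⟩ := Int.eq_ofNat_of_zero_le (show 0 ≤ -n by omega)
      have hn' : n = -(m : ℤ) := by omega
      refine le_trans (mul_le_mul_of_nonneg_left ?_ (norm_nonneg _)) (hle n)
      rw [← h, hn', zpow_neg, zpow_neg, zpow_natCast, zpow_natCast]
      exact inv_anti₀ (pow_pos hρ m) (pow_le_pow_left₀ hρ.le ht.1 m)
    · obtain ⟨t1, h3, h4⟩ := exists_between h
      have ht1 : 0 < t1 := hρ.trans h3
      obtain ⟨N, hN⟩ := exists_pow_lt_of_lt_one (x := ε / M) (y := ρ / t1) (by positivity)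
        ((div_lt_one ht1).2 h3)
      refine ⟨N, ?_⟩
      have h5 : ∀ᶠ t in 𝓝[Set.Icc ρ 1] t₀, t1 < t :=
        mem_nhdsWithin_of_mem_nhds (Ioi_mem_nhds h4)
      filter_upwards [hmem, h5] with t ht htt n hn
      obtain ⟨m, hm⟩ := Int.eq_ofNat_of_zero_le (show 0 ≤ -n by omega)
      have hn' : n = -(m : ℤ) := by omega
      have hmN : N ≤ m := by omega
      have ht' : 0 < t := hρ.trans_le ht.1
      have h6 := hM2 n
      rw [hn', zpow_neg, zpow_natCast] at h6 ⊢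
      calc ‖a.co (-(m : ℤ))‖ * (t ^ m)⁻¹ ≤ ‖a.co (-(m : ℤ))‖ * (t1 ^ m)⁻¹ := by
            refine mul_le_mul_of_nonneg_left ?_ (norm_nonneg _)
            exact inv_anti₀ (pow_pos ht1 m) (pow_le_pow_left₀ ht1.le htt.le m)
        _ = (‖a.co (-(m : ℤ))‖ * (ρ ^ m)⁻¹) * (ρ / t1) ^ m := by
            rw [div_pow]; field_simp
        _ ≤ M * (ρ / t1) ^ N := by
            refine mul_le_mul h6 ?_ (by positivity) hM0.le
            exact pow_le_pow_of_le_one (by positivity) ((div_lt_one ht1).2 h3).le hmN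
        _ ≤ M * (ε / M) := mul_le_mul_of_nonneg_left hN.le hM0.le
        _ = ε := by field_simp
        _ ≤ gr t₀ a + ε := by linarith
  obtain ⟨N, hN⟩ := hT
  obtain ⟨N', hN'⟩ := hT'
  have hmid : ∀ᶠ t in 𝓝[Set.Icc ρ 1] t₀, ∀ n ∈ Finset.Icc (-(N' : ℤ)) N,
      ‖a.co n‖ * t ^ n ≤ gr t₀ a + ε := by
    rw [Finset.eventually_all]
    intro n _
    have hc : ContinuousAt (fun t : ℝ => ‖a.co n‖ * t ^ n) t₀ :=
      (continuousAt_zpow₀ t₀ n (Or.inl ht0.ne')).const_mul _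
    have h3 : ‖a.co n‖ * t₀ ^ n < gr t₀ a + ε :=
      lt_of_le_of_lt (le_gr hρ h0.1 h0.2 ha n) (by linarith)
    have h4 := hc.eventually (gt_mem_nhds h3)
    have h5 : ∀ᶠ t in 𝓝[Set.Icc ρ 1] t₀, ‖a.co n‖ * t ^ n < gr t₀ a + ε :=
      mem_nhdsWithin_of_mem_nhds h4
    exact h5.mono fun t ht => le_of_lt ht
  filter_upwards [hN, hN', hmid] with t ht1 ht2 ht3
  refine gr_le fun n => ?_
  rcases le_or_gt (N : ℤ) n with h | h
  · exact ht1 n h
  rcases le_or_gt n (-(N' : ℤ)) with h' | h'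
  · exact ht2 n h'
  · exact ht3 n (Finset.mem_Icc.2 ⟨h'.le, h.le⟩)

theorem gr_lsc {ρ : ℝ} (hρ : 0 < ρ) {a : EE k C} (ha : An ρ a) {t₀ : ℝ} (h0 : t₀ ∈ Set.Icc ρ 1)
    {ε : ℝ} (hε : 0 < ε) : ∀ᶠ t in 𝓝[Set.Icc ρ 1] t₀, gr t₀ a - ε ≤ gr t a := by
  have ht0 : 0 < t₀ := hρ.trans_le h0.1
  obtain ⟨n, hn⟩ := exists_lt_of_lt_ciSup
    (show gr t₀ a - ε < ⨆ n : ℤ, ‖a.co n‖ * t₀ ^ n from sub_lt_self _ hε)
  have hc : ContinuousAt (fun t : ℝ => ‖a.co n‖ * t ^ n) t₀ :=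
    (continuousAt_zpow₀ t₀ n (Or.inl ht0.ne')).const_mul _
  have h4 := hc.eventually (lt_mem_nhds hn)
  have hmem : ∀ᶠ t in 𝓝[Set.Icc ρ 1] t₀, t ∈ Set.Icc ρ 1 := eventually_mem_nhdsWithin
  have h5 : ∀ᶠ t in 𝓝[Set.Icc ρ 1] t₀, gr t₀ a - ε < ‖a.co n‖ * t ^ n :=
    mem_nhdsWithin_of_mem_nhds h4
  filter_upwards [hmem, h5] with t ht h6
  exact h6.le.trans (le_gr hρ ht.1 ht.2 ha n)

theorem continuousOn_gr {ρ : ℝ} (hρ : 0 < ρ) {a : EE k C} (ha : An ρ a) :
    ContinuousOn (fun t => gr t a) (Set.Icc ρ 1) := by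
  intro t₀ h0
  rw [ContinuousWithinAt, Metric.tendsto_nhds]
  intro ε hε
  filter_upwards [gr_usc hρ ha h0 (half_pos hε), gr_lsc hρ ha h0 (half_pos hε)] with t h1 h2
  rw [Real.dist_eq, abs_lt]
  constructor <;> linarith

/-- the interval is the closure of its interior -/
theorem eqOn_Icc {ρ : ℝ} (h : ρ < 1) {f g : ℝ → ℝ} (hf : ContinuousOn f (Set.Icc ρ 1))
    (hg : ContinuousOn g (Set.Icc ρ 1)) (hfg : ∀ t ∈ Set.Ioo ρ 1, f t = g t) :
    ∀ t ∈ Set.Icc ρ 1, f t = g t := by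
  have hcl : Set.Icc ρ 1 = closure (Set.Ioo ρ 1) := (closure_Ioo h.ne).symm
  have h1 : Set.EqOn f g (Set.Icc ρ 1) :=
    Set.EqOn.of_subset_closure (s := Set.Ioo ρ 1) (fun t ht => hfg t ht) hf hg
      Set.Ioo_subset_Icc_self hcl.le
  exact fun t ht => h1 ht

/-- multiplicativity on the closed interval -/
theorem gr_mul {ρ : ℝ} (hρ : 0 < ρ) (hρ1 : ρ < 1) {t : ℝ} (h1 : ρ ≤ t) (h2 : t ≤ 1)
    {a b : EE k C} (ha : An ρ a) (hb : An ρ b) : gr t (a * b) = gr t a * gr t b :=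
  eqOn_Icc hρ1 (continuousOn_gr hρ (ha.mul hρ hb))
    ((continuousOn_gr hρ ha).mul (continuousOn_gr hρ hb))
    (fun t ht => gr_mul_of_lt hρ ht.1 ht.2 ha hb) t ⟨h1, h2⟩

theorem gr_const {t : ℝ} (ht : 0 < t) (c : C) (hc : FinDef k (fun _ : Unit => c)) :
    gr t (EE809.mono 0 c hc : EE k C) = ‖c‖ := by
  refine le_antisymm (gr_le ?_) ?_
  · have := Bdd.mono ht 0 c hc
    rwa [zpow_zero, mul_one] at this
  · have h := Bdd.mono ht 0 c hc
    have hb : BddAbove (Set.range fun n : ℤ => ‖(EE809.mono 0 c hc : EE k C).co n‖ * t ^ n) :=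
      ⟨_, by rintro _ ⟨n, rfl⟩; exact h n⟩
    have h1 := le_ciSup hb 0
    have h2 : ‖(EE809.mono 0 c hc : EE k C).co 0‖ * t ^ (0 : ℤ) = ‖c‖ := by
      rw [co_mono, if_pos rfl, zpow_zero, mul_one]
    rw [h2] at h1
    exact h1

/-! ### near the end -/

section Disc

variable [IsUltrametricDist k] [Algebra.IsAlgebraic k C] [IsAlgClosed C]

omit [IsUltrametricDist k] [IsAlgClosed C] in
theorem An.T {ρ : ℝ} (hρ : 0 < ρ) (n : ℤ) : An ρ (EE809.T n : EE k C) := ⟨_, Bdd.mo hρ n 1⟩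

omit [IsUltrametricDist k] [IsAlgClosed C] in
theorem co_T' (n m : ℤ) : (EE809.T n : EE k C).co m = if m = n then 1 else 0 := by
  unfold EE809.T EE809.mo
  rw [co_mono]

/-- near `t = 1` the norm is monomial, with exponent the order of the reduction -/
theorem gr_near_one (hk : DiscNorm k) {ρ : ℝ} (hρ : 0 < ρ) (hρ1 : ρ < 1) {a : EE k C}
    (ha : An ρ a) (h0 : a ≠ 0) :
    ∃ ρ', ρ < ρ' ∧ ρ' < 1 ∧ ∀ t, ρ' ≤ t → t ≤ 1 → gr t a = gn a * t ^ (od a) := by
  have hg := gn_pos h0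
  set b : EE k C := T (-od a) * a with hb
  have hbco : ∀ m, b.co m = a.co (m + od a) := by
    intro m
    rw [hb, co_T_mul, sub_neg_eq_add]
  have hgb : gn b = gn a := by
    refine le_antisymm (gn_le fun n => ?_) (gn_le fun n => ?_)
    · rw [hbco]; exact le_gn a _
    · have := le_gn b (n - od a)
      rwa [hbco, sub_add_cancel] at this
  have hb0 : ‖b.co 0‖ = gn a := by rw [hbco, zero_add, norm_co_od hk h0]
  have hneg : ∀ n < 0, ‖b.co n‖ < gn a := fun n hn => by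
    rw [hbco]
    exact norm_lt_of_lt_od h0 (by omega)
  set c : EE k C := b - ofBD (posPart b) with hc
  have hcn : ∀ n, n < 0 → c.co n = b.co n := by
    intro n hn
    rw [hc, co_sub, co_ofBD_posPart, if_neg (by omega), sub_zero]
  have hgc : gn c < gn a := gn_sub_posPart_lt hg hneg
  have hbA : An ρ b := (An.T hρ (-od a)).mul hρ ha
  have hcA : An ρ c := by
    obtain ⟨M, hM⟩ := hbA
    refine ⟨M, fun n => ?_⟩
    rw [hc, co_sub, co_ofBD_posPart]
    split_ifs with h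
    · rw [sub_self, norm_zero, zero_mul]; exact hM.nonneg hρ
    · rw [sub_zero]; exact hM n
  obtain ⟨M, hM⟩ := hcA
  obtain ⟨ρ', h1, h2, h3⟩ := hM.shrink hρ hρ1 hgc
  refine ⟨ρ', h1, h2, fun t ht1 ht2 => ?_⟩
  have hρ'0 : 0 < ρ' := hρ.trans h1
  have ht0 : 0 < t := hρ'0.trans_le ht1
  have hbt : gr t b = gn a := by
    refine le_antisymm (gr_le fun n => ?_) ?_
    · rcases le_or_gt 0 n with h | h
      · obtain ⟨m, rfl⟩ := Int.eq_ofNat_of_zero_le h
        rw [← hgb, zpow_natCast]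
        exact (mul_le_of_le_one_right (norm_nonneg _) (pow_le_one₀ ht0.le ht2)).trans (le_gn b m)
      · rw [← hcn n h]
        refine le_trans (mul_le_mul_of_nonneg_left ?_ (norm_nonneg _)) (h3 n)
        obtain ⟨m, hm⟩ := Int.eq_ofNat_of_zero_le (show 0 ≤ -n by omega)
        have hn : n = -(m : ℤ) := by omega
        rw [hn, zpow_neg, zpow_neg, zpow_natCast, zpow_natCast]
        exact inv_anti₀ (pow_pos hρ'0 m) (pow_le_pow_left₀ hρ'0.le ht1 m)
    · have := le_gr hρ (h1.le.trans ht1) ht2 hbA 0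
      rwa [zpow_zero, mul_one, hb0] at this
  have hab : a = T (od a) * b := by
    rw [hb, ← mul_assoc, T_mul_T, add_neg_cancel, T_zero, one_mul]
  have hAT : An ρ (T (od a) : EE k C) := An.T hρ (od a)
  have hTt : gr t (T (od a) : EE k C) = t ^ (od a) := by
    refine le_antisymm (gr_le fun n => ?_) ?_
    · rw [co_T']
      split_ifs with h
      · rw [norm_one, one_mul, h]
      · rw [norm_zero, zero_mul]; exact zpow_nonneg ht0.le _
    · have := le_gr hρ (h1.le.trans ht1) ht2 hAT (od a)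
      rwa [co_T', if_pos rfl, norm_one, one_mul] at this
  have := gr_mul hρ hρ1 (h1.le.trans ht1) ht2 hAT hbA
  rw [← hab, hTt, hbt, mul_comm] at this
  exact this

end Disc

end Crest.Agent.R013.Nrm_671
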