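import Crest.Agent.R013.Nrm1_671
import Crest.Agent.R013.SSDefs_332

/-!
# R013 / Nrm2: the path of norms of an annulus (helper671)

`ψ : K →+* EE k C` with values in quotients of series bounded on `ρ ≤ |T|`: the norms
`nr ψ hψ t`, `ρ ≤ t ≤ 1`, of `K`; for an annulus `e` of a semistable structure `S` (332's `SSK`)
`S.nrm e t`, from the norm of the vertex `(e0 e).1` at `t = 1` to the norm of `(e1 e).1` at
`t = ‖cc e‖`, continuous in `t`, monomial near both ends.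
-/

set_option autoImplicit false
set_option linter.all false

namespace Crest.Agent.R013.Nrm_671

open Filter Topology
open scoped NNReal
open Crest.Agent.R013.Cell_408 Crest.Agent.R013.EE809

variable {k : Type*} [NontriviallyNormedField k] [CompleteSpace k]
variable {C : Type*} [NormedField C] [IsUltrametricDist C] [NormedAlgebra k C]
variable {K : Type*} [Field K]

/-- all values of `ψ` are quotients of bounded series on the annulus `ρ < |T| < 1` -/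
def Fr (ρ : ℝ) (ψ : K →+* EE k C) : Prop :=
  ∀ f : K, ∃ g h : EE k C, h ≠ 0 ∧ An ρ g ∧ An ρ h ∧ ψ f * h = g

variable {ρ : ℝ} {ψ : K →+* EE k C}

/-- the norm at radius `t` (a real number) -/
noncomputable def nrR (hψ : Fr ρ ψ) (t : ℝ) (f : K) : ℝ :=
  gr t (hψ f).choose / gr t (hψ f).choose_spec.choose

section

variable (hρ : 0 < ρ) (hρ1 : ρ < 1) (hψ : Fr ρ ψ)

include hρ hρ1

theorem nrR_eq {t : ℝ} (h1 : ρ ≤ t) (h2 : t ≤ 1) {f : K} {g h : EE k C} (hg : An ρ g)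
    (hh : An ρ h) (h0 : h ≠ 0) (e : ψ f * h = g) : nrR hψ t f = gr t g / gr t h := by
  unfold nrR
  set g' := (hψ f).choose with hg'
  set h' := (hψ f).choose_spec.choose with hh'
  obtain ⟨h3, h4, h5, h6⟩ := (hψ f).choose_spec.choose_spec
  change h' ≠ 0 at h3
  change An ρ g' at h4
  change An ρ h' at h5
  change ψ f * h' = g' at h6
  have p1 := gr_pos hρ h1 h2 hh h0
  have p2 := gr_pos hρ h1 h2 h5 h3
  rw [div_eq_div_iff p2.ne' p1.ne', ← gr_mul hρ hρ1 h1 h2 h4 hh, ← gr_mul hρ hρ1 h1 h2 hg h5,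
    ← h6, ← e]
  congr 1
  ring

theorem nrR_nonneg {t : ℝ} (h1 : ρ ≤ t) (h2 : t ≤ 1) (f : K) : 0 ≤ nrR hψ t f :=
  div_nonneg (gr_nonneg hρ h1 h2 _) (gr_nonneg hρ h1 h2 _)

theorem nrR_zero {t : ℝ} (h1 : ρ ≤ t) (h2 : t ≤ 1) : nrR hψ t 0 = 0 := by
  have h := nrR_eq hρ hρ1 hψ h1 h2 (f := 0) (g := 0) (h := 1) An.zero An.one
    one_ne_zero (by rw [map_zero, zero_mul])
  rw [h, gr_zero hρ h1, zero_div]

theorem gr_one_right {t : ℝ} (h1 : ρ ≤ t) (h2 : t ≤ 1) : gr t (1 : EE k C) = 1 := by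
  have h3 : (1 : EE k C) = EE809.mono 0 1 EE809.finDef_one := one_def
  rw [h3, gr_const (hρ.trans_le h1), norm_one]

theorem nrR_one' {t : ℝ} (h1 : ρ ≤ t) (h2 : t ≤ 1) : nrR hψ t 1 = 1 := by
  have h := nrR_eq hρ hρ1 hψ h1 h2 (f := 1) (g := 1) (h := 1) An.one An.one
    one_ne_zero (by rw [map_one, one_mul])
  rw [h, gr_one_right hρ hρ1 h1 h2, div_one]

theorem nrR_mul {t : ℝ} (h1 : ρ ≤ t) (h2 : t ≤ 1) (f f' : K) :
    nrR hψ t (f * f') = nrR hψ t f * nrR hψ t f' := by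
  obtain ⟨g, h, h0, hg, hh, e⟩ := hψ f
  obtain ⟨g', h', h0', hg', hh', e'⟩ := hψ f'
  have p1 := gr_pos hρ h1 h2 hh h0
  have p2 := gr_pos hρ h1 h2 hh' h0'
  have p3 : h * h' ≠ 0 := by
    intro h3
    have h4 := gr_mul hρ hρ1 h1 h2 hh hh'
    rw [h3, gr_zero hρ h1] at h4
    exact (mul_pos p1 p2).ne h4
  rw [nrR_eq hρ hρ1 hψ h1 h2 hg hh h0 e, nrR_eq hρ hρ1 hψ h1 h2 hg' hh' h0' e',
    nrR_eq hρ hρ1 hψ h1 h2 (f := f * f') (g := g * g') (h := h * h') (hg.mul hρ hg')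
    (hh.mul hρ hh') p3 (by rw [map_mul, ← e, ← e']; ring), gr_mul hρ hρ1 h1 h2 hg hg',
    gr_mul hρ hρ1 h1 h2 hh hh', div_mul_div_comm]

theorem nrR_add {t : ℝ} (h1 : ρ ≤ t) (h2 : t ≤ 1) (f f' : K) :
    nrR hψ t (f + f') ≤ max (nrR hψ t f) (nrR hψ t f') := by
  obtain ⟨g, h, h0, hg, hh, e⟩ := hψ f
  obtain ⟨g', h', h0', hg', hh', e'⟩ := hψ f'
  have p1 := gr_pos hρ h1 h2 hh h0
  have p2 := gr_pos hρ h1 h2 hh' h0'
  have p3 : h * h' ≠ 0 := by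
    intro h3
    have h4 := gr_mul hρ hρ1 h1 h2 hh hh'
    rw [h3, gr_zero hρ h1] at h4
    exact (mul_pos p1 p2).ne h4
  have hA : nrR hψ t f = gr t (g * h') / gr t (h * h') :=
    nrR_eq hρ hρ1 hψ h1 h2 (hg.mul hρ hh') (hh.mul hρ hh') p3 (by rw [← e]; ring)
  have hB : nrR hψ t f' = gr t (g' * h) / gr t (h * h') :=
    nrR_eq hρ hρ1 hψ h1 h2 (hg'.mul hρ hh) (hh.mul hρ hh') p3 (by rw [← e']; ring)
  have hS : nrR hψ t (f + f') = gr t (g * h' + g' * h) / gr t (h * h') :=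
    nrR_eq hρ hρ1 hψ h1 h2 ((hg.mul hρ hh').add hρ (hg'.mul hρ hh)) (hh.mul hρ hh') p3
      (by rw [map_add, ← e, ← e']; ring)
  have p4 : 0 < gr t (h * h') := gr_pos hρ h1 h2 (hh.mul hρ hh') p3
  rw [hA, hB, hS, max_div_div_right p4.le]
  exact div_le_div_of_nonneg_right (gr_add_le hρ h1 h2 (hg.mul hρ hh') (hg'.mul hρ hh)) p4.le

/-- **the norm at radius `t`** -/
noncomputable def nr (t : ℝ) (h1 : ρ ≤ t) (h2 : t ≤ 1) : Valuation K ℝ≥0 where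
  toFun f := ⟨nrR hψ t f, nrR_nonneg hρ hρ1 hψ h1 h2 f⟩
  map_zero' := NNReal.eq (nrR_zero hρ hρ1 hψ h1 h2)
  map_one' := NNReal.eq (nrR_one' hρ hρ1 hψ h1 h2)
  map_mul' f g := NNReal.eq (nrR_mul hρ hρ1 hψ h1 h2 f g)
  map_add_le_max' f g := by
    have h := nrR_add hρ hρ1 hψ h1 h2 f g
    exact_mod_cast h

theorem nr_coe (t : ℝ) (h1 : ρ ≤ t) (h2 : t ≤ 1) (f : K) :
    (nr hρ hρ1 hψ t h1 h2 f : ℝ) = nrR hψ t f := rfl

theorem nrR_pos {t : ℝ} (h1 : ρ ≤ t) (h2 : t ≤ 1) {f : K} (hf : f ≠ 0) : 0 < nrR hψ t f := by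
  have h : nr hρ hρ1 hψ t h1 h2 f ≠ 0 := (Valuation.ne_zero_iff _).2 hf
  have h3 : (0 : ℝ) < nr hρ hρ1 hψ t h1 h2 f := by
    exact_mod_cast zero_lt_iff.2 h
  exact h3

theorem nrR_inv {t : ℝ} (h1 : ρ ≤ t) (h2 : t ≤ 1) (f : K) : nrR hψ t f⁻¹ = (nrR hψ t f)⁻¹ := by
  have h := map_inv₀ (nr hρ hρ1 hψ t h1 h2) f
  have h3 : ((nr hρ hρ1 hψ t h1 h2 f⁻¹ : ℝ≥0) : ℝ) = ((nr hρ hρ1 hψ t h1 h2 f)⁻¹ : ℝ≥0) := by
    rw [h]
  rw [NNReal.coe_inv] at h3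
  exact h3

theorem continuousOn_nrR (f : K) : ContinuousOn (fun t => nrR hψ t f) (Set.Icc ρ 1) := by
  obtain ⟨g, h, h0, hg, hh, e⟩ := hψ f
  have h3 : ContinuousOn (fun t => gr t g / gr t h) (Set.Icc ρ 1) :=
    (continuousOn_gr hρ hg).div (continuousOn_gr hρ hh)
      fun t ht => (gr_pos hρ ht.1 ht.2 hh h0).ne'
  exact h3.congr fun t ht => nrR_eq hρ hρ1 hψ ht.1 ht.2 hg hh h0 e

theorem nrR_C [Algebra C K] (hC : ∀ (c : C) (n : ℤ),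
    (ψ (algebraMap C K c)).co n = if n = 0 then c else 0) {t : ℝ} (h1 : ρ ≤ t) (h2 : t ≤ 1)
    (c : C) : nrR hψ t (algebraMap C K c) = ‖c‖ := by
  have ht : 0 < t := hρ.trans_le h1
  have hb : Bdd t ‖c‖ (ψ (algebraMap C K c)) := by
    intro n
    rw [hC]
    split_ifs with h
    · rw [h, zpow_zero, mul_one]
    · rw [norm_zero, zero_mul]; exact norm_nonneg _
  have hA : An ρ (ψ (algebraMap C K c)) := by
    refine ⟨‖c‖, fun n => ?_⟩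
    rw [hC]
    split_ifs with h
    · rw [h, zpow_zero, mul_one]
    · rw [norm_zero, zero_mul]; exact norm_nonneg _
  rw [nrR_eq hρ hρ1 hψ h1 h2 hA An.one one_ne_zero (mul_one _), gr_one_right hρ hρ1 h1 h2, div_one]
  refine le_antisymm (gr_le hb) ?_
  have := le_gr hρ h1 h2 hA 0
  rwa [hC, if_pos rfl, zpow_zero, mul_one] at this

section Disc

variable [IsUltrametricDist k] [Algebra.IsAlgebraic k C] [IsAlgClosed C] (hk : DiscNorm k)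

include hk

theorem nrR_one (f : K) : nrR hψ 1 f = gn (ψ f) := by
  obtain ⟨g, h, h0, hg, hh, e⟩ := hψ f
  rw [nrR_eq hρ hρ1 hψ hρ1.le le_rfl hg hh h0 e, gr_one, gr_one, ← e, gn_mul hk,
    mul_div_cancel_right₀ _ (gn_pos h0).ne']

theorem nrR_near_one {f : K} (hf : f ≠ 0) :
    ∃ ρ', ρ < ρ' ∧ ρ' < 1 ∧ ∀ t, ρ' ≤ t → t ≤ 1 → nrR hψ t f = gn (ψ f) * t ^ (od (ψ f)) := by
  obtain ⟨g, h, h0, hg, hh, e⟩ := hψ f
  have hψf : ψ f ≠ 0 := by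
    intro h3
    have h4 := nrR_pos hρ hρ1 hψ hρ1.le le_rfl hf
    rw [nrR_one hρ hρ1 hψ hk, h3, gn_zero] at h4
    exact lt_irrefl _ h4
  have hg0 : g ≠ 0 := by rw [← e]; exact mul_ne_zero' hk hψf h0
  obtain ⟨ρ1, h1, h2, h3⟩ := gr_near_one hk hρ hρ1 hg hg0
  obtain ⟨ρ2, h4, h5, h6⟩ := gr_near_one hk hρ hρ1 hh h0
  refine ⟨max ρ1 ρ2, lt_max_of_lt_left h1, max_lt h2 h5, fun t ht1 ht2 => ?_⟩
  have ht0 : 0 < t := (hρ.trans h1).trans_le ((le_max_left _ _).trans ht1)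
  rw [nrR_eq hρ hρ1 hψ (h1.le.trans ((le_max_left _ _).trans ht1)) ht2 hg hh h0 e,
    h3 t ((le_max_left _ _).trans ht1) ht2, h6 t ((le_max_right _ _).trans ht1) ht2, ← e,
    gn_mul hk, od_mul hk hψf h0, zpow_add₀ ht0.ne']
  have h7 := (gn_pos h0).ne'
  have h8 := (zpow_pos ht0 (od h)).ne'
  field_simp

end Disc

end

/-! ### the reversed annulus -/

open Crest.Agent.R013.SSK_332

theorem gr_flip {c : C} (hc : c ≠ 0) {a b : EE k C} (h : Flip c a b) (t : ℝ) :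
    gr t b = gr (‖c‖ / t) a := by
  unfold gr
  refine Equiv.iSup_congr (Equiv.neg ℤ) fun n => ?_
  rw [Equiv.neg_apply, h, norm_mul, norm_zpow, div_zpow, zpow_neg t, div_inv_eq_mul, mul_assoc]

/-! ### semistable structures -/

section SSK

variable {k C K : Type*} [NontriviallyNormedField k] [CompleteSpace k]
    [NormedField C] [IsUltrametricDist C] [NormedAlgebra k C] [Algebra.IsAlgebraic k C]
    [Field K] [Algebra C K] (S : SSK k C K)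

theorem cc_pos (e : S.Ed) : 0 < ‖S.cc e‖ := norm_pos_iff.2 (S.cc_ne e)

theorem fr_e0 (e : S.Ed) : Fr ‖S.cc e‖ (S.em (S.e0 e)) := by
  intro f
  obtain ⟨g, h, g', h', h0, hg, hh, -, -, e1, -⟩ := S.ann e f
  exact ⟨g, h, h0, hg, hh, e1⟩

/-- the norm at radius `t` of the annulus `e`, as a real number -/
noncomputable def nrmR (e : S.Ed) (t : ℝ) (f : K) : ℝ := nrR (fr_e0 S e) t f

/-- **the path of norms of an annulus** -/
noncomputable def nrm (e : S.Ed) (t : ℝ) (h1 : ‖S.cc e‖ ≤ t) (h2 : t ≤ 1) : Valuation K ℝ≥0 :=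
  nr (cc_pos S e) (S.cc_lt e) (fr_e0 S e) t h1 h2

theorem nrm_coe (e : S.Ed) (t : ℝ) (h1 : ‖S.cc e‖ ≤ t) (h2 : t ≤ 1) (f : K) :
    (nrm S e t h1 h2 f : ℝ) = nrmR S e t f := rfl

theorem continuousOn_nrmR (e : S.Ed) (f : K) :
    ContinuousOn (fun t => nrmR S e t f) (Set.Icc ‖S.cc e‖ 1) :=
  continuousOn_nrR (cc_pos S e) (S.cc_lt e) (fr_e0 S e) f

theorem nrmR_C (e : S.Ed) {t : ℝ} (h1 : ‖S.cc e‖ ≤ t) (h2 : t ≤ 1) (c : C) :
    nrmR S e t (algebraMap C K c) = ‖c‖ :=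
  nrR_C (cc_pos S e) (S.cc_lt e) (fr_e0 S e) (S.em_C _) h1 h2 c

theorem nrmR_pos (e : S.Ed) {t : ℝ} (h1 : ‖S.cc e‖ ≤ t) (h2 : t ≤ 1) {f : K} (hf : f ≠ 0) :
    0 < nrmR S e t f := nrR_pos (cc_pos S e) (S.cc_lt e) (fr_e0 S e) h1 h2 hf

section Disc

variable [IsUltrametricDist k] [IsAlgClosed C] (hk : DiscNorm k)

include hk

/-- at the outer end -/
theorem nrmR_one (e : S.Ed) (f : K) : nrmR S e 1 f = (S.nm (S.e0 e).1).v f := by
  unfold nrmR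
  rw [nrR_one (cc_pos S e) (S.cc_lt e) (fr_e0 S e) hk]
  exact S.em_gn _ _

/-- norm at radius `t` from the other end -/
theorem nrmR_flip (e : S.Ed) {t : ℝ} (h1 : ‖S.cc e‖ ≤ t) (h2 : t ≤ 1) (f : K) :
    ∃ g' h' : EE k C, h' ≠ 0 ∧ An ‖S.cc e‖ g' ∧ An ‖S.cc e‖ h' ∧ S.em (S.e1 e) f * h' = g' ∧
      nrmR S e t f = gr (‖S.cc e‖ / t) g' / gr (‖S.cc e‖ / t) h' := by
  obtain ⟨g, h, g', h', h0, hg, hh, fg, fh, e1, e2⟩ := S.ann e f
  have hc := cc_pos S e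
  have hflip : ∀ {a b : EE k C}, Flip (S.cc e) a b → InA (S.cc e) a → An ‖S.cc e‖ b := by
    intro a b hab ha
    obtain ⟨M, hM⟩ := a.bd'
    refine ⟨M, fun n => ?_⟩
    rw [hab n, norm_mul, norm_zpow, mul_assoc, ← zpow_add₀ hc.ne', neg_add_cancel, zpow_zero,
      mul_one]
    exact hM.2 _
  have h0' : h' ≠ 0 := by
    intro h3
    apply h0
    apply EE.ext
    intro n
    have h4 := fh (-n)
    rw [h3, co_zero, neg_neg] at h4
    rw [co_zero]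
    rcases mul_eq_zero.1 h4.symm with h5 | h5
    · exact h5
    · exact absurd h5 (zpow_ne_zero _ (S.cc_ne e))
  have hg' : An ‖S.cc e‖ g' := hflip fg hg
  have hh' : An ‖S.cc e‖ h' := hflip fh hh
  refine ⟨g', h', h0', hg', hh', e2, ?_⟩
  have ht : 0 < t := hc.trans_le h1
  have h5 : ‖S.cc e‖ / (‖S.cc e‖ / t) = t := by field_simp
  rw [gr_flip (S.cc_ne e) fg, gr_flip (S.cc_ne e) fh, h5]
  exact nrR_eq hc (S.cc_lt e) (fr_e0 S e) h1 h2 hg hh h0 e1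

theorem fr_e1 (e : S.Ed) : Fr ‖S.cc e‖ (S.em (S.e1 e)) := by
  intro f
  obtain ⟨g', h', h0, hg, hh, e2, -⟩ := nrmR_flip S hk e (S.cc_lt e).le le_rfl f
  exact ⟨g', h', h0, hg, hh, e2⟩

/-- the path from the other end -/
theorem nrmR_eq_flip (e : S.Ed) {t : ℝ} (h1 : ‖S.cc e‖ ≤ t) (h2 : t ≤ 1) (f : K) :
    nrmR S e t f = nrR (fr_e1 S hk e) (‖S.cc e‖ / t) f := by
  obtain ⟨g', h', h0, hg, hh, e2, h3⟩ := nrmR_flip S hk e h1 h2 f
  have hc := cc_pos S e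
  have ht : 0 < t := hc.trans_le h1
  rw [h3]
  refine (nrR_eq hc (S.cc_lt e) (fr_e1 S hk e) ?_ ?_ hg hh h0 e2).symm
  · rw [le_div_iff₀ ht]
    exact mul_le_of_le_one_right hc.le h2
  · rw [div_le_one ht]; exact h1

/-- at the inner end -/
theorem nrmR_cc (e : S.Ed) (f : K) : nrmR S e ‖S.cc e‖ f = (S.nm (S.e1 e).1).v f := by
  rw [nrmR_eq_flip S hk e le_rfl (S.cc_lt e).le, div_self (cc_pos S e).ne',
    nrR_one (cc_pos S e) (S.cc_lt e) (fr_e1 S hk e) hk]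
  exact S.em_gn _ _

/-- near the outer end -/
theorem nrmR_near_one (e : S.Ed) {f : K} (hf : f ≠ 0) :
    ∃ ρ', ‖S.cc e‖ < ρ' ∧ ρ' < 1 ∧ ∀ t, ρ' ≤ t → t ≤ 1 →
      nrmR S e t f = (S.nm (S.e0 e).1).v f * t ^ (EE809.od (S.em (S.e0 e) f)) := by
  obtain ⟨ρ', h1, h2, h3⟩ := nrR_near_one (cc_pos S e) (S.cc_lt e) (fr_e0 S e) hk hf
  refine ⟨ρ', h1, h2, fun t ht1 ht2 => ?_⟩
  have := h3 t ht1 ht2
  rw [S.em_gn] at this
  exact this

/-- near the inner end -/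
theorem nrmR_near_cc (e : S.Ed) {f : K} (hf : f ≠ 0) :
    ∃ ρ', ‖S.cc e‖ < ρ' ∧ ρ' < 1 ∧ ∀ t, ‖S.cc e‖ ≤ t → t ≤ ρ' →
      nrmR S e t f = (S.nm (S.e1 e).1).v f * (‖S.cc e‖ / t) ^ (EE809.od (S.em (S.e1 e) f)) := by
  obtain ⟨ρ', h1, h2, h3⟩ := nrR_near_one (cc_pos S e) (S.cc_lt e) (fr_e1 S hk e) hk hf
  have hc := cc_pos S e
  have hρ' : 0 < ρ' := hc.trans h1
  refine ⟨‖S.cc e‖ / ρ', ?_, (div_lt_one hρ').2 h1, fun t ht1 ht2 => ?_⟩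
  · rw [lt_div_iff₀ hρ']
    exact mul_lt_of_lt_one_right hc h2
  have ht : 0 < t := hc.trans_le ht1
  have h4 : ρ' ≤ ‖S.cc e‖ / t := by
    rw [le_div_iff₀ ht]
    rw [le_div_iff₀ hρ'] at ht2
    rwa [mul_comm]
  have h5 : ‖S.cc e‖ / t ≤ 1 := (div_le_one ht).2 ht1
  have h6 := h3 _ h4 h5
  rw [S.em_gn] at h6
  rw [nrmR_eq_flip S hk e ht1 ?_]
  · exact h6
  · refine ht2.trans ?_
    rw [div_le_one hρ']; exact h1.le

end Disc

end SSK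

end Crest.Agent.R013.Nrm_671
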