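import Crest.Agent.R013.Nrm2_671
import Crest.Agent.R013.AnW3_201
import Crest.Agent.R013.Pow4_931

/-!
# R013 / Nrm3: the norm along an annulus in terms of the divisor (helper671)

`exists_form` : `log ‖f‖_t = α + m log t + ∑ n_τ log max(t, |τ|)` along an annulus, `n_τ` the order
of `f` at the point `τ`; `seg` : on a segment without poles either `‖f‖_t` is smaller than the
maximum at the end points, or `‖f‖_t` is constant and `f` has no zeros over the segment.
-/

set_option autoImplicit false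
set_option linter.all false

namespace Crest.Agent.R013.Nrm_671

open Filter Topology
open scoped NNReal
open WithZero (exp)
open Crest.Agent.R013.Cell_408 Crest.Agent.R013.EE809
open Crest.Agent.R013.RR7_948

/-! ### norms of the factors -/

section factors

variable {k : Type*} [NontriviallyNormedField k] [CompleteSpace k]
variable {C : Type*} [NormedField C] [IsUltrametricDist C] [NormedAlgebra k C]
  [Algebra.IsAlgebraic k C] [DecidableEq C]

variable {c : C} (hc0 : c ≠ 0) (hc1 : ‖c‖ < 1) {t : ℝ} (h1 : ‖c‖ ≤ t) (h2 : t ≤ 1)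

include hc0 hc1 h1 h2

theorem gr_mo (n : ℤ) (A : C) : gr t (mo n A : EE k C) = ‖A‖ * t ^ n := by
  have hc : 0 < ‖c‖ := norm_pos_iff.2 hc0
  have ht : 0 < t := hc.trans_le h1
  refine le_antisymm (gr_le (Bdd.mo ht n A)) ?_
  have hA : An ‖c‖ (mo n A : EE k C) := ⟨_, Bdd.mo hc n A⟩
  have := le_gr hc h1 h2 hA n
  rwa [co_mo, if_pos rfl] at this

theorem gr_lin {τ : C} (hτ : ‖τ‖ < 1) : gr t (AnW_201.lin τ : EE k C) = max t ‖τ‖ := by
  have hc : 0 < ‖c‖ := norm_pos_iff.2 hc0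
  have ht : 0 < t := hc.trans_le h1
  have hA : An ‖c‖ (AnW_201.lin τ : EE k C) := AnW_201.inA_lin c τ
  refine le_antisymm (gr_le fun n => ?_) (max_le ?_ ?_)
  · rcases eq_or_ne n 0 with rfl | hn0
    · rw [AnW_201.co_lin_zero, norm_neg, zpow_zero, mul_one]; exact le_max_right _ _
    rcases eq_or_ne n 1 with rfl | hn1
    · rw [AnW_201.co_lin_one, norm_one, zpow_one, one_mul]; exact le_max_left _ _
    rw [AnW_201.co_lin_of τ hn0 hn1, norm_zero, zero_mul]
    exact le_max_of_le_left ht.le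
  · have := le_gr hc h1 h2 hA 1
    rwa [AnW_201.co_lin_one, norm_one, one_mul, zpow_one] at this
  · have := le_gr hc h1 h2 hA 0
    rwa [AnW_201.co_lin_zero, norm_neg, zpow_zero, mul_one] at this

theorem an_prod (S : Multiset C) : An ‖c‖ ((S.map AnW_201.lin).prod : EE k C) := by
  have hc : 0 < ‖c‖ := norm_pos_iff.2 hc0
  induction S using Multiset.induction_on with
  | empty => rw [Multiset.map_zero, Multiset.prod_zero]; exact An.one
  | cons i S ih =>
    rw [Multiset.map_cons, Multiset.prod_cons]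
    exact An.mul hc (AnW_201.inA_lin c i) ih

theorem gr_prod {S : Multiset C} (hS : ∀ τ ∈ S, ‖τ‖ < 1) :
    gr t ((S.map AnW_201.lin).prod : EE k C) = (S.map fun τ => max t ‖τ‖).prod := by
  have hc : 0 < ‖c‖ := norm_pos_iff.2 hc0
  induction S using Multiset.induction_on with
  | empty =>
    rw [Multiset.map_zero, Multiset.prod_zero, Multiset.map_zero, Multiset.prod_zero]
    exact gr_one_right hc hc1 h1 h2
  | cons i S ih =>
    rw [Multiset.map_cons, Multiset.prod_cons, Multiset.map_cons, Multiset.prod_cons,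
      gr_mul hc hc1 h1 h2 (AnW_201.inA_lin c i) (an_prod hc0 hc1 h1 h2 S),
      gr_lin hc0 hc1 h1 h2 (hS i (Multiset.mem_cons_self i S)),
      ih fun τ hτ => hS τ (Multiset.mem_cons_of_mem hτ)]

theorem gr_ua {u : EE k C} (hu : AnW_201.IsUA c u) : gr t u = 1 := by
  have hc : 0 < ‖c‖ := norm_pos_iff.2 hc0
  have hB : Bdd t 1 u := Bdd.interp hc h1 h2 (M := 1) hu.le' fun n => by
    rw [one_zpow, mul_one]; exact hu.le n
  refine le_antisymm (gr_le hB) ?_
  have := le_gr hc h1 h2 hu.inA 0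
  rwa [hu.zero, zpow_zero, mul_one] at this

/-- norm of a factored series -/
theorem gr_form {A : C} {N : ℤ} {S : Multiset C} {u : EE k C} (hS : ∀ τ ∈ S, ‖τ‖ < 1)
    (hu : AnW_201.IsUA c u) {U : Finset C} (hU : S.toFinset ⊆ U) :
    gr t (mo N A * (S.map AnW_201.lin).prod * u) =
      ‖A‖ * t ^ N * ∏ τ ∈ U, (max t ‖τ‖) ^ (S.count τ) := by
  have hc : 0 < ‖c‖ := norm_pos_iff.2 hc0
  have a1 : An ‖c‖ (mo N A : EE k C) := ⟨_, Bdd.mo hc N A⟩
  have a2 := an_prod (k := k) hc0 hc1 h1 h2 S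
  rw [gr_mul hc hc1 h1 h2 (An.mul hc a1 a2) hu.inA, gr_mul hc hc1 h1 h2 a1 a2, gr_ua hc0 hc1 h1 h2 hu,
    mul_one, gr_mo hc0 hc1 h1 h2, gr_prod hc0 hc1 h1 h2 hS, Finset.prod_multiset_map_count]
  congr 1
  refine Finset.prod_subset hU fun τ _ hτ => ?_
  rw [Multiset.count_eq_zero_of_notMem (fun h => hτ (Multiset.mem_toFinset.2 h)), pow_zero]

end factors

/-! ### the value at a point -/

section points

variable {k : Type*} [NontriviallyNormedField k] [CompleteSpace k] [IsUltrametricDist k]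
variable {C : Type*} [NormedField C] [IsUltrametricDist C] [NormedAlgebra k C]
  [Algebra.IsAlgebraic k C] [IsAlgClosed C] [DecidableEq C]

/-- split off the zeros at `τ` -/
theorem exists_split {c : C} (hc0 : c ≠ 0) {τ : C} (h1 : ‖c‖ < ‖τ‖) (h2 : ‖τ‖ < 1)
    {A : C} (hA : A ≠ 0) (N : ℤ) (S : Multiset C) {u v : EE k C} (hu : AnW_201.IsUA c u)
    (hv : AnW_201.IsUA c v) (huv : u * v = 1) :
    ∃ g : EE k C, SSK_332.InA c g ∧ SSK_332.evE τ g ≠ 0 ∧
      mo N A * (S.map AnW_201.lin).prod * u = SSK_332.lin τ ^ (S.count τ) * g := by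
  have hτ0 : τ ≠ 0 := norm_pos_iff.1 ((norm_nonneg c).trans_lt h1)
  have hprod : ∀ S' : Multiset C, (∀ σ ∈ S', σ ≠ τ) →
      AnW_201.InA c ((S'.map AnW_201.lin).prod : EE k C) ∧
      AnW_201.evE τ ((S'.map AnW_201.lin).prod : EE k C) ≠ 0 := by
    intro S'
    induction S' using Multiset.induction_on with
    | empty =>
      intro _
      rw [Multiset.map_zero, Multiset.prod_zero]
      refine ⟨AnW_201.inA_one c, ?_⟩
      have := AnW_201.evE_mo (k := k) τ 0 1
      rw [zpow_zero, mul_one] at this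
      rw [show (1 : EE k C) = mo 0 1 from mo_zero_one.symm, this]
      exact one_ne_zero
    | cons i S' ih =>
      intro h
      obtain ⟨h3, h4⟩ := ih fun σ hσ => h σ (Multiset.mem_cons_of_mem hσ)
      rw [Multiset.map_cons, Multiset.prod_cons]
      refine ⟨AnW_201.InA.mul (AnW_201.inA_lin c i) h3, ?_⟩
      rw [AnW_201.evE_mul h1 h2 hc0 (AnW_201.inA_lin c i) h3, AnW_201.evE_lin h1 h2 hc0]
      refine mul_ne_zero ?_ h4
      rw [sub_ne_zero]
      exact (h i (Multiset.mem_cons_self i S')).symm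
  obtain ⟨h3, h4⟩ := hprod (S.filter fun σ => σ ≠ τ) fun σ hσ => (Multiset.mem_filter.1 hσ).2
  set G : EE k C := ((S.filter fun σ => σ ≠ τ).map AnW_201.lin).prod with hG
  have hsplit : ((S.map AnW_201.lin).prod : EE k C) = AnW_201.lin τ ^ (S.count τ) * G := by
    conv_lhs => rw [← Multiset.filter_add_not (fun σ => σ = τ) S]
    rw [Multiset.map_add, Multiset.prod_add, Multiset.filter_eq', Multiset.map_replicate,
      Multiset.prod_replicate]
  have hmo := AnW_201.inA_mo (k := k) c N A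
  have heu : AnW_201.evE τ u ≠ 0 := by
    intro h
    have h5 := AnW_201.evE_mul h1 h2 hc0 hu.inA hv.inA
    rw [huv, h, zero_mul] at h5
    have := AnW_201.evE_mo (k := k) τ 0 1
    rw [zpow_zero, mul_one] at this
    rw [show (1 : EE k C) = mo 0 1 from mo_zero_one.symm, this] at h5
    exact one_ne_zero h5
  refine ⟨mo N A * G * u, (hmo.mul h3).mul hu.inA, ?_, ?_⟩
  · have : AnW_201.evE τ (mo N A * G * u) ≠ 0 := by
      rw [AnW_201.evE_mul h1 h2 hc0 (hmo.mul h3) hu.inA, AnW_201.evE_mul h1 h2 hc0 hmo h3,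
        AnW_201.evE_mo]
      exact mul_ne_zero (mul_ne_zero (mul_ne_zero hA (zpow_ne_zero _ hτ0)) h4) heu
    exact this
  · rw [hsplit]
    have : (SSK_332.lin τ : EE k C) = AnW_201.lin τ := rfl
    rw [this]
    ring

end points

/-! ### convexity -/

/-- **convexity**: a piecewise linear function with nonnegative kinks is smaller than the maximum
at the end points, or constant without kinks. -/
theorem conv {C : Type*} [NormedField C] (α : ℝ) (m : ℤ) (U : Finset C) (n : C → ℤ)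
    {r1 t r2 : ℝ} (h0 : 0 < r1) (h1 : r1 < t) (h2 : t < r2)
    (hn : ∀ τ ∈ U, r1 < ‖τ‖ → ‖τ‖ < r2 → 0 ≤ n τ) (L : ℝ → ℝ)
    (hL : ∀ s ∈ ({r1, t, r2} : Set ℝ),
      L s = α + m * Real.log s + ∑ τ ∈ U, n τ * Real.log (max s ‖τ‖)) :
    L t < max (L r1) (L r2) ∨
      (L r1 = L t ∧ L r2 = L t ∧ ∀ τ ∈ U, r1 < ‖τ‖ → ‖τ‖ < r2 → n τ = 0) := by
  have ht0 : 0 < t := h0.trans h1
  have hx1 : Real.log r1 < Real.log t := Real.log_lt_log h0 h1
  have hx2 : Real.log t < Real.log r2 := Real.log_lt_log ht0 h2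
  set x1 := Real.log r1 with hx1'
  set x := Real.log t with hx'
  set x2 := Real.log r2 with hx2'
  set ψ : C → ℝ := fun τ => (x2 - x) * Real.log (max r1 ‖τ‖) + (x - x1) * Real.log (max r2 ‖τ‖)
    - (x2 - x1) * Real.log (max t ‖τ‖) with hψ
  have hψ0 : ∀ τ : C, ¬ (r1 < ‖τ‖ ∧ ‖τ‖ < r2) → ψ τ = 0 := by
    intro τ hτ
    simp only [hψ]
    by_cases h : r1 < ‖τ‖
    · have h' : r2 ≤ ‖τ‖ := not_lt.1 fun h' => hτ ⟨h, h'⟩
      rw [max_eq_right h.le, max_eq_right h', max_eq_right (h2.le.trans h')]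
      ring
    · have h' : ‖τ‖ ≤ r1 := not_lt.1 h
      rw [max_eq_left h', max_eq_left (h'.trans (h1.trans h2).le), max_eq_left (h'.trans h1.le),
        ← hx1', ← hx2', ← hx']
      ring
  have hψ1 : ∀ τ : C, r1 < ‖τ‖ → ‖τ‖ < r2 → 0 < ψ τ := by
    intro τ h3 h4
    simp only [hψ]
    have hy1 : x1 < Real.log ‖τ‖ := Real.log_lt_log h0 h3
    have hy2 : Real.log ‖τ‖ < x2 := Real.log_lt_log (h0.trans h3) h4
    rw [max_eq_right h3.le, max_eq_left h4.le, ← hx2']
    rcases le_or_gt ‖τ‖ t with h | h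
    · rw [max_eq_left h, ← hx']
      have : (x2 - x) * Real.log ‖τ‖ + (x - x1) * x2 - (x2 - x1) * x =
        (x2 - x) * (Real.log ‖τ‖ - x1) := by ring
      rw [this]
      exact mul_pos (by linarith) (by linarith)
    · rw [max_eq_right h.le]
      have : (x2 - x) * Real.log ‖τ‖ + (x - x1) * x2 - (x2 - x1) * Real.log ‖τ‖ =
        (x - x1) * (x2 - Real.log ‖τ‖) := by ring
      rw [this]
      exact mul_pos (by linarith) (by linarith)
  have hnn : ∀ τ ∈ U, 0 ≤ (n τ : ℝ) * ψ τ := by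
    intro τ hτ
    by_cases h : r1 < ‖τ‖ ∧ ‖τ‖ < r2
    · exact mul_nonneg (by exact_mod_cast hn τ hτ h.1 h.2) (hψ1 τ h.1 h.2).le
    · rw [hψ0 τ h, mul_zero]
  have key : (x2 - x) * L r1 + (x - x1) * L r2 - (x2 - x1) * L t = ∑ τ ∈ U, (n τ : ℝ) * ψ τ := by
    rw [hL r1 (by simp), hL r2 (by simp), hL t (by simp), ← hx1', ← hx2', ← hx']
    have h3 : ∑ τ ∈ U, (n τ : ℝ) * ψ τ = (x2 - x) * ∑ τ ∈ U, (n τ : ℝ) * Real.log (max r1 ‖τ‖)
        + (x - x1) * ∑ τ ∈ U, (n τ : ℝ) * Real.log (max r2 ‖τ‖)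
        - (x2 - x1) * ∑ τ ∈ U, (n τ : ℝ) * Real.log (max t ‖τ‖) := by
      rw [Finset.mul_sum, Finset.mul_sum, Finset.mul_sum, ← Finset.sum_add_distrib,
        ← Finset.sum_sub_distrib]
      refine Finset.sum_congr rfl fun τ _ => ?_
      simp only [hψ]
      ring
    rw [h3]
    ring
  have hsum := Finset.sum_nonneg hnn
  by_cases hlt : L t < max (L r1) (L r2)
  · exact Or.inl hlt
  right
  rw [not_lt, max_le_iff] at hlt
  have h3 : 0 ≤ (x2 - x) * (L t - L r1) := mul_nonneg (by linarith) (by linarith [hlt.1])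
  have h4 : 0 ≤ (x - x1) * (L t - L r2) := mul_nonneg (by linarith) (by linarith [hlt.2])
  have h5 : (x2 - x) * (L t - L r1) + (x - x1) * (L t - L r2) + ∑ τ ∈ U, (n τ : ℝ) * ψ τ = 0 := by
    rw [← key]; ring
  have h6 : (x2 - x) * (L t - L r1) = 0 := by linarith
  have h7 : (x - x1) * (L t - L r2) = 0 := by linarith
  have h8 : ∑ τ ∈ U, (n τ : ℝ) * ψ τ = 0 := by linarith
  refine ⟨?_, ?_, ?_⟩
  · rcases mul_eq_zero.1 h6 with h | h
    · exact absurd h (by linarith)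
    · linarith
  · rcases mul_eq_zero.1 h7 with h | h
    · exact absurd h (by linarith)
    · linarith
  · intro τ hτ h9 h10
    have h11 := (Finset.sum_eq_zero_iff_of_nonneg hnn).1 h8 τ hτ
    rcases mul_eq_zero.1 h11 with h | h
    · exact_mod_cast h
    · exact absurd h (hψ1 τ h9 h10).ne'

/-! ### the formula along an annulus -/

section SSK

variable {k C K : Type*} [NontriviallyNormedField k] [CompleteSpace k] [IsUltrametricDist k]
    [NormedField C] [IsUltrametricDist C] [NormedAlgebra k C] [Algebra.IsAlgebraic k C]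
    [IsAlgClosed C] [Field K] [Algebra C K] (S : SSK_332.SSK k C K) (hk : DiscNorm k)

include hk

theorem exists_form (e : S.Ed) {f : K} (hf : f ≠ 0) :
    ∃ (α : ℝ) (m : ℤ) (U : Finset C) (n : C → ℤ),
      (∀ t, ‖S.cc e‖ ≤ t → t ≤ 1 → Real.log (nrmR S e t f) =
        α + m * Real.log t + ∑ τ ∈ U, n τ * Real.log (max t ‖τ‖)) ∧
      (∀ τ ∈ U, ‖S.cc e‖ < ‖τ‖ ∧ ‖τ‖ < 1) ∧ (∀ τ, τ ∉ U → n τ = 0) ∧
      ∀ τ h0 h1, (S.ptA e τ h0 h1).v f = exp (-(n τ)) := by
  classical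
  obtain ⟨g, h, g', h', h0, hg, hh, -, -, e1, -⟩ := S.ann e f
  have hc0 := S.cc_ne e
  have hc1 := S.cc_lt e
  have hc : 0 < ‖S.cc e‖ := norm_pos_iff.2 hc0
  have hψ : S.em (S.e0 e) f ≠ 0 := (map_ne_zero_iff _ (S.em _).injective).2 hf
  have hg0 : g ≠ 0 := by rw [← e1]; exact mul_ne_zero' hk hψ h0
  obtain ⟨A, N, S1, u, v, hA, hS1, hu, hv, huv, eg⟩ := AnW_201.exists_W hk hc0 hc1 hg hg0
  obtain ⟨A', N', S2, u', v', hA', hS2, hu', hv', huv', eh⟩ := AnW_201.exists_W hk hc0 hc1 hh h0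
  refine ⟨Real.log ‖A‖ - Real.log ‖A'‖, N - N', S1.toFinset ∪ S2.toFinset,
    fun τ => (S1.count τ : ℤ) - S2.count τ, ?_, ?_, ?_, ?_⟩
  · intro t h1 h2
    have ht : 0 < t := hc.trans_le h1
    have hmax : ∀ τ : C, 0 < max t ‖τ‖ := fun τ => lt_max_of_lt_left ht
    have e2 : nrmR S e t f = gr t g / gr t h := nrR_eq hc hc1 (fr_e0 S e) h1 h2 hg hh h0 e1
    rw [e2, eg, eh, gr_form hc0 hc1 h1 h2 (fun τ hτ => (hS1 τ hτ).2) hu
      (Finset.subset_union_left (s₂ := S2.toFinset)),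
      gr_form hc0 hc1 h1 h2 (fun τ hτ => (hS2 τ hτ).2) hu'
      (Finset.subset_union_right (s₁ := S1.toFinset))]
    have p1 : ∀ (A : C) (N : ℤ) (S : Multiset C) (U : Finset C), A ≠ 0 →
        0 < ‖A‖ * t ^ N * ∏ τ ∈ U, (max t ‖τ‖) ^ (S.count τ) := by
      intro A N S U hA
      exact mul_pos (mul_pos (norm_pos_iff.2 hA) (zpow_pos ht _))
        (Finset.prod_pos fun τ _ => pow_pos (hmax τ) _)
    have p2 : ∀ (A : C) (N : ℤ) (S : Multiset C) (U : Finset C), A ≠ 0 →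
        Real.log (‖A‖ * t ^ N * ∏ τ ∈ U, (max t ‖τ‖) ^ (S.count τ)) =
        Real.log ‖A‖ + N * Real.log t + ∑ τ ∈ U, (S.count τ : ℝ) * Real.log (max t ‖τ‖) := by
      intro A N S U hA
      rw [Real.log_mul (mul_pos (norm_pos_iff.2 hA) (zpow_pos ht _)).ne'
        (Finset.prod_pos fun τ _ => pow_pos (hmax τ) _).ne',
        Real.log_mul (norm_pos_iff.2 hA).ne' (zpow_pos ht _).ne', Real.log_zpow, Real.log_prod
        (fun τ _ => (pow_pos (hmax τ) _).ne')]
      congr 1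
      exact Finset.sum_congr rfl fun τ _ => Real.log_pow _ _
    rw [Real.log_div (p1 _ _ _ _ hA).ne' (p1 _ _ _ _ hA').ne', p2 _ _ _ _ hA, p2 _ _ _ _ hA']
    push_cast
    simp only [sub_mul, Finset.sum_sub_distrib]
    ring
  · intro τ hτ
    rcases Finset.mem_union.1 hτ with h | h
    · exact hS1 τ (Multiset.mem_toFinset.1 h)
    · exact hS2 τ (Multiset.mem_toFinset.1 h)
  · intro τ hτ
    rw [Finset.mem_union, not_or, Multiset.mem_toFinset, Multiset.mem_toFinset] at hτ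
    dsimp only
    rw [Multiset.count_eq_zero_of_notMem hτ.1, Multiset.count_eq_zero_of_notMem hτ.2]
    simp
  · intro τ h1 h2
    obtain ⟨a, b, g1, h3, ig1, ih3, eg1, eh3, e3, ev⟩ := S.ptA_ord e τ h1 h2 f hf
    obtain ⟨g2, ig2, eg2, e4⟩ := exists_split (k := k) hc0 h1 h2 hA N S1 hu hv huv
    obtain ⟨h4, ih4, eh4, e5⟩ := exists_split (k := k) hc0 h1 h2 hA' N' S2 hu' hv' huv'
    rw [← eg] at e4
    rw [← eh] at e5
    have e6 : SSK_332.lin τ ^ (S2.count τ + a) * (g1 * h4) =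
        SSK_332.lin τ ^ (S1.count τ + b) * (g2 * h3) := by
      have e7 : S.em (S.e0 e) f * (SSK_332.lin τ ^ b * h3) * h =
          S.em (S.e0 e) f * h * (SSK_332.lin τ ^ b * h3) := by ring
      rw [e3, e1, e4, e5] at e7
      rw [pow_add, pow_add]
      linear_combination e7
    have ev1 : ∀ {x y : EE k C}, SSK_332.InA (S.cc e) x → SSK_332.InA (S.cc e) y →
        SSK_332.evE τ x ≠ 0 → SSK_332.evE τ y ≠ 0 → SSK_332.evE τ (x * y) ≠ 0 := by
      intro x y hx hy hx0 hy0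
      have := AnW_201.evE_mul h1 h2 hc0 hx hy
      have h5 : SSK_332.evE τ (x * y) = SSK_332.evE τ x * SSK_332.evE τ y := this
      rw [h5]
      exact mul_ne_zero hx0 hy0
    have e8 := Pow4_931.order_uniqueA hk hc0 hc1 h1 h2
      (show SSK_332.InA (S.cc e) (g1 * h4) from AnW_201.InA.mul ig1 ih4)
      (show SSK_332.InA (S.cc e) (g2 * h3) from AnW_201.InA.mul ig2 ih3)
      (ev1 ig1 ih4 eg1 eh4) (ev1 ig2 ih3 eg2 eh3) e6
    rw [ev]
    congr 1
    dsimp only
    omega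

/-- **segments**: on a segment `(r1, r2)` of an annulus without poles of `f` the norm is smaller
than the maximum at the end points, or constant, and then `f` has no zeros over the segment. -/
theorem seg (e : S.Ed) {f : K} (hf : f ≠ 0) {r1 t r2 : ℝ} (h0 : ‖S.cc e‖ ≤ r1) (h1 : r1 < t)
    (h2 : t < r2) (h3 : r2 ≤ 1)
    (hreg : ∀ τ i0 i1, r1 < ‖τ‖ → ‖τ‖ < r2 → (S.ptA e τ i0 i1).v f ≤ 1) :
    nrmR S e t f < max (nrmR S e r1 f) (nrmR S e r2 f) ∨
      (nrmR S e r1 f = nrmR S e t f ∧ nrmR S e r2 f = nrmR S e t f ∧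
        ∀ τ i0 i1, r1 < ‖τ‖ → ‖τ‖ < r2 → (S.ptA e τ i0 i1).v f = 1) := by
  obtain ⟨α, m, U, n, hlog, hU, hU', hord⟩ := exists_form S hk e hf
  have hc := cc_pos S e
  have hp : ∀ s, ‖S.cc e‖ ≤ s → s ≤ 1 → 0 < nrmR S e s f := fun s a b => nrmR_pos S e a b hf
  have p1 := hp r1 h0 ((h1.trans h2).le.trans h3)
  have p2 := hp t (h0.trans h1.le) (h2.le.trans h3)
  have p3 := hp r2 (h0.trans (h1.trans h2).le) h3
  have key := conv α m U n (hc.trans_le h0) h1 h2 (fun τ hτ a b => by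
    obtain ⟨i0, i1⟩ := hU τ hτ
    have h4 := hreg τ i0 i1 a b
    rw [hord τ i0 i1, ← WithZero.exp_zero, WithZero.exp_le_exp] at h4
    omega) (fun s => Real.log (nrmR S e s f)) (by
    intro s hs
    simp only [Set.mem_insert_iff, Set.mem_singleton_iff] at hs
    rcases hs with rfl | rfl | rfl
    · exact hlog _ h0 ((h1.trans h2).le.trans h3)
    · exact hlog _ (h0.trans h1.le) (h2.le.trans h3)
    · exact hlog _ (h0.trans (h1.trans h2).le) h3)
  rcases key with h | ⟨h, h', h''⟩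
  · left
    rcases lt_max_iff.1 h with h | h
    · exact lt_max_of_lt_left ((Real.log_lt_log_iff p2 p1).1 h)
    · exact lt_max_of_lt_right ((Real.log_lt_log_iff p2 p3).1 h)
  · right
    refine ⟨Real.log_injOn_pos p1 p2 h, Real.log_injOn_pos p3 p2 h', fun τ i0 i1 a b => ?_⟩
    rw [hord τ i0 i1]
    by_cases hτ : τ ∈ U
    · rw [h'' τ hτ a b]; rfl
    · rw [hU' τ hτ]; rfl

end SSK

end Crest.Agent.R013.Nrm_671
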