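import Crest.Agent.R013.Nrm3_671
import Crest.Agent.R013.Conn3_315
import Crest.Agent.R013.CE1_280

/-!
# R013 / Nrm4: the norms of a semistable structure are distinct (helper671)

Maximum principle on the graph of a semistable structure, annuli included: a function whose only
pole is `ptA e ρ₀` is maximal at the norm `(e, ‖ρ₀‖)`.  Hence `ne_vertex`, `ne_annulus`:
`nrm e ‖ρ₀‖` is different from all vertex norms and from all other norms of annuli.
-/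

set_option autoImplicit false
set_option linter.all false

namespace Crest.Agent.R013.Nrm_671

open Filter Topology
open scoped NNReal
open WithZero (exp)
open Crest.Agent.R013.Cell_408 Crest.Agent.R013.EE809
open Crest.Agent.R013.RR7_948 Crest.Agent.R013.RR8_948 Crest.Agent.R013.RR9_948
open Crest.Agent.R013.RR11_948 Crest.Agent.R013.RR12_948

theorem zpow_lt_one_pos {t : ℝ} (h0 : 0 < t) (h1 : t < 1) {n : ℤ} (h : t ^ n < 1) : 0 < n := by
  by_contra hn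
  push Not at hn
  exact absurd h (not_lt.2 (one_le_zpow_of_nonpos₀ h0 h1.le hn))

theorem zpow_eq_one_zero {t : ℝ} (h0 : 0 < t) (h1 : t < 1) {n : ℤ} (h : t ^ n = 1) : n = 0 := by
  by_contra hn
  rcases lt_or_gt_of_ne hn with h2 | h2
  · exact absurd h (one_lt_zpow_of_neg₀ h0 h1 h2).ne'
  · exact absurd h (zpow_lt_one₀ h0 h1 h2).ne

variable {k C K : Type*} [NontriviallyNormedField k] [CompleteSpace k] [IsUltrametricDist k]
    [NormedField C] [IsUltrametricDist C] [NormedAlgebra k C] [Algebra.IsAlgebraic k C]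
    [IsAlgClosed C] [hk : Fact (DiscNorm k)] [Field K] [Algebra C K] (S : SSK_332.SSK k C K)

/-- the outer end of a segment `(r1, 1)` without poles, `‖f‖` not larger at `r1` -/
theorem outer_gen (e : S.Ed) {f : K} (hf : f ≠ 0) {r1 : ℝ} (h0 : ‖S.cc e‖ ≤ r1) (h1 : r1 < 1)
    (hreg : ∀ τ i0 i1, r1 < ‖τ‖ → (S.ptA e τ i0 i1).v f ≤ 1)
    (hle : nrmR S e r1 f ≤ nrmR S e 1 f) :
    0 < EE809.od (S.em (S.e0 e) f) ∨
      (EE809.od (S.em (S.e0 e) f) = 0 ∧ nrmR S e r1 f = nrmR S e 1 f) := by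
  obtain ⟨ρ', h2, h3, h4⟩ := nrmR_near_one S hk.out e hf
  obtain ⟨t, h5, h6⟩ := exists_between (max_lt h1 h3)
  have h7 : r1 < t := (le_max_left _ _).trans_lt h5
  have h8 : ρ' ≤ t := (le_max_right _ _).trans h5.le
  have ht : 0 < t := (cc_pos S e).trans_le (h0.trans h7.le)
  have hone := nrmR_one S hk.out e f
  have hpos : 0 < nrmR S e 1 f := nrmR_pos S e (S.cc_lt e).le le_rfl hf
  have h9 := h4 t h8 h6.le
  rw [← hone] at h9
  rcases seg S hk.out e hf h0 h7 h6 le_rfl (fun τ i0 i1 a _ => hreg τ i0 i1 a) with h | ⟨h, h', -⟩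
  · left
    rw [max_eq_right hle, h9] at h
    exact zpow_lt_one_pos ht h6 (by
      by_contra hcon
      rw [not_lt] at hcon
      exact absurd h (not_lt.2 (le_mul_of_one_le_right hpos.le hcon)))
  · right
    rw [h9] at h'
    refine ⟨zpow_eq_one_zero ht h6 ?_, ?_⟩
    · exact (mul_eq_left₀ hpos.ne').1 h'.symm
    · rw [h, h9]; exact h'.symm

/-- the inner end -/
theorem inner_gen (e : S.Ed) {f : K} (hf : f ≠ 0) {r2 : ℝ} (h0 : ‖S.cc e‖ < r2) (h1 : r2 ≤ 1)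
    (hreg : ∀ τ i0 i1, ‖τ‖ < r2 → (S.ptA e τ i0 i1).v f ≤ 1)
    (hle : nrmR S e r2 f ≤ nrmR S e ‖S.cc e‖ f) :
    0 < EE809.od (S.em (S.e1 e) f) ∨
      (EE809.od (S.em (S.e1 e) f) = 0 ∧ nrmR S e r2 f = nrmR S e ‖S.cc e‖ f) := by
  obtain ⟨ρ', h2, h3, h4⟩ := nrmR_near_cc S hk.out e hf
  have hc := cc_pos S e
  obtain ⟨t, h5, h6⟩ := exists_between (lt_min h0 h2)
  have h7 : t < r2 := h6.trans_le (min_le_left _ _)
  have h8 : t ≤ ρ' := h6.le.trans (min_le_right _ _)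
  have ht : 0 < t := hc.trans h5
  have hone := nrmR_cc S hk.out e f
  have hpos : 0 < nrmR S e ‖S.cc e‖ f := nrmR_pos S e le_rfl (S.cc_lt e).le hf
  have h9 := h4 t h5.le h8
  rw [← hone] at h9
  have hq0 : 0 < ‖S.cc e‖ / t := by positivity
  have hq1 : ‖S.cc e‖ / t < 1 := (div_lt_one ht).2 h5
  rcases seg S hk.out e hf le_rfl h5 h7 h1 (fun τ i0 i1 _ a => hreg τ i0 i1 a) with h | ⟨h, h', -⟩
  · left
    rw [max_eq_left hle, h9] at h
    exact zpow_lt_one_pos hq0 hq1 (by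
      by_contra hcon
      rw [not_lt] at hcon
      exact absurd h (not_lt.2 (le_mul_of_one_le_right hpos.le hcon)))
  · right
    rw [h9] at h
    refine ⟨zpow_eq_one_zero hq0 hq1 ?_, ?_⟩
    · exact (mul_eq_left₀ hpos.ne').1 h.symm
    · rw [h', h9]; exact h.symm

section Max

variable {S} {e : S.Ed} {r0 : ℝ} (h0 : ‖S.cc e‖ < r0) (h1 : r0 < 1) {f : K} (hf : f ≠ 0)
  (regD : ∀ d (hd : S.IsDisc d) τ hτ, (S.ptD d hd.1 hd.2 τ hτ).v f ≤ 1)
  (regA : ∀ a τ i0 i1, (a = e → ‖τ‖ ≠ r0) → (S.ptA a τ i0 i1).v f ≤ 1)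

include h0 h1 hf regA in
/-- at the outer end of an edge at a maximal vertex -/
theorem outer_max {M : ℝ} (hM : nrmR S e r0 f ≤ M)
    (hmax : ∀ w, ((S.nm w).v f : ℝ) ≤ M) (a : S.Ed) (ha : ((S.nm (S.e0 a).1).v f : ℝ) = M) :
    0 < EE809.od (S.em (S.e0 a) f) ∨ (EE809.od (S.em (S.e0 a) f) = 0 ∧
      ((a ≠ e ∧ ((S.nm (S.e1 a).1).v f : ℝ) = M) ∨ (a = e ∧ nrmR S e r0 f = M))) := by
  have hone : nrmR S a 1 f = M := by rw [nrmR_one S hk.out]; exact ha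
  by_cases hae : a = e
  · subst hae
    rcases outer_gen S a hf h0.le h1 (fun τ i0 i1 b => regA a τ i0 i1 fun _ => b.ne')
      (by rw [hone]; exact hM) with h | ⟨h, h'⟩
    · exact Or.inl h
    · exact Or.inr ⟨h, Or.inr ⟨rfl, by rw [h', hone]⟩⟩
  · have hcc : nrmR S a ‖S.cc a‖ f = (S.nm (S.e1 a).1).v f := nrmR_cc S hk.out a f
    rcases outer_gen S a hf le_rfl (S.cc_lt a)
      (fun τ i0 i1 b => regA a τ i0 i1 fun h => absurd h hae)
      (by rw [hone, hcc]; exact hmax _) with h | ⟨h, h'⟩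
    · exact Or.inl h
    · exact Or.inr ⟨h, Or.inl ⟨hae, by rw [← hcc, h', hone]⟩⟩

include h0 h1 hf regA in
theorem inner_max {M : ℝ} (hM : nrmR S e r0 f ≤ M)
    (hmax : ∀ w, ((S.nm w).v f : ℝ) ≤ M) (a : S.Ed) (ha : ((S.nm (S.e1 a).1).v f : ℝ) = M) :
    0 < EE809.od (S.em (S.e1 a) f) ∨ (EE809.od (S.em (S.e1 a) f) = 0 ∧
      ((a ≠ e ∧ ((S.nm (S.e0 a).1).v f : ℝ) = M) ∨ (a = e ∧ nrmR S e r0 f = M))) := by
  have hcc : nrmR S a ‖S.cc a‖ f = M := by rw [nrmR_cc S hk.out]; exact ha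
  by_cases hae : a = e
  · subst hae
    rcases inner_gen S a hf h0 h1.le (fun τ i0 i1 b => regA a τ i0 i1 fun _ => b.ne)
      (by rw [hcc]; exact hM) with h | ⟨h, h'⟩
    · exact Or.inl h
    · exact Or.inr ⟨h, Or.inr ⟨rfl, by rw [h', hcc]⟩⟩
  · have hone : nrmR S a 1 f = (S.nm (S.e0 a).1).v f := nrmR_one S hk.out a f
    rcases inner_gen S a hf (S.cc_lt a) le_rfl
      (fun τ i0 i1 b => regA a τ i0 i1 fun h => absurd h hae)
      (by rw [hcc, hone]; exact hmax _) with h | ⟨h, h'⟩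
    · exact Or.inl h
    · exact Or.inr ⟨h, Or.inl ⟨hae, by rw [← hone, h', hcc]⟩⟩

include h0 h1 hf regD regA in
/-- all orders vanish at a maximal vertex -/
theorem vertex_max {M : ℝ} (hM : nrmR S e r0 f ≤ M)
    (hmax : ∀ w, ((S.nm w).v f : ℝ) ≤ M) (d : S.Dir) (hv : ((S.nm d.1).v f : ℝ) = M) :
    EE809.od (S.em d f) = 0 := by
  have key : ∀ x, 0 ≤ Red332.od (S.nm d.1) x f := by
    intro x
    have hodx := S.em_od ⟨d.1, x⟩ f hf
    rw [← hodx]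
    by_cases i0 : ∃ a, (⟨d.1, x⟩ : S.Dir) = S.e0 a
    · obtain ⟨a, ha⟩ := i0
      rw [ha]
      rcases outer_max h0 h1 hf regA hM hmax a (by rw [← ha]; exact hv) with h | ⟨h, -⟩
      · exact h.le
      · exact h.ge
    by_cases i1 : ∃ a, (⟨d.1, x⟩ : S.Dir) = S.e1 a
    · obtain ⟨a, ha⟩ := i1
      rw [ha]
      rcases inner_max h0 h1 hf regA hM hmax a (by rw [← ha]; exact hv) with h | ⟨h, -⟩
      · exact h.le
      · exact h.ge
    push Not at i0 i1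
    obtain ⟨b, hb⟩ := Conn_315.disc_regular S (d := ⟨d.1, x⟩) ⟨i0, i1⟩ (f := f)
      (fun τ hτ => regD _ ⟨i0, i1⟩ τ hτ)
    rw [hb]
    refine Conn_315.od_ofBD_nonneg ?_
    rintro rfl
    rw [map_zero] at hb
    exact (map_ne_zero_iff _ (S.em _).injective).2 hf hb
  have h2 := Conn_315.kirchhoff (S.nm d.1) (S.ff d.1) hf key
  rw [S.em_od d f hf]
  exact h2 d.2

include h0 h1 hf regD regA in
/-- **maximum principle** -/
theorem max_principle (hconn : S.Conn) (v : S.V) : ((S.nm v).v f : ℝ) ≤ nrmR S e r0 f := by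
  haveI := S.fV
  haveI := hconn.1
  obtain ⟨v', hv'⟩ := Finite.exists_max fun w : S.V => ((S.nm w).v f : ℝ)
  refine (hv' v).trans ?_
  by_contra hcon
  rw [not_le] at hcon
  set M := ((S.nm v').v f : ℝ) with hMdef
  have step : ∀ w w', ((S.nm w).v f : ℝ) = M → S.Adj w w' → ((S.nm w').v f : ℝ) = M := by
    rintro w w' hw ⟨a, h | h⟩
    · obtain ⟨rfl, rfl⟩ := h
      have h2 := vertex_max h0 h1 hf regD regA hcon.le hv' (S.e0 a) hw
      rcases outer_max h0 h1 hf regA hcon.le hv' a hw with h | ⟨-, ⟨-, h⟩ | ⟨-, h⟩⟩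
      · exact absurd h (by rw [h2]; exact lt_irrefl _)
      · exact h
      · exact absurd h hcon.ne
    · obtain ⟨rfl, rfl⟩ := h
      have h2 := vertex_max h0 h1 hf regD regA hcon.le hv' (S.e1 a) hw
      rcases inner_max h0 h1 hf regA hcon.le hv' a hw with h | ⟨-, ⟨-, h⟩ | ⟨-, h⟩⟩
      · exact absurd h (by rw [h2]; exact lt_irrefl _)
      · exact h
      · exact absurd h hcon.ne
  have hreach : ∀ w, Relation.ReflTransGen S.Adj v' w → ((S.nm w).v f : ℝ) = M := by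
    intro w hw
    induction hw with
    | refl => rfl
    | tail _ h ih => exact step _ _ ih h
  have hw := hreach _ (hconn.2 v' (S.e0 e).1)
  have h2 := vertex_max h0 h1 hf regD regA hcon.le hv' (S.e0 e) hw
  rcases outer_max h0 h1 hf regA hcon.le hv' e hw with h | ⟨-, ⟨h, -⟩ | ⟨-, h⟩⟩
  · exact absurd h (by rw [h2]; exact lt_irrefl _)
  · exact h rfl
  · exact absurd h hcon.ne

end Max

omit [CompleteSpace k] [IsUltrametricDist k] [Algebra.IsAlgebraic k C] hk [IsUltrametricDist C] in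
/-- the norms of an algebraically closed field are dense -/
theorem exists_norm_between (k : Type*) [NontriviallyNormedField k] {C : Type*} [NormedField C]
    [NormedAlgebra k C] [IsAlgClosed C] {a b : ℝ} (ha : 0 < a) (hab : a < b) :
    ∃ c : C, a < ‖c‖ ∧ ‖c‖ < b := by
  obtain ⟨x, hx⟩ := NormedField.exists_one_lt_norm k
  have hx' : 1 < ‖algebraMap k C x‖ := by rwa [norm_algebraMap']
  have hb : 0 < b := ha.trans hab
  have hba : 1 < b / a := (one_lt_div ha).2 hab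
  obtain ⟨n, hn⟩ := pow_unbounded_of_one_lt ‖algebraMap k C x‖ hba
  have hn0 : 0 < n := by
    rcases Nat.eq_zero_or_pos n with rfl | h
    · rw [pow_zero] at hn; exact absurd hn (not_lt.2 hx'.le)
    · exact h
  obtain ⟨z, hz⟩ := IsAlgClosed.exists_pow_nat_eq (algebraMap k C x) hn0
  have hz1 : ‖z‖ ^ n = ‖algebraMap k C x‖ := by rw [← norm_pow, hz]
  have h1 : 1 < ‖z‖ := by
    by_contra h
    rw [not_lt] at h
    have := pow_le_one₀ (n := n) (norm_nonneg z) h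
    rw [hz1] at this
    exact absurd hx' (not_lt.2 this)
  have h2 : ‖z‖ < b / a := lt_of_pow_lt_pow_left₀ n (div_pos hb ha).le (by rw [hz1]; exact hn)
  obtain ⟨m, hm1, hm2⟩ := exists_mem_Ioc_zpow hb h1
  refine ⟨z ^ m, ?_, by rw [norm_zpow]; exact hm1⟩
  rw [norm_zpow]
  have hz0 : 0 < ‖z‖ := one_pos.trans h1
  have h3 : b ≤ ‖z‖ ^ m * ‖z‖ := by rwa [← zpow_add_one₀ hz0.ne']
  have h4 : ‖z‖ ^ m * ‖z‖ < ‖z‖ ^ m * (b / a) := mul_lt_mul_of_pos_left h2 (zpow_pos hz0 _)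
  have h5 : b < ‖z‖ ^ m * (b / a) := h3.trans_lt h4
  have h6 : b * a < ‖z‖ ^ m * b := by
    have := mul_lt_mul_of_pos_right h5 ha
    rwa [mul_assoc, div_mul_cancel₀ _ ha.ne'] at this
  rw [mul_comm] at h6
  exact lt_of_mul_lt_mul_right h6 hb.le

section Distinct

variable [Algebra (RatFunc C) K] [IsScalarTower C (RatFunc C) K]
    [FiniteDimensional (RatFunc C) K] [Algebra.IsSeparable (RatFunc C) K]

omit [NontriviallyNormedField k] [CompleteSpace k] [IsUltrametricDist k] [NormedField C]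
  [IsUltrametricDist C] [NormedAlgebra k C] [Algebra.IsAlgebraic k C] [IsAlgClosed C] hk [Algebra C K]
  [Algebra (RatFunc C) K] [IsScalarTower C (RatFunc C) K] [FiniteDimensional (RatFunc C) K]
  [Algebra.IsSeparable (RatFunc C) K] in
/-- a function with its only pole at `P1` and a zero at `P2` -/
theorem exists_fun {C K : Type*} [Field C] [IsAlgClosed C] [Field K] [Algebra C K]
    [Algebra (RatFunc C) K] [IsScalarTower C (RatFunc C) K]
    [FiniteDimensional (RatFunc C) K] [Algebra.IsSeparable (RatFunc C) K]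
    (P1 P2 : Pl C K) (h12 : P2 ≠ P1) :
    ∃ f : K, f ≠ 0 ∧ (∀ Q, Q ≠ P1 → Q.v f ≤ 1) ∧ P2.v f < 1 := by
  have hbot : algebraicClosure C K = ⊥ := by
    rw [eq_bot_iff]
    intro x hx
    rw [mem_algebraicClosure_iff] at hx
    have hmon := minpoly.monic hx.isIntegral
    have hirr := minpoly.irreducible hx.isIntegral
    have hdeg := IsAlgClosed.degree_eq_one_of_irreducible C hirr
    obtain ⟨y, hy⟩ := minpoly.mem_range_of_degree_eq_one C x hdeg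
    exact IntermediateField.mem_bot.2 ⟨y, hy⟩
  obtain ⟨n, hn1, hn2⟩ : ∃ n : ℕ, 1 ≤ n ∧ 2 * (gen C K : ℤ) - 2 < (n - 1) * degP P1 := by
    refine ⟨(2 * gen C K + 1 : ℕ), by omega, ?_⟩
    have h1 : (1 : ℤ) ≤ degP P1 := by exact_mod_cast degP_pos P1
    have h2 : (0 : ℤ) ≤ gen C K := by positivity
    push_cast
    nlinarith
  obtain ⟨f, hf1, hf2⟩ := exists_pole_order hbot P1 n hn2 hn1
  obtain ⟨l, hl⟩ := CE1_280.exists_residue P2 (hf2 P2 h12)
  have hconst : ∀ P : Pl C K, P.v (algebraMap C K l) ≤ 1 := by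
    intro P
    by_cases h : l = 0
    · rw [h, map_zero, map_zero]; exact zero_le
    · exact (P.const l h).le
  refine ⟨f - algebraMap C K l, ?_, fun Q hQ => ?_, hl⟩
  · intro h
    have h1 : f = algebraMap C K l := sub_eq_zero.1 h
    have h2 := hconst P1
    rw [← h1, hf1, ← WithZero.exp_zero, WithZero.exp_le_exp] at h2
    omega
  · exact (Valuation.map_sub _ _ _).trans (max_le (hf2 Q hQ) (hconst _))

variable (hconn : S.Conn) (e : S.Ed) {ρ₀ : C} (h0 : ‖S.cc e‖ < ‖ρ₀‖) (h1 : ‖ρ₀‖ < 1)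

include hconn h0 h1

/-- **the norms inside an annulus are no vertices** -/
theorem ne_vertex (v : S.V) :
    ∃ f : K, f ≠ 0 ∧ ((S.nm v).v f : ℝ) < nrmR S e ‖ρ₀‖ f := by
  obtain ⟨d, hd, rfl⟩ := Conn_315.exists_disc S v
  have h00 : ‖(0 : C)‖ < 1 := by rw [norm_zero]; exact one_pos
  obtain ⟨f, hf, hreg, hz⟩ := exists_fun (S.ptA e ρ₀ h0 h1) (S.ptD d hd.1 hd.2 0 h00)
    (S.ptDA _ _ _ _ _ _ _ _ _)
  have regD : ∀ d (hd : S.IsDisc d) τ hτ, (S.ptD d hd.1 hd.2 τ hτ).v f ≤ 1 :=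
    fun d hd τ hτ => hreg _ (S.ptDA _ _ _ _ _ _ _ _ _)
  have regA : ∀ a τ i0 i1, (a = e → ‖τ‖ ≠ ‖ρ₀‖) → (S.ptA a τ i0 i1).v f ≤ 1 := by
    intro a τ i0 i1 ha
    refine hreg _ fun h => ?_
    obtain ⟨h2, h3⟩ := S.ptA_inj _ _ _ _ _ _ _ _ h
    exact ha h2 (by rw [h3])
  have hmax := fun w => max_principle h0 h1 hf regD regA hconn w
  refine ⟨f, hf, lt_of_le_of_ne (hmax _) fun heq => ?_⟩
  have hod := vertex_max h0 h1 hf regD regA le_rfl hmax d heq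
  obtain ⟨b, hb⟩ := Conn_315.disc_regular S hd (f := f) (fun τ hτ => regD _ hd τ hτ)
  have h2 := (Conn_315.disc_lt_one_iff S hd hf hb h00).1 hz
  have hb0 : b ≠ 0 := by
    rintro rfl
    rw [map_zero] at hb
    exact (map_ne_zero_iff _ (S.em _).injective).2 hf hb
  have h3 := Conn_315.od_ofBD_pos hb0 h00 h2
  rw [← hb, hod] at h3
  exact lt_irrefl _ h3

/-- **different norms in annuli are different** -/
theorem ne_annulus (e' : S.Ed) {r' : ℝ} (i0 : ‖S.cc e'‖ < r') (i1 : r' < 1)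
    (hne : e' = e → r' ≠ ‖ρ₀‖) :
    ∃ f : K, f ≠ 0 ∧ nrmR S e' r' f < nrmR S e ‖ρ₀‖ f := by
  -- the segment
  obtain ⟨r1, r2, j0, j1, j2, j3, j4, j5, j6⟩ : ∃ r1 r2 : ℝ, ‖S.cc e'‖ ≤ r1 ∧ r1 < r' ∧ r' < r2 ∧
      r2 ≤ 1 ∧ (e' = e → ¬ (r1 < ‖ρ₀‖ ∧ ‖ρ₀‖ < r2)) ∧ (r1 = ‖S.cc e'‖ ∨ (e' = e ∧ r1 = ‖ρ₀‖)) ∧
      (r2 = 1 ∨ (e' = e ∧ r2 = ‖ρ₀‖)) := by
    by_cases he : e' = e
    · rcases lt_or_gt_of_ne (hne he) with h | h
      · exact ⟨‖S.cc e'‖, ‖ρ₀‖, le_rfl, i0, h, h1.le, fun _ h2 => lt_irrefl _ h2.2, Or.inl rfl,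
          Or.inr ⟨he, rfl⟩⟩
      · exact ⟨‖ρ₀‖, 1, by rw [he]; exact h0.le, h, i1, le_rfl, fun _ h2 => lt_irrefl _ h2.1,
          Or.inr ⟨he, rfl⟩, Or.inl rfl⟩
    · exact ⟨‖S.cc e'‖, 1, le_rfl, i0, i1, le_rfl, fun h => absurd h he, Or.inl rfl, Or.inl rfl⟩
  have hr1 : 0 < r1 := (cc_pos S e').trans_le j0
  obtain ⟨τ₂, k1, k2⟩ := exists_norm_between k (C := C) hr1 (j1.trans j2)
  have k3 : ‖S.cc e'‖ < ‖τ₂‖ := j0.trans_lt k1
  have k4 : ‖τ₂‖ < 1 := k2.trans_le j3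
  obtain ⟨f, hf, hreg, hz⟩ := exists_fun (S.ptA e ρ₀ h0 h1) (S.ptA e' τ₂ k3 k4) (by
    intro h
    obtain ⟨h2, h3⟩ := S.ptA_inj _ _ _ _ _ _ _ _ h
    exact j4 h2 ⟨by rw [← h3]; exact k1, by rw [← h3]; exact k2⟩)
  have regD : ∀ d (hd : S.IsDisc d) τ hτ, (S.ptD d hd.1 hd.2 τ hτ).v f ≤ 1 :=
    fun d hd τ hτ => hreg _ (S.ptDA _ _ _ _ _ _ _ _ _)
  have regA : ∀ a τ i0 i1, (a = e → ‖τ‖ ≠ ‖ρ₀‖) → (S.ptA a τ i0 i1).v f ≤ 1 := by
    intro a τ i0 i1 ha
    refine hreg _ fun h => ?_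
    obtain ⟨h2, h3⟩ := S.ptA_inj _ _ _ _ _ _ _ _ h
    exact ha h2 (by rw [h3])
  have hmax := fun w => max_principle h0 h1 hf regD regA hconn w
  refine ⟨f, hf, ?_⟩
  have l1 : nrmR S e' r1 f ≤ nrmR S e ‖ρ₀‖ f := by
    rcases j5 with h | ⟨h, h'⟩
    · rw [h, nrmR_cc S hk.out]; exact hmax _
    · rw [h, h']
  have l2 : nrmR S e' r2 f ≤ nrmR S e ‖ρ₀‖ f := by
    rcases j6 with h | ⟨h, h'⟩
    · rw [h, nrmR_one S hk.out]; exact hmax _
    · rw [h, h']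
  rcases seg S hk.out e' hf j0 j1 j2 j3 (fun τ m0 m1 a b => regA e' τ m0 m1 fun h h' => by
    exact j4 h ⟨by rw [← h']; exact a, by rw [← h']; exact b⟩) with h | ⟨-, -, h⟩
  · exact h.trans_le (max_le l1 l2)
  · rw [h τ₂ k3 k4 k1 k2] at hz
    exact absurd hz (lt_irrefl _)

end Distinct

end Crest.Agent.R013.Nrm_671
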