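import Mathlib

/-!
# Theorem (ONE), part 1: the `u, 1/u` lemma

`R` a local subring of a field `L`, integrally closed in `L`, `x : L`. Either `x ∈ R`, or `x⁻¹ ∈ R`,
or there is a valuation subring `W` of `L` dominating `R`, containing `x`, in which `x` is residually
transcendental over `R`: `aeval x P` is a unit of `W` for every polynomial `P` over `R` with a
coefficient which is a unit of `R`.
-/

set_option autoImplicit false

namespace Crest.Agent.R013.One920

open Polynomial IsLocalRing

variable {L : Type*} [Field L]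

section UU

variable (R : Subring L) [IsLocalRing R]

/-- **`u, 1/u` lemma.** A polynomial relation for `x` over `R` with a unit coefficient. -/
theorem mem_or_inv_mem_of_aeval (hR : ∀ y : L, IsIntegral R y → y ∈ R) (x : L) (n : ℕ) :
    ∀ p : R[X], p.natDegree ≤ n → aeval x p = 0 → (∃ i, IsUnit (p.coeff i)) →
      x ∈ R ∨ x⁻¹ ∈ R := by
  induction n with
  | zero =>
    intro p hp h0 ⟨i, hi⟩
    rw [Polynomial.eq_C_of_natDegree_le_zero hp, aeval_C] at h0
    have h1 : p.coeff 0 = 0 := by
      apply Subtype.ext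
      simpa using h0
    rcases Nat.eq_zero_or_pos i with rfl | hi0
    · rw [h1] at hi
      exact absurd hi not_isUnit_zero
    · rw [coeff_eq_zero_of_natDegree_lt (lt_of_le_of_lt hp hi0)] at hi
      exact absurd hi not_isUnit_zero
  | succ n ih =>
    intro p hp h0 ⟨i, hi⟩
    by_cases hx : x = 0
    · left; rw [hx]; exact R.zero_mem
    by_cases hpn : p.natDegree ≤ n
    · exact ih p hpn h0 ⟨i, hi⟩
    have hdeg : p.natDegree = n + 1 := by omega
    have hc : IsIntegral R (p.leadingCoeff • x) := isIntegral_leadingCoeff_smul p x h0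
    have hcR : (p.leadingCoeff : L) * x ∈ R := by
      have := hR _ hc
      rwa [Algebra.smul_def] at this
    by_cases hu : IsUnit p.leadingCoeff
    · left
      obtain ⟨v, hv⟩ := hu
      have h1 : x = ((v⁻¹ : Rˣ) : R) * ((p.leadingCoeff : L) * x) := by
        rw [← mul_assoc, ← hv]
        have h2 : (((v⁻¹ : Rˣ) : R) : L) * ((v : R) : L) = 1 := by
          rw [← Subring.coe_mul, Units.inv_mul, Subring.coe_one]
        rw [h2, one_mul]
      rw [h1]
      exact R.mul_mem (SetLike.coe_mem _) hcR
    · set c : R := ⟨(p.leadingCoeff : L) * x, hcR⟩ with hcdef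
      set q : R[X] := p.eraseLead + C c * X ^ n with hq
      have hqdeg : q.natDegree ≤ n := by
        rw [hq]
        refine (natDegree_add_le _ _).trans (max_le ?_ (natDegree_C_mul_X_pow_le _ _))
        refine (eraseLead_natDegree_le p).trans (by omega)
      have hq0 : aeval x q = 0 := by
        have h1 : aeval x p = aeval x p.eraseLead + (p.leadingCoeff : L) * x ^ (n + 1) := by
          conv_lhs => rw [← eraseLead_add_C_mul_X_pow p, hdeg]
          rw [map_add, map_mul, aeval_C, map_pow, aeval_X]
          rfl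
        rw [hq, map_add, map_mul, aeval_C, map_pow, aeval_X]
        have h2 : (algebraMap R L) c = (p.leadingCoeff : L) * x := rfl
        rw [h2]
        rw [h0] at h1
        rw [pow_succ'] at h1
        linear_combination -h1
      by_cases hqu : ∃ j, IsUnit (q.coeff j)
      · exact ih q hqdeg hq0 hqu
      · push Not at hqu
        -- the unit coefficient of `p` is the `n`-th one
        have hin : i = n := by
          rcases lt_trichotomy i n with h | h | h
          · exfalso
            refine hqu i ?_
            rw [hq, coeff_add, coeff_C_mul_X_pow, if_neg (by omega), add_zero,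
              eraseLead_coeff_of_ne _ (by omega)]
            exact hi
          · exact h
          · exfalso
            rcases Nat.lt_or_ge (n + 1) i with h' | h'
            · rw [coeff_eq_zero_of_natDegree_lt (by omega)] at hi
              exact not_isUnit_zero hi
            · have : i = p.natDegree := by omega
              rw [this] at hi
              exact hu hi
        subst hin
        have h3 : ¬ IsUnit (p.coeff i + c) := by
          have := hqu i
          rwa [hq, coeff_add, coeff_C_mul_X_pow, if_pos rfl, eraseLead_coeff_of_ne _ (by omega)]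
            at this
        have hcu : IsUnit c := by
          by_contra hcn
          have h4 : IsUnit (p.coeff i + c - c) := by rwa [add_sub_cancel_right]
          rw [sub_eq_add_neg] at h4
          rcases IsLocalRing.isUnit_or_isUnit_of_isUnit_add h4 with h5 | h5
          · exact h3 h5
          · exact hcn (by rwa [IsUnit.neg_iff] at h5)
        right
        obtain ⟨v, hv⟩ := hcu
        have h6 : x⁻¹ = (p.leadingCoeff : L) * ((v⁻¹ : Rˣ) : R) := by
          have h7 : (((v⁻¹ : Rˣ) : R) : L) * ((p.leadingCoeff : L) * x) = 1 := by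
            have : ((c : R) : L) = (p.leadingCoeff : L) * x := rfl
            rw [← this, ← hv, ← Subring.coe_mul, Units.inv_mul, Subring.coe_one]
          refine inv_eq_of_mul_eq_one_left ?_
          linear_combination h7
        rw [h6]
        exact R.mul_mem (SetLike.coe_mem _) (SetLike.coe_mem _)

/-- The multiplicative set of values at `x` of polynomials with a unit coefficient. -/
def unitPoly (x : L) : Submonoid (Algebra.adjoin R ({x} : Set L)) where
  carrier := {a | ∃ P : R[X], (∃ i, IsUnit (P.coeff i)) ∧ (a : L) = aeval x P}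
  one_mem' := ⟨1, ⟨0, by simp⟩, by simp⟩
  mul_mem' := by
    rintro a b ⟨P, ⟨i, hi⟩, hP⟩ ⟨Q, ⟨j, hj⟩, hQ⟩
    refine ⟨P * Q, ?_, by rw [map_mul, ← hP, ← hQ]; rfl⟩
    by_contra hcon
    push Not at hcon
    have hmap : (P * Q).map (residue R) = 0 := by
      ext m
      rw [coeff_map, coeff_zero]
      exact (residue_eq_zero_iff _).2 ((mem_maximalIdeal _).2 (hcon m))
    rw [Polynomial.map_mul, mul_eq_zero] at hmap
    rcases hmap with h | h
    · have h1 := congrArg (fun p => coeff p i) h
      simp only [coeff_map, coeff_zero] at h1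
      exact ((mem_maximalIdeal _).1 ((residue_eq_zero_iff _).1 h1)) hi
    · have h1 := congrArg (fun p => coeff p j) h
      simp only [coeff_map, coeff_zero] at h1
      exact ((mem_maximalIdeal _).1 ((residue_eq_zero_iff _).1 h1)) hj

/-- **Valuation subring with transcendental residue** -/
theorem exists_transcendental (hR : ∀ y : L, IsIntegral R y → y ∈ R) (x : L) (hx : x ∉ R)
    (hx' : x⁻¹ ∉ R) :
    ∃ W : ValuationSubring L, (∀ a : L, a ∈ R → a ∈ W) ∧
      (∀ a : R, ¬ IsUnit a → (a : L) ∈ W.nonunits) ∧ x ∈ W ∧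
      ∀ P : R[X], (∃ i, IsUnit (P.coeff i)) → (aeval x P)⁻¹ ∈ W := by
  classical
  set A := Algebra.adjoin R ({x} : Set L) with hA
  let I : Ideal A := (maximalIdeal R).map (algebraMap R A)
  -- elements of `I` are values of polynomials with coefficients in the maximal ideal
  have hxA : x ∈ A := Algebra.subset_adjoin (Set.mem_singleton x)
  have hI : ∀ a ∈ I, ∃ P : R[X], (∀ i, ¬ IsUnit (P.coeff i)) ∧ ((a : A) : L) = aeval x P := by
    intro a ha
    refine Submodule.span_induction (p := fun a _ => ∃ P : R[X], (∀ i, ¬ IsUnit (P.coeff i)) ∧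
      ((a : A) : L) = aeval x P) ?_ ?_ ?_ ?_ ha
    · rintro _ ⟨m, hm, rfl⟩
      refine ⟨C m, fun i => ?_, by rw [aeval_C]; rfl⟩
      rw [coeff_C]
      split_ifs
      · exact (mem_maximalIdeal _).1 hm
      · exact not_isUnit_zero
    · exact ⟨0, fun i => by rw [coeff_zero]; exact not_isUnit_zero, by simp⟩
    · rintro a b _ _ ⟨P, hP, eP⟩ ⟨Q, hQ, eQ⟩
      refine ⟨P + Q, fun i => ?_, by rw [map_add, ← eP, ← eQ]; rfl⟩
      rw [coeff_add]
      exact (mem_maximalIdeal _).1 (Ideal.add_mem _ ((mem_maximalIdeal _).2 (hP i))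
        ((mem_maximalIdeal _).2 (hQ i)))
    · rintro r a _ ⟨P, hP, eP⟩
      have hr : (r : L) ∈ (aeval x : R[X] →ₐ[R] L).range := by
        rw [← Algebra.adjoin_singleton_eq_range_aeval]; exact r.2
      obtain ⟨Q, hQ⟩ := hr
      replace hQ : aeval x Q = (r : L) := hQ
      refine ⟨Q * P, fun i => ?_, by rw [map_mul, hQ, ← eP]; rfl⟩
      rw [coeff_mul]
      refine (mem_maximalIdeal _).1 (Ideal.sum_mem _ fun j _ => Ideal.mul_mem_left _ _ ?_)
      exact (mem_maximalIdeal _).2 (hP _)
  have hdisj : Disjoint (I : Set A) (unitPoly R x : Set A) := by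
    rw [Set.disjoint_left]
    rintro a ha ⟨P, ⟨i, hi⟩, eP⟩
    obtain ⟨Q, hQ, eQ⟩ := hI a ha
    have h0 : aeval x (P - Q) = 0 := by rw [map_sub, ← eP, ← eQ, sub_self]
    have hu : ∃ j, IsUnit ((P - Q).coeff j) := by
      refine ⟨i, ?_⟩
      rw [coeff_sub]
      by_contra hn
      have : IsUnit ((P.coeff i - Q.coeff i) + Q.coeff i) := by rwa [sub_add_cancel]
      rcases IsLocalRing.isUnit_or_isUnit_of_isUnit_add this with h | h
      · exact hn h
      · exact hQ i h
    rcases mem_or_inv_mem_of_aeval R hR x _ (P - Q) le_rfl h0 hu with h | h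
    · exact hx h
    · exact hx' h
  obtain ⟨p, hp, hIp, hpd⟩ := Ideal.exists_le_prime_disjoint I (unitPoly R x) hdisj
  -- the local ring of `A` at `p`
  let A' : Subring L := A.toSubring
  let p' : Ideal A' := p
  have : p'.IsPrime := hp
  obtain ⟨W, hW⟩ := (LocalSubring.ofPrime A' p').exists_le_valuationSubring
  have hAW : ∀ a : L, a ∈ A → a ∈ W := fun a ha =>
    hW.1 (LocalSubring.le_ofPrime A' p' (show a ∈ A' from ha))
  have hpW : ∀ a : A, a ∈ p → (a : L) ∈ W.nonunits := by
    intro a ha
    have h1 : ((LocalSubring.ofPrime A' p').toSubring.subtype ''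
        (maximalIdeal (LocalSubring.ofPrime A' p').toSubring)) ⊆ W.nonunits := by
      rintro _ ⟨b, hb, rfl⟩
      have h2 : ¬ IsUnit (Subring.inclusion hW.1 b) := fun h =>
        (mem_maximalIdeal _).1 hb (hW.2.1 _ h)
      have h3 : (⟨(b : L), hW.1 b.2⟩ : W) ∈ maximalIdeal W := (mem_maximalIdeal _).2 h2
      exact (ValuationSubring.coe_mem_nonunits_iff (a := (⟨(b : L), hW.1 b.2⟩ : W))).2 h3
    refine h1 ?_
    refine ⟨algebraMap A' _ (⟨(a : L), a.2⟩ : A'), ?_, rfl⟩
    rw [← IsLocalization.AtPrime.map_eq_maximalIdeal p']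
    exact Ideal.mem_map_of_mem _ ha
  refine ⟨W, fun a ha => hAW a (A.algebraMap_mem ⟨a, ha⟩), fun a ha => ?_, hAW x hxA,
    fun P hP => ?_⟩
  · exact hpW (algebraMap R A a) (hIp (Ideal.mem_map_of_mem _ ((mem_maximalIdeal _).2 ha)))
  · have hmem : aeval x P ∈ A := by
      rw [hA, Algebra.adjoin_singleton_eq_range_aeval]; exact ⟨P, rfl⟩
    have hnp : (⟨aeval x P, hmem⟩ : A) ∉ p := fun h =>
      (Set.disjoint_left.1 hpd) h ⟨P, hP, rfl⟩
    have hunit : IsUnit (algebraMap A' (LocalSubring.ofPrime A' p').toSubring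
        (⟨aeval x P, hmem⟩ : A')) :=
      IsLocalization.map_units (M := p'.primeCompl) _ ⟨_, hnp⟩
    obtain ⟨u, hu⟩ := hunit
    have h1 : ((u⁻¹ : ((LocalSubring.ofPrime A' p').toSubring)ˣ) :
        (LocalSubring.ofPrime A' p').toSubring).1 = (aeval x P)⁻¹ := by
      apply eq_inv_of_mul_eq_one_left
      have h2 : ((u⁻¹ : ((LocalSubring.ofPrime A' p').toSubring)ˣ) :
        (LocalSubring.ofPrime A' p').toSubring) * u = 1 := Units.inv_mul u
      have h3 := congrArg Subtype.val h2
      rw [Subring.coe_mul, hu] at h3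
      exact h3
    rw [← h1]
    exact hW.1 (SetLike.coe_mem _)

end UU

end Crest.Agent.R013.One920
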