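import Crest.Agent.R013.Lift1_903

/-!
# (ONE) of row 13, part A: `l`-th roots of `1 + g` in a finite algebra over a complete field

`g ^ n = ∑ a_i g ^ i` with `a_i` in a closed subring `A` of the unit ball, `‖a_i‖ ≤ ρ < 1`, `l` a
unit of `A`: then `1 + g = b ^ l` with `b ∈ ∑_{i<n} A g ^ i`.
-/

set_option autoImplicit false

namespace Crest.Agent.R013.One_622

open Filter Topology Polynomial

section Series

variable {R : Type*} [CommRing R]

theorem step (l : ℕ) (l' : R) (hl : l' * l = 1) (N : ℕ) (B : R[X])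
    (h : (X ^ (N + 1) : R[X]) ∣ B ^ l - (1 + X)) (h0 : B.coeff 0 = 1) :
    ∃ c : R, (X ^ (N + 2) : R[X]) ∣ (B + C c * X ^ (N + 1)) ^ l - (1 + X) ∧
      (B + C c * X ^ (N + 1)).coeff 0 = 1 := by
  obtain ⟨Q, hQ⟩ := h
  refine ⟨-l' * Q.coeff 0, ?_, ?_⟩
  · set c := -l' * Q.coeff 0 with hc
    obtain ⟨k, hk⟩ := Polynomial.powAddExpansion B (C c * X ^ (N + 1)) l
    rw [hk]
    have hB : (B ^ (l - 1)).coeff 0 = 1 := by
      rw [coeff_zero_eq_eval_zero, eval_pow, ← coeff_zero_eq_eval_zero, h0, one_pow]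
    have h1 : (X : R[X]) ∣ Q + (l : R[X]) * B ^ (l - 1) * C c := by
      rw [X_dvd_iff, coeff_add, mul_coeff_zero, mul_coeff_zero, coeff_C_zero,
        ← C_eq_natCast, coeff_C_zero, hB, hc]
      linear_combination (-Q.coeff 0) * hl
    obtain ⟨Q', hQ'⟩ := h1
    refine ⟨Q' + k * C c ^ 2 * X ^ N, ?_⟩
    have : B ^ l = X ^ (N + 1) * Q + (1 + X) := by rw [← hQ]; ring
    have h2 : Q = X * Q' - (l : R[X]) * B ^ (l - 1) * C c := by rw [← hQ']; ring
    rw [this, h2]
    ring
  · rw [coeff_add, h0, coeff_C_mul, coeff_X_pow, if_neg (by omega), mul_zero, add_zero]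

/-- The coefficients of an `l`-th root of `1 + X`. -/
theorem exists_seq (l : ℕ) (l' : R) (hl : l' * l = 1) : ∃ γ : ℕ → R, ∀ N : ℕ,
    (X ^ N : R[X]) ∣ (∑ j ∈ Finset.range N, C (γ j) * X ^ j) ^ l - (1 + X) := by
  classical
  let St := fun N : ℕ => {B : R[X] // (X ^ (N + 1) : R[X]) ∣ B ^ l - (1 + X) ∧ B.coeff 0 = 1}
  let c : ∀ N : ℕ, St N → R := fun N B => (step l l' hl N B.1 B.2.1 B.2.2).choose
  have hc : ∀ (N : ℕ) (B : St N), (X ^ (N + 2) : R[X]) ∣ (B.1 + C (c N B) * X ^ (N + 1)) ^ l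
      - (1 + X) ∧ (B.1 + C (c N B) * X ^ (N + 1)).coeff 0 = 1 := fun N B =>
    (step l l' hl N B.1 B.2.1 B.2.2).choose_spec
  let S : ∀ N : ℕ, St N := fun N => Nat.rec (motive := St) ⟨1, by
    constructor
    · change (X ^ (0 + 1) : R[X]) ∣ _
      rw [zero_add, pow_one]
      exact ⟨-1, by ring⟩
    · simp⟩ (fun N B => ⟨B.1 + C (c N B) * X ^ (N + 1), hc N B⟩) N
  have hS : ∀ N, (S (N + 1)).1 = (S N).1 + C (c N (S N)) * X ^ (N + 1) := fun N => rfl
  let γ : ℕ → R := fun N => Nat.casesOn N 1 (fun M => c M (S M))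
  have hsum : ∀ N, ∑ j ∈ Finset.range (N + 1), C (γ j) * X ^ j = (S N).1 := by
    intro N
    induction N with
    | zero => simp [γ, S]
    | succ N ih => rw [Finset.sum_range_succ, ih, hS]
  refine ⟨γ, fun N => ?_⟩
  rcases N with _ | N
  · rw [pow_zero]; exact one_dvd _
  · rw [hsum]
    exact (S N).2.1

end Series

section Root

variable {E T : Type*} [NormedField E] [IsUltrametricDist E] [CommRing T] [Algebra E T]

/-- Coordinates of powers of `g`. -/
theorem exists_coords (A : Subring E) (g : T) (n : ℕ) (hn : 0 < n) (a : ℕ → E)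
    (ha : ∀ i, a i ∈ A) (ρ : ℝ) (hρ0 : 0 ≤ ρ) (hρ : ρ < 1) (haρ : ∀ i, ‖a i‖ ≤ ρ)
    (hg : g ^ n = ∑ i ∈ Finset.range n, a i • g ^ i) (N : ℕ) :
    ∃ c : ℕ → E, (∀ i, c i ∈ A) ∧ (∀ i, ‖c i‖ ≤ ρ ^ (N / n)) ∧
      g ^ N = ∑ i ∈ Finset.range n, c i • g ^ i := by
  induction N using Nat.strong_induction_on with
  | _ N ih =>
    by_cases hN : N < n
    · refine ⟨fun i => if i = N then 1 else 0, fun i => ?_, fun i => ?_, ?_⟩
      · beta_reduce
        split_ifs
        · exact A.one_mem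
        · exact A.zero_mem
      · rw [Nat.div_eq_of_lt hN, pow_zero]
        beta_reduce
        split_ifs <;> simp
      · rw [Finset.sum_eq_single N]
        · simp
        · intro j _ hj
          simp [hj]
        · intro h
          exact absurd (Finset.mem_range.2 hN) h
    · push Not at hN
      have key : ∀ i, ∃ c : ℕ → E, i < n → (∀ j, c j ∈ A) ∧ (∀ j, ‖c j‖ ≤ ρ ^ ((N - n + i) / n)) ∧
          g ^ (N - n + i) = ∑ j ∈ Finset.range n, c j • g ^ j := by
        intro i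
        by_cases hi : i < n
        · obtain ⟨c, hc⟩ := ih (N - n + i) (by omega)
          exact ⟨c, fun _ => hc⟩
        · exact ⟨0, fun h => absurd h hi⟩
      choose c hc using key
      refine ⟨fun j => ∑ i ∈ Finset.range n, a i * c i j, fun j => ?_, fun j => ?_, ?_⟩
      · exact A.sum_mem fun i hi => A.mul_mem (ha i) ((hc i (Finset.mem_range.1 hi)).1 j)
      · refine IsUltrametricDist.norm_sum_le_of_forall_le_of_nonneg (pow_nonneg hρ0 _) ?_
        intro i hi
        have h2 := (hc i (Finset.mem_range.1 hi)).2.1 j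
        have e1 : N / n = (N - n) / n + 1 := by
          conv_lhs => rw [← Nat.sub_add_cancel hN]
          rw [Nat.add_div_right _ hn]
        rw [norm_mul, e1, pow_succ']
        refine mul_le_mul (haρ i) (h2.trans ?_) (norm_nonneg _) hρ0
        exact pow_le_pow_of_le_one hρ0 hρ.le (Nat.div_le_div_right (by omega))
      · have e2 : g ^ N = g ^ (N - n) * g ^ n := by rw [← pow_add, Nat.sub_add_cancel hN]
        rw [e2, hg, Finset.mul_sum]
        have e3 : ∀ i ∈ Finset.range n, g ^ (N - n) * a i • g ^ i =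
            ∑ j ∈ Finset.range n, (a i * c i j) • g ^ j := by
          intro i hi
          rw [mul_smul_comm, ← pow_add, (hc i (Finset.mem_range.1 hi)).2.2, Finset.smul_sum]
          exact Finset.sum_congr rfl fun j _ => by rw [smul_smul]
        rw [Finset.sum_congr rfl e3, Finset.sum_comm]
        refine Finset.sum_congr rfl fun j _ => ?_
        rw [Finset.sum_smul]

variable {ι : Type*} [Fintype ι] (bT : Module.Basis ι E T)

/-- coordinatewise convergence in `T` -/
def Conv (x : ℕ → T) (b : T) : Prop :=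
  ∀ i, Tendsto (fun N => bT.repr (x N) i) atTop (𝓝 (bT.repr b i))

omit [IsUltrametricDist E] [Fintype ι] in
theorem Conv.unique {x : ℕ → T} {b b' : T} (h : Conv bT x b) (h' : Conv bT x b') : b = b' :=
  bT.ext_elem fun i => tendsto_nhds_unique (h i) (h' i)

omit [IsUltrametricDist E] in
theorem Conv.mul {x y : ℕ → T} {b c : T} (h : Conv bT x b) (h' : Conv bT y c) :
    Conv bT (fun N => x N * y N) (b * c) := by
  intro k
  have e : ∀ s t : T, bT.repr (s * t) k =
      ∑ i, ∑ j, bT.repr s i * (bT.repr t j * bT.repr (bT i * bT j) k) := by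
    intro s t
    conv_lhs => rw [← bT.sum_repr s, ← bT.sum_repr t]
    rw [Finset.sum_mul_sum, map_sum, Finsupp.finsetSum_apply]
    refine Finset.sum_congr rfl fun i _ => ?_
    rw [map_sum, Finsupp.finsetSum_apply]
    refine Finset.sum_congr rfl fun j _ => ?_
    rw [smul_mul_smul_comm, map_smul, Finsupp.smul_apply, smul_eq_mul, mul_assoc]
  have e' : (fun N => bT.repr (x N * y N) k) = fun N =>
      ∑ i, ∑ j, bT.repr (x N) i * (bT.repr (y N) j * bT.repr (bT i * bT j) k) :=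
    funext fun N => e _ _
  rw [e', e b c]
  exact tendsto_finsetSum _ fun i _ => tendsto_finsetSum _ fun j _ =>
    (h i).mul ((h' j).mul_const _)

omit [IsUltrametricDist E] in
theorem Conv.pow {x : ℕ → T} {b : T} (h : Conv bT x b) (l : ℕ) :
    Conv bT (fun N => x N ^ l) (b ^ l) := by
  induction l with
  | zero =>
    intro i
    simp only [pow_zero]
    exact tendsto_const_nhds
  | succ l ih =>
    simp only [pow_succ]
    exact ih.mul bT h

variable [CompleteSpace E]

include bT in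
/-- **Root lemma.** -/
theorem root (A : Subring E) (hAc : IsClosed (A : Set E)) (hA1 : ∀ x ∈ A, ‖x‖ ≤ 1)
    (l : ℕ) (l' : E) (hl' : l' ∈ A) (hl : l' * l = 1) (g : T) (n : ℕ) (a : ℕ → E)
    (ha : ∀ i, a i ∈ A) (ρ : ℝ) (hρ0 : 0 ≤ ρ) (hρ : ρ < 1) (haρ : ∀ i, ‖a i‖ ≤ ρ)
    (hg : g ^ n = ∑ i ∈ Finset.range n, a i • g ^ i) :
    ∃ β : ℕ → E, (∀ i, β i ∈ A) ∧ (∑ i ∈ Finset.range n, β i • g ^ i) ^ l = 1 + g := by
  classical
  rcases Nat.eq_zero_or_pos n with hn | hn
  · subst hn
    have h01 : (1 : T) = 0 := by simpa using hg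
    have hsub : Subsingleton T := subsingleton_of_zero_eq_one h01.symm
    exact ⟨0, fun i => A.zero_mem, Subsingleton.elim _ _⟩
  choose c hcA hcn hc using exists_coords A g n hn a ha ρ hρ0 hρ haρ hg
  obtain ⟨γ, hγ⟩ := exists_seq (R := A) l ⟨l', hl'⟩ (Subtype.ext (by simpa using hl))
  have hdiv : Tendsto (fun N : ℕ => N / n) atTop atTop :=
    Nat.tendsto_div_const_atTop hn.ne'
  have hpow : Tendsto (fun N : ℕ => ρ ^ (N / n)) atTop (𝓝 0) :=
    (tendsto_pow_atTop_nhds_zero_of_lt_one hρ0 hρ).comp hdiv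
  have hterm : ∀ i, Tendsto (fun N => (γ N : E) * c N i) atTop (𝓝 0) := by
    intro i
    refine squeeze_zero_norm (fun N => ?_) hpow
    rw [norm_mul]
    calc ‖(γ N : E)‖ * ‖c N i‖ ≤ 1 * ρ ^ (N / n) :=
          mul_le_mul (hA1 _ (γ N).2) (hcn N i) (norm_nonneg _) zero_le_one
      _ = ρ ^ (N / n) := one_mul _
  have hsm : ∀ i, Summable fun N => (γ N : E) * c N i := by
    intro i
    refine NonarchimedeanAddGroup.summable_of_tendsto_cofinite_zero ?_
    rw [Nat.cofinite_eq_atTop]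
    exact hterm i
  have hlim : ∀ i, Tendsto (fun N => ∑ j ∈ Finset.range N, (γ j : E) * c j i) atTop
      (𝓝 (∑' N, (γ N : E) * c N i)) := fun i => (hsm i).hasSum.tendsto_sum_nat
  refine ⟨fun i => ∑' N, (γ N : E) * c N i, fun i => ?_, ?_⟩
  · refine hAc.mem_of_tendsto (hlim i) (Eventually.of_forall fun N => ?_)
    exact A.sum_mem fun j _ => A.mul_mem (γ j).2 (hcA j i)
  set b : T := ∑ i ∈ Finset.range n, (∑' N, (γ N : E) * c N i) • g ^ i with hb
  let x : ℕ → T := fun N => ∑ j ∈ Finset.range N, (γ j : E) • g ^ j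
  have hx : Conv bT x b := by
    intro k
    have e : ∀ N, x N = ∑ i ∈ Finset.range n, (∑ j ∈ Finset.range N, (γ j : E) * c j i) • g ^ i := by
      intro N
      simp only [x, Finset.sum_smul]
      rw [Finset.sum_comm]
      refine Finset.sum_congr rfl fun j _ => ?_
      conv_lhs => rw [hc j, Finset.smul_sum]
      exact Finset.sum_congr rfl fun i _ => by rw [smul_smul]
    simp only [e, hb, map_sum, map_smul, Finsupp.finsetSum_apply, Finsupp.smul_apply, smul_eq_mul]
    exact tendsto_finsetSum _ fun i _ => (hlim i).mul_const _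
  have hxl := hx.pow bT l
  refine Conv.unique bT hxl ?_
  -- the error term
  let Φ : A[X] →+* T := eval₂RingHom ((algebraMap E T).comp A.subtype) g
  have hΦ : ∀ P : A[X], Φ P = ∑ j ∈ Finset.range (P.natDegree + 1), ((P.coeff j : A) : E) • g ^ j := by
    intro P
    simp only [Φ, coe_eval₂RingHom, eval₂_eq_sum_range, RingHom.comp_apply, Subring.coe_subtype]
    exact Finset.sum_congr rfl fun j _ => (Algebra.smul_def _ _).symm
  have hxΦ : ∀ N, x N = Φ (∑ j ∈ Finset.range N, C (γ j) * X ^ j) := by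
    intro N
    simp only [x, map_sum, map_mul, map_pow, Φ, coe_eval₂RingHom, eval₂_C, eval₂_X,
      RingHom.comp_apply, Subring.coe_subtype]
    exact Finset.sum_congr rfl fun j _ => Algebra.smul_def _ _
  set M : ℝ := ∑ i ∈ Finset.range n, ∑ k, ‖bT.repr (g ^ i) k‖ with hM
  have hM0 : 0 ≤ M := Finset.sum_nonneg fun i _ => Finset.sum_nonneg fun k _ => norm_nonneg _
  have hMle : ∀ i ∈ Finset.range n, ∀ k, ‖bT.repr (g ^ i) k‖ ≤ M := by
    intro i hi k
    refine le_trans ?_ (Finset.single_le_sum (f := fun i => ∑ k, ‖bT.repr (g ^ i) k‖)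
      (fun i _ => Finset.sum_nonneg fun k _ => norm_nonneg _) hi)
    exact Finset.single_le_sum (f := fun k => ‖bT.repr (g ^ i) k‖)
      (fun k _ => norm_nonneg _) (Finset.mem_univ k)
  have hgN : ∀ N k, ‖bT.repr (g ^ N) k‖ ≤ ρ ^ (N / n) * M := by
    intro N k
    rw [hc N, map_sum, Finsupp.finsetSum_apply]
    refine IsUltrametricDist.norm_sum_le_of_forall_le_of_nonneg
      (mul_nonneg (pow_nonneg hρ0 _) hM0) fun i hi => ?_
    rw [map_smul, Finsupp.smul_apply, smul_eq_mul, norm_mul]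
    exact mul_le_mul (hcn N i) (hMle i hi k) (norm_nonneg _) (pow_nonneg hρ0 _)
  have herr : ∀ N (P : A[X]), (X ^ N : A[X]) ∣ P → ∀ k, ‖bT.repr (Φ P) k‖ ≤ ρ ^ (N / n) * M := by
    rintro N _ ⟨Q, rfl⟩ k
    rw [map_mul, hΦ Q, Finset.mul_sum, map_sum, Finsupp.finsetSum_apply]
    refine IsUltrametricDist.norm_sum_le_of_forall_le_of_nonneg
      (mul_nonneg (pow_nonneg hρ0 _) hM0) fun j _ => ?_
    have e : Φ (X ^ N) * ((Q.coeff j : A) : E) • g ^ j = ((Q.coeff j : A) : E) • g ^ (N + j) := by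
      rw [mul_smul_comm, pow_add]
      simp only [Φ, coe_eval₂RingHom, map_pow, eval₂_X]
    rw [e, map_smul, Finsupp.smul_apply, smul_eq_mul, norm_mul]
    calc ‖((Q.coeff j : A) : E)‖ * ‖bT.repr (g ^ (N + j)) k‖
        ≤ 1 * (ρ ^ ((N + j) / n) * M) :=
          mul_le_mul (hA1 _ (Q.coeff j).2) (hgN _ _) (norm_nonneg _) zero_le_one
      _ = ρ ^ ((N + j) / n) * M := one_mul _
      _ ≤ ρ ^ (N / n) * M := mul_le_mul_of_nonneg_right
          (pow_le_pow_of_le_one hρ0 hρ.le (Nat.div_le_div_right (by omega))) hM0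
  intro k
  have e1 : ∀ N, bT.repr (x N ^ l) k = bT.repr (Φ ((∑ j ∈ Finset.range N, C (γ j) * X ^ j) ^ l
      - (1 + X))) k + bT.repr (1 + g) k := by
    intro N
    have h1 : Φ (1 + X) = 1 + g := by simp [Φ]
    have h2 : x N ^ l = Φ ((∑ j ∈ Finset.range N, C (γ j) * X ^ j) ^ l - (1 + X)) + (1 + g) := by
      rw [RingHom.map_sub, RingHom.map_pow, h1, hxΦ, sub_add_cancel]
    rw [h2, map_add, Finsupp.add_apply]
  simp only [e1]
  have e2 : Tendsto (fun N => bT.repr (Φ ((∑ j ∈ Finset.range N, C (γ j) * X ^ j) ^ l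
      - (1 + X))) k) atTop (𝓝 0) := by
    refine squeeze_zero_norm (fun N => herr N _ (hγ N) k) ?_
    simpa using hpow.mul_const M
  simpa using e2.add_const (bT.repr (1 + g) k)

end Root

end Crest.Agent.R013.One_622
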