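import Crest.Agent.R013.OneA_622
import Crest.Agent.R013.LemT1_874
import Crest.Agent.R013.Lift6_903

/-!
# (ONE) of row 13, part B: from valuation rings to `l`-th roots on both sides of one circle

`RZ π W`: the valuation ring `W` of `L` contains the unit ball of `k` and `π ∈ m_W`.
`rel`: if `g ∈ m_W` for all `W ∈ RZ` containing `Y`, then `g ^ n = π ∑ P_i(Y) g ^ i` with integral
polynomials `P_i`.
`nPow_FP`, `nPow_RU`: the conclusions on the two sides of the circle `|y| = 1` of 946.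
-/

set_option autoImplicit false

namespace Crest.Agent.R013.One_622

open Polynomial Gl946 Lift903 LemT_874
open scoped TensorProduct

attribute [local instance] Algebra.TensorProduct.rightAlgebra

section Rel

variable (k : Type*) [NormedField k] [IsUltrametricDist k]

/-- the unit ball -/
def R0 : Subring k where
  carrier := {c | ‖c‖ ≤ 1}
  mul_mem' {a b} ha hb := by
    change ‖a * b‖ ≤ 1
    rw [norm_mul]
    exact mul_le_one₀ ha (norm_nonneg _) hb
  one_mem' := by
    change ‖(1 : k)‖ ≤ 1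
    rw [norm_one]
  add_mem' {a b} ha hb := (IsUltrametricDist.norm_add_le_max a b).trans (max_le ha hb)
  zero_mem' := by
    change ‖(0 : k)‖ ≤ 1
    rw [norm_zero]; exact zero_le_one
  neg_mem' {a} ha := by
    change ‖-a‖ ≤ 1
    rw [norm_neg]; exact ha

variable {k} {L : Type*} [Field L] [Algebra k L]

/-- The valuation ring `W` contains the unit ball of `k` and `π ∈ m_W`. -/
structure RZ (π : k) (W : ValuationSubring L) : Prop where
  mem : ∀ c : k, ‖c‖ ≤ 1 → algebraMap k L c ∈ W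
  lt : W.valuation (algebraMap k L π) < 1

theorem rel (π : k) (Y g : L) (hg : g ≠ 0) (hπ : ‖π‖ ≤ 1)
    (H : ∀ W : ValuationSubring L, RZ π W → Y ∈ W → W.valuation g < 1) :
    ∃ (n : ℕ) (P : ℕ → k[X]), (∀ i j, ‖(P i).coeff j‖ ≤ 1) ∧
      g ^ n = algebraMap k L π * ∑ i ∈ Finset.range (n + 1), aeval Y (P i) * g ^ i := by
  let φ : R0 k →+* L := (algebraMap k L).comp (R0 k).subtype
  let Φ : (R0 k)[X][X] →+* L := eval₂RingHom (eval₂RingHom φ Y) g⁻¹
  let A : Subring L := RingHom.range (R := (R0 k)[X][X]) (S := L) Φ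
  have hπA : algebraMap k L π ∈ A := ⟨C (C ⟨π, hπ⟩), by simp [Φ, φ]⟩
  let ϖ : A := ⟨algebraMap k L π, hπA⟩
  have htop : Ideal.span {ϖ} = (⊤ : Ideal A) := by
    by_contra hne
    obtain ⟨B, hB1, hB2⟩ := Ideal.image_subset_nonunits_valuationSubring _ hne
    have h1 : RZ π B := by
      refine ⟨fun c hc => hB1 ⟨C (C ⟨c, hc⟩), by simp [Φ, φ]⟩, ?_⟩
      have : algebraMap k L π ∈ B.nonunits :=
        hB2 ⟨ϖ, Ideal.subset_span rfl, rfl⟩
      exact (ValuationSubring.mem_nonunits_iff B).1 this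
    have h2 : Y ∈ B := hB1 ⟨C X, by simp [Φ]⟩
    have h3 : g⁻¹ ∈ B := hB1 ⟨X, by simp [Φ]⟩
    have h4 := H B h1 h2
    have h5 := (B.valuation_le_one_iff _).2 h3
    have h6 : B.valuation g * B.valuation g⁻¹ = 1 := by
      rw [← map_mul, mul_inv_cancel₀ hg, map_one]
    have h7 : B.valuation g * B.valuation g⁻¹ < 1 :=
      lt_of_le_of_lt (mul_le_of_le_one_right' h5) h4
    exact absurd h6 h7.ne
  have h1 : (1 : A) ∈ Ideal.span {ϖ} := by rw [htop]; trivial
  obtain ⟨a, ha⟩ := Ideal.mem_span_singleton'.1 h1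
  obtain ⟨Q, hQ⟩ := a.2
  have ha' : (a : L) * algebraMap k L π = 1 := congrArg Subtype.val ha
  set n := Q.natDegree with hn
  refine ⟨n, fun i => (Q.coeff (n - i)).map (R0 k).subtype, fun i j => ?_, ?_⟩
  · rw [coeff_map]
    exact ((Q.coeff (n - i)).coeff j).2
  · have e1 : (a : L) = ∑ i ∈ Finset.range (n + 1), aeval Y ((Q.coeff i).map (R0 k).subtype) *
        g⁻¹ ^ i := by
      rw [← hQ]
      simp only [Φ, coe_eval₂RingHom, eval₂_eq_sum_range]
      refine Finset.sum_congr rfl fun i _ => ?_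
      rw [← eval₂_eq_sum_range, aeval_def, eval₂_map]
    have e2 : g ^ n = algebraMap k L π * ((a : L) * g ^ n) := by
      rw [← mul_assoc, mul_comm (algebraMap k L π), ha', one_mul]
    rw [e2, e1, Finset.sum_mul, ← Finset.sum_range_reflect]
    congr 1
    refine Finset.sum_congr rfl fun i hi => ?_
    have hi' : i ≤ n := Nat.lt_succ_iff.1 (Finset.mem_range.1 hi)
    have e3 : n + 1 - 1 - i = n - i := by omega
    rw [e3, mul_assoc]
    congr 1
    have e4 : g ^ n = g ^ (n - i) * g ^ i := by rw [← pow_add]; congr 1; omega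
    rw [e4, ← mul_assoc, inv_pow, inv_mul_cancel₀ (pow_ne_zero _ hg), one_mul]

end Rel

section Closed

variable {k E : Type*} [NormedField k] [NormedField E] [NormedAlgebra k E] [IsUltrametricDist E]

/-- the unit ball of `AU k y` -/
noncomputable def AB (k : Type*) {E : Type*} [NormedField k] [NormedField E] [NormedAlgebra k E]
    [IsUltrametricDist E] (y : E) : Subring E := (AU k y).toSubring ⊓ R0 E

theorem mem_AB (y x : E) : x ∈ AB k y ↔ x ∈ AU k y ∧ ‖x‖ ≤ 1 := Iff.rfl

theorem isClosed_AB (y : E) : IsClosed (AB k y : Set E) := by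
  have h1 : (AB k y : Set E) = (AU k y : Set E) ∩ {x | ‖x‖ ≤ 1} := rfl
  rw [h1]
  exact (isClosed_AU y).inter (isClosed_le continuous_norm continuous_const)

theorem algebraMap_mem_AB (y : E) (c : k) (hc : ‖c‖ ≤ 1) : algebraMap k E c ∈ AB k y :=
  (mem_AB y _).2 ⟨(AU k y).algebraMap_mem c, by rw [norm_algebraMap']; exact hc⟩

omit [IsUltrametricDist E] in
theorem AU_inv_le_AP {y : E} (hG : IsGauss k y) (x : E) (hx : x ∈ AU k y⁻¹) : x ∈ AP hG := by
  have h : AU k y⁻¹ ≤ AP hG := by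
    refine Subalgebra.topologicalClosure_minimal ?_ (isClosed_AP hG)
    rintro _ ⟨f, rfl⟩
    rw [inv_inv]
    exact aeval_mem_AP hG f
  exact h hx

end Closed

section Setting

variable {k E : Type*} [NormedField k] [NormedField E] [NormedAlgebra k E]
  [IsUltrametricDist E] [CompleteSpace E] {y : E} (hG : IsGauss k y) {π : k}
  (hπ : IsUnif π)
  {F L : Type*} [Field F] [Field L] [Algebra F L] [Algebra F E]
  [Algebra k F] [IsScalarTower k F E] [Algebra k L] [IsScalarTower k F L]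
  {yF : F} (hy : algebraMap F E yF = y)

omit [IsUltrametricDist E] [CompleteSpace E] in
include hy in
theorem algebraMap_aeval (P : k[X]) :
    algebraMap L (E ⊗[F] L) (aeval (algebraMap F L yF) P) =
      algebraMap E (E ⊗[F] L) (aeval y P) := by
  have h1 : aeval (algebraMap F L yF) P = algebraMap F L (aeval yF P) := by
    rw [aeval_algebraMap_apply]
  have h2 : aeval y P = algebraMap F E (aeval yF P) := by
    rw [← hy, aeval_algebraMap_apply]
  rw [h1, h2, ← IsScalarTower.algebraMap_apply, ← IsScalarTower.algebraMap_apply]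

variable [FiniteDimensional F L]

/-- From a root in a finite module to `NPow`. -/
theorem nPow_of_root {A R : Subring E} (hAR : A ≤ R) (hR : ∀ x : F, algebraMap F E x ∈ R)
    (hAc : IsClosed (A : Set E)) (hA1 : ∀ x ∈ A, ‖x‖ ≤ 1) (l : ℕ) (l' : E) (hl' : l' ∈ A)
    (hl : l' * l = 1) (g u h : L) (hh : h = u ^ l * (1 + g)) (n : ℕ) (a : ℕ → E)
    (ha : ∀ i, a i ∈ A) (ρ : ℝ) (hρ0 : 0 ≤ ρ) (hρ : ρ < 1) (haρ : ∀ i, ‖a i‖ ≤ ρ)
    (hg : (algebraMap L (E ⊗[F] L) g) ^ n =
      ∑ i ∈ Finset.range n, a i • (algebraMap L (E ⊗[F] L) g) ^ i) : NPow hR l h := by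
  obtain ⟨β, hβ, e⟩ := root (bE F E L) A hAc hA1 l l' hl' hl (algebraMap L (E ⊗[F] L) g) n a ha ρ
    hρ0 hρ haρ hg
  refine ⟨algebraMap L (E ⊗[F] L) u *
    ∑ i ∈ Finset.range n, β i • (algebraMap L (E ⊗[F] L) g) ^ i, ?_, ?_⟩
  · refine Subring.mul_mem _ (algebraMap_mem_KR (isBC F E L) hR u)
      (Subring.sum_mem _ fun i _ => ?_)
    rw [Algebra.smul_def]
    exact Subring.mul_mem _ (algebraMap_mem_KR' (isBC F E L) hR _ (hAR (hβ i)))
      (Subring.pow_mem _ (algebraMap_mem_KR (isBC F E L) hR g) i)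
  · rw [mul_pow, e, hh, map_mul, map_pow, map_add, map_one]

include hG hπ in
theorem nPow_RU (hF : ∀ x : F, algebraMap F E x ∈ KY hG) (l : ℕ) (hl : ‖(l : k)‖ = 1)
    (f u h : L) (hh : h = u ^ l * (1 + f)) (m : ℕ) (hm : 0 < m)
    (hf : f ^ m * algebraMap F L yF = algebraMap k L π) (hy : algebraMap F E yF = y) :
    NPow (algebraMap_mem_RU hG hF) l h := by
  classical
  have hl0 : (l : k) ≠ 0 := by
    intro h0
    rw [h0, norm_zero] at hl
    exact zero_ne_one hl
  have hy0 : y ≠ 0 := hG.ne_zero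
  refine nPow_of_root (A := AB k y) ?_ (algebraMap_mem_RU hG hF) (isClosed_AB y)
    (fun x hx => hx.2) l (algebraMap k E (l : k)⁻¹) ?_ ?_ f u h hh m
    (fun i => if i = 0 then algebraMap k E π * y⁻¹ else 0) ?_ ‖π‖ hπ.pos.le hπ.lt_one ?_ ?_
  · exact fun x hx => le_fracSub _ _ _ hx.1
  · exact algebraMap_mem_AB y _ (by rw [norm_inv, hl, inv_one])
  · rw [← map_natCast (algebraMap k E), ← map_mul, inv_mul_cancel₀ hl0, map_one]
  · intro i
    split_ifs
    · refine (AB k y).mul_mem (algebraMap_mem_AB y π hπ.lt_one.le) ((mem_AB y _).2 ⟨?_, ?_⟩)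
      · have := aeval_inv_mem_AU (k := k) y X
        rwa [aeval_X] at this
      · rw [norm_inv, hG.norm_eq, inv_one]
    · exact (AB k y).zero_mem
  · intro i
    split_ifs
    · rw [norm_mul, norm_inv, hG.norm_eq, inv_one, mul_one, norm_algebraMap']
    · rw [norm_zero]; exact hπ.pos.le
  · rw [Finset.sum_eq_single 0]
    · rw [if_pos rfl, pow_zero, Algebra.smul_def, mul_one]
      have e1 := congrArg (algebraMap L (E ⊗[F] L)) hf
      rw [map_mul, map_pow, ← IsScalarTower.algebraMap_apply F L,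
        IsScalarTower.algebraMap_apply F E, hy, IsScalarTower.algebraMap_apply k F L,
        ← IsScalarTower.algebraMap_apply F L, IsScalarTower.algebraMap_apply F E,
        ← IsScalarTower.algebraMap_apply k F E] at e1
      rw [map_mul, ← e1, mul_assoc, ← map_mul, mul_inv_cancel₀ hy0, map_one, mul_one]
    · intro i _ hi
      rw [if_neg hi, zero_smul]
    · intro h0
      exact absurd (Finset.mem_range.2 hm) h0

include hy in
theorem nPow_FP [IsUltrametricDist k] [CompleteSpace k] (hd : DenseRat k y)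
    (hF : ∀ x : F, algebraMap F E x ∈ KY hG) (l : ℕ) (hl : ‖(l : k)‖ = 1)
    (g u h : L) (hh : h = u ^ l * (1 + g))
    (H : ∀ W : ValuationSubring L, RZ π W → algebraMap F L yF ∈ W → W.valuation g < 1) :
    NPow (algebraMap_mem_FP hG hπ hd hF) l h := by
  classical
  have hl0 : (l : k) ≠ 0 := by
    intro h0
    rw [h0, norm_zero] at hl
    exact zero_ne_one hl
  have hAR : AB k y⁻¹ ≤ (FP hG hπ hd).toSubring := by
    intro x hx
    exact (mem_FP hG hπ hd _).2 ⟨x, AU_inv_le_AP hG x hx.1, 1, one_ne_zero, by simp⟩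
  have hl'A : algebraMap k E (l : k)⁻¹ ∈ AB k y⁻¹ :=
    algebraMap_mem_AB y⁻¹ _ (by rw [norm_inv, hl, inv_one])
  have hl'1 : algebraMap k E (l : k)⁻¹ * (l : E) = 1 := by
    rw [← map_natCast (algebraMap k E), ← map_mul, inv_mul_cancel₀ hl0, map_one]
  by_cases hg : g = 0
  · refine nPow_of_root (A := AB k y⁻¹) hAR (algebraMap_mem_FP hG hπ hd hF) (isClosed_AB _)
      (fun x hx => hx.2) l _ hl'A hl'1 g u h hh 1 (fun _ => 0) (fun _ => (AB k y⁻¹).zero_mem) 0
      le_rfl zero_lt_one (fun _ => by rw [norm_zero]) ?_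
    simp [hg]
  obtain ⟨n, P, hP, e⟩ := rel π (algebraMap F L yF) g hg hπ.lt_one.le H
  have hPA : ∀ i, aeval y (P i) ∈ AB k y⁻¹ := by
    intro i
    refine (mem_AB _ _).2 ⟨?_, hG.aeval_le _ zero_le_one (hP i)⟩
    have := aeval_inv_mem_AU (k := k) y⁻¹ (P i)
    rwa [inv_inv] at this
  have hπA : algebraMap k E π ∈ AB k y⁻¹ := algebraMap_mem_AB _ _ hπ.lt_one.le
  obtain ⟨s, hsA, hs1, -⟩ := exists_inv_of_near_one (AB k y⁻¹) (isClosed_AB _)
    (1 - algebraMap k E π * aeval y (P n))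
    ((AB k y⁻¹).sub_mem (AB k y⁻¹).one_mem ((AB k y⁻¹).mul_mem hπA (hPA n))) (by
      rw [sub_sub_cancel_left, norm_neg, norm_mul, norm_algebraMap']
      calc ‖π‖ * ‖aeval y (P n)‖ ≤ ‖π‖ * 1 :=
            mul_le_mul_of_nonneg_left (hPA n).2 (norm_nonneg _)
        _ < 1 := by rw [mul_one]; exact hπ.lt_one)
  refine nPow_of_root (A := AB k y⁻¹) hAR (algebraMap_mem_FP hG hπ hd hF) (isClosed_AB _)
    (fun x hx => hx.2) l _ hl'A hl'1 g u h hh n
    (fun i => s * (algebraMap k E π * aeval y (P i))) (fun i => (AB k y⁻¹).mul_mem hsA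
      ((AB k y⁻¹).mul_mem hπA (hPA i))) ‖π‖ hπ.pos.le hπ.lt_one ?_ ?_
  · intro i
    rw [norm_mul, norm_mul, norm_algebraMap']
    calc ‖s‖ * (‖π‖ * ‖aeval y (P i)‖) ≤ 1 * (‖π‖ * 1) :=
          mul_le_mul hsA.2 (mul_le_mul_of_nonneg_left (hPA i).2 (norm_nonneg _))
            (mul_nonneg (norm_nonneg _) (norm_nonneg _)) zero_le_one
      _ = ‖π‖ := by ring
  · set G := algebraMap L (E ⊗[F] L) g with hGdef
    have e1 := congrArg (algebraMap L (E ⊗[F] L)) e
    rw [map_pow, map_mul, map_sum, Finset.sum_range_succ] at e1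
    simp only [map_mul, map_pow, algebraMap_aeval (k := k) (E := E) (L := L) hy] at e1
    have e2 : algebraMap L (E ⊗[F] L) (algebraMap k L π) =
        algebraMap E (E ⊗[F] L) (algebraMap k E π) := by
      rw [IsScalarTower.algebraMap_apply k F L, ← IsScalarTower.algebraMap_apply F L,
        IsScalarTower.algebraMap_apply F E, ← IsScalarTower.algebraMap_apply k F E]
    rw [e2] at e1
    have e3 : algebraMap E (E ⊗[F] L) (1 - algebraMap k E π * aeval y (P n)) * G ^ n =
        algebraMap E (E ⊗[F] L) (algebraMap k E π) *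
          ∑ i ∈ Finset.range n, algebraMap E (E ⊗[F] L) (aeval y (P i)) * G ^ i := by
      rw [map_sub, map_one, map_mul, sub_mul, one_mul]
      rw [sub_eq_iff_eq_add]
      conv_lhs => rw [e1]
      ring
    have e4 : G ^ n = algebraMap E (E ⊗[F] L) s *
        (algebraMap E (E ⊗[F] L) (1 - algebraMap k E π * aeval y (P n)) * G ^ n) := by
      rw [← mul_assoc, ← map_mul, mul_comm s, hs1, map_one, one_mul]
    rw [e4, e3, Finset.mul_sum, Finset.mul_sum]
    refine Finset.sum_congr rfl fun i _ => ?_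
    rw [Algebra.smul_def, map_mul, map_mul]
    ring

end Setting

end Crest.Agent.R013.One_622
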