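import Mathlib.RingTheory.Valuation.LocalSubring
import Mathlib.RingTheory.Valuation.ValuationSubring
import Mathlib.RingTheory.AdjoinRoot
import Mathlib.RingTheory.Finiteness.Cardinality
import Mathlib.Algebra.Field.GeomSum
import Mathlib.Tactic

/-!
# Theorem (ONE), part (P2): one approximate root on the region `X ∈ m_W`

Proof by helper622 (#3367).  `O → L`, `κ = O/ϖ` a finite field, `f i = h / u i ^ l - 1`.
-/

set_option autoImplicit false

namespace Crest.Agent.R013.OneP2_920

open Polynomial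

variable {L : Type*} [Field L]

section Step

variable {Γ : Type*} [LinearOrderedCommGroupWithZero Γ] (v : Valuation L Γ)

/-- the bump function -/
noncomputable def bump (M : ℕ) (f : L) : L :=
  (1 - (f ^ 2) ^ M) / (1 - (f ^ 2) ^ M + ((f ^ 2) ^ M) ^ 2)

theorem v_one_add {x : L} (hx : v x < 1) : v (1 + x) = 1 := by
  have := v.map_add_eq_of_lt_right (x := x) (y := 1) (by rw [map_one]; exact hx)
  rw [add_comm, this, map_one]

theorem v_one_sub {x : L} (hx : v x < 1) : v (1 - x) = 1 := by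
  have := v_one_add v (x := -x) (by rwa [Valuation.map_neg])
  rwa [← sub_eq_add_neg] at this

theorem F_lt {M : ℕ} (hM : M ≠ 0) {f : L} (hf : v f < 1) : v ((f ^ 2) ^ M) < 1 := by
  rw [map_pow, map_pow, ← pow_mul]
  exact pow_lt_one₀ zero_le hf (by omega)

theorem bump_one {M : ℕ} (hM : M ≠ 0) {f : L} (hf : v f < 1) : v (bump M f - 1) < 1 := by
  set F := (f ^ 2) ^ M with hF
  have h1 : v F < 1 := F_lt v hM hf
  have hd : v (1 - F + F ^ 2) = 1 := by
    have e : 1 - F + F ^ 2 = 1 - F * (1 - F) := by ring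
    rw [e]
    refine v_one_sub v ?_
    rw [map_mul, v_one_sub v h1, mul_one]; exact h1
  have hd0 : 1 - F + F ^ 2 ≠ 0 := by
    intro h0; rw [h0, map_zero] at hd; exact zero_ne_one hd
  have e : bump M f - 1 = -(F ^ 2) / (1 - F + F ^ 2) := by
    rw [bump, ← hF]; field_simp; ring
  rw [e, map_div₀, hd, div_one, Valuation.map_neg, map_pow]
  exact pow_lt_one₀ zero_le h1 two_ne_zero

theorem bump_lt {M : ℕ} (hM : M ≠ 0) {f : L} (hf : 1 ≤ v f)
    (hf1 : v f ≤ 1 → v ((f ^ 2) ^ M - 1) < 1) : v (bump M f) < 1 := by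
  set F := (f ^ 2) ^ M with hF
  rcases hf.lt_or_eq with hlt | heq
  · have h1 : 1 < v F := by
      rw [hF, map_pow, map_pow, ← pow_mul]
      exact one_lt_pow₀ hlt (by omega)
    have hn : v (1 - F) = v F := by
      rw [Valuation.map_sub_swap]
      have := v.map_add_eq_of_lt_left (x := F) (y := -1)
        (by rw [Valuation.map_neg, map_one]; exact h1)
      rwa [← sub_eq_add_neg] at this
    have hd : v (1 - F + F ^ 2) = v F ^ 2 := by
      have := v.map_add_eq_of_lt_right (x := 1 - F) (y := F ^ 2) (by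
        rw [hn, Valuation.map_pow v F 2]; exact lt_self_pow₀ h1 one_lt_two)
      rw [this, Valuation.map_pow v F 2]
    have h0 : v F ≠ 0 := by
      intro h; rw [h] at h1; exact absurd h1 (not_lt.2 zero_le)
    rw [bump, ← hF, map_div₀, hn, hd, pow_two, ← div_div, div_self h0, one_div]
    exact inv_lt_one_of_one_lt₀ h1
  · have h1 := hf1 heq.ge
    have hF1 : v F = 1 := by
      have := v_one_add v h1
      rwa [add_sub_cancel] at this
    have hd : v (1 - F + F ^ 2) = 1 := by
      have e : 1 - F + F ^ 2 = 1 + F * (F - 1) := by ring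
      rw [e]
      refine v_one_add v ?_
      rw [map_mul, hF1, one_mul]; exact h1
    rw [bump, ← hF, map_div₀, hd, div_one, Valuation.map_sub_swap]
    exact h1

theorem bump_le {M : ℕ} (hM : M ≠ 0) {f : L}
    (hf1 : 1 ≤ v f → v f ≤ 1 → v ((f ^ 2) ^ M - 1) < 1) : v (bump M f) ≤ 1 := by
  rcases lt_or_ge (v f) 1 with h | h
  · have h1 := bump_one v hM h
    have := v_one_add v h1
    rw [add_sub_cancel] at this
    exact this.le
  · exact (bump_lt v hM h (hf1 h)).le

theorem bump_div_le {M : ℕ} (hM : M ≠ 0) {f : L} (hf : 1 ≤ v f)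
    (hf1 : v f ≤ 1 → v ((f ^ 2) ^ M - 1) < 1) (h0 : 1 + f ≠ 0) :
    v (bump M f / (1 + f)) ≤ 1 := by
  rcases hf.lt_or_eq with hlt | heq
  · have h1 : v (1 + f) = v f :=
      v.map_add_eq_of_lt_right (x := 1) (y := f) (by rw [map_one]; exact hlt)
    rw [map_div₀, h1, div_le_one₀ (zero_lt_one.trans hlt)]
    exact (bump_lt v hM hf hf1).le.trans hf
  · have h1 := hf1 heq.ge
    set F := (f ^ 2) ^ M with hF
    have hF1 : v F = 1 := by
      have := v_one_add v h1
      rwa [add_sub_cancel] at this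
    have hd : v (1 - F + F ^ 2) = 1 := by
      have e : 1 - F + F ^ 2 = 1 + F * (F - 1) := by ring
      rw [e]
      refine v_one_add v ?_
      rw [map_mul, hF1, one_mul]; exact h1
    have hd0 : 1 - F + F ^ 2 ≠ 0 := by
      intro h0; rw [h0, map_zero] at hd; exact zero_ne_one hd
    have e1 : F - 1 = (∑ i ∈ Finset.range M, (f ^ 2) ^ i) * (f ^ 2 - 1) := (geom_sum_mul _ _).symm
    have e : bump M f / (1 + f) =
        ((∑ i ∈ Finset.range M, (f ^ 2) ^ i) * (1 - f)) / (1 - F + F ^ 2) := by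
      rw [bump, ← hF, div_div, div_eq_div_iff (mul_ne_zero hd0 h0) hd0]
      have : 1 - F = (∑ i ∈ Finset.range M, (f ^ 2) ^ i) * (1 - f) * (1 + f) := by
        rw [← neg_sub, e1]; ring
      rw [this]; ring
    rw [e, map_div₀, hd, div_one, map_mul]
    refine mul_le_one' ?_ ?_
    · refine v.map_sum_le fun i _ => ?_
      rw [map_pow, map_pow, ← heq, one_pow, one_pow]
    · refine (v.map_sub _ _).trans (max_le (by rw [map_one]) heq.ge)

/-- closeness is transported -/
theorem close_pow {h u u' : L} {l : ℕ} (h0 : h ≠ 0) (hu : v (u ^ l - h) < v h)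
    (hl : l ≠ 0) (hd : v (u' - u) ^ l < v h) : v (u' ^ l - h) < v h := by
  have hh : v h ≠ 0 := (v.ne_zero_iff).2 h0
  have hul : v u ^ l = v h := by
    have := v.map_add_eq_of_lt_right (x := u ^ l - h) (y := h) hu
    rw [sub_add_cancel, map_pow] at this
    exact this
  have hu0 : v u ≠ 0 := by
    intro h1; rw [h1, zero_pow hl] at hul; exact hh hul.symm
  have hd1 : v (u' - u) < v u := by
    rw [← hul] at hd
    exact lt_of_pow_lt_pow_left₀ l zero_le hd
  have hu' : v u' = v u := by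
    have := v.map_add_eq_of_lt_right (x := u' - u) (y := u) hd1
    rwa [sub_add_cancel] at this
  have e : u' ^ l - h = (u' ^ l - u ^ l) + (u ^ l - h) := by ring
  rw [e]
  refine lt_of_le_of_lt (v.map_add _ _) (max_lt ?_ hu)
  rw [← (Commute.all u' u).mul_geom_sum₂ l, map_mul, ← hul]
  obtain ⟨l', rfl⟩ := Nat.exists_eq_succ_of_ne_zero hl
  rw [pow_succ', mul_comm]
  have h1 : v (∑ i ∈ Finset.range (l' + 1), u' ^ i * u ^ (l' + 1 - 1 - i)) ≤ v u ^ l' := by
    refine v.map_sum_le fun i hi => ?_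
    rw [map_mul, map_pow, map_pow, hu', ← pow_add]
    rw [Finset.mem_range] at hi
    have : i + (l' + 1 - 1 - i) = l' := by omega
    rw [this]
  calc _ ≤ v u ^ l' * v (u' - u) := by gcongr
    _ < v u ^ l' * v u := by
        refine mul_lt_mul_of_pos_left hd1 ?_
        exact pow_pos (zero_lt_iff.2 hu0) _
    _ = v u * v u ^ l' := mul_comm _ _

end Step

/-- a valuation subring centred at a prime of a subring -/
theorem exists_W (A : Subring L) (p : Ideal A) [hp : p.IsPrime] :
    ∃ W : ValuationSubring L, (∀ a ∈ A, a ∈ W) ∧ ∀ a : A, W.valuation (a : L) < 1 ↔ a ∈ p := by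
  obtain ⟨W, hW⟩ := (LocalSubring.ofPrime A p).exists_le_valuationSubring
  have hAW : ∀ a ∈ A, a ∈ W := fun a ha => hW.1 (LocalSubring.le_ofPrime A p ha)
  have hpW : ∀ a ∈ p, W.valuation (a : L) < 1 := by
    intro a ha
    have h1 : ((LocalSubring.ofPrime A p).toSubring.subtype ''
        (IsLocalRing.maximalIdeal (LocalSubring.ofPrime A p).toSubring)) ⊆ W.nonunits := by
      rintro _ ⟨b, hb, rfl⟩
      have h2 : ¬ IsUnit (Subring.inclusion hW.1 b) := fun h =>
        (IsLocalRing.mem_maximalIdeal _).1 hb (hW.2.1 _ h)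
      have h3 : (⟨(b : L), hW.1 b.2⟩ : W) ∈ IsLocalRing.maximalIdeal W :=
        (IsLocalRing.mem_maximalIdeal _).2 h2
      exact (ValuationSubring.coe_mem_nonunits_iff (a := (⟨(b : L), hW.1 b.2⟩ : W))).2 h3
    refine h1 ?_
    refine ⟨algebraMap A _ a, ?_, rfl⟩
    rw [← IsLocalization.AtPrime.map_eq_maximalIdeal p]
    exact Ideal.mem_map_of_mem _ ha
  refine ⟨W, hAW, fun a => ⟨fun ha => ?_, hpW a⟩⟩
  by_contra hnp
  have hunit : IsUnit (algebraMap A (LocalSubring.ofPrime A p).toSubring a) :=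
    IsLocalization.map_units (M := p.primeCompl) _ ⟨_, hnp⟩
  obtain ⟨u, hu⟩ := hunit
  have h2 : ((u⁻¹ : ((LocalSubring.ofPrime A p).toSubring)ˣ) :
    (LocalSubring.ofPrime A p).toSubring) * u = 1 := Units.inv_mul u
  have h3 := congrArg Subtype.val h2
  rw [Subring.coe_mul, hu] at h3
  have h4 : W.valuation ((u⁻¹ : ((LocalSubring.ofPrime A p).toSubring)ˣ) :
    (LocalSubring.ofPrime A p).toSubring).1 ≤ 1 :=
    (W.valuation_le_one_iff _).2 (hW.1 (SetLike.coe_mem _))
  have h5 := congrArg W.valuation h3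
  have h6 : ((algebraMap A (LocalSubring.ofPrime A p).toSubring a :
    (LocalSubring.ofPrime A p).toSubring) : L) = (a : L) := rfl
  rw [map_mul, h6] at h5
  have h7 : W.valuation (1 : L) = 1 := map_one _
  have : W.valuation ((u⁻¹ : ((LocalSubring.ofPrime A p).toSubring)ˣ) :
    (LocalSubring.ofPrime A p).toSubring).1 * W.valuation (a : L) < 1 :=
    mul_lt_one_of_nonneg_of_lt_one_right h4 zero_le ha
  rw [h5] at this
  exact absurd (this.trans_eq h7.symm) (lt_irrefl _)

section Uniform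

variable {O : Type*} [CommRing O] [Algebra O L] (ϖ : O)

/-- `κ = O/ϖ` finite: a polynomial relation modulo `(ϖ, X)`. -/
theorem exists_rel [(Ideal.span {ϖ}).IsMaximal] {X : L} (hX : X ≠ 0) (f : L)
    (V : ∀ W : ValuationSubring L, (∀ c : O, algebraMap O L c ∈ W) →
      W.valuation (algebraMap O L ϖ) < 1 → f ∈ W →
      (∀ Q : O[X], (∃ j, Q.coeff j ∉ Ideal.span {ϖ}) → W.valuation (aeval f Q) = 1) →
      X⁻¹ ∈ W) :
    ∃ Q : O[X], (∃ j, Q.coeff j ∉ Ideal.span {ϖ}) ∧
      ∀ W : ValuationSubring L, (∀ c : O, algebraMap O L c ∈ W) →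
        W.valuation (algebraMap O L ϖ) < 1 → W.valuation X < 1 → f ∈ W →
        W.valuation (aeval f Q) < 1 := by
  classical
  let R : Subalgebra O L := Algebra.adjoin O {X, f}
  let X' : R := ⟨X, Algebra.subset_adjoin (by simp)⟩
  let f' : R := ⟨f, Algebra.subset_adjoin (by simp)⟩
  let I : Ideal R := Ideal.span {algebraMap O R ϖ, X'}
  let T : Submonoid O[X] :=
    (nonZeroDivisors (O ⧸ Ideal.span {ϖ})[X]).comap
      (Polynomial.mapRingHom (Ideal.Quotient.mk (Ideal.span {ϖ})))
  let S : Submonoid R := T.map (aeval f' : O[X] →ₐ[O] R)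
  have hT : ∀ Q : O[X], Q ∈ T ↔ ∃ j, Q.coeff j ∉ Ideal.span {ϖ} := by
    intro Q
    have : IsDomain (O ⧸ Ideal.span {ϖ}) := Ideal.Quotient.isDomain _
    rw [Submonoid.mem_comap, mem_nonZeroDivisors_iff_ne_zero, Ne, Polynomial.ext_iff, not_forall]
    refine exists_congr fun j => ?_
    rw [coe_mapRingHom, coeff_map, coeff_zero, Ideal.Quotient.eq_zero_iff_mem]
  have hcoe : ∀ Q : O[X], ((aeval f' Q : R) : L) = aeval f Q := by
    intro Q
    exact (aeval_algHom_apply R.val f' Q).symm
  by_cases hd : Disjoint (I : Set R) (S : Set R)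
  · exfalso
    obtain ⟨p, hp, hIp, hpd⟩ := Ideal.exists_le_prime_disjoint I S hd
    let A : Subring L := R.toSubring
    let p' : Ideal A := p
    have : p'.IsPrime := hp
    obtain ⟨W, hAW, hW⟩ := exists_W A p'
    have h1 : W.valuation X < 1 := (hW X').2 (hIp (Ideal.subset_span (by simp)))
    have h2 := V W (fun c => hAW _ (R.algebraMap_mem c))
      ((hW (algebraMap O R ϖ)).2 (hIp (Ideal.subset_span (by simp))))
      (hAW f f'.2) (fun Q hQ => ?_)
    · have h3 := (W.valuation_le_one_iff _).2 h2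
      rw [map_inv₀] at h3
      have h4 : W.valuation X ≠ 0 := (Valuation.ne_zero_iff _).2 hX
      exact absurd h1 (not_lt.2 ((inv_le_one₀ (zero_lt_iff.2 h4)).1 h3))
    · have h3 : ¬ W.valuation ((aeval f' Q : R) : L) < 1 := fun h4 =>
        Set.disjoint_left.1 hpd ((hW (aeval f' Q : R)).1 h4) ⟨Q, (hT Q).2 hQ, rfl⟩
      rw [hcoe] at h3
      refine le_antisymm ?_ (not_lt.1 h3)
      rw [← hcoe]
      exact (W.valuation_le_one_iff _).2 (hAW _ (aeval f' Q : R).2)
  · rw [Set.not_disjoint_iff] at hd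
    obtain ⟨a, haI, Q, hQ, rfl⟩ := hd
    refine ⟨Q, (hT Q).1 hQ, fun W hO hϖ hXW hf => ?_⟩
    have hR : ∀ a : R, (a : L) ∈ W := by
      intro a
      have h1 : R ≤ ({ W.toSubring with algebraMap_mem' := hO } : Subalgebra O L) := by
        refine Algebra.adjoin_le ?_
        rintro x (rfl | rfl)
        · exact (W.valuation_le_one_iff _).1 hXW.le
        · exact hf
      exact h1 a.2
    have h2 : I ≤ (IsLocalRing.maximalIdeal W).comap
        ((R.val : R →+* L).codRestrict W.toSubring hR : R →+* W) := by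
      refine Ideal.span_le.2 ?_
      rintro x (rfl | rfl)
      · exact (W.valuation_lt_one_iff _).2 hϖ
      · exact (W.valuation_lt_one_iff _).2 hXW
    have h3 := h2 haI
    rw [← hcoe]
    exact (W.valuation_lt_one_iff _).1 h3

/-- powers modulo `(ϖ, Q)` -/
theorem exists_pow [(Ideal.span {ϖ}).IsMaximal] [Finite (O ⧸ Ideal.span {ϖ})] (Q : O[X])
    (hQ : ∃ j, Q.coeff j ∉ Ideal.span {ϖ}) :
    ∃ a b : ℕ, b ≠ 0 ∧ ∃ G H : O[X], X ^ a * (X ^ b - 1) = Q * G + C ϖ * H := by
  classical
  let _ : Field (O ⧸ Ideal.span {ϖ}) := Ideal.Quotient.field _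
  let φ : O[X] →+* (O ⧸ Ideal.span {ϖ})[X] := mapRingHom (Ideal.Quotient.mk (Ideal.span {ϖ}))
  have hQ0 : φ Q ≠ 0 := by
    obtain ⟨j, hj⟩ := hQ
    intro h
    have := congrArg (fun p => coeff p j) h
    simp only [φ, coe_mapRingHom, coeff_map, coeff_zero, Ideal.Quotient.eq_zero_iff_mem] at this
    exact hj this
  have : Module.Finite (O ⧸ Ideal.span {ϖ}) (AdjoinRoot (φ Q)) :=
    (AdjoinRoot.powerBasis hQ0).finite
  have : Finite (AdjoinRoot (φ Q)) := Module.finite_of_finite (O ⧸ Ideal.span {ϖ})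
  obtain ⟨m, n, hmn, hx⟩ :=
    Finite.exists_ne_map_eq_of_infinite (fun n : ℕ => AdjoinRoot.root (φ Q) ^ n)
  wlog hlt : m < n generalizing m n
  · exact this n m hmn.symm hx.symm (by omega)
  refine ⟨m, n - m, by omega, ?_⟩
  have h1 : φ Q ∣ X ^ n - X ^ m := by
    rw [← AdjoinRoot.mk_eq_mk, map_pow, map_pow, AdjoinRoot.mk_X]
    exact hx.symm
  obtain ⟨G', hG'⟩ := h1
  obtain ⟨G, hG⟩ := Polynomial.map_surjective (Ideal.Quotient.mk (Ideal.span {ϖ}))
    Ideal.Quotient.mk_surjective G'
  have h2 : C ϖ ∣ X ^ m * (X ^ (n - m) - 1) - Q * G := by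
    rw [C_dvd_iff_dvd_coeff]
    intro i
    have h3 : φ (X ^ m * (X ^ (n - m) - 1) - Q * G) = 0 := by
      have hG2 : φ G = G' := hG
      rw [map_sub, map_mul, map_mul, map_sub, map_pow, map_pow, map_one, hG2, ← hG']
      have : φ X = X := by simp [φ]
      rw [this, mul_sub, ← pow_add, mul_one]
      have e : m + (n - m) = n := by omega
      rw [e, sub_self]
    have h4 := congrArg (fun p => coeff p i) h3
    simp only [φ, coe_mapRingHom, coeff_map, coeff_zero, Ideal.Quotient.eq_zero_iff_mem] at h4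
    exact Ideal.mem_span_singleton.1 h4
  obtain ⟨H, hH⟩ := h2
  exact ⟨G, H, by rw [← hH]; ring⟩

theorem v_pow_sub_one {Γ : Type*} [LinearOrderedCommGroupWithZero Γ] (v : Valuation L Γ) {x : L}
    (hx : v (x - 1) < 1) (k : ℕ) : v (x ^ k - 1) < 1 := by
  have hx1 : v x = 1 := by
    have := v_one_add v hx
    rwa [add_sub_cancel] at this
  rw [← geom_sum_mul, map_mul]
  refine mul_lt_one_of_nonneg_of_lt_one_right ?_ zero_le hx
  refine v.map_sum_le fun i _ => ?_
  rw [map_pow, hx1, one_pow]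

/-- **one exponent for all valuation rings** -/
theorem exists_uniform [(Ideal.span {ϖ}).IsMaximal] [Finite (O ⧸ Ideal.span {ϖ})]
    {X : L} (hX : X ≠ 0) {ι : Type*} (s : Finset ι) (f : ι → L)
    (V : ∀ W : ValuationSubring L, (∀ c : O, algebraMap O L c ∈ W) →
      W.valuation (algebraMap O L ϖ) < 1 → ∀ i ∈ s, f i ∈ W →
      (∀ Q : O[X], (∃ j, Q.coeff j ∉ Ideal.span {ϖ}) → W.valuation (aeval (f i) Q) = 1) →
      X⁻¹ ∈ W) :
    ∃ M : ℕ, M ≠ 0 ∧ ∀ W : ValuationSubring L, (∀ c : O, algebraMap O L c ∈ W) →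
        W.valuation (algebraMap O L ϖ) < 1 → W.valuation X < 1 → ∀ i ∈ s,
        1 ≤ W.valuation (f i) → W.valuation (f i) ≤ 1 →
        W.valuation ((f i ^ 2) ^ M - 1) < 1 := by
  classical
  have key : ∀ i, ∃ b : ℕ, b ≠ 0 ∧ (i ∈ s → ∀ W : ValuationSubring L,
      (∀ c : O, algebraMap O L c ∈ W) →
        W.valuation (algebraMap O L ϖ) < 1 → W.valuation X < 1 →
        1 ≤ W.valuation (f i) → W.valuation (f i) ≤ 1 →
        W.valuation (f i ^ b - 1) < 1) := by
    intro i
    by_cases hi : i ∈ s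
    · obtain ⟨Q, hQ, h⟩ := exists_rel ϖ hX (f i) (fun W h1 h2 h3 h4 => V W h1 h2 i hi h3 h4)
      obtain ⟨a, b, hb, G, H, hGH⟩ := exists_pow ϖ Q hQ
      refine ⟨b, hb, fun _ W hO hϖ hXW h1 h2 => ?_⟩
      have hf : f i ∈ W := (W.valuation_le_one_iff _).1 h2
      have h3 := h W hO hϖ hXW hf
      have hle : ∀ P : O[X], W.valuation (aeval (f i) P) ≤ 1 := by
        intro P
        rw [aeval_eq_sum_range]
        refine W.valuation.map_sum_le fun j _ => ?_
        rw [Algebra.smul_def, map_mul, map_pow]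
        exact mul_le_one' ((W.valuation_le_one_iff _).2 (hO _)) (pow_le_one' h2 _)
      have h4 := congrArg (aeval (f i)) hGH
      rw [map_mul, map_pow, map_sub, map_pow, map_one, map_add, map_mul, map_mul, aeval_X,
        aeval_C] at h4
      have h5 : W.valuation (f i ^ a * (f i ^ b - 1)) < 1 := by
        rw [h4]
        refine lt_of_le_of_lt (W.valuation.map_add _ _) (max_lt ?_ ?_)
        · rw [map_mul]
          exact mul_lt_one_of_lt_of_le h3 (hle _)
        · rw [map_mul]
          exact mul_lt_one_of_lt_of_le hϖ (hle _)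
      rw [map_mul, map_pow, le_antisymm h2 h1, one_pow, one_mul] at h5
      exact h5
    · exact ⟨1, one_ne_zero, fun h => absurd h hi⟩
  choose b hb hb' using key
  refine ⟨∏ i ∈ s, b i, Finset.prod_ne_zero_iff.2 fun i _ => hb i, ?_⟩
  intro W hO hϖ hXW i hi h1 h2
  have h3 := hb' i hi W hO hϖ hXW h1 h2
  obtain ⟨k, hk⟩ := Finset.dvd_prod_of_mem b hi
  have : (f i ^ 2) ^ (∏ i ∈ s, b i) = (f i ^ b i) ^ (2 * k) := by
    rw [hk]; ring
  rw [this]
  exact v_pow_sub_one W.valuation h3 _

end Uniform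

/-- **one approximate root for a finite set of candidates** -/
theorem exists_root {ι : Type*} (s : Finset ι) (u : ι → L) (hu : ∀ i ∈ s, u i ≠ 0) {h : L}
    (h0 : h ≠ 0) {l : ℕ} (hl : 2 ≤ l) {M : ℕ} (hM : M ≠ 0) :
    ∃ a e : L, ∀ W : ValuationSubring L,
      (∀ i ∈ s, 1 ≤ W.valuation (h / u i ^ l - 1) → W.valuation (h / u i ^ l - 1) ≤ 1 →
        W.valuation (((h / u i ^ l - 1) ^ 2) ^ M - 1) < 1) →
      ((∃ i ∈ s, W.valuation (h / u i ^ l - 1) < 1) →
        W.valuation e < 1 ∧ W.valuation (a ^ l - h) < W.valuation h) ∧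
      ((∀ i ∈ s, 1 ≤ W.valuation (h / u i ^ l - 1)) →
        W.valuation (e - 1) < 1 ∧ W.valuation a ^ l < W.valuation h) := by
  classical
  induction s using Finset.induction_on with
  | empty =>
    refine ⟨0, 1, fun W _ => ⟨?_, fun _ => ⟨?_, ?_⟩⟩⟩
    · rintro ⟨i, hi, -⟩
      exact absurd hi (Finset.notMem_empty i)
    · rw [sub_self, map_zero]; exact zero_lt_one
    · rw [map_zero, zero_pow (by omega)]
      exact zero_lt_iff.2 ((Valuation.ne_zero_iff _).2 h0)
  | insert j s hj ih =>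
    obtain ⟨a, e, hae⟩ := ih (fun i hi => hu i (Finset.mem_insert_of_mem hi))
    have huj : u j ≠ 0 := hu j (Finset.mem_insert_self _ _)
    set f := h / u j ^ l - 1 with hf
    have hfu : u j ^ l * (1 + f) = h := by
      rw [hf, add_sub_cancel, mul_div_cancel₀ _ (pow_ne_zero _ huj)]
    have h1f : 1 + f ≠ 0 := by
      intro h1; rw [h1, mul_zero] at hfu; exact h0 hfu.symm
    refine ⟨a + e * bump M f * u j, e * (1 - bump M f), fun W hW => ?_⟩
    obtain ⟨hA, hB⟩ := hae W (fun i hi => hW i (Finset.mem_insert_of_mem hi))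
    have hWj := hW j (Finset.mem_insert_self _ _)
    rw [← hf] at hWj
    have hvh : W.valuation h ≠ 0 := (Valuation.ne_zero_iff _).2 h0
    have hvj : W.valuation (u j) ≠ 0 := (Valuation.ne_zero_iff _).2 huj
    set v := W.valuation with hv
    have hble : v (bump M f) ≤ 1 := bump_le v hM hWj
    -- the case `f ∈ m_W`
    have hfu1 : v f < 1 → v (u j) ^ l = v h := by
      intro hlt
      rw [← hfu, map_mul, map_pow, v_one_add v hlt, mul_one]
    have hl0 : l ≠ 0 := by omega
    have hvh' : 0 < v h := zero_lt_iff.2 hvh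
    have hb2 : 1 ≤ v f → v (bump M f) ^ l * v (u j) ^ l < v h := by
      intro h1
      have h2 := bump_lt v hM h1 (hWj h1)
      have h3 := bump_div_le v hM h1 (hWj h1) h1f
      rw [map_div₀] at h3
      have h4 : v (1 + f) ≠ 0 := (Valuation.ne_zero_iff _).2 h1f
      have h5 : v (u j) ^ l = v h / v (1 + f) := by
        rw [eq_div_iff h4, ← map_pow, ← map_mul, hfu]
      obtain ⟨l', rfl⟩ : ∃ l', l = l' + 1 := ⟨l - 1, by omega⟩
      rw [h5, pow_succ]
      have e1 : v (bump M f) ^ l' * v (bump M f) * (v h / v (1 + f)) =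
          v (bump M f) ^ l' * (v (bump M f) / v (1 + f)) * v h := by
        rw [div_eq_mul_inv, div_eq_mul_inv]; ac_rfl
      rw [e1]
      have h6 : v (bump M f) ^ l' * (v (bump M f) / v (1 + f)) < 1 :=
        mul_lt_one_of_lt_of_le (pow_lt_one₀ zero_le h2 (by omega)) h3
      calc _ < 1 * v h := mul_lt_mul_of_pos_right h6 hvh'
        _ = v h := one_mul _
    -- the new term is small unless `e` is a unit and `f ∈ m_W`
    have hnew2 : v e ≤ 1 → 1 ≤ v f → v (e * bump M f * u j) ^ l < v h := by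
      intro h1 h2
      rw [map_mul, map_mul, mul_pow, mul_pow, mul_assoc]
      refine lt_of_le_of_lt ?_ (hb2 h2)
      exact mul_le_of_le_one_left zero_le (pow_le_one' h1 _)
    have hnew1 : v e < 1 → v (e * bump M f * u j) ^ l < v h := by
      intro h1
      rcases lt_or_ge (v f) 1 with h2 | h2
      · rw [map_mul, map_mul, mul_pow, mul_pow, hfu1 h2]
        have h6 : v e ^ l * v (bump M f) ^ l < 1 :=
          mul_lt_one_of_lt_of_le (pow_lt_one₀ zero_le h1 hl0) (pow_le_one' hble _)
        calc _ < 1 * v h := mul_lt_mul_of_pos_right h6 hvh'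
          _ = v h := one_mul _
      · exact hnew2 h1.le h2
    by_cases hex : ∃ i ∈ s, v (h / u i ^ l - 1) < 1
    · obtain ⟨he, ha⟩ := hA hex
      refine ⟨fun _ => ⟨?_, ?_⟩, fun hall => ?_⟩
      · rw [map_mul]
        refine mul_lt_one_of_lt_of_le he ?_
        exact (v.map_sub _ _).trans (max_le (by rw [map_one]) hble)
      · refine close_pow v h0 ha hl0 ?_
        rw [add_sub_cancel_left]
        exact hnew1 he
      · obtain ⟨i, hi, hi'⟩ := hex
        exact absurd hi' (not_lt.2 (hall i (Finset.mem_insert_of_mem hi)))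
    · push Not at hex
      obtain ⟨he, ha⟩ := hB hex
      have he1 : v e = 1 := by
        have := v_one_add v he
        rwa [add_sub_cancel] at this
      rcases lt_or_ge (v f) 1 with h2 | h2
      · have hb1 := bump_one v hM h2
        refine ⟨fun _ => ⟨?_, ?_⟩, fun hall => ?_⟩
        · rw [map_mul, he1, one_mul, Valuation.map_sub_swap]
          exact hb1
        · have hclose : v (u j ^ l - h) < v h := by
            have e1 : u j ^ l - h = -(f * u j ^ l) := by rw [← hfu]; ring
            rw [e1, Valuation.map_neg, map_mul, map_pow, hfu1 h2]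
            calc _ < 1 * v h := mul_lt_mul_of_pos_right h2 hvh'
              _ = v h := one_mul _
          refine close_pow v h0 hclose hl0 ?_
          have e2 : a + e * bump M f * u j - u j = a + ((e - 1) * bump M f + (bump M f - 1)) * u j := by
            ring
          have h7 : v ((e - 1) * bump M f + (bump M f - 1)) < 1 := by
            refine lt_of_le_of_lt (v.map_add _ _) (max_lt ?_ hb1)
            rw [map_mul]
            exact mul_lt_one_of_lt_of_le he hble
          have h8 : v (((e - 1) * bump M f + (bump M f - 1)) * u j) ^ l < v h := by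
            rw [map_mul, mul_pow, hfu1 h2]
            calc _ < 1 * v h := mul_lt_mul_of_pos_right (pow_lt_one₀ zero_le h7 hl0) hvh'
              _ = v h := one_mul _
          rw [e2]
          rcases le_total (v a) (v (((e - 1) * bump M f + (bump M f - 1)) * u j)) with h9 | h9
          · refine lt_of_le_of_lt (pow_le_pow_left₀ zero_le ?_ _) h8
            exact (v.map_add _ _).trans (max_le h9 le_rfl)
          · refine lt_of_le_of_lt (pow_le_pow_left₀ zero_le ?_ _) ha
            exact (v.map_add _ _).trans (max_le le_rfl h9)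
        · exact absurd h2 (not_lt.2 (hall j (Finset.mem_insert_self _ _)))
      · have hb1 := bump_lt v hM h2 (hWj h2)
        refine ⟨fun ⟨i, hi, hi'⟩ => ?_, fun _ => ⟨?_, ?_⟩⟩
        · rcases Finset.mem_insert.1 hi with rfl | hi
          · exact absurd hi' (not_lt.2 h2)
          · exact absurd hi' (not_lt.2 (hex i hi))
        · have e1 : e * (1 - bump M f) - 1 = (e - 1) + -(e * bump M f) := by ring
          rw [e1]
          refine lt_of_le_of_lt (v.map_add _ _) (max_lt he ?_)
          rw [Valuation.map_neg, map_mul, he1, one_mul]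
          exact hb1
        · have h8 := hnew2 he1.le h2
          rcases le_total (v a) (v (e * bump M f * u j)) with h9 | h9
          · refine lt_of_le_of_lt (pow_le_pow_left₀ zero_le ?_ _) h8
            exact (v.map_add _ _).trans (max_le h9 le_rfl)
          · refine lt_of_le_of_lt (pow_le_pow_left₀ zero_le ?_ _) ha
            exact (v.map_add _ _).trans (max_le le_rfl h9)

/-- **(P2)**: `κ = O/ϖ` finite; over `X ∈ m_W` one `u` does the job. -/
theorem p2 {O : Type*} [CommRing O] [Algebra O L] (ϖ : O) [(Ideal.span {ϖ}).IsMaximal]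
    [Finite (O ⧸ Ideal.span {ϖ})] {X : L} (hX : X ≠ 0) {ι : Type*} (s : Finset ι) (u : ι → L)
    (hu : ∀ i ∈ s, u i ≠ 0) {h : L} (h0 : h ≠ 0) {l : ℕ} (hl : 2 ≤ l)
    (cov : ∀ W : ValuationSubring L, (∀ c : O, algebraMap O L c ∈ W) →
      W.valuation (algebraMap O L ϖ) < 1 → ∃ i ∈ s, W.valuation (h / u i ^ l - 1) < 1)
    (V : ∀ W : ValuationSubring L, (∀ c : O, algebraMap O L c ∈ W) →
      W.valuation (algebraMap O L ϖ) < 1 → ∀ i ∈ s, h / u i ^ l - 1 ∈ W →
      (∀ Q : O[X], (∃ j, Q.coeff j ∉ Ideal.span {ϖ}) →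
        W.valuation (aeval (h / u i ^ l - 1) Q) = 1) → X⁻¹ ∈ W) :
    ∃ a : L, a ≠ 0 ∧ ∀ W : ValuationSubring L, (∀ c : O, algebraMap O L c ∈ W) →
      W.valuation (algebraMap O L ϖ) < 1 → W.valuation X < 1 →
      W.valuation (h / a ^ l - 1) < 1 := by
  classical
  obtain ⟨M, hM, hW⟩ := exists_uniform ϖ hX s (fun i => h / u i ^ l - 1) V
  obtain ⟨a, e, hae⟩ := exists_root s u hu h0 hl hM
  have key : ∀ W : ValuationSubring L, (∀ c : O, algebraMap O L c ∈ W) →
      W.valuation (algebraMap O L ϖ) < 1 → W.valuation X < 1 →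
      a ≠ 0 ∧ W.valuation (h / a ^ l - 1) < 1 := by
    intro W h1 h2 h3
    have h4 := ((hae W (hW W h1 h2 h3)).1 (cov W h1 h2)).2
    have hvh : W.valuation h ≠ 0 := (Valuation.ne_zero_iff _).2 h0
    have h5 : W.valuation (a ^ l) = W.valuation h := by
      have := W.valuation.map_add_eq_of_lt_right (x := a ^ l - h) (y := h) h4
      rwa [sub_add_cancel] at this
    have h6 : a ^ l ≠ 0 := by
      intro h6; rw [h6, map_zero] at h5; exact hvh h5.symm
    refine ⟨fun h7 => h6 (by rw [h7, zero_pow (by omega)]), ?_⟩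
    have e1 : h / a ^ l - 1 = -(a ^ l - h) / a ^ l := by field_simp; ring
    rw [e1, map_div₀, Valuation.map_neg, h5]
    exact (div_lt_one₀ (zero_lt_iff.2 hvh)).2 h4
  by_cases hex : ∃ W : ValuationSubring L, (∀ c : O, algebraMap O L c ∈ W) ∧
      W.valuation (algebraMap O L ϖ) < 1 ∧ W.valuation X < 1
  · obtain ⟨W, h1, h2, h3⟩ := hex
    exact ⟨a, (key W h1 h2 h3).1, fun W h1 h2 h3 => (key W h1 h2 h3).2⟩
  · exact ⟨1, one_ne_zero, fun W h1 h2 h3 => absurd ⟨W, h1, h2, h3⟩ hex⟩

end Crest.Agent.R013.OneP2_920
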