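import Crest.Agent.R013.OneB_622
import Crest.Agent.R013.OneP2_920
import Crest.Agent.R013.Good2_940

/-!
# (ONE) of row 13, part C: assembly

`one_general`: P1 data (97) + P2 (920) + `nPow_RU`, `nPow_FP` give: `h` is a one-circle class for
`Y = π / (h / u₀ ^ l - 1) ^ m`.
`one_p`: the same over `ℚ_p` with the circle field (940) and `F = ℚ_p(Y)` supplied.
-/

set_option autoImplicit false

namespace Crest.Agent.R013.One_622

open Polynomial Gl946 Lift903 LemT_874
open scoped TensorProduct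

attribute [local instance] Algebra.TensorProduct.rightAlgebra

section Max

variable {k : Type*} [NormedField k] [IsUltrametricDist k] {π : k} (hπ : IsUnif π)

/-- the uniformizer as an element of the unit ball -/
def pi0 : R0 k := ⟨π, hπ.lt_one.le⟩

theorem mem_span_pi0 (a : R0 k) : a ∈ Ideal.span {pi0 hπ} ↔ ‖(a : k)‖ < 1 := by
  have hπ0 : π ≠ 0 := norm_pos_iff.1 hπ.pos
  rw [Ideal.mem_span_singleton']
  constructor
  · rintro ⟨b, rfl⟩
    change ‖(b : k) * π‖ < 1
    rw [norm_mul]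
    calc ‖(b : k)‖ * ‖π‖ ≤ 1 * ‖π‖ := mul_le_mul_of_nonneg_right b.2 (norm_nonneg _)
      _ < 1 := by rw [one_mul]; exact hπ.lt_one
  · intro h
    refine ⟨⟨(a : k) / π, ?_⟩, Subtype.ext ?_⟩
    · change ‖(a : k) / π‖ ≤ 1
      rw [norm_div]
      exact (div_le_one hπ.pos).2 (hπ.le _ h)
    · change (a : k) / π * π = a
      exact div_mul_cancel₀ _ hπ0

theorem isMaximal_pi0 : (Ideal.span {pi0 hπ}).IsMaximal := by
  rw [Ideal.isMaximal_iff]
  constructor
  · rw [mem_span_pi0]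
    change ¬ ‖(1 : k)‖ < 1
    rw [norm_one]
    exact lt_irrefl _
  · intro J x _ hx hxJ
    have h1 : ‖(x : k)‖ = 1 := le_antisymm x.2 (by
      by_contra h
      exact hx ((mem_span_pi0 hπ x).2 (not_le.1 h)))
    have hx0 : (x : k) ≠ 0 := by
      intro h0
      rw [h0, norm_zero] at h1
      exact zero_ne_one h1
    have h2 : (1 : R0 k) = ⟨(x : k)⁻¹, by
        change ‖(x : k)⁻¹‖ ≤ 1
        rw [norm_inv, h1, inv_one]⟩ * x := Subtype.ext (by
      change (1 : k) = (x : k)⁻¹ * x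
      rw [inv_mul_cancel₀ hx0])
    rw [h2]
    exact J.mul_mem_left _ hxJ

end Max

section General

variable {k : Type*} [NormedField k] [IsUltrametricDist k] [CompleteSpace k] {π : k}
  (hπ : IsUnif π) {L : Type*} [Field L] [Algebra k L]

/-- The P1 data: finitely many `u i`, and `u₀`, `m`. -/
structure P1 {ι : Type*} (s : Finset ι) (u : ι → L) (h : L) (l : ℕ) (u₀ : L) (m : ℕ) : Prop where
  hu : ∀ i ∈ s, u i ≠ 0
  hu₀ : u₀ ≠ 0
  hm : 0 < m
  tr : Transcendental k (h / u₀ ^ l - 1)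
  cov : ∀ W : ValuationSubring L, (∀ c : R0 k, algebraMap (R0 k) L c ∈ W) →
    W.valuation (algebraMap (R0 k) L (pi0 hπ)) < 1 → ∃ i ∈ s, W.valuation (h / u i ^ l - 1) < 1
  V : ∀ W : ValuationSubring L, (∀ c : R0 k, algebraMap (R0 k) L c ∈ W) →
    W.valuation (algebraMap (R0 k) L (pi0 hπ)) < 1 → ∀ i ∈ s, h / u i ^ l - 1 ∈ W →
    (∀ Q : (R0 k)[X], (∃ j, Q.coeff j ∉ Ideal.span {pi0 hπ}) →
      W.valuation (aeval (h / u i ^ l - 1) Q) = 1) →
    (h / u₀ ^ l - 1) ^ m / algebraMap k L π ^ 2 ∈ W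

/-- the coordinate of the circle -/
noncomputable def coord (π : k) (h : L) (l : ℕ) (u₀ : L) (m : ℕ) : L :=
  algebraMap k L π / (h / u₀ ^ l - 1) ^ m

variable {E : Type*} [NormedField E] [NormedAlgebra k E]
  [IsUltrametricDist E] [CompleteSpace E] {y : E} (hG : IsGauss k y) (hd : DenseRat k y)
  {F : Type*} [Field F] [Algebra F L] [Algebra F E]
  [Algebra k F] [IsScalarTower k F E] [IsScalarTower k F L] [FiniteDimensional F L]
  {yF : F} (hy : algebraMap F E yF = y) (hF : ∀ x : F, algebraMap F E x ∈ KY hG)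

include hy in
/-- **Theorem (ONE)**, assembled from P1, P2, P3. -/
theorem one_general [Finite (R0 k ⧸ Ideal.span {pi0 hπ})] {l : ℕ} (hl2 : 2 ≤ l)
    (hl : ‖(l : k)‖ = 1) {h : L} (h0 : h ≠ 0) {ι : Type*} {s : Finset ι} {u : ι → L} {u₀ : L}
    {m : ℕ} (P : P1 hπ s u h l u₀ m) (hyL : algebraMap F L yF = coord π h l u₀ m) :
    NPow (algebraMap_mem_RU hG hF) l h ∧ NPow (algebraMap_mem_FP hG hπ hd hF) l h := by
  have hπ0 : π ≠ 0 := norm_pos_iff.1 hπ.pos
  have hπL : algebraMap k L π ≠ 0 := (_root_.map_ne_zero _).2 hπ0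
  set f₀ : L := h / u₀ ^ l - 1 with hf₀
  have hf0 : f₀ ≠ 0 := by
    intro h1
    apply P.tr
    rw [← hf₀, h1]
    exact isAlgebraic_zero
  have hu0 : u₀ ^ l ≠ 0 := pow_ne_zero _ P.hu₀
  constructor
  · refine nPow_RU hG hπ hF l hl f₀ u₀ h ?_ m P.hm ?_ hy
    · rw [hf₀]; field_simp; ring
    · rw [hyL, coord, ← hf₀, mul_div_cancel₀ _ (pow_ne_zero _ hf0)]
  · have := isMaximal_pi0 hπ
    set X₀ : L := algebraMap k L π ^ 2 / f₀ ^ m with hX₀
    have hX0 : X₀ ≠ 0 := div_ne_zero (pow_ne_zero _ hπL) (pow_ne_zero _ hf0)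
    obtain ⟨a, ha0, ha⟩ := OneP2_920.p2 (L := L) (pi0 hπ) (X := X₀) hX0 s u P.hu h0 hl2 P.cov
      (fun W h1 h2 i hi h3 h4 => by
        rw [hX₀, inv_div]
        exact P.V W h1 h2 i hi h3 h4)
    refine nPow_FP hG hπ hy hd hF l hl (h / a ^ l - 1) a h ?_ ?_
    · have := pow_ne_zero l ha0
      field_simp
      ring
    · intro W hW hYW
      refine ha W (fun c => hW.mem c c.2) hW.lt ?_
      have e1 : X₀ = algebraMap k L π * algebraMap F L yF := by
        rw [hyL, coord, ← hf₀, hX₀]; ring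
      rw [e1, map_mul]
      exact lt_of_le_of_lt (mul_le_of_le_one_right' ((W.valuation_le_one_iff _).2 hYW)) hW.lt

end General

section Pack

universe u

variable {k : Type u} [NormedField k] [IsUltrametricDist k] [CompleteSpace k] {π : k}
  (hπ : IsUnif π) {L : Type*} [Field L] [Algebra k L]

omit [IsUltrametricDist k] [CompleteSpace k] in
theorem transcendental_coord {h : L} {l : ℕ} {u₀ : L} {m : ℕ} (hm : 0 < m) (hπ0 : π ≠ 0)
    (tr : Transcendental k (h / u₀ ^ l - 1)) : Transcendental k (coord π h l u₀ m) := by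
  intro hY
  apply tr
  have hπL : algebraMap k L π ≠ 0 := (_root_.map_ne_zero _).2 hπ0
  have hf0 : h / u₀ ^ l - 1 ≠ 0 := by
    intro h1
    apply tr
    rw [h1]
    exact isAlgebraic_zero
  have e1 : (h / u₀ ^ l - 1) ^ m = algebraMap k L π / coord π h l u₀ m := by
    rw [coord, div_div_cancel₀ hπL]
  have h2 : IsAlgebraic k ((h / u₀ ^ l - 1) ^ m) := by
    rw [e1, div_eq_mul_inv]
    exact (isAlgebraic_algebraMap π).mul hY.inv
  exact h2.of_pow hm

/-- **Theorem (ONE)** with all the fields supplied. -/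
theorem one_pack [Finite (R0 k ⧸ Ideal.span {pi0 hπ})] {l : ℕ} (hl2 : 2 ≤ l)
    (hl : ‖(l : k)‖ = 1) {h : L} (h0 : h ≠ 0) {ι : Type*} {s : Finset ι} {u : ι → L} {u₀ : L}
    {m : ℕ} (P : P1 hπ s u h l u₀ m)
    (hfin : ∀ x : L, Transcendental k x → FiniteDimensional (IntermediateField.adjoin k {x}) L) :
    ∃ (F E : Type u) (_ : NormedField E) (_ : NormedAlgebra k E) (_ : IsUltrametricDist E)
      (_ : CompleteSpace E) (_ : Field F) (_ : Algebra F L) (_ : Algebra F E) (_ : Algebra k F)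
      (_ : IsScalarTower k F E) (_ : IsScalarTower k F L) (_ : FiniteDimensional F L) (y : E)
      (hG : IsGauss k y) (hd : DenseRat k y) (hF : ∀ x : F, algebraMap F E x ∈ KY hG)
      (_ : ∀ z ∈ KY hG, z ∈ Set.range (algebraMap F E)),
      NPow (algebraMap_mem_RU hG hF) l h ∧ NPow (algebraMap_mem_FP hG hπ hd hF) l h := by
  classical
  have hπ0 : π ≠ 0 := norm_pos_iff.1 hπ.pos
  set Y := coord π h l u₀ m with hY
  have hYt : Transcendental k Y := transcendental_coord P.hm hπ0 P.tr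
  obtain ⟨E, i1, i2, i3, i4, y, hG, hd⟩ := Good2_940.exists_circle k
  let eY : RatFunc k ≃ₐ[k] IntermediateField.adjoin k {Y} :=
    RatFunc.algEquivOfTranscendental Y hYt
  have heY : ((eY RatFunc.X : IntermediateField.adjoin k {Y}) : L) = Y :=
    RatFunc.algEquivOfTranscendental_X Y hYt
  let aL : RatFunc k →ₐ[k] L := (IntermediateField.val _).comp eY.toAlgHom
  let aE : RatFunc k →ₐ[k] E := RatFunc.liftAlgHom (aeval y) (by
    intro f hf
    rw [Submonoid.mem_comap]
    exact mem_nonZeroDivisors_of_ne_zero (hG.aeval_ne_zero (nonZeroDivisors.ne_zero hf)))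
  let iL : Algebra (RatFunc k) L := aL.toRingHom.toAlgebra
  let iE : Algebra (RatFunc k) E := aE.toRingHom.toAlgebra
  have tE : IsScalarTower k (RatFunc k) E := IsScalarTower.of_algebraMap_eq fun c =>
    (aE.commutes c).symm
  have tL : IsScalarTower k (RatFunc k) L := IsScalarTower.of_algebraMap_eq fun c =>
    (aL.commutes c).symm
  have hfd : FiniteDimensional (IntermediateField.adjoin k {Y}) L := hfin Y hYt
  have hfd' : FiniteDimensional (RatFunc k) L :=
    Module.Finite.of_equiv_equiv (A₁ := IntermediateField.adjoin k {Y}) (B₁ := L)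
      eY.symm.toRingEquiv (RingEquiv.refl L) (by
        ext x
        change aL (eY.symm x) = (x : L)
        change ((eY (eY.symm x) : IntermediateField.adjoin k {Y}) : L) = (x : L)
        rw [AlgEquiv.apply_symm_apply])
  have hy : algebraMap (RatFunc k) E RatFunc.X = y := by
    change aE RatFunc.X = y
    have e1 : (RatFunc.X : RatFunc k) = algebraMap k[X] (RatFunc k) X / algebraMap k[X] (RatFunc k) 1 := by
      rw [map_one, div_one, RatFunc.algebraMap_X]
    rw [e1, RatFunc.liftAlgHom_apply_div, aeval_X, map_one, div_one]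
  have hgen : ∀ x : RatFunc k, ∃ f g : k[X], aeval (RatFunc.X : RatFunc k) g ≠ 0 ∧
      x = aeval (RatFunc.X : RatFunc k) f / aeval (RatFunc.X : RatFunc k) g := by
    intro x
    have key : ∀ f : k[X], aeval (RatFunc.X : RatFunc k) f = algebraMap k[X] (RatFunc k) f := by
      intro f
      rw [← RatFunc.algebraMap_X, aeval_algebraMap_apply, aeval_X_left_apply]
    refine ⟨x.num, x.denom, ?_, ?_⟩
    · rw [key]
      exact RatFunc.algebraMap_ne_zero x.denom_ne_zero
    · rw [key, key, RatFunc.num_div_denom]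
  have hmap : ∀ f : k[X], algebraMap (RatFunc k) E (aeval (RatFunc.X : RatFunc k) f) =
      aeval y f := fun f => by rw [← hy, ← aeval_algebraMap_apply]
  have hF : ∀ x : RatFunc k, algebraMap (RatFunc k) E x ∈ KY hG := by
    intro x
    obtain ⟨f, g, hg, rfl⟩ := hgen x
    refine ⟨f, g, ?_, ?_⟩
    · rintro rfl
      exact hg (map_zero _)
    · rw [map_div₀, hmap, hmap]
  refine ⟨RatFunc k, E, i1, i2, i3, i4, inferInstance, iL, iE, inferInstance, tE, tL, hfd', y, hG,
    hd, hF, ?_, ?_⟩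
  · rintro _ ⟨f, g, -, rfl⟩
    exact ⟨aeval RatFunc.X f / aeval RatFunc.X g, by rw [map_div₀, hmap, hmap]⟩
  refine one_general hπ hG hd hy hF hl2 hl h0 P ?_
  change aL RatFunc.X = Y
  exact heY

end Pack

section Padic

variable (p : ℕ) [Fact p.Prime]

theorem isUnif_p : IsUnif (p : ℚ_[p]) where
  pos := by
    rw [Padic.norm_p]
    exact inv_pos.2 (by exact_mod_cast (Fact.out : p.Prime).pos)
  lt_one := Padic.norm_p_lt_one
  le a ha := by
    have h1 := (PadicInt.norm_lt_one_iff_dvd (⟨a, ha.le⟩ : ℤ_[p])).1 ha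
    obtain ⟨b, hb⟩ := h1
    have h2 : a = (p : ℚ_[p]) * (b : ℚ_[p]) := by
      have := congrArg (fun x : ℤ_[p] => (x : ℚ_[p])) hb
      simpa using this
    rw [h2, norm_mul]
    exact mul_le_of_le_one_right (norm_nonneg _) b.2

instance finite_residue : Finite (R0 ℚ_[p] ⧸ Ideal.span {pi0 (isUnif_p p)}) := by
  let φ : R0 ℚ_[p] →+* ℤ_[p] :=
    { toFun := fun x => ⟨x.1, x.2⟩
      map_one' := rfl
      map_mul' := fun _ _ => rfl
      map_zero' := rfl
      map_add' := fun _ _ => rfl }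
  let ψ : R0 ℚ_[p] →+* ZMod p := (PadicInt.toZMod).comp φ
  have hker : RingHom.ker ψ = Ideal.span {pi0 (isUnif_p p)} := by
    ext x
    rw [mem_span_pi0, RingHom.mem_ker]
    change PadicInt.toZMod (φ x) = 0 ↔ _
    rw [← RingHom.mem_ker, PadicInt.ker_toZMod, PadicInt.maximalIdeal_eq_span_p,
      Ideal.mem_span_singleton, ← PadicInt.norm_lt_one_iff_dvd]
    rfl
  rw [← hker]
  exact Finite.of_injective _ (RingHom.kerLift_injective ψ)

/-- **Theorem (ONE)** over `ℚ_p`. -/
theorem one_p {L : Type*} [Field L] [Algebra ℚ_[p] L] {l : ℕ} (hl : l.Prime) (hlp : l ≠ p)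
    {h : L} (h0 : h ≠ 0) {ι : Type*} {s : Finset ι} {u : ι → L} {u₀ : L}
    {m : ℕ} (P : P1 (isUnif_p p) s u h l u₀ m)
    (hfin : ∀ x : L, Transcendental ℚ_[p] x →
      FiniteDimensional (IntermediateField.adjoin ℚ_[p] {x}) L) :
    ∃ (F E : Type) (_ : NormedField E) (_ : NormedAlgebra ℚ_[p] E) (_ : IsUltrametricDist E)
      (_ : CompleteSpace E) (_ : Field F) (_ : Algebra F L) (_ : Algebra F E)
      (_ : Algebra ℚ_[p] F) (_ : IsScalarTower ℚ_[p] F E) (_ : IsScalarTower ℚ_[p] F L)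
      (_ : FiniteDimensional F L) (y : E)
      (hG : IsGauss ℚ_[p] y) (hd : DenseRat ℚ_[p] y) (hF : ∀ x : F, algebraMap F E x ∈ KY hG)
      (_ : ∀ z ∈ KY hG, z ∈ Set.range (algebraMap F E)),
      NPow (algebraMap_mem_RU hG hF) l h ∧
        NPow (algebraMap_mem_FP hG (isUnif_p p) hd hF) l h := by
  refine one_pack (isUnif_p p) hl.two_le ?_ h0 P hfin
  rw [Padic.norm_natCast_eq_one_iff]
  exact ((Nat.coprime_primes (Fact.out : p.Prime) hl).2 (Ne.symm hlp))

end Padic

end Crest.Agent.R013.One_622
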