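import Crest.Agent.R013.OneP2_920
import Crest.Agent.R013.E1a_97
import Mathlib.FieldTheory.IntermediateField.Adjoin.Algebra
import Mathlib.Analysis.Normed.Field.Basic
import Mathlib.Analysis.Normed.Group.Ultra

/-!
# Theorem (ONE), part (P1): compactness and the exceptional rings

`k` a normed field with uniformiser `π`, `L` of transcendence degree one over `k`.
`RZ` = valuation subrings `W` of `L` over the unit ball with `π ∈ m_W`.
No finiteness of the set of exceptional rings, no weak approximation: only "rank one" and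
compactness (helper97's `rzc`).
-/

set_option autoImplicit false

namespace Crest.Agent.R013.OneP1_920

open Polynomial OneP2_920

variable {L : Type*} [Field L]

/-- **one approximate root for a finite set of candidates**, arbitrary bump functions -/
theorem exists_root_gen {ι : Type*} (s : Finset ι) (u b : ι → L) (hu : ∀ i ∈ s, u i ≠ 0) {h : L}
    (h0 : h ≠ 0) {l : ℕ} (hl : 2 ≤ l) :
    ∃ a e : L, ∀ W : ValuationSubring L,
      (∀ i ∈ s, (W.valuation (h / u i ^ l - 1) < 1 → W.valuation (b i - 1) < 1) ∧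
        (1 ≤ W.valuation (h / u i ^ l - 1) → W.valuation (b i) < 1 ∧
          W.valuation (b i / (1 + (h / u i ^ l - 1))) ≤ 1)) →
      ((∃ i ∈ s, W.valuation (h / u i ^ l - 1) < 1) →
        W.valuation e < 1 ∧ W.valuation (a ^ l - h) < W.valuation h) ∧
      ((∀ i ∈ s, 1 ≤ W.valuation (h / u i ^ l - 1)) →
        W.valuation (e - 1) < 1 ∧ W.valuation a ^ l < W.valuation h) := by
  classical
  induction s using Finset.induction_on with
  | empty =>
    refine ⟨0, 1, fun W _ => ⟨?_, fun _ => ⟨?_, ?_⟩⟩⟩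
    · rintro ⟨i, hi, -⟩
      exact absurd hi (Finset.notMem_empty i)
    · rw [sub_self, map_zero]; exact zero_lt_one
    · rw [map_zero, zero_pow (by omega)]
      exact zero_lt_iff.2 ((Valuation.ne_zero_iff _).2 h0)
  | insert j s hj ih =>
    obtain ⟨a, e, hae⟩ := ih (fun i hi => hu i (Finset.mem_insert_of_mem hi))
    have huj : u j ≠ 0 := hu j (Finset.mem_insert_self _ _)
    set f := h / u j ^ l - 1 with hf
    have hfu : u j ^ l * (1 + f) = h := by
      rw [hf, add_sub_cancel, mul_div_cancel₀ _ (pow_ne_zero _ huj)]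
    have h1f : 1 + f ≠ 0 := by
      intro h1; rw [h1, mul_zero] at hfu; exact h0 hfu.symm
    refine ⟨a + e * b j * u j, e * (1 - b j), fun W hW => ?_⟩
    obtain ⟨hA, hB⟩ := hae W (fun i hi => hW i (Finset.mem_insert_of_mem hi))
    have hWj := hW j (Finset.mem_insert_self _ _)
    rw [← hf] at hWj
    have hvh : W.valuation h ≠ 0 := (Valuation.ne_zero_iff _).2 h0
    set v := W.valuation with hv
    have hble : v (b j) ≤ 1 := by
      rcases lt_or_ge (v f) 1 with h1 | h1
      · have := v_one_add v (hWj.1 h1)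
        rw [add_sub_cancel] at this
        exact this.le
      · exact (hWj.2 h1).1.le
    -- the case `f ∈ m_W`
    have hfu1 : v f < 1 → v (u j) ^ l = v h := by
      intro hlt
      rw [← hfu, map_mul, map_pow, v_one_add v hlt, mul_one]
    have hl0 : l ≠ 0 := by omega
    have hvh' : 0 < v h := zero_lt_iff.2 hvh
    have hb2 : 1 ≤ v f → v (b j) ^ l * v (u j) ^ l < v h := by
      intro h1
      obtain ⟨h2, h3⟩ := hWj.2 h1
      rw [map_div₀] at h3
      have h4 : v (1 + f) ≠ 0 := (Valuation.ne_zero_iff _).2 h1f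
      have h5 : v (u j) ^ l = v h / v (1 + f) := by
        rw [eq_div_iff h4, ← map_pow, ← map_mul, hfu]
      obtain ⟨l', rfl⟩ : ∃ l', l = l' + 1 := ⟨l - 1, by omega⟩
      rw [h5, pow_succ]
      have e1 : v (b j) ^ l' * v (b j) * (v h / v (1 + f)) =
          v (b j) ^ l' * (v (b j) / v (1 + f)) * v h := by
        rw [div_eq_mul_inv, div_eq_mul_inv]; ac_rfl
      rw [e1]
      have h6 : v (b j) ^ l' * (v (b j) / v (1 + f)) < 1 :=
        mul_lt_one_of_lt_of_le (pow_lt_one₀ zero_le h2 (by omega)) h3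
      calc _ < 1 * v h := mul_lt_mul_of_pos_right h6 hvh'
        _ = v h := one_mul _
    -- the new term is small unless `e` is a unit and `f ∈ m_W`
    have hnew2 : v e ≤ 1 → 1 ≤ v f → v (e * b j * u j) ^ l < v h := by
      intro h1 h2
      rw [map_mul, map_mul, mul_pow, mul_pow, mul_assoc]
      refine lt_of_le_of_lt ?_ (hb2 h2)
      exact mul_le_of_le_one_left zero_le (pow_le_one' h1 _)
    have hnew1 : v e < 1 → v (e * b j * u j) ^ l < v h := by
      intro h1
      rcases lt_or_ge (v f) 1 with h2 | h2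
      · rw [map_mul, map_mul, mul_pow, mul_pow, hfu1 h2]
        have h6 : v e ^ l * v (b j) ^ l < 1 :=
          mul_lt_one_of_lt_of_le (pow_lt_one₀ zero_le h1 hl0) (pow_le_one' hble _)
        calc _ < 1 * v h := mul_lt_mul_of_pos_right h6 hvh'
          _ = v h := one_mul _
      · exact hnew2 h1.le h2
    by_cases hex : ∃ i ∈ s, v (h / u i ^ l - 1) < 1
    · obtain ⟨he, ha⟩ := hA hex
      refine ⟨fun _ => ⟨?_, ?_⟩, fun hall => ?_⟩
      · rw [map_mul]
        refine mul_lt_one_of_lt_of_le he ?_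
        exact (v.map_sub _ _).trans (max_le (by rw [map_one]) hble)
      · refine close_pow v h0 ha hl0 ?_
        rw [add_sub_cancel_left]
        exact hnew1 he
      · obtain ⟨i, hi, hi'⟩ := hex
        exact absurd hi' (not_lt.2 (hall i (Finset.mem_insert_of_mem hi)))
    · push Not at hex
      obtain ⟨he, ha⟩ := hB hex
      have he1 : v e = 1 := by
        have := v_one_add v he
        rwa [add_sub_cancel] at this
      rcases lt_or_ge (v f) 1 with h2 | h2
      · have hb1 := hWj.1 h2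
        refine ⟨fun _ => ⟨?_, ?_⟩, fun hall => ?_⟩
        · rw [map_mul, he1, one_mul, Valuation.map_sub_swap]
          exact hb1
        · have hclose : v (u j ^ l - h) < v h := by
            have e1 : u j ^ l - h = -(f * u j ^ l) := by rw [← hfu]; ring
            rw [e1, Valuation.map_neg, map_mul, map_pow, hfu1 h2]
            calc _ < 1 * v h := mul_lt_mul_of_pos_right h2 hvh'
              _ = v h := one_mul _
          refine close_pow v h0 hclose hl0 ?_
          have e2 : a + e * b j * u j - u j = a + ((e - 1) * b j + (b j - 1)) * u j := by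
            ring
          have h7 : v ((e - 1) * b j + (b j - 1)) < 1 := by
            refine lt_of_le_of_lt (v.map_add _ _) (max_lt ?_ hb1)
            rw [map_mul]
            exact mul_lt_one_of_lt_of_le he hble
          have h8 : v (((e - 1) * b j + (b j - 1)) * u j) ^ l < v h := by
            rw [map_mul, mul_pow, hfu1 h2]
            calc _ < 1 * v h := mul_lt_mul_of_pos_right (pow_lt_one₀ zero_le h7 hl0) hvh'
              _ = v h := one_mul _
          rw [e2]
          rcases le_total (v a) (v (((e - 1) * b j + (b j - 1)) * u j)) with h9 | h9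
          · refine lt_of_le_of_lt (pow_le_pow_left₀ zero_le ?_ _) h8
            exact (v.map_add _ _).trans (max_le h9 le_rfl)
          · refine lt_of_le_of_lt (pow_le_pow_left₀ zero_le ?_ _) ha
            exact (v.map_add _ _).trans (max_le le_rfl h9)
        · exact absurd h2 (not_lt.2 (hall j (Finset.mem_insert_self _ _)))
      · have hb1 := (hWj.2 h2).1
        refine ⟨fun ⟨i, hi, hi'⟩ => ?_, fun _ => ⟨?_, ?_⟩⟩
        · rcases Finset.mem_insert.1 hi with rfl | hi
          · exact absurd hi' (not_lt.2 h2)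
          · exact absurd hi' (not_lt.2 (hex i hi))
        · have e1 : e * (1 - b j) - 1 = (e - 1) + -(e * b j) := by ring
          rw [e1]
          refine lt_of_le_of_lt (v.map_add _ _) (max_lt he ?_)
          rw [Valuation.map_neg, map_mul, he1, one_mul]
          exact hb1
        · have h8 := hnew2 he1.le h2
          rcases le_total (v a) (v (e * b j * u j)) with h9 | h9
          · refine lt_of_le_of_lt (pow_le_pow_left₀ zero_le ?_ _) h8
            exact (v.map_add _ _).trans (max_le h9 le_rfl)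
          · refine lt_of_le_of_lt (pow_le_pow_left₀ zero_le ?_ _) ha
            exact (v.map_add _ _).trans (max_le le_rfl h9)

/-- the bump function with `π` -/
theorem pbump {Γ : Type*} [LinearOrderedCommGroupWithZero Γ] (v : Valuation L Γ) {ϖ f : L}
    (hϖ : v ϖ < 1) (hϖ0 : ϖ ≠ 0) {n : ℕ} (hn : 2 ≤ n) (h1f : 1 + f ≠ 0)
    (hfn : v f < 1 → v (f ^ n) < v ϖ) :
    (v f < 1 → v (ϖ * (1 + f) ^ 2 / (ϖ * (1 + f) ^ 2 + f ^ n) - 1) < 1) ∧
    (1 ≤ v f → v (ϖ * (1 + f) ^ 2 / (ϖ * (1 + f) ^ 2 + f ^ n)) < 1 ∧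
      v (ϖ * (1 + f) ^ 2 / (ϖ * (1 + f) ^ 2 + f ^ n) / (1 + f)) ≤ 1) := by
  set a := ϖ * (1 + f) ^ 2 with ha
  have hvϖ0 : v ϖ ≠ 0 := (Valuation.ne_zero_iff _).2 hϖ0
  have hv1f0 : v (1 + f) ≠ 0 := (Valuation.ne_zero_iff _).2 h1f
  have ha0 : a ≠ 0 := mul_ne_zero hϖ0 (pow_ne_zero _ h1f)
  have hva0 : v a ≠ 0 := (Valuation.ne_zero_iff _).2 ha0
  constructor
  · intro hf
    have h1 : v a = v ϖ := by
      rw [ha, map_mul, map_pow, v_one_add v hf, one_pow, mul_one]
    have h2 : v (f ^ n) < v a := by rw [h1]; exact hfn hf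
    have h3 : v (a + f ^ n) = v a := v.map_add_eq_of_lt_left h2
    have h4 : a + f ^ n ≠ 0 := by
      intro h; rw [h, map_zero] at h3; exact hva0 h3.symm
    have e : a / (a + f ^ n) - 1 = -(f ^ n) / (a + f ^ n) := by field_simp; ring
    rw [e, map_div₀, Valuation.map_neg, h3]
    exact (div_lt_one₀ (zero_lt_iff.2 hva0)).2 h2
  · intro hf
    have hvf0 : v f ≠ 0 := fun h => by rw [h] at hf; exact absurd hf (not_le.2 zero_lt_one)
    have h1 : v (1 + f) ≤ v f := (v.map_add _ _).trans (max_le (by rw [map_one]; exact hf) le_rfl)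
    obtain ⟨m, rfl⟩ : ∃ m, n = m + 2 := ⟨n - 2, by omega⟩
    have hfm : 1 ≤ v f ^ m := one_le_pow₀ hf
    have h2 : v a < v (f ^ (m + 2)) := by
      rw [ha, map_mul, map_pow, map_pow, pow_add]
      calc v ϖ * v (1 + f) ^ 2 < 1 * v (1 + f) ^ 2 :=
            mul_lt_mul_of_pos_right hϖ (pow_pos (zero_lt_iff.2 hv1f0) _)
        _ ≤ v f ^ m * v f ^ 2 := mul_le_mul' hfm (pow_le_pow_left₀ zero_le h1 _)
    have h3 : v (a + f ^ (m + 2)) = v (f ^ (m + 2)) := v.map_add_eq_of_lt_right h2
    have hvfn : 0 < v (f ^ (m + 2)) := by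
      rw [map_pow]; exact pow_pos (zero_lt_iff.2 hvf0) _
    refine ⟨?_, ?_⟩
    · rw [map_div₀, h3]
      exact (div_lt_one₀ hvfn).2 h2
    · rw [map_div₀, map_div₀, h3, div_le_one₀ (zero_lt_iff.2 hv1f0), div_le_iff₀ hvfn, ha, map_mul,
        map_pow, map_pow, pow_two, ← mul_assoc, mul_comm (v ϖ), mul_assoc, mul_comm (v (1 + f))]
      refine mul_le_mul' ?_ le_rfl |>.trans_eq (mul_comm _ _)
      rw [pow_add, pow_two]
      calc v ϖ * v (1 + f) ≤ 1 * v f := mul_le_mul' hϖ.le h1
        _ ≤ v f * v f := mul_le_mul' hf le_rfl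
        _ ≤ v f ^ m * (v f * v f) := by
            calc v f * v f = 1 * (v f * v f) := (one_mul _).symm
              _ ≤ _ := mul_le_mul' hfm le_rfl

section Rank

variable {k : Type*} [NormedField k] [Algebra k L]

/-- primitive polynomials -/
def Prim (Q : k[X]) : Prop := (∀ j, ‖Q.coeff j‖ ≤ 1) ∧ ∃ j, ‖Q.coeff j‖ = 1

/-- value of `P(f, g)` -/
noncomputable def ev2 (f g : L) (P : k[X][X]) : L :=
  ∑ i ∈ Finset.range (P.natDegree + 1), aeval f (P.coeff i) * g ^ i

omit [NormedField k] [Algebra k L] in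
theorem exists_rel2 [Field k] [Algebra k L] {f g : L}
    (hg : IsAlgebraic (IntermediateField.adjoin k {f}) g) :
    ∃ P : k[X][X], P ≠ 0 ∧ (∃ i, aeval f (P.coeff i) ≠ 0) ∧
      ∑ i ∈ Finset.range (P.natDegree + 1), aeval f (P.coeff i) * g ^ i = 0 := by
  open scoped IntermediateField.algebraAdjoinAdjoin in
  have h1 : IsAlgebraic (Algebra.adjoin k {f}) g :=
    (IsFractionRing.isAlgebraic_iff (Algebra.adjoin k {f})
      (IntermediateField.adjoin k {f}) L).2 hg
  obtain ⟨P, hP0, hP⟩ := h1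
  have h2 : ∀ c : Algebra.adjoin k {f}, ∃ q : k[X], aeval f q = (c : L) ∧ (c = 0 → q = 0) := by
    intro c
    by_cases hc : c = 0
    · exact ⟨0, by simp [hc], fun _ => rfl⟩
    · have h3 : (c : L) ∈ (aeval f : k[X] →ₐ[k] L).range := by
        rw [← Algebra.adjoin_singleton_eq_range_aeval]; exact c.2
      obtain ⟨q, hq⟩ := h3
      exact ⟨q, hq, fun h => absurd h hc⟩
  choose q hq hq0 using h2
  let P' : k[X][X] := ∑ i ∈ Finset.range (P.natDegree + 1), monomial i (q (P.coeff i))
  have hc : ∀ i, P'.coeff i = q (P.coeff i) := by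
    intro i
    simp only [P', finsetSum_coeff, coeff_monomial]
    rw [Finset.sum_ite_eq' (Finset.range (P.natDegree + 1)) i (fun j => q (P.coeff j))]
    split_ifs with h
    · rfl
    · rw [Finset.mem_range, not_lt] at h
      rw [coeff_eq_zero_of_natDegree_lt (by omega), hq0 0 rfl]
  have hlead : aeval f (P'.coeff P.natDegree) ≠ 0 := by
    rw [hc, hq]
    intro h
    exact hP0 (leadingCoeff_eq_zero.1 (Subtype.ext h))
  have hdeg : P'.natDegree = P.natDegree := by
    refine le_antisymm ?_ (le_natDegree_of_ne_zero fun h => hlead (by rw [h, map_zero]))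
    refine natDegree_le_iff_coeff_eq_zero.2 fun i hi => ?_
    rw [hc, coeff_eq_zero_of_natDegree_lt hi, hq0 0 rfl]
  refine ⟨P', fun h => hlead (by rw [h, coeff_zero, map_zero]), ⟨_, hlead⟩, ?_⟩
  rw [hdeg, ← hP, aeval_eq_sum_range]
  refine Finset.sum_congr rfl fun i _ => ?_
  rw [hc, hq, Algebra.smul_def]
  rfl

theorem exists_scale (P : k[X][X]) (hP : P ≠ 0) :
    ∃ c : k, c ≠ 0 ∧ (∀ i j, ‖c * (P.coeff i).coeff j‖ ≤ 1) ∧
      ∃ i j, ‖c * (P.coeff i).coeff j‖ = 1 := by
  classical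
  let S : Finset (Σ _ : ℕ, ℕ) := P.support.sigma fun i => (P.coeff i).support
  have hS : S.Nonempty := by
    have h1 : P.leadingCoeff ≠ 0 := leadingCoeff_ne_zero.2 hP
    refine ⟨⟨P.natDegree, P.leadingCoeff.natDegree⟩, ?_⟩
    rw [Finset.mem_sigma]
    refine ⟨natDegree_mem_support_of_nonzero hP, ?_⟩
    exact natDegree_mem_support_of_nonzero h1
  obtain ⟨⟨i₀, j₀⟩, h0, hmax⟩ := Finset.exists_max_image S
    (fun x => ‖(P.coeff x.1).coeff x.2‖) hS
  have hne : (P.coeff i₀).coeff j₀ ≠ 0 := by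
    rw [Finset.mem_sigma] at h0
    exact mem_support_iff.1 h0.2
  refine ⟨((P.coeff i₀).coeff j₀)⁻¹, inv_ne_zero hne, fun i j => ?_, i₀, j₀, ?_⟩
  · rw [norm_mul, norm_inv]
    rw [inv_mul_le_iff₀ (norm_pos_iff.2 hne), mul_one]
    by_cases h1 : (P.coeff i).coeff j = 0
    · rw [h1, norm_zero]; exact norm_nonneg _
    · refine hmax ⟨i, j⟩ ?_
      rw [Finset.mem_sigma]
      refine ⟨mem_support_iff.2 fun h => h1 (by rw [h, coeff_zero]), mem_support_iff.2 h1⟩
  · rw [inv_mul_cancel₀ hne, norm_one]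

/-- **rank one**: over a ring at which `f` is residually transcendental, a small element is
topologically nilpotent -/
theorem rank_one {π : k} (hπ0 : π ≠ 0) (hπ : ∀ c : k, ‖c‖ < 1 → ‖c‖ ≤ ‖π‖)
    (W : ValuationSubring L) (hW1 : ∀ c : k, ‖c‖ ≤ 1 → algebraMap k L c ∈ W)
    (hW2 : W.valuation (algebraMap k L π) < 1) {f g : L}
    (hf : ∀ Q : k[X], Prim Q → W.valuation (aeval f Q) = 1)
    (hg : IsAlgebraic (IntermediateField.adjoin k {f}) g) (hgW : W.valuation g < 1) :
    ∃ j, j ≠ 0 ∧ W.valuation g ^ j ≤ W.valuation (algebraMap k L π) := by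
  classical
  set v := W.valuation with hv
  by_contra hcon
  push Not at hcon
  have hcon' : ∀ j, v (algebraMap k L π) < v g ^ j := by
    intro j
    rcases Nat.eq_zero_or_pos j with rfl | hj
    · rw [pow_zero]; exact hW2
    · exact hcon j (by omega)
  have hg0 : 0 < v g := by
    have := hcon' 1
    rw [pow_one] at this
    exact lt_of_le_of_lt zero_le this
  obtain ⟨P, hP0, -, hP⟩ := exists_rel2 hg
  obtain ⟨c, hc0, hc1, i₁, j₁, hc2⟩ := exists_scale P hP0
  -- the scaled coefficients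
  let d : ℕ → k[X] := fun i => C c * P.coeff i
  have hd1 : ∀ i j, ‖(d i).coeff j‖ ≤ 1 := fun i j => by
    simp only [d, coeff_C_mul]; exact hc1 i j
  have hsum : ∑ i ∈ Finset.range (P.natDegree + 1), aeval f (d i) * g ^ i = 0 := by
    have : ∀ i, aeval f (d i) * g ^ i = algebraMap k L c * (aeval f (P.coeff i) * g ^ i) := by
      intro i
      simp only [d, map_mul, aeval_C]; ring
    rw [Finset.sum_congr rfl fun i _ => this i, ← Finset.mul_sum, hP, mul_zero]
  have hfle : v f = 1 := by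
    have h1 : Prim (X : k[X]) := by
      refine ⟨fun j => ?_, 1, by rw [coeff_X_one, norm_one]⟩
      rw [coeff_X]
      split_ifs
      · rw [norm_one]
      · rw [norm_zero]; exact zero_le_one
    have := hf X h1
    rwa [aeval_X] at this
  have hcoef : ∀ a : k, ‖a‖ ≤ 1 → v (algebraMap k L a) ≤ 1 := fun a ha =>
    (W.valuation_le_one_iff _).2 (hW1 a ha)
  have hval : ∀ (Q : k[X]) {γ : W.ValueGroup}, (∀ j, v (algebraMap k L (Q.coeff j)) ≤ γ) →
      v (aeval f Q) ≤ γ := by
    intro Q γ hQ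
    rw [aeval_eq_sum_range]
    refine v.map_sum_le fun j _ => ?_
    rw [Algebra.smul_def, map_mul, map_pow, hfle, one_pow, mul_one]
    exact hQ j
  have hdle : ∀ i, v (aeval f (d i)) ≤ 1 := fun i => hval _ fun j => hcoef _ (hd1 i j)
  have hdsmall : ∀ i, ¬ Prim (d i) → v (aeval f (d i)) ≤ v (algebraMap k L π) := by
    intro i hi
    refine hval _ fun j => ?_
    have h1 : ‖(d i).coeff j‖ < 1 := by
      refine lt_of_le_of_ne (hd1 i j) fun h => hi ⟨hd1 i, j, h⟩
    have h2 := hπ _ h1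
    have h3 : (d i).coeff j = π * (π⁻¹ * (d i).coeff j) := by
      rw [← mul_assoc, mul_inv_cancel₀ hπ0, one_mul]
    rw [h3, map_mul, map_mul]
    refine mul_le_of_le_one_right' (hcoef _ ?_)
    rw [norm_mul, norm_inv, inv_mul_le_iff₀ (norm_pos_iff.2 hπ0), mul_one]
    exact h2
  have hex : ∃ i, Prim (d i) := ⟨i₁, hd1 i₁, j₁, by simp only [d, coeff_C_mul]; exact hc2⟩
  let m := Nat.find hex
  have hm : Prim (d m) := Nat.find_spec hex
  have hmlt : ∀ i < m, ¬ Prim (d i) := fun i hi => Nat.find_min hex hi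
  have hmr : m ∈ Finset.range (P.natDegree + 1) := by
    rw [Finset.mem_range, Nat.lt_succ_iff]
    by_contra hlt
    have h1 : d m = 0 := by
      simp only [d]
      rw [coeff_eq_zero_of_natDegree_lt (by omega), mul_zero]
    obtain ⟨-, j, hj⟩ := hm
    rw [h1, coeff_zero, norm_zero] at hj
    exact zero_ne_one hj
  rw [← Finset.add_sum_erase _ _ hmr] at hsum
  have h1 : v (∑ i ∈ (Finset.range (P.natDegree + 1)).erase m, aeval f (d i) * g ^ i) <
      v g ^ m := by
    refine v.map_sum_lt (pow_ne_zero _ hg0.ne') fun i hi => ?_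
    rw [Finset.mem_erase] at hi
    rw [map_mul, map_pow]
    rcases lt_or_gt_of_ne hi.1 with h | h
    · calc v (aeval f (d i)) * v g ^ i ≤ v (algebraMap k L π) * 1 :=
            mul_le_mul' (hdsmall i (hmlt i h)) (pow_le_one' hgW.le _)
        _ = v (algebraMap k L π) := mul_one _
        _ < v g ^ m := hcon' m
    · calc v (aeval f (d i)) * v g ^ i ≤ 1 * v g ^ i := mul_le_mul' (hdle i) le_rfl
        _ = v g ^ i := one_mul _
        _ < v g ^ m := pow_lt_pow_right_of_lt_one₀ hg0 hgW h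
  have h2 : v (aeval f (d m) * g ^ m) = v g ^ m := by
    rw [map_mul, hf _ hm, one_mul, map_pow]
  rw [← h2, ← Valuation.map_neg, ← eq_neg_of_add_eq_zero_left hsum] at h1
  exact lt_irrefl _ h1

/-- `W` is an exceptional ring: `f` is residually transcendental. -/
structure Exc (π : k) (f : L) (W : ValuationSubring L) : Prop where
  mem : ∀ c : k, ‖c‖ ≤ 1 → algebraMap k L c ∈ W
  lt : W.valuation (algebraMap k L π) < 1
  tr : ∀ Q : k[X], Prim Q → W.valuation (aeval f Q) = 1

theorem exists_prim {f : L} (hf : IsAlgebraic k f) : ∃ Q : k[X], Prim Q ∧ aeval f Q = 0 := by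
  classical
  obtain ⟨P, hP0, hP⟩ := hf
  obtain ⟨j₀, h0, hmax⟩ := Finset.exists_max_image P.support (fun j => ‖P.coeff j‖)
    (nonempty_support_iff.2 hP0)
  have hne : P.coeff j₀ ≠ 0 := mem_support_iff.1 h0
  refine ⟨C (P.coeff j₀)⁻¹ * P, ⟨fun j => ?_, j₀, ?_⟩, by rw [map_mul, hP, mul_zero]⟩
  · rw [coeff_C_mul, norm_mul, norm_inv, inv_mul_le_iff₀ (norm_pos_iff.2 hne), mul_one]
    by_cases h1 : P.coeff j = 0
    · rw [h1, norm_zero]; exact norm_nonneg _
    · exact hmax j (mem_support_iff.2 h1)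
  · rw [coeff_C_mul, inv_mul_cancel₀ hne, norm_one]

theorem Exc.transcendental {π : k} {f : L} {W : ValuationSubring L} (h : Exc π f W) :
    Transcendental k f := by
  intro hf
  obtain ⟨Q, hQ, h0⟩ := exists_prim hf
  have := h.tr Q hQ
  rw [h0, map_zero] at this
  exact zero_ne_one this

/-- **compactness**: one exponent for all exceptional rings of `f` -/
theorem unif {π : k} (hπ0 : π ≠ 0) (hπ : ∀ c : k, ‖c‖ < 1 → ‖c‖ ≤ ‖π‖)
    (halg : ∀ f : L, Transcendental k f → ∀ g : L, IsAlgebraic (IntermediateField.adjoin k {f}) g)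
    (f g : L) :
    ∃ N : ℕ, ∀ W : ValuationSubring L, Exc π f W → W.valuation g < 1 →
      ∀ M, N ≤ M → W.valuation g ^ M < W.valuation (algebraMap k L π) := by
  classical
  by_cases hf : Transcendental k f
  swap
  · exact ⟨0, fun W hW => absurd hW.transcendental hf⟩
  have hπL : algebraMap k L π ≠ 0 := (_root_.map_ne_zero _).2 hπ0
  let A : Set L := {a | (∃ c : k, ‖c‖ ≤ 1 ∧ a = algebraMap k L c) ∨
    ∃ Q : k[X], Prim Q ∧ (a = aeval f Q ∨ a = (aeval f Q)⁻¹)}
  obtain ⟨A', B', s, hA', hB', hs⟩ := E1_97.rzc A {algebraMap k L π, g}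
    (fun n : ℕ => g ^ (n + 1) / algebraMap k L π) (by
      intro W h1 h2
      have hlt : W.valuation (algebraMap k L π) < 1 := h2 _ (by simp)
      have hg : W.valuation g < 1 := h2 _ (by simp)
      have htr : ∀ Q : k[X], Prim Q → W.valuation (aeval f Q) = 1 := by
        intro Q hQ
        have hQ0 : aeval f Q ≠ 0 := by
          intro h0
          obtain ⟨-, j, hj⟩ := hQ
          refine hf ⟨Q, ?_, h0⟩
          rintro rfl
          rw [coeff_zero, norm_zero] at hj
          exact zero_ne_one hj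
        have h3 := (W.valuation_le_one_iff _).2 (h1 _ (Or.inr ⟨Q, hQ, Or.inl rfl⟩))
        have h4 := (W.valuation_le_one_iff _).2 (h1 _ (Or.inr ⟨Q, hQ, Or.inr rfl⟩))
        rw [map_inv₀] at h4
        exact le_antisymm h3
          ((inv_le_one₀ (zero_lt_iff.2 ((Valuation.ne_zero_iff _).2 hQ0))).1 h4)
      obtain ⟨j, hj0, hj⟩ := rank_one hπ0 hπ W (fun c hc => h1 _ (Or.inl ⟨c, hc, rfl⟩)) hlt htr
        (halg f hf g) hg
      refine ⟨j, ?_⟩
      have h5 : 0 < W.valuation (algebraMap k L π) :=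
        zero_lt_iff.2 ((Valuation.ne_zero_iff _).2 hπL)
      rw [map_div₀, div_lt_one₀ h5, map_pow]
      by_cases hg0 : W.valuation g = 0
      · rw [hg0, zero_pow (by omega)]; exact h5
      · exact lt_of_lt_of_le (pow_lt_pow_right_of_lt_one₀ (zero_lt_iff.2 hg0) hg
          (Nat.lt_succ_self j)) hj)
  refine ⟨s.sup id + 1, fun W hW hg M hM => ?_⟩
  obtain ⟨n, hn, h1⟩ := hs W (fun a ha => by
      rcases hA' ha with ⟨c, hc, rfl⟩ | ⟨Q, hQ, rfl | rfl⟩
      · exact hW.mem c hc
      · exact (W.valuation_le_one_iff _).1 (hW.tr Q hQ).le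
      · exact (W.valuation_le_one_iff _).1 (by rw [map_inv₀, hW.tr Q hQ, inv_one]))
    (fun b hb => by
      rcases hB' hb with rfl | rfl
      · exact hW.lt
      · exact hg)
  have h5 : 0 < W.valuation (algebraMap k L π) :=
    zero_lt_iff.2 ((Valuation.ne_zero_iff _).2 hπL)
  rw [map_div₀, div_lt_one₀ h5, map_pow] at h1
  refine lt_of_le_of_lt (pow_le_pow_right_of_le_one' hg.le ?_) h1
  have : n ≤ s.sup id := Finset.le_sup (f := id) hn
  omega

/-- the same for a finite set of `f` -/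
theorem unif_set {π : k} (hπ0 : π ≠ 0) (hπ : ∀ c : k, ‖c‖ < 1 → ‖c‖ ≤ ‖π‖)
    (halg : ∀ f : L, Transcendental k f → ∀ g : L, IsAlgebraic (IntermediateField.adjoin k {f}) g)
    {ι : Type*} (s : Finset ι) (f : ι → L) (g : L) :
    ∃ N : ℕ, ∀ W : ValuationSubring L, (∃ i ∈ s, Exc π (f i) W) → W.valuation g < 1 →
      ∀ M, N ≤ M → W.valuation g ^ M < W.valuation (algebraMap k L π) := by
  classical
  choose N hN using fun i => unif hπ0 hπ halg (f i) g
  refine ⟨∑ i ∈ s, N i, fun W ⟨i, hi, hW⟩ hg M hM => hN i W hW hg M ?_⟩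
  exact (Finset.single_le_sum (f := N) (fun _ _ => Nat.zero_le _) hi).trans hM

end Rank

/-- **(P1)** -/
theorem p1 {k : Type*} [NormedField k] [Algebra k L] {π : k} (hπ0 : π ≠ 0)
    (hπ : ∀ c : k, ‖c‖ < 1 → ‖c‖ ≤ ‖π‖)
    (halg : ∀ f : L, Transcendental k f → ∀ g : L, IsAlgebraic (IntermediateField.adjoin k {f}) g)
    (t : L) (ht : Transcendental k t) {h : L} (h0 : h ≠ 0) {l : ℕ} (hl : 2 ≤ l)
    (HYP : ∀ W : ValuationSubring L, (∀ c : k, ‖c‖ ≤ 1 → algebraMap k L c ∈ W) →
      W.valuation (algebraMap k L π) < 1 → ∃ b : L, b ≠ 0 ∧ W.valuation (h / b ^ l - 1) < 1) :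
    ∃ (s : Finset L) (u₀ : L) (m : ℕ), (∀ b ∈ s, b ≠ 0) ∧ u₀ ≠ 0 ∧ 0 < m ∧
      Transcendental k (h / u₀ ^ l - 1) ∧
      (∀ W : ValuationSubring L, (∀ c : k, ‖c‖ ≤ 1 → algebraMap k L c ∈ W) →
        W.valuation (algebraMap k L π) < 1 → ∃ b ∈ s, W.valuation (h / b ^ l - 1) < 1) ∧
      ∀ W : ValuationSubring L, (∀ c : k, ‖c‖ ≤ 1 → algebraMap k L c ∈ W) →
        W.valuation (algebraMap k L π) < 1 → ∀ b ∈ s,
        (∀ Q : k[X], Prim Q → W.valuation (aeval (h / b ^ l - 1) Q) = 1) →
        (h / u₀ ^ l - 1) ^ m / (algebraMap k L π) ^ 2 ∈ W := by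
  classical
  have hπL : algebraMap k L π ≠ 0 := (_root_.map_ne_zero _).2 hπ0
  -- compactness: a finite set `s`
  obtain ⟨A', B', s', hA', hB', hs'⟩ := E1_97.rzc {a : L | ∃ c : k, ‖c‖ ≤ 1 ∧ a = algebraMap k L c}
    {algebraMap k L π} (fun b : {b : L // b ≠ 0} => h / (b : L) ^ l - 1) (by
      intro W h1 h2
      obtain ⟨b, hb0, hb⟩ := HYP W (fun c hc => h1 _ ⟨c, hc, rfl⟩) (h2 _ rfl)
      exact ⟨⟨b, hb0⟩, hb⟩)
  set s : Finset L := s'.image Subtype.val with hs
  have hs0 : ∀ b ∈ s, b ≠ 0 := by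
    intro b hb
    rw [hs, Finset.mem_image] at hb
    obtain ⟨x, _, rfl⟩ := hb
    exact x.2
  have cov : ∀ W : ValuationSubring L, (∀ c : k, ‖c‖ ≤ 1 → algebraMap k L c ∈ W) →
        W.valuation (algebraMap k L π) < 1 → ∃ b ∈ s, W.valuation (h / b ^ l - 1) < 1 := by
    intro W h1 h2
    obtain ⟨b, hb, h3⟩ := hs' W (fun a ha => by
      obtain ⟨c, hc, rfl⟩ := hA' ha
      exact h1 c hc) (fun b hb => by
      have := hB' hb
      rw [Set.mem_singleton_iff] at this
      rw [this]; exact h2)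
    exact ⟨b, Finset.mem_image_of_mem _ hb, h3⟩
  -- the exceptional rings
  let f : L → L := fun b => h / b ^ l - 1
  let V : ValuationSubring L → Prop := fun W => ∃ b ∈ s, Exc π (f b) W
  have h1f : ∀ b ∈ s, 1 + f b ≠ 0 := by
    intro b hb
    simp only [f, add_sub_cancel]
    exact div_ne_zero h0 (pow_ne_zero _ (hs0 b hb))
  choose N hN using fun g : L => unif_set hπ0 hπ halg s f g
  let n : ℕ := ∑ b ∈ s, N (f b) + 2
  let e : L → L := fun b => algebraMap k L π * (1 + f b) ^ 2 /
    (algebraMap k L π * (1 + f b) ^ 2 + f b ^ n)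
  obtain ⟨a, E, haE⟩ := exists_root_gen s (fun b => b) e hs0 h0 hl
  have ha : ∀ W, V W → W.valuation (a ^ l - h) < W.valuation h := by
    intro W hW
    have hWmem : (∀ c : k, ‖c‖ ≤ 1 → algebraMap k L c ∈ W) ∧
      W.valuation (algebraMap k L π) < 1 := by
      obtain ⟨b, _, hb⟩ := hW; exact ⟨hb.mem, hb.lt⟩
    refine ((haE W fun b hb => ?_).1 (cov W hWmem.1 hWmem.2)).2
    refine pbump W.valuation hWmem.2 hπL (by omega) (h1f b hb) fun hlt => ?_
    rw [map_pow]
    refine hN (f b) W hW hlt n ?_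
    have : N (f b) ≤ ∑ b ∈ s, N (f b) :=
      Finset.single_le_sum (f := fun b => N (f b)) (fun _ _ => Nat.zero_le _) hb
    omega
  obtain ⟨u₁, hu₁0, hu₁⟩ : ∃ u₁ : L, u₁ ≠ 0 ∧ ∀ W, V W → W.valuation (h / u₁ ^ l - 1) < 1 := by
    have key : ∀ W, V W → a ≠ 0 ∧ W.valuation (h / a ^ l - 1) < 1 := by
      intro W hW
      have h4 := ha W hW
      have hvh : W.valuation h ≠ 0 := (Valuation.ne_zero_iff _).2 h0
      have h5 : W.valuation (a ^ l) = W.valuation h := by
        have := W.valuation.map_add_eq_of_lt_right (x := a ^ l - h) (y := h) h4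
        rwa [sub_add_cancel] at this
      have h6 : a ^ l ≠ 0 := by
        intro h6; rw [h6, map_zero] at h5; exact hvh h5.symm
      refine ⟨fun h7 => h6 (by rw [h7, zero_pow (by omega)]), ?_⟩
      have e1 : h / a ^ l - 1 = -(a ^ l - h) / a ^ l := by field_simp; ring
      rw [e1, map_div₀, Valuation.map_neg, h5]
      exact (div_lt_one₀ (zero_lt_iff.2 hvh)).2 h4
    by_cases hex : ∃ W, V W
    · obtain ⟨W, hW⟩ := hex
      exact ⟨a, (key W hW).1, fun W hW => (key W hW).2⟩
    · exact ⟨1, one_ne_zero, fun W hW => absurd ⟨W, hW⟩ hex⟩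
  obtain ⟨u₀, hu₀0, hu₀, hu₀t⟩ : ∃ u₀ : L, u₀ ≠ 0 ∧ (∀ W, V W → W.valuation (h / u₀ ^ l - 1) < 1) ∧
      Transcendental k (h / u₀ ^ l - 1) := by
    by_cases htr : Transcendental k (h / u₁ ^ l - 1)
    · exact ⟨u₁, hu₁0, hu₁, htr⟩
    have hA1 : IsAlgebraic k (h / u₁ ^ l - 1) := by
      by_contra h1; exact htr h1
    have hone : IsAlgebraic k (1 : L) := isAlgebraic_one
    have hc : IsAlgebraic k (h / u₁ ^ l) := by
      have := hA1.add hone
      rwa [sub_add_cancel] at this
    set c := h / u₁ ^ l with hcdef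
    have hc0 : c ≠ 0 := div_ne_zero h0 (pow_ne_zero _ hu₁0)
    set ϖ : L := algebraMap k L π with hϖ
    have hϖalg : IsAlgebraic k ϖ := isAlgebraic_algebraMap π
    set T := t ^ (N t + 1) with hT
    have hTt : ¬ IsAlgebraic k T := fun h1 => ht (h1.of_pow (Nat.succ_pos _))
    have hd0 : ϖ + T ≠ 0 := by
      intro h1
      refine hTt ?_
      rw [eq_neg_of_add_eq_zero_right h1]
      exact hϖalg.neg
    set z : L := 1 + ϖ * (ϖ / (ϖ + T)) with hz
    have hzT : T = ϖ ^ 2 / (z - 1) - ϖ := by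
      rw [hz, add_sub_cancel_left]
      field_simp
      ring
    have hztr : ¬ IsAlgebraic k z := by
      intro h1
      refine hTt ?_
      rw [hzT, div_eq_mul_inv]
      exact ((hϖalg.pow 2).mul (h1.sub hone).inv).sub hϖalg
    have hz0 : z ≠ 0 := by
      intro h1; rw [h1] at hztr; exact hztr isAlgebraic_zero
    have hform : h / (u₁ / z) ^ l = c * z ^ l := by
      rw [hcdef, div_pow]; field_simp
    refine ⟨u₁ / z, div_ne_zero hu₁0 hz0, fun W hW => ?_, fun h1 => ?_⟩
    · have hlt : W.valuation ϖ < 1 := by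
        obtain ⟨b, _, hb⟩ := hW; exact hb.lt
      have h5 : 0 < W.valuation ϖ := zero_lt_iff.2 ((Valuation.ne_zero_iff _).2 hπL)
      have hx : W.valuation (ϖ / (ϖ + T)) ≤ 1 := by
        rw [map_div₀]
        rcases lt_or_ge (W.valuation t) 1 with h6 | h6
        · have h7 : W.valuation T < W.valuation ϖ := by
            rw [hT, map_pow]
            exact hN t W hW h6 _ (Nat.le_succ _)
          rw [W.valuation.map_add_eq_of_lt_left h7, div_self h5.ne']
        · have h7 : W.valuation ϖ < W.valuation T := by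
            refine lt_of_lt_of_le hlt ?_
            rw [hT, map_pow]
            exact one_le_pow₀ h6
          rw [W.valuation.map_add_eq_of_lt_right h7]
          exact ((div_lt_one₀ (h5.trans h7)).2 h7).le
      have hz1 : W.valuation (z - 1) < 1 := by
        rw [hz, add_sub_cancel_left, map_mul]
        exact mul_lt_one_of_lt_of_le hlt hx
      have hzv : W.valuation z = 1 := by
        have := v_one_add W.valuation hz1
        rwa [add_sub_cancel] at this
      have hc1 := hu₁ W hW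
      have e1 : c * z ^ l - 1 = (c - 1) * z ^ l + (z ^ l - 1) := by ring
      rw [hform, e1]
      refine lt_of_le_of_lt (W.valuation.map_add _ _) (max_lt ?_ ?_)
      · rw [map_mul, map_pow, hzv, one_pow, mul_one]
        exact hc1
      · exact v_pow_sub_one W.valuation hz1 l
    · rw [hform] at h1
      have h2 : IsAlgebraic k (c * z ^ l) := by
        have := h1.add hone
        rwa [sub_add_cancel] at this
      have h3 : IsAlgebraic k (z ^ l) := by
        have := h2.mul hc.inv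
        rwa [mul_comm, ← mul_assoc, inv_mul_cancel₀ hc0, one_mul] at this
      exact hztr (h3.of_pow (by omega))
  refine ⟨s, u₀, 2 * (N (h / u₀ ^ l - 1) + 1), hs0, hu₀0, by omega, hu₀t, cov, ?_⟩
  intro W hmem hlt b hb htr
  have hVW : V W := ⟨b, hb, hmem, hlt, htr⟩
  rw [← W.valuation_le_one_iff, map_div₀, map_pow, map_pow]
  have h5 : 0 < W.valuation (algebraMap k L π) := zero_lt_iff.2 ((Valuation.ne_zero_iff _).2 hπL)
  rw [div_le_one₀ (pow_pos h5 _), mul_comm, pow_mul]
  exact pow_le_pow_left₀ zero_le (hN _ W hVW (hu₀ W hVW) _ (Nat.le_succ _)).le 2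

end Crest.Agent.R013.OneP1_920
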