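import Crest.Agent.R013.OneP2_920
import Mathlib.RingTheory.Henselian
import Mathlib.Dynamics.Newton
import Mathlib.RingTheory.AdicCompletion.Algebra

/-!
# Theorem (ONE), LEMMA SM: elements which are small at every valuation ring over `(A, J)`
-/

set_option autoImplicit false

namespace Crest.Agent.R013.OneSM_920

open Polynomial OneP2_920

variable {L : Type*} [Field L] {A : Type*} [CommRing A] [Algebra A L]

/-- the subring generated by `A` and `x`, and its elements of the extended ideal -/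
theorem exists_of_mem_map (J : Ideal A) (x : L) (a : Algebra.adjoin A ({x} : Set L))
    (ha : a ∈ J.map (algebraMap A (Algebra.adjoin A ({x} : Set L)))) :
    ∃ P : A[X], (∀ i, P.coeff i ∈ J) ∧ ((a : Algebra.adjoin A ({x} : Set L)) : L) = aeval x P := by
  refine Submodule.span_induction (p := fun a _ => ∃ P : A[X], (∀ i, P.coeff i ∈ J) ∧
    ((a : Algebra.adjoin A ({x} : Set L)) : L) = aeval x P) ?_ ?_ ?_ ?_ ha
  · rintro _ ⟨m, hm, rfl⟩
    refine ⟨C m, fun i => ?_, by rw [aeval_C]; rfl⟩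
    rw [coeff_C]
    split_ifs
    · exact hm
    · exact J.zero_mem
  · exact ⟨0, fun i => by rw [coeff_zero]; exact J.zero_mem, by simp⟩
  · rintro a b _ _ ⟨P, hP, eP⟩ ⟨Q, hQ, eQ⟩
    exact ⟨P + Q, fun i => by rw [coeff_add]; exact J.add_mem (hP i) (hQ i),
      by rw [map_add, ← eP, ← eQ]; rfl⟩
  · rintro r a _ ⟨P, hP, eP⟩
    have hr : (r : L) ∈ (aeval x : A[X] →ₐ[A] L).range := by
      rw [← Algebra.adjoin_singleton_eq_range_aeval]; exact r.2
    obtain ⟨Q, hQ⟩ := hr
    replace hQ : aeval x Q = (r : L) := hQ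
    refine ⟨Q * P, fun i => ?_, by rw [map_mul, hQ, ← eP]; rfl⟩
    rw [coeff_mul]
    exact Ideal.sum_mem _ fun j _ => Ideal.mul_mem_left _ _ (hP _)

/-- **small elements**: `a ∈ m_W` for all `W` over `A` with `J ⊆ m_W` -/
theorem small_rel (J : Ideal A) {a : L} (ha0 : a ≠ 0)
    (ha : ∀ W : ValuationSubring L, (∀ c : A, algebraMap A L c ∈ W) →
      (∀ c ∈ J, W.valuation (algebraMap A L c) < 1) → W.valuation a < 1) :
    ∃ P : A[X], (∀ i, P.coeff i ∈ J) ∧ aeval a⁻¹ P = 1 := by
  classical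
  set R := Algebra.adjoin A ({a⁻¹} : Set L) with hR
  by_cases h : J.map (algebraMap A R) = ⊤
  · obtain ⟨P, hP, eP⟩ := exists_of_mem_map J a⁻¹ 1 (by rw [h]; exact Submodule.mem_top)
    exact ⟨P, hP, by rw [← eP]; rfl⟩
  · exfalso
    obtain ⟨M, hM, hJM⟩ := Ideal.exists_le_maximal _ h
    let A' : Subring L := R.toSubring
    let M' : Ideal A' := M
    have : M'.IsPrime := hM.isPrime
    obtain ⟨W, hAW, hW⟩ := exists_W A' M'
    have h1 := ha W (fun c => hAW _ (R.algebraMap_mem c)) (fun c hc =>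
      (hW (algebraMap A R c)).2 (hJM (Ideal.mem_map_of_mem _ hc)))
    have h2 : a⁻¹ ∈ W := hAW _ (Algebra.subset_adjoin (Set.mem_singleton _))
    have h3 := (W.valuation_le_one_iff _).2 h2
    rw [map_inv₀] at h3
    have h4 : W.valuation a ≠ 0 := (Valuation.ne_zero_iff _).2 ha0
    exact absurd h1 (not_lt.2 ((inv_le_one₀ (zero_lt_iff.2 h4)).1 h3))

/-- **integral elements**: `a ∈ W` for all `W` over `A` with `J ⊆ m_W` -/
theorem int_rel (J : Ideal A) {a : L} (ha0 : a ≠ 0)
    (ha : ∀ W : ValuationSubring L, (∀ c : A, algebraMap A L c ∈ W) →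
      (∀ c ∈ J, W.valuation (algebraMap A L c) < 1) → W.valuation a ≤ 1) :
    ∃ P : A[X], P.coeff 0 ∈ J ∧ aeval a⁻¹ P = 1 := by
  classical
  set R := Algebra.adjoin A ({a⁻¹} : Set L) with hR
  let x : R := ⟨a⁻¹, Algebra.subset_adjoin (Set.mem_singleton _)⟩
  by_cases h : J.map (algebraMap A R) ⊔ Ideal.span {x} = ⊤
  · have h1 : (1 : R) ∈ J.map (algebraMap A R) ⊔ Ideal.span {x} := by
      rw [h]; exact Submodule.mem_top
    obtain ⟨y, hy, z, hz, hyz⟩ := Submodule.mem_sup.1 h1
    obtain ⟨P, hP, eP⟩ := exists_of_mem_map J a⁻¹ y hy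
    obtain ⟨r, hr⟩ := Ideal.mem_span_singleton'.1 hz
    have hr' : (r : L) ∈ (aeval a⁻¹ : A[X] →ₐ[A] L).range := by
      rw [← Algebra.adjoin_singleton_eq_range_aeval]; exact r.2
    obtain ⟨Q, hQ⟩ := hr'
    replace hQ : aeval a⁻¹ Q = (r : L) := hQ
    refine ⟨P + Q * X, ?_, ?_⟩
    · rw [coeff_add, mul_coeff_zero, coeff_X_zero, mul_zero, add_zero]
      exact hP 0
    · rw [map_add, map_mul, aeval_X, hQ, ← eP]
      have := congrArg Subtype.val hyz
      rw [← hr] at this
      exact this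
  · exfalso
    obtain ⟨M, hM, hJM⟩ := Ideal.exists_le_maximal _ h
    let A' : Subring L := R.toSubring
    let M' : Ideal A' := M
    have : M'.IsPrime := hM.isPrime
    obtain ⟨W, hAW, hW⟩ := exists_W A' M'
    have h1 := ha W (fun c => hAW _ (R.algebraMap_mem c)) (fun c hc =>
      (hW (algebraMap A R c)).2 (hJM (Ideal.mem_sup_left (Ideal.mem_map_of_mem _ hc))))
    have h3 : W.valuation a⁻¹ < 1 :=
      (hW x).2 (hJM (Ideal.mem_sup_right (Ideal.mem_span_singleton_self _)))
    rw [map_inv₀] at h3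
    have h4 : W.valuation a ≠ 0 := (Valuation.ne_zero_iff _).2 ha0
    exact absurd h1 (not_le.2 ((inv_lt_one₀ (zero_lt_iff.2 h4)).1 h3))

/-- homogeneous form: `(1 - c₀) aⁿ = ∑_{i ≥ 1} cᵢ aⁿ⁻ⁱ` -/
theorem rel_hom {a : L} (ha0 : a ≠ 0) {P : A[X]} (hP : aeval a⁻¹ P = 1) {n : ℕ}
    (hn : P.natDegree ≤ n) :
    a ^ n = ∑ i ∈ Finset.range (n + 1), algebraMap A L (P.coeff i) * a ^ (n - i) := by
  have h1 : aeval a⁻¹ P = ∑ i ∈ Finset.range (n + 1), algebraMap A L (P.coeff i) * a⁻¹ ^ i := by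
    rw [aeval_eq_sum_range' (Nat.lt_succ_of_le hn)]
    simp only [Algebra.smul_def]
  calc a ^ n = a ^ n * aeval a⁻¹ P := by rw [hP, mul_one]
    _ = _ := by
        rw [h1, Finset.mul_sum]
        refine Finset.sum_congr rfl fun i hi => ?_
        rw [Finset.mem_range] at hi
        have : a ^ n = a ^ (n - i) * a ^ i := by rw [← pow_add]; congr 1; omega
        rw [this, inv_pow]
        have h2 : a ^ i ≠ 0 := pow_ne_zero _ ha0
        field_simp

/-- **roots of `1 + a`, `a` nilpotent modulo a complete ideal** -/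
theorem exists_root_one_add {N : Type*} [CommRing N] (I : Ideal N) [IsAdicComplete I N] {a : N}
    {n : ℕ} (ha : a ^ n ∈ I) {l : ℕ} (hl : IsUnit (l : N)) : ∃ b : N, b ^ l = 1 + a := by
  classical
  let φ : N →+* N ⧸ I := Ideal.Quotient.mk I
  -- root modulo `I`
  have hnil : IsNilpotent (φ a) :=
    ⟨n, by rw [← map_pow]; exact Ideal.Quotient.eq_zero_iff_mem.2 ha⟩
  have hlu : IsUnit (l : N ⧸ I) := by
    have := hl.map φ
    rwa [map_natCast] at this
  let f : (N ⧸ I)[X] := X ^ l - C (1 + φ a)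
  have h1 : IsNilpotent (aeval (1 : N ⧸ I) f) := by
    have : aeval (1 : N ⧸ I) f = - φ a := by
      simp only [f, map_sub, map_pow, aeval_X, aeval_C, one_pow, Algebra.algebraMap_self_apply]
      ring
    rw [this]; exact hnil.neg
  have h2 : IsUnit (aeval (1 : N ⧸ I) (derivative f)) := by
    have : aeval (1 : N ⧸ I) (derivative f) = l := by
      simp [f, derivative_X_pow]
    rw [this]; exact hlu
  obtain ⟨r, ⟨hr1, hr2⟩, -⟩ := Polynomial.existsUnique_nilpotent_sub_and_aeval_eq_zero h1 h2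
  have hr3 : r ^ l = 1 + φ a := by
    have : aeval r f = r ^ l - (1 + φ a) := by
      simp only [f, map_sub, map_pow, aeval_X, aeval_C, Algebra.algebraMap_self_apply]
    rw [this] at hr2
    exact sub_eq_zero.1 hr2
  have hru : IsUnit r := by
    have : r = 1 - (1 - r) := by ring
    rw [this]
    exact hr1.isUnit_one_sub
  obtain ⟨b₀, hb₀⟩ := Ideal.Quotient.mk_surjective r
  -- Hensel
  by_cases hI : I = ⊤
  · subst hI
    have : Subsingleton N := by
      have h3 : IsHausdorff (⊤ : Ideal N) N := inferInstance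
      refine ⟨fun x y => sub_eq_zero.1 (h3.haus' (x - y) fun n => ?_)⟩
      rw [SModEq.zero]
      rw [Ideal.top_pow, Submodule.top_smul]
      exact Submodule.mem_top
    exact ⟨0, Subsingleton.elim _ _⟩
  have hH : HenselianRing N I := inferInstance
  have hfm : (X ^ l - C (1 + a) : N[X]).Monic := by
    rcases Nat.eq_zero_or_pos l with h0 | h0
    · subst h0
      rw [Nat.cast_zero] at hlu
      exfalso
      refine hI ?_
      rw [Ideal.eq_top_iff_one]
      have h5 : (1 : N ⧸ I) = 0 := by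
        obtain ⟨u, hu⟩ := hlu
        rw [← Units.inv_mul u, hu, mul_zero]
      exact Ideal.Quotient.eq_zero_iff_mem.1 (by rw [map_one]; exact h5)
    · exact monic_X_pow_sub_C _ (by omega)
  obtain ⟨b, hb, -⟩ := HenselianRing.is_henselian (I := I) (X ^ l - C (1 + a) : N[X]) hfm b₀ (by
      rw [eval_sub, eval_pow, eval_X, eval_C, ← Ideal.Quotient.eq_zero_iff_mem, map_sub, map_pow,
        hb₀, hr3, map_add, map_one, sub_self]) (by
      rw [derivative_sub, derivative_X_pow, derivative_C, sub_zero, eval_mul, eval_pow, eval_X,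
        eval_C, map_mul, map_pow, hb₀, map_natCast]
      exact hlu.mul (hru.pow _))
  refine ⟨b, ?_⟩
  have h6 : eval b (X ^ l - C (1 + a) : N[X]) = 0 := hb
  rw [eval_sub, eval_pow, eval_X, eval_C] at h6
  exact sub_eq_zero.1 h6

end Crest.Agent.R013.OneSM_920
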