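import Crest.Agent.R013.PL1_109

/-!
# R013 / PL2_109 : chains of discs without common point give immediate norms (type 4)
-/

set_option autoImplicit false

open scoped NNReal
open Polynomial

namespace Crest.Agent.R013.PL_109

variable {C : Type*} [Field C] (v : Valuation C ℝ≥0)

/-- inclusion of closed discs -/
def Rel (E D : C × ℝ≥0) : Prop := v (E.1 - D.1) ≤ D.2 ∧ E.2 ≤ D.2

variable {v}

theorem Rel.refl (D : C × ℝ≥0) : Rel v D D := ⟨by simp, le_rfl⟩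

theorem Rel.trans {E D F : C × ℝ≥0} (h1 : Rel v E D) (h2 : Rel v D F) : Rel v E F := by
  refine ⟨?_, h1.2.trans h2.2⟩
  have h3 : E.1 - F.1 = (E.1 - D.1) + (D.1 - F.1) := by ring
  rw [h3]
  exact (v.map_add _ _).trans (max_le (h1.1.trans h2.2) h2.1)

variable (v)

/-- a chain of closed discs of `C` without common point -/
structure EmptyChain (𝒞 : Set (C × ℝ≥0)) : Prop where
  ne : 𝒞.Nonempty
  pos : ∀ D ∈ 𝒞, D.2 ≠ 0
  tot : ∀ D ∈ 𝒞, ∀ E ∈ 𝒞, Rel v D E ∨ Rel v E D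
  emp : ∀ b : C, ∃ D ∈ 𝒞, D.2 < v (b - D.1)

/-- Gauss norm of a closed disc -/
noncomputable def gD (D : C × ℝ≥0) (f : C[X]) : ℝ≥0 := gf v D.2 (taylor D.1 f)

theorem gD_mul {D : C × ℝ≥0} (hD : D.2 ≠ 0) (f g : C[X]) : gD v D (f * g) = gD v D f * gD v D g := by
  rw [gD, taylor_mul, gf_mul v hD]; rfl

theorem gD_add (D : C × ℝ≥0) (f g : C[X]) : gD v D (f + g) ≤ max (gD v D f) (gD v D g) := by
  rw [gD, map_add]; exact gf_add v _ _ _

theorem gD_C (D : C × ℝ≥0) (c : C) : gD v D (Polynomial.C c) = v c := by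
  rw [gD, taylor_C, gf_C]

theorem gD_X_sub (D : C × ℝ≥0) (b : C) :
    gD v D (X - Polynomial.C b) = max D.2 (v (D.1 - b)) := by
  rw [gD, map_sub, taylor_X, taylor_C, add_sub_assoc, ← Polynomial.C_sub, gf_X_sub]

/-- the Gauss norm of `f` is constant below `D` -/
def Stab (𝒞 : Set (C × ℝ≥0)) (f : C[X]) (D : C × ℝ≥0) : Prop :=
  ∀ E ∈ 𝒞, Rel v E D → gD v E f = gD v D f

variable {v} {𝒞 : Set (C × ℝ≥0)}

theorem Stab.mono {f : C[X]} {D E : C × ℝ≥0} (h : Stab v 𝒞 f D) (hE : E ∈ 𝒞) (hED : Rel v E D) :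
    Stab v 𝒞 f E := by
  intro F hF hFE
  rw [h F hF (hFE.trans hED), h E hE hED]

theorem EmptyChain.min (h : EmptyChain v 𝒞) {D E : C × ℝ≥0} (hD : D ∈ 𝒞) (hE : E ∈ 𝒞) :
    ∃ F ∈ 𝒞, Rel v F D ∧ Rel v F E := by
  rcases h.tot D hD E hE with h1 | h1
  · exact ⟨D, hD, Rel.refl D, h1⟩
  · exact ⟨E, hE, h1, Rel.refl E⟩

theorem v_eq_of_lt {E D : C × ℝ≥0} (b : C) (hb : D.2 < v (b - D.1)) (hE : Rel v E D) :
    v (E.1 - b) = v (b - D.1) := by
  have h1 : E.1 - b = (E.1 - D.1) + -(b - D.1) := by ring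
  rw [h1, Valuation.map_add_eq_of_lt_right, Valuation.map_neg]
  rw [Valuation.map_neg]
  exact hE.1.trans_lt hb

theorem EmptyChain.exists_stab_X_sub (h : EmptyChain v 𝒞) (b : C) :
    ∃ D ∈ 𝒞, Stab v 𝒞 (X - Polynomial.C b) D ∧ D.2 < v (b - D.1) ∧
      gD v D (X - Polynomial.C b) = v (b - D.1) := by
  obtain ⟨D, hD, hb⟩ := h.emp b
  have key : ∀ E ∈ 𝒞, Rel v E D → gD v E (X - Polynomial.C b) = v (b - D.1) := by
    intro E _ hED
    rw [gD_X_sub, v_eq_of_lt b hb hED, max_eq_right (hED.2.trans hb.le)]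
  refine ⟨D, hD, fun E hE hED => ?_, hb, key D hD (Rel.refl D)⟩
  rw [key E hE hED, key D hD (Rel.refl D)]

theorem EmptyChain.exists_stab [IsAlgClosed C] (h : EmptyChain v 𝒞) (f : C[X]) :
    ∃ D ∈ 𝒞, Stab v 𝒞 f D := by
  have key : ∀ m : Multiset C, ∃ D ∈ 𝒞, Stab v 𝒞 ((m.map fun b => X - Polynomial.C b).prod) D := by
    intro m
    induction m using Multiset.induction_on with
    | empty =>
      obtain ⟨D, hD⟩ := h.ne
      refine ⟨D, hD, fun E _ _ => ?_⟩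
      rw [Multiset.map_zero, Multiset.prod_zero, ← Polynomial.C_1, gD_C, gD_C]
    | cons b m ih =>
      obtain ⟨D1, hD1, h1⟩ := ih
      obtain ⟨D2, hD2, h2, -⟩ := h.exists_stab_X_sub b
      obtain ⟨D, hD, hr1, hr2⟩ := h.min hD1 hD2
      refine ⟨D, hD, fun E hE hED => ?_⟩
      rw [Multiset.map_cons, Multiset.prod_cons, gD_mul v (h.pos E hE), gD_mul v (h.pos D hD),
        (h1.mono hD hr1) E hE hED, (h2.mono hD hr2) E hE hED]
  have hs : f.Splits := IsAlgClosed.splits f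
  obtain ⟨D, hD, h1⟩ := key f.roots
  refine ⟨D, hD, fun E hE hED => ?_⟩
  rw [hs.eq_prod_roots, gD_mul v (h.pos E hE), gD_mul v (h.pos D hD), gD_C, gD_C, h1 E hE hED]

/-- the limit norm -/
noncomputable def lim [IsAlgClosed C] (h : EmptyChain v 𝒞) (f : C[X]) : ℝ≥0 :=
  gD v (h.exists_stab f).choose f

theorem lim_eq [IsAlgClosed C] (h : EmptyChain v 𝒞) {f : C[X]} {D : C × ℝ≥0} (hD : D ∈ 𝒞)
    (hs : Stab v 𝒞 f D) : lim h f = gD v D f := by
  obtain ⟨h1, h2⟩ := (h.exists_stab f).choose_spec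
  rw [lim]
  obtain ⟨F, hF, hr1, hr2⟩ := h.min h1 hD
  rw [← h2 F hF hr1, hs F hF hr2]

/-- the limit valuation on polynomials -/
noncomputable def limV [IsAlgClosed C] (h : EmptyChain v 𝒞) : Valuation C[X] ℝ≥0 where
  toFun := lim h
  map_zero' := by
    obtain ⟨D, hD, hs⟩ := h.exists_stab (0 : C[X])
    rw [lim_eq h hD hs, gD, map_zero, gf_zero]
  map_one' := by
    obtain ⟨D, hD, hs⟩ := h.exists_stab (1 : C[X])
    rw [lim_eq h hD hs, ← Polynomial.C_1, gD_C, map_one]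
  map_mul' f g := by
    obtain ⟨D1, hD1, h1⟩ := h.exists_stab f
    obtain ⟨D2, hD2, h2⟩ := h.exists_stab g
    obtain ⟨D3, hD3, h3⟩ := h.exists_stab (f * g)
    obtain ⟨D4, hD4, r1, r2⟩ := h.min hD1 hD2
    obtain ⟨D, hD, r3, r4⟩ := h.min hD3 hD4
    rw [lim_eq h hD (h1.mono hD (r4.trans r1)), lim_eq h hD (h2.mono hD (r4.trans r2)),
      lim_eq h hD (h3.mono hD r3), gD_mul v (h.pos D hD)]
  map_add_le_max' f g := by
    obtain ⟨D1, hD1, h1⟩ := h.exists_stab f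
    obtain ⟨D2, hD2, h2⟩ := h.exists_stab g
    obtain ⟨D3, hD3, h3⟩ := h.exists_stab (f + g)
    obtain ⟨D4, hD4, r1, r2⟩ := h.min hD1 hD2
    obtain ⟨D, hD, r3, r4⟩ := h.min hD3 hD4
    rw [lim_eq h hD (h1.mono hD (r4.trans r1)), lim_eq h hD (h2.mono hD (r4.trans r2)),
      lim_eq h hD (h3.mono hD r3)]
    exact gD_add v D f g

theorem limV_apply [IsAlgClosed C] (h : EmptyChain v 𝒞) (f : C[X]) : limV h f = lim h f := rfl

theorem limV_ne_zero [IsAlgClosed C] (h : EmptyChain v 𝒞) (f : C[X]) (hf : f ≠ 0) :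
    limV h f ≠ 0 := by
  obtain ⟨D, hD, hs⟩ := h.exists_stab f
  rw [limV_apply, lim_eq h hD hs, gD]
  exact gf_ne_zero v (h.pos D hD) (fun h0 => hf ((taylor_eq_zero D.1 f).1 h0))

/-- **type 4 norms**: a chain of closed discs without common point defines an immediate norm. -/
theorem EmptyChain.exists_norm [IsAlgClosed C] (h : EmptyChain v 𝒞) :
    ∃ w : Valuation (RatFunc C) ℝ≥0, (∀ c, w (RatFunc.C c) = v c) ∧
      (∀ b, ∃ D ∈ 𝒞, D.2 < v (b - D.1) ∧ w (RatFunc.X - RatFunc.C b) = v (b - D.1)) ∧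
      (∀ D ∈ 𝒞, w (RatFunc.X - RatFunc.C D.1) ≤ D.2) ∧
      (∀ b, ∃ c, w (RatFunc.X - RatFunc.C c) < w (RatFunc.X - RatFunc.C b)) := by
  have hA : ∀ b, ∃ D ∈ 𝒞, D.2 < v (b - D.1) ∧
      extR (limV h) (limV_ne_zero h) (RatFunc.X - RatFunc.C b) = v (b - D.1) := by
    intro b
    obtain ⟨D, hD, hs, hb, he⟩ := h.exists_stab_X_sub b
    refine ⟨D, hD, hb, ?_⟩
    rw [← algebraMap_X_sub, extR_algebraMap, limV_apply, lim_eq h hD hs, he]
  have hB : ∀ D ∈ 𝒞, extR (limV h) (limV_ne_zero h) (RatFunc.X - RatFunc.C D.1) ≤ D.2 := by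
    intro D hD
    obtain ⟨E, hE, hs, -, -⟩ := h.exists_stab_X_sub D.1
    obtain ⟨F, hF, r1, r2⟩ := h.min hD hE
    rw [← algebraMap_X_sub, extR_algebraMap, limV_apply, lim_eq h hF (hs.mono hF r2), gD_X_sub]
    exact max_le r1.2 r1.1
  refine ⟨extR (limV h) (limV_ne_zero h), fun c => ?_, hA, hB, fun b => ?_⟩
  · obtain ⟨D, hD, hs⟩ := h.exists_stab (Polynomial.C c)
    rw [← RatFunc.algebraMap_C, extR_algebraMap, limV_apply, lim_eq h hD hs, gD_C]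
  · obtain ⟨D, hD, hb, he⟩ := hA b
    exact ⟨D.1, by rw [he]; exact (hB D hD).trans_lt hb⟩

end Crest.Agent.R013.PL_109
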