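import Mathlib
import Crest.Agent.R013.Hens3_899

/-!
R013 / A-RK2, part 1 (helper894): automorphisms `τ` of pro-`l` type of a field `M`, the fixed field
`E` of `τ`, and: a valuation of `M` for which the value of an `l`-th power generator is not in the
value group of `E` is `τ`-invariant; the valuation ring is then integral over its restriction to `E`.
-/

set_option autoImplicit false

namespace Crest.Agent.R013.Rk2_894

open Crest.Agent.R013.Hens_899
open Polynomial

section Fix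

variable {F M : Type*} [Field F] [Field M] [Algebra F M]

/-- the fixed field of an automorphism -/
def fixE (τ : M ≃ₐ[F] M) : IntermediateField F M where
  carrier := {a | τ a = a}
  mul_mem' := fun {a b} ha hb => by
    change τ (a * b) = a * b
    rw [map_mul, show τ a = a from ha, show τ b = b from hb]
  add_mem' := fun {a b} ha hb => by
    change τ (a + b) = a + b
    rw [map_add, show τ a = a from ha, show τ b = b from hb]
  algebraMap_mem' := fun r => τ.commutes r
  inv_mem' := fun a ha => by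
    change τ a⁻¹ = a⁻¹
    rw [map_inv₀, show τ a = a from ha]

theorem mem_fixE {τ : M ≃ₐ[F] M} {a : M} : a ∈ fixE τ ↔ τ a = a := Iff.rfl

theorem pow_fix {τ : M ≃ₐ[F] M} {a : M} (h : τ a = a) (n : ℕ) : (τ ^ n) a = a := by
  induction n with
  | zero => rfl
  | succ n ih => rw [pow_succ, AlgEquiv.mul_apply, h, ih]

/-- the orbit polynomial -/
noncomputable def orbP (τ : M ≃ₐ[F] M) (N : ℕ) (y : M) : M[X] :=
  ∏ i ∈ Finset.range N, (X - C ((τ ^ i) y))

theorem orbP_monic (τ : M ≃ₐ[F] M) (N : ℕ) (y : M) : (orbP τ N y).Monic :=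
  monic_prod_of_monic _ _ fun _ _ => monic_X_sub_C _

theorem orbP_map (τ : M ≃ₐ[F] M) (N : ℕ) (y : M) (hN : (τ ^ N) y = y) :
    (orbP τ N y).map (τ : M →+* M) = orbP τ N y := by
  rw [orbP, Polynomial.map_prod]
  have h1 : ∀ i ∈ Finset.range N, (X - C ((τ ^ i) y) : M[X]).map (τ : M →+* M)
      = X - C ((τ ^ (i + 1)) y) := by
    intro i _
    rw [Polynomial.map_sub, Polynomial.map_X, Polynomial.map_C, pow_succ', AlgEquiv.mul_apply]
    rfl
  rw [Finset.prod_congr rfl h1]
  have h2 := Finset.prod_range_succ (fun i => (X - C ((τ ^ i) y) : M[X])) N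
  have h3 := Finset.prod_range_succ' (fun i => (X - C ((τ ^ i) y) : M[X])) N
  rw [h2, hN] at h3
  have h4 : (X - C y : M[X]) ≠ 0 := X_sub_C_ne_zero y
  have h5 : (X - C ((τ ^ 0) y) : M[X]) = X - C y := rfl
  rw [h5] at h3
  exact (mul_right_cancel₀ h4 h3).symm

theorem orbP_coeff (τ : M ≃ₐ[F] M) (N : ℕ) (y : M) (hN : (τ ^ N) y = y) (k : ℕ) :
    τ ((orbP τ N y).coeff k) = (orbP τ N y).coeff k := by
  have h := congrArg (fun p : M[X] => p.coeff k) (orbP_map τ N y hN)
  simp only [Polynomial.coeff_map] at h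
  exact h

theorem orbP_eval_self (τ : M ≃ₐ[F] M) (N : ℕ) (hN0 : 0 < N) (y : M) :
    (orbP τ N y).eval y = 0 := by
  rw [orbP, Polynomial.eval_prod]
  refine Finset.prod_eq_zero (Finset.mem_range.2 hN0) ?_
  simp

theorem eval_orbP (τ : M ≃ₐ[F] M) (N : ℕ) (y z : M) (h : (orbP τ N y).eval z = 0) :
    ∃ i, i < N ∧ z = (τ ^ i) y := by
  rw [orbP, Polynomial.eval_prod, Finset.prod_eq_zero_iff] at h
  obtain ⟨i, hi, h⟩ := h
  refine ⟨i, Finset.mem_range.1 hi, ?_⟩
  rw [eval_sub, eval_X, eval_C, sub_eq_zero] at h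
  exact h

/-- the orbit polynomial over the fixed field -/
theorem exists_lift_orbP (τ : M ≃ₐ[F] M) (N : ℕ) (y : M) (hN : (τ ^ N) y = y) :
    ∃ Q : (fixE τ)[X], Q.map (algebraMap (fixE τ) M) = orbP τ N y := by
  have h : orbP τ N y ∈ Polynomial.lifts (algebraMap (fixE τ) M) := by
    rw [Polynomial.lifts_iff_coeff_lifts]
    intro k
    exact ⟨⟨_, orbP_coeff τ N y hN k⟩, rfl⟩
  exact (Polynomial.mem_lifts _).1 h

theorem conj_orbit (τ : M ≃ₐ[F] M) (N : ℕ) (hN0 : 0 < N) (y : M) (hN : (τ ^ N) y = y)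
    (σ : M ≃ₐ[fixE τ] M) : ∃ i, i < N ∧ σ y = (τ ^ i) y := by
  obtain ⟨Q, hQ⟩ := exists_lift_orbP τ N y hN
  apply eval_orbP
  rw [← hQ, Polynomial.eval_map_algebraMap, Polynomial.aeval_algEquiv]
  have h2 : (aeval y) Q = 0 := by
    rw [← Polynomial.eval_map_algebraMap, hQ]
    exact orbP_eval_self τ N hN0 y
  rw [AlgHom.comp_apply, h2, map_zero]

/-- all the automorphisms over the fixed field are, on a finite set, powers of `τ` -/
theorem conj_finset [CharZero F] (τ : M ≃ₐ[F] M) (hper : ∀ a : M, ∃ N, 0 < N ∧ (τ ^ N) a = a)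
    (S : Finset M) (σ : M ≃ₐ[fixE τ] M) : ∃ i : ℕ, ∀ s ∈ S, σ s = (τ ^ i) s := by
  classical
  have : CharZero (fixE τ) := charZero_of_injective_algebraMap (algebraMap F (fixE τ)).injective
  have halg : ∀ y : M, IsIntegral (fixE τ) y := by
    intro y
    obtain ⟨N, hN0, hN⟩ := hper y
    obtain ⟨Q, hQ⟩ := exists_lift_orbP τ N y hN
    refine ⟨Q, ?_, ?_⟩
    · have h1 : (Q.map (algebraMap (fixE τ) M)).Monic := by
        rw [hQ]; exact orbP_monic τ N y
      exact Polynomial.monic_of_injective (algebraMap (fixE τ) M).injective h1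
    · rw [← Polynomial.eval_map, hQ]
      exact orbP_eval_self τ N hN0 y
  set N₀ : IntermediateField (fixE τ) M := IntermediateField.adjoin (fixE τ) (S : Set M) with hN₀
  have : FiniteDimensional (fixE τ) N₀ :=
    IntermediateField.finiteDimensional_adjoin fun x _ => halg x
  obtain ⟨α, hα⟩ := Field.exists_primitive_element (fixE τ) N₀
  obtain ⟨N, hN0, hN⟩ := hper (α : M)
  obtain ⟨i, -, hi⟩ := conj_orbit τ N hN0 (α : M) hN σ
  refine ⟨i, ?_⟩
  -- the `E`-automorphism `τ ^ i`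
  let τE : M ≃ₐ[fixE τ] M :=
    { (τ ^ i).toRingEquiv with commutes' := fun r => pow_fix r.2 i }
  have hτE : ∀ x, τE x = (τ ^ i) x := fun _ => rfl
  intro s hs
  have hsN : s ∈ N₀ := IntermediateField.subset_adjoin _ _ (Finset.mem_coe.2 hs)
  have h1 : (⟨s, hsN⟩ : N₀) ∈ (IntermediateField.adjoin (fixE τ) {α} : IntermediateField (fixE τ) N₀) := by
    rw [hα]; exact IntermediateField.mem_top
  have hαi : IsIntegral (fixE τ) α := IsIntegral.of_finite _ _
  rw [← IntermediateField.mem_toSubalgebra,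
    IntermediateField.adjoin_simple_toSubalgebra_of_isAlgebraic hαi.isAlgebraic,
    Algebra.adjoin_singleton_eq_range_aeval] at h1
  obtain ⟨P, hP⟩ := h1
  have h2 : s = aeval (α : M) P := by
    have := congrArg (fun x : N₀ => (x : M)) hP
    simp only at this
    rw [← this]
    exact (IntermediateField.aeval_coe N₀ α P).symm
  rw [h2, ← hτE]
  have h3 : σ ((aeval (α : M)) P) = aeval (σ (α : M)) P := by
    rw [Polynomial.aeval_algEquiv]; rfl
  have h4 : τE ((aeval (α : M)) P) = aeval (τE (α : M)) P := by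
    rw [Polynomial.aeval_algEquiv]; rfl
  rw [h3, h4, hi, hτE]

theorem isGalois_fixE [CharZero F] (τ : M ≃ₐ[F] M) (hper : ∀ a : M, ∃ N, 0 < N ∧ (τ ^ N) a = a) :
    IsGalois (fixE τ) M := by
  have : CharZero (fixE τ) := charZero_of_injective_algebraMap (algebraMap F (fixE τ)).injective
  have halg : ∀ y : M, IsIntegral (fixE τ) y := by
    intro y
    obtain ⟨N, hN0, hN⟩ := hper y
    obtain ⟨Q, hQ⟩ := exists_lift_orbP τ N y hN
    refine ⟨Q, ?_, ?_⟩
    · have h1 : (Q.map (algebraMap (fixE τ) M)).Monic := by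
        rw [hQ]; exact orbP_monic τ N y
      exact Polynomial.monic_of_injective (algebraMap (fixE τ) M).injective h1
    · rw [← Polynomial.eval_map, hQ]
      exact orbP_eval_self τ N hN0 y
  have : Algebra.IsAlgebraic (fixE τ) M := ⟨fun y => (halg y).isAlgebraic⟩
  have : Algebra.IsSeparable (fixE τ) M := inferInstance
  have : Normal (fixE τ) M := by
    rw [normal_iff]
    intro y
    refine ⟨halg y, ?_⟩
    obtain ⟨N, hN0, hN⟩ := hper y
    obtain ⟨Q, hQ⟩ := exists_lift_orbP τ N y hN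
    have h1 : (Q.map (algebraMap (fixE τ) M)).Splits := by
      rw [hQ, orbP]
      exact Polynomial.Splits.prod fun _ _ => Polynomial.Splits.X_sub_C _
    have h2 : minpoly (fixE τ) y ∣ Q := by
      apply minpoly.dvd
      rw [← Polynomial.eval_map_algebraMap, hQ]
      exact orbP_eval_self τ N hN0 y
    have h3 : Q.map (algebraMap (fixE τ) M) ≠ 0 := by
      rw [hQ]; exact (orbP_monic τ N y).ne_zero
    exact Polynomial.Splits.of_dvd h1 h3 (Polynomial.map_dvd _ h2)
  exact IsGalois.mk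

theorem exists_per {l : ℕ} (hl : l.Prime) (τ : M ≃ₐ[F] M) (hpro : ∀ a : M, ∃ n, (τ ^ l ^ n) a = a)
    (a : M) : ∃ N, 0 < N ∧ (τ ^ N) a = a := by
  obtain ⟨n, hn⟩ := hpro a
  exact ⟨l ^ n, pow_pos hl.pos n, hn⟩

theorem pow_apply_zeta (τ : M ≃ₐ[F] M) (ζ : F) (t : M) (hτ : τ t = algebraMap F M ζ * t) (i : ℕ) :
    (τ ^ i) t = algebraMap F M (ζ ^ i) * t := by
  induction i with
  | zero => simp
  | succ i ih =>
    rw [pow_succ', AlgEquiv.mul_apply, ih, map_mul, AlgEquiv.commutes, hτ, ← mul_assoc, ← map_mul,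
      pow_succ]

/-- a valuation of `M` such that the value of `t` is not in the value group of the fixed field is
`τ`-invariant. -/
theorem tau_inv [CharZero F] {Γ : Type*} [LinearOrderedCommGroupWithZero Γ] {l : ℕ} (hl : l.Prime)
    (τ : M ≃ₐ[F] M) (hpro : ∀ a : M, ∃ n, (τ ^ l ^ n) a = a) (X ζ : F) (t : M) (hX : X ≠ 0)
    (ht : t ^ l = algebraMap F M X) (hτ : τ t = algebraMap F M ζ * t) (hζ : ζ ^ l = 1)
    (w : Valuation M Γ) (hw : ∀ b : M, τ b = b → w (b ^ l) ≠ w (algebraMap F M X)) (y : M) :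
    w (τ y) = w y := by
  classical
  have hper := exists_per hl τ hpro
  have : IsGalois (fixE τ) M := isGalois_fixE τ hper
  have ht0 : t ≠ 0 := by
    rintro rfl
    rw [zero_pow hl.ne_zero] at ht
    exact hX ((map_eq_zero (algebraMap F M)).1 ht.symm)
  have h1 : t ∉ hens (fixE τ) w := by
    intro h
    obtain ⟨b, -, hb⟩ := value_hens h ht0
    refine hw (algebraMap (fixE τ) M b) b.2 ?_
    rw [map_pow, hb, ← map_pow, ht]
  rw [mem_hens] at h1
  push Not at h1
  obtain ⟨σ, hσ, hσt⟩ := h1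
  obtain ⟨n, hn⟩ := hpro y
  -- a finite set containing the orbit of `y` and `t`
  set S : Finset M := insert t ((Finset.range (l ^ n)).image fun k => (τ ^ k) y) with hS
  obtain ⟨i, hi⟩ := conj_finset τ hper S σ
  have hSt : t ∈ S := Finset.mem_insert_self _ _
  have hSy : ∀ k, (τ ^ k) y ∈ S := by
    intro k
    have h2 : (τ ^ k) y = (τ ^ (k % l ^ n)) y := by
      conv_lhs => rw [← Nat.mod_add_div k (l ^ n), pow_add, AlgEquiv.mul_apply, pow_mul,
        pow_fix hn]
    rw [h2]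
    refine Finset.mem_insert_of_mem (Finset.mem_image.2 ⟨k % l ^ n, ?_, rfl⟩)
    exact Finset.mem_range.2 (Nat.mod_lt _ (pow_pos hl.pos n))
  -- `l` does not divide `i`
  have hli : ¬ l ∣ i := by
    rintro ⟨j, rfl⟩
    apply hσt
    rw [hi t hSt, pow_apply_zeta τ ζ t hτ, pow_mul, hζ, one_pow, map_one, one_mul]
  have hcop : Nat.Coprime i (l ^ n) :=
    Nat.Coprime.pow_right n ((Nat.Prime.coprime_iff_not_dvd hl).2 hli).symm
  -- powers of `σ` on `y`
  have h3 : ∀ j : ℕ, (σ ^ j) y = (τ ^ (i * j)) y := by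
    intro j
    induction j with
    | zero => rfl
    | succ j ih =>
      rw [pow_succ', AlgEquiv.mul_apply, ih, hi _ (hSy _), ← AlgEquiv.mul_apply, ← pow_add]
      congr 2
      ring
  have h4 : ∀ j : ℕ, w ((σ ^ j) y) = w y := by
    intro j
    exact (pow_mem hσ j : σ ^ j ∈ decomp (fixE τ) w) y
  -- an inverse of `i` modulo `l ^ n`
  obtain ⟨j, hj⟩ : ∃ j : ℕ, i * j ≡ 1 [MOD l ^ n] := by
    rcases (Nat.one_le_iff_ne_zero.2 (pow_pos hl.pos n).ne').eq_or_lt with h1 | h1
    · refine ⟨1, ?_⟩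
      rw [← h1]
      exact Nat.modEq_one
    · obtain ⟨j, -, hj⟩ := Nat.exists_mul_mod_eq_one_of_coprime hcop h1
      refine ⟨j, ?_⟩
      rw [Nat.ModEq, hj, Nat.mod_eq_of_lt h1]
  have h5 : (τ ^ (i * j)) y = τ y := by
    have h6 : ∀ a b : ℕ, a ≡ b [MOD l ^ n] → (τ ^ a) y = (τ ^ b) y := by
      have h7 : ∀ k, (τ ^ k) y = (τ ^ (k % l ^ n)) y := by
        intro k
        conv_lhs => rw [← Nat.mod_add_div k (l ^ n), pow_add, AlgEquiv.mul_apply, pow_mul,
          pow_fix hn]
      intro a b hab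
      rw [h7 a, h7 b, hab]
    rw [h6 _ _ hj, pow_one]
  rw [← h5, ← h3, h4]

/-- a `τ`-invariant valuation ring is integral over its restriction to the fixed field. -/
theorem le_one_of_inv {Γ Γ' : Type*} [LinearOrderedCommGroupWithZero Γ]
    [LinearOrderedCommGroupWithZero Γ'] (τ : M ≃ₐ[F] M)
    (hper : ∀ a : M, ∃ N, 0 < N ∧ (τ ^ N) a = a) (w : Valuation M Γ) (w' : Valuation M Γ')
    (hw : ∀ y, w (τ y) = w y) (h : ∀ b, τ b = b → w b ≤ 1 → w' b ≤ 1) (z : M) (hz : w z ≤ 1) :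
    w' z ≤ 1 := by
  obtain ⟨N, hN0, hN⟩ := hper z
  have hwi : ∀ i : ℕ, w ((τ ^ i) z) ≤ 1 := by
    intro i
    induction i with
    | zero => exact hz
    | succ i ih => rw [pow_succ', AlgEquiv.mul_apply, hw]; exact ih
  -- coefficients of the orbit polynomial are in `w ≤ 1`
  have h1 : ∀ k, w ((orbP τ N z).coeff k) ≤ 1 := by
    have h2 : orbP τ N z ∈ Polynomial.lifts (w.integer.subtype) := by
      rw [orbP]
      refine Subsemiring.prod_mem _ fun i _ => ?_
      rw [sub_eq_add_neg, ← Polynomial.C_neg]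
      refine Subsemiring.add_mem _ (Polynomial.X_mem_lifts _) ?_
      exact Polynomial.C'_mem_lifts ⟨-⟨(τ ^ i) z, hwi i⟩, rfl⟩
    rw [Polynomial.lifts_iff_coeff_lifts] at h2
    intro k
    obtain ⟨c, hc⟩ := h2 k
    rw [← hc]
    exact c.2
  have h3 : ∀ k, w' ((orbP τ N z).coeff k) ≤ 1 := fun k => h _ (orbP_coeff τ N z hN k) (h1 k)
  by_contra hcon
  push Not at hcon
  have h4 : (orbP τ N z).eval z = 0 := orbP_eval_self τ N hN0 z
  have hmon := orbP_monic τ N z
  rw [Polynomial.eval_eq_sum_range, Finset.sum_range_succ, hmon.coeff_natDegree, one_mul] at h4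
  have h5 : z ^ (orbP τ N z).natDegree =
      -∑ x ∈ Finset.range (orbP τ N z).natDegree, (orbP τ N z).coeff x * z ^ x :=
    eq_neg_of_add_eq_zero_right h4
  have h6 : w' (z ^ (orbP τ N z).natDegree) < w' (z ^ (orbP τ N z).natDegree) := by
    conv_lhs => rw [h5, Valuation.map_neg]
    have hz0 : w' (z ^ (orbP τ N z).natDegree) ≠ 0 := by
      rw [map_pow]
      exact pow_ne_zero _ (ne_of_gt (lt_trans zero_lt_one hcon))
    refine Valuation.map_sum_lt w' hz0 fun k hk => ?_
    rw [map_mul, map_pow, map_pow]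
    calc w' ((orbP τ N z).coeff k) * w' z ^ k ≤ 1 * w' z ^ k := mul_le_mul_left (h3 k) _
      _ = w' z ^ k := one_mul _
      _ < w' z ^ (orbP τ N z).natDegree := pow_lt_pow_right₀ hcon (Finset.mem_range.1 hk)
  exact lt_irrefl _ h6

end Fix

end Crest.Agent.R013.Rk2_894
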