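import Mathlib
import Crest.Agent.R013.Rk2a_894

/-!
R013 / A-RK2, part 2 (helper894): limits along an ultrafilter of valuation rings given on the finite
levels `L` of the fixed field `E` of `τ`.
-/

set_option autoImplicit false

namespace Crest.Agent.R013.Rk2_894

open Filter

section Ultra

variable {F M : Type*} [Field F] [Field M] [Algebra F M]

/-- finite levels inside the fixed field -/
abbrev Lev (τ : M ≃ₐ[F] M) : Type _ :=
  {L : IntermediateField F M // FiniteDimensional F L ∧ ∀ a ∈ L, τ a = a}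

instance (τ : M ≃ₐ[F] M) : Nonempty (Lev τ) :=
  ⟨⟨⊥, inferInstance, fun a ha => by
    obtain ⟨r, rfl⟩ := IntermediateField.mem_bot.1 ha
    exact τ.commutes r⟩⟩

instance (τ : M ≃ₐ[F] M) : IsDirectedOrder (Lev τ) := by
  refine ⟨fun L L' => ?_⟩
  have h1 := L.2.1
  have h2 := L'.2.1
  refine ⟨⟨L.1 ⊔ L'.1, inferInstance, ?_⟩, le_sup_left (a := L.1) (b := L'.1),
    le_sup_right (a := L.1) (b := L'.1)⟩
  have h3 : L.1 ⊔ L'.1 ≤ fixE τ := sup_le (fun a ha => L.2.2 a ha) (fun a ha => L'.2.2 a ha)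
  exact fun a ha => h3 ha

/-- the ultrafilter -/
noncomputable def ultra (τ : M ≃ₐ[F] M) : Ultrafilter (Lev τ) := Ultrafilter.of atTop

theorem ultra_le (τ : M ≃ₐ[F] M) : (ultra τ : Filter (Lev τ)) ≤ atTop := Ultrafilter.of_le _

theorem eventually_mem [Algebra.IsAlgebraic F M] (τ : M ≃ₐ[F] M) (x : fixE τ) :
    ∀ᶠ L : Lev τ in (ultra τ : Filter (Lev τ)), (x : M) ∈ L.1 := by
  have hx : IsIntegral F (x : M) := (Algebra.IsAlgebraic.isAlgebraic (R := F) (x : M)).isIntegral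
  have : FiniteDimensional F (IntermediateField.adjoin F {(x : M)}) :=
    IntermediateField.adjoin.finiteDimensional hx
  let L₀ : Lev τ := ⟨IntermediateField.adjoin F {(x : M)}, this, by
    have h3 : IntermediateField.adjoin F {(x : M)} ≤ fixE τ := by
      rw [IntermediateField.adjoin_simple_le_iff]; exact x.2
    exact fun a ha => h3 ha⟩
  have h1 : ∀ᶠ L : Lev τ in atTop, L₀ ≤ L := eventually_ge_atTop L₀
  exact ultra_le τ (h1.mono fun L hL => hL (IntermediateField.mem_adjoin_simple_self F (x : M)))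

/-- membership in the level valuation ring, for elements of `M` -/
def memL {τ : M ≃ₐ[F] M} (A : ∀ L : Lev τ, ValuationSubring L.1) (L : Lev τ) (x : M) : Prop :=
  ∃ h : x ∈ L.1, (⟨x, h⟩ : L.1) ∈ A L

/-- the limit valuation ring -/
noncomputable def lim [Algebra.IsAlgebraic F M] {τ : M ≃ₐ[F] M}
    (A : ∀ L : Lev τ, ValuationSubring L.1) : ValuationSubring (fixE τ) where
  carrier := {x | ∀ᶠ L in (ultra τ : Filter (Lev τ)), memL A L (x : M)}
  mul_mem' := fun {a b} ha hb => by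
    filter_upwards [ha, hb] with L hL1 hL2
    obtain ⟨h1, h1'⟩ := hL1
    obtain ⟨h2, h2'⟩ := hL2
    exact ⟨mul_mem h1 h2, (A L).mul_mem _ _ h1' h2'⟩
  one_mem' := by
    refine Eventually.of_forall fun L => ⟨one_mem L.1, (A L).one_mem⟩
  add_mem' := fun {a b} ha hb => by
    filter_upwards [ha, hb] with L hL1 hL2
    obtain ⟨h1, h1'⟩ := hL1
    obtain ⟨h2, h2'⟩ := hL2
    exact ⟨add_mem h1 h2, (A L).add_mem _ _ h1' h2'⟩
  zero_mem' := by
    refine Eventually.of_forall fun L => ⟨zero_mem L.1, (A L).zero_mem⟩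
  neg_mem' := fun {a} ha => by
    filter_upwards [ha] with L hL1
    obtain ⟨h1, h1'⟩ := hL1
    exact ⟨neg_mem h1, (A L).neg_mem _ h1'⟩
  mem_or_inv_mem' := fun x => by
    change (∀ᶠ L in (ultra τ : Filter (Lev τ)), memL A L (x : M)) ∨
      (∀ᶠ L in (ultra τ : Filter (Lev τ)), memL A L ((x⁻¹ : fixE τ) : M))
    rw [← Ultrafilter.eventually_or]
    filter_upwards [eventually_mem τ x] with L hL
    rcases (A L).mem_or_inv_mem ⟨x, hL⟩ with h | h
    · exact Or.inl ⟨hL, h⟩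
    · exact Or.inr ⟨inv_mem hL, h⟩

theorem mem_lim [Algebra.IsAlgebraic F M] {τ : M ≃ₐ[F] M}
    {A : ∀ L : Lev τ, ValuationSubring L.1} {x : fixE τ} :
    x ∈ lim A ↔ ∀ᶠ L in (ultra τ : Filter (Lev τ)), memL A L (x : M) := Iff.rfl

theorem lim_mono [Algebra.IsAlgebraic F M] {τ : M ≃ₐ[F] M}
    {A B : ∀ L : Lev τ, ValuationSubring L.1} (h : ∀ L, A L ≤ B L) : lim A ≤ lim B := by
  intro x hx
  rw [mem_lim] at hx ⊢
  filter_upwards [hx] with L hL
  obtain ⟨h1, h2⟩ := hL
  exact ⟨h1, h L h2⟩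

theorem lim_comap [Algebra.IsAlgebraic F M] {τ : M ≃ₐ[F] M}
    {A : ∀ L : Lev τ, ValuationSubring L.1} {A₀ : ValuationSubring F}
    (h : ∀ L, (A L).comap (algebraMap F L.1) = A₀) :
    (lim A).comap (algebraMap F (fixE τ)) = A₀ := by
  ext x
  rw [ValuationSubring.mem_comap, mem_lim]
  constructor
  · intro hx
    obtain ⟨L, h1, h2⟩ := hx.exists
    rw [← h L, ValuationSubring.mem_comap]
    exact h2
  · intro hx
    refine Eventually.of_forall fun L => ⟨(algebraMap F L.1 x).2, ?_⟩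
    rw [← h L, ValuationSubring.mem_comap] at hx
    exact hx

theorem val_eq_iff {K : Type*} [Field K] (A : ValuationSubring K) {x y : K} (hx : x ≠ 0)
    (hy : y ≠ 0) : A.valuation x = A.valuation y ↔ x / y ∈ A ∧ y / x ∈ A := by
  rw [← A.valuation_le_one_iff, ← A.valuation_le_one_iff, map_div₀, map_div₀,
    div_le_one₀ (zero_lt_iff.2 ((Valuation.ne_zero_iff _).2 hy)),
    div_le_one₀ (zero_lt_iff.2 ((Valuation.ne_zero_iff _).2 hx))]
  exact ⟨fun h => ⟨h.le, h.ge⟩, fun h => le_antisymm h.1 h.2⟩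

theorem lim_nonpow [Algebra.IsAlgebraic F M] {τ : M ≃ₐ[F] M} {l : ℕ} (hl : l.Prime) {X : F}
    (hX : X ≠ 0) {A : ∀ L : Lev τ, ValuationSubring L.1}
    (h : ∀ L : Lev τ, ∀ b : L.1, (A L).valuation (b ^ l) ≠ (A L).valuation (algebraMap F L.1 X))
    (b : fixE τ) : (lim A).valuation (b ^ l) ≠ (lim A).valuation (algebraMap F (fixE τ) X) := by
  intro hcon
  have hX' : algebraMap F (fixE τ) X ≠ 0 := (_root_.map_ne_zero _).2 hX
  have hb : b ≠ 0 := by
    rintro rfl
    rw [zero_pow hl.ne_zero, map_zero] at hcon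
    exact hX' ((Valuation.zero_iff _).1 hcon.symm)
  rw [val_eq_iff _ (pow_ne_zero l hb) hX', mem_lim, mem_lim] at hcon
  have h1 := (hcon.1.and hcon.2).and (eventually_mem τ b)
  obtain ⟨L, ⟨⟨h2, h2'⟩, ⟨h3, h3'⟩⟩, h4⟩ := h1.exists
  have hb4 : (⟨b, h4⟩ : L.1) ≠ 0 := by
    intro h0
    apply hb
    apply Subtype.ext
    exact congrArg (fun z : L.1 => (z : M)) h0
  exact h L ⟨b, h4⟩ ((val_eq_iff (A L) (pow_ne_zero l hb4)
    ((_root_.map_ne_zero _).2 hX)).2 ⟨h2', h3'⟩)

end Ultra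

section Ext

/-- a valuation ring of a subfield extends -/
theorem exists_extend {E N : Type*} [Field E] [Field N] [Algebra E N] (A : ValuationSubring E) :
    ∃ B : ValuationSubring N, B.comap (algebraMap E N) = A := by
  obtain ⟨B, h, hloc⟩ := IsLocalRing.exists_factor_valuationRing
    ((algebraMap E N).comp A.subtype)
  refine ⟨B, ?_⟩
  ext x
  rw [ValuationSubring.mem_comap]
  constructor
  · intro hx
    by_contra hxA
    have hx0 : x ≠ 0 := by
      rintro rfl
      exact hxA A.zero_mem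
    have h1 : x⁻¹ ∈ A := (A.mem_or_inv_mem x).resolve_left hxA
    -- the image of `x⁻¹` is a unit of `B`
    have h2 : IsUnit ((((algebraMap E N).comp A.subtype).codRestrict B.toSubring h) ⟨x⁻¹, h1⟩) := by
      rw [isUnit_iff_exists_inv]
      refine ⟨⟨algebraMap E N x, hx⟩, Subtype.ext ?_⟩
      change algebraMap E N x⁻¹ * algebraMap E N x = 1
      rw [← map_mul, inv_mul_cancel₀ hx0, map_one]
    have h3 : IsUnit (⟨x⁻¹, h1⟩ : A) := hloc.map_nonunit _ h2
    rw [isUnit_iff_exists_inv] at h3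
    obtain ⟨⟨y, hy⟩, hxy⟩ := h3
    have h4 : x⁻¹ * y = 1 := congrArg Subtype.val hxy
    have h5 : y = x := by
      field_simp at h4
      exact h4
    exact hxA (h5 ▸ hy)
  · intro hx
    exact h ⟨x, hx⟩

end Ext

end Crest.Agent.R013.Rk2_894
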