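import Mathlib
import Crest.Agent.R013.Rk2b_894
import Crest.Agent.R013.FKS_48

/-!
R013 / A-RK2, part 3 (helper894): residual valuations of rank one and F. K. Schmidt's theorem on the
residue field of a norm.
-/

set_option autoImplicit false

namespace Crest.Agent.R013.Rk2_894

open scoped NNReal
open WithZero Valuation

theorem exists_hom_nnreal (Γ₀ : Type*) [LinearOrderedCommGroupWithZero Γ₀] [MulArchimedean Γ₀] :
    ∃ f : Γ₀ →*₀ ℝ≥0, StrictMono f := by
  obtain ⟨f, hf⟩ :=
    Archimedean.exists_orderAddMonoidHom_real_injective (Additive Γ₀ˣ)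
  let e := AddMonoidHom.toMultiplicativeRight (α := Γ₀ˣ) (β := ℝ) f
  have he : StrictMono e := by
    simp only [AddMonoidHom.coe_toMultiplicativeRight, AddMonoidHom.coe_coe, e]
    exact StrictMono.comp strictMono_id (f.monotone'.strictMono_of_injective hf)
  let rf : Multiplicative ℝ →* ℝ≥0ˣ := {
    toFun x := Units.mk0 (.mk ((2 : ℝ) ^ (log (M := ℝ) x)) (by positivity)) <| by
      simp only [ne_eq, NNReal.eq_iff, NNReal.coe_mk, NNReal.coe_zero]
      positivity
    map_one' := by ext; simp
    map_mul' _ _ := by ext; simp [Real.rpow_add]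
    }
  have H : StrictMono (map' (rf.comp e)) := by
    refine map'_strictMono ?_
    intro a b h
    simpa [← Units.val_lt_val, ← NNReal.coe_lt_coe, rf] using he h
  exact ⟨withZeroUnitsEquiv.toMonoidWithZeroHom.comp <| (map' (rf.comp e)).comp
      withZeroUnitsEquiv.symm.toMonoidWithZeroHom,
    withZeroUnitsEquiv_strictMono.comp <| H.comp
      withZeroUnitsEquiv_symm_strictMono⟩

theorem arch_of_unif {k : Type*} [Field k] {Γ : Type*} [LinearOrderedCommGroupWithZero Γ]
    (v : Valuation k Γ) (hsurj : Function.Surjective v) (c : k) (hc0 : c ≠ 0) (hc : v c < 1)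
    (h : ∀ e : k, e ≠ 0 → ∃ m : ℕ, 0 < m ∧ ∃ n : ℤ, v (e ^ m * c ^ n) = 1) : MulArchimedean Γ := by
  refine ⟨fun x y hy => ?_⟩
  obtain ⟨a, rfl⟩ := hsurj x
  obtain ⟨b, rfl⟩ := hsurj y
  rcases le_or_gt (v a) 1 with ha | ha
  · exact ⟨0, by simpa using ha⟩
  have ha0 : a ≠ 0 := by
    rintro rfl
    simp at ha
  have hb0 : b ≠ 0 := by
    rintro rfl
    simp at hy
  obtain ⟨m, hm, n, hmn⟩ := h a ha0
  obtain ⟨m', hm', n', hmn'⟩ := h b hb0
  have hvc : v c ≠ 0 := (Valuation.ne_zero_iff v).2 hc0
  set g : Γ := (v c)⁻¹ with hg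
  have hg1 : 1 < g := (one_lt_inv₀ (zero_lt_iff.2 hvc)).2 hc
  have hg0 : g ≠ 0 := ne_of_gt (lt_trans zero_lt_one hg1)
  have key : ∀ (d : k) (i : ℕ) (j : ℤ), v (d ^ i * c ^ j) = 1 → v d ^ i = g ^ j := by
    intro d i j hd
    rw [map_mul, map_pow, map_zpow₀] at hd
    rw [hg, inv_zpow]
    exact eq_inv_of_mul_eq_one_left hd
  have h1 := key a m n hmn
  have h2 := key b m' n' hmn'
  have hn' : 0 < n' := by
    have h3 : 1 < g ^ n' := by
      rw [← h2]
      exact one_lt_pow₀ hy hm'.ne'
    rw [← zpow_zero g] at h3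
    exact (zpow_lt_zpow_iff_right₀ hg1).1 h3
  refine ⟨m' * n.toNat, ?_⟩
  calc v a ≤ v a ^ m := le_self_pow₀ ha.le hm.ne'
    _ = g ^ n := h1
    _ ≤ g ^ (n' * (n.toNat : ℤ)) := by
        refine zpow_le_zpow_right₀ hg1.le ?_
        have := Int.self_le_toNat n
        nlinarith [Int.natCast_nonneg n.toNat]
    _ = v b ^ (m' * n.toNat) := by
        rw [pow_mul, h2, zpow_mul, zpow_natCast]

section Residual

variable {M : Type*} [Field M] (w : Valuation M ℝ≥0)

theorem mem_of_lt (A : ValuationSubring M) (hA : A ≤ w.valuationSubring) {x : M} (hx : w x < 1) :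
    x ∈ A := by
  by_contra h
  have h1 : x⁻¹ ∈ A := (A.mem_or_inv_mem x).resolve_left h
  have h2 : w x⁻¹ ≤ 1 := (w.mem_valuationSubring_iff _).1 (hA h1)
  have hx0 : x ≠ 0 := by
    rintro rfl
    exact h A.zero_mem
  have hwx : w x ≠ 0 := (Valuation.ne_zero_iff w).2 hx0
  rw [map_inv₀] at h2
  exact absurd hx (not_lt.2 ((inv_le_one₀ (zero_lt_iff.2 hwx)).1 h2))

/-- the residual valuation ring -/
noncomputable def resVR (A : ValuationSubring M) (hA : A ≤ w.valuationSubring) :
    ValuationSubring (IsLocalRing.ResidueField w.valuationSubring) where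
  toSubring := (A.toSubring.comap w.valuationSubring.subtype).map
    (IsLocalRing.residue w.valuationSubring)
  mem_or_inv_mem' := by
    intro e
    obtain ⟨z, rfl⟩ := IsLocalRing.residue_surjective e
    rcases A.mem_or_inv_mem (z : M) with h | h
    · exact Or.inl ⟨z, h, rfl⟩
    · right
      by_cases hz : IsLocalRing.residue w.valuationSubring z = 0
      · rw [hz, inv_zero]
        exact ((A.toSubring.comap w.valuationSubring.subtype).map
          (IsLocalRing.residue w.valuationSubring)).zero_mem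
      refine ⟨⟨(z : M)⁻¹, hA h⟩, h, ?_⟩
      apply eq_inv_of_mul_eq_one_left
      rw [← map_mul]
      have hz0 : (z : M) ≠ 0 := by
        intro h0
        apply hz
        rw [show z = 0 from Subtype.ext h0, map_zero]
      have : (⟨(z : M)⁻¹, hA h⟩ : w.valuationSubring) * z = 1 :=
        Subtype.ext (inv_mul_cancel₀ hz0)
      rw [this, map_one]

theorem residue_mem_resVR {A : ValuationSubring M} {hA : A ≤ w.valuationSubring}
    (z : w.valuationSubring) :
    IsLocalRing.residue w.valuationSubring z ∈ resVR w A hA ↔ (z : M) ∈ A := by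
  constructor
  · rintro ⟨z', hz', h⟩
    have h1 : z' - z ∈ IsLocalRing.maximalIdeal w.valuationSubring := by
      rw [← IsLocalRing.residue_eq_zero_iff, _root_.map_sub, h, sub_self]
    have h2 : w ((z' - z : w.valuationSubring) : M) < 1 := by
      have := (w.valuationSubring.valuation_lt_one_iff (z' - z)).1 h1
      rwa [← Valuation.isEquiv_valuation_valuationSubring w |>.lt_one_iff_lt_one] at this
    have h3 : ((z' - z : w.valuationSubring) : M) ∈ A := mem_of_lt w A hA h2
    have h4 : (z : M) = (z' : M) - ((z' - z : w.valuationSubring) : M) := by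
      push_cast; ring
    rw [h4]
    exact sub_mem hz' h3
  · intro h
    exact ⟨z, h, rfl⟩

/-- real valued residual valuation -/
theorem exists_resVal (A : ValuationSubring M) (hA : A ≤ w.valuationSubring) (X : M) (hX : w X = 1)
    (hXA : A.valuation X < 1)
    (hd : ∀ z : M, w z = 1 → ∃ m : ℕ, 0 < m ∧ ∃ n : ℤ, A.valuation (z ^ m * X ^ n) = 1) :
    ∃ u : Valuation (IsLocalRing.ResidueField w.valuationSubring) ℝ≥0,
      ∀ z : w.valuationSubring, u (IsLocalRing.residue _ z) ≤ 1 ↔ (z : M) ∈ A := by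
  classical
  set V := resVR w A hA with hV
  set Xo : w.valuationSubring := ⟨X, by rw [w.mem_valuationSubring_iff, hX]⟩ with hXo
  have hunit : ∀ z : w.valuationSubring, IsLocalRing.residue w.valuationSubring z ≠ 0 ↔
      w (z : M) = 1 := by
    intro z
    have h1 : w (z : M) ≤ 1 := (w.mem_valuationSubring_iff _).1 z.2
    rw [Ne, IsLocalRing.residue_eq_zero_iff]
    have h2 : z ∈ IsLocalRing.maximalIdeal w.valuationSubring ↔ w (z : M) < 1 := by
      rw [w.valuationSubring.valuation_lt_one_iff z,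
        (Valuation.isEquiv_valuation_valuationSubring w).lt_one_iff_lt_one]
    rw [h2, not_lt]
    exact ⟨fun h => le_antisymm h1 h, fun h => h.ge⟩
  -- inverses of residues
  have hinv : ∀ z : w.valuationSubring, w (z : M) = 1 → ∃ z' : w.valuationSubring,
      (z' : M) = (z : M)⁻¹ ∧ IsLocalRing.residue w.valuationSubring z' =
        (IsLocalRing.residue w.valuationSubring z)⁻¹ := by
    intro z hz
    have hz0 : (z : M) ≠ 0 := by
      intro h0; rw [h0, map_zero] at hz; exact zero_ne_one hz
    have hzi : (z : M)⁻¹ ∈ w.valuationSubring := by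
      rw [w.mem_valuationSubring_iff, map_inv₀, hz, inv_one]
    refine ⟨⟨(z : M)⁻¹, hzi⟩, rfl, ?_⟩
    apply eq_inv_of_mul_eq_one_left
    rw [← map_mul, show (⟨(z : M)⁻¹, hzi⟩ : w.valuationSubring) * z = 1 from
        Subtype.ext (inv_mul_cancel₀ hz0), map_one]
  have hle : ∀ z : w.valuationSubring, V.valuation (IsLocalRing.residue _ z) ≤ 1 ↔
      A.valuation (z : M) ≤ 1 := by
    intro z
    rw [V.valuation_le_one_iff, hV, residue_mem_resVR, ← A.valuation_le_one_iff]
  have hge : ∀ z : w.valuationSubring, w (z : M) = 1 →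
      (1 ≤ V.valuation (IsLocalRing.residue _ z) ↔ 1 ≤ A.valuation (z : M)) := by
    intro z hz
    obtain ⟨z', hz', hr⟩ := hinv z hz
    have h1 := hle z'
    have hz0 : (z : M) ≠ 0 := by
      intro h0; rw [h0, map_zero] at hz; exact zero_ne_one hz
    rw [hr, hz', map_inv₀, map_inv₀, inv_le_one₀, inv_le_one₀] at h1
    · exact h1
    · exact zero_lt_iff.2 ((Valuation.ne_zero_iff _).2 hz0)
    · exact zero_lt_iff.2 ((Valuation.ne_zero_iff _).2 ((hunit z).2 hz))
  have harch : MulArchimedean V.ValueGroup := by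
    refine arch_of_unif V.valuation V.valuation_surjective (IsLocalRing.residue _ Xo) ?_ ?_ ?_
    · rw [hunit]; exact hX
    · rw [← not_le, hge Xo hX, not_le]; exact hXA
    · intro e he
      obtain ⟨z, rfl⟩ := IsLocalRing.residue_surjective e
      have hz := (hunit z).1 he
      obtain ⟨m, hm, n, hmn⟩ := hd z hz
      refine ⟨m, hm, n, ?_⟩
      -- the element `z ^ m * X ^ n` of the ring
      have h1 : w ((z : M) ^ m * X ^ n) = 1 := by
        rw [map_mul, map_pow, map_zpow₀, hz, hX, one_pow, one_zpow, one_mul]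
      set y : w.valuationSubring := ⟨(z : M) ^ m * X ^ n, by rw [w.mem_valuationSubring_iff, h1]⟩
        with hy
      have h2 : IsLocalRing.residue w.valuationSubring y =
          IsLocalRing.residue _ z ^ m * IsLocalRing.residue _ Xo ^ n := by
        rcases Int.eq_nat_or_neg n with ⟨j, rfl | rfl⟩
        · rw [zpow_natCast, ← map_pow, ← map_pow, ← map_mul]
          congr 1
          apply Subtype.ext
          rw [hy]
          push_cast
          rw [zpow_natCast]
        · obtain ⟨X', hX', hr⟩ := hinv Xo hX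
          rw [zpow_neg, ← inv_zpow, ← hr, zpow_natCast, ← map_pow, ← map_pow, ← map_mul]
          congr 1
          apply Subtype.ext
          rw [hy]
          push_cast
          rw [hX', zpow_neg, inv_pow, zpow_natCast]
      rw [← h2]
      refine le_antisymm ((hle y).2 hmn.le) ((hge y h1).2 hmn.ge)
  obtain ⟨f, hf⟩ := exists_hom_nnreal V.ValueGroup
  refine ⟨V.valuation.map f hf.monotone, fun z => ?_⟩
  rw [← residue_mem_resVR w (hA := hA), ← hV, ← V.valuation_le_one_iff, Valuation.map_apply,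
    ← map_one f, hf.le_iff_le]

/-- a residual valuation of a `τ`-invariant valuation ring is invariant under the residual action -/
theorem resVal_inv (τ : M ≃+* M) (hw : ∀ a, w (τ a) = w a) (A : ValuationSubring M)
    (hτA : ∀ a, A.valuation (τ a) = A.valuation a)
    (u : Valuation (IsLocalRing.ResidueField w.valuationSubring) ℝ≥0)
    (hu : ∀ z : w.valuationSubring, u (IsLocalRing.residue _ z) ≤ 1 ↔ (z : M) ∈ A)
    (z z' : w.valuationSubring) (hz : (z' : M) = τ (z : M)) :
    u (IsLocalRing.residue _ z') = u (IsLocalRing.residue _ z) := by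
  have hle : ∀ z z' : w.valuationSubring, w (z : M) = 1 → w (z' : M) = 1 →
      A.valuation (z' : M) = A.valuation (z : M) →
      u (IsLocalRing.residue _ z') ≤ u (IsLocalRing.residue _ z) := by
    intro z z' hz1 hz1' hv
    have hz0 : (z : M) ≠ 0 := by
      intro h0; rw [h0, map_zero] at hz1; exact zero_ne_one hz1
    have h1 : (z' : M) / z ∈ w.valuationSubring := by
      rw [w.mem_valuationSubring_iff, map_div₀, hz1, hz1', div_one]
    have h2 : (z' : M) / z ∈ A := by
      rw [← A.valuation_le_one_iff, map_div₀, hv,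
        div_self ((Valuation.ne_zero_iff _).2 hz0)]
    have h3 : z' = ⟨(z' : M) / z, h1⟩ * z := Subtype.ext (by
      push_cast
      rw [div_mul_cancel₀ _ hz0])
    rw [h3, map_mul, map_mul]
    exact mul_le_of_le_one_left' ((hu ⟨_, h1⟩).2 h2)
  by_cases hz1 : w (z : M) = 1
  · have hz1' : w (z' : M) = 1 := by rw [hz, hw, hz1]
    exact le_antisymm (hle z z' hz1 hz1' (by rw [hz, hτA]))
      (hle z' z hz1' hz1 (by rw [hz, hτA]))
  · have h0 : ∀ y : w.valuationSubring, w (y : M) ≠ 1 → IsLocalRing.residue _ y = 0 := by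
      intro y hy
      rw [IsLocalRing.residue_eq_zero_iff, w.valuationSubring.valuation_lt_one_iff y,
        ← (Valuation.isEquiv_valuation_valuationSubring w).lt_one_iff_lt_one]
      exact lt_of_le_of_ne ((w.mem_valuationSubring_iff _).1 y.2) hy
    rw [h0 z hz1, h0 z' (by rw [hz, hw]; exact hz1)]

/-- **F. K. Schmidt on the residue field of a norm** -/
theorem fks_residue [IsAlgClosed (IsLocalRing.ResidueField w.valuationSubring)] (τ : M ≃+* M)
    (hper : ∀ a, ∃ N, 0 < N ∧ (⇑τ)^[N] a = a) (hw : ∀ a, w (τ a) = w a)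
    (A A' : ValuationSubring M) (hA : A ≤ w.valuationSubring) (hA' : A' ≤ w.valuationSubring)
    (hτA : ∀ a, A.valuation (τ a) = A.valuation a)
    (hτA' : ∀ a, A'.valuation (τ a) = A'.valuation a)
    (X X' : M) (hX : w X = 1) (hX' : w X' = 1) (hXA : A.valuation X < 1)
    (hXA' : A'.valuation X' < 1)
    (hd : ∀ z : M, w z = 1 → ∃ m : ℕ, 0 < m ∧ ∃ n : ℤ, A.valuation (z ^ m * X ^ n) = 1)
    (hd' : ∀ z : M, w z = 1 → ∃ m : ℕ, 0 < m ∧ ∃ n : ℤ, A'.valuation (z ^ m * X' ^ n) = 1)
    (hne : ∃ z, w z ≤ 1 ∧ z ∈ A ∧ z ∉ A') (a : M) (ha : w a ≤ 1) : w (τ a - a) < 1 := by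
  classical
  set O := w.valuationSubring with hO
  -- the restriction of `τ` to the ring
  let τO : O ≃+* O :=
    { toFun := fun z => ⟨τ z, by rw [w.mem_valuationSubring_iff, hw]; exact z.2⟩
      invFun := fun z => ⟨τ.symm z, by
        rw [w.mem_valuationSubring_iff, ← hw, τ.apply_symm_apply]; exact z.2⟩
      left_inv := fun z => Subtype.ext (τ.symm_apply_apply _)
      right_inv := fun z => Subtype.ext (τ.apply_symm_apply _)
      map_mul' := fun x y => Subtype.ext (map_mul τ _ _)
      map_add' := fun x y => Subtype.ext (_root_.map_add τ _ _) }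
  have hτO : ∀ z : O, ((τO z : O) : M) = τ z := fun _ => rfl
  let σ : IsLocalRing.ResidueField O ≃+* IsLocalRing.ResidueField O :=
    IsLocalRing.ResidueField.mapEquiv τO
  have hσ : ∀ z : O, σ (IsLocalRing.residue O z) = IsLocalRing.residue O (τO z) := fun _ => rfl
  obtain ⟨u, hu⟩ := exists_resVal w A hA X hX hXA hd
  obtain ⟨u', hu'⟩ := exists_resVal w A' hA' X' hX' hXA' hd'
  have hiter : ∀ (N : ℕ) (z : O), (((⇑τO)^[N] z : O) : M) = (⇑τ)^[N] (z : M) := by
    intro N
    induction N with
    | zero => intro z; rfl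
    | succ N ih =>
      intro z
      rw [Function.iterate_succ_apply, Function.iterate_succ_apply, ih, hτO]
  have hσpow : ∀ (N : ℕ) (z : O), (σ ^ N : RingAut _) (IsLocalRing.residue O z) =
      IsLocalRing.residue O ((⇑τO)^[N] z) := by
    intro N
    induction N with
    | zero => intro z; rfl
    | succ N ih =>
      intro z
      rw [pow_succ, RingAut.mul_apply, hσ, ih, Function.iterate_succ_apply]
  have hfin : ∀ e : IsLocalRing.ResidueField O,
      (MulAction.orbit (Subgroup.zpowers (σ : RingAut (IsLocalRing.ResidueField O))) e).Finite := by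
    intro e
    obtain ⟨z, rfl⟩ := IsLocalRing.residue_surjective e
    obtain ⟨N, hN0, hN⟩ := hper (z : M)
    have h1 : (σ ^ N : RingAut _) (IsLocalRing.residue O z) = IsLocalRing.residue O z := by
      rw [hσpow]
      congr 1
      apply Subtype.ext
      rw [hiter, hN]
    have h2 : (σ ^ N : RingAut (IsLocalRing.ResidueField O)) ∈
        MulAction.stabilizer (RingAut (IsLocalRing.ResidueField O)) (IsLocalRing.residue O z) := h1
    refine Set.Finite.subset (Set.Finite.image (fun i : ℕ => (σ ^ i : RingAut _)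
      (IsLocalRing.residue O z)) (Set.finite_lt_nat N)) ?_
    rintro _ ⟨⟨g, hg⟩, rfl⟩
    obtain ⟨j, rfl⟩ := Subgroup.mem_zpowers_iff.1 hg
    have hNz : (N : ℤ) ≠ 0 := by exact_mod_cast hN0.ne'
    refine ⟨(j % N).toNat, ?_, ?_⟩
    · have h3 := Int.emod_lt_of_pos j (show (0 : ℤ) < N by exact_mod_cast hN0)
      have h4 := Int.emod_nonneg j hNz
      change (j % N).toNat < N
      omega
    · change (σ ^ (j % N).toNat : RingAut _) (IsLocalRing.residue O z) =
        (σ ^ j : RingAut _) (IsLocalRing.residue O z)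
      have h5 : (σ ^ j : RingAut (IsLocalRing.ResidueField O)) =
          σ ^ (j % N).toNat * (σ ^ N) ^ (j / N) := by
        rw [← zpow_natCast σ (j % N).toNat, ← zpow_natCast σ N, ← zpow_mul, ← zpow_add,
          Int.toNat_of_nonneg (Int.emod_nonneg j hNz), Int.emod_add_mul_ediv]
      have h6 : ((σ ^ N) ^ (j / N) : RingAut (IsLocalRing.ResidueField O)) ∈
        MulAction.stabilizer (RingAut (IsLocalRing.ResidueField O)) (IsLocalRing.residue O z) :=
        zpow_mem h2 _
      rw [h5, RingAut.mul_apply]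
      congr 1
      exact h6.symm
  -- invariance
  have hinv : ∀ (B : ValuationSubring M) (_ : ∀ a, B.valuation (τ a) = B.valuation a)
      (v : Valuation (IsLocalRing.ResidueField O) ℝ≥0)
      (_ : ∀ z : O, v (IsLocalRing.residue _ z) ≤ 1 ↔ (z : M) ∈ B)
      (g : Subgroup.zpowers (σ : RingAut (IsLocalRing.ResidueField O)))
      (e : IsLocalRing.ResidueField O), v (g • e) = v e := by
    intro B hB v hv g e
    have h1 : ∀ e, v (σ e) = v e := by
      intro e
      obtain ⟨z, rfl⟩ := IsLocalRing.residue_surjective e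
      rw [hσ]
      exact resVal_inv w τ hw B hB v hv z (τO z) (hτO z)
    let S : Subgroup (RingAut (IsLocalRing.ResidueField O)) :=
      { carrier := {g | ∀ e, v (g e) = v e}
        one_mem' := fun _ => rfl
        mul_mem' := fun {a b} ha hb e => by
          rw [RingAut.mul_apply, ha, hb]
        inv_mem' := fun {a} ha e => by
          have := ha (a⁻¹ e)
          rw [← RingAut.mul_apply, mul_inv_cancel, RingAut.one_apply] at this
          exact this.symm }
    have h2 : Subgroup.zpowers (σ : RingAut (IsLocalRing.ResidueField O)) ≤ S := by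
      rw [Subgroup.zpowers_le]
      exact h1
    exact h2 g.2 e
  have hu1 : ∀ z : O, w (z : M) = 1 → IsLocalRing.residue O z ≠ 0 := by
    intro z hz
    rw [Ne, IsLocalRing.residue_eq_zero_iff, O.valuation_lt_one_iff z,
      ← (Valuation.isEquiv_valuation_valuationSubring w).lt_one_iff_lt_one, hz]
    exact lt_irrefl _
  -- nontriviality
  have hnt : ∀ (B : ValuationSubring M) (Y : M) (_ : w Y = 1) (_ : B.valuation Y < 1)
      (v : Valuation (IsLocalRing.ResidueField O) ℝ≥0)
      (_ : ∀ z : O, v (IsLocalRing.residue _ z) ≤ 1 ↔ (z : M) ∈ B), ∃ a, a ≠ 0 ∧ v a ≠ 1 := by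
    intro B Y hY hYB v hv
    have hY0 : Y ≠ 0 := by
      rintro rfl
      rw [map_zero] at hY
      exact zero_ne_one hY
    have h1 : w Y⁻¹ = 1 := by rw [map_inv₀, hY, inv_one]
    refine ⟨IsLocalRing.residue O ⟨Y⁻¹, by rw [w.mem_valuationSubring_iff, h1]⟩, hu1 _ h1, ?_⟩
    intro h2
    have h3 := (hv _).1 h2.le
    rw [← B.valuation_le_one_iff] at h3
    change B.valuation Y⁻¹ ≤ 1 at h3
    rw [map_inv₀, inv_le_one₀ (zero_lt_iff.2 ((Valuation.ne_zero_iff _).2 hY0))] at h3
    exact absurd hYB (not_lt.2 h3)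
  have hneq : ¬ u.IsEquiv u' := by
    intro h
    obtain ⟨z, hz1, hz2, hz3⟩ := hne
    have h1 := (hu ⟨z, hz1⟩).2 hz2
    rw [h.le_one_iff_le_one, hu'] at h1
    exact hz3 h1
  have key := FKS_48.fk_schmidt hfin u u' (hinv A hτA u hu) (hinv A' hτA' u' hu')
    (hnt A X hX hXA u hu) (hnt A' X' hX' hXA' u' hu') hneq
    (⟨σ, Subgroup.mem_zpowers _⟩ : Subgroup.zpowers (σ : RingAut (IsLocalRing.ResidueField O)))
    (IsLocalRing.residue O ⟨a, ha⟩)
  have h1 : IsLocalRing.residue O (τO ⟨a, ha⟩) = IsLocalRing.residue O ⟨a, ha⟩ := key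
  rw [← sub_eq_zero, ← _root_.map_sub, IsLocalRing.residue_eq_zero_iff, O.valuation_lt_one_iff,
    ← (Valuation.isEquiv_valuation_valuationSubring w).lt_one_iff_lt_one] at h1
  exact h1

end Residual

end Crest.Agent.R013.Rk2_894
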