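import Mathlib
import Crest.Agent.R013.Rk2c_894
import Crest.Agent.R013.A2a_275

/-!
R013 / A-RK2 (helper894): the end of the uniqueness proof. Compactness on the finite levels of the
fixed field of `τ`, conjugation of the norm, and F. K. Schmidt's theorem on the residue field.
-/

set_option autoImplicit false

namespace Crest.Agent.R013.Rk2_894

open Crest.Agent.R013
open scoped NNReal
open Polynomial Filter

section Torsion

/-- values of algebraic elements are torsion over the values of the base field -/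
theorem exists_pow_value {F N Γ : Type*} [Field F] [Field N] [Algebra F N]
    [Algebra.IsAlgebraic F N] [LinearOrderedCommGroupWithZero Γ] (w : Valuation N Γ) (z : N)
    (hz : z ≠ 0) : ∃ m : ℕ, 0 < m ∧ ∃ f : F, f ≠ 0 ∧ w (z ^ m) = w (algebraMap F N f) := by
  classical
  have hint : IsIntegral F z := (Algebra.IsAlgebraic.isAlgebraic (R := F) z).isIntegral
  set P := minpoly F z with hP
  have hP0 : P ≠ 0 := minpoly.ne_zero hint
  have hroot : aeval z P = 0 := minpoly.aeval F z
  have hsupp : P.support.Nonempty := Polynomial.support_nonempty.2 hP0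
  obtain ⟨i, hi, hmax⟩ := Finset.exists_max_image P.support
    (fun i => w (algebraMap F N (P.coeff i) * z ^ i)) hsupp
  have hne : ∀ j ∈ P.support, algebraMap F N (P.coeff j) * z ^ j ≠ 0 := fun j hj =>
    mul_ne_zero ((_root_.map_ne_zero _).2 (Polynomial.mem_support_iff.1 hj)) (pow_ne_zero _ hz)
  have hex : ∃ j ∈ P.support, j ≠ i ∧ w (algebraMap F N (P.coeff j) * z ^ j) =
      w (algebraMap F N (P.coeff i) * z ^ i) := by
    by_contra hcon
    push Not at hcon
    have h1 : ∀ j ∈ P.support.erase i, w (algebraMap F N (P.coeff j) * z ^ j) <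
        w (algebraMap F N (P.coeff i) * z ^ i) := by
      intro j hj
      have hj' := Finset.mem_of_mem_erase hj
      exact lt_of_le_of_ne (hmax j hj') (hcon j hj' (Finset.ne_of_mem_erase hj))
    have h2 : w (∑ j ∈ P.support.erase i, algebraMap F N (P.coeff j) * z ^ j) <
        w (algebraMap F N (P.coeff i) * z ^ i) :=
      Valuation.map_sum_lt w ((Valuation.ne_zero_iff w).2 (hne i hi)) h1
    have h3 : algebraMap F N (P.coeff i) * z ^ i +
        ∑ j ∈ P.support.erase i, algebraMap F N (P.coeff j) * z ^ j = 0 := by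
      rw [Finset.add_sum_erase P.support (fun j => algebraMap F N (P.coeff j) * z ^ j) hi, ← hroot,
        Polynomial.aeval_def, Polynomial.eval₂_eq_sum, Polynomial.sum_def]
    rw [← eq_neg_iff_add_eq_zero] at h3
    rw [h3, Valuation.map_neg] at h2
    exact lt_irrefl _ h2
  obtain ⟨j, hj, hji, hv⟩ := hex
  -- general step
  have key : ∀ a b : ℕ, a ∈ P.support → b ∈ P.support → a < b →
      w (algebraMap F N (P.coeff a) * z ^ a) = w (algebraMap F N (P.coeff b) * z ^ b) →
      ∃ m : ℕ, 0 < m ∧ ∃ f : F, f ≠ 0 ∧ w (z ^ m) = w (algebraMap F N f) := by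
    intro a b ha hb hab h
    have ha0 := Polynomial.mem_support_iff.1 ha
    have hb0 := Polynomial.mem_support_iff.1 hb
    refine ⟨b - a, Nat.sub_pos_of_lt hab, P.coeff a / P.coeff b, div_ne_zero ha0 hb0, ?_⟩
    have h4 : w (z ^ a) ≠ 0 := (Valuation.ne_zero_iff w).2 (pow_ne_zero _ hz)
    have h5 : w (algebraMap F N (P.coeff b)) ≠ 0 :=
      (Valuation.ne_zero_iff w).2 ((_root_.map_ne_zero _).2 hb0)
    rw [map_div₀, map_div₀, eq_div_iff h5]
    apply mul_right_cancel₀ h4
    rw [← map_mul w (algebraMap F N (P.coeff a)), h, map_mul, mul_right_comm, ← map_mul, ← pow_add,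
      Nat.sub_add_cancel hab.le, mul_comm]
  rcases lt_or_gt_of_ne hji with h | h
  · exact key j i hj hi h hv
  · exact key i j hi hj h hv.symm

end Torsion

section AlgClosed

theorem isAlgClosed_residue {M Ω : Type*} [Field M] [Field Ω] [Algebra M Ω] [IsAlgClosed Ω]
    (W : Valuation Ω ℝ≥0)
    (hd : ∀ a : Ω, ∀ ε : ℝ≥0, 0 < ε → ∃ b : M, W (a - algebraMap M Ω b) < ε) :
    IsAlgClosed (IsLocalRing.ResidueField (W.comap (algebraMap M Ω)).valuationSubring) := by
  classical
  set w := W.comap (algebraMap M Ω) with hw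
  set O := w.valuationSubring with hO
  refine IsAlgClosed.of_exists_root _ fun p hp hirr => ?_
  have hlift : p ∈ Polynomial.lifts (IsLocalRing.residue O) := by
    rw [Polynomial.lifts_iff_coeff_lifts]
    intro n
    exact IsLocalRing.residue_surjective _
  obtain ⟨P, hPp, hdeg, hPm⟩ := Polynomial.lifts_and_natDegree_eq_and_monic hlift hp
  -- the ring hom to the ring of `W`
  let φ : O →+* W.valuationSubring :=
    ((algebraMap M Ω).comp O.subtype).codRestrict W.valuationSubring.toSubring fun x => x.2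
  have hφ : ∀ x : O, ((φ x : W.valuationSubring) : Ω) = algebraMap M Ω (x : M) := fun _ => rfl
  set Q := P.map φ with hQ
  have hQm : Q.Monic := hPm.map φ
  have hQdeg : (Q.map W.valuationSubring.subtype).degree ≠ 0 := by
    rw [Polynomial.degree_map_eq_of_injective (Subtype.coe_injective), hQ,
      hPm.degree_map φ, Polynomial.degree_eq_natDegree hPm.ne_zero, hdeg]
    have := hirr.natDegree_pos
    exact_mod_cast this.ne'
  obtain ⟨z, hz⟩ := IsAlgClosed.exists_root _ hQdeg
  have hzint : IsIntegral W.valuationSubring z := ⟨Q, hQm, by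
    rw [Polynomial.IsRoot, Polynomial.eval_map] at hz
    exact hz⟩
  obtain ⟨z', hz'⟩ := IsIntegrallyClosed.isIntegral_iff.1 hzint
  change (z' : Ω) = z at hz'
  have hz'0 : Q.eval z' = 0 := by
    apply Subtype.coe_injective
    rw [Polynomial.IsRoot, ← hz', Polynomial.eval_map] at hz
    change ((Q.eval z' : W.valuationSubring) : Ω) = 0
    rw [← hz]
    exact (Polynomial.hom_eval₂ Q (RingHom.id _) W.valuationSubring.subtype z')
  obtain ⟨b, hb⟩ := hd z 1 one_pos
  have hbW : W (algebraMap M Ω b) ≤ 1 := by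
    have h1 : algebraMap M Ω b = z - (z - algebraMap M Ω b) := by ring
    rw [h1]
    refine (Valuation.map_sub W _ _).trans (max_le ?_ hb.le)
    rw [← hz']
    exact z'.2
  let b' : O := ⟨b, hbW⟩
  refine ⟨IsLocalRing.residue O b', ?_⟩
  rw [← hPp, Polynomial.eval_map, Polynomial.eval₂_hom, IsLocalRing.residue_eq_zero_iff,
    O.valuation_lt_one_iff, ← (Valuation.isEquiv_valuation_valuationSubring w).lt_one_iff_lt_one]
  change W (algebraMap M Ω (P.eval b' : O)) < 1
  rw [← hφ]
  have h2 : φ (P.eval b') = Q.eval (φ b') := by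
    rw [hQ, Polynomial.eval_map, Polynomial.eval₂_hom]
  obtain ⟨c, hc⟩ := Polynomial.sub_dvd_eval_sub (φ b') z' Q
  rw [hz'0, sub_zero] at hc
  rw [h2, hc]
  push_cast
  rw [map_mul]
  have h3 : W (((φ b' : W.valuationSubring) : Ω) - z') < 1 := by
    rw [hφ, ← Valuation.map_neg, neg_sub, hz']
    exact hb
  calc W (((φ b' : W.valuationSubring) : Ω) - z') * W (c : Ω)
      ≤ W (((φ b' : W.valuationSubring) : Ω) - z') * 1 := by gcongr; exact c.2
    _ < 1 := by rw [mul_one]; exact h3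

end AlgClosed

section Main

theorem comap_val_eq {E N : Type*} [Field E] [Field N] [Algebra E N] {B : ValuationSubring N}
    {A : ValuationSubring E} (h : B.comap (algebraMap E N) = A) {x y : E} (hx : x ≠ 0)
    (hy : y ≠ 0) :
    B.valuation (algebraMap E N x) = B.valuation (algebraMap E N y) ↔
      A.valuation x = A.valuation y := by
  rw [val_eq_iff B ((_root_.map_ne_zero _).2 hx) ((_root_.map_ne_zero _).2 hy),
    val_eq_iff A hx hy, ← h, ValuationSubring.mem_comap, ValuationSubring.mem_comap, map_div₀,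
    map_div₀]

/-- the restriction of the data to a smaller level -/
theorem data_of_le {F M : Type*} [Field F] [Field M] [Algebra F M] (v₀ : Valuation F ℝ≥0) {l : ℕ}
    (hl : l.Prime) {X : F} (hX : X ≠ 0) (A₀ A₁ : ValuationSubring F)
    {L L' : IntermediateField F M} (hLL : L ≤ L')
    (h : ∃ Y A A' : ValuationSubring L', A ≤ Y ∧ A' ≤ Y ∧
      Y.comap (algebraMap F L') = v₀.valuationSubring ∧ A.comap (algebraMap F L') = A₀ ∧
      A'.comap (algebraMap F L') = A₁ ∧
      (∀ b : L', A.valuation (b ^ l) ≠ A.valuation (algebraMap F L' X)) ∧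
      (∀ b : L', A'.valuation (b ^ l) ≠ A'.valuation (algebraMap F L' X))) :
    ∃ Y A A' : ValuationSubring L, A ≤ Y ∧ A' ≤ Y ∧
      Y.comap (algebraMap F L) = v₀.valuationSubring ∧ A.comap (algebraMap F L) = A₀ ∧
      A'.comap (algebraMap F L) = A₁ ∧
      (∀ b : L, A.valuation (b ^ l) ≠ A.valuation (algebraMap F L X)) ∧
      (∀ b : L, A'.valuation (b ^ l) ≠ A'.valuation (algebraMap F L X)) := by
  obtain ⟨Y, A, A', h1, h2, h3, h4, h5, h6, h7⟩ := h
  let ι : L →+* L' := (IntermediateField.inclusion hLL : L →+* L')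
  have hι : ι.comp (algebraMap F L) = algebraMap F L' :=
    RingHom.ext fun x => (IntermediateField.inclusion hLL).commutes x
  have hιx : ∀ x, ι (algebraMap F L x) = algebraMap F L' x := fun x =>
    (IntermediateField.inclusion hLL).commutes x
  have hnp : ∀ B : ValuationSubring L',
      (∀ b : L', B.valuation (b ^ l) ≠ B.valuation (algebraMap F L' X)) →
      ∀ b : L, (B.comap ι).valuation (b ^ l) ≠ (B.comap ι).valuation (algebraMap F L X) := by
    intro B hB b hcon
    have hX' : algebraMap F L X ≠ 0 := (_root_.map_ne_zero _).2 hX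
    have hb : b ≠ 0 := by
      rintro rfl
      rw [zero_pow hl.ne_zero, map_zero] at hcon
      exact hX' ((Valuation.zero_iff _).1 hcon.symm)
    rw [val_eq_iff _ (pow_ne_zero l hb) hX', ValuationSubring.mem_comap,
      ValuationSubring.mem_comap, map_div₀, map_div₀, map_pow, hιx] at hcon
    refine hB (ι b) ((val_eq_iff B (pow_ne_zero l ((_root_.map_ne_zero _).2 hb))
      ((_root_.map_ne_zero _).2 hX)).2 hcon)
  refine ⟨Y.comap ι, A.comap ι, A'.comap ι, fun x hx => h1 hx, fun x hx => h2 hx, ?_, ?_, ?_,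
    hnp A h6, hnp A' h7⟩
  · rw [ValuationSubring.comap_comap, hι, h3]
  · rw [ValuationSubring.comap_comap, hι, h4]
  · rw [ValuationSubring.comap_comap, hι, h5]

/-- one of the two valuation rings at the top level, and all its properties -/
theorem top_ring {F M : Type*} [Field F] [Field M] [CharZero F] [Algebra F M]
    [Algebra.IsAlgebraic F M] (v₀ : Valuation F ℝ≥0) {l : ℕ} (hl : l.Prime) (τ : M ≃ₐ[F] M)
    (hpro : ∀ a : M, ∃ n, (τ ^ l ^ n) a = a) {X ζ : F} {t : M} (hX0 : X ≠ 0)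
    (ht : t ^ l = algebraMap F M X) (hτ : τ t = algebraMap F M ζ * t) (hζ : ζ ^ l = 1)
    (A₀ : ValuationSubring F)
    (w : Valuation M ℝ≥0) (hw₀ : w.comap (algebraMap F M) = v₀)
    (hd : ∀ f : F, v₀ f = 1 → ∃ n : ℤ, A₀.valuation (f * X ^ n) = 1)
    {A Y : ∀ L : Lev τ, ValuationSubring L.1} (hAY : ∀ L, A L ≤ Y L)
    (hA₀ : ∀ L, (A L).comap (algebraMap F L.1) = A₀)
    (hn : ∀ L : Lev τ, ∀ b : L.1, (A L).valuation (b ^ l) ≠ (A L).valuation (algebraMap F L.1 X))
    (hwY : ∀ b : fixE τ, w (b : M) ≤ 1 ↔ b ∈ lim Y) :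
    ∃ B : ValuationSubring M, B ≤ w.valuationSubring ∧ B.comap (algebraMap F M) = A₀ ∧
      (∀ a, B.valuation (τ a) = B.valuation a) ∧
      (∀ z : M, w z = 1 → ∃ m : ℕ, 0 < m ∧ ∃ n : ℤ,
        B.valuation (z ^ m * (algebraMap F M X) ^ n) = 1) := by
  have hper := exists_per hl τ hpro
  have hXM : algebraMap F M X ≠ 0 := (_root_.map_ne_zero _).2 hX0
  have hXE : algebraMap F (fixE τ) X ≠ 0 := (_root_.map_ne_zero _).2 hX0
  obtain ⟨B, hB⟩ := exists_extend (N := M) (lim A)
  have hτB : ∀ a, B.valuation (τ a) = B.valuation a := by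
    refine tau_inv hl τ hpro X ζ t hX0 ht hτ hζ B.valuation ?_
    intro b hb hcon
    have hb0 : b ≠ 0 := by
      rintro rfl
      rw [zero_pow hl.ne_zero, map_zero] at hcon
      exact hXM ((Valuation.zero_iff _).1 hcon.symm)
    have hbE0 : (⟨b, hb⟩ : fixE τ) ≠ 0 := fun h0 => hb0 (congrArg Subtype.val h0)
    refine lim_nonpow hl hX0 hn ⟨b, hb⟩ ?_
    rw [← comap_val_eq hB (pow_ne_zero l hbE0) hXE]
    exact hcon
  have hBw : B ≤ w.valuationSubring := by
    intro z hz
    rw [Valuation.mem_valuationSubring_iff]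
    refine le_one_of_inv τ hper B.valuation w hτB ?_ z ((B.valuation_le_one_iff z).2 hz)
    intro b hb hb1
    have h1 : (⟨b, hb⟩ : fixE τ) ∈ lim A := by
      rw [← hB, ValuationSubring.mem_comap, ← B.valuation_le_one_iff]
      exact hb1
    exact (hwY ⟨b, hb⟩).2 (lim_mono hAY h1)
  have hBA : B.comap (algebraMap F M) = A₀ := by
    rw [IsScalarTower.algebraMap_eq F (fixE τ) M, ← ValuationSubring.comap_comap, hB,
      lim_comap hA₀]
  refine ⟨B, hBw, hBA, hτB, ?_⟩
  intro z hz
  have hz0 : z ≠ 0 := by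
    rintro rfl
    rw [map_zero] at hz
    exact zero_ne_one hz
  obtain ⟨m, hm, f, hf0, hmf⟩ := exists_pow_value (F := F) B.valuation z hz0
  have hfM : algebraMap F M f ≠ 0 := (_root_.map_ne_zero _).2 hf0
  -- the value of `f`
  have h1 := (val_eq_iff B (pow_ne_zero m hz0) hfM).1 hmf
  have h2 : w (z ^ m) = 1 := by rw [map_pow, hz, one_pow]
  have h3 : w (algebraMap F M f) = 1 := by
    have h4 := (w.mem_valuationSubring_iff _).1 (hBw h1.1)
    have h5 := (w.mem_valuationSubring_iff _).1 (hBw h1.2)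
    have hwf : w (algebraMap F M f) ≠ 0 := (Valuation.ne_zero_iff w).2 hfM
    rw [map_div₀, h2, one_div, inv_le_one₀ (zero_lt_iff.2 hwf)] at h4
    rw [map_div₀, h2, div_one] at h5
    exact le_antisymm h5 h4
  have h4 : v₀ f = 1 := by rw [← hw₀]; exact h3
  obtain ⟨n, hn⟩ := hd f h4
  refine ⟨m, hm, n, ?_⟩
  have h5 : f * X ^ n ≠ 0 := mul_ne_zero hf0 (zpow_ne_zero n hX0)
  have h6 : B.valuation (algebraMap F M (f * X ^ n)) = B.valuation (algebraMap F M 1) :=
    (comap_val_eq hBA h5 one_ne_zero).2 (by rw [hn, map_one])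
  rw [map_mul, map_zpow₀, map_mul, map_one, map_one] at h6
  rw [map_mul, hmf, h6]

/-- **A-RK2**: compactness and F. K. Schmidt. -/
theorem rk2_false {F M Ω : Type*} [Field F] [Field M] [Field Ω] [CharZero F] [Algebra F M]
    [Algebra F Ω] [Algebra M Ω] [IsScalarTower F M Ω] [IsAlgClosed Ω] [Algebra.IsAlgebraic F Ω]
    (v₀ : Valuation F ℝ≥0) (hnt : ∃ a, 1 < v₀ a)
    (hdense : ∀ W : Valuation Ω ℝ≥0, W.comap (algebraMap F Ω) = v₀ →
      ∀ a : Ω, ∀ ε : ℝ≥0, 0 < ε → ∃ b : M, W (a - algebraMap M Ω b) < ε)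
    (l : ℕ) (hl : l.Prime) (τ : M ≃ₐ[F] M) (hpro : ∀ a : M, ∃ n, (τ ^ l ^ n) a = a)
    (X ζ : F) (t : M) (ht : t ^ l = algebraMap F M X) (hτ : τ t = algebraMap F M ζ * t)
    (hζ : ζ ^ l = 1) (hζ1 : v₀ (ζ - 1) = 1)
    (A₀ A₁ : ValuationSubring F) (hX : v₀ X = 1) (h0 : A₀.valuation X < 1)
    (h1 : 1 < A₁.valuation X)
    (hd0 : ∀ f : F, v₀ f = 1 → ∃ n : ℤ, A₀.valuation (f * X ^ n) = 1)
    (hd1 : ∀ f : F, v₀ f = 1 → ∃ n : ℤ, A₁.valuation (f * X ^ n) = 1)
    (data : ∀ L : IntermediateField F M, FiniteDimensional F L → (∀ a ∈ L, τ a = a) →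
      ∃ Y A A' : ValuationSubring L, A ≤ Y ∧ A' ≤ Y ∧
        Y.comap (algebraMap F L) = v₀.valuationSubring ∧ A.comap (algebraMap F L) = A₀ ∧
        A'.comap (algebraMap F L) = A₁ ∧
        (∀ b : L, A.valuation (b ^ l) ≠ A.valuation (algebraMap F L X)) ∧
        (∀ b : L, A'.valuation (b ^ l) ≠ A'.valuation (algebraMap F L X))) : False := by
  classical
  have hX0 : X ≠ 0 := by
    rintro rfl
    rw [map_zero] at hX
    exact zero_ne_one hX
  have hMalg : Algebra.IsAlgebraic F M := Algebra.IsAlgebraic.tower_bot F M Ω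
  have hper := exists_per hl τ hpro
  have hXM : algebraMap F M X ≠ 0 := (_root_.map_ne_zero _).2 hX0
  choose Y A A' hAY hA'Y hYc hAc hA'c hAn hA'n using data
  -- the limit on `M` and on `Ω`
  obtain ⟨YM, hYM⟩ := exists_extend (N := M) (lim (τ := τ) fun L => Y L.1 L.2.1 L.2.2)
  obtain ⟨YΩ, hYΩ⟩ := exists_extend (N := Ω) YM
  have hYF : YΩ.comap (algebraMap F Ω) = v₀.valuationSubring := by
    rw [IsScalarTower.algebraMap_eq F M Ω, ← ValuationSubring.comap_comap, hYΩ,
      IsScalarTower.algebraMap_eq F (fixE τ) M, ← ValuationSubring.comap_comap, hYM]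
    exact lim_comap fun L => hYc L.1 L.2.1 L.2.2
  obtain ⟨W₀, hW₀, -⟩ := A2a_275.exists_ext_lift (K := F) (M := F) (Ω := Ω) v₀ hnt
  have hsep : Algebra.IsSeparable F Ω := inferInstance
  have hGal : IsGalois F Ω := by
    have : Normal F Ω := normal_iff.2 fun x =>
      ⟨(Algebra.IsAlgebraic.isAlgebraic (R := F) x).isIntegral, IsAlgClosed.splits _⟩
    exact IsGalois.mk
  obtain ⟨σ, hσ⟩ := Hens_899.exists_conj (K := F) W₀ YΩ.valuation (fun a => by
    rw [YΩ.valuation_le_one_iff, ← ValuationSubring.mem_comap, hYF, v₀.mem_valuationSubring_iff,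
      ← hW₀, Valuation.comap_apply])
  -- the norm
  set W : Valuation Ω ℝ≥0 := W₀.comap (σ : Ω →+* Ω) with hW
  have hWF : W.comap (algebraMap F Ω) = v₀ := by
    rw [← hW₀]
    ext a
    rw [hW, Valuation.comap_apply, Valuation.comap_apply, Valuation.comap_apply]
    congr 1
    congr 1
    exact σ.commutes a
  have hWY : ∀ x, W x ≤ 1 ↔ x ∈ YΩ := fun x => (hσ x).trans (YΩ.valuation_le_one_iff x)
  set w : Valuation M ℝ≥0 := W.comap (algebraMap M Ω) with hw
  have hwF : w.comap (algebraMap F M) = v₀ := by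
    rw [← hWF]
    refine Valuation.ext fun a => ?_
    change W (algebraMap M Ω (algebraMap F M a)) = W (algebraMap F Ω a)
    rw [← IsScalarTower.algebraMap_apply]
  have hwY : ∀ b : fixE τ, w (b : M) ≤ 1 ↔ b ∈ lim (τ := τ) fun L => Y L.1 L.2.1 L.2.2 := by
    intro b
    rw [← hYM, ValuationSubring.mem_comap, ← hYΩ, ValuationSubring.mem_comap, ← hWY]
    rfl
  -- the two valuation rings
  obtain ⟨B, hBw, hBA, hτB, hdB⟩ := top_ring v₀ hl τ hpro hX0 ht hτ hζ A₀ w hwF hd0
    (A := fun L => A L.1 L.2.1 L.2.2) (Y := fun L => Y L.1 L.2.1 L.2.2)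
    (fun L => hAY L.1 L.2.1 L.2.2) (fun L => hAc L.1 L.2.1 L.2.2)
    (fun L => hAn L.1 L.2.1 L.2.2) hwY
  obtain ⟨B', hBw', hBA', hτB', hdB'⟩ := top_ring v₀ hl τ hpro hX0 ht hτ hζ A₁ w hwF hd1
    (A := fun L => A' L.1 L.2.1 L.2.2) (Y := fun L => Y L.1 L.2.1 L.2.2)
    (fun L => hA'Y L.1 L.2.1 L.2.2) (fun L => hA'c L.1 L.2.1 L.2.2)
    (fun L => hA'n L.1 L.2.1 L.2.2) hwY
  -- the norm is `τ`-invariant
  have hτw : ∀ a, w (τ a) = w a := by
    intro a
    rcases eq_or_ne a 0 with rfl | ha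
    · rw [map_zero]
    have hτa : τ a ≠ 0 := (_root_.map_ne_zero τ).2 ha
    have h2 := (val_eq_iff B hτa ha).1 (hτB a)
    have h3 := (w.mem_valuationSubring_iff _).1 (hBw h2.1)
    have h4 := (w.mem_valuationSubring_iff _).1 (hBw h2.2)
    have hwa : w a ≠ 0 := (Valuation.ne_zero_iff w).2 ha
    have hwτa : w (τ a) ≠ 0 := (Valuation.ne_zero_iff w).2 hτa
    rw [map_div₀, div_le_one₀ (zero_lt_iff.2 hwa)] at h3
    rw [map_div₀, div_le_one₀ (zero_lt_iff.2 hwτa)] at h4
    exact le_antisymm h3 h4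
  have hAC : IsAlgClosed (IsLocalRing.ResidueField w.valuationSubring) :=
    isAlgClosed_residue W (hdense W hWF)
  have hwX : w (algebraMap F M X) = 1 := by
    rw [← hX, ← hwF]; rfl
  -- the values of `X`
  have hBX : B.valuation (algebraMap F M X) < 1 := by
    rw [← not_le]
    intro h
    have h2 : (algebraMap F M X)⁻¹ ∈ B := by
      rw [← B.valuation_le_one_iff, map_inv₀,
        inv_le_one₀ (zero_lt_iff.2 ((Valuation.ne_zero_iff _).2 hXM))]
      exact h
    rw [← map_inv₀, ← ValuationSubring.mem_comap, hBA, ← A₀.valuation_le_one_iff, map_inv₀,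
      inv_le_one₀ (zero_lt_iff.2 ((Valuation.ne_zero_iff _).2 hX0))] at h2
    exact absurd h0 (not_lt.2 h2)
  have hBX' : ¬ B'.valuation (algebraMap F M X) ≤ 1 := by
    intro h
    rw [B'.valuation_le_one_iff, ← ValuationSubring.mem_comap, hBA',
      ← A₁.valuation_le_one_iff] at h
    exact absurd h1 (not_lt.2 h)
  have hBX'i : B'.valuation (algebraMap F M X)⁻¹ < 1 := by
    rw [map_inv₀, inv_lt_one₀ (zero_lt_iff.2 ((Valuation.ne_zero_iff _).2 hXM))]
    exact not_le.1 hBX'
  have hit : ∀ (N : ℕ) (a : M), (⇑(τ : M ≃+* M))^[N] a = (τ ^ N) a := by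
    intro N
    induction N with
    | zero => intro a; rfl
    | succ N ih =>
      intro a
      rw [Function.iterate_succ_apply, ih, pow_succ, AlgEquiv.mul_apply]
      rfl
  have hwt : w t = 1 := by
    have h2 : w t ^ l = 1 := by rw [← map_pow, ht, hwX]
    exact (pow_eq_one_iff_of_nonneg zero_le hl.ne_zero).1 h2
  have key := fks_residue w (τ : M ≃+* M)
    (fun a => by
      obtain ⟨N, hN, h⟩ := hper a
      exact ⟨N, hN, by rw [hit, h]⟩) hτw B B' hBw hBw' hτB hτB'
    (algebraMap F M X) (algebraMap F M X)⁻¹ hwX (by rw [map_inv₀, hwX, inv_one]) hBX hBX'i hdB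
    (fun z hz => by
      obtain ⟨m, hm, n, hmn⟩ := hdB' z hz
      exact ⟨m, hm, -n, by rw [inv_zpow', neg_neg]; exact hmn⟩)
    ⟨algebraMap F M X, hwX.le, (B.valuation_le_one_iff _).1 hBX.le, fun h =>
      hBX' ((B'.valuation_le_one_iff _).2 h)⟩ t hwt.le
  have h2 : w (τ t - t) = 1 := by
    have h3 : τ t - t = algebraMap F M (ζ - 1) * t := by
      rw [hτ, map_sub, map_one]; ring
    have h4 : w (algebraMap F M (ζ - 1)) = 1 := by
      rw [← hζ1, ← hwF]; rfl
    rw [h3, map_mul, hwt, h4, one_mul]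
  exact absurd h2 (ne_of_lt key)

end Main

end Crest.Agent.R013.Rk2_894
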