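import Crest.Agent.R013.PPtA_894
import Crest.Agent.R013.RZ4_365
import Crest.Agent.R013.LiftA_168
import Crest.Agent.R013.RR20_948
import Crest.Agent.R013.Rk2_894
import Crest.Agent.R013.APt_349

/-!
R013 / A-PPT (helper894): the one-circle patch at a finite level in terms of the points of the
`p`-adic analytic space (`patch_pt`); the point defined by a place (`exists_pt_of_place`).
-/

set_option autoImplicit false
set_option linter.style.haveILetI false

noncomputable section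

namespace Crest.Agent.R013.PPt_894

open Polynomial Topology
open scoped NNReal ENNReal
open Crest.Agent.R013.Gl946 Crest.Agent.R013.A2b_275 Crest.NumberTheoryR.Sect

universe u v

section ff

variable {k : Type u} [Field k] {K : Type v} [Field K] [Algebra k K]

/-- from `K` finite over the subfield `k(z)` to `K` finite over `RatFunc k`, `X ↦ z` -/
theorem finite_ratAlg (z : K) (hz : Transcendental k z)
    [FiniteDimensional (IntermediateField.adjoin k {z}) K] :
    letI := RR20_948.ratAlg z hz; FiniteDimensional (RatFunc k) K := by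
  letI i1 := RR20_948.ratAlg z hz
  have hmem : ∀ x : RatFunc k, (RR20_948.ratHom z hz).toRingHom x ∈
      IntermediateField.adjoin k {z} := by
    intro x
    rw [IntermediateField.mem_adjoin_simple_iff]
    refine ⟨x.num, x.denom, ?_⟩
    exact RatFunc.liftAlgHom_apply _ _ x
  let f : RatFunc k →+* IntermediateField.adjoin k {z} :=
    (RR20_948.ratHom z hz).toRingHom.codRestrict _ hmem
  letI : Algebra (RatFunc k) (IntermediateField.adjoin k {z}) := f.toAlgebra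
  haveI : IsScalarTower (RatFunc k) (IntermediateField.adjoin k {z}) K :=
    IsScalarTower.of_algebraMap_eq fun x => rfl
  have hsurj : Function.Surjective f := by
    intro x
    obtain ⟨r, s, hrs⟩ := (IntermediateField.mem_adjoin_simple_iff k (x : K)).1 x.2
    refine ⟨algebraMap k[X] (RatFunc k) r / algebraMap k[X] (RatFunc k) s, Subtype.ext ?_⟩
    rw [hrs]
    exact RatFunc.liftAlgHom_apply_div (φ := Polynomial.aeval z) (hφ := _) r s
  haveI : Module.Finite (RatFunc k) (IntermediateField.adjoin k {z}) :=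
    Module.Finite.of_surjective
      (Algebra.linearMap (RatFunc k) (IntermediateField.adjoin k {z})) hsurj
  exact Module.Finite.trans (IntermediateField.adjoin k {z}) K

variable [Algebra (RatFunc k) K] [IsScalarTower k (RatFunc k) K] [FiniteDimensional (RatFunc k) K]

/-- residues at a place of a function field are algebraic -/
theorem exists_monic_lt {Γ : Type*} [LinearOrderedCommGroupWithZero Γ] (v : Valuation K Γ)
    (hk : ∀ c : k, c ≠ 0 → v (algebraMap k K c) = 1) (hnt : ∃ a, 1 < v a) (a : K)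
    (ha : v a ≤ 1) : ∃ Q : k[X], Q.Monic ∧ v (aeval a Q) < 1 := by
  by_contra hcon
  push Not at hcon
  have hk' : ∀ c : k, v (algebraMap k K c) ≤ 1 := by
    intro c
    by_cases hc : c = 0
    · simp [hc]
    · rw [hk c hc]
  have hle : ∀ Q : k[X], v (aeval a Q) ≤ 1 := by
    intro Q
    rw [aeval_eq_sum_range]
    refine Valuation.map_sum_le _ fun i _ => ?_
    rw [Algebra.smul_def, map_mul, map_pow]
    exact mul_le_one' (hk' _) (pow_le_one' ha _)
  have hone : ∀ Q : k[X], Q ≠ 0 → v (aeval a Q) = 1 := by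
    intro Q hQ
    refine le_antisymm (hle Q) ?_
    have h1 := hcon (Q * C Q.leadingCoeff⁻¹) (monic_mul_leadingCoeff_inv hQ)
    have h2 : Q.leadingCoeff⁻¹ ≠ 0 := inv_ne_zero (leadingCoeff_ne_zero.2 hQ)
    rw [map_mul, aeval_C, map_mul, hk _ h2, mul_one] at h1
    exact h1
  have htr : Transcendental k a := by
    rw [transcendental_iff]
    intro Q hQ
    by_contra h0
    have h1 := hone Q h0
    rw [hQ, map_zero] at h1
    exact zero_ne_one h1
  obtain ⟨b, hb⟩ := hnt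
  have hb0 : b ≠ 0 := by
    rintro rfl
    rw [map_zero] at hb
    exact absurd hb (not_lt.2 zero_le_one)
  have hfin := RR20_948.ratAlg_finite a htr
  letI i2 := RR20_948.ratAlg a htr
  haveI : Algebra.IsAlgebraic (RatFunc k) K := Algebra.IsAlgebraic.of_finite _ _
  obtain ⟨m, hm, f, hf0, hmf⟩ := Rk2_894.exists_pow_value (F := RatFunc k) v b hb0
  have h2 : v (algebraMap (RatFunc k) K f) = 1 := by
    have h3 : algebraMap (RatFunc k) K f = aeval a f.num / aeval a f.denom :=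
      RatFunc.liftAlgHom_apply _ _ f
    rw [h3, map_div₀, hone _ (RatFunc.num_ne_zero hf0), hone _ f.denom_ne_zero, div_one]
  rw [map_pow, h2] at hmf
  have h4 := one_lt_pow₀ hb hm.ne'
  rw [hmf] at h4
  exact lt_irrefl _ h4

end ff

section pts

variable {p : ℕ} [hp : Fact p.Prime] {k : Type u} [Field k] [Algebra ℚ_[p] k]
  [FiniteDimensional ℚ_[p] k] {K : Type v} [Field K] [Algebra k K] {φ : K → ℝ≥0∞}

/-- the ring of a point is trivial on the constants -/
theorem ring_const (h : IsPt p k K φ) (c : k) (hc : c ≠ 0) :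
    h.ring.valuation (algebraMap k K c) = 1 := by
  refine le_antisymm ((h.ring.valuation_le_one_iff _).2 (const_ne_top h c)) ?_
  have h1 := (h.ring.valuation_le_one_iff _).2 (const_ne_top h c⁻¹)
  have h2 : h.ring.valuation (algebraMap k K c) ≠ 0 :=
    (Valuation.ne_zero_iff _).2 ((_root_.map_ne_zero _).2 hc)
  rw [map_inv₀, map_inv₀] at h1
  exact (inv_le_one₀ (zero_lt_iff.2 h2)).1 h1

variable [Algebra (RatFunc k) K] [IsScalarTower k (RatFunc k) K] [FiniteDimensional (RatFunc k) K]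

/-- residues at a point with poles are algebraic -/
theorem pt_alg (h : IsPt p k K φ) (htop : ∃ a, φ a = ∞) (a : K) (ha : φ a ≠ ∞) :
    ∃ Q : k[X], Q.Monic ∧ φ (aeval a Q) = 0 := by
  obtain ⟨b, hb⟩ := htop
  obtain ⟨Q, hQ, hQ1⟩ := exists_monic_lt h.ring.valuation (ring_const h) ⟨b, by
    rw [← not_le, h.ring.valuation_le_one_iff, h.mem_ring, not_not]; exact hb⟩ a
    ((h.ring.valuation_le_one_iff _).2 ha)
  exact ⟨Q, hQ, (ring_lt_one_iff h _).1 hQ1⟩

/-- the real valued valuation of a point with poles -/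
theorem real_of_pt [Algebra.IsSeparable (RatFunc k) K] (h : IsPt p k K φ)
    (htop : ∃ a, φ a = ∞) : ∃ w : Valuation K ℝ≥0, (∀ c : k, w (algebraMap k K c) ≤ 1) ∧
      (∀ a, w a ≤ 1 ↔ φ a ≠ ∞) ∧ ∀ a, w a < 1 ↔ φ a = 0 := by
  obtain ⟨b, hb⟩ := htop
  have hb1 : 1 < h.ring.valuation b := by
    rw [← not_le, h.ring.valuation_le_one_iff, h.mem_ring, not_not]; exact hb
  obtain ⟨P, hP⟩ := RR13_948.exists_place (k := k) h.ring.valuation (ring_const h)
    ⟨b, ne_of_gt (lt_trans zero_lt_one hb1), ne_of_gt hb1⟩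
  have hw : (RR13_948.vR P).IsEquiv h.ring.valuation := (RR13_948.isEquiv_vR P).symm.trans hP
  refine ⟨RR13_948.vR P, fun c => ?_, fun a => ?_, fun a => ?_⟩
  · rw [hw.le_one_iff_le_one, h.ring.valuation_le_one_iff]
    exact const_ne_top h c
  · rw [hw.le_one_iff_le_one, h.ring.valuation_le_one_iff, h.mem_ring]
  · rw [hw.lt_one_iff_lt_one, ring_lt_one_iff]

end pts

section patch

/-- **The gluing theorem for `K'/L(X)`** (365's `patch_level`, two universes). -/
theorem patch_level {L : Type u} [NormedField L] [IsUltrametricDist L] [CompleteSpace L] {π : L}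
    (hπ : IsUnif π) {K' : Type v} [Field K'] [Algebra L K'] [Algebra (RatFunc L) K']
    [IsScalarTower L (RatFunc L) K'] [FiniteDimensional (RatFunc L) K']
    [Algebra.IsSeparable (RatFunc L) K'] {y : K'} (hy : algebraMap (RatFunc L) K' RatFunc.X = y)
    (N : ℕ) (hN : ‖(N : L)‖ = 1) (h₀ hP : K') (h0 : h₀ ≠ 0) (hP0 : hP ≠ 0)
    (hf : ∀ v : Valuation K' ℝ≥0, (∀ c : L, v (algebraMap L K' c) = ‖c‖₊) → v y ≤ 1 →
      (∀ (f : L[X]) (i : ℕ), ‖f.coeff i‖₊ ≤ v (aeval y f)) →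
      ∃ w : K', w ≠ 0 ∧ v (h₀ / hP - w ^ N) < v (h₀ / hP)) :
    ∃ h : K', h ≠ 0 ∧ ∀ w : Valuation K' ℝ≥0,
      ((∀ c : L, w (algebraMap L K' c) ≤ ‖c‖₊) → 1 ≤ w y →
        ∃ g : K', g ≠ 0 ∧ w (h / (h₀ * g ^ N) - 1) < 1) ∧
      ((∀ c : L, w (algebraMap L K' c) ≤ ‖c‖₊) → w y < 1 →
        ∃ g : K', g ≠ 0 ∧ w (h / (hP * g ^ N) - 1) < 1) ∧
      ((∀ c : L, w (algebraMap L K' c) ≤ 1) → w y⁻¹ ≤ 1 →
        (∃ Q : L[X], Q.Monic ∧ (∀ i, ‖Q.coeff i‖ ≤ 1) ∧ w (aeval y⁻¹ Q) < 1) →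
        ∃ g : K', g ≠ 0 ∧ w (h / (h₀ * g ^ N) - 1) < 1) ∧
      ((∀ c : L, w (algebraMap L K' c) ≤ 1) → w y ≤ 1 →
        (∃ Q : L[X], Q.Monic ∧ (∀ i < Q.natDegree, ‖Q.coeff i‖ < 1) ∧ w (aeval y Q) < 1) →
        ∃ g : K', g ≠ 0 ∧ w (h / (hP * g ^ N) - 1) < 1) := by
  obtain ⟨E, iE1, iE2, iE3, iE4, yE, hG, hd⟩ := Good2_940.exists_circle L
  have htr : Transcendental L yE := by
    rw [transcendental_iff_injective]
    exact hG.injective
  let iE5 : NontriviallyNormedField E :=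
    { iE1 with
      non_trivial := ⟨(algebraMap L E π)⁻¹, by
        rw [norm_inv, norm_algebraMap']
        exact (one_lt_inv₀ hπ.pos).2 hπ.lt_one⟩ }
  let iE6 : Algebra (RatFunc L) E := RR20_948.ratAlg yE htr
  have iE7 : IsScalarTower L (RatFunc L) E := RR20_948.ratAlg_tower yE htr
  have hyE : algebraMap (RatFunc L) E RatFunc.X = yE := RR20_948.ratHom_X yE htr
  subst hy
  refine Lift903.glue (yF := RatFunc.X) hG hπ hd hyE ?_ N ?_ h₀ hP h0 hP0 ?_
  · intro x
    refine ⟨x.num, x.denom, ?_, ?_⟩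
    · rw [RZ_365.aeval_ratX]
      exact RatFunc.algebraMap_ne_zero x.denom_ne_zero
    · rw [RZ_365.aeval_ratX, RZ_365.aeval_ratX]
      exact (RatFunc.num_div_denom x).symm
  · have h1 : (N : E) = algebraMap L E (N : L) := (map_natCast _ _).symm
    rw [h1, norm_algebraMap', hN]
  · intro v hv
    have hvL : ∀ c : L, v (algebraMap L K' c) = ‖c‖₊ := by
      intro c
      rw [IsScalarTower.algebraMap_apply L (RatFunc L) K', hv,
        ← IsScalarTower.algebraMap_apply L (RatFunc L) E, nnnorm_algebraMap']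
    refine hf v hvL ?_ ?_
    · rw [hv, hyE]
      exact_mod_cast hG.norm_le
    · intro f i
      rw [← RZ_365.algebraMap_poly, hv, RZ_365.algebraMap_poly, hyE]
      exact_mod_cast hG.coeff_le f i

/-- **PATCH-PT.** -/
theorem patch_pt (p : ℕ) [hp : Fact p.Prime] {k : Type u} {K : Type v} [Field k]
    [Algebra ℚ_[p] k] [FiniteDimensional ℚ_[p] k] [Field K] [Algebra k K]
    (vk : Valuation k ℝ≥0) (hvk : ∀ q : ℚ_[p], vk (algebraMap ℚ_[p] k q) = ‖q‖₊) (z : K)
    (hz : Transcendental k z) [FiniteDimensional (IntermediateField.adjoin k {z}) K] (N : ℕ)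
    (hN : ¬ p ∣ N) (h₀ e : K) (h0 : h₀ ≠ 0) (he : e ≠ 0)
    (hf : ∀ v : Valuation K ℝ≥0, LiftA_168.IsG vk v z →
      ∃ w : K, w ≠ 0 ∧ v (h₀ / e - w ^ N) < v (h₀ / e)) :
    ∃ h : K, h ≠ 0 ∧ ∀ φ : K → ℝ≥0∞, IsPt p k K φ →
      (φ z < 1 → ∃ g : K, g ≠ 0 ∧ φ (h / (e * g ^ N) - 1) < 1) ∧
      (1 ≤ φ z → ∃ g : K, g ≠ 0 ∧ φ (h / (h₀ * g ^ N) - 1) < 1) := by
  classical
  letI i1 := RR20_948.ratAlg z hz
  haveI i2 := RR20_948.ratAlg_tower z hz
  haveI i3 := finite_ratAlg z hz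
  haveI : CharZero k := charZero_of_injective_algebraMap (algebraMap ℚ_[p] k).injective
  haveI : CharZero (RatFunc k) :=
    charZero_of_injective_algebraMap (algebraMap k (RatFunc k)).injective
  haveI : Algebra.IsSeparable (RatFunc k) K := inferInstance
  have hy : algebraMap (RatFunc k) K RatFunc.X = z := RR20_948.ratHom_X z hz
  obtain ⟨h, hh, H⟩ : ∃ h : K, h ≠ 0 ∧ ∀ w : Valuation K ℝ≥0,
      ((∀ c : k, w (algebraMap k K c) ≤ vk c) → 1 ≤ w z →
        ∃ g : K, g ≠ 0 ∧ w (h / (h₀ * g ^ N) - 1) < 1) ∧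
      ((∀ c : k, w (algebraMap k K c) ≤ vk c) → w z < 1 →
        ∃ g : K, g ≠ 0 ∧ w (h / (e * g ^ N) - 1) < 1) ∧
      ((∀ c : k, w (algebraMap k K c) ≤ 1) → w z⁻¹ ≤ 1 →
        (∃ Q : k[X], Q.Monic ∧ (∀ i, vk (Q.coeff i) ≤ 1) ∧ w (aeval z⁻¹ Q) < 1) →
        ∃ g : K, g ≠ 0 ∧ w (h / (h₀ * g ^ N) - 1) < 1) ∧
      ((∀ c : k, w (algebraMap k K c) ≤ 1) → w z ≤ 1 →
        (∃ Q : k[X], Q.Monic ∧ (∀ i < Q.natDegree, vk (Q.coeff i) < 1) ∧ w (aeval z Q) < 1) →
        ∃ g : K, g ≠ 0 ∧ w (h / (e * g ^ N) - 1) < 1) := by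
    letI nf := nk vk
    haveI := ultra_nk vk
    haveI := complete_nk hvk
    obtain ⟨π, hπ⟩ := exists_unif_nk hvk
    have hnn : ∀ c : k, ‖c‖₊ = vk c := fun c => NNReal.eq rfl
    have hN1 : ‖(N : k)‖ = 1 := by
      have h1 : ‖(N : k)‖ = vk (N : k) := rfl
      rw [h1, vk_nat hvk hN]; rfl
    obtain ⟨h, hh, H⟩ := patch_level (L := k) hπ hy N hN1 h₀ e h0 he (fun v hv1 hv2 hv3 =>
      hf v ⟨fun c => (hv1 c).trans (hnn c), hv2, fun f i => (hnn (f.coeff i)).ge.trans (hv3 f i)⟩)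
    refine ⟨h, hh, fun w => ⟨fun h1 h2 => (H w).1 (fun c => (h1 c).trans (hnn c).ge) h2,
      fun h1 h2 => (H w).2.1 (fun c => (h1 c).trans (hnn c).ge) h2, fun h1 h2 h3 => ?_,
      fun h1 h2 h3 => ?_⟩⟩
    · refine (H w).2.2.1 h1 h2 ?_
      obtain ⟨Q, hQ1, hQ2, hQ3⟩ := h3
      exact ⟨Q, hQ1, fun i => NNReal.coe_le_coe.2 (hQ2 i), hQ3⟩
    · refine (H w).2.2.2 h1 h2 ?_
      obtain ⟨Q, hQ1, hQ2, hQ3⟩ := h3
      exact ⟨Q, hQ1, fun i hi => NNReal.coe_lt_coe.2 (hQ2 i hi), hQ3⟩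
  refine ⟨h, hh, fun φ hφ => ?_⟩
  by_cases htop : ∃ a, φ a = ∞
  · -- a point with poles
    obtain ⟨w, hw1, hw2, hw3⟩ := real_of_pt hφ htop
    have key : ∀ x : K, w x < 1 → φ x < 1 := fun x hx => by
      rw [(hw3 x).1 hx]; exact one_pos
    constructor
    · intro hz1
      obtain ⟨Q, hQ1, -, hQ3, hQ4⟩ := pt_poly hvk hφ (pt_alg hφ htop) z hz1.le
      obtain ⟨g, hg, hg1⟩ := (H w).2.2.2 hw1 ((hw2 z).2 (ne_top_of_lt hz1))
        ⟨Q, hQ1, hQ4 hz1, (hw3 _).2 hQ3⟩
      exact ⟨g, hg, key _ hg1⟩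
    · intro hz1
      have hz0 : z ≠ 0 := by
        rintro rfl
        rw [hφ.map_zero] at hz1
        exact absurd hz1 (not_le.2 one_pos)
      have hzi : φ z⁻¹ ≤ 1 := by
        rw [hφ.inv z hz0]
        exact ENNReal.inv_le_one.2 hz1
      obtain ⟨Q, hQ1, hQ2, hQ3, -⟩ := pt_poly hvk hφ (pt_alg hφ htop) z⁻¹ hzi
      obtain ⟨g, hg, hg1⟩ := (H w).2.2.1 hw1
        ((hw2 _).2 (ne_top_of_le_ne_top ENNReal.one_ne_top hzi)) ⟨Q, hQ1, hQ2, (hw3 _).2 hQ3⟩
      exact ⟨g, hg, key _ hg1⟩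
  · -- a norm
    push Not at htop
    set w := hφ.toValuation htop with hw
    have hwφ : ∀ x, ((w x : ℝ≥0) : ℝ≥0∞) = φ x := hφ.coe_toValuation htop
    have hwk : ∀ c : k, w (algebraMap k K c) = vk c := by
      intro c
      have h1 := Ax_280.w_eq_spectralNorm (w.comap (algebraMap k K)) (fun q => by
        rw [Valuation.comap_apply, ← ENNReal.coe_inj, hwφ, hφ.ext]) c
      have h2 := Ax_280.w_eq_spectralNorm vk hvk c
      exact NNReal.eq (h1.trans h2.symm)
    constructor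
    · intro hz1
      rw [← hwφ, ENNReal.coe_lt_one_iff] at hz1
      obtain ⟨g, hg, hg1⟩ := (H w).2.1 (fun c => (hwk c).le) hz1
      exact ⟨g, hg, by rw [← hwφ, ENNReal.coe_lt_one_iff]; exact hg1⟩
    · intro hz1
      rw [← hwφ, ENNReal.one_le_coe_iff] at hz1
      obtain ⟨g, hg, hg1⟩ := (H w).1 (fun c => (hwk c).le) hz1
      exact ⟨g, hg, by rw [← hwφ, ENNReal.coe_lt_one_iff]; exact hg1⟩

end patch

section place

/-- **The point defined by a place.** -/
theorem exists_pt_of_place (p : ℕ) [hp : Fact p.Prime] {k : Type u} {K : Type v} [Field k]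
    [Algebra ℚ_[p] k] [FiniteDimensional ℚ_[p] k] [Field K] [Algebra k K] (z : K)
    (hz : Transcendental k z) [FiniteDimensional (IntermediateField.adjoin k {z}) K]
    (u : Valuation K ℝ≥0) (hu : IsPlace k u) :
    ∃ φ : K → ℝ≥0∞, IsPt p k K φ ∧ ∀ a, φ a ≠ ∞ ↔ u a ≤ 1 := by
  classical
  letI i1 := RR20_948.ratAlg z hz
  haveI i2 := RR20_948.ratAlg_tower z hz
  haveI i3 := finite_ratAlg z hz
  obtain ⟨hk, a₀, ha₀, ha₀'⟩ := hu
  have hnt : ∃ a, 1 < u a := by
    rcases lt_or_gt_of_ne ha₀' with h1 | h1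
    · exact ⟨a₀⁻¹, by rw [map_inv₀]; exact (one_lt_inv₀ (zero_lt_iff.2 ha₀)).2 h1⟩
    · exact ⟨a₀, h1⟩
  have hk' : ∀ c : k, u (algebraMap k K c) ≤ 1 := by
    intro c
    by_cases hc : c = 0
    · simp [hc]
    · rw [hk c hc]
  set O := u.valuationSubring with hO
  let κ := IsLocalRing.ResidueField O
  let res : O →+* κ := IsLocalRing.residue O
  let kO : k →+* O := (algebraMap k K).codRestrict O.toSubring hk'
  letI algk : Algebra k κ := (res.comp kO).toAlgebra
  have hres0 : ∀ b : O, res b = 0 ↔ u (b : K) < 1 := by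
    intro b
    change IsLocalRing.residue O b = 0 ↔ _
    rw [IsLocalRing.residue_eq_zero_iff, O.valuation_lt_one_iff,
      ← (Valuation.isEquiv_valuation_valuationSubring u).lt_one_iff_lt_one]
  haveI hint : Algebra.IsAlgebraic k κ := by
    refine ⟨fun x => ?_⟩
    obtain ⟨b, rfl⟩ := IsLocalRing.residue_surjective x
    obtain ⟨Q, hQm, hQ⟩ := exists_monic_lt u hk hnt (b : K) b.2
    refine ⟨Q, hQm.ne_zero, ?_⟩
    change aeval (res b) Q = 0
    have h2 : aeval (res b) Q = res (Q.eval₂ kO b) := by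
      rw [Polynomial.hom_eval₂, aeval_def]; rfl
    rw [h2, hres0]
    have h3 : ((Q.eval₂ kO b : O) : K) = aeval (b : K) Q := by
      rw [aeval_def]
      have h4 := Polynomial.hom_eval₂ Q kO O.subtype b
      change O.subtype (Q.eval₂ kO b) = _
      rw [h4]
      rfl
    rw [h3]
    exact hQ
  obtain ⟨W, hW⟩ := APt_349.exists_W (p := p) (k := k) (L := κ)
  let φ : K → ℝ≥0∞ := fun a => if h : u a ≤ 1 then ((W (res ⟨a, h⟩) : ℝ≥0) : ℝ≥0∞) else ∞
  have hφ1 : ∀ (a : K) (h : u a ≤ 1), φ a = ((W (res ⟨a, h⟩) : ℝ≥0) : ℝ≥0∞) := fun a h => by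
    simp only [φ, dif_pos h]
  have hφ2 : ∀ (a : K), ¬ u a ≤ 1 → φ a = ∞ := fun a h => by
    simp only [φ, dif_neg h]
  have hφtop : ∀ a, φ a ≠ ∞ ↔ u a ≤ 1 := by
    intro a
    constructor
    · intro h
      by_contra hcon
      exact h (hφ2 a hcon)
    · intro h
      rw [hφ1 a h]
      exact ENNReal.coe_ne_top
  have hφzero : ∀ a, φ a = 0 ↔ u a < 1 := by
    intro a
    by_cases h : u a ≤ 1
    · rw [hφ1 a h, ENNReal.coe_eq_zero, Valuation.zero_iff, hres0]
    · rw [hφ2 a h]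
      exact iff_of_false ENNReal.top_ne_zero fun h2 => h h2.le
  refine ⟨φ, ⟨?_, ?_, ?_, ?_⟩, hφtop⟩
  · intro a b
    by_cases ha : u a ≤ 1
    · by_cases hb : u b ≤ 1
      · have hab : u (a + b) ≤ 1 := (u.map_add a b).trans (max_le ha hb)
        rw [hφ1 a ha, hφ1 b hb, hφ1 _ hab, ← ENNReal.coe_max, ENNReal.coe_le_coe]
        have h1 : (⟨a + b, hab⟩ : O) = ⟨a, ha⟩ + ⟨b, hb⟩ := rfl
        rw [h1, _root_.map_add]
        exact W.map_add _ _
      · rw [hφ2 b hb]; simp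
    · rw [hφ2 a ha]; simp
  · intro a b h1 h2
    have hmul : ∀ a b : K, ¬ u a ≤ 1 → φ b ≠ 0 → φ (a * b) = φ a * φ b := by
      intro a b ha hb
      rw [hφ2 a ha, ENNReal.top_mul hb]
      refine hφ2 _ ?_
      rw [Ne, hφzero, not_lt] at hb
      rw [not_le] at ha ⊢
      rw [map_mul]
      exact one_lt_mul_of_lt_of_le' ha hb
    by_cases ha : u a ≤ 1
    · by_cases hb : u b ≤ 1
      · have hab : u (a * b) ≤ 1 := by
          rw [map_mul]; exact mul_le_one' ha hb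
        rw [hφ1 a ha, hφ1 b hb, hφ1 _ hab, ← ENNReal.coe_mul]
        have h1 : (⟨a * b, hab⟩ : O) = ⟨a, ha⟩ * ⟨b, hb⟩ := rfl
        rw [h1, _root_.map_mul, _root_.map_mul]
      · rw [mul_comm a b, mul_comm (φ a)]
        refine hmul b a hb ?_
        rcases h1 with h1 | h1
        · exact h1
        · exact absurd (hφ2 b hb) h1
    · refine hmul a b ha ?_
      rcases h2 with h2 | h2
      · exact h2
      · exact absurd (hφ2 a ha) h2
  · intro a ha
    have hua : u a ≠ 0 := (Valuation.ne_zero_iff _).2 ha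
    rcases lt_trichotomy (u a) 1 with h | h | h
    · rw [(hφzero a).2 h, ENNReal.inv_zero]
      refine hφ2 _ ?_
      rw [map_inv₀, not_le]
      exact (one_lt_inv₀ (zero_lt_iff.2 hua)).2 h
    · have h1 : u a⁻¹ ≤ 1 := by rw [map_inv₀, h, inv_one]
      rw [hφ1 a h.le, hφ1 _ h1]
      have h2 : (⟨a⁻¹, h1⟩ : O) * ⟨a, h.le⟩ = 1 := Subtype.ext (inv_mul_cancel₀ ha)
      have h3 : res ⟨a⁻¹, h1⟩ = (res ⟨a, h.le⟩)⁻¹ := by
        apply eq_inv_of_mul_eq_one_left
        rw [← _root_.map_mul, h2, _root_.map_one]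
      have h4 : W (res ⟨a, h.le⟩) ≠ 0 := by
        rw [Valuation.ne_zero_iff]
        intro h5
        have h6 := (hres0 ⟨a, h.le⟩).1 h5
        change u a < 1 at h6
        rw [h] at h6
        exact lt_irrefl _ h6
      rw [h3, map_inv₀, ENNReal.coe_inv h4]
    · rw [hφ2 a (not_le.2 h), ENNReal.inv_top, hφzero, map_inv₀]
      exact inv_lt_one_of_one_lt₀ h
  · intro c
    rw [hφ1 _ (hk' _)]
    have h1 : res ⟨algebraMap k K (algebraMap ℚ_[p] k c), hk' _⟩ = APt_349.iQ p k κ c := rfl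
    rw [h1, hW]

end place

end Crest.Agent.R013.PPt_894

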