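import Crest.Agent.R013.InhK2_275
import Crest.Agent.R013.DEm1_719
import Crest.Agent.R013.Pow4_931

/-!
# Row 13, part C, step (C2): path lifting

`SY : SSK k C Y`, `s : C ≃ₐ[k] C`, `σ : Y →+* Y` (semilinear over `s`).
`Eqv SY s σ D`: the embedding at the direction `D` is equivariant.
* an annulus carries equivariance from one end to the other (`eqv_flip`, `eqv_flip'`);
* a vertex carries it from one direction to all directions where it holds on a dense subfield
  (`eqv_vertex`);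
* connected graph: `path_lifting`.
* places: `ptD_fixed`, `ptA_fixed`.
-/

set_option autoImplicit false
set_option linter.all false

noncomputable section

namespace Crest.Agent.R013.PathL_275

open WithZero
open scoped NNReal
open Crest.Agent.R013.Cell_408 Crest.Agent.R013.EE809 Crest.Agent.R013.Pow1_931
open Crest.Agent.R013.RR7_948 Crest.Agent.R013.Red332 Crest.Agent.R013.SSK_332
open Crest.Agent.R013.Pow3_931 Crest.Agent.R013.Inh_770 Crest.Agent.R013.DEm_719
open Crest.Agent.R013.InhK_275 Crest.Agent.R013.Pow2_931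

variable {k : Type*} [NontriviallyNormedField k] [CompleteSpace k] [IsUltrametricDist k]
variable {C : Type*} [NormedField C] [IsUltrametricDist C] [NormedAlgebra k C]
variable [Algebra.IsAlgebraic k C] [IsAlgClosed C] [hk : Fact (DiscNorm k)]

section series

/-! ### the coefficientwise action -/

lemma inD_act (s : C ≃ₐ[k] C) {a : EE k C} (ha : InD a) : InD (actEE s a) := fun n hn => by
  rw [co_actEE, ha n hn, map_zero]

lemma inA_act (s : C ≃ₐ[k] C) {c : C} {a : EE k C} (ha : InA c a) : InA c (actEE s a) := by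
  obtain ⟨M, hM⟩ := ha
  exact ⟨M, fun n => by rw [co_actEE, norm_mapE]; exact hM n⟩

lemma flip_act (s : C ≃ₐ[k] C) {c : C} (hc : s c = c) {a b : EE k C} (h : Flip c a b) :
    Flip c (actEE s a) (actEE s b) := fun n => by
  rw [co_actEE, co_actEE, h n, map_mul, map_zpow₀, hc]

lemma act_ne_zero (s : C ≃ₐ[k] C) {a : EE k C} (h : a ≠ 0) : actEE s a ≠ 0 :=
  (map_ne_zero_iff _ (actEE s).injective).2 h

lemma RA.act (s : C ≃ₐ[k] C) {c : C} (hc : s c = c) {a b : EE k C} (h : RA c a b) :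
    RA c (actEE s a) (actEE s b) := by
  obtain ⟨g, h, g', h', h0, h1, h2, h3, h4, h5, h6⟩ := h
  refine ⟨actEE s g, actEE s h, actEE s g', actEE s h', act_ne_zero s h0, inA_act s h1,
    inA_act s h2, flip_act s hc h3, flip_act s hc h4, ?_, ?_⟩
  · rw [← map_mul, h5]
  · rw [← map_mul, h6]

lemma RA.one {c : C} : RA c (1 : EE k C) 1 :=
  ⟨1, 1, 1, 1, one_ne_zero, InA.one, InA.one, Flip.one, Flip.one, mul_one _, mul_one _⟩

lemma RA.neg {c : C} {a b : EE k C} (h : RA c a b) : RA c (-a) (-b) := by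
  obtain ⟨g, h, g', h', h0, h1, h2, h3, h4, h5, h6⟩ := h
  refine ⟨-g, h, -g', h', h0, ?_, h2, ?_, h4, ?_, ?_⟩
  · obtain ⟨M, hM⟩ := h1
    exact ⟨M, fun n => by rw [co_neg, norm_neg]; exact hM n⟩
  · intro n
    rw [co_neg, co_neg, h3 n, neg_mul]
  · rw [neg_mul, h5]
  · rw [neg_mul, h6]

lemma RA.symm {c : C} (hc : c ≠ 0) {a b : EE k C} (h : RA c a b) : RA c b a := by
  obtain ⟨g, h, g', h', h0, h1, h2, h3, h4, h5, h6⟩ := h
  refine ⟨g', h', g, h, ?_, InA.flip hc h3, InA.flip hc h4, Flip.symm hc h3, Flip.symm hc h4,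
    h6, h5⟩
  intro h7
  apply h0
  rw [h7] at h4
  exact flip_zero' (Flip.symm hc h4)

lemma RA.eq {c : C} (hc : c ≠ 0) {a b b' : EE k C} (h : RA c a b) (h' : RA c a b') : b = b' := by
  have h1 := RA.add hc h (RA.neg h')
  rw [add_neg_cancel] at h1
  have h2 := RA.zero hc h1
  rw [← sub_eq_add_neg, sub_eq_zero] at h2
  exact h2

end series

section path

variable {Y : Type*} [Field Y] [Algebra C Y] (SY : SSK k C Y) (s : C ≃ₐ[k] C) (σ : Y →+* Y)

/-- the embedding at `D` is equivariant -/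
def Eqv (D : SY.Dir) : Prop := ∀ f : Y, SY.em D (σ f) = actEE s (SY.em D f)

variable {SY s σ}

/-- an annulus carries equivariance from the end `e0 e` to the end `e1 e` -/
theorem eqv_flip {e : SY.Ed} (hc : s (SY.cc e) = SY.cc e) (h : Eqv SY s σ (SY.e0 e)) :
    Eqv SY s σ (SY.e1 e) := by
  intro f
  have h1 : RA (SY.cc e) (SY.em (SY.e0 e) f) (SY.em (SY.e1 e) f) := SY.ann e f
  have h2 : RA (SY.cc e) (SY.em (SY.e0 e) (σ f)) (SY.em (SY.e1 e) (σ f)) := SY.ann e (σ f)
  have h3 := RA.act s hc h1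
  rw [← h f] at h3
  exact RA.eq (SY.cc_ne e) h2 h3

/-- an annulus carries equivariance from the end `e1 e` to the end `e0 e` -/
theorem eqv_flip' {e : SY.Ed} (hc : s (SY.cc e) = SY.cc e) (h : Eqv SY s σ (SY.e1 e)) :
    Eqv SY s σ (SY.e0 e) := by
  intro f
  have h1 : RA (SY.cc e) (SY.em (SY.e0 e) f) (SY.em (SY.e1 e) f) := SY.ann e f
  have h2 : RA (SY.cc e) (SY.em (SY.e0 e) (σ f)) (SY.em (SY.e1 e) (σ f)) := SY.ann e (σ f)
  have h3 := RA.act s hc h1
  rw [← h f] at h3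
  exact RA.eq (SY.cc_ne e) (RA.symm (SY.cc_ne e) h2) (RA.symm (SY.cc_ne e) h3)

theorem gnV_em (D : SY.Dir) (f : Y) : gnV (SY.em D f) = (SY.nm D.1).v f :=
  NNReal.eq (by rw [coe_gnV]; exact SY.em_gn D f)

/-- equivariance at `D` fixes the norm of the vertex -/
theorem Eqv.nm {D : SY.Dir} (h : Eqv SY s σ D) (f : Y) :
    (SY.nm D.1).v (σ f) = (SY.nm D.1).v f := by
  rw [← gnV_em, ← gnV_em, h f]
  exact NNReal.eq (by rw [coe_gnV, coe_gnV, gn_actEE])

/-- equivariance at `D` fixes the order at `D` -/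
theorem Eqv.od {D : SY.Dir} (h : Eqv SY s σ D) {f : Y} (hf : f ≠ 0) :
    Red332.od (SY.nm D.1) D.2 (σ f) = Red332.od (SY.nm D.1) D.2 f := by
  rw [← SY.em_od D _ (by rwa [Ne, map_eq_zero]), ← SY.em_od D f hf, h f, od_actEE]

/-- a fixed vertex: equivariance at a direction follows from equivariance on a dense subset -/
theorem eqv_vertex {K : Type*} [Field K] [Algebra K Y] {D : SY.Dir}
    (hw : ∀ f, (SY.nm D.1).v (σ f) = (SY.nm D.1).v f)
    (hd : ∀ (f : Y) (ε : ℝ≥0), 0 < ε → ∃ g : K, (SY.nm D.1).v (f - algebraMap K Y g) < ε)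
    (hK : ∀ g : K, SY.em D (σ (algebraMap K Y g)) = actEE s (SY.em D (algebraMap K Y g))) :
    Eqv SY s σ D := by
  intro f
  rw [← sub_eq_zero, ← gn_eq_zero]
  refine le_antisymm ?_ (gn_nonneg _)
  by_contra hcon
  push Not at hcon
  set ε : ℝ := gn (SY.em D (σ f) - actEE s (SY.em D f)) with hε
  obtain ⟨g, hg⟩ := hd f ⟨ε, hcon.le⟩ (by exact_mod_cast hcon)
  have hg' : gn (SY.em D (f - algebraMap K Y g)) < ε := by
    rw [SY.em_gn D]
    exact_mod_cast hg
  have hg'' : gn (SY.em D (σ (f - algebraMap K Y g))) < ε := by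
    rw [SY.em_gn D, hw]
    exact_mod_cast hg
  have h1 : SY.em D (σ f) - actEE s (SY.em D f) =
      SY.em D (σ (f - algebraMap K Y g)) - actEE s (SY.em D (f - algebraMap K Y g)) := by
    rw [map_sub, map_sub, map_sub, map_sub, hK g]
    ring
  have h2 : ε < ε := by
    calc ε = gn (SY.em D (σ (f - algebraMap K Y g)) -
          actEE s (SY.em D (f - algebraMap K Y g))) := by rw [hε, h1]
      _ ≤ max _ _ := gn_sub_le _ _
      _ < ε := max_lt hg'' (by rw [gn_actEE]; exact hg')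
  exact lt_irrefl _ h2

/-- **Path lifting.** -/
theorem path_lifting {K : Type*} [Field K] [Algebra K Y] (hconn : SY.Conn)
    (hc : ∀ e, s (SY.cc e) = SY.cc e)
    (hd : ∀ (w : SY.V) (f : Y) (ε : ℝ≥0), 0 < ε →
      ∃ g : K, (SY.nm w).v (f - algebraMap K Y g) < ε)
    (hK0 : ∀ e (g : K), SY.em (SY.e0 e) (σ (algebraMap K Y g)) =
      actEE s (SY.em (SY.e0 e) (algebraMap K Y g)))
    (hK1 : ∀ e (g : K), SY.em (SY.e1 e) (σ (algebraMap K Y g)) =
      actEE s (SY.em (SY.e1 e) (algebraMap K Y g)))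
    (w0 : SY.V) (hw0 : ∀ f, (SY.nm w0).v (σ f) = (SY.nm w0).v f) :
    (∀ w f, (SY.nm w).v (σ f) = (SY.nm w).v f) ∧
      (∀ e, Eqv SY s σ (SY.e0 e)) ∧ (∀ e, Eqv SY s σ (SY.e1 e)) := by
  have hat0 : ∀ e, (∀ f, (SY.nm (SY.e0 e).1).v (σ f) = (SY.nm (SY.e0 e).1).v f) →
      Eqv SY s σ (SY.e0 e) := fun e hw => eqv_vertex hw (hd _) (hK0 e)
  have hat1 : ∀ e, (∀ f, (SY.nm (SY.e1 e).1).v (σ f) = (SY.nm (SY.e1 e).1).v f) →
      Eqv SY s σ (SY.e1 e) := fun e hw => eqv_vertex hw (hd _) (hK1 e)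
  have hV : ∀ w f, (SY.nm w).v (σ f) = (SY.nm w).v f := by
    intro w
    have hpath := hconn.2 w0 w
    induction hpath with
    | refl => exact hw0
    | tail _ hadj ih =>
      obtain ⟨e, (⟨h1, h2⟩ | ⟨h1, h2⟩)⟩ := hadj
      · have h3 := eqv_flip (hc e) (hat0 e (by rw [h1]; exact ih))
        have h4 := h3.nm
        rwa [h2] at h4
      · have h3 := eqv_flip' (hc e) (hat1 e (by rw [h1]; exact ih))
        have h4 := h3.nm
        rwa [h2] at h4
  exact ⟨hV, fun e => hat0 e (hV _), fun e => hat1 e (hV _)⟩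

end path

section points

lemma evE_act (s : C ≃ₐ[k] C) (t : C) (a : EE k C) (ha : Summable fun n : ℤ => a.co n * t ^ n) :
    evE (s t) (actEE s a) = s (evE t a) := by
  have h2 := ha.hasSum.map (s : C →+ C) (continuous_mapE s)
  have h3 := h2.tsum_eq
  unfold evE
  rw [show s (∑' n : ℤ, a.co n * t ^ n) = (s : C →+ C) (∑' n : ℤ, a.co n * t ^ n) from rfl, ← h3]
  refine tsum_congr fun n => ?_
  change (actEE s a).co n * s t ^ n = s (a.co n * t ^ n)
  rw [co_actEE, map_mul, map_zpow₀]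

lemma summable_inD {t : C} (ht : ‖t‖ < 1) {a : EE k C} (ha : InD a) :
    Summable fun n : ℤ => a.co n * t ^ n := by
  by_cases h0 : t = 0
  · subst h0
    refine summable_of_ne_finset_zero (s := {0}) ?_
    intro n hn
    rw [Finset.mem_singleton] at hn
    rw [zero_zpow n hn, mul_zero]
  · obtain ⟨x, hx0, hx1⟩ := NormedField.exists_norm_lt k (norm_pos_iff.2 h0)
    have hx : ‖algebraMap k C x‖ = ‖x‖ := norm_algebraMap' C x
    have hc : algebraMap k C x ≠ 0 := by
      rw [← norm_pos_iff, hx]; exact hx0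
    exact summable_evA hc (InA.of_pos (by rw [hx]; exact hx1.trans ht) ha) (by rw [hx]; exact hx1) ht

lemma act_lin (s : C ≃ₐ[k] C) (τ : C) : actEE s (lin τ : EE k C) = lin (s τ) := by
  rw [lin, lin, map_sub]
  congr 1
  · ext n
    rw [co_actEE, co_mono]
    split_ifs
    · exact map_one s
    · exact map_zero s
  · ext n
    rw [co_actEE, co_mono, co_mono]
    split_ifs
    · rfl
    · exact map_zero s

variable {Y : Type*} [Field Y] [Algebra C Y] {SY : SSK k C Y} {s : C ≃ₐ[k] C} {σ : Y →+* Y}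

/-- the points of an equivariant disc -/
theorem ptD_map {D : SY.Dir} (h : Eqv SY s σ D) (h0 h1) {τ : C} (hτ : ‖τ‖ < 1)
    (hτ' : ‖s τ‖ < 1) (f : Y) :
    (SY.ptD D h0 h1 (s τ) hτ').v (σ f) = (SY.ptD D h0 h1 τ hτ).v f := by
  by_cases hf : f = 0
  · rw [hf, map_zero, map_zero, map_zero]
  have hσf : σ f ≠ 0 := by rwa [Ne, map_eq_zero]
  obtain ⟨a, b, g, H, hg, hH, eg, eH, he, hv⟩ := SY.ptD_ord D h0 h1 τ hτ f hf
  obtain ⟨a', b', g', H', hg', hH', eg', eH', he', hv'⟩ := SY.ptD_ord D h0 h1 (s τ) hτ' (σ f) hσf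
  have hsum : ∀ {x : EE k C}, InD x → Summable fun n : ℤ => x.co n * τ ^ n :=
    fun hx => summable_inD hτ hx
  have e1 : evE (s τ) (actEE s g) ≠ 0 := by
    rw [evE_act s τ g (hsum hg), Ne, map_eq_zero]
    exact eg
  have e2 : evE (s τ) (actEE s H) ≠ 0 := by
    rw [evE_act s τ H (hsum hH), Ne, map_eq_zero]
    exact eH
  have h2 : SY.em D (σ f) * (lin (s τ) ^ b * actEE s H) = lin (s τ) ^ a * actEE s g := by
    rw [h f, ← act_lin, ← map_pow, ← map_mul, ← map_mul, he, map_mul, map_pow]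
  have h3 : lin (s τ) ^ (a + b') * (actEE s g * H') = lin (s τ) ^ (a' + b) * (g' * actEE s H) := by
    have h4 : lin (s τ) ^ a * actEE s g * (lin (s τ) ^ b' * H') =
        lin (s τ) ^ a' * g' * (lin (s τ) ^ b * actEE s H) := by
      rw [← h2, ← he']; ring
    rw [pow_add, pow_add]
    linear_combination h4
  have h5 := order_unique hk.out hτ' (Pos.mul (inD_act s hg) hH') (Pos.mul hg' (inD_act s hH))
    (by rw [evE_mul (inD_act s hg) hH' hτ']; exact mul_ne_zero e1 eH')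
    (by rw [evE_mul hg' (inD_act s hH) hτ']; exact mul_ne_zero eg' e2) h3
  rw [hv, hv']
  congr 1
  have : ((a + b' : ℕ) : ℤ) = ((a' + b : ℕ) : ℤ) := by rw [h5]
  push_cast at this
  linarith

/-- the points of an equivariant annulus -/
theorem ptA_map {e : SY.Ed} (h : Eqv SY s σ (SY.e0 e)) {τ : C} (h0 : ‖SY.cc e‖ < ‖τ‖)
    (h1 : ‖τ‖ < 1) (h0' : ‖SY.cc e‖ < ‖s τ‖) (h1' : ‖s τ‖ < 1) (f : Y) :
    (SY.ptA e (s τ) h0' h1').v (σ f) = (SY.ptA e τ h0 h1).v f := by
  by_cases hf : f = 0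
  · rw [hf, map_zero, map_zero, map_zero]
  have hc := SY.cc_ne e
  have hσf : σ f ≠ 0 := by rwa [Ne, map_eq_zero]
  obtain ⟨a, b, g, H, hg, hH, eg, eH, he, hv⟩ := SY.ptA_ord e τ h0 h1 f hf
  obtain ⟨a', b', g', H', hg', hH', eg', eH', he', hv'⟩ := SY.ptA_ord e (s τ) h0' h1' (σ f) hσf
  have e1 : evE (s τ) (actEE s g) ≠ 0 := by
    rw [evE_act s τ g (summable_evA hc hg h0 h1), Ne, map_eq_zero]
    exact eg
  have e2 : evE (s τ) (actEE s H) ≠ 0 := by
    rw [evE_act s τ H (summable_evA hc hH h0 h1), Ne, map_eq_zero]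
    exact eH
  have h2 : SY.em (SY.e0 e) (σ f) * (lin (s τ) ^ b * actEE s H) =
      lin (s τ) ^ a * actEE s g := by
    rw [h f, ← act_lin, ← map_pow, ← map_mul, ← map_mul, he, map_mul, map_pow]
  have h3 : lin (s τ) ^ (a + b') * (actEE s g * H') = lin (s τ) ^ (a' + b) * (g' * actEE s H) := by
    have h4 : lin (s τ) ^ a * actEE s g * (lin (s τ) ^ b' * H') =
        lin (s τ) ^ a' * g' * (lin (s τ) ^ b * actEE s H) := by
      rw [← h2, ← he']; ring
    rw [pow_add, pow_add]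
    linear_combination h4
  have h5 := Pow4_931.order_uniqueA hk.out hc (SY.cc_lt e) h0' h1'
    (InA.mul hc (inA_act s hg) hH') (InA.mul hc hg' (inA_act s hH))
    (by rw [evE_mulA hc (inA_act s hg) hH' h0' h1']; exact mul_ne_zero e1 eH')
    (by rw [evE_mulA hc hg' (inA_act s hH) h0' h1']; exact mul_ne_zero eg' e2) h3
  rw [hv, hv']
  congr 1
  have : ((a + b' : ℕ) : ℤ) = ((a' + b : ℕ) : ℤ) := by rw [h5]
  push_cast at this
  linarith

/-- a rational point of an equivariant disc is fixed -/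
theorem ptD_fixed {D : SY.Dir} (h : Eqv SY s σ D) (h0 h1) {τ : C} (hτ : ‖τ‖ < 1)
    (hs : s τ = τ) (f : Y) : (SY.ptD D h0 h1 τ hτ).v (σ f) = (SY.ptD D h0 h1 τ hτ).v f := by
  have h2 := ptD_map h h0 h1 hτ (by rw [hs]; exact hτ) f
  simp only [hs] at h2
  exact h2

/-- a rational point of an equivariant annulus is fixed -/
theorem ptA_fixed {e : SY.Ed} (h : Eqv SY s σ (SY.e0 e)) {τ : C} (h0 : ‖SY.cc e‖ < ‖τ‖)
    (h1 : ‖τ‖ < 1) (hs : s τ = τ) (f : Y) :
    (SY.ptA e τ h0 h1).v (σ f) = (SY.ptA e τ h0 h1).v f := by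
  have h2 := ptA_map h h0 h1 (by rw [hs]; exact h0) (by rw [hs]; exact h1) f
  simp only [hs] at h2
  exact h2

end points

end Crest.Agent.R013.PathL_275
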