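import Mathlib
import Crest.Agent.R013.Pow4_931

/-!
# R013 / TOPSPLIT-P, file 5 (helper931): `n`-th powers in the cells of a semistable structure

`S : SSK k C K`, `h : K` with all orders (at the places of `K / C`) divisible by `n`.
* `disc_pow`: every `n`-th root of `em d h` in `EE` (`d` a disc direction) is a quotient of series
  on the disc;
* `ann_pow`: if `em (e0 e) h` and `em (e1 e) h` are `n`-th powers `w ^ n`, `w' ^ n`, then `w` and
  `w'` are (up to a root of unity) the two expansions of one quotient of bounded series on the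
  annulus `e`.
-/

set_option autoImplicit false
set_option linter.all false

namespace Crest.Agent.R013.Pow5_931

open WithZero
open Crest.Agent.R013.RR7_948 Crest.Agent.R013.Red332
open Crest.Agent.R013.Cell_408 Crest.Agent.R013.EE809 Crest.Agent.R013.Pow1_931
open Crest.Agent.R013.SSK_332 Crest.Agent.R013.Pow2_931 Crest.Agent.R013.Pow3_931

variable {k : Type*} [NontriviallyNormedField k] [CompleteSpace k] [IsUltrametricDist k]
variable {C : Type*} [NormedField C] [IsUltrametricDist C] [NormedAlgebra k C]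
variable [Algebra.IsAlgebraic k C] [IsAlgClosed C]
variable {K : Type*} [Field K] [Algebra C K]

theorem exp_int_inj {a b : ℤ} (h : (exp a : WithZero (Multiplicative ℤ)) = exp b) : a = b := by
  simpa using h

theorem disc_pow (S : SSK k C K) (hk : DiscNorm k) {n : ℕ} (hn : 0 < n) {h : K} (h0 : h ≠ 0)
    (hdiv : ∀ P : Pl C K, ∃ j : ℤ, P.v h = exp ((n : ℤ) * j))
    (d : S.Dir) (hd : S.IsDisc d) {w : EE k C} (hw : w ^ n = S.em d h) :
    ∃ g H : EE k C, H ≠ 0 ∧ InD g ∧ InD H ∧ w * H = g := by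
  obtain ⟨G, H, hH0, hG, hH, he⟩ := S.disc d hd.1 hd.2 h
  refine ⟨w * H, H, hH0, ?_, hH, rfl⟩
  refine Pow2_931.disc_pow hk hn hG hH hH0 ((map_ne_zero_iff _ (S.em d).injective).2 h0) he ?_ hw
  intro τ hτ
  obtain ⟨a, b, g, h', h1, h2, h3, h4, h5, h6⟩ := S.ptD_ord d hd.1 hd.2 τ hτ h h0
  obtain ⟨j, hj⟩ := hdiv (S.ptD d hd.1 hd.2 τ hτ)
  refine ⟨a, b, g, h', h1, h2, h3, h4, h5, ?_⟩
  rw [h6] at hj
  exact ⟨j, exp_int_inj hj⟩

theorem ann_pow (S : SSK k C K) (hk : DiscNorm k) {n : ℕ} (hn : 0 < n) {h : K} (h0 : h ≠ 0)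
    (hdiv : ∀ P : Pl C K, ∃ j : ℤ, P.v h = exp ((n : ℤ) * j))
    (e : S.Ed) {w w' : EE k C} (hw : w ^ n = S.em (S.e0 e) h) (hw' : w' ^ n = S.em (S.e1 e) h) :
    ∃ g H g' H' : EE k C, H ≠ 0 ∧ InA (S.cc e) g ∧ InA (S.cc e) H ∧ Flip (S.cc e) g g' ∧
      Flip (S.cc e) H H' ∧ w * H = g ∧
      ∃ ζ : C, ζ ^ n = 1 ∧ algebraMap C (EE k C) ζ * w' * H' = g' := by
  obtain ⟨G, H, G', H', hH0, hG, hH, hGG, hHH, he, he'⟩ := S.ann e h
  obtain ⟨hin, ζ, hζ, hfl⟩ := Pow4_931.ann_pow hk (S.cc_ne e) (S.cc_lt e) hn hG hH hH0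
    ((map_ne_zero_iff _ (S.em (S.e0 e)).injective).2 h0) he (by
      intro τ hτ0 hτ1
      obtain ⟨a, b, g, h', h1, h2, h3, h4, h5, h6⟩ := S.ptA_ord e τ hτ0 hτ1 h h0
      obtain ⟨j, hj⟩ := hdiv (S.ptA e τ hτ0 hτ1)
      refine ⟨a, b, g, h', h1, h2, h3, h4, h5, ?_⟩
      rw [h6] at hj
      exact ⟨j, exp_int_inj hj⟩) hw hGG hHH he' hw'
  exact ⟨w * H, H, _, H', hH0, hin, hH, hfl, hHH, rfl, ζ, hζ, by rw [mul_assoc]⟩

end Crest.Agent.R013.Pow5_931
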