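import Mathlib

set_option autoImplicit false

open Polynomial

namespace Crest.Agent.R013.Puis_702

open IsLocalRing in
/-- Factorisation over a complete local ring: a monic polynomial whose reduction vanishes at `0` but
is not a power of `X` is a product of two monic polynomials of smaller degree. -/
theorem fac0 {A : Type*} [CommRing A] [IsLocalRing A] [IsAdicComplete (maximalIdeal A) A]
    (f : A[X]) (hf : f.Monic) (h0 : f.coeff 0 ∈ maximalIdeal A)
    (h1 : ∃ i < f.natDegree, f.coeff i ∉ maximalIdeal A) :
    ∃ g h : A[X], g.Monic ∧ h.Monic ∧ f = g * h ∧ g.natDegree < f.natDegree ∧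
      h.natDegree < f.natDegree := by
  have hne : (f : PowerSeries A).map (residue A) ≠ 0 := by
    intro h
    have h2 := congrArg (PowerSeries.coeff f.natDegree) h
    rw [PowerSeries.coeff_map, Polynomial.coeff_coe, map_zero, coeff_natDegree, hf.leadingCoeff,
      map_one] at h2
    exact one_ne_zero h2
  obtain ⟨g, u, H⟩ := PowerSeries.exists_isWeierstrassFactorization hne
  have hgm := H.isDistinguishedAt.monic
  have hdeg := H.natDegree_eq_toNat_order_map
  obtain ⟨i, hi, hi2⟩ := h1
  have hN1 : ((f : PowerSeries A).map (residue A)).order ≤ i := by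
    refine PowerSeries.order_le i ?_
    rw [PowerSeries.coeff_map, Polynomial.coeff_coe]
    intro h
    exact hi2 ((residue_eq_zero_iff _).1 h)
  have hN2 : ((f : PowerSeries A).map (residue A)).order.toNat ≤ i := by
    have := ENat.toNat_le_toNat hN1 (ENat.natCast_ne_top i)
    simpa using this
  have hN3 : ((f : PowerSeries A).map (residue A)).order.toNat ≠ 0 := by
    intro h
    have h2 := PowerSeries.coeff_order hne
    rw [h, PowerSeries.coeff_map, Polynomial.coeff_coe] at h2
    exact h2 ((residue_eq_zero_iff _).2 h0)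
  have hord : (((g : PowerSeries A)).map (Ideal.Quotient.mk (maximalIdeal A))).order.toNat =
      g.natDegree := by
    have := congr(ENat.toNat $(H.isDistinguishedAt.coe_natDegree_eq_order_map (g : PowerSeries A) 1
      (by rw [PowerSeries.constantCoeff_one, ← Ideal.ne_top_iff_one]
          exact Ideal.IsMaximal.ne_top inferInstance) (by simp)))
    simpa using this.symm
  have hW := H.isDistinguishedAt.isWeierstrassDivisorAt'
  have hq := hW.eq_of_mul_add_eq_mul_add (q := u) (q' := ((f /ₘ g : A[X]) : PowerSeries A))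
    (r := 0) (r' := f %ₘ g) (by
      rw [degree_zero]; exact WithBot.bot_lt_coe _) (by
      rw [hord]
      have := degree_modByMonic_lt f hgm
      rwa [degree_eq_natDegree hgm.ne_zero] at this) (by
      rw [← H.eq_mul, Polynomial.coe_zero, add_zero, ← Polynomial.coe_mul, ← Polynomial.coe_add,
        add_comm, modByMonic_add_div])
  have hf2 : f = g * (f /ₘ g) := by
    conv_lhs => rw [← modByMonic_add_div f g, ← hq.2, zero_add]
  have hhm : (f /ₘ g).Monic := by
    have := hf
    rw [hf2] at this
    exact hgm.of_mul_monic_left this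
  have hnat : f.natDegree = g.natDegree + (f /ₘ g).natDegree := by
    conv_lhs => rw [hf2, hgm.natDegree_mul hhm]
  refine ⟨g, f /ₘ g, hgm, hhm, hf2, by omega, by omega⟩

section Two

variable {C' : Type*} [Field C']

local notation "PS" => PowerSeries C'

theorem mem_max (a : PowerSeries C') :
    a ∈ IsLocalRing.maximalIdeal (PowerSeries C') ↔ PowerSeries.constantCoeff a = 0 := by
  rw [PowerSeries.maximalIdeal_eq_span_X, Ideal.mem_span_singleton, PowerSeries.X_dvd_iff]

instance adicC : IsAdicComplete (IsLocalRing.maximalIdeal (PowerSeries C')) (PowerSeries C') := by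
  rw [PowerSeries.maximalIdeal_eq_span_X]
  infer_instance

theorem monic_taylor {R : Type*} [CommRing R] {f : R[X]} (hf : f.Monic) (r : R) :
    (taylor r f).Monic := by
  rw [taylor_apply]; exact hf.comp_X_add_C r

theorem fac1 [IsAlgClosed C'] [CharZero C'] (f : (PowerSeries C')[X]) (hf : f.Monic)
    (hn : 2 ≤ f.natDegree) (h0 : f.coeff (f.natDegree - 1) = 0)
    (h1 : ∃ i < f.natDegree, PowerSeries.constantCoeff (f.coeff i) ≠ 0) :
    ∃ g h : (PowerSeries C')[X], g.Monic ∧ h.Monic ∧ f = g * h ∧ g.natDegree < f.natDegree ∧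
      h.natDegree < f.natDegree := by
  set fb : C'[X] := f.map PowerSeries.constantCoeff with hfb
  have hfbm : fb.Monic := hf.map _
  have hfbd : fb.natDegree = f.natDegree := hf.natDegree_map _
  obtain ⟨a, ha⟩ := IsAlgClosed.exists_root fb (by
    intro h
    have h3 : fb.natDegree = 0 := natDegree_eq_of_degree_eq_some (by rw [h]; rfl)
    omega)
  obtain ⟨i, hi, hi2⟩ := h1
  set f1 := taylor (PowerSeries.C a) f with hf1
  have hmap : f1.map PowerSeries.constantCoeff = taylor a fb := by
    rw [hf1, taylor_apply, taylor_apply, map_comp]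
    simp [hfb]
  have hf1d : f1.natDegree = f.natDegree := natDegree_taylor _ _
  have key : ∃ j < f1.natDegree, f1.coeff j ∉ IsLocalRing.maximalIdeal (PowerSeries C') := by
    by_contra hcon
    push Not at hcon
    have h2 : taylor a fb = X ^ f.natDegree := by
      ext j
      rw [← hmap, coeff_map, coeff_X_pow]
      split_ifs with hj
      · rw [hj, ← hf1d, coeff_natDegree, (monic_taylor hf _).leadingCoeff, map_one]
      · rcases lt_or_gt_of_ne hj with h3 | h3
        · exact (mem_max _).1 (hcon j (by rw [hf1d]; exact h3))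
        · rw [coeff_eq_zero_of_natDegree_lt (by rw [hf1d]; exact h3), map_zero]
    have h3 : fb = (X - C a) ^ f.natDegree := by
      have h4 := congrArg (taylor (-a)) h2
      rw [taylor_taylor, taylor_X_pow] at h4
      simpa [sub_eq_add_neg] using h4
    have h4 : fb.coeff (f.natDegree - 1) = 0 := by
      rw [hfb, coeff_map, h0, map_zero]
    rw [h3, sub_eq_add_neg, ← C_neg, coeff_X_add_C_pow] at h4
    have h5 : f.natDegree - (f.natDegree - 1) = 1 := by omega
    have h6 : f.natDegree.choose (f.natDegree - 1) = f.natDegree := by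
      rw [← Nat.choose_symm (by omega), h5, Nat.choose_one_right]
    rw [h5, h6, pow_one] at h4
    have h7 : a = 0 := by
      rcases mul_eq_zero.1 h4 with h | h
      · exact neg_eq_zero.1 h
      · exfalso
        have : f.natDegree = 0 := by exact_mod_cast h
        omega
    rw [h7, C_0, sub_zero] at h3
    apply hi2
    rw [← coeff_map, ← hfb, h3, coeff_X_pow, if_neg hi.ne]
  obtain ⟨g, h, hg, hh, hgh, hd1, hd2⟩ := fac0 f1 (monic_taylor hf _) (by
    rw [mem_max, ← coeff_map, hmap, taylor_coeff_zero]; exact ha) key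
  refine ⟨taylor (-PowerSeries.C a) g, taylor (-PowerSeries.C a) h, monic_taylor hg _,
    monic_taylor hh _, ?_, ?_, ?_⟩
  · rw [← taylor_mul, ← hgh, hf1, taylor_taylor]
    simp
  · rw [natDegree_taylor, ← hf1d]; exact hd1
  · rw [natDegree_taylor, ← hf1d]; exact hd2

end Two

section Three

variable {C' : Type*} [Field C']

/-- the substitution `X ↦ X ^ e` of power series -/
noncomputable def ex (e : ℕ) (he : e ≠ 0) : PowerSeries C' →+* PowerSeries C' :=
  (PowerSeries.expand e he : PowerSeries C' →ₐ[C'] PowerSeries C').toRingHom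

theorem ex_apply (e : ℕ) (he : e ≠ 0) (f : PowerSeries C') :
    ex e he f = PowerSeries.expand e he f := rfl

theorem ex_comp (a b : ℕ) (ha : a ≠ 0) (hb : b ≠ 0) :
    (ex a ha).comp (ex b hb) = (ex (a * b) (mul_ne_zero ha hb) : PowerSeries C' →+* _) := by
  ext1 f
  simp only [RingHom.comp_apply, ex_apply]
  exact (PowerSeries.expand_mul a ha b hb f).symm

/-- `f` splits after a substitution `X ↦ X ^ e` -/
def Good (f : (PowerSeries C')[X]) : Prop := ∃ e, ∃ he : e ≠ 0, (f.map (ex e he)).Splits

theorem splits_raise {f : (PowerSeries C')[X]} {e : ℕ} {he : e ≠ 0} (h : (f.map (ex e he)).Splits)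
    (a : ℕ) (ha : a ≠ 0) : (f.map (ex (a * e) (mul_ne_zero ha he))).Splits := by
  rw [← ex_comp a e ha he, ← map_map]
  exact h.map _

theorem Good.of_map {f : (PowerSeries C')[X]} {a : ℕ} {ha : a ≠ 0} (h : Good (f.map (ex a ha))) :
    Good f := by
  obtain ⟨e, he, h⟩ := h
  refine ⟨e * a, mul_ne_zero he ha, ?_⟩
  rwa [map_map, ex_comp] at h

theorem Good.mul {f g : (PowerSeries C')[X]} (hf : Good f) (hg : Good g) : Good (f * g) := by
  obtain ⟨a, ha, h⟩ := hf
  obtain ⟨b, hb, h'⟩ := hg
  refine ⟨b * a, mul_ne_zero hb ha, ?_⟩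
  rw [Polynomial.map_mul]
  refine (splits_raise h b hb).mul ?_
  have := splits_raise h' a ha
  simpa only [mul_comm b a] using this

theorem Good.scaleRoots {f : (PowerSeries C')[X]} (h : Good f) (hf : f.Monic)
    (s : PowerSeries C') : Good (f.scaleRoots s) := by
  obtain ⟨a, ha, h⟩ := h
  refine ⟨a, ha, ?_⟩
  rw [map_scaleRoots _ _ _ (by rw [hf.leadingCoeff, map_one]; exact one_ne_zero)]
  exact h.scaleRoots _

theorem Good.taylor {f : (PowerSeries C')[X]} (h : Good f) (s : PowerSeries C') :
    Good (taylor s f) := by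
  obtain ⟨a, ha, h⟩ := h
  refine ⟨a, ha, ?_⟩
  rw [taylor_apply, map_comp, Polynomial.map_add, map_X, map_C]
  exact h.comp_X_add_C _

theorem Good.of_splits {f : (PowerSeries C')[X]} (h : f.Splits) : Good f :=
  ⟨1, one_ne_zero, h.map _⟩

theorem taylor_sub_coeff {R : Type*} [CommRing R] (f : R[X]) (hf : f.Monic)
    (hn : 1 ≤ f.natDegree) (r : R) :
    (Polynomial.taylor r f).coeff (f.natDegree - 1) =
      f.coeff (f.natDegree - 1) + f.natDegree * r := by
  obtain ⟨n, hn'⟩ : ∃ n, f.natDegree = n + 1 := ⟨f.natDegree - 1, by omega⟩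
  have hlc : f.coeff (n + 1) = 1 := by rw [← hn']; exact hf.leadingCoeff
  rw [hn', Nat.add_sub_cancel, taylor_coeff]
  have h1 : hasseDeriv n f = C (f.coeff n) + C ((n + 1 : ℕ) : R) * X := by
    ext j
    rw [hasseDeriv_coeff, coeff_add, coeff_C, coeff_C_mul, coeff_X]
    rcases Nat.lt_trichotomy j 1 with hj | hj | hj
    · have : j = 0 := by omega
      subst this
      simp
    · subst hj
      rw [show (1 + n) = n + 1 by ring, hlc]
      simp
    · rw [if_neg (by omega), if_neg (by omega), coeff_eq_zero_of_natDegree_lt (by omega)]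
      simp
  rw [h1]
  simp

theorem good_aux [IsAlgClosed C'] [CharZero C'] (n : ℕ) :
    ∀ f : (PowerSeries C')[X], f.Monic → f.natDegree = n → Good f := by
  induction n using Nat.strong_induction_on with
  | _ n IH =>
  intro f hf hfn
  rcases Nat.lt_or_ge n 2 with hn | hn
  · exact Good.of_splits (Splits.of_natDegree_le_one_of_monic (by omega) hf)
  -- Tschirnhaus
  obtain ⟨c, hc⟩ : ∃ c : PowerSeries C', (f.coeff (n - 1)) + (n : PowerSeries C') * c = 0 := by
    refine ⟨-(PowerSeries.C ((n : C')⁻¹) * f.coeff (n - 1)), ?_⟩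
    have h1 : (n : PowerSeries C') = PowerSeries.C (n : C') := (map_natCast _ _).symm
    rw [h1, mul_neg, ← mul_assoc, ← map_mul, mul_inv_cancel₀ (by exact_mod_cast (by omega : n ≠ 0)),
      map_one, one_mul, add_neg_cancel]
  suffices h : Good (taylor c f) by
    have := h.taylor (-c)
    rwa [taylor_taylor, neg_add_cancel, taylor_zero] at this
  set f1 := taylor c f with hf1
  have hf1m : f1.Monic := monic_taylor hf c
  have hf1n : f1.natDegree = n := by rw [hf1, natDegree_taylor, hfn]
  have hf10 : f1.coeff (n - 1) = 0 := by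
    have := taylor_sub_coeff f hf (by omega) c
    rw [hfn] at this
    rw [this, hc]
  clear_value f1
  by_cases hz : ∀ i < n, f1.coeff i = 0
  · have : f1 = X ^ n := by
      ext1 j
      rw [coeff_X_pow]
      split_ifs with hj
      · rw [hj, ← hf1n, coeff_natDegree, hf1m.leadingCoeff]
      · rcases lt_or_gt_of_ne hj with h3 | h3
        · exact hz j h3
        · exact coeff_eq_zero_of_natDegree_lt (by omega)
    rw [this]
    exact Good.of_splits (Splits.X_pow n)
  push Not at hz
  -- expand
  have hN : n.factorial ≠ 0 := Nat.factorial_ne_zero n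
  refine Good.of_map (a := n.factorial) (ha := hN) ?_
  set f2 := f1.map (ex n.factorial hN) with hf2
  have hf2m : f2.Monic := hf1m.map _
  have hf2n : f2.natDegree = n := by rw [hf2, hf1m.natDegree_map, hf1n]
  -- slopes
  classical
  set o : ℕ → ℕ := fun i => (f1.coeff i).order.toNat with ho
  set S : Finset ℕ := (Finset.range n).filter fun i => f1.coeff i ≠ 0 with hS
  have hSne : S.Nonempty := by
    obtain ⟨i, hi, hi2⟩ := hz
    exact ⟨i, Finset.mem_filter.2 ⟨Finset.mem_range.2 hi, hi2⟩⟩
  obtain ⟨i0, hi0, hmin⟩ := S.exists_min_image (fun i => n.factorial / (n - i) * o i) hSne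
  set μ := n.factorial / (n - i0) * o i0 with hμ
  have hi0n : i0 < n := Finset.mem_range.1 (Finset.mem_filter.1 hi0).1
  have hi0z : f1.coeff i0 ≠ 0 := (Finset.mem_filter.1 hi0).2
  have hdiv : ∀ i < n, n.factorial / (n - i) * (n - i) = n.factorial := fun i hi =>
    Nat.div_mul_cancel (Nat.dvd_factorial (by omega) (by omega))
  have hb : ∀ i, ∃ b : PowerSeries C', (i < n → f2.coeff i = b * PowerSeries.X ^ (μ * (n - i))) := by
    intro i
    by_cases hi : i < n
    · have : PowerSeries.X ^ (μ * (n - i)) ∣ f2.coeff i := by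
        by_cases hzi : f1.coeff i = 0
        · rw [hf2, coeff_map, hzi, map_zero]
          exact dvd_zero _
        · have h1 := hmin i (Finset.mem_filter.2 ⟨Finset.mem_range.2 hi, hzi⟩)
          have h2 : μ * (n - i) ≤ n.factorial * o i := by
            calc μ * (n - i) ≤ n.factorial / (n - i) * o i * (n - i) :=
                  Nat.mul_le_mul_right _ h1
              _ = n.factorial / (n - i) * (n - i) * o i := by ring
              _ = n.factorial * o i := by rw [hdiv i hi]
          rw [PowerSeries.X_pow_dvd_iff]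
          intro m hm
          apply PowerSeries.coeff_of_lt_order
          rw [hf2, coeff_map, ex_apply, PowerSeries.order_expand]
          have h3 : (f1.coeff i).order = (o i : ℕ∞) := by
            rw [ho]; exact (ENat.natCast_toNat (fun h => hzi (PowerSeries.order_eq_top.1 h))).symm
          rw [h3]
          have : m < n.factorial * o i := by omega
          rw [nsmul_eq_mul]
          exact_mod_cast this
      obtain ⟨b, hb⟩ := this
      exact ⟨b, fun _ => by rw [hb, mul_comm]⟩
    · exact ⟨0, fun h => absurd h hi⟩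
  choose b hb using hb
  set f3 : (PowerSeries C')[X] := X ^ n + ∑ i ∈ Finset.range n, C (b i) * X ^ i with hf3
  have hdeg : (∑ i ∈ Finset.range n, C (b i) * X ^ i).degree < (n : WithBot ℕ) := by
    refine (degree_sum_le _ _).trans_lt ?_
    refine (Finset.sup_lt_iff (WithBot.bot_lt_coe n)).2 fun i hi => ?_
    exact (degree_C_mul_X_pow_le i _).trans_lt (WithBot.coe_lt_coe.2 (Finset.mem_range.1 hi))
  have hf3m : f3.Monic := monic_X_pow_add hdeg
  have hf3n : f3.natDegree = n := by
    rw [hf3, natDegree_add_eq_left_of_degree_lt, natDegree_X_pow]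
    rw [degree_X_pow]; exact hdeg
  have hf3c : ∀ i < n, f3.coeff i = b i := by
    intro i hi
    rw [hf3, coeff_add, coeff_X_pow, if_neg hi.ne, zero_add, finsetSum_coeff]
    simp only [coeff_C_mul, coeff_X_pow, mul_ite, mul_one, mul_zero]
    rw [Finset.sum_ite_eq]
    rw [if_pos (Finset.mem_range.2 hi)]
  have hsc : f2 = f3.scaleRoots (PowerSeries.X ^ μ) := by
    ext1 i
    rw [coeff_scaleRoots, hf3n, ← pow_mul]
    rcases Nat.lt_trichotomy i n with hi | hi | hi
    · rw [hf3c i hi, hb i hi]
    · subst hi
      have e1 : f2.coeff i = 1 := by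
        conv_lhs => rw [← hf2n]
        exact hf2m.leadingCoeff
      have e2 : f3.coeff i = 1 := by
        conv_lhs => rw [← hf3n]
        exact hf3m.leadingCoeff
      rw [e1, e2, Nat.sub_self, mul_zero, pow_zero, mul_one]
    · rw [coeff_eq_zero_of_natDegree_lt (by omega), coeff_eq_zero_of_natDegree_lt (by omega),
        zero_mul]
  suffices h3g : Good f3 by
    rw [hsc]
    exact h3g.scaleRoots hf3m _
  have hX : (PowerSeries.X : PowerSeries C') ≠ 0 := PowerSeries.X_ne_zero
  obtain ⟨g, h, hg, hh, hgh, hd1, hd2⟩ := fac1 f3 hf3m (by omega) (by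
    rw [hf3n, hf3c _ (by omega)]
    have h1 := hb (n - 1) (by omega)
    rw [hf2, coeff_map, hf10, map_zero] at h1
    rcases mul_eq_zero.1 h1.symm with h2 | h2
    · exact h2
    · exact absurd h2 (pow_ne_zero _ hX)) (by
    refine ⟨i0, by omega, ?_⟩
    rw [hf3c _ hi0n]
    intro h0
    obtain ⟨b', hb'⟩ := PowerSeries.X_dvd_iff.2 h0
    have h1 := hb i0 hi0n
    have h3 : (f1.coeff i0).order = (o i0 : ℕ∞) := by
      rw [ho]; exact (ENat.natCast_toNat (fun h => hi0z (PowerSeries.order_eq_top.1 h))).symm
    have h4 : (f2.coeff i0).order = ((n.factorial * o i0 : ℕ) : ℕ∞) := by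
      rw [hf2, coeff_map, ex_apply, PowerSeries.order_expand, h3, nsmul_eq_mul]
      push_cast
      rfl
    have h5 : μ * (n - i0) = n.factorial * o i0 := by
      calc μ * (n - i0) = n.factorial / (n - i0) * (n - i0) * o i0 := by rw [hμ]; ring
        _ = n.factorial * o i0 := by rw [hdiv i0 hi0n]
    have h6 : PowerSeries.X ^ (n.factorial * o i0 + 1) ∣ f2.coeff i0 :=
      ⟨b', by rw [h1, hb', h5]; ring⟩
    have h7 := PowerSeries.X_pow_dvd_iff.1 h6 (n.factorial * o i0) (by omega)
    exact (PowerSeries.order_eq_nat.1 h4).1 h7)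
  rw [hgh]
  exact (IH _ (by omega) g hg rfl).mul (IH _ (by omega) h hh rfl)

/-- **Puiseux's theorem**, power series form: `C'` algebraically closed of characteristic zero, every
monic polynomial over `C'⟦X⟧` splits after a substitution `X ↦ X ^ e`. -/
theorem puiseux_ps [IsAlgClosed C'] [CharZero C'] (f : (PowerSeries C')[X]) (hf : f.Monic) :
    ∃ e, ∃ he : e ≠ 0, (f.map (ex e he)).Splits :=
  good_aux _ f hf rfl

end Three
end Crest.Agent.R013.Puis_702
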