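import Crest.Agent.R013.RZ5_365

/-!
# LEMMA LIFT over `C`, pointwise form: `LiftC` (row 13; helper365)
-/

set_option autoImplicit false
set_option linter.unusedSectionVars false
set_option linter.style.haveILetI false

open scoped NNReal Polynomial
open Polynomial (aeval)

namespace Crest.Agent.R013.RZ_365

open Cell_408

section Main

universe u v

variable {k : Type*} {C : Type u} [NontriviallyNormedField k] [CompleteSpace k]
  [IsUltrametricDist k] [NormedField C] [IsUltrametricDist C] [NormedAlgebra k C]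
  [Algebra.IsAlgebraic k C] [IsAlgClosed C] {K : Type v} [Field K] [Algebra C K] [CharZero C]

set_option maxHeartbeats 2000000 in
open CLiftN_903 RR7_948 IntermediateField in
/-- **LEMMA LIFT** over `C`, pointwise form. -/
theorem liftC_of (hk : DiscNorm k) (N : ℕ) (hN : ‖(N : C)‖ = 1)
    (halgK : ∀ z : K, Transcendental C z → ∀ a : K, IsAlgebraic C⟮z⟯ a) : LiftC C K N := by
  classical
  intro z h₀ hz hh0 hyp
  have hN0 : N ≠ 0 := by
    rintro rfl
    rw [Nat.cast_zero, norm_zero] at hN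
    exact zero_ne_one hN
  have hz0 : z ≠ 0 := by
    rintro rfl
    exact hz isAlgebraic_zero
  have halg := halgK z hz
  set nC : Valuation C ℝ≥0 := NormedField.valuation with hnC
  have hnCv : ∀ c : C, nC c = ‖c‖₊ := fun c => rfl
  obtain ⟨ϖ, hϖ0, hϖ1, -⟩ := id hk
  set π : C := algebraMap k C ϖ with hπ
  have hπn : ‖π‖ = ‖ϖ‖ := norm_algebraMap' C ϖ
  have hπ0 : π ≠ 0 := by rw [← norm_pos_iff, hπn]; exact hϖ0
  have hπ1 : nC π < 1 := by
    rw [hnCv, ← NNReal.coe_lt_coe, coe_nnnorm, hπn]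
    exact hϖ1
  -- the hypothesis of `lift3`
  obtain ⟨e, G, hG0, hG⟩ := lift3 {a : K | ∃ c : C, nC c ≤ 1 ∧ algebraMap C K c = a} z
    (algebraMap C K π) h₀ hz0 N (by
      intro O hO1 hO2 hO3
      have h1 : ∀ c : C, nC c ≤ 1 → algebraMap C K c ∈ O := fun c hc => hO1 _ ⟨c, hc, rfl⟩
      obtain ⟨g, hg0, hg⟩ := hyp O (fun c hc => h1 c (by exact_mod_cast hc)) hO2
        (fun c hc n => small_div nC hπ0 h1 hO3 c (by exact_mod_cast hc) n)
      obtain ⟨c, hc0, -, hc⟩ := exists_pow_of_unit nC hπ0 hz0 h1 hO2 hO3 halg N hN0 _ hg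
      refine ⟨g * algebraMap C K c, mul_ne_zero hg0 ((map_ne_zero _).2 hc0), ?_⟩
      rw [mul_pow, ← mul_assoc]
      exact hc)
  -- the radius
  have hπpos : 0 < ‖π‖ := norm_pos_iff.2 hπ0
  have hπlt : ‖π‖ < 1 := by exact_mod_cast hπ1
  refine ⟨‖π‖ ^ ((1 : ℝ) / (e + 1 : ℕ)), ?_, ?_⟩
  · exact Real.rpow_lt_one hπpos.le hπlt (by positivity)
  intro r hr1 hr2
  have hθ0 : 0 < ‖π‖ ^ ((1 : ℝ) / (e + 1 : ℕ)) := Real.rpow_pos_of_pos hπpos _
  have hrpos : 0 < ‖r‖ := hθ0.trans hr1
  have hr0 : r ≠ 0 := norm_pos_iff.1 hrpos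
  have hre : ‖π‖ < ‖r‖ ^ e := by
    have h1 : (‖π‖ ^ ((1 : ℝ) / (e + 1 : ℕ))) ^ (e + 1) < ‖r‖ ^ (e + 1) :=
      pow_lt_pow_left₀ hr1 hθ0.le (Nat.succ_ne_zero e)
    have h2 : (‖π‖ ^ ((1 : ℝ) / (e + 1 : ℕ))) ^ (e + 1) = ‖π‖ := by
      rw [← Real.rpow_natCast, ← Real.rpow_mul hπpos.le, one_div, inv_mul_cancel₀, Real.rpow_one]
      exact_mod_cast Nat.succ_ne_zero e
    rw [h2] at h1
    refine h1.trans_le ?_
    exact pow_le_pow_of_le_one hrpos.le hr2.le (Nat.le_succ e)
  -- the level
  set L : IntermediateField k C := k⟮r⟯ with hL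
  have hLfin : FiniteDimensional k L :=
    IntermediateField.adjoin.finiteDimensional (Algebra.IsAlgebraic.isAlgebraic r).isIntegral
  have hLcomp : CompleteSpace L := completeSpace_mem L
  obtain ⟨πL, hπL⟩ := exists_isUnif hk L
  set r' : L := ⟨r, IntermediateField.mem_adjoin_simple_self k r⟩ with hr'
  have hr'0 : r' ≠ 0 := fun h => hr0 (congrArg Subtype.val h)
  have hr'K : algebraMap L K r' = algebraMap C K r := rfl
  have hrK0 : algebraMap L K r' ≠ 0 := by rw [hr'K]; exact (map_ne_zero _).2 hr0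
  have hLalg : Algebra.IsAlgebraic L C := inferInstance
  have hytr : Transcendental L (z / algebraMap L K r') := by
    intro h
    apply hz
    have h1 : IsAlgebraic L z := by
      have h2 : IsAlgebraic L (z / algebraMap L K r' * algebraMap L K r') :=
        h.mul (isAlgebraic_algebraMap r')
      rwa [div_mul_cancel₀ _ hrK0] at h2
    exact h1.extendScalars (algebraMap L C).injective
  letI iRat : Algebra (RatFunc L) K := RR20_948.ratAlg (z / algebraMap L K r') hytr
  haveI iTow : IsScalarTower L (RatFunc L) K := RR20_948.ratAlg_tower _ hytr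
  have hyX : algebraMap (RatFunc L) K RatFunc.X = z / algebraMap L K r' :=
    RR20_948.ratHom_X _ hytr
  have hKalg : Algebra.IsAlgebraic (RatFunc L) K := isAlgebraic_rat hrK0 hyX halg
  set S : Finset K := insert h₀ G with hS
  set K' : IntermediateField (RatFunc L) K := IntermediateField.adjoin (RatFunc L) (S : Set K)
    with hK'
  have hK'fin : FiniteDimensional (RatFunc L) K' :=
    IntermediateField.finiteDimensional_adjoin fun x _ =>
      (Algebra.IsAlgebraic.isAlgebraic (R := RatFunc L) x).isIntegral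
  have hK'alg : Algebra.IsAlgebraic K' K := Algebra.IsAlgebraic.tower_top (K := RatFunc L) K'
  have hLchar : CharZero L := (algebraMap L C).charZero
  have hRchar : CharZero (RatFunc L) :=
    charZero_of_injective_algebraMap (algebraMap L (RatFunc L)).injective
  have hmemS : ∀ x ∈ S, x ∈ K' := fun x hx => IntermediateField.subset_adjoin _ _ hx
  set h₀' : K' := ⟨h₀, hmemS _ (Finset.mem_insert_self _ _)⟩ with hh₀'
  have hh₀'0 : h₀' ≠ 0 := fun h => hh0 (congrArg Subtype.val h)
  have hNL : ‖(N : L)‖ = 1 := by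
    have h1 : ‖(N : L)‖ = ‖((N : L) : C)‖ := rfl
    rw [h1]
    push_cast
    exact hN
  have iTow' : IsScalarTower L K' K := IsScalarTower.of_algebraMap_eq fun c => rfl
  set z' : K' := algebraMap (RatFunc L) K' RatFunc.X * algebraMap L K' r' with hz'
  have hrK'0 : algebraMap L K' r' ≠ 0 := (map_ne_zero _).2 hr'0
  have hzK' : algebraMap K' K z' = z := by
    rw [hz', map_mul, ← IsScalarTower.algebraMap_apply, ← IsScalarTower.algebraMap_apply, hyX]
    exact div_mul_cancel₀ _ hrK0
  have hsepK' : Algebra.IsSeparable (RatFunc L) K' := inferInstance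
  obtain ⟨h', hh', hw⟩ := lift_level (K := K) (K' := K') hπL nC (fun c => rfl) (π := π) (z := z)
    (f₀ := h₀) (N := N) (e := e) hNL hG0 (by
        intro w hwC hwz hwπ
        obtain ⟨g, hg, hg1⟩ := hG w.valuationSubring (by
          rintro _ ⟨c, hc, rfl⟩
          rw [Valuation.mem_valuationSubring_iff, hwC]
          exact hc) ((valuationSubring_lt_one_iff w z).2 hwz)
          ((valuationSubring_lt_one_iff w _).2 (by
            rw [map_div₀, map_pow, div_lt_one₀]
            · exact hwπ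
            · exact pos_iff_ne_zero.2 (pow_ne_zero _ ((Valuation.ne_zero_iff _).2 hz0))))
        exact ⟨g, hg, (valuationSubring_lt_one_iff w _).1 hg1⟩)
      (h₀' := h₀') (hP' := 1) (z' := z') hh₀'0 one_ne_zero hzK' (by rw [div_one]; rfl)
      (r := r') hr'0 hr2 (by
        rw [hnCv]
        exact_mod_cast hre) (by rw [hz', mul_div_cancel_right₀ _ hrK'0])
      (fun g hg => ⟨⟨g, hmemS g (Finset.mem_insert_of_mem hg)⟩, rfl⟩)
  have hh'K : (h' : K) ≠ 0 := fun h => hh' (Subtype.ext h)
  have hLK' : ∀ c : L, algebraMap K' K (algebraMap L K' c) = algebraMap C K (c : C) := fun c => rfl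
  refine ⟨h', hh'K, ?_, ?_⟩
  · intro W hWC
    have hWL : ∀ c : L, (W.comap (algebraMap K' K)) (algebraMap L K' c) = ‖c‖₊ := by
      intro c
      rw [Valuation.comap_apply, hLK' c, hWC]
      rfl
    have h1 := (hw (W.comap (algebraMap K' K))).1 hWL
    rw [Valuation.comap_apply, hzK'] at h1
    refine ⟨fun hge => ?_, fun hlt => ?_⟩
    · obtain ⟨g, hg0, hg⟩ := h1.1 hge
      exact ⟨g, fun h => hg0 (Subtype.ext h), hg⟩
    · obtain ⟨g, hg0, hg⟩ := h1.2 (hlt.trans (by exact_mod_cast hr2))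
      refine ⟨g, fun h => hg0 (Subtype.ext h), ?_⟩
      rw [one_mul] at hg
      exact hg
  · intro P
    set W : Valuation K ℝ≥0 := RR13_948.vR P with hW
    have hWlt : ∀ x : K, W x < 1 ↔ P.v x < 1 := by
      intro x
      have := (RR13_948.isEquiv_vR P).lt_one_iff_lt_one (x := x)
      exact this.symm
    have hWle : ∀ x : K, W x ≤ 1 ↔ P.v x ≤ 1 := by
      intro x
      have := (RR13_948.isEquiv_vR P).le_one_iff_le_one (x := x)
      exact this.symm
    have hWC : ∀ c : C, c ≠ 0 → W (algebraMap C K c) = 1 := by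
      intro c hc
      have h1 := P.const c hc
      have := (RR13_948.isEquiv_vR P).eq_one_iff_eq_one (x := algebraMap C K c)
      exact this.1 h1
    have hWC1 : ∀ c : C, W (algebraMap C K c) ≤ 1 := by
      intro c
      by_cases hc : c = 0
      · rw [hc, map_zero, map_zero]; exact zero_le
      · exact (hWC c hc).le
    have hnt : ∃ a : K, a ≠ 0 ∧ W a ≠ 1 := by
      obtain ⟨a, ha⟩ := P.surj (WithZero.exp (-1))
      refine ⟨a, ?_, ?_⟩
      · rintro rfl
        rw [map_zero] at ha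
        exact WithZero.coe_ne_zero ha.symm
      · refine ((hWlt a).2 ?_).ne
        rw [ha]
        exact WithZero.exp_lt_exp.2 (by norm_num)
    have hLCn : ∀ c : L, ‖algebraMap L C c‖ = ‖c‖ := fun c => rfl
    have hcases := place_cases (L := L) (C := C) (K := K) (z := z) (r := r) hLCn W hWC hnt hz0 halg
      hr0
    have hWL : ∀ c : L, c ≠ 0 → (W.comap (algebraMap K' K)) (algebraMap L K' c) = 1 := by
      intro c hc
      rw [Valuation.comap_apply, hLK' c]
      have hc0 : (c : C) ≠ 0 := fun h => hc (Subtype.ext h)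
      exact hWC (c : C) hc0
    have h1 := (hw (W.comap (algebraMap K' K))).2 hWL
    have hzr : algebraMap K' K (z' / algebraMap L K' r') = z / algebraMap C K r := by
      rw [map_div₀, hzK']
      rfl
    have hexP : (∃ c : C, ‖c‖ < ‖r‖ ∧ P.v (z - algebraMap C K c) < 1) ↔
        ∃ c : C, ‖c‖ < ‖r‖ ∧ W (z - algebraMap C K c) < 1 :=
      exists_congr fun c => and_congr_right fun _ => (hWlt _).symm
    rw [hexP]
    refine ⟨fun hex => ?_, fun hno => ?_⟩
    · obtain ⟨h2, Q, hQ1, hQ2, hQ3⟩ := hcases.1 hex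
      obtain ⟨g, hg0, hg⟩ := h1.2 (by rw [Valuation.comap_apply, hzr]; exact h2)
        ⟨Q, hQ1, hQ2, by
          rw [Valuation.comap_apply, ← Polynomial.aeval_algebraMap_apply, hzr]; exact hQ3⟩
      refine ⟨g, fun h => hg0 (Subtype.ext h), ?_⟩
      rw [one_mul] at hg
      exact (hWlt _).1 hg
    · obtain ⟨h2, Q, hQ1, hQ2, hQ3⟩ := hcases.2 hno
      obtain ⟨g, hg0, hg⟩ := h1.1 (by rw [Valuation.comap_apply, map_inv₀, hzr]; exact h2)
        ⟨Q, hQ1, hQ2, by
          rw [Valuation.comap_apply, ← Polynomial.aeval_algebraMap_apply, map_inv₀, hzr]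
          exact hQ3⟩
      exact ⟨g, fun h => hg0 (Subtype.ext h), (hWlt _).1 hg⟩

open CLiftN_903 RR7_948 in
/-- **LEMMA LIFT** over `C` for function fields. -/
theorem liftC (hk : DiscNorm k) (N : ℕ) (hN : ‖(N : C)‖ = 1) [Algebra (RatFunc C) K]
    [IsScalarTower C (RatFunc C) K] [FiniteDimensional (RatFunc C) K] : LiftC C K N :=
  liftC_of hk N hN fun z hz a => by
    have := fd_adjoin z hz
    exact Algebra.IsAlgebraic.isAlgebraic a

end Main

end Crest.Agent.R013.RZ_365
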