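import Mathlib

/-!
# Compactness of the Riemann-Zariski space (row 13, LIFT-3; helper365)
-/

open scoped NNReal
open Filter

namespace Crest.Agent.R013.RZ_365

variable {K : Type*} [Field K]

/-- The limit of a family of valuation subrings along an ultrafilter. -/
def ultra {ι : Type*} (U : Ultrafilter ι) (O : ι → ValuationSubring K) : ValuationSubring K where
  carrier := {a | ∀ᶠ i in (U : Filter ι), a ∈ O i}
  mul_mem' := by
    intro a b ha hb
    filter_upwards [ha, hb] with i h1 h2 using (O i).mul_mem _ _ h1 h2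
  one_mem' := Filter.Eventually.of_forall fun i => (O i).one_mem
  add_mem' := by
    intro a b ha hb
    filter_upwards [ha, hb] with i h1 h2 using (O i).add_mem _ _ h1 h2
  zero_mem' := Filter.Eventually.of_forall fun i => (O i).zero_mem
  neg_mem' := by
    intro a ha
    filter_upwards [ha] with i h1 using (O i).neg_mem _ h1
  mem_or_inv_mem' := by
    intro a
    have : ∀ᶠ i in (U : Filter ι), a ∈ O i ∨ a⁻¹ ∈ O i :=
      Filter.Eventually.of_forall fun i => (O i).mem_or_inv_mem a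
    exact Ultrafilter.eventually_or.1 this

theorem mem_ultra {ι : Type*} {U : Ultrafilter ι} {O : ι → ValuationSubring K} {a : K} :
    a ∈ ultra U O ↔ ∀ᶠ i in (U : Filter ι), a ∈ O i := Iff.rfl

theorem val_lt_one_iff (O : ValuationSubring K) (a : K) :
    O.valuation a < 1 ↔ a = 0 ∨ a⁻¹ ∉ O := by
  rcases eq_or_ne a 0 with rfl | ha
  · simp
  · rw [← ValuationSubring.valuation_le_one_iff]
    simp only [ha, false_or, not_le, map_inv₀]
    rw [one_lt_inv₀]
    exact zero_lt_iff.2 ((Valuation.ne_zero_iff _).2 ha)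

theorem ultra_lt_one_iff {ι : Type*} {U : Ultrafilter ι} {O : ι → ValuationSubring K} {a : K} :
    (ultra U O).valuation a < 1 ↔ ∀ᶠ i in (U : Filter ι), (O i).valuation a < 1 := by
  rw [val_lt_one_iff, mem_ultra]
  simp only [val_lt_one_iff]
  rw [Ultrafilter.eventually_or]
  rw [← Ultrafilter.eventually_not]
  simp [Filter.eventually_const]

/-- **Compactness of the Riemann-Zariski space.** -/
theorem compact (A B C : Set K)
    (h : ∀ O : ValuationSubring K, (∀ a ∈ A, a ∈ O) → (∀ b ∈ B, O.valuation b < 1) →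
      ∃ c ∈ C, O.valuation c < 1) :
    ∃ A0 B0 C0 : Finset K, (A0 : Set K) ⊆ A ∧ (B0 : Set K) ⊆ B ∧ (C0 : Set K) ⊆ C ∧
      ∀ O : ValuationSubring K, (∀ a ∈ A0, a ∈ O) → (∀ b ∈ B0, O.valuation b < 1) →
        ∃ c ∈ C0, O.valuation c < 1 := by
  classical
  by_contra hcon
  push Not at hcon
  -- for each finite subset a counterexample
  have key : ∀ T : Finset K × Finset K × Finset K, ∃ O : ValuationSubring K,
      (∀ a ∈ T.1, a ∈ A → a ∈ O) ∧ (∀ b ∈ T.2.1, b ∈ B → O.valuation b < 1) ∧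
      (∀ c ∈ T.2.2, c ∈ C → ¬ O.valuation c < 1) := by
    intro T
    obtain ⟨O, h1, h2, h3⟩ := hcon (T.1.filter (· ∈ A)) (T.2.1.filter (· ∈ B))
      (T.2.2.filter (· ∈ C)) (by intro x hx; simpa using (Finset.mem_filter.1 hx).2)
      (by intro x hx; simpa using (Finset.mem_filter.1 hx).2)
      (by intro x hx; simpa using (Finset.mem_filter.1 hx).2)
    refine ⟨O, fun a ha haA => h1 a (Finset.mem_filter.2 ⟨ha, haA⟩),
      fun b hb hbB => h2 b (Finset.mem_filter.2 ⟨hb, hbB⟩),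
      fun c hc hcC => not_lt.2 (h3 c (Finset.mem_filter.2 ⟨hc, hcC⟩))⟩
  choose O hOA hOB hOC using key
  obtain ⟨U, hU⟩ := Ultrafilter.exists_le (Filter.atTop : Filter (Finset K × Finset K × Finset K))
  have hev : ∀ T0 : Finset K × Finset K × Finset K,
      ∀ᶠ T in (U : Filter (Finset K × Finset K × Finset K)), T0 ≤ T :=
    fun T0 => hU (Filter.eventually_ge_atTop T0)
  obtain ⟨c, hcC, hc⟩ := h (ultra U O)
    (by
      intro a ha
      rw [mem_ultra]
      filter_upwards [hev ({a}, ∅, ∅)] with T hT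
      exact hOA T a (hT.1 (Finset.mem_singleton_self a)) ha)
    (by
      intro b hb
      rw [ultra_lt_one_iff]
      filter_upwards [hev (∅, {b}, ∅)] with T hT
      exact hOB T b (hT.2.1 (Finset.mem_singleton_self b)) hb)
  rw [ultra_lt_one_iff] at hc
  obtain ⟨T, hT1, hT2⟩ := (hc.and (hev (∅, ∅, {c}))).exists
  exact hOC T c (hT2.2.2 (Finset.mem_singleton_self c)) hcC hT1

/-- LIFT-3 in the compactness form. -/
theorem lift3 (A : Set K) (z π h0 : K) (hz : z ≠ 0) (N : ℕ)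
    (hyp : ∀ O : ValuationSubring K, (∀ a ∈ A, a ∈ O) → O.valuation z < 1 →
      (∀ n : ℕ, O.valuation (π / z ^ n) < 1) →
      ∃ g : K, g ≠ 0 ∧ O.valuation (h0 * g ^ N - 1) < 1) :
    ∃ (e : ℕ) (G : Finset K), (∀ g ∈ G, g ≠ 0) ∧ ∀ O : ValuationSubring K, (∀ a ∈ A, a ∈ O) →
      O.valuation z < 1 → O.valuation (π / z ^ e) < 1 →
      ∃ g ∈ G, O.valuation (h0 * g ^ N - 1) < 1 := by
  classical
  obtain ⟨A0, B0, C0, hA0, hB0, hC0, hO⟩ := compact A ({z} ∪ Set.range fun n : ℕ => π / z ^ n)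
    {c | ∃ g : K, g ≠ 0 ∧ c = h0 * g ^ N - 1} (by
      intro O h1 h2
      obtain ⟨g, hg, hg'⟩ := hyp O h1 (h2 z (by simp)) (fun n => h2 _ (by simp))
      exact ⟨_, ⟨g, hg, rfl⟩, hg'⟩)
  have hC1 : ∀ c : C0, ∃ g : K, g ≠ 0 ∧ c.1 = h0 * g ^ N - 1 := fun c => hC0 c.2
  choose g hg0 hg using hC1
  have hB2 : ∀ b : B0, ∃ n : ℕ, b.1 = z ∨ π / z ^ n = b.1 := fun b => by
    have hb : b.1 = z ∨ ∃ n : ℕ, π / z ^ n = b.1 := by simpa using hB0 b.2
    rcases hb with h | ⟨n, h⟩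
    · exact ⟨0, Or.inl h⟩
    · exact ⟨n, Or.inr h⟩
  choose n hn using hB2
  refine ⟨Finset.univ.sup n, Finset.univ.image g, ?_, ?_⟩
  · intro x hx
    obtain ⟨c, -, rfl⟩ := Finset.mem_image.1 hx
    exact hg0 c
  · intro O h1 h2 h3
    obtain ⟨c, hc, hc'⟩ := hO O (fun a ha => h1 a (hA0 ha)) (by
      intro b hb
      rcases hn ⟨b, hb⟩ with h | h
      · have h : b = z := h
        rw [h]; exact h2
      · have h : π / z ^ n ⟨b, hb⟩ = b := h
        rw [← h]
        have hle : n ⟨b, hb⟩ ≤ Finset.univ.sup n := Finset.le_sup (Finset.mem_univ _)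
        obtain ⟨d, hd⟩ := Nat.exists_eq_add_of_le hle
        have : π / z ^ n ⟨b, hb⟩ = π / z ^ (Finset.univ.sup n) * z ^ d := by
          rw [hd, pow_add]; field_simp
        rw [this, map_mul, map_pow]
        exact lt_of_le_of_lt (mul_le_of_le_one_right' (pow_le_one' h2.le d)) h3)
    refine ⟨g ⟨c, hc⟩, Finset.mem_image_of_mem _ (Finset.mem_univ _), ?_⟩
    rw [← hg ⟨c, hc⟩]; exact hc'

theorem valuationSubring_lt_one_iff {Γ₀ : Type*} [LinearOrderedCommGroupWithZero Γ₀]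
    (w : Valuation K Γ₀) (a : K) : w.valuationSubring.valuation a < 1 ↔ w a < 1 := by
  rw [val_lt_one_iff, Valuation.mem_valuationSubring_iff]
  rcases eq_or_ne a 0 with rfl | ha
  · simp
  · simp only [ha, false_or, map_inv₀, not_le]
    rw [one_lt_inv₀]
    exact zero_lt_iff.2 ((Valuation.ne_zero_iff _).2 ha)

/-- LIFT-3: the same for valuations with values in any group. -/
theorem lift3_val (A : Set K) (z π h0 : K) (hz : z ≠ 0) (N : ℕ)
    (hyp : ∀ O : ValuationSubring K, (∀ a ∈ A, a ∈ O) → O.valuation z < 1 →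
      (∀ n : ℕ, O.valuation (π / z ^ n) < 1) →
      ∃ g : K, g ≠ 0 ∧ O.valuation (h0 * g ^ N - 1) < 1) :
    ∃ (e : ℕ) (G : Finset K), (∀ g ∈ G, g ≠ 0) ∧
      ∀ {Γ₀ : Type*} [LinearOrderedCommGroupWithZero Γ₀] (w : Valuation K Γ₀),
      (∀ a ∈ A, w a ≤ 1) → w z < 1 → w π < w z ^ e → ∃ g ∈ G, w (h0 * g ^ N - 1) < 1 := by
  obtain ⟨e, G, hG, h⟩ := lift3 A z π h0 hz N hyp
  refine ⟨e, G, hG, ?_⟩
  intro Γ₀ _ w h1 h2 h3
  obtain ⟨g, hg, hg'⟩ := h w.valuationSubring
    (fun a ha => (Valuation.mem_valuationSubring_iff _ _).2 (h1 a ha))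
    ((valuationSubring_lt_one_iff w z).2 h2)
    ((valuationSubring_lt_one_iff w _).2 (by
      rw [map_div₀, map_pow, div_lt_one₀]
      · exact h3
      · exact zero_lt_iff.2 (pow_ne_zero _ ((Valuation.ne_zero_iff _).2 hz))))
  exact ⟨g, hg, (valuationSubring_lt_one_iff w _).1 hg'⟩

end Crest.Agent.R013.RZ_365
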