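import Crest.Agent.R013.Lift5_903

/-!
# Part B, NB3: re-patching a local class at a smaller circle

`E₁` = the circle `r₁` (946's setting), `E` = the circle `r > r₁`, `τ : RU(r₁) → E` the restriction.
`h ∈ M` is an `n`-th power at every norm over the circle `r₁`.  We find `h' ∈ M` with an `n`-th root
in the `τ(RU)`-span of `M` in `E ⊗ M`, and `h' = h α ^ n` wherever `FP(r₁)` and `M` are evaluated.
-/

set_option autoImplicit false

namespace Crest.Agent.R013.RePatch_920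

open Gl946 Lift903 TensorProduct
open scoped NNReal

attribute [local instance] Algebra.TensorProduct.rightAlgebra

section Ev

variable {F K E T Ω : Type*} [Field F] [Field K] [CommRing E] [CommRing T] [CommRing Ω]
  [Algebra F K] [Algebra F E] [Algebra F T] [Algebra K T] [Algebra E T]
  [IsScalarTower F K T] [IsScalarTower F E T]
  {ι : Type*} [Fintype ι]
  {b : Module.Basis ι F K} {bT : Module.Basis ι E T} (hB : IsBC b bT)
  {R : Subring E} (hR : ∀ x : F, algebraMap F E x ∈ R)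
  (ρ : R →+* Ω) (κ : K →+* Ω)
  (hc : ∀ x : F, ρ ⟨algebraMap F E x, hR x⟩ = κ (algebraMap F K x))

/-- The values of `ev` lie in the subring generated by the two images. -/
theorem ev_mem_closure (t : KR R hR hB) :
    ev hB hR ρ κ hc t ∈ Subring.closure (Set.range ρ ∪ Set.range κ) := by
  change evF hB hR ρ κ t ∈ _
  unfold evF
  refine Subring.sum_mem _ fun i _ => Subring.mul_mem _ ?_ ?_
  · exact Subring.subset_closure (Or.inl ⟨_, rfl⟩)
  · exact Subring.subset_closure (Or.inr ⟨_, rfl⟩)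

end Ev

section Main

variable {k E₁ : Type*} [NormedField k] [NontriviallyNormedField E₁] [NormedAlgebra k E₁]
  [IsUltrametricDist E₁] [CompleteSpace E₁] [CompleteSpace k] {y₁ : E₁} (hG₁ : IsGauss k y₁)
  {π : k} (hπ : IsUnif π) (hd₁ : DenseRat k y₁)
  {F M : Type*} [Field F] [Field M] [Algebra F M] [Algebra F E₁] [FiniteDimensional F M]
  [Algebra.IsSeparable F M]

/-- **NB3.** -/
theorem repatch (hF₁ : ∀ x : F, algebraMap F E₁ x ∈ KY hG₁)
    (hF₁' : ∀ z : E₁, z ∈ KY hG₁ → z ∈ Set.range (algebraMap F E₁))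
    {E : Type*} [Field E] [Algebra F E] (τ : RU k y₁ →+* E)
    (hτ : ∀ x : F, τ ⟨algebraMap F E₁ x, algebraMap_mem_RU hG₁ hF₁ x⟩ = algebraMap F E x)
    (n : ℕ) (hn : ‖(n : E₁)‖ = 1) (h : M) (h0 : h ≠ 0)
    (hf : ∀ v : Valuation M ℝ≥0, (∀ a : F, v (algebraMap F M a) = ‖algebraMap F E₁ a‖₊) →
      ∃ w : M, v (h - w ^ n) < v h) :
    ∃ h' : M, h' ≠ 0 ∧
      (∃ b : E ⊗[F] M, b ^ n = (1 : E) ⊗ₜ[F] h' ∧
        b ∈ AddSubmonoid.closure {v : E ⊗[F] M | ∃ s ∈ τ.range, ∃ m : M, v = s ⊗ₜ[F] m}) ∧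
      ∀ {Ω : Type*} [Field Ω] (φ₁ : FP hG₁ hπ hd₁ →+* Ω) (κ : M →+* Ω),
        (∀ x : F, φ₁ ⟨algebraMap F E₁ x, algebraMap_mem_FP hG₁ hπ hd₁ hF₁ x⟩ =
          κ (algebraMap F M x)) →
        ∃ α ∈ Subring.closure (Set.range φ₁ ∪ Set.range κ),
          ∃ α' ∈ Subring.closure (Set.range φ₁ ∪ Set.range κ),
          α * α' = 1 ∧ κ h' = κ h * α ^ n := by
  classical
  let b := Module.finBasis F M
  have hn0 : n ≠ 0 := by
    rintro rfl
    rw [Nat.cast_zero, norm_zero] at hn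
    exact zero_ne_one hn
  obtain ⟨h', h'0, a, ha, a', ha', d, hd, d', hd', haa, hdd, e1, e2⟩ :=
    patch_E hG₁ hπ hd₁ b hF₁ hF₁' n hn 1 h one_ne_zero h0 (by
      intro v hv
      obtain ⟨w, hw⟩ := hf v hv
      have hvh : v h ≠ 0 := (v.ne_zero_iff).2 h0
      have hwh : v (w ^ n) = v h := by
        have h1 : w ^ n = h - (h - w ^ n) := by ring
        rw [h1]
        exact v.map_sub_eq_of_lt_left hw
      have hw0 : w ^ n ≠ 0 := by
        intro h1; rw [h1, map_zero] at hwh; exact hvh hwh.symm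
      have hw00 : w ≠ 0 := fun h1 => hw0 (by rw [h1, zero_pow hn0])
      refine ⟨w⁻¹, inv_ne_zero hw00, ?_⟩
      have e : 1 / h - w⁻¹ ^ n = -(h - w ^ n) / (h * w ^ n) := by
        rw [inv_pow]; field_simp; ring
      rw [e, map_div₀, Valuation.map_neg, map_mul, hwh, map_div₀, map_one]
      rw [div_lt_div_iff₀ (mul_pos (zero_lt_iff.2 hvh) (zero_lt_iff.2 hvh)) (zero_lt_iff.2 hvh),
        one_mul]
      exact mul_lt_mul_of_pos_right hw (zero_lt_iff.2 hvh))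
  refine ⟨h', h'0, ?_, ?_⟩
  · -- the root over the outer side, read in `E ⊗ M`
    let ρ : RU k y₁ →+* E ⊗[F] M := (algebraMap E (E ⊗[F] M)).comp τ
    let κ : M →+* E ⊗[F] M := algebraMap M (E ⊗[F] M)
    have hc : ∀ x : F, ρ ⟨algebraMap F E₁ x, algebraMap_mem_RU hG₁ hF₁ x⟩ =
        κ (algebraMap F M x) := by
      intro x
      change algebraMap E (E ⊗[F] M) (τ _) = _
      rw [hτ, ← IsScalarTower.algebraMap_apply F E (E ⊗[F] M)]
      change _ = algebraMap M (E ⊗[F] M) (algebraMap F M x)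
      rw [← IsScalarTower.algebraMap_apply F M (E ⊗[F] M)]
    let Ev := ev (isBC_tensor (E := E₁) b) (algebraMap_mem_RU hG₁ hF₁) ρ κ hc
    refine ⟨Ev ⟨a, ha⟩, ?_, ?_⟩
    · have h1 : Ev ⟨algebraMap M (E₁ ⊗[F] M) h', algebraMap_mem_KR _ _ h'⟩ = κ h' :=
        ev_algebraMap _ _ _ _ hc h'
      have h2 : (1 : E) ⊗ₜ[F] h' = κ h' := rfl
      rw [h2, ← h1, ← map_pow]
      congr 1
      refine Subtype.ext ?_
      change a ^ n = algebraMap M (E₁ ⊗[F] M) h'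
      rw [e1, map_one, one_mul]
    · change evF _ _ ρ κ ⟨a, ha⟩ ∈ _
      unfold evF
      refine AddSubmonoid.sum_mem _ fun i _ => AddSubmonoid.subset_closure ?_
      refine ⟨τ ⟨(Algebra.TensorProduct.basis E₁ b).repr a i, ha i⟩, ⟨_, rfl⟩, b i, ?_⟩
      change (τ _ ⊗ₜ[F] (1 : M)) * ((1 : E) ⊗ₜ[F] b i) = _
      rw [Algebra.TensorProduct.tmul_mul_tmul, mul_one, one_mul]
  · intro Ω _ φ₁ κ hc
    let Ev := ev (isBC_tensor (E := E₁) b) (algebraMap_mem_FP hG₁ hπ hd₁ hF₁)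
      (R := (FP hG₁ hπ hd₁).toSubring) φ₁ κ hc
    refine ⟨Ev ⟨d, hd⟩, ev_mem_closure _ _ _ _ hc _, Ev ⟨d', hd'⟩, ev_mem_closure _ _ _ _ hc _,
      ?_, ?_⟩
    · rw [← map_mul, ← map_one Ev]
      congr 1
      exact Subtype.ext hdd
    · have h1 : Ev ⟨algebraMap M (E₁ ⊗[F] M) h', algebraMap_mem_KR _ _ h'⟩ = κ h' :=
        ev_algebraMap _ _ _ _ hc h'
      have h2 : Ev ⟨algebraMap M (E₁ ⊗[F] M) h, algebraMap_mem_KR _ _ h⟩ = κ h :=
        ev_algebraMap _ _ _ _ hc h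
      rw [← h1, ← h2, ← map_pow, ← map_mul]
      congr 1
      exact Subtype.ext e2

end Main

section NoRoot

variable {M Ω : Type*} [Field M] [NormedField Ω] [IsUltrametricDist Ω]

/-- If `h` is not an `n`-th power up to `1`-units, then `h' = h α ^ n` is not an `n`-th power in a
subfield of `Ω` in which `M` is dense. -/
theorem no_root (κ : M →+* Ω) (Y : Subfield Ω) (hY : ∀ α ∈ Y, ∀ ε : ℝ, 0 < ε → ∃ g : M, ‖κ g - α‖ < ε)
    (n : ℕ) (hn : n ≠ 0) (h h' : M) (h0 : h ≠ 0) (hno : ¬ ∃ g : M, ‖κ (h - g ^ n)‖ < ‖κ h‖)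
    {α α' : Ω} (hα : α ∈ Y) (hαα : α * α' = 1) (e : κ h' = κ h * α ^ n) :
    ∀ w ∈ Y, w ^ n ≠ κ h' := by
  intro w hw hwn
  have hα0 : α ≠ 0 := left_ne_zero_of_mul_eq_one hαα
  have hκh : κ h ≠ 0 := (map_ne_zero κ).2 h0
  set z := w / α with hz
  have hzY : z ∈ Y := Y.div_mem hw hα
  have hzn : z ^ n = κ h := by
    rw [hz, div_pow, hwn, e, mul_div_cancel_right₀ _ (pow_ne_zero _ hα0)]
  have hz0 : z ≠ 0 := by
    intro h1; rw [h1, zero_pow hn] at hzn; exact hκh hzn.symm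
  obtain ⟨g, hg⟩ := hY z hzY ‖z‖ (norm_pos_iff.2 hz0)
  have hgz : ‖κ g‖ ≤ ‖z‖ := by
    have h1 : κ g = (κ g - z) + z := by ring
    rw [h1]
    exact (IsUltrametricDist.norm_add_le_max _ _).trans (max_le hg.le le_rfl)
  apply hno
  refine ⟨g, ?_⟩
  rw [map_sub, map_pow, ← hzn, norm_sub_rev, ← (Commute.all (κ g) z).mul_geom_sum₂ n, norm_mul,
    norm_pow]
  obtain ⟨m, rfl⟩ := Nat.exists_eq_succ_of_ne_zero hn
  have h2 : ‖∑ i ∈ Finset.range (m + 1), κ g ^ i * z ^ (m + 1 - 1 - i)‖ ≤ ‖z‖ ^ m := by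
    refine IsUltrametricDist.norm_sum_le_of_forall_le_of_nonneg (by positivity) fun i hi => ?_
    rw [Finset.mem_range] at hi
    rw [norm_mul, norm_pow, norm_pow]
    calc ‖κ g‖ ^ i * ‖z‖ ^ (m + 1 - 1 - i) ≤ ‖z‖ ^ i * ‖z‖ ^ (m + 1 - 1 - i) :=
          mul_le_mul_of_nonneg_right (pow_le_pow_left₀ (norm_nonneg _) hgz _) (by positivity)
      _ = ‖z‖ ^ m := by rw [← pow_add]; congr 1; omega
  have hzpos : 0 < ‖z‖ := norm_pos_iff.2 hz0
  calc ‖κ g - z‖ * ‖∑ i ∈ Finset.range (m + 1), κ g ^ i * z ^ (m + 1 - 1 - i)‖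
      ≤ ‖κ g - z‖ * ‖z‖ ^ m := mul_le_mul_of_nonneg_left h2 (norm_nonneg _)
    _ < ‖z‖ * ‖z‖ ^ m := mul_lt_mul_of_pos_right hg (by positivity)
    _ = ‖z‖ ^ (m + 1) := by rw [pow_succ']

end NoRoot

end Crest.Agent.R013.RePatch_920
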