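import Mathlib
import Crest.Agent.R013.Red16_332
import Crest.Agent.R013.CB1f_903

/-!
# R013 / Red17: existence of semistable structures from the local inputs of 109's `Inp`
(helper332)
-/

set_option autoImplicit false
set_option linter.all false

universe u v

namespace Crest.Agent.R013.Red332

open scoped NNReal
open WithZero IsLocalRing Polynomial Module
open Crest.Agent.R013.RR7_948
open Crest.Agent.R013.EE809 Crest.Agent.R013.CAn_243
open Crest.Agent.R013.Cell_408 Crest.Agent.R013.Comp_267 Crest.Agent.R013.Good_408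
open Crest.Agent.R013.PL_109 Crest.Agent.R013.LineDec_315 Crest.Agent.R013.SSK_332
open Crest.Agent.R013.SSG_109 Crest.Agent.R013.SSZorn_315

variable {k : Type v} {C K : Type u} [NontriviallyNormedField k]
    [CompleteSpace k] [IsUltrametricDist k] [NormedField C] [IsUltrametricDist C] [NormedAlgebra k C]
    [Algebra.IsAlgebraic k C] [IsAlgClosed C] [hk : Fact (DiscNorm k)]
    [Field K] [Algebra C K] [Algebra (RatFunc C) K] [IsScalarTower C (RatFunc C) K]
    [FiniteDimensional (RatFunc C) K]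

/-- 460: the norms over a vertex -/
theorem sat_vertex [CharZero C] (p : ℕ) [Fact p.Prime] (hp : ‖(p : C)‖₊ < 1) (D : LineDec k C K)
    (x : D.V) : Nonempty (SAt (RatFunc C) K (gvx D x)) := by
  have hr : nv C (D.ρ x) ≠ 0 := (Valuation.ne_zero_iff _).2 (D.ρ_ne x)
  obtain ⟨E, i1, i2, i3, i4, hd, hw, I, iI, ⟨o⟩⟩ :=
    StabR_460.out_gaussR (nv C) p hp (D.a x) (D.ρ x) (D.ρ_ne x) hr K
  exact SAt.ofOut o (gvx D x) fun f => (hw f).symm

/-- **existence of semistable structures**, from the local inputs and the point data -/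
theorem exists_SSK_of_inp [CharZero C] (p : ℕ) [Fact p.Prime] (hp : ‖(p : C)‖₊ < 1)
    (hI : Inp (nv C) (GoodDisc k C K) (GoodAnn k C K) (GoodInf k C K))
    (hP : ∀ D : LineDec k C K, Nonempty (PtCells D)) (T : Finset (C × ℝ≥0))
    (hT : ∀ t ∈ T, IsVal (nv C) t.2) :
    ∃ (S : SSK k C K) (B : Set (Valuation (RatFunc C) ℝ≥0)), S.Base B ∧
      (∀ η ∈ B, ∃ (a : C) (r : ℝ≥0) (hr : r ≠ 0), η = gaussR (nv C) a r hr) ∧
      (∀ t ∈ T, ∀ ht : t.2 ≠ 0, gaussR (nv C) t.1 t.2 ht ∈ B) ∧
      ∀ w : Nm C K, w.v.comap (algebraMap (RatFunc C) K) ∈ B ↔ ∃ v, S.nm v = w := by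
  classical
  obtain ⟨V, E, ρ₀, hρ₀, L, hLT⟩ := exists_lineTree hI T hT
  obtain ⟨D, hD⟩ := exists_lineDec L
  obtain ⟨P⟩ := hP D
  obtain ⟨S, h1, h2⟩ := exists_SSK_of_lineDec (sat_vertex p hp D) P
  refine ⟨S, Set.range (gvx D), h2, ?_, ?_, fun w => ?_⟩
  · rintro _ ⟨x, rfl⟩
    exact ⟨_, _, _, rfl⟩
  · intro t ht ht0
    obtain ⟨x, hx, h3, h4⟩ := hLT t ht
    obtain ⟨x', h5, h6⟩ := hD x hx
    refine ⟨x', ?_⟩
    refine gaussR_congr _ _ (by rw [h6, h4]) ?_
    rw [h5, h6, h4, ← nnnorm_neg, neg_sub]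
    exact h3
  · rw [← h1 w]
    constructor
    · rintro ⟨x, hx⟩
      exact ⟨x, fun f => by rw [hx]; rfl⟩
    · rintro ⟨x, hx⟩
      refine ⟨x, ?_⟩
      ext f
      rw [Valuation.comap_apply, hx f]

/-- a norm for which `(x - a) / r` has transcendental reduction is over the Gauss norm -/
theorem comap_eq_gauss (w : Nm C K) (a : C) {r : C} (hr : r ≠ 0)
    (h1 : w.v (algebraMap (RatFunc C) K (fT a r)) ≤ 1)
    (h2 : Transcendental (Ct C) (red w (algebraMap (RatFunc C) K (fT a r))))
    (hr' : ‖r‖₊ ≠ 0) :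
    w.v.comap (algebraMap (RatFunc C) K) = gaussR (nv C) a ‖r‖₊ hr' := by
  have hlin : ∀ c : C, w.v (algebraMap (RatFunc C) K (fT a r) - algebraMap C K c) = max 1 ‖c‖₊ := by
    intro c
    rcases le_or_gt ‖c‖₊ 1 with hc | hc
    · rw [max_eq_left hc]
      have hle : w.v (algebraMap (RatFunc C) K (fT a r) - algebraMap C K c) ≤ 1 :=
        (w.v.map_sub _ _).trans (max_le h1 (by rw [w.hC]; exact hc))
      refine le_antisymm hle (not_lt.1 fun hlt => ?_)
      have h3 := (red_eq_iff w (f := algebraMap (RatFunc C) K (fT a r)) (g := algebraMap C K c) h1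
        (by rw [w.hC]; exact hc)).2 hlt
      rw [red_C w c hc] at h3
      rw [h3] at h2
      exact h2 (isAlgebraic_algebraMap _)
    · rw [max_eq_right hc.le, sub_eq_add_neg, ← map_neg, add_comm,
        Valuation.map_add_eq_of_lt_left _ (by rw [w.hC, nnnorm_neg]; exact h1.trans_lt hc), w.hC,
        nnnorm_neg]
  apply ext_of_linear
  · intro c
    rw [gaussR_C, Valuation.comap_apply]
    have : algebraMap (RatFunc C) K (RatFunc.C c) = algebraMap C K c :=
      (IsScalarTower.algebraMap_apply C (RatFunc C) K c).symm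
    rw [this, w.hC]
    rfl
  · intro b
    rw [gaussR_X_sub, Valuation.comap_apply]
    have e1 : (RatFunc.X - RatFunc.C b : RatFunc C) =
        algebraMap C _ r * (fT a r - algebraMap C _ ((b - a) / r)) := by
      have h2 := fT_change a b r hr
      rw [h2, add_sub_cancel_right, algC, fT, mul_div_cancel₀ _ (ratC_ne hr)]
    rw [e1, map_mul, map_sub, ← IsScalarTower.algebraMap_apply, ← IsScalarTower.algebraMap_apply,
      map_mul, hlin, w.hC, mul_max_of_nonneg _ _ zero_le, mul_one, nnnorm_div,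
      mul_div_cancel₀ _ hr', ← nnnorm_neg (b - a), neg_sub]
    rfl

end Crest.Agent.R013.Red332

namespace Crest.Agent.R013.Red332

open scoped NNReal
open WithZero IsLocalRing Polynomial Module
open Crest.Agent.R013.RR7_948
open Crest.Agent.R013.Cell_408 Crest.Agent.R013.Good_408
open Crest.Agent.R013.PL_109 Crest.Agent.R013.LineDec_315 Crest.Agent.R013.SSK_332
open Crest.Agent.R013.SSG_109 Crest.Agent.R013.SSZorn_315

variable {k : Type v} {C : Type u} [NontriviallyNormedField k]
    [CompleteSpace k] [IsUltrametricDist k] [NormedField C] [IsUltrametricDist C] [NormedAlgebra k C]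
    [Algebra.IsAlgebraic k C] [IsAlgClosed C] [hk : Fact (DiscNorm k)]

/-- the local inputs for all function fields -/
def InpAll (k : Type v) (C : Type u) [NontriviallyNormedField k]
    [CompleteSpace k] [IsUltrametricDist k] [NormedField C] [IsUltrametricDist C] [NormedAlgebra k C]
    [Algebra.IsAlgebraic k C] [IsAlgClosed C] [hk : Fact (DiscNorm k)] : Prop :=
  ∀ (K : Type u) [Field K] [Algebra C K] [Algebra (RatFunc C) K] [IsScalarTower C (RatFunc C) K]
    [FiniteDimensional (RatFunc C) K],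
    Inp (nv C) (GoodDisc k C K) (GoodAnn k C K) (GoodInf k C K)

/-- the point data for all decompositions -/
def PtAll (k : Type v) (C : Type u) [NontriviallyNormedField k]
    [CompleteSpace k] [IsUltrametricDist k] [NormedField C] [IsUltrametricDist C] [NormedAlgebra k C]
    [Algebra.IsAlgebraic k C] [IsAlgClosed C] [hk : Fact (DiscNorm k)] : Prop :=
  ∀ (K : Type u) [Field K] [Algebra C K] [Algebra (RatFunc C) K] [IsScalarTower C (RatFunc C) K]
    [FiniteDimensional (RatFunc C) K] (D : LineDec k C K), Nonempty (PtCells D)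

/-- 903's input -/
theorem inDisc [CharZero C] (p : ℕ) [Fact p.Prime] (hp : ‖(p : C)‖₊ < 1) (hI : InpAll k C)
    (hP : PtAll k C) : CB1_903.InDisc.{u} k C := by
  classical
  intro K _ _ _ _ _ _ a r hr
  have hr' : ‖r‖₊ ≠ 0 := by rwa [Ne, nnnorm_eq_zero]
  obtain ⟨S, B, h1, h2, h3, h4⟩ := exists_SSK_of_inp (K := K) p hp (hI K) (hP K) {(a, ‖r‖₊)}
    (fun t ht => by
      rw [Finset.mem_singleton] at ht
      subst ht
      exact ⟨hr', r, rfl⟩)
  refine ⟨S, fun w hw1 hw2 => (h4 w).1 ?_⟩
  have e : (RR8_948.xK C K - algebraMap C K a) * algebraMap C K r⁻¹ =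
      algebraMap (RatFunc C) K (fT a r) := by
    rw [fT, map_div₀, map_sub, map_inv₀, div_eq_mul_inv]
    congr 1
    · congr 1
      exact IsScalarTower.algebraMap_apply C (RatFunc C) K a
    · congr 1
      exact IsScalarTower.algebraMap_apply C (RatFunc C) K r
  rw [e] at hw1 hw2
  rw [comap_eq_gauss w a hr hw1 hw2 hr']
  exact h3 (a, ‖r‖₊) (Finset.mem_singleton_self _) hr'

end Crest.Agent.R013.Red332
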