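import Crest.Agent.R013.Sub9_270
import Crest.Agent.R013.SSG1_109

/-! # R013 / Sub10_270 : `SubIn` (109) for good discs and annuli. -/

set_option autoImplicit false
set_option linter.unusedSectionVars false

open scoped NNReal

namespace Crest.Agent.R013.Sub_270

open Crest.Agent.R013.Cell_408 Crest.Agent.R013.Good_408 Crest.Agent.R013.SSG_109

variable (k : Type*) {C : Type*} [NontriviallyNormedField k] [CompleteSpace k] [IsUltrametricDist k]
  [NormedField C] [IsUltrametricDist C] [NormedAlgebra k C] [Algebra.IsAlgebraic k C] [IsAlgClosed C]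
  [hk : Fact (DiscNorm k)]
variable (K : Type*) [Field K] [Algebra C K] [Algebra (RatFunc C) K]
    [IsScalarTower C (RatFunc C) K] [FiniteDimensional (RatFunc C) K]

/-- **SS-SUB**: heredity of good cells -/
theorem subIn (v : Valuation C ℝ≥0) (hv : ∀ c, v c = ‖c‖₊) :
    SubIn v (GoodDisc k C K) (GoodAnn k C K) (GoodInf k C K) where
  s1 a ρ a' ρ' h h1 h0 h2 := by
    simp only [hv] at h1 h2
    exact goodDisc_sub k K h h1 h0 h2
  s2 a σ ρ c τ h h1 h2 h0 h3 := by
    simp only [hv] at h1 h2 h3
    exact goodAnn_disc k K h h1 h2 h0 h3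
  s3 a σ ρ σ' ρ' h h1 h2 h3 := by
    simp only [hv] at h1 h2 h3
    exact goodAnn_ann k K h h1 h2 h3
  sInf ρ ρ' h h1 := by
    simp only [hv] at h1
    exact goodInf_sub k K h h1

end Crest.Agent.R013.Sub_270
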