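import Crest.Agent.R013.Red17_332
import Crest.Agent.R013.Sub10_270
import Crest.Agent.R013.OneGood_863
import Crest.Agent.R013.Spr11_607
import Crest.Agent.R013.Spt9_260

/-!
# R013 / Red18_332 : the local inputs of semistable reduction (all but type 2 points)

`inp_of`: 109's `Inp` for the good cells, from the inputs at type 2 points (`DirIn`, `EndIn`);
heredity is 270's `subIn`, type 1 points are 863's `goodDisc`/`goodInf`, type 3 points are 260's
`spr3`, type 4 points are 607's `spr4`.
-/

set_option autoImplicit false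
set_option linter.unusedSectionVars false

universe v u

namespace Crest.Agent.R013.Red332

open scoped NNReal
open Crest.Agent.R013.Cell_408 Crest.Agent.R013.Good_408
open Crest.Agent.R013.PL_109 Crest.Agent.R013.LineDec_315
open Crest.Agent.R013.SSG_109

variable (k : Type v) {C : Type u} (K : Type u) [NontriviallyNormedField k]
    [CompleteSpace k] [IsUltrametricDist k] [NormedField C] [IsUltrametricDist C] [NormedAlgebra k C]
    [Algebra.IsAlgebraic k C] [IsAlgClosed C] [hk : Fact (DiscNorm k)]
    [Field K] [Algebra C K] [Algebra (RatFunc C) K] [IsScalarTower C (RatFunc C) K]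
    [FiniteDimensional (RatFunc C) K]

theorem oneIn [CharZero C] : OneIn (GoodDisc k C K) (GoodInf k C K) := by
  refine ⟨fun a => ?_, ?_⟩
  · obtain ⟨r0, h0, h1⟩ := One_863.goodDisc k C K a
    exact ⟨r0, h0, h1 r0 h0 le_rfl⟩
  · obtain ⟨r0, h0, h1⟩ := One_863.goodInf k C K
    exact ⟨r0, h0, h1 r0 le_rfl⟩

/-- the local inputs, from those at the points of type 2 -/
theorem inp_of [CharZero C] {p : ℕ} (hp : p.Prime) (hp1 : ‖(p : C)‖ < 1)
    (dir : DirIn (nv C) (GoodDisc k C K)) (fin : EndIn (nv C) (GoodAnn k C K)) :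
    Inp (nv C) (GoodDisc k C K) (GoodAnn k C K) (GoodInf k C K) where
  sub := Sub_270.subIn k K (nv C) fun _ => rfl
  one := oneIn k K
  dir := dir
  fin := fin
  spr3 := Spread3_260.spr3 hp hp1 (nv C) fun _ => rfl
  spr4 := Spread_607.spr4 hp hp1 (nv C) fun _ => rfl

end Crest.Agent.R013.Red332
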