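import Mathlib
import Crest.Agent.R013.RedD7_310

/-!
# R013 / RedM1: the maximum principle for `dlog h`, `p ^ n ∣ div h`, on a semistable structure
(helper310)

If `‖dlog h‖_v` is maximal (over all vertices) and `> |p^n|`, then the reduction of `dlog h` at `v`
has at most simple poles, and only at the ends of annuli.
-/

set_option autoImplicit false
set_option linter.all false

namespace Crest.Agent.R013.RedD_310

open WithZero
open scoped NNReal
open Crest.Agent.R013.Cell_408 (FinDef DiscNorm)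
open Crest.Agent.R013.EE809 Crest.Agent.R013.SSK_332
open Crest.Agent.R013.RR7_948 Crest.Agent.R013.RR8_948 Crest.Agent.R013.RR9_948
open Crest.Agent.R013.RR11_948 Crest.Agent.R013.RR14_948
open Crest.Agent.R013.Red332 hiding od

section loc

variable {k : Type*} [NontriviallyNormedField k] [CompleteSpace k] [IsUltrametricDist k]
variable {C : Type*} [NormedField C] [IsUltrametricDist C] [NormedAlgebra k C]
  [Algebra.IsAlgebraic k C] [IsAlgClosed C] [hk : Fact (DiscNorm k)]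

/-! ### logarithmic derivatives -/

/-- `dlog` -/
noncomputable def dl (a : EE k C) : EE k C := dT k C a / a

theorem dl_mul {a b : EE k C} (ha : a ≠ 0) (hb : b ≠ 0) : dl (a * b) = dl a + dl b := by
  unfold dl
  rw [dT_mul, div_add_div _ _ ha hb]
  congr 1
  ring

theorem dl_pow {a : EE k C} (ha : a ≠ 0) (n : ℕ) : dl (a ^ n) = (n : C) • dl a := by
  induction n with
  | zero =>
    rw [pow_zero, Nat.cast_zero, zero_smul]
    unfold dl
    rw [Derivation.map_one_eq_zero, zero_div]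
  | succ n ih =>
    rw [pow_succ, dl_mul (pow_ne_zero n ha) ha, ih, Nat.cast_succ, add_smul, one_smul]

theorem gn_dl_le (a : EE k C) : gn (dl a) ≤ 1 := by
  by_cases ha : a = 0
  · rw [ha]; unfold dl; rw [div_zero, gn_zero]; exact zero_le_one
  · unfold dl
    rw [gn_div]
    exact div_le_one_of_le₀ (gn_dT_le a) (gn_nonneg a)

theorem dl_eq_of {a b : EE k C} (h : a * b = 1) : dl a = dT k C a * b := by
  have ha : a ≠ 0 := by rintro rfl; rw [zero_mul] at h; exact zero_ne_one h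
  unfold dl
  rw [div_eq_mul_inv, ← eq_inv_of_mul_eq_one_right h]

theorem le_od_of {a : EE k C} {j0 : ℤ} (ha : a ≠ 0) (h : ∀ j < j0, ‖a.co j‖ < gn a) :
    j0 ≤ EE809.od a := by
  by_contra hlt
  push Not at hlt
  have := h _ hlt
  rw [norm_co_od hk.out ha] at this
  exact lt_irrefl _ this

/-! ### products with integral multiplicities -/

/-- `∏ (T - τ)^{m τ}` -/
noncomputable def linM (k : Type*) {C : Type*} [NontriviallyNormedField k] [CompleteSpace k]
    [IsUltrametricDist k] [NormedField C] [IsUltrametricDist C] [NormedAlgebra k C]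
    [Algebra.IsAlgebraic k C] [IsAlgClosed C] [hk : Fact (DiscNorm k)] (m : C →₀ ℤ) : EE k C :=
  m.prod fun τ n => (lin τ : EE k C) ^ n

theorem linM_add (m m' : C →₀ ℤ) : linM k (m + m') = linM k m * linM k m' := by
  classical
  exact Finsupp.prod_add_index' (fun τ => zpow_zero _) (fun τ a b => zpow_add₀ (lin_ne_zero τ) a b)

theorem linM_zero : linM k (0 : C →₀ ℤ) = 1 := Finsupp.prod_zero_index

theorem linM_single (τ : C) (n : ℤ) : linM k (Finsupp.single τ n) = lin τ ^ n :=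
  Finsupp.prod_single_index (zpow_zero _)

theorem linM_ne_zero (m : C →₀ ℤ) : linM k m ≠ 0 := by
  unfold linM Finsupp.prod
  exact Finset.prod_ne_zero_iff.2 fun τ _ => zpow_ne_zero _ (lin_ne_zero τ)

theorem linM_neg (m : C →₀ ℤ) : linM k (-m) = (linM k m)⁻¹ := by
  refine (inv_eq_of_mul_eq_one_right ?_).symm
  rw [← linM_add, add_neg_cancel, linM_zero]

theorem linM_nsmul (m : C →₀ ℤ) (N : ℕ) : linM k (N • m) = linM k m ^ N := by
  induction N with
  | zero => rw [zero_smul, linM_zero, pow_zero]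
  | succ N ih => rw [succ_nsmul, linM_add, ih, pow_succ]

theorem linM_mlt (Z Z' : Multiset C) : linM k (mlt Z Z') = linP k Z / linP k Z' := by
  classical
  have key : ∀ Y : Multiset C,
      linM k ((Multiset.toFinsupp Y).mapRange (fun n : ℕ => (n : ℤ)) rfl) = linP k Y := by
    intro Y
    induction Y using Multiset.induction_on with
    | empty => rw [map_zero, Finsupp.mapRange_zero, linM_zero, linP_zero]
    | cons σ Y ih =>
      have h1 : Multiset.toFinsupp (σ ::ₘ Y) = Finsupp.single σ 1 + Multiset.toFinsupp Y := by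
        rw [← Multiset.singleton_add, map_add, Multiset.toFinsupp_singleton]
      rw [h1, Finsupp.mapRange_add (fun a b => Nat.cast_add a b), linM_add, ih, linP_cons,
        Finsupp.mapRange_single, linM_single, Nat.cast_one, zpow_one]
  unfold mlt
  rw [sub_eq_add_neg, linM_add, linM_neg, key, key, div_eq_mul_inv]

/-- divisible multiplicities -/
theorem exists_root_linM {m : C →₀ ℤ} {N : ℕ} (hN : ∀ τ, (N : ℤ) ∣ m τ) :
    ∃ m' : C →₀ ℤ, linM k m = linM k m' ^ N := by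
  classical
  refine ⟨m.mapRange (fun a => a / N) (Int.zero_ediv _), ?_⟩
  rw [← linM_nsmul]
  congr 1
  ext τ
  rw [Finsupp.smul_apply, Finsupp.mapRange_apply, nsmul_eq_mul]
  exact (Int.mul_ediv_cancel' (hN τ)).symm

variable {X : CellI k C}

/-- a quotient of factored elements whose orders are divisible by `N` -/
theorem exists_pow_mul_unit {u : EE k C} {Z Z' : Multiset C} {e e' e₂ e₂' : EE k C} (he : e ∈ X.B)
    (he' : e' ∈ X.B) (h : e * e' = 1) (he₂ : e₂ ∈ X.B) (he₂' : e₂' ∈ X.B) (h₂ : e₂ * e₂' = 1)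
    (hu : u * (linP k Z' * e₂) = linP k Z * e) {N : ℕ} (hN : ∀ τ, (N : ℤ) ∣ mlt Z Z' τ) :
    ∃ (m : C →₀ ℤ) (E E' : EE k C), E ∈ X.B ∧ E' ∈ X.B ∧ E * E' = 1 ∧ u = linM k m ^ N * E := by
  obtain ⟨G, hG⟩ := exists_root_linM (k := k) hN
  refine ⟨G, e * e₂', e₂ * e', X.B.mul_mem he he₂', X.B.mul_mem he₂ he', ?_, ?_⟩
  · calc e * e₂' * (e₂ * e') = (e * e') * (e₂ * e₂') := by ring
      _ = 1 := by rw [h, h₂, mul_one]
  · rw [← hG, linM_mlt]
    have h3 : linP k Z' ≠ 0 := linP_ne_zero Z'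
    have h4 : u * linP k Z' = linP k Z * (e * e₂') := by
      calc u * linP k Z' = u * linP k Z' * (e₂ * e₂') := by rw [h₂, mul_one]
        _ = (u * (linP k Z' * e₂)) * e₂' := by ring
        _ = linP k Z * (e * e₂') := by rw [hu]; ring
    field_simp
    rw [h4]
    ring

/-- the logarithmic derivative: a multiple of `N` plus the one of a unit -/
theorem dl_pow_mul {u G E E' : EE k C} (hG : G ≠ 0) (hE : E * E' = 1) {N : ℕ}
    (hu : u = G ^ N * E) : dl u = (N : C) • dl G + dT k C E * E' := by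
  have hE0 : E ≠ 0 := by rintro rfl; rw [zero_mul] at hE; exact zero_ne_one hE
  rw [hu, dl_mul (pow_ne_zero N hG) hE0, dl_pow hG, dl_eq_of hE]

theorem norm_smul_dl_le (c : C) (G : EE k C) (j : ℤ) : ‖(c • dl G).co j‖ ≤ ‖c‖ := by
  rw [co_smul, norm_mul]
  calc _ ≤ ‖c‖ * 1 := mul_le_mul_of_nonneg_left ((le_gn _ j).trans (gn_dl_le G)) (norm_nonneg _)
    _ = ‖c‖ := mul_one _

/-- **disc**: `dlog u` has no pole in the reduction -/
theorem od_dl_disc {u g h : EE k C} (hg : InD g) (hh : InD h) (hh0 : h ≠ 0) (hu : u * h = g)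
    (hu0 : u ≠ 0) {N : ℕ} (hN : ∀ τ n, ‖τ‖ < 1 → HasOrd (cD k C) τ u n → (N : ℤ) ∣ n)
    (hM : ‖(N : C)‖ < gn (dl u)) : 0 ≤ EE809.od (dl u) := by
  classical
  have hg0 : g ≠ 0 := by rw [← hu]; exact mul_ne_zero hu0 hh0
  obtain ⟨Z, hZ, hZc, e, e', he, he', hee, rfl⟩ := wD hg0 hg
  obtain ⟨Z', hZ', hZc', e₂, e₂', he₂, he₂', hee₂, rfl⟩ := wD hh0 hh
  have hdiv : ∀ τ, (N : ℤ) ∣ mlt Z Z' τ := by
    intro τ
    by_cases hτ : ‖τ‖ < 1
    · exact hN τ _ hτ (hasOrd_quot (X := cD k C) he he' hee he₂ he₂' hee₂ hu hτ)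
    · rw [mlt_apply, Multiset.count_eq_zero_of_notMem fun h => hτ (hZ τ h),
        Multiset.count_eq_zero_of_notMem fun h => hτ (hZ' τ h)]
      simp
  obtain ⟨m0, E, E', hE, hE', hEE, huG⟩ :=
    exists_pow_mul_unit (X := cD k C) he he' hee he₂ he₂' hee₂ hu hdiv
  generalize hGd : linM k m0 = G at huG
  have hG : G ≠ 0 := by rw [← hGd]; exact linM_ne_zero _
  have h1 := dl_pow_mul hG hEE huG
  have h2 : InD (dT k C E * E') := InD.mul (inD_dFun hE) hE'
  have hne : dl u ≠ 0 := by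
    intro h0
    rw [h0, gn_zero] at hM
    exact absurd hM (not_lt.2 (norm_nonneg _))
  refine le_od_of hne fun j hj => ?_
  rw [h1, co_add, h2 j hj, add_zero, ← h1]
  exact (norm_smul_dl_le _ G j).trans_lt hM

theorem FlipF.symm {c : C} (hc : c ≠ 0) {u u' : EE k C} (hf : FlipF c u u') : FlipF c u' u := by
  unfold FlipF at hf
  obtain ⟨g, h, g', h', h0, hg, hh, e1, e2, e3, e4⟩ := hf
  exact ⟨g', h', g, h, Flip.ne_zero hc e2 h0, Flip.inA hc e1, Flip.inA hc e2, Flip.symm hc e1,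
    Flip.symm hc e2, e4, e3⟩

theorem FlipF.uniq {c : C} (hc0 : c ≠ 0) (hc1 : ‖c‖ < 1) {u u' v : EE k C} (hf : FlipF c u u')
    (hf' : FlipF c u v) : u' = v := by
  unfold FlipF at hf hf'
  obtain ⟨g, h, g', h', h0, hg, hh, e1, e2, e3, e4⟩ := hf
  obtain ⟨p, q, p', q', q0, hp, hq, f1, f2, f3, f4⟩ := hf'
  -- g q = p h, so g' q' = p' h'
  have k1 : g * q = p * h := by rw [← e3, ← f3]; ring
  have k2 := Flip.mul (hc0 := hc0) hc1 hg hq e1 f2
  have k3 := Flip.mul (hc0 := hc0) hc1 hp hh f1 e2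
  rw [k1] at k2
  have k4 := Flip.uniq k2 k3
  have h0' := Flip.ne_zero hc0 e2 h0
  have q0' := Flip.ne_zero hc0 f2 q0
  apply mul_right_cancel₀ (mul_ne_zero h0' q0')
  calc u' * (h' * q') = (u' * h') * q' := by ring
    _ = p' * h' := by rw [e4, k4]
    _ = v * (h' * q') := by rw [← f4]; ring

theorem flip_one (c : C) : Flip c (1 : EE k C) 1 := fun n => by
  rw [co_one, co_one]
  by_cases hn : n = 0
  · rw [hn]; simp
  · rw [if_neg hn, if_neg (by omega), zero_mul]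

theorem inA_one {c : C} (hc0 : c ≠ 0) : InA c (1 : EE k C) := (rA k c hc0).one_mem

theorem FlipF.of_flip {c : C} (hc0 : c ≠ 0) {a a' : EE k C} (h : Flip c a a') (ha : InA c a) :
    FlipF c a a' :=
  ⟨a, 1, a', 1, one_ne_zero, ha, inA_one hc0, h, flip_one c, mul_one _, mul_one _⟩

theorem FlipF.one {c : C} (hc0 : c ≠ 0) : FlipF c (1 : EE k C) 1 :=
  FlipF.of_flip hc0 (flip_one c) (inA_one hc0)

theorem FlipF.inv {c : C} (hc0 : c ≠ 0) {u u' : EE k C} (hu : u ≠ 0) (hf : FlipF c u u') :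
    FlipF c u⁻¹ u'⁻¹ := by
  unfold FlipF at hf
  obtain ⟨g, h, g', h', h0, hg, hh, e1, e2, e3, e4⟩ := hf
  have hg0 : g ≠ 0 := by rw [← e3]; exact mul_ne_zero hu h0
  have hg0' : g' ≠ 0 := Flip.ne_zero hc0 e1 hg0
  have hu' : u' ≠ 0 := by rintro rfl; rw [zero_mul] at e4; exact hg0' e4.symm
  refine ⟨h, g, h', g', hg0, hh, hg, e2, e1, ?_, ?_⟩
  · rw [← e3, inv_mul_cancel_left₀ hu]
  · rw [← e4, inv_mul_cancel_left₀ hu']

theorem FlipF.pow {c : C} (hc0 : c ≠ 0) (hc1 : ‖c‖ < 1) {u u' : EE k C} (h : FlipF c u u') (n : ℕ) :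
    FlipF c (u ^ n) (u' ^ n) := by
  induction n with
  | zero => rw [pow_zero, pow_zero]; exact FlipF.one hc0
  | succ n ih => rw [pow_succ, pow_succ]; exact FlipF.mul hc0 hc1 ih h

theorem FlipF.zpow {c : C} (hc0 : c ≠ 0) (hc1 : ‖c‖ < 1) {u u' : EE k C} (hu : u ≠ 0)
    (h : FlipF c u u') (n : ℤ) : FlipF c (u ^ n) (u' ^ n) := by
  cases n with
  | ofNat n =>
    rw [Int.ofNat_eq_natCast, zpow_natCast, zpow_natCast]
    exact FlipF.pow hc0 hc1 h n
  | negSucc n =>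
    rw [zpow_negSucc, zpow_negSucc]
    exact FlipF.inv hc0 (pow_ne_zero _ hu) (FlipF.pow hc0 hc1 h _)

theorem FlipF.ne_zero {c : C} (hc0 : c ≠ 0) {u u' : EE k C} (hu : u ≠ 0) (hf : FlipF c u u') :
    u' ≠ 0 := by
  unfold FlipF at hf
  obtain ⟨g, h, g', h', h0, hg, hh, e1, e2, e3, e4⟩ := hf
  have hg0 : g ≠ 0 := by rw [← e3]; exact mul_ne_zero hu h0
  have hg0' : g' ≠ 0 := Flip.ne_zero hc0 e1 hg0
  rintro rfl
  rw [zero_mul] at e4
  exact hg0' e4.symm

theorem exists_flipF_linM {c : C} (hc0 : c ≠ 0) (hc1 : ‖c‖ < 1) (m : C →₀ ℤ) :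
    ∃ G' : EE k C, FlipF c (linM k m) G' := by
  classical
  induction m using Finsupp.induction with
  | zero => exact ⟨1, by rw [linM_zero]; exact FlipF.one hc0⟩
  | single_add τ n m _ _ ih =>
    obtain ⟨G', hG'⟩ := ih
    have h1 : InA c (lin τ : EE k C) := inA_lin hc0 τ
    have h2 := flip_flip' (k := k) hc0 hc1 h1
    refine ⟨(AnW_201.flip c hc0 hc1 (lin τ) h1) ^ n * G', ?_⟩
    rw [linM_add, linM_single]
    exact FlipF.mul hc0 hc1 (FlipF.zpow hc0 hc1 (lin_ne_zero τ) (FlipF.of_flip hc0 h2 h1) n) hG'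

theorem gn_nsmul_dl_le (c : C) (G : EE k C) : gn (c • dl G) ≤ ‖c‖ := gn_le (norm_smul_dl_le c G)

theorem aux_ann {c : C} (hc0 : c ≠ 0) (hc1 : ‖c‖ < 1) {r r' : EE k C}
    (h : ∀ j, ‖r.co j‖ = ‖r'.co (-j - 2)‖ * ‖c‖ ^ (-j - 1)) {M : ℝ} (hM : 0 < M) (h' : gn r' ≤ M)
    {j : ℤ} (hj : j < -1) : ‖r.co j‖ < M := by
  have hc' : 0 < ‖c‖ := norm_pos_iff.2 hc0
  rw [h j]
  have h1 : ‖c‖ ^ (-j - 1) ≤ ‖c‖ := by
    calc ‖c‖ ^ (-j - 1) ≤ ‖c‖ ^ (1 : ℤ) :=
          zpow_le_zpow_right_of_le_one₀ hc' hc1.le (by omega)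
      _ = ‖c‖ := zpow_one _
  calc ‖r'.co (-j - 2)‖ * ‖c‖ ^ (-j - 1) ≤ M * ‖c‖ :=
        mul_le_mul ((le_gn _ _).trans h') h1 (zpow_nonneg hc'.le _) hM.le
    _ < M * 1 := mul_lt_mul_of_pos_left hc1 hM
    _ = M := mul_one _

/-- **annulus**: `dlog u` has at most a simple pole in the reduction at an end where the norm is
maximal -/
theorem od_dl_ann {c : C} (hc0 : c ≠ 0) (hc1 : ‖c‖ < 1) {u u' : EE k C} (hu0 : u ≠ 0)
    (hf : FlipF c u u') {N : ℕ}
    (hN : ∀ τ n, ‖c‖ < ‖τ‖ → ‖τ‖ < 1 → HasOrd (cA k c hc0) τ u n → (N : ℤ) ∣ n) {M : ℝ}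
    (hM : ‖(N : C)‖ < M) (h1 : gn (dl u) ≤ M) (h1' : gn (dl u') ≤ M) :
    (gn (dl u) = M → -1 ≤ EE809.od (dl u)) ∧ (gn (dl u') = M → -1 ≤ EE809.od (dl u')) := by
  classical
  have hc' : 0 < ‖c‖ := norm_pos_iff.2 hc0
  have hf0 := hf
  unfold FlipF at hf
  obtain ⟨g, h, g', h', hh0, hg, hh, e1, e2, e3, e4⟩ := hf
  have hg0 : g ≠ 0 := by rw [← e3]; exact mul_ne_zero hu0 hh0
  obtain ⟨Z, hZ, hZc, e, e', he, he', hee, hgf⟩ := wA hc0 hc1 hg0 hg e1
  obtain ⟨Z', hZ', hZc', e₂, e₂', he₂, he₂', hee₂, hhf⟩ := wA hc0 hc1 hh0 hh e2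
  have hu : u * (linP k Z' * e₂) = linP k Z * e := by rw [← hgf, ← hhf, e3]
  have hdiv : ∀ τ, (N : ℤ) ∣ mlt Z Z' τ := by
    intro τ
    by_cases hτ : ‖c‖ < ‖τ‖ ∧ ‖τ‖ < 1
    · exact hN τ _ hτ.1 hτ.2 (hasOrd_quot (X := cA k c hc0) he he' hee he₂ he₂' hee₂ hu hτ)
    · rw [mlt_apply, Multiset.count_eq_zero_of_notMem fun h => hτ (hZ τ h),
        Multiset.count_eq_zero_of_notMem fun h => hτ (hZ' τ h)]
      simp
  obtain ⟨m0, E, E', hE, hE', hEE, huG⟩ :=
    exists_pow_mul_unit (X := cA k c hc0) he he' hee he₂ he₂' hee₂ hu hdiv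
  obtain ⟨G', hG'⟩ := exists_flipF_linM (k := k) hc0 hc1 m0
  have hG0 : linM k m0 ≠ 0 := linM_ne_zero _
  have hG0' : G' ≠ 0 := FlipF.ne_zero hc0 hG0 hG'
  have hE1 : InA c E := hE
  have hE1' : InA c E' := hE'
  have hEf := flip_flip' (k := k) hc0 hc1 hE1
  have hEf' := flip_flip' (k := k) hc0 hc1 hE1'
  generalize AnW_201.flip c hc0 hc1 E hE1 = F at hEf
  generalize AnW_201.flip c hc0 hc1 E' hE1' = F' at hEf'
  have hFF : F * F' = 1 := by
    have h3 := Flip.mul (hc0 := hc0) hc1 hE1 hE1' hEf hEf'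
    rw [hEE] at h3
    exact Flip.uniq h3 (flip_one c)
  have huG' : u' = G' ^ N * F := by
    refine FlipF.uniq hc0 hc1 hf0 ?_
    rw [huG]
    exact FlipF.mul hc0 hc1 (FlipF.pow hc0 hc1 hG' N) (FlipF.of_flip hc0 hEf hE1)
  have d1 := dl_pow_mul hG0 hEE huG
  have d2 := dl_pow_mul hG0' hFF huG'
  -- the unit parts
  have hr : ∀ j, ‖(dT k C E * E').co j‖ = ‖(dT k C F * F').co (-j - 2)‖ * ‖c‖ ^ (-j - 1) := by
    intro j
    have h3 := Flip.mul (hc0 := hc0) hc1 (inA_dFun hc0 hE1) hE1' (Flip.deriv hc0 hEf) hEf' (-j)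
    rw [mul_assoc, co_mo_mul, neg_neg, ← dT_apply, ← dT_apply] at h3
    have h4 := congrArg norm h3
    rw [norm_mul, norm_mul, norm_neg, norm_inv, norm_zpow] at h4
    have h5 : ‖c‖ ^ (-j - 1) = ‖c‖⁻¹ * (‖c‖ ^ j)⁻¹ := by
      rw [sub_eq_add_neg, zpow_add₀ hc'.ne', zpow_neg, zpow_neg_one, mul_comm]
    rw [h5]
    have h6 : ‖c‖ ^ j ≠ 0 := zpow_ne_zero _ hc'.ne'
    field_simp at h4 ⊢
    rw [h4]
  have hr' : ∀ j, ‖(dT k C F * F').co j‖ = ‖(dT k C E * E').co (-j - 2)‖ * ‖c‖ ^ (-j - 1) := by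
    intro j
    rw [hr (-j - 2)]
    have h5 : -(-j - 2) - 2 = j := by ring
    have h6 : -(-j - 2) - 1 = j + 1 := by ring
    rw [h5, h6, mul_assoc, ← zpow_add₀ hc'.ne', show (j + 1) + (-j - 1) = (0 : ℤ) by ring, zpow_zero,
      mul_one]
  have hM0 : 0 < M := (norm_nonneg _).trans_lt hM
  have g1 : gn (dT k C E * E') ≤ M := by
    have h3 : dT k C E * E' = dl u - (N : C) • dl (linM k m0) := by rw [d1]; ring
    rw [h3]
    exact (gn_sub_le _ _).trans (max_le h1 ((gn_nsmul_dl_le _ _).trans hM.le))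
  have g2 : gn (dT k C F * F') ≤ M := by
    have h3 : dT k C F * F' = dl u' - (N : C) • dl G' := by rw [d2]; ring
    rw [h3]
    exact (gn_sub_le _ _).trans (max_le h1' ((gn_nsmul_dl_le _ _).trans hM.le))
  constructor
  · intro h
    have hne : dl u ≠ 0 := by
      intro h0
      rw [h0, gn_zero] at h
      exact hM0.ne h
    refine le_od_of hne fun j hj => ?_
    rw [h, d1, co_add]
    exact (IsUltrametricDist.norm_add_le_max _ _).trans_lt
      (max_lt ((norm_smul_dl_le _ _ j).trans_lt hM) (aux_ann hc0 hc1 hr hM0 g2 hj))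
  · intro h
    have hne : dl u' ≠ 0 := by
      intro h0
      rw [h0, gn_zero] at h
      exact hM0.ne h
    refine le_od_of hne fun j hj => ?_
    rw [h, d2, co_add]
    exact (IsUltrametricDist.norm_add_le_max _ _).trans_lt
      (max_lt ((norm_smul_dl_le _ _ j).trans_lt hM) (aux_ann hc0 hc1 hr' hM0 g1 hj))

end loc

/-! ### on a semistable structure -/

section ssk

variable {k : Type*} [NontriviallyNormedField k] [CompleteSpace k] [IsUltrametricDist k]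
variable {C : Type*} [NormedField C] [IsUltrametricDist C] [NormedAlgebra k C]
  [Algebra.IsAlgebraic k C] [IsAlgClosed C] [hk : Fact (DiscNorm k)]
variable {K : Type*} [Field K] [Algebra C K] [Algebra (RatFunc C) K]
  [IsScalarTower C (RatFunc C) K] [FiniteDimensional (RatFunc C) K]
  [Algebra.IsSeparable (RatFunc C) K] (S : SSK k C K)

omit [FiniteDimensional (RatFunc C) K] in
/-- the expansion of `dlog h` is `dlog` of the expansion -/
theorem ex_dlog (d : S.Dir) (h : K) : ex (S.em d) (del C K h / h) = dl (S.em d h) := by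
  rw [div_eq_mul_inv, mul_comm, ex_mul, ex_del (S.em d) (S.em_C d), map_inv₀, dl, div_eq_mul_inv,
    mul_comm]

/-- **maximum principle, local form**: where `‖dlog h‖` is maximal, `dlog h` has at most a simple
pole, and none at discs -/
theorem maxd {h : K} (hh : h ≠ 0) {N : ℕ} (hN : ∀ P : Pl C K, (N : ℤ) ∣ divf (k := C) h P) {M : ℝ}
    (hM : ‖(N : C)‖ < M) (hle : ∀ d : S.Dir, gn (ex (S.em d) (del C K h / h)) ≤ M) (d : S.Dir)
    (hd : gn (ex (S.em d) (del C K h / h)) = M) :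
    -1 ≤ EE809.od (ex (S.em d) (del C K h / h)) ∧
      (S.IsDisc d → 0 ≤ EE809.od (ex (S.em d) (del C K h / h))) := by
  have hle' : ∀ d : S.Dir, gn (dl (S.em d h)) ≤ M := fun d => by rw [← ex_dlog]; exact hle d
  have hdisc : S.IsDisc d → 0 ≤ EE809.od (ex (S.em d) (del C K h / h)) := by
    rintro ⟨h0, h1⟩
    obtain ⟨a, b, hb0, ha, hb, e⟩ := qD_em S d h0 h1 h
    rw [ex_dlog] at hd ⊢
    refine od_dl_disc ha hb hb0 e ((map_ne_zero _).2 hh) (N := N) (fun τ n hτ hn => ?_)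
      (by rw [hd]; exact hM)
    rw [hn.uniq (X := cD k C) hτ (hasOrd_ptD S d h0 h1 τ hτ hh)]
    exact hN _
  refine ⟨?_, hdisc⟩
  by_cases hD : S.IsDisc d
  · exact (by norm_num : (-1 : ℤ) ≤ 0).trans (hdisc hD)
  · obtain ⟨e, he⟩ := (isDisc_iff S).1 hD
    have h1 := od_dl_ann (S.cc_ne e) (S.cc_lt e) ((map_ne_zero _).2 hh) (flipF_em S e h) (N := N)
      (fun τ n h0 h1 hn => by
        rw [hn.uniq (X := cA k (S.cc e) (S.cc_ne e)) ⟨h0, h1⟩ (hasOrd_ptA S e τ h0 h1 hh)]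
        exact hN _) hM (hle' _) (hle' _)
    rw [ex_dlog] at hd ⊢
    rcases he with rfl | rfl
    · exact h1.1 hd
    · exact h1.2 hd

/-- **maximum principle at a vertex** -/
theorem max_vertex (v : S.V) [Algebra (RatFunc (Ct C)) (kap (S.nm v))]
    [IsScalarTower (Ct C) (RatFunc (Ct C)) (kap (S.nm v))]
    [FiniteDimensional (RatFunc (Ct C)) (kap (S.nm v))]
    [Algebra.IsSeparable (RatFunc (Ct C)) (kap (S.nm v))]
    {h : K} (hh : h ≠ 0) {N : ℕ} (hN : ∀ P : Pl C K, (N : ℤ) ∣ divf (k := C) h P) {c : C}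
    (hc : ‖(N : C)‖ < ‖c‖) (hle : ∀ d : S.Dir, gn (ex (S.em d) (del C K h / h)) ≤ ‖c‖)
    {T0 : K} (hT : (S.nm v).v T0 ≤ 1) (hT' : red (S.nm v) T0 = xK (Ct C) (kap (S.nm v)))
    (hv : (S.nm v).v (del C K h / h / del C K T0 * (algebraMap C K c)⁻¹) = 1)
    (x : Pl (Ct C) (kap (S.nm v))) :
    -canD (Ct C) (kap (S.nm v)) x - 1 ≤
      divf (k := Ct C) (red (S.nm v) (del C K h / h / del C K T0 * (algebraMap C K c)⁻¹)) x ∧
    (S.IsDisc ⟨v, x⟩ → -canD (Ct C) (kap (S.nm v)) x ≤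
      divf (k := Ct C) (red (S.nm v) (del C K h / h / del C K T0 * (algebraMap C K c)⁻¹)) x) := by
  haveI := isAlgClosed_Ct (C := C)
  set g := del C K h / h with hg
  have hc0 : c ≠ 0 := by
    rintro rfl
    rw [norm_zero] at hc
    exact absurd hc (not_lt.2 (norm_nonneg _))
  have hcK : algebraMap C K c ≠ 0 := (map_ne_zero _).2 hc0
  have hg0 : g ≠ 0 := by
    intro h0
    rw [h0, zero_div, zero_mul, map_zero] at hv
    exact zero_ne_one hv
  have h1 : (S.nm v).v (g / del C K T0) = ‖c‖₊ := by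
    rw [map_mul, map_inv₀, (S.nm v).hC] at hv
    have h2 : ‖c‖₊ ≠ 0 := nnnorm_ne_zero_iff.2 hc0
    field_simp at hv
    exact hv
  have h2 := nd_eq (w := S.nm v) hT hT' x (S.em_C ⟨v, x⟩) (S.em_gn ⟨v, x⟩) (S.em_od ⟨v, x⟩) g
  rw [h1, coe_nnnorm] at h2
  have h3 := maxd S hh hN hc hle ⟨v, x⟩ h2.symm
  have h4 := od_ex (w := S.nm v) hT hT' x (S.em_C ⟨v, x⟩) (S.em_gn ⟨v, x⟩) (S.em_od ⟨v, x⟩) hg0
  rw [od_eq_divf x hv] at h4
  rw [← hg] at h3
  rw [h4] at h3
  exact ⟨by linarith [h3.1], fun hd => by linarith [h3.2 hd]⟩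

end ssk

end Crest.Agent.R013.RedD_310
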