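import Crest.Agent.R013.AN1_243
import Crest.Agent.R013.AnW2_201
import Crest.Agent.R013.Sub3_270

/-! # R013 / ResA1_270 : restriction of functions of an annulus `|c| < |T| < 1` to the discs
`α + b T` (`|c| < |α| < 1`, `|b| ≤ |α|`) inside it. -/

set_option autoImplicit false
set_option linter.unusedSectionVars false
set_option linter.style.haveILetI false

noncomputable section

namespace Crest.Agent.R013.Sub_270

open Filter Topology Crest.Agent.R013.Cell_408 Crest.Agent.R013.Clu_270 Crest.Agent.R013.Comp_267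
  Crest.Agent.R013.Good_408 Crest.Agent.R013.EE809 Crest.Agent.R013.CAn_243
open Crest.Agent.R013.AnW_201 (evE InA evE_add evE_mul evE_mo summable_evE)

variable {k C : Type*} [NontriviallyNormedField k] [CompleteSpace k] [IsUltrametricDist k]
  [NormedField C] [IsUltrametricDist C] [NormedAlgebra k C] [Algebra.IsAlgebraic k C] [IsAlgClosed C]

/-- the series of `c / (α + b T)` -/
def iaff (c α b : C) : PowerSeries C := PowerSeries.mk fun n => (c / α) * (-(b / α)) ^ n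

theorem coeff_iaff (c α b : C) (n : ℕ) :
    PowerSeries.coeff n (iaff c α b) = (c / α) * (-(b / α)) ^ n := PowerSeries.coeff_mk _ _

theorem co_iaff {c α b : C} (hα0 : α ≠ 0) (hcα : ‖c‖ < ‖α‖) (hb : ‖b‖ ≤ ‖α‖) :
    Co k (iaff c α b) := by
  have hα' : 0 < ‖α‖ := norm_pos_iff.2 hα0
  have h1 : ‖c / α‖ < 1 := by rw [norm_div]; exact (div_lt_one hα').2 hcα
  have h2 : ‖-(b / α)‖ ≤ 1 := by rw [norm_neg, norm_div]; exact (div_le_one hα').2 hb
  obtain ⟨L, hL, hmem⟩ := finDef_finite (k := k) ![c / α, -(b / α)]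
  refine ⟨⟨L, hL, fun n => ?_⟩, fun n => ?_, ?_⟩
  · dsimp only
    rw [coeff_iaff]
    exact mul_mem (hmem 0) (pow_mem (hmem 1) n)
  · rw [coeff_iaff, norm_mul, norm_pow]
    exact mul_le_one₀ h1.le (pow_nonneg (norm_nonneg _) _) (pow_le_one₀ (norm_nonneg _) h2)
  · rw [coeff_iaff, pow_zero, mul_one]; exact h1

theorem norm_aff_eq {α b t : C} (hα0 : α ≠ 0) (hb : ‖b‖ ≤ ‖α‖) (ht : ‖t‖ < 1) :
    ‖α + b * t‖ = ‖α‖ := by
  have hα' : 0 < ‖α‖ := norm_pos_iff.2 hα0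
  have h1 : ‖b * t‖ < ‖α‖ := by
    rw [norm_mul]
    calc ‖b‖ * ‖t‖ ≤ ‖α‖ * ‖t‖ := mul_le_mul_of_nonneg_right hb (norm_nonneg _)
      _ < ‖α‖ * 1 := mul_lt_mul_of_pos_left ht hα'
      _ = ‖α‖ := mul_one _
  rw [IsUltrametricDist.norm_add_eq_max_of_norm_ne_norm h1.ne', max_eq_left h1.le]

theorem evp_iaff {c α b t : C} (hα0 : α ≠ 0) (hb : ‖b‖ ≤ ‖α‖) (ht : ‖t‖ < 1) :
    evp t (iaff c α b) = c / (α + b * t) := by
  have hα' : 0 < ‖α‖ := norm_pos_iff.2 hα0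
  have h1 : ‖-(b / α) * t‖ < 1 := by
    rw [norm_mul, norm_neg, norm_div]
    calc ‖b‖ / ‖α‖ * ‖t‖ ≤ 1 * ‖t‖ :=
          mul_le_mul_of_nonneg_right ((div_le_one hα').2 hb) (norm_nonneg _)
      _ < 1 := by rw [one_mul]; exact ht
  have h2 := (hasSum_geometric_of_norm_lt_one h1).mul_left (c / α)
  have h3 : evp t (iaff c α b) = c / α * (1 - -(b / α) * t)⁻¹ := by
    unfold evp
    rw [← h2.tsum_eq]
    refine tsum_congr fun n => ?_
    rw [coeff_iaff, mul_pow]; ring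
  have h4 : α + b * t ≠ 0 := by
    rw [← norm_pos_iff, norm_aff_eq hα0 hb ht]; exact hα'
  have h5 : 1 - -(b / α) * t = (α + b * t) / α := by field_simp; ring
  rw [h3, h5, inv_div]
  field_simp

section resA

variable {c α b : C}

/-- the restriction, as a function -/
def resAfun (hc0 : c ≠ 0) (hc1 : ‖c‖ < 1) (hα0 : α ≠ 0) (hcα : ‖c‖ < ‖α‖) (hα : ‖α‖ < 1)
    (hb : ‖b‖ ≤ ‖α‖) (g : AN k c) : BD k C :=
  comp (aff α b) (co_aff hα (hb.trans hα.le)) (EE809.posPart g.1) +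
    comp (iaff c α b) (co_iaff hα0 hcα hb) (EE809.posPart (CAn_243.flip c hc0 hc1 g).1) -
    bC (g.1.co 0)

theorem evp_posPart' {s : C} (g : EE k C) :
    evp s (EE809.posPart g : PowerSeries C) = ∑' n : ℕ, g.co n * s ^ n := by
  unfold evp
  refine tsum_congr fun n => ?_
  rw [EE809.coeff_posPart]

theorem evp_resAfun (hk : DiscNorm k) (hc0 : c ≠ 0) (hc1 : ‖c‖ < 1) (hα0 : α ≠ 0)
    (hcα : ‖c‖ < ‖α‖) (hα : ‖α‖ < 1) (hb : ‖b‖ ≤ ‖α‖) (g : AN k c) {t : C} (ht : ‖t‖ < 1) :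
    evp t (resAfun hc0 hc1 hα0 hcα hα hb g : PowerSeries C) = evE (α + b * t) g.1 := by
  set s := α + b * t with hs
  have hsn : ‖s‖ = ‖α‖ := norm_aff_eq hα0 hb ht
  have hα' : 0 < ‖α‖ := norm_pos_iff.2 hα0
  have hs0 : s ≠ 0 := by rw [← norm_pos_iff, hsn]; exact hα'
  have hcs : ‖c‖ < ‖s‖ := by rw [hsn]; exact hcα
  have hs1 : ‖s‖ < 1 := by rw [hsn]; exact hα
  have h1 : ev (k := k) t ht (resAfun hc0 hc1 hα0 hcα hα hb g) =
      evp s (EE809.posPart g.1 : PowerSeries C) +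
        evp (c / s) (EE809.posPart (CAn_243.flip c hc0 hc1 g).1 : PowerSeries C) - g.1.co 0 := by
    unfold resAfun
    rw [map_sub, map_add, bC_eq, AlgHom.commutes]
    congr 1
    congr 1
    · refine (evp_comp hk (co_aff hα (hb.trans hα.le)) (EE809.posPart g.1) ht).trans ?_
      rw [evp_aff]
    · refine (evp_comp hk (co_iaff hα0 hcα hb) (EE809.posPart (CAn_243.flip c hc0 hc1 g).1) ht).trans ?_
      rw [evp_iaff hα0 hb ht]
  change ev (k := k) t ht (resAfun hc0 hc1 hα0 hcα hα hb g) = _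
  rw [h1, evp_posPart', evp_posPart']
  have hcs1 : ‖c / s‖ < 1 := by
    rw [norm_div]; exact (div_lt_one (norm_pos_iff.2 hs0)).2 hcs
  have hneg : ∀ n : ℕ, PowerSeries.coeff n
      (EE809.posPart (CAn_243.flip c hc0 hc1 g).1 : PowerSeries C) * (c / s) ^ n =
      g.1.co (-(n : ℤ)) * s ^ (-(n : ℤ)) := by
    intro n
    rw [EE809.coeff_posPart, CAn_243.co_flip, div_pow, zpow_neg, zpow_neg, zpow_natCast,
      zpow_natCast]
    have := pow_ne_zero n hc0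
    have := pow_ne_zero n hs0
    field_simp
  have hsum : Summable fun n : ℕ => g.1.co (n : ℤ) * s ^ (n : ℤ) := by
    refine (summable_ev (k := k) (EE809.posPart g.1).2 hs1).congr fun n => ?_
    rw [EE809.coeff_posPart, zpow_natCast]
  have hsum2 : Summable fun n : ℕ => g.1.co (-(n : ℤ)) * s ^ (-(n : ℤ)) :=
    (summable_ev (k := k) (EE809.posPart (CAn_243.flip c hc0 hc1 g).1).2 hcs1).congr hneg
  have h3 : evE s g.1 = ∑' n : ℕ, g.1.co (n : ℤ) * s ^ (n : ℤ) +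
      ∑' n : ℕ, g.1.co (-(n : ℤ)) * s ^ (-(n : ℤ)) - g.1.co 0 * s ^ (0 : ℤ) := by
    unfold evE
    exact Summable.tsum_of_nat_of_neg (f := fun n : ℤ => g.1.co n * s ^ n) hsum hsum2
  rw [h3, zpow_zero, mul_one]
  congr 1
  congr 1
  · refine tsum_congr fun n => ?_
    rw [zpow_natCast]
  · refine tsum_congr fun n => ?_
    rw [← hneg n, EE809.coeff_posPart]

/-- **Restriction to a disc in the annulus**: `T ↦ α + b T`. -/
def resA (hk : DiscNorm k) (hc0 : c ≠ 0) (hc1 : ‖c‖ < 1) (hα0 : α ≠ 0) (hcα : ‖c‖ < ‖α‖)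
    (hα : ‖α‖ < 1) (hb : ‖b‖ ≤ ‖α‖) : AN k c →ₐ[C] BD k C where
  toFun := resAfun hc0 hc1 hα0 hcα hα hb
  map_one' := by
    refine Subtype.ext (evp_ext' hk (Subtype.mem _) (Subtype.mem _) fun t ht => ?_)
    rw [evp_resAfun hk hc0 hc1 hα0 hcα hα hb _ ht]
    have h1 := evE_mo (k := k) (α + b * t) 0 1
    rw [zpow_zero, mul_one] at h1
    have h2 := evp_C t (1 : C)
    rw [map_one] at h2
    exact h1.trans h2.symm
  map_mul' g h := by
    refine Subtype.ext (evp_ext' hk (Subtype.mem _) (Subtype.mem _) fun t ht => ?_)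
    have hsn : ‖α + b * t‖ = ‖α‖ := norm_aff_eq hα0 hb ht
    rw [evp_resAfun hk hc0 hc1 hα0 hcα hα hb _ ht]
    have h1 := evE_mul (k := k) (c := c) (t := α + b * t) (by rw [hsn]; exact hcα)
      (by rw [hsn]; exact hα) hc0 g.2 h.2
    have h2 := evp_mul (k := k) (resAfun hc0 hc1 hα0 hcα hα hb g).2
      (resAfun hc0 hc1 hα0 hcα hα hb h).2 ht
    rw [evp_resAfun hk hc0 hc1 hα0 hcα hα hb _ ht, evp_resAfun hk hc0 hc1 hα0 hcα hα hb _ ht] at h2
    exact h1.trans h2.symm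
  map_zero' := by
    refine Subtype.ext (evp_ext' hk (Subtype.mem _) (Subtype.mem _) fun t ht => ?_)
    rw [evp_resAfun hk hc0 hc1 hα0 hcα hα hb _ ht]
    have h1 := evE_mo (k := k) (α + b * t) 0 0
    rw [zero_mul, mo_zero] at h1
    have h2 := evp_C t (0 : C)
    rw [map_zero] at h2
    exact h1.trans h2.symm
  map_add' g h := by
    refine Subtype.ext (evp_ext' hk (Subtype.mem _) (Subtype.mem _) fun t ht => ?_)
    have hsn : ‖α + b * t‖ = ‖α‖ := norm_aff_eq hα0 hb ht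
    rw [evp_resAfun hk hc0 hc1 hα0 hcα hα hb _ ht]
    have h1 := evE_add (k := k) (c := c) (t := α + b * t) (by rw [hsn]; exact hcα)
      (by rw [hsn]; exact hα) hc0 g.2 h.2
    have h2 := evp_add (k := k) (resAfun hc0 hc1 hα0 hcα hα hb g).2
      (resAfun hc0 hc1 hα0 hcα hα hb h).2 ht
    rw [evp_resAfun hk hc0 hc1 hα0 hcα hα hb _ ht, evp_resAfun hk hc0 hc1 hα0 hcα hα hb _ ht] at h2
    exact h1.trans h2.symm
  commutes' x := by
    refine Subtype.ext (evp_ext' hk (Subtype.mem _) (Subtype.mem _) fun t ht => ?_)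
    rw [evp_resAfun hk hc0 hc1 hα0 hcα hα hb _ ht]
    have h1 := evE_mo (k := k) (α + b * t) 0 x
    rw [zpow_zero, mul_one] at h1
    exact h1.trans (evp_C t x).symm

variable (hk : DiscNorm k) (hc0 : c ≠ 0) (hc1 : ‖c‖ < 1) (hα0 : α ≠ 0) (hcα : ‖c‖ < ‖α‖)
    (hα : ‖α‖ < 1) (hb : ‖b‖ ≤ ‖α‖)

theorem evp_resA (g : AN k c) {t : C} (ht : ‖t‖ < 1) :
    evp t (resA hk hc0 hc1 hα0 hcα hα hb g : PowerSeries C) = evE (α + b * t) g.1 :=
  evp_resAfun hk hc0 hc1 hα0 hcα hα hb g ht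

/-- the coordinate `T` -/
def tA (c : C) : AN k c := ⟨EE809.T 1, T_mem_AN c 1⟩

theorem evE_T (s : C) (n : ℤ) : evE s (EE809.T n : EE k C) = s ^ n := by
  have := evE_mo (k := k) s n 1
  rw [one_mul] at this
  exact this

theorem resA_tA : resA hk hc0 hc1 hα0 hcα hα hb (tA c) = ⟨aff α b, (co_aff hα (hb.trans hα.le)).mem⟩ := by
  refine Subtype.ext (evp_ext' hk (Subtype.mem _) (Subtype.mem _) fun t ht => ?_)
  rw [evp_resA hk hc0 hc1 hα0 hcα hα hb _ ht]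
  change evE (α + b * t) (EE809.T 1 : EE k C) = evp t (aff α b)
  rw [evE_T, zpow_one, evp_aff]

/-- on power series `resA` is `comp (aff α b)` -/
theorem resA_ofBD (g : BD k C) (hg : (ofBD g : EE k C) ∈ AN k c) :
    resA hk hc0 hc1 hα0 hcα hα hb ⟨ofBD g, hg⟩ = comp (aff α b) (co_aff hα (hb.trans hα.le)) g := by
  refine Subtype.ext (evp_ext' hk (Subtype.mem _) (Subtype.mem _) fun t ht => ?_)
  have hsn : ‖α + b * t‖ = ‖α‖ := norm_aff_eq hα0 hb ht
  rw [evp_resA hk hc0 hc1 hα0 hcα hα hb _ ht]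
  refine Eq.trans ?_ (evp_comp hk (co_aff (k := k) hα (hb.trans hα.le)) g ht).symm
  rw [evp_aff]
  change ∑' n : ℤ, (ofBD g : EE k C).co n * (α + b * t) ^ n = ∑' n : ℕ, _
  rw [← (Nat.cast_injective (R := ℤ)).tsum_eq]
  · refine tsum_congr fun n => ?_
    rw [co_ofBD_nat, zpow_natCast]
  · intro n hn
    rw [Function.mem_support] at hn
    by_contra h
    apply hn
    rw [co_ofBD_neg, zero_mul]
    by_contra h1
    exact h ⟨n.toNat, Int.toNat_of_nonneg (not_lt.1 h1)⟩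

/-- bounds -/
theorem norm_coeff_resA_le {g : AN k c} {M : ℝ} (h1 : ∀ n, 0 ≤ n → ‖g.1.co n‖ ≤ M)
    (h2 : ∀ n, n ≤ 0 → ‖g.1.co n‖ * ‖c‖ ^ n ≤ M) (n : ℕ) :
    ‖PowerSeries.coeff n (resA hk hc0 hc1 hα0 hcα hα hb g : PowerSeries C)‖ ≤ M := by
  have hM : 0 ≤ M := (norm_nonneg _).trans (h1 0 le_rfl)
  have e : PowerSeries.coeff n (resA hk hc0 hc1 hα0 hcα hα hb g : PowerSeries C) =
      PowerSeries.coeff n (compS (aff α b) (EE809.posPart g.1 : PowerSeries C)) +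
        PowerSeries.coeff n (compS (iaff c α b)
          (EE809.posPart (CAn_243.flip c hc0 hc1 g).1 : PowerSeries C)) -
        PowerSeries.coeff n (PowerSeries.C (g.1.co 0)) := rfl
  rw [e, sub_eq_add_neg]
  have a1 : ‖PowerSeries.coeff n (compS (aff α b) (EE809.posPart g.1 : PowerSeries C))‖ ≤ M :=
    compS_le (co_aff (k := k) hα (hb.trans hα.le)) (EE809.posPart g.1).2 (fun n => by
      rw [EE809.coeff_posPart]; exact h1 n (Int.natCast_nonneg n)) n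
  have a2 : ‖PowerSeries.coeff n (compS (iaff c α b)
      (EE809.posPart (CAn_243.flip c hc0 hc1 g).1 : PowerSeries C))‖ ≤ M :=
    compS_le (co_iaff (k := k) hα0 hcα hb) (EE809.posPart (CAn_243.flip c hc0 hc1 g).1).2
      (fun n => by
        rw [EE809.coeff_posPart, CAn_243.norm_co_flip]
        exact h2 _ (by omega)) n
  have a3 : ‖-PowerSeries.coeff n (PowerSeries.C (g.1.co 0))‖ ≤ M := by
    rw [norm_neg, PowerSeries.coeff_C]
    split_ifs
    · exact h1 0 le_rfl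
    · rw [norm_zero]; exact hM
  exact (IsUltrametricDist.norm_add_le_max _ _).trans
    (max_le ((IsUltrametricDist.norm_add_le_max _ _).trans (max_le a1 a2)) a3)

/-- a unit of norm one on the annulus restricts to a unit of norm one -/
theorem isU_resA {u : AN k c} (h0 : ‖u.1.co 0‖ = 1) (h1 : ∀ n, ‖u.1.co n‖ ≤ 1)
    (h2 : ∀ n, ‖u.1.co n‖ * ‖c‖ ^ n ≤ 1) :
    IsU k (resA hk hc0 hc1 hα0 hcα hα hb u : PowerSeries C) := by
  have hα' : 0 < ‖α‖ := norm_pos_iff.2 hα0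
  have hc' : 0 < ‖c‖ := norm_pos_iff.2 hc0
  refine ⟨(resA hk hc0 hc1 hα0 hcα hα hb u).2.1,
    norm_coeff_resA_le hk hc0 hc1 hα0 hcα hα hb (fun n _ => h1 n) (fun n _ => h2 n), ?_⟩
  have hz : ‖(0 : C)‖ < 1 := by rw [norm_zero]; exact one_pos
  have e1 : PowerSeries.coeff 0 (resA hk hc0 hc1 hα0 hcα hα hb u : PowerSeries C) = evE α u.1 := by
    have h3 := evp_resA hk hc0 hc1 hα0 hcα hα hb u hz
    rw [mul_zero, add_zero] at h3
    rw [← h3]
    unfold evp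
    rw [tsum_eq_single 0]
    · rw [pow_zero, mul_one]
    · intro n hn
      rw [zero_pow hn, mul_zero]
  set θ := max ‖α‖ (‖c‖ / ‖α‖) with hθ
  have hθ1 : θ < 1 := max_lt hα ((div_lt_one hα').2 hcα)
  have hθ0 : 0 ≤ θ := (norm_nonneg α).trans (le_max_left _ _)
  have h4 : u.1 = (mo 0 (u.1.co 0) : EE k C) + (u.1 - mo 0 (u.1.co 0)) := by ring
  have hmo : InA c (mo 0 (u.1.co 0) : EE k C) := mo_mem_AN c 0 _
  have hsub : (u.1 - mo 0 (u.1.co 0) : EE k C) ∈ AN k c := sub_mem u.2 (mo_mem_AN c 0 _)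
  have h5 : evE α u.1 = u.1.co 0 + evE α (u.1 - mo 0 (u.1.co 0) : EE k C) := by
    conv_lhs => rw [h4]
    rw [evE_add hcα hα hc0 hmo hsub, evE_mo, zpow_zero, mul_one]
  have h6 : ‖evE α (u.1 - mo 0 (u.1.co 0) : EE k C)‖ ≤ θ := by
    refine AnW_201.norm_evE_le fun n => ?_
    rw [co_sub, co_mo]
    rcases lt_trichotomy n 0 with hn | rfl | hn
    · rw [if_neg hn.ne, sub_zero]
      have e2 : ‖u.1.co n‖ * ‖α‖ ^ n = (‖u.1.co n‖ * ‖c‖ ^ n) * (‖c‖ / ‖α‖) ^ (-n) := by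
        rw [div_zpow, zpow_neg, zpow_neg]
        have := (zpow_pos hα' n).ne'
        have := (zpow_pos hc' n).ne'
        field_simp
      rw [e2]
      have h7 : (‖c‖ / ‖α‖) ^ (-n) ≤ ‖c‖ / ‖α‖ := by
        obtain ⟨m, hm⟩ : ∃ m : ℕ, -n = (m + 1 : ℕ) := ⟨(-n - 1).toNat, by omega⟩
        rw [hm, zpow_natCast]
        exact pow_le_of_le_one (by positivity) ((div_lt_one hα').2 hcα).le (by omega)
      calc _ ≤ 1 * (‖c‖ / ‖α‖) := mul_le_mul (h2 n) h7 (zpow_nonneg (by positivity) _) zero_le_one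
        _ = ‖c‖ / ‖α‖ := one_mul _
        _ ≤ θ := le_max_right _ _
    · rw [if_pos rfl, sub_self, norm_zero, zero_mul]; exact hθ0
    · rw [if_neg hn.ne', sub_zero]
      have h7 : ‖α‖ ^ n ≤ ‖α‖ := by
        obtain ⟨m, hm⟩ : ∃ m : ℕ, n = (m + 1 : ℕ) := ⟨(n - 1).toNat, by omega⟩
        rw [hm, zpow_natCast]
        exact pow_le_of_le_one (norm_nonneg _) hα.le (by omega)
      calc _ ≤ 1 * ‖α‖ := mul_le_mul (h1 n) h7 (zpow_nonneg (norm_nonneg _) _) zero_le_one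
        _ = ‖α‖ := one_mul _
        _ ≤ θ := le_max_left _ _
  rw [e1, h5]
  have h8 : ‖u.1.co 0‖ ≠ ‖evE α (u.1 - mo 0 (u.1.co 0) : EE k C)‖ := by
    rw [h0]; exact (h6.trans_lt hθ1).ne'
  rw [IsUltrametricDist.norm_add_eq_max_of_norm_ne_norm h8, h0, max_eq_left (h6.trans hθ1.le)]

end resA

end Crest.Agent.R013.Sub_270
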