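import Crest.Agent.R013.AN1_243
import Crest.Agent.R013.AnW2_201

/-! # R013 / ResA2_270 : restriction to a concentric sub-annulus, `T ↦ r T` : `AN c → AN c'`
(`|c| ≤ |r c'|`, `|r| ≤ 1`, `0 < |c'| < 1`). -/

set_option autoImplicit false
set_option linter.unusedSectionVars false
set_option linter.style.haveILetI false

noncomputable section

namespace Crest.Agent.R013.Sub_270

open Filter Topology Crest.Agent.R013.Cell_408 Crest.Agent.R013.EE809 Crest.Agent.R013.CAn_243
open Crest.Agent.R013.AnW_201 (evE InA)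

variable {k C : Type*} [NontriviallyNormedField k] [CompleteSpace k] [IsUltrametricDist k]
  [NormedField C] [IsUltrametricDist C] [NormedAlgebra k C] [Algebra.IsAlgebraic k C] [IsAlgClosed C]

/-- the conditions on a concentric restriction -/
structure Cc (c c' r : C) : Prop where
  c0 : c ≠ 0
  c'0 : c' ≠ 0
  c'1 : ‖c'‖ < 1
  r1 : ‖r‖ ≤ 1
  le : ‖c‖ ≤ ‖r * c'‖

namespace Cc

variable {c c' r : C}

theorem r0 (h : Cc c c' r) : r ≠ 0 := by
  rintro rfl
  have := h.le
  rw [zero_mul, norm_zero] at this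
  exact h.c0 (norm_le_zero_iff.1 this)

theorem lt (h : Cc c c' r) : ‖c‖ < ‖r‖ := by
  refine h.le.trans_lt ?_
  rw [norm_mul]
  calc ‖r‖ * ‖c'‖ < ‖r‖ * 1 := mul_lt_mul_of_pos_left h.c'1 (norm_pos_iff.2 h.r0)
    _ = ‖r‖ := mul_one _

theorem c1 (h : Cc c c' r) : ‖c‖ < 1 := h.lt.trans_le h.r1

/-- the series of `a (r T)` -/
def fn (h : Cc c c' r) (a : AN k c) : AN k c' :=
  ⟨mk' (fun n => a.1.co n * r ^ n)
    (by
      obtain ⟨L, hL, h1, h2⟩ := a.1.fd.common (EE809.finDef_const (k := k) r)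
      exact ⟨L, hL, fun n => mul_mem (h1 _) (zpow_mem (h2 ()) _)⟩)
    (by
      obtain ⟨M, hM, h2, h3⟩ := AN.bd2 a.2
      have h4 : Bdd ‖r‖ M a.1 := Bdd.interp (norm_pos_iff.2 h.c0) h.lt.le h.r1 h3 (fun n => by
        rw [one_zpow, mul_one]; exact h2 n)
      exact ⟨M, fun n => by rw [norm_mul, norm_zpow]; exact h4 n⟩)
    (by
      obtain ⟨M, hM⟩ := a.2
      have hc : 0 < ‖c‖ := norm_pos_iff.2 h.c0
      have hr : 0 < ‖r‖ := norm_pos_iff.2 h.r0
      have h1 : Tendsto (fun n : ℤ => M * (‖c‖ / ‖r‖) ^ (-n)) atBot (𝓝 0) := by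
        have h2 : Tendsto (fun n : ℕ => M * (‖c‖ / ‖r‖) ^ n) atTop (𝓝 (M * 0)) :=
          (tendsto_pow_atTop_nhds_zero_of_lt_one (by positivity)
            ((div_lt_one hr).2 h.lt)).const_mul M
        rw [mul_zero] at h2
        rw [Metric.tendsto_nhds] at h2 ⊢
        intro ε hε
        obtain ⟨N, hN⟩ := eventually_atTop.1 (h2 ε hε)
        rw [eventually_atBot]
        refine ⟨-N, fun n hn => ?_⟩
        have h3 := hN (-n).toNat (by omega)
        have h4 : (((-n).toNat : ℕ) : ℤ) = -n := Int.toNat_of_nonneg (by omega)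
        rw [← zpow_natCast, h4] at h3
        exact h3
      refine squeeze_zero_norm (fun n => ?_) h1
      rw [norm_mul, norm_zpow]
      have e2 : ‖a.1.co n‖ * ‖r‖ ^ n = (‖a.1.co n‖ * ‖c‖ ^ n) * (‖c‖ / ‖r‖) ^ (-n) := by
        rw [div_zpow, zpow_neg, zpow_neg]
        have := (zpow_pos hr n).ne'
        have := (zpow_pos hc n).ne'
        field_simp
      rw [e2]
      exact mul_le_mul_of_nonneg_right (hM _) (zpow_nonneg (by positivity) _)),
   by
    obtain ⟨M, hM, h2, h3⟩ := AN.bd2 a.2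
    have hle : ‖r * c'‖ ≤ 1 := by
      rw [norm_mul]; exact mul_le_one₀ h.r1 (norm_nonneg _) h.c'1.le
    have h4 : Bdd ‖r * c'‖ M a.1 := Bdd.interp (norm_pos_iff.2 h.c0) h.le hle h3 (fun n => by
      rw [one_zpow, mul_one]; exact h2 n)
    refine ⟨M, fun n => ?_⟩
    have := h4 n
    rw [norm_mul, mul_zpow] at this
    rw [co_mk', norm_mul, norm_zpow, mul_assoc]
    exact this⟩

theorem co_fn (h : Cc c c' r) (a : AN k c) (n : ℤ) : (h.fn a).1.co n = a.1.co n * r ^ n := rfl

end Cc

variable {c c' r : C}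

/-- **Restriction to a concentric sub-annulus** `T ↦ r T`. -/
def resAA (h : Cc c c' r) : AN k c →ₐ[C] AN k c' where
  toFun := h.fn
  map_one' := by
    apply Subtype.ext
    ext n
    rw [Cc.co_fn]
    change (1 : EE k C).co n * r ^ n = (1 : EE k C).co n
    rw [co_one]
    split_ifs with hn
    · rw [hn]; simp
    · rw [zero_mul]
  map_mul' a b := by
    apply Subtype.ext
    ext n
    rw [MulMemClass.coe_mul, co_mul, Cc.co_fn, MulMemClass.coe_mul, co_mul, ← tsum_mul_right]
    refine tsum_congr fun i => ?_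
    have e : r ^ n = r ^ i * r ^ (n - i) := by rw [← zpow_add₀ h.r0]; congr 1; ring
    rw [Cc.co_fn, Cc.co_fn, e]
    ring
  map_zero' := by
    apply Subtype.ext
    ext n
    rw [Cc.co_fn]
    change (0 : EE k C).co n * r ^ n = (0 : EE k C).co n
    rw [co_zero, zero_mul]
  map_add' a b := by
    apply Subtype.ext
    ext n
    rw [AddMemClass.coe_add, co_add, Cc.co_fn, AddMemClass.coe_add, co_add, Cc.co_fn, Cc.co_fn,
      add_mul]
  commutes' x := by
    apply Subtype.ext
    ext n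
    rw [Cc.co_fn]
    change (algebraMap C (EE k C) x).co n * r ^ n = (algebraMap C (EE k C) x).co n
    rw [co_algebraMap]
    split_ifs with hn
    · rw [hn]; simp
    · rw [zero_mul]

theorem co_resAA (h : Cc c c' r) (a : AN k c) (n : ℤ) : (resAA h a).1.co n = a.1.co n * r ^ n := rfl

theorem evE_resAA (h : Cc c c' r) (a : AN k c) (t : C) : evE t (resAA h a).1 = evE (r * t) a.1 := by
  unfold evE
  refine tsum_congr fun n => ?_
  rw [co_resAA, mul_zpow]; ring

theorem resAA_mo (h : Cc c c' r) (n : ℤ) (x : C) :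
    resAA h (⟨mo n x, mo_mem_AN c n x⟩ : AN k c) =
      (⟨mo n (x * r ^ n), mo_mem_AN c' _ _⟩ : AN k c') := by
  apply Subtype.ext
  ext m
  rw [co_resAA]
  change (mo n x : EE k C).co m * r ^ m = (mo n (x * r ^ n) : EE k C).co m
  rw [co_mo, co_mo]
  by_cases hm : m = n
  · rw [if_pos hm, if_pos hm, hm]
  · rw [if_neg hm, if_neg hm, zero_mul]

theorem resAA_injective (h : Cc c c' r) : Function.Injective (resAA (k := k) h) := by
  intro a b hab
  apply Subtype.ext
  ext n
  have h1 := congrArg (fun x : AN k c' => x.1.co n) hab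
  change (resAA h a).1.co n = (resAA h b).1.co n at h1
  rw [co_resAA, co_resAA] at h1
  exact mul_right_cancel₀ (zpow_ne_zero n h.r0) h1

/-- on series without negative terms -/
theorem resAA_ofBD_co (h : Cc c c' r) {a : AN k c} (ha : ∀ n < 0, a.1.co n = 0) :
    ∀ n < 0, (resAA h a).1.co n = 0 := fun n hn => by
  rw [co_resAA, ha n hn, zero_mul]

section field

variable [hk : Fact (DiscNorm k)]

/-- the restriction on `FA` -/
def resFAA (h : Cc c c' r) : FA k c →ₐ[C] FA k c' :=
  liftFA ((IsScalarTower.toAlgHom C (AN k c') (FA k c')).comp (resAA h))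
    (fun _ _ hxy => resAA_injective h (algebraMap_FA_injective c' hxy))

theorem resFAA_algebraMap (h : Cc c c' r) (a : AN k c) :
    resFAA h (algebraMap (AN k c) (FA k c) a) = algebraMap (AN k c') (FA k c') (resAA h a) :=
  liftFA_algebraMap _ _ _

end field

end Crest.Agent.R013.Sub_270
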