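import Crest.Agent.R013.AnW4_201
import Crest.Agent.R013.CAn3_243
import Crest.Agent.R013.ResA1_270
import Crest.Agent.R013.ResA2_270

/-! # R013 / ResA3_270 : points of annuli; injectivity of the restriction to discs -/

set_option autoImplicit false
set_option linter.unusedSectionVars false
set_option linter.style.haveILetI false

noncomputable section

namespace Crest.Agent.R013.Sub_270

open Filter Topology Crest.Agent.R013.Cell_408 Crest.Agent.R013.Clu_270 Crest.Agent.R013.Comp_267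
  Crest.Agent.R013.Good_408 Crest.Agent.R013.EE809 Crest.Agent.R013.CAn_243
open Crest.Agent.R013.AnW_201 (evE InA evE_add evE_mul evE_mo summable_evE lin Fac exists_fac inA_lin
  evE_lin IsUA)

variable {k C : Type*} [NontriviallyNormedField k] [CompleteSpace k] [IsUltrametricDist k]
  [NormedField C] [IsUltrametricDist C] [NormedAlgebra k C] [Algebra.IsAlgebraic k C] [IsAlgClosed C]

variable {c : C}

/-- finitely many zeros -/
theorem finite_zerosA (hk : DiscNorm k) (hc0 : c ≠ 0) (hc1 : ‖c‖ < 1) {a : EE k C} (ha : InA c a)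
    (h0 : a ≠ 0) : {t : C | ‖c‖ < ‖t‖ ∧ ‖t‖ < 1 ∧ evE t a = 0}.Finite := by
  classical
  obtain ⟨F⟩ := exists_fac hk hc0 hc1 ha h0
  refine (F.S.toFinset.finite_toSet).subset ?_
  rintro t ⟨h1, h2, h3⟩
  rw [Finset.mem_coe, Multiset.mem_toFinset]
  exact (F.evE_eq_zero hc0 h1 h2).1 h3

/-- a point of the annulus -/
theorem exists_mid (hc0 : c ≠ 0) (hc1 : ‖c‖ < 1) : ∃ α : C, ‖c‖ < ‖α‖ ∧ ‖α‖ < 1 := by
  obtain ⟨α, hα⟩ := IsAlgClosed.exists_pow_nat_eq c (n := 2) two_pos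
  have hc' : 0 < ‖c‖ := norm_pos_iff.2 hc0
  have h1 : ‖α‖ ^ 2 = ‖c‖ := by rw [← norm_pow, hα]
  have h2 : ‖α‖ < 1 := by
    by_contra h
    have : 1 ≤ ‖α‖ ^ 2 := one_le_pow₀ (not_lt.1 h)
    linarith
  have h3 : 0 < ‖α‖ := by
    rcases (norm_nonneg α).eq_or_lt with h | h
    · rw [← h] at h1; norm_num at h1; exact absurd h1.symm hc'.ne'
    · exact h
  exact ⟨α, by nlinarith, h2⟩

theorem infinite_image_disc {α b : C} (hb0 : b ≠ 0) {P : C → Prop}
    (h : ∀ t : C, ‖t‖ < 1 → P (α + b * t)) (k : Type*) [NontriviallyNormedField k] [NormedAlgebra k C] :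
    {t : C | P t}.Infinite := by
  have hinj : Function.Injective fun t : C => α + b * t := fun x y hxy =>
    mul_left_cancel₀ hb0 (add_left_cancel hxy)
  refine (((infinite_disc k C).image hinj.injOn).mono ?_)
  rintro _ ⟨t, ht, rfl⟩
  exact h t ht

/-- an element of `AN c` vanishing on a disc is zero -/
theorem eq_zero_of_disc (hk : DiscNorm k) (hc0 : c ≠ 0) (hc1 : ‖c‖ < 1) {α b : C} (hα0 : α ≠ 0)
    (hcα : ‖c‖ < ‖α‖) (hα : ‖α‖ < 1) (hb0 : b ≠ 0) (hb : ‖b‖ ≤ ‖α‖) {a : EE k C} (ha : InA c a)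
    (h : ∀ t : C, ‖t‖ < 1 → evE (α + b * t) a = 0) : a = 0 := by
  by_contra h0
  refine absurd (finite_zerosA hk hc0 hc1 ha h0) (Set.not_finite.2 ?_)
  refine infinite_image_disc (α := α) (b := b) hb0 (fun t ht => ?_) k
  have hsn : ‖α + b * t‖ = ‖α‖ := norm_aff_eq hα0 hb ht
  exact ⟨by rw [hsn]; exact hcα, by rw [hsn]; exact hα, h t ht⟩

theorem evE_zero' (t : C) : evE t (0 : EE k C) = 0 := by
  have h1 := evE_mo (k := k) t 0 0
  rwa [zero_mul, mo_zero] at h1

theorem evE_const (t x : C) : evE t (algebraMap C (EE k C) x) = x := by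
  have h1 := evE_mo (k := k) t 0 x
  rwa [zpow_zero, mul_one] at h1

theorem evE_sub {t : C} (hct : ‖c‖ < ‖t‖) (ht : ‖t‖ < 1) (hc0 : c ≠ 0) {a b : EE k C}
    (ha : InA c a) (hb : InA c b) : evE t (a - b) = evE t a - evE t b := by
  have h := evE_add hct ht hc0 (ha.sub hb) hb
  rw [sub_add_cancel] at h
  rw [h, add_sub_cancel_right]

/-- elements of `AN c` are determined by their values -/
theorem evE_ext (hk : DiscNorm k) (hc0 : c ≠ 0) (hc1 : ‖c‖ < 1) {a b : AN k c}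
    (h : ∀ t : C, ‖c‖ < ‖t‖ → ‖t‖ < 1 → evE t a.1 = evE t b.1) : a = b := by
  obtain ⟨α, h1, h2⟩ := exists_mid hc0 hc1
  have hα0 : α ≠ 0 := norm_pos_iff.1 ((norm_nonneg c).trans_lt h1)
  have h3 : a.1 - b.1 = 0 := by
    refine eq_zero_of_disc hk hc0 hc1 hα0 h1 h2 hα0 le_rfl (InA.sub a.2 b.2) fun t ht => ?_
    have hsn : ‖α + α * t‖ = ‖α‖ := norm_aff_eq hα0 le_rfl ht
    rw [evE_sub (by rw [hsn]; exact h1) (by rw [hsn]; exact h2) hc0 a.2 b.2,
      h _ (by rw [hsn]; exact h1) (by rw [hsn]; exact h2), sub_self]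
  exact Subtype.ext (sub_eq_zero.1 h3)

theorem lin_mem (c τ : C) : (lin τ : EE k C) ∈ AN k c := inA_lin c τ

/-- `C`-algebra homomorphisms `AN c → C` are evaluations -/
theorem algHom_eq_evE (hk : DiscNorm k) (hc0 : c ≠ 0) (hc1 : ‖c‖ < 1) (φ : AN k c →ₐ[C] C)
    {s : C} (hs : φ (tA c) = s) (hcs : ‖c‖ < ‖s‖) (hs1 : ‖s‖ < 1) (g : AN k c) :
    φ g = evE s g.1 := by
  set x := evE s g.1 with hx
  by_cases h0 : g.1 - algebraMap C (EE k C) x = 0
  · have : g = algebraMap C (AN k c) x := Subtype.ext (sub_eq_zero.1 h0)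
    rw [this, AlgHom.commutes]; rfl
  · have hc : InA c (algebraMap C (EE k C) x) := (AN k c).algebraMap_mem x
    have hg0 : InA c (g.1 - algebraMap C (EE k C) x) := InA.sub g.2 hc
    obtain ⟨F⟩ := exists_fac hk hc0 hc1 hg0 h0
    obtain ⟨g', hg', hg'0, e⟩ := F.order hc0 hcs hs1
    have hev : evE s (g.1 - algebraMap C (EE k C) x) = 0 := by
      rw [evE_sub hcs hs1 hc0 g.2 hc, evE_const, hx, sub_self]
    set n := @Multiset.count _ (fun a b => Classical.propDecidable (a = b)) s F.S with hn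
    rcases Nat.eq_zero_or_pos n with h1 | h1
    · rw [h1, pow_zero, one_mul] at e
      rw [e] at hev
      exact absurd hev hg'0
    · obtain ⟨m, hm⟩ : ∃ m, n = m + 1 := ⟨n - 1, by omega⟩
      rw [hm, pow_succ'] at e
      have h2 : g = algebraMap C (AN k c) x +
          (tA c - algebraMap C (AN k c) s) *
            (⟨lin s, lin_mem c s⟩ ^ m * ⟨g', hg'⟩ : AN k c) := by
        apply Subtype.ext
        change g.1 = algebraMap C (EE k C) x + (lin s : EE k C) * (lin s ^ m * g')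
        rw [← mul_assoc, ← e]; ring
      rw [h2, map_add, AlgHom.commutes, map_mul, map_sub, hs, AlgHom.commutes]
      change x + (s - s) * _ = x
      rw [sub_self, zero_mul, add_zero]

section resA

variable {α b : C} (hk : DiscNorm k) (hc0 : c ≠ 0) (hc1 : ‖c‖ < 1) (hα0 : α ≠ 0) (hcα : ‖c‖ < ‖α‖)
    (hα : ‖α‖ < 1) (hb : ‖b‖ ≤ ‖α‖)

theorem resA_injective (hb0 : b ≠ 0) : Function.Injective (resA (k := k) hk hc0 hc1 hα0 hcα hα hb) := by
  rw [injective_iff_map_eq_zero]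
  intro g hg
  refine Subtype.ext (eq_zero_of_disc hk hc0 hc1 hα0 hcα hα hb0 hb g.2 fun t ht => ?_)
  rw [← evp_resA hk hc0 hc1 hα0 hcα hα hb g ht, hg]
  exact (ev (k := k) t ht).map_zero

end resA

section resFA

variable [hk : Fact (DiscNorm k)] {α b : C} (hc0 : c ≠ 0) (hc1 : ‖c‖ < 1) (hα0 : α ≠ 0)
    (hcα : ‖c‖ < ‖α‖) (hα : ‖α‖ < 1) (hb0 : b ≠ 0) (hb : ‖b‖ ≤ ‖α‖)

/-- restriction to the disc `α + b T` on `FA c` -/
def resFA : FA k c →ₐ[C] FD k C :=
  liftFA ((IsScalarTower.toAlgHom C (BD k C) (FD k C)).comp (resA hk.out hc0 hc1 hα0 hcα hα hb))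
    (fun _ _ hxy => resA_injective hk.out hc0 hc1 hα0 hcα hα hb hb0
      (IsFractionRing.injective (BD k C) (FD k C) hxy))

theorem resFA_algebraMap (a : AN k c) : resFA hc0 hc1 hα0 hcα hα hb0 hb (algebraMap (AN k c) (FA k c) a) =
    algebraMap (BD k C) (FD k C) (resA hk.out hc0 hc1 hα0 hcα hα hb a) :=
  liftFA_algebraMap _ _ _

end resFA

end Crest.Agent.R013.Sub_270
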