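import Crest.Agent.R013.PartA_854
import Crest.Agent.R013.UC_512

/-!
# Row 13: `S0015` from `S16` and 337's `HStmt`   (helper512)
-/

set_option autoImplicit false

open scoped NNReal
open Crest.NumberTheoryR.Sect
open Crest.Agent.R013

namespace Crest.Agent.R013.S15_512

variable {p : ℕ} [Fact p.Prime] {k K : Type} [Field k] [Algebra ℚ_[p] k] [FiniteDimensional ℚ_[p] k]
    [Field K] [Algebra k K] [Algebra (RatFunc k) K] [IsScalarTower k (RatFunc k) K]
    [FiniteDimensional (RatFunc k) K]

/-- **Part A** from `S16` and `HStmt`. -/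
theorem partA (HS : UH_337.HStmt p k K) (h16 : AAsm_349.S16 p k K) : AAsm_349.PartA p k K :=
  PartA_854.partA HS h16 fun _ hW _ _ _ H _ _ _ _ hT s hs j => by
    have hchar : CharZero k := charZero_of_injective_algebraMap (algebraMap ℚ_[p] k).injective
    exact UC_512.constants hW H hT s hs j

/-- **S0015** from `S16` and `HStmt`. -/
theorem s0015_of (p : ℕ) [Fact p.Prime] (k : Type) [Field k] [Algebra ℚ_[p] k]
    [FiniteDimensional ℚ_[p] k]
    (K : Type) [Field K] [Algebra k K] [Algebra (RatFunc k) K] [IsScalarTower k (RatFunc k) K]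
    [FunctionField k K] (HS : UH_337.HStmt p k K) (h16 : AAsm_349.S16 p k K) :
    (∀ vt : Valuation (maxUnramified k K) ℝ≥0, LiesOverRationalPlace k K vt →
        ∃ s : ConstGal k K →* PiGroup k K, IsSection k K s ∧ Set.range s = decomp k K vt) ∧
    (∀ s : ConstGal k K →* PiGroup k K, IsSection k K s →
        ∃ vt : Valuation (maxUnramified k K) ℝ≥0, LiesOverRationalPlace k K vt ∧
          Set.range s = decomp k K vt) ∧
    (∀ vt vt' : Valuation (maxUnramified k K) ℝ≥0, LiesOverRationalPlace k K vt →
        LiesOverRationalPlace k K vt' → decomp k K vt = decomp k K vt' →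
        (vt.comap (algebraMap K (maxUnramified k K))).IsEquiv
          (vt'.comap (algebraMap K (maxUnramified k K)))) :=
  AAsm_349.S0015_of p k K h16 (partA HS h16)

end Crest.Agent.R013.S15_512
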