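import Crest.Agent.R013.Good5_940
import Crest.Agent.R013.HU13_522

/-!
# R013 / SD1: the expansion at a place gives an end (map to `EE ℚ_[p] C`) (helper940)

`C` an algebraic closure of `ℚ_[p]`, `r = p ^ N`.
* `jr r : BD ℚ_[p] C →+* LaurentSeries C`, `f(T) ↦ f(X / r)`;
* `frR r` : the subfield of quotients of `jr (BD)`;
* `exists_N0` : the functions in `E0 · CbS` extend to the disc `|x| < |p|^N`, for large `N`.
-/

set_option autoImplicit false
set_option linter.unusedSectionVars false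

namespace Crest.Agent.R013.SD1_940

open scoped NNReal
open Crest.NumberTheoryR.Sect
open Crest.Agent.R013.Small2_940 Crest.Agent.R013.Small3_940 Crest.Agent.R013.Small4_940
open Crest.Agent.R013.Small5_940 Crest.Agent.R013.Good5_940
open Crest.Agent.R013.Puis_702 (mapL coeff_mapL exists_pow_mul)
open Crest.Agent.R013.Cell_408

section jr

variable {k C : Type*} [NontriviallyNormedField k] [NormedField C] [IsUltrametricDist C]
  [NormedAlgebra k C] [Algebra.IsAlgebraic k C]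

/-- `f(T) ↦ f(X / r)` -/
noncomputable def jr (k : Type*) {C : Type*} [NontriviallyNormedField k] [NormedField C]
    [IsUltrametricDist C] [NormedAlgebra k C] [Algebra.IsAlgebraic k C] (r : C) :
    BD k C →+* LaurentSeries C :=
  ((toL C).comp (PowerSeries.rescale r⁻¹)).comp (BD k C).val.toRingHom

theorem jr_apply (r : C) (f : BD k C) :
    jr k r f = toL C (PowerSeries.rescale r⁻¹ (f : PowerSeries C)) := rfl

theorem rescale_inj {r : C} (hr : r ≠ 0) : Function.Injective (PowerSeries.rescale r⁻¹ : PowerSeries C →+* _) := by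
  intro f g h
  have h1 := congrArg (PowerSeries.rescale r) h
  rw [PowerSeries.rescale_rescale, PowerSeries.rescale_rescale, inv_mul_cancel₀ hr,
    PowerSeries.rescale_one] at h1
  exact h1

theorem jr_injective {r : C} (hr : r ≠ 0) : Function.Injective (jr k r) := by
  intro f g h
  rw [jr_apply, jr_apply] at h
  exact Subtype.ext (rescale_inj hr (HahnSeries.ofPowerSeries_injective h))

theorem jr_C (r c : C) : jr k r ⟨PowerSeries.C c, C_mem_BD c⟩ = HahnSeries.C c := by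
  rw [jr_apply]
  have : PowerSeries.rescale r⁻¹ (PowerSeries.C c) = PowerSeries.C c := by
    ext n
    rw [PowerSeries.coeff_rescale, PowerSeries.coeff_C]
    split_ifs with h
    · rw [h, pow_zero, one_mul]
    · rw [mul_zero]
  show toL C (PowerSeries.rescale r⁻¹ (PowerSeries.C c)) = _
  rw [this, HahnSeries.ofPowerSeries_C]

theorem jr_X {r : C} (hr : r ≠ 0) :
    jr k r (⟨PowerSeries.C r, C_mem_BD r⟩ * ⟨PowerSeries.X, X_mem_BD⟩) = HahnSeries.single (1 : ℤ) (1 : C) := by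
  rw [jr_apply]
  show toL C (PowerSeries.rescale r⁻¹ (PowerSeries.C r * PowerSeries.X)) = _
  have : PowerSeries.rescale r⁻¹ (PowerSeries.C r * PowerSeries.X) = (PowerSeries.X : PowerSeries C) := by
    ext n
    rw [PowerSeries.coeff_rescale, PowerSeries.coeff_C_mul, PowerSeries.coeff_X]
    split_ifs with h
    · rw [h, pow_one, mul_one, inv_mul_cancel₀ hr]
    · rw [mul_zero, mul_zero]
  rw [this, HahnSeries.ofPowerSeries_X]

variable (k) in
/-- quotients of elements of `jr (BD)` -/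
def frR (r : C) : Subfield (LaurentSeries C) where
  carrier := {z | ∃ a b : BD k C, jr k r b ≠ 0 ∧ z * jr k r b = jr k r a}
  mul_mem' := by
    rintro z z' ⟨a, b, hb0, h⟩ ⟨a', b', hb0', h'⟩
    refine ⟨a * a', b * b', ?_, ?_⟩
    · rw [map_mul]; exact mul_ne_zero hb0 hb0'
    rw [map_mul, map_mul, ← h, ← h']; ring
  one_mem' := ⟨1, 1, by rw [map_one]; exact one_ne_zero, by rw [one_mul]⟩
  add_mem' := by
    rintro z z' ⟨a, b, hb0, h⟩ ⟨a', b', hb0', h'⟩
    refine ⟨a * b' + a' * b, b * b', ?_, ?_⟩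
    · rw [map_mul]; exact mul_ne_zero hb0 hb0'
    rw [map_mul, map_add, map_mul, map_mul, ← h, ← h']; ring
  zero_mem' := ⟨0, 1, by rw [map_one]; exact one_ne_zero, by rw [zero_mul, map_zero]⟩
  neg_mem' := by
    rintro z ⟨a, b, hb0, h⟩
    exact ⟨-a, b, hb0, by rw [map_neg, neg_mul, h]⟩
  inv_mem' := by
    rintro z ⟨a, b, hb0, h⟩
    by_cases hz : z = 0
    · subst hz
      rw [inv_zero]
      exact ⟨0, 1, by rw [map_one]; exact one_ne_zero, by rw [zero_mul, map_zero]⟩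
    · refine ⟨b, a, ?_, ?_⟩
      · rw [← h]; exact mul_ne_zero hz hb0
      · rw [← h, ← mul_assoc, inv_mul_cancel₀ hz, one_mul]

theorem mem_frR {r : C} {z : LaurentSeries C} (hz : z ∈ frR k r) :
    ∃ a b : BD k C, b ≠ 0 ∧ z * jr k r b = jr k r a := by
  obtain ⟨a, b, hb, h⟩ := hz
  refine ⟨a, b, ?_, h⟩
  rintro rfl
  exact hb (map_zero _)

theorem jr_mem_frR (r : C) (f : BD k C) : jr k r f ∈ frR k r :=
  ⟨f, 1, by rw [map_one]; exact one_ne_zero, by rw [map_one, mul_one]⟩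

theorem C_mem_frR (r c : C) : (HahnSeries.C c : LaurentSeries C) ∈ frR k r := by
  rw [← jr_C (k := k) r c]; exact jr_mem_frR r _

theorem mem_frR_of_bdd {r : C} (hr : r ≠ 0) {z : LaurentSeries C} {B : ℝ}
    (hD : FinDef k z.coeff) (hB : ∀ i : ℤ, ‖z.coeff i‖ * ‖r‖ ^ i ≤ B) : z ∈ frR k r := by
  obtain ⟨N, hN⟩ := exists_pow_mul z
  obtain ⟨w, hw⟩ := hN N le_rfl
  have hcoeff : ∀ n : ℕ, PowerSeries.coeff n w = z.coeff ((n : ℤ) - N) := by
    intro n
    have h1 : (toL C w).coeff (n : ℤ) = PowerSeries.coeff n w := by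
      exact HahnSeries.ofPowerSeries_apply_coeff _ _
    rw [← h1, toL, ← hw, map_pow, HahnSeries.ofPowerSeries_X, HahnSeries.single_pow]
    have h2 : (N • (1 : ℤ)) = (N : ℤ) := by simp
    rw [h2, one_pow, HahnSeries.coeff_single_mul, one_mul]
  have hr0 : 0 < ‖r‖ := norm_pos_iff.mpr hr
  have hwB : (PowerSeries.rescale r w) ∈ BD k C := by
    refine ⟨?_, B * ‖r‖ ^ (N : ℤ), fun n => ?_⟩
    · obtain ⟨L, hL, hM, h3⟩ := hD.common (finDef_const (k := k) (ι := Unit) r)
      refine ⟨L, hL, fun n => ?_⟩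
      dsimp only
      rw [PowerSeries.coeff_rescale, hcoeff]
      exact mul_mem (pow_mem (h3 ()) n) (hM _)
    · rw [PowerSeries.coeff_rescale, norm_mul, norm_pow, hcoeff]
      have h3 : ‖r‖ ^ n = ‖r‖ ^ ((n : ℤ) - N) * ‖r‖ ^ (N : ℤ) := by
        rw [← zpow_add₀ hr0.ne', sub_add_cancel, zpow_natCast]
      calc ‖r‖ ^ n * ‖z.coeff ((n : ℤ) - N)‖
          = ‖z.coeff ((n : ℤ) - N)‖ * ‖r‖ ^ ((n : ℤ) - N) * ‖r‖ ^ (N : ℤ) := by rw [h3]; ring
        _ ≤ B * ‖r‖ ^ (N : ℤ) := mul_le_mul_of_nonneg_right (hB _) (by positivity)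
  have h5 : jr k r ⟨PowerSeries.rescale r w, hwB⟩ = toL C w := by
    rw [jr_apply]
    show toL C (PowerSeries.rescale r⁻¹ (PowerSeries.rescale r w)) = _
    rw [PowerSeries.rescale_rescale, mul_inv_cancel₀ hr, PowerSeries.rescale_one]
    rfl
  have h6 : z = toL C w * (HahnSeries.single (1 : ℤ) (1 : C) ^ N)⁻¹ := by
    rw [← HahnSeries.ofPowerSeries_X, toL, ← hw, map_pow, mul_comm _ z, mul_assoc, mul_inv_cancel₀, mul_one]
    refine pow_ne_zero _ ?_
    rw [ne_eq, map_eq_zero_iff _ HahnSeries.ofPowerSeries_injective]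
    exact PowerSeries.X_ne_zero
  rw [h6]
  refine mul_mem ?_ (inv_mem (pow_mem ?_ N))
  · rw [← h5]; exact jr_mem_frR r _
  · rw [← jr_X (k := k) hr]; exact jr_mem_frR r _

end jr

section place

variable {p : ℕ} [hpF : Fact p.Prime] {k : Type*} [Field k] [CharZero k] [Algebra ℚ_[p] k]
  [FiniteDimensional ℚ_[p] k]
  {K : Type*} [Field K] [Algebra k K]
  [Algebra (RatFunc k) K] [IsScalarTower k (RatFunc k) K] [FiniteDimensional (RatFunc k) K]
  {P : Valuation (AlgebraicClosure K) ℝ≥0} {x : K}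
  {C : Type*} [NormedField C] [IsUltrametricDist C] [NormedAlgebra ℚ_[p] C]
  [Algebra.IsAlgebraic ℚ_[p] C]

/-- `p ^ N` in `C` -/
noncomputable abbrev rN (p : ℕ) [Fact p.Prime] (C : Type*) [NormedField C] (N : ℕ) : C := (p : C) ^ N

theorem norm_pC : ‖(p : C)‖ = (p : ℝ)⁻¹ := by
  have h1 := norm_algebraMap' C (p : ℚ_[p])
  rw [map_natCast, Padic.norm_p] at h1
  exact h1

theorem norm_pC_lt : ‖(p : C)‖ < 1 := by
  rw [norm_pC]
  exact inv_lt_one_of_one_lt₀ (by exact_mod_cast hpF.out.one_lt)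

theorem norm_pC_pos : 0 < ‖(p : C)‖ := by
  rw [norm_pC]
  exact inv_pos.mpr (by exact_mod_cast hpF.out.pos)

theorem rN_ne_zero (N : ℕ) : rN p C N ≠ 0 :=
  pow_ne_zero _ (norm_pos_iff.mp norm_pC_pos)

theorem mapL_comp_apply {R S : Type*} [CommRing R] [CommRing S] (f : R →+* S) (z : LaurentSeries R) (i : ℤ) :
    (mapL f z).coeff i = f (z.coeff i) := coeff_mapL _ _ _

/-- a finite extension of `k` in the constants is a finite extension of `ℚ_[p]` in `C` -/
theorem finDef_of_fin (e : Cb k K →+* C)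
    (he : ∀ a : ℚ_[p], e (algebraMap k (Cb k K) (algebraMap ℚ_[p] k a)) = algebraMap ℚ_[p] C a)
    (C0 : IntermediateField k (Cb k K)) [FiniteDimensional k C0] {ι : Type*} (a : ι → Cb k K)
    (ha : ∀ i, a i ∈ C0) : FinDef ℚ_[p] (fun i => e (a i)) := by
  let _ : Algebra ℚ_[p] C0 := ((algebraMap k C0).comp (algebraMap ℚ_[p] k)).toAlgebra
  have : IsScalarTower ℚ_[p] k C0 := IsScalarTower.of_algebraMap_eq fun a => rfl
  have hfd : FiniteDimensional ℚ_[p] C0 := FiniteDimensional.trans ℚ_[p] k C0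
  let f : C0 →ₐ[ℚ_[p]] C :=
    { (e.comp C0.val.toRingHom) with commutes' := fun a => he a }
  refine ⟨f.fieldRange, ?_, fun i => ⟨⟨a i, ha i⟩, rfl⟩⟩
  exact LinearMap.finiteDimensional_range f.toLinearMap

/-- **(J1)** the functions in `E0 · constants` extend to the disc of radius `|p|^N` -/
theorem exists_N0 (hP : IsRationalPlace k K (P.comap (algebraMap K (AlgebraicClosure K))))
    (hx : IsUniformizerAt (P.comap (algebraMap K (AlgebraicClosure K))) x)
    {J : maxUnramified k K →+* LaurentSeries (Cb k K)}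
    (hJ : IsExp (iM k K) (P.comap (algebraMap (maxUnramified k K) (AlgebraicClosure K)))
        (algebraMap K (maxUnramified k K) x) J)
    (e : Cb k K →+* C)
    (he : ∀ a : ℚ_[p], e (algebraMap k (Cb k K) (algebraMap ℚ_[p] k a)) = algebraMap ℚ_[p] C a)
    (E0 : IntermediateField K (AlgebraicClosure K)) [FiniteDimensional K E0]
    (hE0 : E0 ≤ maxUnramified k K) :
    ∃ N0 : ℕ, ∀ N, N0 ≤ N → ∀ z : maxUnramified k K,
      (z : AlgebraicClosure K) ∈ E0 ⊔ IntermediateField.adjoin K (CbS k K) →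
      mapL e (J z) ∈ frR ℚ_[p] (rN p C N) := by
  classical
  obtain ⟨S, hSE, hSgen⟩ := exists_gen (k := k) E0
  let S' : Finset (maxUnramified k K) := S.attach.image fun s => ⟨s.1, hE0 (hSE s.2)⟩
  let v0 : Valuation (Cb k K) ℝ≥0 := (NormedField.valuation (K := C)).comap e
  have hv0 : ∀ c, v0 c = ‖e c‖₊ := fun c => rfl
  obtain ⟨C0, hC0fin, hC0, ρ, hρ, B, hB⟩ := exists_common hP hx hJ v0 S'
  obtain ⟨N0, hN0⟩ := exists_pow_lt_of_lt_one (show (0 : ℝ) < ρ from hρ) (norm_pC_lt (p := p) (C := C))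
  refine ⟨N0, fun N hN z hz => ?_⟩
  have hRρ : ‖rN p C N‖₊ ≤ ρ := by
    rw [← NNReal.coe_le_coe, coe_nnnorm, norm_pow]
    exact (pow_le_pow_of_le_one (norm_nonneg _) (norm_pC_lt (p := p) (C := C)).le hN).trans hN0.le
  have hRpos : 0 < ‖rN p C N‖₊ := nnnorm_pos.mpr (rN_ne_zero N)
  have hgen : ∀ w ∈ ((E0 : Set (AlgebraicClosure K)) ∪ CbS k K), ∃ hw : w ∈ maxUnramified k K,
      mapL e (J ⟨w, hw⟩) ∈ frR ℚ_[p] (rN p C N) := by
    have hCc : ∀ w ∈ CbS k K, ∃ hw : w ∈ maxUnramified k K,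
        mapL e (J ⟨w, hw⟩) ∈ frR ℚ_[p] (rN p C N) := by
      intro w hw
      have hi : IsIntegral k w := isAlgebraic_iff_isIntegral.mp (mem_algebraicClosure_iff.mp hw)
      have hwM : w ∈ maxUnramified k K := MaxUnr_97.mem_maxUnramified_of_isIntegral w hi
      refine ⟨hwM, ?_⟩
      let c : Cb k K := ⟨w, hw⟩
      have h1 : (⟨w, hwM⟩ : maxUnramified k K) = iM k K c := rfl
      rw [h1, hJ.con, mapL_C]
      exact C_mem_frR _ _
    rintro w (hw | hw)
    · -- `w ∈ E0`
      have hwM := hE0 hw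
      refine ⟨hwM, ?_⟩
      have h3 : Subfield.closure (Set.range (algebraMap k (AlgebraicClosure K)) ∪
          (S : Set (AlgebraicClosure K))) ≤ ((frR ℚ_[p] (rN p C N)).comap ((mapL e).comp J)).map
            (algebraMap (maxUnramified k K) (AlgebraicClosure K)) := by
        rw [Subfield.closure_le]
        rintro w (⟨a, rfl⟩ | hw)
        · obtain ⟨hw', h4⟩ := hCc (algebraMap k (AlgebraicClosure K) a)
            ((algebraicClosure k (AlgebraicClosure K)).algebraMap_mem a)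
          exact ⟨⟨_, hw'⟩, h4, rfl⟩
        · refine ⟨⟨w, hE0 (hSE hw)⟩, ?_, rfl⟩
          have hmem : (⟨w, hE0 (hSE hw)⟩ : maxUnramified k K) ∈ S' :=
            Finset.mem_image.mpr ⟨⟨w, hw⟩, Finset.mem_attach _ _, rfl⟩
          obtain ⟨B', hB'⟩ := Puis_702.bdd_mono (ρ' := ‖rN p C N‖₊) hRpos hRρ (hB _ hmem)
          refine mem_frR_of_bdd (B := B') (rN_ne_zero N) ?_ (fun i => ?_)
          · have h5 := finDef_of_fin (p := p) e he C0 (fun i => (J ⟨w, hE0 (hSE hw)⟩).coeff i) (hC0 _ hmem)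
            have h6 : (mapL e (J ⟨w, hE0 (hSE hw)⟩)).coeff =
                fun i => e ((J ⟨w, hE0 (hSE hw)⟩).coeff i) := funext fun i => coeff_mapL _ _ _
            show FinDef ℚ_[p] (mapL e (J ⟨w, hE0 (hSE hw)⟩)).coeff
            rw [h6]
            exact h5
          · show ‖(mapL e (J ⟨w, hE0 (hSE hw)⟩)).coeff i‖ * _ ≤ _
            rw [coeff_mapL]
            have h2 := hB' i
            rw [hv0, ← NNReal.coe_le_coe] at h2
            exact h2
      obtain ⟨z', hz', hzz⟩ := h3 (hSgen w hw)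
      have : z' = ⟨w, hwM⟩ := Subtype.ext hzz
      rw [← this]
      exact hz'
    · exact hCc w hw
  have h7 : Subfield.closure ((E0 : Set (AlgebraicClosure K)) ∪ CbS k K) ≤
      ((frR ℚ_[p] (rN p C N)).comap ((mapL e).comp J)).map
            (algebraMap (maxUnramified k K) (AlgebraicClosure K)) := by
    rw [Subfield.closure_le]
    intro w hw
    obtain ⟨hw', h2⟩ := hgen w hw
    exact ⟨⟨w, hw'⟩, h2, rfl⟩
  obtain ⟨z', hz', hzz⟩ := h7 (closure_of_mem_sup E0 (CbS k K) hz)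
  have : z' = z := Subtype.ext hzz
  rw [← this]
  exact hz'

end place

end Crest.Agent.R013.SD1_940
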