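import Crest.Agent.R013.SD2_940
import Crest.Agent.R013.RR13_948
import Crest.Agent.R013.PicD_398
import Crest.Agent.R013.TP1_928

/-!
# R013 / SD3: roots of functions on `Y` with divisible divisor lie in `maxUnramified` (helper940)
-/

set_option autoImplicit false
set_option linter.unusedSectionVars false

namespace Crest.Agent.R013.SD3_940

open scoped NNReal
open Crest.NumberTheoryR.Sect WithZero
open Crest.Agent.R013.Small2_940 Crest.Agent.R013.Small3_940 Crest.Agent.R013.Small4_940
open Crest.Agent.R013.Small5_940 Crest.Agent.R013.Good5_940 Crest.Agent.R013.SD1_940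
open Crest.Agent.R013.SD2_940
open Crest.Agent.R013.Puis_702 (mapL coeff_mapL exists_pow_mul)
open Crest.Agent.R013.RR7_948 Crest.Agent.R013.RR13_948

variable {k : Type*} [Field k] [CharZero k]
  {K : Type*} [Field K] [Algebra k K]
  [Algebra (RatFunc k) K] [IsScalarTower k (RatFunc k) K] [FiniteDimensional (RatFunc k) K]
  {C : Type*} [Field C] [CharZero C]
  {Y : Type*} [Field Y] [Algebra C Y] [Algebra (RatFunc C) Y] [IsScalarTower C (RatFunc C) Y]
  [FiniteDimensional (RatFunc C) Y]

/-- every element of `maxUnramified` has the value of an element of `K` at every place -/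
theorem exists_val_K {W : Valuation (AlgebraicClosure K) ℝ≥0} (hW : IsPlace k W)
    {b : AlgebraicClosure K} (hb : b ∈ maxUnramified k K) :
    ∃ a : K, W b = W (algebraMap K (AlgebraicClosure K) a) := by
  by_cases hb0 : b = 0
  · exact ⟨0, by rw [hb0, map_zero, map_zero, map_zero]⟩
  obtain ⟨L, hL, hbL⟩ := Unr5_957.mem_maxUnramified_iff.mp hb
  have hpl : IsPlace k (W.comap (algebraMap L (AlgebraicClosure K))) := by
    have halg : Algebra.IsAlgebraic L (AlgebraicClosure K) :=
      Algebra.IsAlgebraic.tower_top (K := K) L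
    exact Unr3_957.isPlace_comap (F := L) hW
  obtain ⟨a, ha⟩ := hL.2 _ hpl ⟨b, hbL⟩ (fun h => hb0 (congrArg (Subtype.val : L → AlgebraicClosure K) h))
  exact ⟨a, ha⟩

/-- **(J3)** -/
theorem kummer_phi (i : C →+* Cb k K) (phi : Y →+* maxUnramified k K)
    (hcon : ∀ c : C, phi (algebraMap C Y c) = iM k K (i c)) {m : ℕ} (hm : m ≠ 0) {z : Y}
    (hz0 : z ≠ 0) (hz : ∀ Q : Pl C Y, ∃ j : ℤ, Q.v z = exp (m * j))
    {y : AlgebraicClosure K} (hy : y ^ m = phi z) : y ∈ maxUnramified k K := by
  obtain ⟨U, hU, hzU⟩ := Unr5_957.mem_maxUnramified_iff.mp (phi z).2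
  have hUfd := hU.1
  have hUM : U ≤ maxUnramified k K := le_sSup (a := U) hU
  refine Unr10_957.kummer_mem_maxUnramified hU hm (h := ⟨phi z, hzU⟩) (fun u hu => ?_) hy
  have halg : Algebra.IsAlgebraic U (AlgebraicClosure K) :=
    Algebra.IsAlgebraic.tower_top (K := K) U
  obtain ⟨W, hWu⟩ := Unr9_957.exists_extend_alg (E := AlgebraicClosure K) u
  have hW : IsPlace k W := Unr3_957.isPlace_of_comap (F := U) (by rw [hWu]; exact hu)
  have hu' : ∀ b : U, u b = W (b : AlgebraicClosure K) := by
    intro b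
    rw [← hWu]; rfl
  let w : Valuation Y ℝ≥0 := (W.comap (algebraMap (maxUnramified k K) (AlgebraicClosure K))).comap phi
  have hw : ∀ b : Y, w b = W (phi b : AlgebraicClosure K) := fun b => rfl
  have hphi0 : ∀ b : Y, b ≠ 0 → w b ≠ 0 := fun b hb => (Valuation.ne_zero_iff w).mpr hb
  -- constants
  have hconst : ∀ c : C, c ≠ 0 → w (algebraMap C Y c) = 1 := by
    intro c hc
    rw [hw, hcon, coe_iM]
    have h1 := Unr9_957.trivial_of_trivial (F := k) (W.comap (algebraMap (Cb k K) (AlgebraicClosure K)))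
      (fun a ha => by
        rw [Valuation.comap_apply, ← IsScalarTower.algebraMap_apply]
        exact hW.1 a ha) (i c) ((_root_.map_ne_zero i).mpr hc)
    exact h1
  -- the value of `z` is an `m`-th power in `Y`
  obtain ⟨a', ha'⟩ : ∃ a' : Y, w z = w a' ^ m := by
    by_cases hnt : ∃ a : Y, w a ≠ 0 ∧ w a ≠ 1
    · obtain ⟨Q, hQ⟩ := exists_place (k := C) w hconst hnt
      obtain ⟨j, hj⟩ := hz Q
      obtain ⟨a', ha'⟩ := Q.surj (exp j)
      refine ⟨a', ?_⟩
      have ha0 : a' ≠ 0 := by
        rintro rfl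
        rw [map_zero] at ha'
        exact exp_ne_zero ha'.symm
      have h1 : Q.v (z / a' ^ m) = 1 := by
        rw [map_div₀, map_pow, ha', hj, ← exp_nsmul, nsmul_eq_mul, div_self exp_ne_zero]
      rw [hQ.eq_one_iff_eq_one, map_div₀, map_pow, div_eq_one_iff_eq] at h1
      · exact h1
      · exact pow_ne_zero _ (hphi0 a' ha0)
    · push Not at hnt
      refine ⟨1, ?_⟩
      rw [map_one, one_pow]
      exact hnt z (hphi0 z hz0)
  obtain ⟨c, hc⟩ := exists_val_K hW (phi a').2
  refine ⟨algebraMap K U c, ?_⟩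
  rw [hu', hu']
  have h1 : W (phi z : AlgebraicClosure K) = W (phi a' : AlgebraicClosure K) ^ m := ha'
  rw [hc] at h1
  exact h1

end Crest.Agent.R013.SD3_940
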