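import Crest.Agent.R013.SD3_940
import Crest.Agent.R013.HU15_522
import Crest.Agent.R013.Good7_940

/-!
# R013 / SD4: a class with a form of exact order `i` gives the input `Inp` of `good_last` (helper940)

* `coeff_shift_rescale`, `derivative_rescale` : translation between the variables `T = X / r` and `X`;
* `mem_closed_shift` : coefficients in a closed subfield;
* `inp_of_class` : **(J2)**.
-/

set_option autoImplicit false
set_option linter.unusedSectionVars false

namespace Crest.Agent.R013.SD4_940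

open scoped NNReal
open PowerSeries (coeff constantCoeff)
open Crest.NumberTheoryR.Sect WithZero
open Crest.Agent.R013.Small2_940 Crest.Agent.R013.Small3_940 Crest.Agent.R013.Small4_940
open Crest.Agent.R013.Small5_940 Crest.Agent.R013.Good5_940 Crest.Agent.R013.SD1_940
open Crest.Agent.R013.SD2_940 Crest.Agent.R013.SD3_940
open Crest.Agent.R013.Puis_702 (mapL coeff_mapL exists_pow_mul)
open Crest.Agent.R013.RR7_948 Crest.Agent.R013.RR13_948 Crest.Agent.R013.RR11_948
open Crest.Agent.R013.LemD_323 (shift coeff_shift summable_shift)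
open Crest.Agent.R013.Cell_408 Crest.Agent.R013.EE809 Crest.Agent.R013.HU13_522
open Crest.Agent.R013.HU11_522 Crest.Agent.R013.HU8_522 Crest.Agent.R013.HU6_522
open Crest.Agent.R013.HU3_522 Crest.Agent.R013.HU4_522 Crest.Agent.R013.HU2_522
open Crest.Agent.R013.HU1_522 Crest.Agent.R013.HU7_522 Crest.Agent.R013.HU9_522
open Crest.Agent.R013.HU10_522 Crest.Agent.R013.HU15_522 Crest.Agent.R013.PC_588
open Crest.Agent.R013.KAS3_940 (bsub)
open Crest.Agent.R013.KAS2_940 (Bd)

section ps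

variable {F : Type*} [NontriviallyNormedField F] [IsUltrametricDist F]

theorem coeff_shift_rescale {r : F} (hr : r ≠ 0) (s : F) (f : PowerSeries F) (l : ℕ) :
    coeff l (shift (r * s) (PowerSeries.rescale r⁻¹ f)) = r⁻¹ ^ l * coeff l (shift s f) := by
  rw [coeff_shift, coeff_shift, ← tsum_mul_left]
  refine tsum_congr fun n => ?_
  rw [PowerSeries.coeff_rescale, pow_add, mul_pow, inv_pow]
  field_simp

theorem shift_C_mul (c s : F) (f : PowerSeries F) (l : ℕ) :
    coeff l (shift s (PowerSeries.C c * f)) = c * coeff l (shift s f) := by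
  rw [coeff_shift, coeff_shift, ← tsum_mul_left]
  refine tsum_congr fun n => ?_
  rw [PowerSeries.coeff_C_mul]
  ring

theorem derivative_rescale (a : F) (f : PowerSeries F) :
    PowerSeries.derivative F (PowerSeries.rescale a f) =
      PowerSeries.C a * PowerSeries.rescale a (PowerSeries.derivative F f) := by
  ext n
  rw [PowerSeries.coeff_derivative, PowerSeries.coeff_rescale, PowerSeries.coeff_C_mul,
    PowerSeries.coeff_rescale, PowerSeries.coeff_derivative, pow_succ]
  ring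

theorem bd_rescale {r : F} (hr : r ≠ 0) {B : ℝ} {f : PowerSeries F} (hf : Bd 1 B f) :
    Bd ‖r‖ B (PowerSeries.rescale r⁻¹ f) := by
  intro n
  have h1 : 0 < ‖r‖ := norm_pos_iff.mpr hr
  have h2 := hf n
  rw [one_pow, mul_one] at h2
  rw [PowerSeries.coeff_rescale, norm_mul, norm_pow, norm_inv, inv_pow, mul_comm, ← mul_assoc,
    mul_inv_cancel₀ (pow_pos h1 n).ne', one_mul]
  exact h2

/-- sums of elements in a closed subfield -/
theorem tsum_mem_closed (L : Subfield F) (hL : IsClosed (L : Set F)) {f : ℕ → F}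
    (hf : ∀ n, f n ∈ L) : ∑' n, f n ∈ L := by
  by_cases hs : Summable f
  · refine hL.mem_of_tendsto hs.hasSum.tendsto_sum_nat (Filter.Eventually.of_forall fun n => ?_)
    exact sum_mem fun i _ => hf i
  · rw [tsum_eq_zero_of_not_summable hs]
    exact zero_mem L

theorem coeff_shift_mem (L : Subfield F) (hL : IsClosed (L : Set F)) {s : F} (hs : s ∈ L)
    {f : PowerSeries F} (hf : ∀ n, coeff n f ∈ L) (l : ℕ) : coeff l (shift s f) ∈ L := by
  rw [coeff_shift]
  exact tsum_mem_closed L hL fun n => mul_mem (mul_mem (natCast_mem L _) (hf _)) (pow_mem hs n)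

/-- the coefficients of a solution of `H' = om H` -/
theorem coeff_sol_mem [CharZero F] (L : Subfield F) {om H : PowerSeries F}
    (h : PowerSeries.derivative F H = om * H) (h0 : constantCoeff H ∈ L)
    (hom : ∀ n, coeff n om ∈ L) (n : ℕ) : coeff n H ∈ L := by
  induction n using Nat.strong_induction_on with
  | _ n ih =>
    rcases n with _ | n
    · rwa [PowerSeries.coeff_zero_eq_constantCoeff_apply]
    · have h1 := congrArg (coeff n) h
      rw [PowerSeries.coeff_derivative, PowerSeries.coeff_mul] at h1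
      have h2 : ((n : F) + 1) ≠ 0 := by exact_mod_cast Nat.succ_ne_zero n
      rw [eq_div_of_mul_eq h2 h1]
      refine div_mem (sum_mem fun x hx => mul_mem (hom _) (ih _ ?_)) (add_mem (natCast_mem L n) (one_mem L))
      have := Finset.HasAntidiagonal.mem_antidiagonal.mp hx
      omega

end ps

section main

variable {p : ℕ} [hpF : Fact p.Prime] {k : Type*} [Field k] [CharZero k] [Algebra ℚ_[p] k]
  [FiniteDimensional ℚ_[p] k]
  {K : Type*} [Field K] [Algebra k K]
  [Algebra (RatFunc k) K] [IsScalarTower k (RatFunc k) K] [FiniteDimensional (RatFunc k) K]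
  {P : Valuation (AlgebraicClosure K) ℝ≥0} {x : K}
  {C : Type*} [NormedField C] [IsUltrametricDist C] [NormedAlgebra ℚ_[p] C]
  [Algebra.IsAlgebraic ℚ_[p] C] [CharZero C] [IsAlgClosed C]
  {Y : Type*} [Field Y] [Algebra C Y] [Algebra (RatFunc C) Y] [IsScalarTower C (RatFunc C) Y]
  [FiniteDimensional (RatFunc C) Y]
  {J : maxUnramified k K →+* LaurentSeries (Cb k K)} {e : Cb k K ≃+* C}
  {E0 : IntermediateField K (AlgebraicClosure K)} {phi : Y →+* maxUnramified k K}
  {F : Type*} [NontriviallyNormedField F] [IsUltrametricDist F] [CompleteSpace F] [CharZero F]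
  (σ : C →+* F) (hσ : ∀ a, ‖σ a‖ = ‖a‖)

/-- `f(T) ↦ f(X/r)` on bounded power series -/
noncomputable def Lam {r : F} : bsub (K := F) 1 one_pos →+* LaurentSeries F :=
  ((toL F).comp (PowerSeries.rescale r⁻¹)).comp (bsub (K := F) 1 one_pos).subtype

theorem Lam_apply {r : F} (f : bsub (K := F) 1 one_pos) :
    Lam (r := r) f = toL F (PowerSeries.rescale r⁻¹ (f : PowerSeries F)) := rfl

theorem Lam_injective {r : F} (hr : r ≠ 0) : Function.Injective (Lam (r := r)) := by
  intro f g h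
  rw [Lam_apply, Lam_apply] at h
  have h1 := HahnSeries.ofPowerSeries_injective h
  have h2 := congrArg (PowerSeries.rescale r) h1
  rw [PowerSeries.rescale_rescale, PowerSeries.rescale_rescale, inv_mul_cancel₀ hr,
    PowerSeries.rescale_one] at h2
  exact Subtype.ext h2

theorem mapL_jr_eq (N : ℕ) (f : BD ℚ_[p] C) :
    mapL σ (jr ℚ_[p] (rN p C N) f) = Lam (r := (p : F) ^ N) (bdMap σ hσ f) := by
  refine HahnSeries.ext (funext fun i => ?_)
  rw [coeff_mapL, jr_apply, Lam_apply]
  rcases lt_or_ge i 0 with hi | hi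
  · rw [PowerSeries.coeff_coe, PowerSeries.coeff_coe, if_pos hi, if_pos hi, map_zero]
  · obtain ⟨n, rfl⟩ := Int.eq_ofNat_of_zero_le hi
    have h1 : ∀ f : PowerSeries C, (toL C f).coeff (n : ℤ) = PowerSeries.coeff n f :=
      fun f => HahnSeries.ofPowerSeries_apply_coeff _ _
    have h1' : ∀ f : PowerSeries F, (toL F f).coeff (n : ℤ) = PowerSeries.coeff n f :=
      fun f => HahnSeries.ofPowerSeries_apply_coeff _ _
    rw [h1, h1', PowerSeries.coeff_rescale, PowerSeries.coeff_rescale, bdMap_val,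
      PowerSeries.coeff_map, map_mul, map_pow, map_inv₀]
    congr 3
    show σ ((p : C) ^ N) = (p : F) ^ N
    rw [map_pow, map_natCast]

theorem mapL_mapL {R S T : Type*} [CommRing R] [CommRing S] [CommRing T] (f : R →+* S) (g : S →+* T)
    (z : LaurentSeries R) : mapL g (mapL f z) = mapL (g.comp f) z := by
  refine HahnSeries.ext (funext fun i => ?_)
  rw [coeff_mapL, coeff_mapL, coeff_mapL]
  rfl

variable [hk : Fact (DiscNorm ℚ_[p])] {N : ℕ}
  (hN : ∀ z : Y, ∃ a b : BD ℚ_[p] C, b ≠ 0 ∧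
    io e J phi z * jr ℚ_[p] (rN p C N) b = jr ℚ_[p] (rN p C N) a)

include hN hσ in
/-- the form of the representatives in `F((X))` -/
theorem rep_laurent
    (hJ : IsExp (iM k K) (P.comap (algebraMap (maxUnramified k K) (AlgebraicClosure K)))
        (algebraMap K (maxUnramified k K) x) J) (h : PH e E0 phi)
    {u : PC p Yˣ} (hu : DivP C u) {n : ℕ} {z : Yˣ} (hz : Rep u n z) :
    ∃ α β : bsub (K := F) 1 one_pos, α ≠ 0 ∧ β ≠ 0 ∧
      mapL (σ.comp (e : Cb k K →+* C)) (J (phi z)) * Lam (r := (p : F) ^ N) β ^ p ^ n =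
        toL F (PowerSeries.rescale ((p : F) ^ N)⁻¹
          ((HuE hk.out (emP hN) (emP_hι hN) σ hσ u : (PowerSeries F)ˣ) : PowerSeries F)) *
          Lam (r := (p : F) ^ N) α ^ p ^ n := by
  have hp : ‖(p : C)‖ < 1 := norm_pC_lt
  obtain ⟨a, b, hb, hab⟩ := hN z
  have hab' := emP_spec hN hb hab
  obtain ⟨α, β, hα, hβ, h1⟩ := rep_bsub hk.out (emP hN) (emP_C hN hJ h) (emP_hι hN) σ hσ hp hu hz hb hab'
  refine ⟨α, β, hα, hβ, ?_⟩
  have hr : (p : F) ^ N ≠ 0 := pow_ne_zero _ (Nat.cast_ne_zero.mpr hpF.out.ne_zero)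
  have h2 := congrArg (Lam (r := (p : F) ^ N)) h1
  rw [map_mul, map_mul, map_mul, map_pow, map_pow, ← mapL_jr_eq, ← mapL_jr_eq, ← hab, map_mul] at h2
  have h3 : mapL σ (jr ℚ_[p] (rN p C N) b) ≠ 0 := by
    rw [mapL_jr_eq σ hσ, map_ne_zero_iff _ (Lam_injective hr), map_ne_zero_iff _ (bdMap_injective σ hσ)]
    exact hb
  have h4 : mapL σ (io e J phi z) = mapL (σ.comp (e : Cb k K →+* C)) (J (phi z)) := by
    rw [io_apply, mapL_mapL]
  rw [← h4]
  refine mul_right_cancel₀ h3 ?_
  have h5 : Lam (r := (p : F) ^ N) (uB (HuE hk.out (emP hN) (emP_hι hN) σ hσ u)) =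
      toL F (PowerSeries.rescale ((p : F) ^ N)⁻¹
          ((HuE hk.out (emP hN) (emP_hι hN) σ hσ u : (PowerSeries F)ˣ) : PowerSeries F)) := rfl
  rw [← h5]
  linear_combination h2

include hN in
/-- **(J2)** a class whose form has exact order `i` at `s` gives the input of `good_last` -/
theorem inp_of_class
    (hJ : IsExp (iM k K) (P.comap (algebraMap (maxUnramified k K) (AlgebraicClosure K)))
        (algebraMap K (maxUnramified k K) x) J) (h : PH e E0 phi)
    {u : PC p Yˣ} (hu : DivP C u) (L : Subfield F) (hL : IsClosed (L : Set F))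
    (hLr : ∀ a ∈ L, ∃ c : C, σ c = a)
    (hom : ∀ n, coeff n (OmE hk.out (emP hN) (emP_hι hN) σ hσ u) ∈ L) {s : C} (hsL : σ s ∈ L)
    {ε : ℝ} (hsε : ‖s‖ < ε) {i j m : ℕ} (hij : i + 1 = p ^ j * m) (hm2 : 2 ≤ m)
    (hpm : ¬ p ∣ m)
    (h0 : ∀ l < i, coeff l (shift (σ s) (OmE hk.out (emP hN) (emP_hι hN) σ hσ u)) = 0)
    (h1 : coeff i (shift (σ s) (OmE hk.out (emP hN) (emP_hι hN) σ hσ u)) ≠ 0) :
    Inp p (σ.comp (e : Cb k K →+* C)) J E0 ‖(p : F) ^ N‖ ε := by
  set jC : Cb k K →+* F := σ.comp (e : Cb k K →+* C) with hjC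
  set r : F := (p : F) ^ N with hrdef
  have hr : r ≠ 0 := pow_ne_zero _ (Nat.cast_ne_zero.mpr hpF.out.ne_zero)
  have hrn : ‖r‖ ≤ 1 := by
    have h2 : r = σ (rN p C N) := by rw [hrdef, rN, map_pow, map_natCast]
    rw [h2, hσ, rN, norm_pow]
    exact pow_le_one₀ (norm_nonneg _) (norm_pC_lt (p := p) (C := C)).le
  obtain ⟨hc1, hH, hOm, hd⟩ := HuE_props σ hσ hk.out (emP hN) (emP_hι hN) u
  set H : PowerSeries F := ((HuE hk.out (emP hN) (emP_hι hN) σ hσ u : (PowerSeries F)ˣ) : PowerSeries F)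
    with hHdef
  set om : PowerSeries F := OmE hk.out (emP hN) (emP_hι hN) σ hσ u with homdef
  have hrL : r ∈ L := pow_mem (natCast_mem L p) N
  have hjCs : ∀ a ∈ L, ∃ c : Cb k K, jC c = a := by
    intro a ha
    obtain ⟨c, hc⟩ := hLr a ha
    refine ⟨e.symm c, ?_⟩
    show σ (e (e.symm c)) = a
    rw [RingEquiv.apply_symm_apply, hc]
  have hHL : ∀ n, coeff n H ∈ L := coeff_sol_mem L hd (by rw [hc1]; exact one_mem L) hom
  have hq : jC (e.symm (rN p C N * s)) = r * σ s := by
    show σ (e (e.symm (rN p C N * s))) = _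
    rw [RingEquiv.apply_symm_apply, map_mul, rN, map_pow, map_natCast]
  refine ⟨e.symm (rN p C N * s), i, j, m, PowerSeries.C r⁻¹ * PowerSeries.rescale r⁻¹ om,
    PowerSeries.rescale r⁻¹ H, ‖r⁻¹‖ * 1, 1, ?_, hij, hm2, hpm, ?_, ?_, ?_, ?_, ?_, ?_, ?_, ?_, ?_⟩
  · rw [hq, norm_mul, hσ]
    calc ‖r‖ * ‖s‖ ≤ 1 * ‖s‖ := mul_le_mul_of_nonneg_right hrn (norm_nonneg _)
      _ = ‖s‖ := one_mul _
      _ < ε := hsε
  · exact (KAS2_940.bd_C _).mul (norm_pos_iff.mpr hr) (bd_rescale hr hOm)
  · exact bd_rescale hr hH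
  · rw [← PowerSeries.coeff_zero_eq_constantCoeff_apply, PowerSeries.coeff_rescale, pow_zero, one_mul,
      PowerSeries.coeff_zero_eq_constantCoeff_apply, hc1]
    exact one_ne_zero
  · rw [derivative_rescale, hd, map_mul, mul_assoc]
  · intro l hl
    rw [hq, shift_C_mul, coeff_shift_rescale hr, h0 l hl, mul_zero, mul_zero]
  · rw [hq, shift_C_mul, coeff_shift_rescale hr]
    exact mul_ne_zero (inv_ne_zero hr) (mul_ne_zero (pow_ne_zero _ (inv_ne_zero hr)) h1)
  · rw [hq, shift_C_mul, coeff_shift_rescale hr]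
    exact hjCs _ (mul_mem (inv_mem hrL) (mul_mem (pow_mem (inv_mem hrL) _)
      (coeff_shift_mem L hL hsL hom i)))
  · rw [hq, ← PowerSeries.coeff_zero_eq_constantCoeff_apply, coeff_shift_rescale hr]
    exact hjCs _ (mul_mem (pow_mem (inv_mem hrL) _) (coeff_shift_mem L hL hsL hHL 0))
  · intro n
    obtain ⟨z, hz⟩ := exists_rep u n
    obtain ⟨α, β, hα, hβ, h2⟩ := rep_laurent σ hσ hN hJ h hu hz
    have hpn : p ^ n ≠ 0 := pow_ne_zero _ hpF.out.ne_zero
    refine ⟨phi z, ?_, h.lev z, fun y hy => ?_, PowerSeries.rescale r⁻¹ (α : PowerSeries F),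
      PowerSeries.rescale r⁻¹ (β : PowerSeries F), ?_, ?_, ?_, ?_, ?_⟩
    · exact (_root_.map_ne_zero phi).mpr z.ne_zero
    · refine kummer_phi (e.symm : C →+* Cb k K) phi h.con hpn z.ne_zero (fun Q => ?_) hy
      obtain ⟨t, ht⟩ := hu n z hz Q
      refine ⟨-t, ?_⟩
      rw [v_eq (k := C) z.ne_zero Q, ht]
      congr 1
      ring
    · obtain ⟨B, hB⟩ := α.2
      exact ⟨B, bd_rescale hr hB⟩
    · obtain ⟨B, hB⟩ := β.2
      exact ⟨B, bd_rescale hr hB⟩
    · intro h3
      apply hα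
      apply Lam_injective hr
      rw [Lam_apply, h3, map_zero, map_zero]
    · intro h3
      apply hβ
      apply Lam_injective hr
      rw [Lam_apply, h3, map_zero, map_zero]
    · rw [Lam_apply, Lam_apply] at h2
      rw [map_pow, map_mul, map_pow]
      exact h2

end main

end Crest.Agent.R013.SD4_940
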