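import Crest.Agent.R013.LemD4_323
import Crest.Agent.R013.Ax2_280

/-!
# R013 / C-FIN (helper928), part 1: Lemma D and Ax for spaces of power series over a big field

* `exists_order`: `U` a `ℚ_[p]`-space of power series over `F` with coefficients in a finite
  extension `L` of `ℚ_[p]`, `m [L:ℚ_p] < dim U`: there are small `s ∈ ℚ_p` and `f ∈ U` of exact
  order `m` at `s`.
* `mem_of_fixed`: Ax for coefficients.
-/

set_option autoImplicit false
set_option linter.unusedSectionVars false
set_option linter.style.haveILetI false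

namespace Crest.Agent.R013.Fin_928

open Module PowerSeries Crest.Agent.R013.LemD_323

section order

variable {p : ℕ} [hp : Fact p.Prime] {F : Type*} [NontriviallyNormedField F]
  [NormedAlgebra ℚ_[p] F] [IsUltrametricDist F]

variable (L : IntermediateField ℚ_[p] F)

theorem isUltra_sub : IsUltrametricDist L := IsUltrametricDist.subtype _

/-- restriction of coefficients -/
noncomputable def toL (U : Submodule ℚ_[p] (PowerSeries F))
    (hU : ∀ f ∈ U, ∀ n, coeff n f ∈ L) : U →ₗ[ℚ_[p]] PowerSeries L where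
  toFun f := PowerSeries.mk fun n => ⟨coeff n (f : PowerSeries F), hU f f.2 n⟩
  map_add' f g := by
    ext n
    simp
  map_smul' a f := by
    ext n
    simp

theorem coeff_toL (U : Submodule ℚ_[p] (PowerSeries F))
    (hU : ∀ f ∈ U, ∀ n, coeff n f ∈ L) (f : U) (n : ℕ) :
    ((coeff n (toL L U hU f) : L) : F) = coeff n (f : PowerSeries F) := by
  simp [toL]

theorem toL_injective (U : Submodule ℚ_[p] (PowerSeries F))
    (hU : ∀ f ∈ U, ∀ n, coeff n f ∈ L) : Function.Injective (toL L U hU) := by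
  intro f g h
  apply Subtype.ext
  ext n
  rw [← coeff_toL L U hU f n, ← coeff_toL L U hU g n, h]

variable [CompleteSpace F] [FiniteDimensional ℚ_[p] L]

theorem coe_shift {r : ℝ} {f : PowerSeries L} (hf : Bd r f) {s : L} (hs : ‖s‖ < r)
    {g : PowerSeries F} (hg : ∀ n, ((coeff n f : L) : F) = coeff n g) (l : ℕ) :
    ((coeff l (shift s f) : L) : F) = coeff l (shift (s : F) g) := by
  haveI := isUltra_sub L
  haveI : CompleteSpace L := FiniteDimensional.complete ℚ_[p] L
  rw [coeff_shift, coeff_shift]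
  have h1 := summable_shift hf hs l
  have h2 : Continuous (fun x : L => (x : F)) := continuous_subtype_val
  have h3 := (h1.hasSum.map (L.val : L →+* F) h2).tsum_eq
  refine h3.symm.trans (tsum_congr fun n => ?_)
  simp only [Function.comp_apply]
  rw [← hg]
  symm
  change ((((n + l).choose l : ℕ) : F)) * (coeff (n + l) f : L) * (s : F) ^ n =
    (((((n + l).choose l : ℕ) : L) * coeff (n + l) f * s ^ n : L) : F)
  push_cast
  rfl

/-- Lemma D inside `F⟦X⟧` -/
theorem exists_order (U : Submodule ℚ_[p] (PowerSeries F)) [FiniteDimensional ℚ_[p] U]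
    (hU : ∀ f ∈ U, ∀ n, coeff n f ∈ L) {r : ℝ} (hr : 0 < r) (hb : ∀ f ∈ U, Bd r f)
    (m : ℕ) (hm : m * finrank ℚ_[p] L < finrank ℚ_[p] U) {ε : ℝ} (hε : 0 < ε) :
    ∃ s : ℚ_[p], ‖s‖ < ε ∧ ∃ f ∈ U,
      (∀ l < m, coeff l (shift (algebraMap ℚ_[p] F s) f) = 0) ∧
        coeff m (shift (algebraMap ℚ_[p] F s) f) ≠ 0 := by
  haveI := isUltra_sub L
  haveI : CompleteSpace L := FiniteDimensional.complete ℚ_[p] L
  have hb' : ∀ u, Bd r (toL L U hU u) := by
    intro u
    obtain ⟨C, hC⟩ := hb u u.2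
    refine ⟨C, fun n => ?_⟩
    have h1 := hC n
    rw [← coeff_toL L U hU u n] at h1
    exact h1
  obtain ⟨s, hs, u, h1, h2⟩ := lemD_ps (F := ℚ_[p]) (k := L) (toL L U hU) (toL_injective L U hU) hr
    hb' m hm (lt_min hr hε)
  have hs' : ‖algebraMap ℚ_[p] L s‖ < r := by
    rw [norm_algebraMap']
    exact hs.trans_le (min_le_left _ _)
  refine ⟨s, hs.trans_le (min_le_right _ _), u, u.2, fun l hl => ?_, fun h0 => h2 ?_⟩
  · have h3 := coe_shift L (hb' u) hs' (coeff_toL L U hU u) l
    rw [h1 l hl] at h3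
    exact h3.symm
  · have h3 := coe_shift L (hb' u) hs' (coeff_toL L U hU u) m
    apply Subtype.ext
    rw [h3]
    exact h0

end order

section ax

variable {p : ℕ} [hp : Fact p.Prime] {C : Type*} [Field C] [Algebra ℚ_[p] C] [IsAlgClosed C]
  [Algebra.IsAlgebraic ℚ_[p] C] {F : Type*} [NormedField F] [NormedAlgebra ℚ_[p] F]
  [IsUltrametricDist F] [Algebra C F] [IsScalarTower ℚ_[p] C F]

/-- **Ax** in the form used here -/
theorem mem_of_fixed (hd : DenseRange (algebraMap C F)) (k' : IntermediateField ℚ_[p] C)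
    [FiniteDimensional ℚ_[p] k'] (x : F)
    (hfix : ∀ s : C ≃ₐ[k'] C, ∃ t : F → F, Isometry t ∧
      (∀ a : C, t (algebraMap C F a) = algebraMap C F (s a)) ∧ t x = x) :
    x ∈ k'.map (IsScalarTower.toAlgHom ℚ_[p] C F) := by
  haveI : IsScalarTower ℚ_[p] k' F := IsScalarTower.of_algebraMap_eq fun q => by
    rw [IsScalarTower.algebraMap_apply ℚ_[p] C F]
    rfl
  haveI : Algebra.IsAlgebraic k' C := Algebra.IsAlgebraic.tower_top (K := ℚ_[p]) k'
  obtain ⟨y, hy⟩ := Ax_280.ax_sen_tate (p := p) (K := k') (L := C) (C := F) x (hd.closure_range ▸ trivial)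
    hfix
  exact ⟨y, y.2, hy⟩

theorem finrank_map (k' : IntermediateField ℚ_[p] C) :
    finrank ℚ_[p] (k'.map (IsScalarTower.toAlgHom ℚ_[p] C F)) = finrank ℚ_[p] k' :=
  (IntermediateField.equivMap k' (IsScalarTower.toAlgHom ℚ_[p] C F)).toLinearEquiv.finrank_eq.symm

end ax

end Crest.Agent.R013.Fin_928
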