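import Crest.Agent.R013.TP13_928
import Crest.Agent.R013.TP14_928
import Crest.Agent.R013.TP15_928

/-!
# R013 / C-FIN (helper928), part 2: a class of the Tate module whose form has exact order `m`

`TPS.exists_order` : (F1) + (F2): TPS + Ax + Lemma D.
-/

set_option autoImplicit false
set_option linter.unusedSectionVars false
set_option linter.style.haveILetI false

namespace Crest.Agent.R013.Fin_928

open Module PowerSeries Crest.Agent.R013.LemD_323

section bd

variable {F : Type*} [NontriviallyNormedField F] [IsUltrametricDist F]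

theorem bd_zero (r : ℝ) : Bd r (0 : PowerSeries F) := ⟨0, fun n => by simp⟩

theorem bd_add {r : ℝ} (hr : 0 < r) {f g : PowerSeries F} (hf : Bd r f) (hg : Bd r g) :
    Bd r (f + g) := by
  obtain ⟨B, hB⟩ := hf
  obtain ⟨D, hD⟩ := hg
  refine ⟨B + D, fun n => ?_⟩
  have h0 : 0 ≤ r ^ n := (pow_pos hr n).le
  calc ‖coeff n (f + g)‖ * r ^ n ≤ (‖coeff n f‖ + ‖coeff n g‖) * r ^ n := by
        refine mul_le_mul_of_nonneg_right ?_ h0
        rw [map_add]
        exact norm_add_le _ _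
    _ = ‖coeff n f‖ * r ^ n + ‖coeff n g‖ * r ^ n := add_mul _ _ _
    _ ≤ B + D := add_le_add (hB n) (hD n)

theorem bd_smul {p : ℕ} [Fact p.Prime] [NormedAlgebra ℚ_[p] F] {r : ℝ} (a : ℚ_[p])
    {f : PowerSeries F} (hf : Bd r f) : Bd r (a • f) := by
  obtain ⟨B, hB⟩ := hf
  refine ⟨‖a‖ * B, fun n => ?_⟩
  rw [PowerSeries.coeff_smul, norm_smul, mul_assoc]
  exact mul_le_mul_of_nonneg_left (hB n) (norm_nonneg _)

theorem shift_smul {p : ℕ} [Fact p.Prime] [NormedAlgebra ℚ_[p] F] (a : ℚ_[p]) (s : F)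
    (f : PowerSeries F) (l : ℕ) : coeff l (shift s (a • f)) = a • coeff l (shift s f) := by
  rw [coeff_shift, coeff_shift, ← tsum_const_smul'']
  refine tsum_congr fun n => ?_
  rw [PowerSeries.coeff_smul, Algebra.smul_def, Algebra.smul_def]
  ring

end bd

open Crest.Agent.R013.TP_928 Crest.Agent.R013.SSK_332 Crest.Agent.R013.Red332
open Crest.Agent.R013.PicD_398 Crest.Agent.R013.Frob1_914

variable {k C K : Type*} [NontriviallyNormedField k] [CompleteSpace k]
    [NormedField C] [IsUltrametricDist C] [NormedAlgebra k C] [Algebra.IsAlgebraic k C]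
    [Field K] [Algebra C K] [Algebra (RatFunc C) K]
    [IsScalarTower C (RatFunc C) K] [FiniteDimensional (RatFunc C) K]
    [Algebra.IsSeparable (RatFunc C) K] {p : ℕ} [hp : Fact p.Prime] {S : SSK k C K}
    [IsAlgClosed C] [CharP (Ct C) p] [Algebra (ZMod p) (Ct C)]
    [Algebra.IsAlgebraic (ZMod p) (Ct C)]
    [NormedAlgebra ℚ_[p] C] [Algebra.IsAlgebraic ℚ_[p] C]
    {F : Type*} [NontriviallyNormedField F] [NormedAlgebra ℚ_[p] F] [IsUltrametricDist F]
    [CompleteSpace F] [Algebra C F] [IsScalarTower ℚ_[p] C F]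
    [Algebra ℤ_[p] F] [IsScalarTower ℤ_[p] ℚ_[p] F]
    {G A : Type*} [Group A] [Fintype A] [MulAction A S.Ed]

/-- **C-FIN.**  There are arbitrarily small `s ∈ ℚ_p` and classes `u` in the `e`-part with Galois
invariant form (so the coefficients are in `k'`) of exact order `m` at `s`. -/
theorem exists_order_class (d : TPS p S G A (PowerSeries F)) (hS : SlopeDvd S)
    (h0 : d.OmZero) (h1 : d.OmInj) {Vx : Type*} (bd : (S.Ed → ℚ_[p]) →ₗ[ℚ_[p]] (Vx → ℚ_[p]))
    (honto : ∀ lam : S.Ed → ℤ_[p], bd (fun e => ((lam e : ℤ_[p]) : ℚ_[p])) = 0 →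
      ∃ u : Tate p (Pic C K), sl S p u = lam)
    (k' : IntermediateField ℚ_[p] C) [FiniteDimensional ℚ_[p] k']
    (hd : DenseRange (algebraMap C F)) (tF : G → F → F) (ht : ∀ g, Isometry (tF g))
    (ht' : ∀ g c, tF g (algebraMap C F c) = algebraMap C F ((d.gal g).s c))
    (hgW : ∀ g f n, coeff n (d.gW g f) = tF g (coeff n f))
    (hfull : ∀ s : C ≃ₐ[k'] C, ∃ g, ∀ c, (d.gal g).s c = s c)
    {r : ℝ} (hr : 0 < r) (hb : ∀ u ∈ d.Mod hS h0 h1, Bd r (d.om u))
    (m : ℕ) (hm : m * finrank ℚ_[p] k' <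
      finrank ℚ_[p] (Rank_770.eker (fun α => ((d.c α : ℤ_[p]) : ℚ_[p])) bd))
    {ε : ℝ} (hε : 0 < ε) :
    ∃ s : ℚ_[p], ‖s‖ < ε ∧ ∃ u ∈ d.Mod hS h0 h1,
      (∀ n, coeff n (d.om u) ∈ k'.map (IsScalarTower.toAlgHom ℚ_[p] C F)) ∧
      (∀ l < m, coeff l (shift (algebraMap ℚ_[p] F s) (d.om u)) = 0) ∧
        coeff m (shift (algebraMap ℚ_[p] F s) (d.om u)) ≠ 0 := by
  have hco : ∀ u ∈ d.Mod hS h0 h1, ∀ n,
      coeff n (d.om u) ∈ k'.map (IsScalarTower.toAlgHom ℚ_[p] C F) := by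
    intro u hu n
    refine mem_of_fixed hd k' _ fun s => ?_
    obtain ⟨g, hg⟩ := hfull s
    refine ⟨tF g, ht g, fun a => by rw [ht', hg], ?_⟩
    rw [← hgW, d.Mod_fixed hS h0 h1 hu g]
  obtain ⟨v, hv, hli⟩ := d.exists_forms hS h0 h1 bd honto
  let U : Submodule ℚ_[p] (PowerSeries F) := Submodule.span ℚ_[p] (Set.range fun i => d.om (v i))
  haveI : FiniteDimensional ℚ_[p] U := FiniteDimensional.span_of_finite _ (Set.finite_range _)
  haveI : FiniteDimensional ℚ_[p] (k'.map (IsScalarTower.toAlgHom ℚ_[p] C F)) :=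
    Module.Finite.equiv
      (IntermediateField.equivMap k' (IsScalarTower.toAlgHom ℚ_[p] C F)).toLinearEquiv
  have hU : ∀ f ∈ U, (∀ n, coeff n f ∈ k'.map (IsScalarTower.toAlgHom ℚ_[p] C F)) ∧ Bd r f := by
    intro f hf
    induction hf using Submodule.span_induction with
    | mem x hx =>
      obtain ⟨i, rfl⟩ := hx
      exact ⟨hco _ (hv i), hb _ (hv i)⟩
    | zero => exact ⟨fun n => by rw [map_zero]; exact zero_mem _, bd_zero r⟩
    | add x y _ _ hx hy =>
      exact ⟨fun n => by rw [map_add]; exact add_mem (hx.1 n) (hy.1 n), bd_add hr hx.2 hy.2⟩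
    | smul a x _ hx =>
      refine ⟨fun n => ?_, bd_smul a hx.2⟩
      rw [PowerSeries.coeff_smul]
      exact (k'.map (IsScalarTower.toAlgHom ℚ_[p] C F)).smul_mem (hx.1 n)
  have hfr : finrank ℚ_[p] U =
      finrank ℚ_[p] (Rank_770.eker (fun α => ((d.c α : ℤ_[p]) : ℚ_[p])) bd) := by
    rw [finrank_span_eq_card hli, Fintype.card_fin]
  obtain ⟨s, hs, f, hf, h2, h3⟩ := exists_order (k'.map (IsScalarTower.toAlgHom ℚ_[p] C F)) U
    (fun f hf => (hU f hf).1) hr (fun f hf => (hU f hf).2) m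
    (by rw [finrank_map, hfr]; exact hm) hε
  have hf' : f ∈ Submodule.span ℚ_[p]
      (d.om '' (d.Mod hS h0 h1 : Set (Tate p (Pic C K)))) := by
    refine Submodule.span_mono ?_ hf
    rintro _ ⟨i, rfl⟩
    exact ⟨v i, hv i, rfl⟩
  obtain ⟨c, u, hu, hcu⟩ := d.Mod_span hS h0 h1 hf'
  refine ⟨s, hs, u, hu, hco u hu, fun l hl => ?_, ?_⟩
  · rw [← hcu, shift_smul, h2 l hl, smul_zero]
  · rw [← hcu, shift_smul]
    exact smul_ne_zero (pow_ne_zero _ (by exact_mod_cast hp.out.ne_zero)) h3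

end Crest.Agent.R013.Fin_928
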