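import Crest.Agent.R013.SD4_940
import Crest.Agent.R013.TP16_928

/-!
# R013 / SD5: from classes of the Tate module of `Pic Y` to the conclusion of `GOOD` (helper940)

* `inp_of_tate` : the output of 928's `exists_order_class` gives `Inp`;
* `concl_of_tate` : `… → Concl p k K P x δ η`.
-/

set_option autoImplicit false
set_option linter.unusedSectionVars false

namespace Crest.Agent.R013.SD5_940

open scoped NNReal
open PowerSeries (coeff constantCoeff)
open Crest.NumberTheoryR.Sect WithZero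
open Crest.Agent.R013.Small2_940 Crest.Agent.R013.Small3_940 Crest.Agent.R013.Small4_940
open Crest.Agent.R013.Small5_940 Crest.Agent.R013.Good5_940 Crest.Agent.R013.SD1_940
open Crest.Agent.R013.SD2_940 Crest.Agent.R013.SD3_940 Crest.Agent.R013.SD4_940
open Crest.Agent.R013.Puis_702 (mapL coeff_mapL exists_pow_mul)
open Crest.Agent.R013.RR7_948 Crest.Agent.R013.RR13_948 Crest.Agent.R013.RR11_948
open Crest.Agent.R013.LemD_323 (shift coeff_shift summable_shift)
open Crest.Agent.R013.Cell_408 Crest.Agent.R013.EE809 Crest.Agent.R013.HU13_522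
open Crest.Agent.R013.HU11_522 Crest.Agent.R013.HU8_522 Crest.Agent.R013.HU6_522
open Crest.Agent.R013.HU3_522 Crest.Agent.R013.HU4_522 Crest.Agent.R013.HU2_522
open Crest.Agent.R013.HU1_522 Crest.Agent.R013.HU7_522 Crest.Agent.R013.HU9_522
open Crest.Agent.R013.HU10_522 Crest.Agent.R013.HU14_522 Crest.Agent.R013.PC_588
open Crest.Agent.R013.PicD_398 Crest.Agent.R013.TP_928
open Crest.Agent.R013.KAS3_940 (bsub)
open Crest.Agent.R013.KAS2_940 (Bd)

variable {p : ℕ} [hpF : Fact p.Prime] {k : Type*} [Field k] [CharZero k] [Algebra ℚ_[p] k]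
  [FiniteDimensional ℚ_[p] k]
  {K : Type*} [Field K] [Algebra k K]
  [Algebra (RatFunc k) K] [IsScalarTower k (RatFunc k) K] [FiniteDimensional (RatFunc k) K]
  {P : Valuation (AlgebraicClosure K) ℝ≥0} {x : K}
  {C : Type*} [NormedField C] [IsUltrametricDist C] [NormedAlgebra ℚ_[p] C]
  [Algebra.IsAlgebraic ℚ_[p] C] [CharZero C] [IsAlgClosed C]
  {Y : Type*} [Field Y] [Algebra C Y] [Algebra (RatFunc C) Y] [IsScalarTower C (RatFunc C) Y]
  [FiniteDimensional (RatFunc C) Y]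
  {J : maxUnramified k K →+* LaurentSeries (Cb k K)} {e : Cb k K ≃+* C}
  {E0 : IntermediateField K (AlgebraicClosure K)} {phi : Y →+* maxUnramified k K}
  {F : Type*} [NontriviallyNormedField F] [NormedAlgebra ℚ_[p] F] [IsUltrametricDist F]
  [CompleteSpace F] [CharZero F] [Algebra C F] [IsScalarTower ℚ_[p] C F] [Algebra ℤ_[p] F]

variable [hk : Fact (DiscNorm ℚ_[p])] {N : ℕ}
  (hN : ∀ z : Y, ∃ a b : BD ℚ_[p] C, b ≠ 0 ∧
    io e J phi z * jr ℚ_[p] (rN p C N) b = jr ℚ_[p] (rN p C N) a)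
  (hσ : ∀ a, ‖algebraMap C F a‖ = ‖a‖)
  (hpn : ‖(p : F)‖ < 1) (hZ : ∀ z : ℤ_[p], ‖algebraMap ℤ_[p] F z‖ ≤ 1)

include hN in
/-- the output of 928's `exists_order_class` gives `Inp` -/
theorem inp_of_tate
    (hJ : IsExp (iM k K) (P.comap (algebraMap (maxUnramified k K) (AlgebraicClosure K)))
        (algebraMap K (maxUnramified k K) x) J) (h : PH e E0 phi)
    (u : Tate p (Pic C Y)) (k' : IntermediateField ℚ_[p] C) [FiniteDimensional ℚ_[p] k']
    (hco : ∀ n, coeff n (omT hk.out (emP hN) (emP_hι hN) (algebraMap C F) hσ hpn hZ u) ∈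
      k'.map (IsScalarTower.toAlgHom ℚ_[p] C F))
    {s : ℚ_[p]} {ε : ℝ} (hs : ‖s‖ < ε) {i j m : ℕ} (hij : i + 1 = p ^ j * m) (hm2 : 2 ≤ m)
    (hpm : ¬ p ∣ m)
    (h0 : ∀ l < i, coeff l (shift (algebraMap ℚ_[p] F s)
      (omT hk.out (emP hN) (emP_hι hN) (algebraMap C F) hσ hpn hZ u)) = 0)
    (h1 : coeff i (shift (algebraMap ℚ_[p] F s)
      (omT hk.out (emP hN) (emP_hι hN) (algebraMap C F) hσ hpn hZ u)) ≠ 0) :
    Inp p ((algebraMap C F).comp (e : Cb k K →+* C)) J E0 ‖(p : F) ^ N‖ ε := by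
  let L0 : IntermediateField ℚ_[p] F := k'.map (IsScalarTower.toAlgHom ℚ_[p] C F)
  have hL0 : FiniteDimensional ℚ_[p] L0 := Module.Finite.equiv
      (IntermediateField.equivMap k' (IsScalarTower.toAlgHom ℚ_[p] C F)).toLinearEquiv
  have hcl : IsClosed (L0.toSubfield : Set F) := by
    have h2 : FiniteDimensional ℚ_[p] (Subalgebra.toSubmodule L0.toSubalgebra) := hL0
    exact Submodule.closed_of_finiteDimensional (Subalgebra.toSubmodule L0.toSubalgebra)
  have hsF : algebraMap C F (algebraMap ℚ_[p] C s) = algebraMap ℚ_[p] F s :=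
    (IsScalarTower.algebraMap_apply ℚ_[p] C F s).symm
  refine inp_of_class (algebraMap C F) hσ hN hJ h (divP_brP u) L0.toSubfield hcl ?_ hco
    (s := algebraMap ℚ_[p] C s) ?_ ?_ hij hm2 hpm ?_ ?_
  · rintro a ⟨c, -, hc⟩
    exact ⟨c, hc⟩
  · rw [hsF]
    exact L0.algebraMap_mem s
  · rwa [norm_algebraMap']
  · intro l hl
    rw [hsF]
    exact h0 l hl
  · rw [hsF]
    exact h1

include hN in
/-- **(D), last step** -/
theorem concl_of_tate (hP : IsRationalPlace k K (P.comap (algebraMap K (AlgebraicClosure K))))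
    (hx : IsUniformizerAt (P.comap (algebraMap K (AlgebraicClosure K))) x)
    (hJ : IsExp (iM k K) (P.comap (algebraMap (maxUnramified k K) (AlgebraicClosure K)))
        (algebraMap K (maxUnramified k K) x) J) (h : PH e E0 phi)
    (he : ∀ a : ℚ_[p], e (algebraMap k (Cb k K) (algebraMap ℚ_[p] k a)) = algebraMap ℚ_[p] C a)
    [FiniteDimensional K E0] (hE0 : E0 ≤ maxUnramified k K) (hd : DenseRange (algebraMap C F))
    (k' : IntermediateField ℚ_[p] C) [FiniteDimensional ℚ_[p] k']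
    {i j m : ℕ} (hij : i + 1 = p ^ j * m) (hm2 : 2 ≤ m) (hpm : ¬ p ∣ m)
    (hin : ∀ ε : ℝ, 0 < ε → ∃ s : ℚ_[p], ‖s‖ < ε ∧ ∃ u : Tate p (Pic C Y),
      (∀ n, coeff n (omT hk.out (emP hN) (emP_hι hN) (algebraMap C F) hσ hpn hZ u) ∈
        k'.map (IsScalarTower.toAlgHom ℚ_[p] C F)) ∧
      (∀ l < i, coeff l (shift (algebraMap ℚ_[p] F s)
        (omT hk.out (emP hN) (emP_hι hN) (algebraMap C F) hσ hpn hZ u)) = 0) ∧
      coeff i (shift (algebraMap ℚ_[p] F s)
        (omT hk.out (emP hN) (emP_hι hN) (algebraMap C F) hσ hpn hZ u)) ≠ 0)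
    {δ η : ℝ≥0} (hδ : 0 < δ) (hη : 0 < η) : Concl p k K P x δ η := by
  let _ : Algebra ℚ F := DivisionRing.toRatAlgebra
  have hr : (p : F) ^ N ≠ 0 := pow_ne_zero _ (Nat.cast_ne_zero.mpr hpF.out.ne_zero)
  refine Good7_940.good_last hP hx (jC := (algebraMap C F).comp (e : Cb k K →+* C)) ?_ ?_ hJ E0 hE0
    (R0 := ‖(p : F) ^ N‖) (norm_pos_iff.mpr hr) ?_ hδ hη
  · intro a
    show ‖algebraMap C F (e (algebraMap k (Cb k K) (algebraMap ℚ_[p] k a)))‖ = _
    rw [he, hσ, norm_algebraMap']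
  · exact hd.comp e.surjective.denseRange (AddMonoidHomClass.isometry_of_norm (algebraMap C F) hσ).continuous
  · intro ε hε
    obtain ⟨s, hs, u, hco, h0, h1⟩ := hin ε hε
    exact inp_of_tate hN hσ hpn hZ hJ h u k' hco hs hij hm2 hpm h0 h1

end Crest.Agent.R013.SD5_940
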