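import Mathlib

/-!
# R013 / SDF: the completion `FC C` of a normed algebraic closure `C` of `ℚ_[p]` (helper940)
-/

set_option autoImplicit false
set_option linter.unusedSectionVars false

namespace Crest.Agent.R013.SDF_940

open UniformSpace

/-- the completion of `C` -/
abbrev FC (C : Type*) [NormedField C] := Completion C

section

variable (p : ℕ) [hpF : Fact p.Prime] (C : Type*) [NormedField C] [IsUltrametricDist C]
  [NormedAlgebra ℚ_[p] C]

instance instUltra : IsUltrametricDist (FC C) := by
  refine ⟨fun x y z => ?_⟩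
  refine Completion.induction_on₃ x y z ?_ ?_
  · exact isClosed_le (by fun_prop) (by fun_prop)
  · intro a b c
    rw [Completion.dist_eq, Completion.dist_eq, Completion.dist_eq]
    exact dist_triangle_max a b c

theorem norm_algebraMap_FC (a : C) : ‖algebraMap C (FC C) a‖ = ‖a‖ := Completion.norm_coe a

theorem denseRange_FC : DenseRange (algebraMap C (FC C)) := Completion.denseRange_coe

theorem norm_natCast_p : ‖(p : FC C)‖ = (p : ℝ)⁻¹ := by
  have h1 : (p : FC C) = algebraMap C (FC C) (algebraMap ℚ_[p] C (p : ℚ_[p])) := by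
    rw [map_natCast, map_natCast]
  rw [h1, norm_algebraMap_FC, norm_algebraMap', Padic.norm_p]

theorem norm_p_lt_one : ‖(p : FC C)‖ < 1 := by
  rw [norm_natCast_p p C]
  exact inv_lt_one_of_one_lt₀ (by exact_mod_cast hpF.out.one_lt)

/-- `FC C` is nontrivially normed -/
noncomputable abbrev nnf : NontriviallyNormedField (FC C) :=
  { (inferInstance : NormedField (FC C)) with
    non_trivial := ⟨(p : FC C)⁻¹, by
      rw [norm_inv, norm_natCast_p p C, inv_inv]
      exact_mod_cast hpF.out.one_lt⟩ }

/-- `FC C` as a `ℤ_[p]`-algebra -/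
noncomputable abbrev algZp : Algebra ℤ_[p] (FC C) :=
  ((algebraMap ℚ_[p] (FC C)).comp (algebraMap ℤ_[p] ℚ_[p])).toAlgebra

theorem tower_Zp : letI := algZp p C; IsScalarTower ℤ_[p] ℚ_[p] (FC C) := by
  letI := algZp p C
  exact IsScalarTower.of_algebraMap_eq fun a => rfl

theorem norm_Zp (z : ℤ_[p]) : ‖(algZp p C).algebraMap z‖ ≤ 1 := by
  show ‖algebraMap ℚ_[p] (FC C) (algebraMap ℤ_[p] ℚ_[p] z)‖ ≤ 1
  rw [norm_algebraMap']
  exact z.2

end

section

variable (C : Type*) [NormedField C] [CharZero C]

instance instCharZero : CharZero (FC C) := charZero_of_injective_algebraMap (algebraMap C (FC C)).injective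

end

end Crest.Agent.R013.SDF_940
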