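import Crest.Agent.R013.SD5_940
import Crest.Agent.R013.SDF_940
import Crest.Agent.R013.CAsm2_588
import Crest.Agent.R013.DEm1_719

/-!
# R013 / SD6: the glue for (D2) (helper940)

* `emP_lift` : equivariance of the end `emP` for `CE κ C Y0 Y`;
* `concl_of_cov` : the output of (D1), for the end at the place, gives `Concl`.
-/

set_option autoImplicit false
set_option linter.unusedSectionVars false

namespace Crest.Agent.R013.SD6_940

open scoped NNReal
open PowerSeries (coeff constantCoeff)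
open Crest.NumberTheoryR.Sect WithZero
open Crest.Agent.R013.Small2_940 Crest.Agent.R013.Small3_940 Crest.Agent.R013.Small4_940
open Crest.Agent.R013.Small5_940 Crest.Agent.R013.Good5_940 Crest.Agent.R013.SD1_940
open Crest.Agent.R013.SD2_940 Crest.Agent.R013.SD3_940 Crest.Agent.R013.SD4_940
open Crest.Agent.R013.SD5_940 Crest.Agent.R013.SDF_940
open Crest.Agent.R013.Puis_702 (mapL coeff_mapL exists_pow_mul)
open Crest.Agent.R013.RR7_948 Crest.Agent.R013.RR13_948 Crest.Agent.R013.RR11_948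
open Crest.Agent.R013.LemD_323 (shift coeff_shift summable_shift)
open Crest.Agent.R013.Cell_408 Crest.Agent.R013.EE809 Crest.Agent.R013.HU13_522
open Crest.Agent.R013.HU11_522 Crest.Agent.R013.HU8_522 Crest.Agent.R013.HU6_522
open Crest.Agent.R013.HU3_522 Crest.Agent.R013.HU4_522 Crest.Agent.R013.HU2_522
open Crest.Agent.R013.HU1_522 Crest.Agent.R013.HU7_522 Crest.Agent.R013.HU9_522
open Crest.Agent.R013.HU10_522 Crest.Agent.R013.HU14_522 Crest.Agent.R013.PC_588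
open Crest.Agent.R013.PicD_398 Crest.Agent.R013.TP_928
open Crest.Agent.R013.Desc_372 Crest.Agent.R013.DEm_719
open Crest.Agent.R013.Unr10_957 Crest.Agent.R013.Unr7_957

section equiv

variable {p : ℕ} [hpF : Fact p.Prime] {k : Type*} [Field k] [CharZero k] [Algebra ℚ_[p] k]
  [FiniteDimensional ℚ_[p] k]
  {K : Type*} [Field K] [Algebra k K]
  [Algebra (RatFunc k) K] [IsScalarTower k (RatFunc k) K] [FiniteDimensional (RatFunc k) K]
  {P : Valuation (AlgebraicClosure K) ℝ≥0} {x : K}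
  {C : Type*} [NormedField C] [IsUltrametricDist C] [NormedAlgebra ℚ_[p] C]
  [Algebra.IsAlgebraic ℚ_[p] C] [CharZero C] [IsAlgClosed C]
  {Y : Type*} [Field Y] [Algebra C Y] [Algebra (RatFunc C) Y] [IsScalarTower C (RatFunc C) Y]
  [FiniteDimensional (RatFunc C) Y]
  {J : maxUnramified k K →+* LaurentSeries (Cb k K)} {e : Cb k K ≃+* C}
  {E0 : IntermediateField K (AlgebraicClosure K)} {phi : Y →+* maxUnramified k K}
  {κ : Type*} [Field κ] [Algebra ℚ_[p] κ] [Algebra κ C] [IsScalarTower ℚ_[p] κ C]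
  {Y0 : Type*} [Field Y0] [Algebra κ Y0] [Algebra Y0 Y] [Algebra κ Y] [IsScalarTower κ C Y]
  [IsScalarTower κ Y0 Y] [CE κ C Y0 Y]

theorem io_lift (hP : IsRationalPlace k K (P.comap (algebraMap K (AlgebraicClosure K))))
    (hx : IsUniformizerAt (P.comap (algebraMap K (AlgebraicClosure K))) x)
    (hJ : IsExp (iM k K) (P.comap (algebraMap (maxUnramified k K) (AlgebraicClosure K)))
        (algebraMap K (maxUnramified k K) x) J) (h : PH e E0 phi) {x0 : Y0}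
    (hx0 : phi (algebraMap Y0 Y x0) = algebraMap K (maxUnramified k K) x)
    (hrat : ∀ a : Y0, P (phi (algebraMap Y0 Y a) : AlgebraicClosure K) ≤ 1 →
      ∃ c : κ, P (phi (algebraMap Y0 Y a - algebraMap κ Y c) : AlgebraicClosure K) < 1)
    (s : C ≃ₐ[κ] C) (z : Y) :
    mapL (s : C →+* C) (io e J phi z) = io e J phi (CE.lift κ C Y0 Y s z) := by
  refine io_equiv hJ h ((CE.lift κ C Y0 Y s : Y ≃ₐ[Y0] Y) : Y →+* Y) (s : C →+* C) (fun c => ?_)
    ((algebraMap Y0 Y).fieldRange : Set Y) ?_ ?_ ?_ z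
  · exact CE.lift_algebraMap κ C Y0 Y s c
  · rintro _ ⟨a, rfl⟩
    exact (CE.lift κ C Y0 Y s).commutes a
  · intro z
    obtain ⟨n, c, g, rfl⟩ := CE.exists_sum κ C Y0 Y z
    refine sum_mem fun i _ => mul_mem ?_ ?_
    · exact Subfield.subset_closure (Or.inl ⟨c i, rfl⟩)
    · exact Subfield.subset_closure (Or.inr ⟨g i, rfl⟩)
  · rintro z hz i
    have h1 : (io e J phi z).coeff i ∈ (algebraMap κ C).fieldRange := by
      refine coeff_io_mem hP hx hJ h (algebraMap Y0 Y).fieldRange (algebraMap κ C).fieldRange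
        (x0 := algebraMap Y0 Y x0) ⟨x0, rfl⟩ hx0 ?_ ?_ hz i
      · rintro _ ⟨c, rfl⟩
        exact ⟨algebraMap κ Y0 c, by
          rw [← IsScalarTower.algebraMap_apply, ← IsScalarTower.algebraMap_apply]⟩
      · rintro _ ⟨a, rfl⟩ ha
        obtain ⟨c, hc⟩ := hrat a ha
        refine ⟨algebraMap κ C c, ⟨c, rfl⟩, ?_⟩
        rw [← IsScalarTower.algebraMap_apply κ C Y]
        exact hc
    obtain ⟨c, hc⟩ := h1
    rw [← hc]
    exact s.commutes c

variable [hk : Fact (DiscNorm ℚ_[p])] {N : ℕ}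
  (hN : ∀ z : Y, ∃ a b : BD ℚ_[p] C, b ≠ 0 ∧
    io e J phi z * jr ℚ_[p] (rN p C N) b = jr ℚ_[p] (rN p C N) a)

theorem EEmap_eq_actEE (s : C ≃ₐ[ℚ_[p]] C) (hs : ∀ a, ‖(s : C →ₐ[ℚ_[p]] C) a‖ = ‖a‖)
    (a : EE ℚ_[p] C) : EEmap (s : C →ₐ[ℚ_[p]] C) hs a = actEE s a := by
  ext n
  rw [co_EEmap, co_actEE]
  rfl

/-- **(J1')** equivariance of the end -/
theorem emP_lift (hP : IsRationalPlace k K (P.comap (algebraMap K (AlgebraicClosure K))))
    (hx : IsUniformizerAt (P.comap (algebraMap K (AlgebraicClosure K))) x)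
    (hJ : IsExp (iM k K) (P.comap (algebraMap (maxUnramified k K) (AlgebraicClosure K)))
        (algebraMap K (maxUnramified k K) x) J) (h : PH e E0 phi) {x0 : Y0}
    (hx0 : phi (algebraMap Y0 Y x0) = algebraMap K (maxUnramified k K) x)
    (hrat : ∀ a : Y0, P (phi (algebraMap Y0 Y a) : AlgebraicClosure K) ≤ 1 →
      ∃ c : κ, P (phi (algebraMap Y0 Y a - algebraMap κ Y c) : AlgebraicClosure K) < 1)
    (s : C ≃ₐ[κ] C) (z : Y) :
    emP hN (CE.lift κ C Y0 Y s z) = actEE (s.restrictScalars ℚ_[p]) (emP hN z) := by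
  have h1 := emP_equiv hN ((CE.lift κ C Y0 Y s : Y ≃ₐ[Y0] Y) : Y →+* Y)
    ((s.restrictScalars ℚ_[p] : C ≃ₐ[ℚ_[p]] C) : C →ₐ[ℚ_[p]] C) (DEm_719.norm_map _)
    (fun z => io_lift hP hx hJ h hx0 hrat s z) z
  rw [EEmap_eq_actEE] at h1
  exact h1

end equiv

section final

variable {p : ℕ} [hpF : Fact p.Prime] [hk : Fact (DiscNorm ℚ_[p])]
  {k : Type*} [Field k] [CharZero k] [Algebra ℚ_[p] k] [FiniteDimensional ℚ_[p] k]
  {K : Type*} [Field K] [Algebra k K]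
  [Algebra (RatFunc k) K] [IsScalarTower k (RatFunc k) K] [FiniteDimensional (RatFunc k) K]
  {P : Valuation (AlgebraicClosure K) ℝ≥0} {x : K}
  (C : Type*) [NormedField C] [IsUltrametricDist C] [NormedAlgebra ℚ_[p] C]
  [Algebra.IsAlgebraic ℚ_[p] C] [CharZero C] [IsAlgClosed C] [Algebra k C]
  [IsScalarTower ℚ_[p] k C]
  (KC : Type*) [Field KC] [Algebra C KC] [Algebra K KC] [Algebra k KC]
  [IsScalarTower k C KC] [IsScalarTower k K KC] [CE k C K KC]
  {Y : Type*} [Field Y] [Algebra C Y] [Algebra K Y] [Algebra k Y] [IsScalarTower k C Y]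
  [IsScalarTower k K Y] [Algebra KC Y] [IsScalarTower K KC Y] [IsScalarTower C KC Y]
  [FiniteDimensional KC Y] [Algebra (RatFunc C) Y] [IsScalarTower C (RatFunc C) Y]
  [FiniteDimensional (RatFunc C) Y]
  (κ : Type*) [Field κ] [Algebra ℚ_[p] κ] [Algebra κ C] [IsScalarTower ℚ_[p] κ C]
  (Y0 : Type*) [Field Y0] [Algebra κ Y0] [Algebra Y0 Y] [Algebra κ Y] [IsScalarTower κ C Y]
  [IsScalarTower κ Y0 Y] [CE κ C Y0 Y]

/-- the output of (D1) for the end `em` -/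
def D1Out (p : ℕ) [hpF : Fact p.Prime] [hk : Fact (DiscNorm ℚ_[p])]
    {C : Type*} [NormedField C] [IsUltrametricDist C] [NormedAlgebra ℚ_[p] C]
    [Algebra.IsAlgebraic ℚ_[p] C] [CharZero C] [IsAlgClosed C]
    {Y : Type*} [Field Y] [Algebra C Y] [Algebra (RatFunc C) Y] [IsScalarTower C (RatFunc C) Y]
    [FiniteDimensional (RatFunc C) Y] {F : Type*} [NontriviallyNormedField F]
    [NormedAlgebra ℚ_[p] F] [IsUltrametricDist F] [CompleteSpace F] [CharZero F] [Algebra C F]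
    [IsScalarTower ℚ_[p] C F] [Algebra ℤ_[p] F]
    (hσ : ∀ a, ‖algebraMap C F a‖ = ‖a‖) (hpn : ‖(p : F)‖ < 1)
    (hZ : ∀ z : ℤ_[p], ‖algebraMap ℤ_[p] F z‖ ≤ 1) (k' : IntermediateField ℚ_[p] C) (i : ℕ)
    (em : Y →+* EE ℚ_[p] C) (hι : ∀ z, ∃ a b : BD ℚ_[p] C, b ≠ 0 ∧ em z * bdE b = bdE a) : Prop :=
  ∀ ε : ℝ, 0 < ε → ∃ s : ℚ_[p], ‖s‖ < ε ∧ ∃ u : Tate p (Pic C Y),
      (∀ n, coeff n (omT hk.out em hι (algebraMap C F) hσ hpn hZ u) ∈
        k'.map (IsScalarTower.toAlgHom ℚ_[p] C F)) ∧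
      (∀ l < i, coeff l (shift (algebraMap ℚ_[p] F s)
        (omT hk.out em hι (algebraMap C F) hσ hpn hZ u)) = 0) ∧
      coeff i (shift (algebraMap ℚ_[p] F s)
        (omT hk.out em hι (algebraMap C F) hσ hpn hZ u)) ≠ 0

/-- **(D2)** -/
theorem concl_of_cov (hP : IsRationalPlace k K (P.comap (algebraMap K (AlgebraicClosure K))))
    (hx : IsUniformizerAt (P.comap (algebraMap K (AlgebraicClosure K))) x)
    (hU : UnrEv C KC Y) (φ : Y →ₐ[K] AlgebraicClosure K) {x0 : Y0}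
    (hx0 : algebraMap Y0 Y x0 = algebraMap K Y x)
    (hrat : ∀ a : Y0, P (φ (algebraMap Y0 Y a)) ≤ 1 →
      ∃ c : κ, P (φ (algebraMap Y0 Y a - algebraMap κ Y c)) < 1)
    {F : Type*} [NontriviallyNormedField F] [NormedAlgebra ℚ_[p] F] [IsUltrametricDist F]
    [CompleteSpace F] [CharZero F] [Algebra C F] [IsScalarTower ℚ_[p] C F] [Algebra ℤ_[p] F]
    (hσ : ∀ a, ‖algebraMap C F a‖ = ‖a‖) (hpn : ‖(p : F)‖ < 1)
    (hZ : ∀ z : ℤ_[p], ‖algebraMap ℤ_[p] F z‖ ≤ 1) (hd : DenseRange (algebraMap C F))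
    (k' : IntermediateField ℚ_[p] C) [FiniteDimensional ℚ_[p] k']
    {i j m : ℕ} (hij : i + 1 = p ^ j * m) (hm2 : 2 ≤ m) (hpm : ¬ p ∣ m)
    (hD1 : ∀ (em : Y →+* EE ℚ_[p] C),
      (∀ c : C, em (algebraMap C Y c) = mono 0 c (EE809.finDef_const c)) →
      ∀ hι : (∀ z, ∃ a b : BD ℚ_[p] C, b ≠ 0 ∧ em z * bdE b = bdE a),
      (∀ (s : C ≃ₐ[κ] C) (z : Y),
        em (CE.lift κ C Y0 Y s z) = actEE (s.restrictScalars ℚ_[p]) (em z)) →
      D1Out p hσ hpn hZ k' i em hι)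
    {δ η : ℝ≥0} (hδ : 0 < δ) (hη : 0 < η) : Concl p k K P x δ η := by
  have halg : Algebra.IsAlgebraic k C := Algebra.IsAlgebraic.tower_top (K := ℚ_[p]) k
  obtain ⟨e, he, hec⟩ := CAsm2_588.exists_e (k := k) (C := C) φ
  obtain ⟨E0, hE0fd, hE0, hE0lev⟩ := CAsm2_588.exists_E0 k C KC hU φ
  have hmem := CAsm2_588.phi_mem k C KC hU φ
  let phi : Y →+* maxUnramified k K := (φ : Y →+* AlgebraicClosure K).codRestrict _ hmem
  have hphi : ∀ y, (phi y : AlgebraicClosure K) = φ y := fun y => rfl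
  have h : PH e E0 phi :=
    { con := fun c => Subtype.ext (hec c)
      lev := fun z => hE0lev z }
  obtain ⟨J, hJ⟩ := exists_JM hP hx
  have he' : ∀ a : ℚ_[p], e (algebraMap k (Cb k K) (algebraMap ℚ_[p] k a)) = algebraMap ℚ_[p] C a := by
    intro a
    rw [he, ← IsScalarTower.algebraMap_apply]
  obtain ⟨N, hN0⟩ := exists_N1 (p := p) (e := e) hP hx hJ he' hE0
  have hN := fun z : Y => hN0 N le_rfl h z
  refine concl_of_tate hN hσ hpn hZ hP hx hJ h he' hE0 hd k' hij hm2 hpm ?_ hδ hη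
  refine hD1 (emP hN) (emP_C hN hJ h) (emP_hι hN) fun s z => ?_
  refine emP_lift hN hP hx hJ h (x0 := x0) ?_ hrat s z
  apply Subtype.ext
  rw [hphi, hx0, φ.commutes]
  rfl

end final

end Crest.Agent.R013.SD6_940
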