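import Crest.Agent.R013.SSG1_109

/-!
# R013 / SSG2_109 : the finite tree of closed discs, location of points and norms

`Tree v gD gA V E root`: finite set `V` of closed discs `(a, r)`, edges `E` (child, parent),
extracted from the inductive predicate `FD` of `SSZorn_315`.
-/

set_option autoImplicit false

open scoped NNReal

namespace Crest.Agent.R013.SSG_109

open Crest.Agent.R013.SSZorn_315 Crest.Agent.R013.PL_109

variable {C : Type*} [Field C] (v : Valuation C ℝ≥0)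

/-- finite tree of closed discs with good cells between them -/
structure Tree (gD : C → ℝ≥0 → Prop) (gA : C → ℝ≥0 → ℝ≥0 → Prop)
    (V : Finset (C × ℝ≥0)) (E : Finset ((C × ℝ≥0) × (C × ℝ≥0))) (root : C × ℝ≥0) : Prop where
  root_mem : root ∈ V
  sub : ∀ x ∈ V, v (x.1 - root.1) ≤ root.2 ∧ x.2 ≤ root.2
  val : ∀ x ∈ V, IsVal v x.2
  inj : ∀ x ∈ V, ∀ y ∈ V, v (x.1 - y.1) ≤ x.2 → x.2 = y.2 → x = y
  mem : ∀ e ∈ E, e.1 ∈ V ∧ e.2 ∈ V
  edge : ∀ e ∈ E, v (e.1.1 - e.2.1) ≤ e.2.2 ∧ e.1.2 < e.2.2 ∧ gA e.1.1 e.1.2 e.2.2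
  gap : ∀ e ∈ E, ∀ z ∈ V, v (z.1 - e.1.1) < e.2.2 → z.2 < e.2.2 →
    v (z.1 - e.1.1) ≤ e.1.2 ∧ z.2 ≤ e.1.2
  parent : ∀ x ∈ V, x ≠ root → ∃ y, (x, y) ∈ E
  dir : ∀ x ∈ V, ∀ c, v (c - x.1) ≤ x.2 → (∃ y, (y, x) ∈ E ∧ v (y.1 - c) < x.2) ∨
    (gD c x.2 ∧ ∀ z ∈ V, v (z.1 - c) < x.2 → x.2 ≤ z.2)

variable {v} {gD : C → ℝ≥0 → Prop} {gA : C → ℝ≥0 → ℝ≥0 → Prop}

theorem sub_lt {a b c : C} {r : ℝ≥0} (h1 : v (a - b) < r) (h2 : v (b - c) < r) : v (a - c) < r :=
  (v_sub_le a b c).trans_lt (max_lt h1 h2)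

theorem sub_lt_swap {a b : C} {r : ℝ≥0} (h : v (a - b) < r) : v (b - a) < r := by
  rwa [Valuation.map_sub_swap]

theorem sub_le_swap {a b : C} {r : ℝ≥0} (h : v (a - b) ≤ r) : v (b - a) ≤ r := by
  rwa [Valuation.map_sub_swap]

/-- **the finite tree** -/
theorem exists_tree {a : C} {r : ℝ≥0} (h : FD v gD gA a r) :
    ∃ V E, Tree v gD gA V E (a, r) := by
  classical
  induction h with
  | mk a r S s hr hS hSS hs hD hA hrec ih =>
    choose! V E hT using ih
    -- facts about the subtrees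
    have hroot : ∀ c ∈ S, (c, s c) ∈ V c := fun c hc => (hT c hc).root_mem
    have hclose : ∀ c ∈ S, ∀ z ∈ V c, v (z.1 - c) < r ∧ z.2 < r := fun c hc z hz =>
      ⟨((hT c hc).sub z hz).1.trans_lt (hs c hc), ((hT c hc).sub z hz).2.trans_lt (hs c hc)⟩
    have hsame : ∀ c ∈ S, ∀ d ∈ S, ∀ z ∈ V c, ∀ z' ∈ V d, v (z.1 - z'.1) < r → c = d := by
      intro c hc d hd z hz z' hz' hlt
      refine hSS c hc d hd ?_
      exact sub_lt (sub_lt_swap (hclose c hc z hz).1) (sub_lt hlt (hclose d hd z' hz').1)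
    have hmem : ∀ z, z ∈ insert (a, r) (S.biUnion V) ↔ z = (a, r) ∨ ∃ c ∈ S, z ∈ V c := by
      intro z; simp
    have hmemE : ∀ e, e ∈ S.image (fun c => ((c, s c), (a, r))) ∪ S.biUnion E ↔
        (∃ c ∈ S, e = ((c, s c), (a, r))) ∨ ∃ c ∈ S, e ∈ E c := by
      intro e
      simp [eq_comm]
    refine ⟨insert (a, r) (S.biUnion V),
      S.image (fun c => ((c, s c), (a, r))) ∪ S.biUnion E, ?_, ?_, ?_, ?_, ?_, ?_, ?_, ?_, ?_⟩
    · simp
    · intro x hx
      rcases (hmem x).1 hx with rfl | ⟨c, hc, hx⟩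
      · simp
      · obtain ⟨h1, h2⟩ := hclose c hc x hx
        exact ⟨(v_sub_le x.1 c a).trans (max_le h1.le (hS c hc)), h2.le⟩
    · intro x hx
      rcases (hmem x).1 hx with rfl | ⟨c, hc, hx⟩
      · exact hr
      · exact (hT c hc).val x hx
    · intro x hx y hy hxy h2
      rcases (hmem x).1 hx with rfl | ⟨c, hc, hx⟩
      · rcases (hmem y).1 hy with rfl | ⟨d, hd, hy⟩
        · rfl
        · exact absurd h2 (hclose d hd y hy).2.ne'
      · rcases (hmem y).1 hy with rfl | ⟨d, hd, hy⟩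
        · exact absurd h2 (hclose c hc x hx).2.ne
        · have hcd : c = d := hsame c hc d hd x hx y hy (hxy.trans_lt (hclose c hc x hx).2)
          subst hcd
          exact (hT c hc).inj x hx y hy hxy h2
    · intro e he
      rcases (hmemE e).1 he with ⟨c, hc, rfl⟩ | ⟨c, hc, he⟩
      · exact ⟨(hmem _).2 (Or.inr ⟨c, hc, hroot c hc⟩), (hmem _).2 (Or.inl rfl)⟩
      · exact ⟨(hmem _).2 (Or.inr ⟨c, hc, ((hT c hc).mem e he).1⟩),
          (hmem _).2 (Or.inr ⟨c, hc, ((hT c hc).mem e he).2⟩)⟩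
    · intro e he
      rcases (hmemE e).1 he with ⟨c, hc, rfl⟩ | ⟨c, hc, he⟩
      · exact ⟨hS c hc, hs c hc, hA c hc⟩
      · exact (hT c hc).edge e he
    · intro e he z hz h1 h2
      rcases (hmemE e).1 he with ⟨c, hc, rfl⟩ | ⟨c, hc, he⟩
      · rcases (hmem z).1 hz with rfl | ⟨d, hd, hz⟩
        · exact absurd h2 (lt_irrefl _)
        · have hcd : d = c := hsame d hd c hc z hz _ (hroot c hc) h1
          subst hcd
          exact (hT d hd).sub z hz
      · obtain ⟨he1, he2⟩ := (hT c hc).mem e he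
        have h3 := (hclose c hc _ he2).2
        rcases (hmem z).1 hz with rfl | ⟨d, hd, hz⟩
        · exact absurd (h2.trans h3) (lt_irrefl _)
        · have hcd : d = c := hsame d hd c hc z hz _ he1 (h1.trans h3)
          subst hcd
          exact (hT d hd).gap e he z hz h1 h2
    · intro x hx hne
      rcases (hmem x).1 hx with rfl | ⟨c, hc, hx⟩
      · exact absurd rfl hne
      · by_cases hxc : x = (c, s c)
        · exact ⟨(a, r), (hmemE _).2 (Or.inl ⟨c, hc, by rw [hxc]⟩)⟩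
        · obtain ⟨y, hy⟩ := (hT c hc).parent x hx hxc
          exact ⟨y, (hmemE _).2 (Or.inr ⟨c, hc, hy⟩)⟩
    · intro x hx c' hc'
      rcases (hmem x).1 hx with rfl | ⟨c, hc, hx⟩
      · by_cases hd : ∃ d ∈ S, v (c' - d) < r
        · obtain ⟨d, hd, hlt⟩ := hd
          exact Or.inl ⟨(d, s d), (hmemE _).2 (Or.inl ⟨d, hd, rfl⟩), sub_lt_swap hlt⟩
        · push Not at hd
          refine Or.inr ⟨hD c' hc' hd, ?_⟩
          intro z hz hlt
          rcases (hmem z).1 hz with rfl | ⟨d, hd', hz⟩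
          · exact le_rfl
          · exact absurd (hd d hd') (not_le.2 (sub_lt (sub_lt_swap hlt) (hclose d hd' z hz).1))
      · have hlt := hclose c hc x hx
        rcases (hT c hc).dir x hx c' hc' with ⟨y, hy, hyc⟩ | ⟨h1, h2⟩
        · exact Or.inl ⟨y, (hmemE _).2 (Or.inr ⟨c, hc, hy⟩), hyc⟩
        · refine Or.inr ⟨h1, ?_⟩
          intro z hz hz2
          rcases (hmem z).1 hz with rfl | ⟨d, hd, hz⟩
          · exact hlt.2.le
          · have hcd : d = c := by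
              refine hsame d hd c hc z hz x hx ?_
              exact sub_lt (hz2.trans hlt.2) (hc'.trans_lt hlt.2)
            subst hcd
            exact h2 z hz hz2

variable {V : Finset (C × ℝ≥0)} {E : Finset ((C × ℝ≥0) × (C × ℝ≥0))} {root : C × ℝ≥0}

theorem Tree.parent_unique (T : Tree v gD gA V E root) {x y y' : C × ℝ≥0} (h : (x, y) ∈ E)
    (h' : (x, y') ∈ E) : y = y' := by
  have hy := (T.mem _ h).2
  have hy' := (T.mem _ h').2
  obtain ⟨h1, h2, -⟩ := T.edge _ h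
  obtain ⟨h1', h2', -⟩ := T.edge _ h'
  simp only at h1 h2 h1' h2' hy hy'
  rcases lt_trichotomy y.2 y'.2 with hlt | heq | hlt
  · have := T.gap _ h' y hy ((sub_le_swap h1).trans_lt hlt) hlt
    exact absurd this.2 (not_le.2 h2)
  · refine T.inj y hy y' hy' ?_ heq
    refine (v_sub_le y.1 x.1 y'.1).trans (max_le (sub_le_swap h1) ?_)
    rw [heq]; exact h1'
  · have := T.gap _ h y' hy' ((sub_le_swap h1').trans_lt hlt) hlt
    exact absurd this.2 (not_le.2 h2')

theorem Tree.child_unique (T : Tree v gD gA V E root) {x y y' : C × ℝ≥0} (h : (y, x) ∈ E)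
    (h' : (y', x) ∈ E) (hlt : v (y.1 - y'.1) < x.2) : y = y' := by
  have hy := (T.mem _ h).1
  have hy' := (T.mem _ h').1
  obtain ⟨-, h2, -⟩ := T.edge _ h
  obtain ⟨-, h2', -⟩ := T.edge _ h'
  have h3 := T.gap _ h y' hy' (sub_lt_swap hlt) h2'
  have h4 := T.gap _ h' y hy hlt h2
  exact T.inj y hy y' hy' (sub_le_swap h3.1) (le_antisymm h4.2 h3.2)

theorem Tree.root_no_parent (T : Tree v gD gA V E root) {y : C × ℝ≥0} (h : (root, y) ∈ E) :
    False := by
  have h1 := (T.edge _ h).2.1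
  have h2 := (T.sub _ (T.mem _ h).2).2
  exact absurd h1 (not_lt.2 h2)

variable (v)

/-- a point of the line, given by its distances to the elements of `C`: a point `y` of `C`
(`d b = v (b - y)`) or a norm `w` (`d b = w (X - b)`) -/
structure IsPtL (d : C → ℝ≥0) : Prop where
  le : ∀ b c, d b ≤ max (d c) (v (b - c))
  ge : ∀ b c, v (b - c) ≤ max (d b) (d c)

variable {v}

theorem isPtL_point (y : C) : IsPtL v (fun b => v (b - y)) where
  le b c := by
    rw [max_comm]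
    exact v_sub_le b c y
  ge b c := by
    have h := v_sub_le (v := v) b y c
    rwa [Valuation.map_sub_swap v y c] at h

theorem isPtL_norm {w : Valuation (RatFunc C) ℝ≥0} (h0 : ∀ c, w (RatFunc.C c) = v c) :
    IsPtL v (fun b => w (RatFunc.X - RatFunc.C b)) where
  le b c := by
    have e : (RatFunc.X - RatFunc.C b : RatFunc C) = (RatFunc.X - RatFunc.C c) - RatFunc.C (b - c) := by
      rw [map_sub]; ring
    show w (RatFunc.X - RatFunc.C b) ≤ _
    rw [e, ← h0]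
    exact w.map_sub _ _
  ge b c := by
    have e : (RatFunc.C (b - c) : RatFunc C) = (RatFunc.X - RatFunc.C c) - (RatFunc.X - RatFunc.C b) := by
      rw [map_sub]; ring
    rw [← h0, e, max_comm]
    exact w.map_sub _ _

/-- `x` is the smallest closed disc of the tree containing the point `d` -/
structure IsMinV (V : Finset (C × ℝ≥0)) (d : C → ℝ≥0) (x : C × ℝ≥0) : Prop where
  mem : x ∈ V
  le : d x.1 ≤ x.2
  min : ∀ z ∈ V, d z.1 ≤ z.2 → x.2 ≤ z.2

theorem IsMinV.unique (T : Tree v gD gA V E root) {d : C → ℝ≥0} (hd : IsPtL v d)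
    {x x' : C × ℝ≥0} (h : IsMinV V d x) (h' : IsMinV V d x') : x = x' := by
  have h1 : x.2 = x'.2 := le_antisymm (h.min x' h'.mem h'.le) (h'.min x h.mem h.le)
  refine T.inj x h.mem x' h'.mem ((hd.ge _ _).trans (max_le h.le ?_)) h1
  rw [h1]; exact h'.le

theorem exists_isMinV (T : Tree v gD gA V E root) {d : C → ℝ≥0} (h : d root.1 ≤ root.2) :
    ∃ x, IsMinV V d x := by
  classical
  obtain ⟨x, hx, hmin⟩ := Finset.exists_min_image (V.filter fun z => d z.1 ≤ z.2) Prod.snd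
    ⟨root, Finset.mem_filter.2 ⟨T.root_mem, h⟩⟩
  rw [Finset.mem_filter] at hx
  exact ⟨x, hx.1, hx.2, fun z hz hz2 => hmin z (Finset.mem_filter.2 ⟨hz, hz2⟩)⟩

/-- **location** of a point inside the root disc: at a vertex, in a disc or in an annulus -/
theorem locate (T : Tree v gD gA V E root) {d : C → ℝ≥0} (hd : IsPtL v d) {x : C × ℝ≥0}
    (hx : IsMinV V d x) :
    (∀ c, v (c - x.1) ≤ x.2 → x.2 ≤ d c) ∨
    (∃ c, v (c - x.1) ≤ x.2 ∧ d c < x.2 ∧ gD c x.2 ∧ ∀ z ∈ V, v (z.1 - c) < x.2 → x.2 ≤ z.2) ∨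
    (∃ y, (y, x) ∈ E ∧ y.2 < d y.1 ∧ d y.1 < x.2) := by
  by_cases h1 : ∀ c, v (c - x.1) ≤ x.2 → x.2 ≤ d c
  · exact Or.inl h1
  right
  push Not at h1
  obtain ⟨c, hc, hlt⟩ := h1
  rcases T.dir x hx.mem c hc with ⟨y, hy, hyc⟩ | ⟨h1, h2⟩
  · right
    refine ⟨y, hy, ?_, ?_⟩
    · by_contra hcon
      push Not at hcon
      have h3 := hx.min y (T.mem _ hy).1 hcon
      exact absurd (T.edge _ hy).2.1 (not_lt.2 h3)
    · exact (hd.le y.1 c).trans_lt (max_lt hlt hyc)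
  · left
    exact ⟨c, hc, hlt, h1, h2⟩

/-- a point of a disc cell -/
theorem isMinV_of_disc {d : C → ℝ≥0} (hdp : IsPtL v d) {x : C × ℝ≥0} (hx : x ∈ V) {c : C}
    (hc : v (c - x.1) ≤ x.2) (hlt : d c < x.2) (hno : ∀ z ∈ V, v (z.1 - c) < x.2 → x.2 ≤ z.2) :
    IsMinV V d x where
  mem := hx
  le := (hdp.le x.1 c).trans (max_le hlt.le (sub_le_swap hc))
  min z hz hz2 := by
    by_contra hcon
    push Not at hcon
    have h1 : v (z.1 - c) < x.2 := (hdp.ge z.1 c).trans_lt (max_lt (hz2.trans_lt hcon) hlt)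
    exact absurd (hno z hz h1) (not_le.2 hcon)

/-- a point of an annulus cell -/
theorem isMinV_of_ann (T : Tree v gD gA V E root) {d : C → ℝ≥0} (hdp : IsPtL v d)
    {x y : C × ℝ≥0} (hy : (y, x) ∈ E) (h1 : y.2 < d y.1) (h2 : d y.1 < x.2) : IsMinV V d x where
  mem := (T.mem _ hy).2
  le := (hdp.le x.1 y.1).trans (max_le h2.le (sub_le_swap (T.edge _ hy).1))
  min z hz hz2 := by
    by_contra hcon
    push Not at hcon
    have h3 : v (z.1 - y.1) < x.2 := (hdp.ge z.1 y.1).trans_lt (max_lt (hz2.trans_lt hcon) h2)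
    obtain ⟨h4, h5⟩ := T.gap _ hy z hz h3 hcon
    have h6 : d y.1 ≤ y.2 :=
      (hdp.le y.1 z.1).trans (max_le (hz2.trans h5) (sub_le_swap h4))
    exact absurd h1 (not_lt.2 h6)

/-- a vertex point -/
theorem isMinV_of_vertex {d : C → ℝ≥0} (hdp : IsPtL v d) {x : C × ℝ≥0} (hx : x ∈ V)
    (hle : d x.1 ≤ x.2) (h : ∀ c, v (c - x.1) ≤ x.2 → x.2 ≤ d c) : IsMinV V d x where
  mem := hx
  le := hle
  min z hz hz2 := by
    by_contra hcon
    push Not at hcon
    have h1 : v (z.1 - x.1) ≤ x.2 := (hdp.ge z.1 x.1).trans (max_le (hz2.trans hcon.le) hle)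
    exact absurd (h z.1 h1) (not_le.2 (hz2.trans_lt hcon))

end Crest.Agent.R013.SSG_109
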