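import Mathlib

/-!
# SSX, part 1: Gauss elements (helper93, row 13, task SS-X)

`k → F` fields, `v` a valuation of `k`, `w` a valuation of `F` (same value group).
`IsG v w t` : `w` extends `v`, `w t ≤ 1` and `w` is the Gauss norm on `k[t]`; equivalently the residue of `t` is
transcendental over the residue field of `v`.
-/

set_option autoImplicit false
set_option linter.style.haveILetI false

namespace Crest.Agent.R013.SSX_93

open Polynomial

variable {k F Γ : Type*} [Field k] [Field F] [Algebra k F] [LinearOrderedCommGroupWithZero Γ]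

/-- `w` extends `v` and is the Gauss norm on `k[t]`. -/
structure IsG (v : Valuation k Γ) (w : Valuation F Γ) (t : F) : Prop where
  ext : ∀ a : k, w (algebraMap k F a) = v a
  le_one : w t ≤ 1
  coeff_le : ∀ (q : k[X]) (i : ℕ), v (q.coeff i) ≤ w (aeval t q)

section residue

variable {v : Valuation k Γ} {w : Valuation F Γ} (h : ∀ a : k, w (algebraMap k F a) = v a)

/-- The map of valuation rings. -/
noncomputable def oMap : v.valuationSubring →+* w.valuationSubring :=
  ((algebraMap k F).comp v.valuationSubring.subtype).codRestrict w.valuationSubring.toSubring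
    fun a => by
      show w (algebraMap k F (a : k)) ≤ 1
      rw [h]; exact a.2

theorem oMap_coe (a : v.valuationSubring) : ((oMap h a : w.valuationSubring) : F) =
    algebraMap k F (a : k) := rfl

theorem isUnit_vs {K : Type*} [Field K] {u : Valuation K Γ} {a : u.valuationSubring} :
    IsUnit a ↔ u (a : K) = 1 := by
  rw [ValuationSubring.valuation_eq_one_iff]
  have := (Valuation.isEquiv_valuation_valuationSubring u)
  exact (this.eq_one_iff_eq_one).symm

theorem isLocalHom_oMap : IsLocalHom (oMap h) := by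
  constructor
  intro a ha
  rw [isUnit_vs] at ha ⊢
  rw [oMap_coe, h] at ha
  exact ha

/-- The map of residue fields. -/
noncomputable def kMap : IsLocalRing.ResidueField v.valuationSubring →+*
    IsLocalRing.ResidueField w.valuationSubring :=
  haveI := isLocalHom_oMap h
  IsLocalRing.ResidueField.map (oMap h)

theorem kMap_residue (a : v.valuationSubring) : kMap h (IsLocalRing.residue _ a) =
    IsLocalRing.residue _ (oMap h a) := by
  haveI := isLocalHom_oMap h
  exact IsLocalRing.ResidueField.map_residue (oMap h) a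

/-- The residue of an element of the valuation ring. -/
noncomputable def res (w : Valuation F Γ) {t : F} (ht : w t ≤ 1) :
    IsLocalRing.ResidueField w.valuationSubring :=
  IsLocalRing.residue _ (⟨t, ht⟩ : w.valuationSubring)

theorem res_eq_zero {t : F} (ht : w t ≤ 1) : res w ht = 0 ↔ w t < 1 := by
  unfold res
  rw [IsLocalRing.residue_eq_zero_iff, IsLocalRing.mem_maximalIdeal, mem_nonunits_iff, isUnit_vs]
  exact ⟨fun hh => lt_of_le_of_ne ht hh, fun hh => ne_of_lt hh⟩

theorem res_add {s t : F} (hs : w s ≤ 1) (ht : w t ≤ 1) (hst : w (s + t) ≤ 1) :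
    res w hst = res w hs + res w ht := by
  unfold res; rw [← map_add]; rfl

theorem res_sub {s t : F} (hs : w s ≤ 1) (ht : w t ≤ 1) (hst : w (s - t) ≤ 1) :
    res w hst = res w hs - res w ht := by
  unfold res; rw [← map_sub]; rfl

theorem res_mul {s t : F} (hs : w s ≤ 1) (ht : w t ≤ 1) (hst : w (s * t) ≤ 1) :
    res w hst = res w hs * res w ht := by
  unfold res; rw [← map_mul]; rfl

theorem res_congr {s t : F} (hs : w s ≤ 1) (ht : w t ≤ 1) (hst : w (s - t) < 1) :
    res w hs = res w ht := by
  have := res_sub (w := w) hs ht hst.le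
  rw [(res_eq_zero (w := w) hst.le).2 hst] at this
  exact (sub_eq_zero.1 this.symm)

/-- The residue of `t` is algebraic over the residue field of `v`. -/
def AlgRes (t : F) : Prop := ∃ ht : w t ≤ 1, (kMap h).IsIntegralElem (res w ht)

theorem aeval_vs (q : v.valuationSubring[X]) (t : w.valuationSubring) :
    ((eval₂ (oMap h) t q : w.valuationSubring) : F) =
      aeval (t : F) (q.map v.valuationSubring.subtype) := by
  rw [aeval_def, eval₂_map]
  rw [show ((eval₂ (oMap h) t q : w.valuationSubring) : F) =
    w.valuationSubring.subtype (eval₂ (oMap h) t q) from rfl, hom_eval₂]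
  rfl

theorem eval_res (q : v.valuationSubring[X]) {t : F} (ht : w t ≤ 1) :
    eval₂ (kMap h) (res w ht) (q.map (IsLocalRing.residue _)) =
      IsLocalRing.residue _ (eval₂ (oMap h) (⟨t, ht⟩ : w.valuationSubring) q) := by
  rw [eval₂_map, hom_eval₂]
  congr 1

theorem eval_res_eq_zero (q : v.valuationSubring[X]) {t : F} (ht : w t ≤ 1) :
    eval₂ (kMap h) (res w ht) (q.map (IsLocalRing.residue _)) = 0 ↔
      w (aeval t (q.map v.valuationSubring.subtype)) < 1 := by
  rw [eval_res, ← aeval_vs h q (⟨t, ht⟩ : w.valuationSubring)]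
  have hle : w ((eval₂ (oMap h) (⟨t, ht⟩ : w.valuationSubring) q : w.valuationSubring) : F) ≤ 1 :=
    (eval₂ (oMap h) (⟨t, ht⟩ : w.valuationSubring) q).2
  exact res_eq_zero (w := w) hle

/-- Gauss elements are the elements with transcendental residue. -/
theorem isG_iff {t : F} (ht : w t ≤ 1) :
    IsG v w t ↔ ¬ (kMap h).IsIntegralElem (res w ht) := by
  constructor
  · rintro hG ⟨P, hP, hP0⟩
    obtain ⟨q, hq, -, hqm⟩ := lifts_and_natDegree_eq_and_monic
      (f := IsLocalRing.residue v.valuationSubring)
      (p := P) (by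
        rw [lifts_iff_coeff_lifts]
        intro n
        exact IsLocalRing.residue_surjective _) hP
    rw [← hq, eval_res_eq_zero] at hP0
    have h1 := hG.coeff_le (q.map v.valuationSubring.subtype) q.natDegree
    rw [coeff_map, hqm.coeff_natDegree, map_one, map_one] at h1
    exact absurd hP0 (not_lt.2 h1)
  · intro hn
    refine ⟨h, ht, ?_⟩
    intro q i
    by_cases hq : q = 0
    · simp [hq]
    obtain ⟨j, hj, hmax⟩ := q.support.exists_max_image (fun i => v (q.coeff i))
      (support_nonempty.2 hq)
    have hj0 : q.coeff j ≠ 0 := mem_support_iff.1 hj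
    have hle : ∀ i, v (q.coeff i) ≤ v (q.coeff j) := by
      intro i
      by_cases hi : i ∈ q.support
      · exact hmax i hi
      · rw [notMem_support_iff.1 hi, map_zero]; exact zero_le
    refine (hle i).trans ?_
    by_contra hlt
    rw [not_le] at hlt
    have hvj : v (q.coeff j) ≠ 0 := (Valuation.ne_zero_iff _).2 hj0
    -- normalised polynomial
    have hmem : ∀ i, v ((C (q.coeff j)⁻¹ * q).coeff i) ≤ 1 := by
      intro i
      rw [coeff_C_mul, map_mul, map_inv₀]
      calc (v (q.coeff j))⁻¹ * v (q.coeff i) ≤ (v (q.coeff j))⁻¹ * v (q.coeff j) := by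
            gcongr; exact hle i
        _ = 1 := inv_mul_cancel₀ hvj
    obtain ⟨r, hr⟩ : ∃ r : v.valuationSubring[X],
        r.map v.valuationSubring.subtype = C (q.coeff j)⁻¹ * q := by
      have : (C (q.coeff j)⁻¹ * q) ∈ lifts v.valuationSubring.subtype := by
        rw [lifts_iff_coeff_lifts]
        intro n
        exact ⟨⟨_, hmem n⟩, rfl⟩
      obtain ⟨r, hr⟩ := (mem_lifts _).1 this
      exact ⟨r, hr⟩
    have hr1 : w (aeval t (r.map v.valuationSubring.subtype)) < 1 := by
      rw [hr, map_mul, aeval_C, map_mul, h, map_inv₀]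
      calc (v (q.coeff j))⁻¹ * w (aeval t q) < (v (q.coeff j))⁻¹ * v (q.coeff j) := by
            exact mul_lt_mul_of_pos_left hlt (by
              rw [zero_lt_iff]; exact inv_ne_zero hvj)
        _ = 1 := inv_mul_cancel₀ hvj
    rw [← eval_res_eq_zero h r ht] at hr1
    apply hn
    have hrne : r.map (IsLocalRing.residue v.valuationSubring) ≠ 0 := by
      intro h0
      have h1 : IsLocalRing.residue v.valuationSubring (r.coeff j) = 0 := by
        rw [← coeff_map, h0, coeff_zero]
      have h2 : ((r.coeff j : v.valuationSubring) : k) = 1 := by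
        have := congrArg (fun f => f.coeff j) hr
        simp only [coeff_map, coeff_C_mul] at this
        rw [inv_mul_cancel₀ hj0] at this
        exact this
      rw [IsLocalRing.residue_eq_zero_iff, IsLocalRing.mem_maximalIdeal, mem_nonunits_iff,
        isUnit_vs, h2, map_one] at h1
      exact h1 rfl
    letI : Algebra (IsLocalRing.ResidueField v.valuationSubring)
      (IsLocalRing.ResidueField w.valuationSubring) := (kMap h).toAlgebra
    have halg : IsAlgebraic (IsLocalRing.ResidueField v.valuationSubring) (res w ht) :=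
      ⟨r.map (IsLocalRing.residue v.valuationSubring), hrne, by rw [aeval_def]; exact hr1⟩
    exact halg.isIntegral

variable {h}

theorem isG_iff_not_algRes {t : F} (ht : w t ≤ 1) : IsG v w t ↔ ¬ AlgRes h t := by
  rw [isG_iff h ht]
  constructor
  · rintro hn ⟨_, h2⟩; exact hn h2
  · intro hn h2; exact hn ⟨ht, h2⟩

theorem AlgRes.le_one {t : F} (ht : AlgRes h t) : w t ≤ 1 := ht.1

theorem AlgRes.add {s t : F} (hs : AlgRes h s) (ht : AlgRes h t) : AlgRes h (s + t) := by
  obtain ⟨hs1, hs2⟩ := hs
  obtain ⟨ht1, ht2⟩ := ht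
  have h1 : w (s + t) ≤ 1 := w.map_add_le hs1 ht1
  refine ⟨h1, ?_⟩
  rw [res_add hs1 ht1 h1]
  exact hs2.add _ ht2

theorem AlgRes.of_lt {t : F} (ht : w t < 1) : AlgRes h t := by
  refine ⟨ht.le, ?_⟩
  rw [(res_eq_zero ht.le).2 ht]
  exact (kMap h).isIntegralElem_zero

theorem AlgRes.const {b : k} (hb : v b ≤ 1) : AlgRes h (algebraMap k F b) := by
  have h1 : w (algebraMap k F b) ≤ 1 := by rw [h]; exact hb
  refine ⟨h1, ?_⟩
  have : res w h1 = kMap h (IsLocalRing.residue _ (⟨b, hb⟩ : v.valuationSubring)) := by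
    rw [kMap_residue]; rfl
  rw [this]
  exact (kMap h).isIntegralElem_map

theorem AlgRes.congr {s t : F} (ht : AlgRes h t) (hst : w (s - t) < 1) : AlgRes h s := by
  have := ht.add (AlgRes.of_lt (h := h) hst)
  rwa [add_sub_cancel] at this

theorem AlgRes.mul {s t : F} (hs : AlgRes h s) (ht : AlgRes h t) : AlgRes h (s * t) := by
  obtain ⟨hs1, hs2⟩ := hs
  obtain ⟨ht1, ht2⟩ := ht
  have h1 : w (s * t) ≤ 1 := by rw [map_mul]; exact mul_le_one' hs1 ht1
  refine ⟨h1, ?_⟩
  rw [res_mul hs1 ht1 h1]
  exact hs2.mul _ ht2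

theorem AlgRes.neg {s : F} (hs : AlgRes h s) : AlgRes h (-s) := by
  have h1 : AlgRes h (algebraMap k F (-1)) := AlgRes.const (by rw [Valuation.map_neg, map_one])
  have := h1.mul hs
  rwa [map_neg, map_one, neg_one_mul] at this

theorem AlgRes.sub {s t : F} (hs : AlgRes h s) (ht : AlgRes h t) : AlgRes h (s - t) := by
  rw [sub_eq_add_neg]; exact hs.add ht.neg

theorem AlgRes.sum {ι : Type*} (S : Finset ι) (f : ι → F) (hf : ∀ i ∈ S, AlgRes h (f i)) :
    AlgRes h (∑ i ∈ S, f i) := by
  classical
  induction S using Finset.induction_on with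
  | empty => simpa using AlgRes.of_lt (h := h) (t := 0) (by simp)
  | insert a S ha ih =>
    rw [Finset.sum_insert ha]
    exact (hf a (Finset.mem_insert_self _ _)).add (ih fun i hi => hf i (Finset.mem_insert_of_mem hi))

theorem AlgRes.inv {t : F} (ht : AlgRes h t) (h1 : w t = 1) : AlgRes h t⁻¹ := by
  obtain ⟨ht1, ht2⟩ := ht
  have h2 : w t⁻¹ ≤ 1 := by rw [map_inv₀, h1, inv_one]
  refine ⟨h2, ?_⟩
  have hmul : res w ht1 * res w h2 = 1 := by
    have h3 : w (t * t⁻¹) ≤ 1 := by
      rw [map_mul, map_inv₀, h1, inv_one, one_mul]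
    rw [← res_mul ht1 h2 h3]
    have ht0 : t ≠ 0 := by
      intro h0; rw [h0, map_zero] at h1; exact zero_ne_one h1
    unfold res
    rw [show (⟨t * t⁻¹, h3⟩ : w.valuationSubring) = 1 from Subtype.ext (mul_inv_cancel₀ ht0),
      map_one]
  letI : Algebra (IsLocalRing.ResidueField v.valuationSubring)
      (IsLocalRing.ResidueField w.valuationSubring) := (kMap h).toAlgebra
  have h4 : IsIntegral (IsLocalRing.ResidueField v.valuationSubring) (res w ht1) := ht2
  have h5 : res w h2 = (res w ht1)⁻¹ := by
    rw [eq_comm]; exact inv_eq_of_mul_eq_one_right hmul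
  rw [h5]
  exact (h4.isAlgebraic.inv).isIntegral

/-- If `t` is a Gauss element so is every `s` obtained from it by an algebraic perturbation. -/
theorem IsG.add_alg {s t : F} (ht : IsG v w t) (hs : AlgRes ht.ext s) : IsG v w (t + s) := by
  have h1 : w (t + s) ≤ 1 := w.map_add_le ht.le_one hs.le_one
  rw [isG_iff_not_algRes (h := ht.ext) h1]
  intro h2
  have := h2.sub hs
  rw [add_sub_cancel_right] at this
  exact (isG_iff_not_algRes (h := ht.ext) ht.le_one).1 ht this

theorem IsG.val_eq_one {t : F} (ht : IsG v w t) : w t = 1 := by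
  refine le_antisymm ht.le_one ?_
  have := ht.coeff_le X 1
  simpa using this

theorem IsG.inv {t : F} (ht : IsG v w t) : IsG v w t⁻¹ := by
  have h1 : w t⁻¹ = 1 := by rw [map_inv₀, ht.val_eq_one, inv_one]
  rw [isG_iff_not_algRes (h := ht.ext) h1.le]
  intro h2
  have := h2.inv h1
  rw [inv_inv] at this
  exact (isG_iff_not_algRes (h := ht.ext) ht.le_one).1 ht this

theorem IsG.sub_const {t : F} (ht : IsG v w t) {b : k} (hb : v b ≤ 1) :
    IsG v w (t - algebraMap k F b) := by
  rw [sub_eq_add_neg]
  exact ht.add_alg (AlgRes.const hb).neg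

theorem IsG.add_const {t : F} (ht : IsG v w t) {b : k} (hb : v b ≤ 1) :
    IsG v w (t + algebraMap k F b) :=
  ht.add_alg (AlgRes.const hb)

theorem IsG.val_sub_const {t : F} (ht : IsG v w t) (b : k) :
    w (t - algebraMap k F b) = max 1 (v b) := by
  rcases le_or_gt (v b) 1 with hb | hb
  · rw [(ht.sub_const hb).val_eq_one, max_eq_left hb]
  · rw [max_eq_right hb.le, ← ht.ext b]
    refine Valuation.map_sub_eq_of_lt_right w ?_
    rw [ht.ext, ht.val_eq_one]; exact hb

theorem IsG.mul_unit {t : F} (ht : IsG v w t) {b : k} (hb : v b = 1) :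
    IsG v w (algebraMap k F b * t) := by
  have hb0 : b ≠ 0 := by intro h0; rw [h0, map_zero] at hb; exact zero_ne_one hb
  have h1 : w (algebraMap k F b * t) ≤ 1 := by
    rw [map_mul, ht.ext, hb, one_mul]; exact ht.le_one
  rw [isG_iff_not_algRes (h := ht.ext) h1]
  intro h2
  have h3 : AlgRes ht.ext (algebraMap k F b⁻¹) := AlgRes.const (by rw [map_inv₀, hb, inv_one])
  have := h3.mul h2
  rw [← mul_assoc, ← map_mul, inv_mul_cancel₀ hb0, map_one, one_mul] at this
  exact (isG_iff_not_algRes (h := ht.ext) ht.le_one).1 ht this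

end residue

end Crest.Agent.R013.SSX_93
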