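import Crest.Agent.R013.SSX1_93

/-!
# SSX, part 2: one coordinate for a finite set of type 2 norms (helper93, row 13, task SS-X)

`T = {η_i}` with `η_i` = the norm for which `(x - c_i)/ρ_i` is a Gauss element.  `R = ∑ ρ_i/(x - a_i)` with `a_i` in a
residue class of `η_i` containing no other `η_j`.  Then for every valuation `w`:
`R` is a Gauss element iff some `(x - c_i)/ρ_i` is.
-/

set_option autoImplicit false

namespace Crest.Agent.R013.SSX_93

variable {k F Γ : Type*} [Field k] [Field F] [Algebra k F] [LinearOrderedCommGroupWithZero Γ]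
  {v : Valuation k Γ} {w : Valuation F Γ}

/-- Centre data: radii `ρ`, centres `c`, and auxiliary centres `a` in free residue classes. -/
structure Centers {ι : Type*} (v : Valuation k Γ) (c a ρ : ι → k) : Prop where
  ne : ∀ i, ρ i ≠ 0
  mem : ∀ i, v (a i - c i) ≤ v (ρ i)
  dist : ∀ i j, i ≠ j → v (ρ i) = v (ρ j) → v (ρ i) < v (c i - c j)
  sep : ∀ i j, v (ρ j) < v (ρ i) → v (ρ i) ≤ v (c j - a i)

/-- The coordinate. -/
noncomputable def RR {ι : Type*} [Fintype ι] (x : F) (a ρ : ι → k) : F :=
  ∑ i, algebraMap k F (ρ i) / (x - algebraMap k F (a i))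

theorem IsG.val_sub {x : F} {c ρ : k} (hρ : ρ ≠ 0)
    (hG : IsG v w ((x - algebraMap k F c) / algebraMap k F ρ)) (b : k) :
    w (x - algebraMap k F b) = max (v ρ) (v (b - c)) := by
  have hρF : algebraMap k F ρ ≠ 0 := (map_ne_zero _).2 hρ
  have h1 := hG.val_sub_const ((b - c) / ρ)
  have h2 : (x - algebraMap k F c) / algebraMap k F ρ - algebraMap k F ((b - c) / ρ) =
      (x - algebraMap k F b) / algebraMap k F ρ := by
    rw [map_div₀, map_sub]; field_simp; ring
  rw [h2, map_div₀, hG.ext, map_div₀] at h1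
  have hv : v ρ ≠ 0 := (Valuation.ne_zero_iff _).2 hρ
  have hv0 : 0 < v ρ := zero_lt_iff.2 hv
  rw [div_eq_iff hv] at h1
  rw [h1]
  rcases le_total (v (b - c)) (v ρ) with hle | hle
  · rw [max_eq_left ((div_le_one₀ hv0).2 hle), max_eq_left hle, one_mul]
  · rw [max_eq_right ((one_le_div₀ hv0).2 hle), max_eq_right hle, div_mul_cancel₀ _ hv]

theorem vsub_le (v : Valuation k Γ) (a b c : k) : v (a - c) ≤ max (v (a - b)) (v (b - c)) := by
  have := v.map_add (a - b) (b - c)
  rwa [sub_add_sub_cancel] at this

variable {ι : Type*} {c a ρ : ι → k}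

theorem term_alg (hT : Centers v c a ρ) {x : F} {i j : ι} (hij : i ≠ j)
    (hG : IsG v w ((x - algebraMap k F (c j)) / algebraMap k F (ρ j))) :
    AlgRes hG.ext (algebraMap k F (ρ i) / (x - algebraMap k F (a i))) := by
  have hval := hG.val_sub (hT.ne j) (a i)
  have hi0 : 0 < v (ρ i) := zero_lt_iff.2 ((Valuation.ne_zero_iff _).2 (hT.ne i))
  have hj0 : 0 < v (ρ j) := zero_lt_iff.2 ((Valuation.ne_zero_iff _).2 (hT.ne j))
  rcases lt_or_ge (v (ρ i)) (w (x - algebraMap k F (a i))) with hlt | hge
  · apply AlgRes.of_lt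
    rw [map_div₀, hG.ext]
    exact (div_lt_one₀ (lt_of_le_of_lt zero_le hlt)).2 hlt
  · rw [hval] at hge
    have h1 : v (ρ j) ≤ v (ρ i) := (le_max_left _ _).trans hge
    have h2 : v (a i - c j) ≤ v (ρ i) := (le_max_right _ _).trans hge
    have h3 : v (ρ j) < v (ρ i) := by
      refine lt_of_le_of_ne h1 fun heq => ?_
      have h4 := hT.dist i j hij heq.symm
      have h5 := vsub_le v (c i) (a i) (c j)
      rw [Valuation.map_sub_swap v (c i) (a i)] at h5
      exact absurd (h5.trans (max_le (hT.mem i) h2)) (not_le.2 h4)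
    have h4 := hT.sep i j h3
    have h5 : v (c j - a i) = v (ρ i) := by
      refine le_antisymm ?_ h4
      rw [Valuation.map_sub_swap]; exact h2
    have hne : c j - a i ≠ 0 := by
      intro h0; rw [h0, map_zero] at h5; exact hi0.ne h5
    have hneF : algebraMap k F (c j) - algebraMap k F (a i) ≠ 0 := by
      rw [← map_sub]; exact (map_ne_zero _).2 hne
    -- `x - a_i = (c_j - a_i)(1 + small)`
    set u : F := (x - algebraMap k F (a i)) / (algebraMap k F (c j) - algebraMap k F (a i)) with hu
    have hu1 : w (u - 1) < 1 := by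
      have : u - 1 = (x - algebraMap k F (c j)) / (algebraMap k F (c j) - algebraMap k F (a i)) := by
        rw [hu]; field_simp; ring
      rw [this, map_div₀, ← map_sub (algebraMap k F), hG.ext, h5,
        hG.val_sub (hT.ne j) (c j), sub_self, map_zero, max_eq_left zero_le]
      exact (div_lt_one₀ hi0).2 h3
    have hu2 : AlgRes hG.ext u := by
      refine AlgRes.congr (t := 1) ?_ hu1
      have := AlgRes.const (h := hG.ext) (b := (1 : k)) (by rw [map_one])
      rwa [map_one] at this
    have hu3 : w u = 1 := by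
      have := Valuation.map_eq_of_sub_lt w (x := (1 : F)) (y := u) (by rwa [map_one])
      rwa [map_one] at this
    have h6 := hu2.inv hu3
    have h7 : AlgRes hG.ext (algebraMap k F (ρ i / (c j - a i))) := AlgRes.const (by
      rw [map_div₀, h5, div_self hi0.ne'])
    have h8 := h7.mul h6
    convert h8 using 1
    rw [hu, map_div₀, map_sub, inv_div]
    field_simp

/-- If `(x - c_j)/ρ_j` is a Gauss element then so is the coordinate `R`. -/
theorem isG_RR [Fintype ι] (hT : Centers v c a ρ) {x : F} {j : ι}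
    (hG : IsG v w ((x - algebraMap k F (c j)) / algebraMap k F (ρ j))) :
    IsG v w (RR x a ρ) := by
  classical
  unfold RR
  rw [← Finset.add_sum_erase Finset.univ _ (Finset.mem_univ j)]
  have hρF : algebraMap k F (ρ j) ≠ 0 := (map_ne_zero _).2 (hT.ne j)
  have hj0 : 0 < v (ρ j) := zero_lt_iff.2 ((Valuation.ne_zero_iff _).2 (hT.ne j))
  have h1 : IsG v w ((x - algebraMap k F (a j)) / algebraMap k F (ρ j)) := by
    have := hG.sub_const (b := (a j - c j) / ρ j) (by
      rw [map_div₀]; exact (div_le_one₀ hj0).2 (hT.mem j))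
    convert this using 1
    rw [map_div₀, map_sub]; field_simp; ring
  have h2 : IsG v w (algebraMap k F (ρ j) / (x - algebraMap k F (a j))) := by
    have := h1.inv
    rwa [inv_div] at this
  refine h2.add_alg (AlgRes.sum _ _ fun i hi => ?_)
  exact term_alg hT (Finset.ne_of_mem_erase hi) hG

/-- If the coordinate `R` is a Gauss element then some `(x - c_j)/ρ_j` is. -/
theorem exists_isG_of_RR [Fintype ι] (hT : Centers v c a ρ) {x : F}
    (hx : ∀ b : k, x ≠ algebraMap k F b) (hG : IsG v w (RR x a ρ)) :
    ∃ j, IsG v w ((x - algebraMap k F (c j)) / algebraMap k F (ρ j)) := by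
  classical
  by_contra hn
  push Not at hn
  have hpos : ∀ i, 0 < v (ρ i) := fun i => zero_lt_iff.2 ((Valuation.ne_zero_iff _).2 (hT.ne i))
  have hxne : ∀ b : k, 0 < w (x - algebraMap k F b) := fun b =>
    zero_lt_iff.2 ((Valuation.ne_zero_iff _).2 (sub_ne_zero.2 (hx b)))
  have key : ∀ i, v (ρ i) ≤ w (x - algebraMap k F (a i)) →
      AlgRes hG.ext (algebraMap k F (ρ i) / (x - algebraMap k F (a i))) := by
    intro i hi
    rcases lt_or_eq_of_le hi with hlt | heq
    · apply AlgRes.of_lt
      rw [map_div₀, hG.ext]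
      exact (div_lt_one₀ (hxne _)).2 hlt
    · have hρF : algebraMap k F (ρ i) ≠ 0 := (map_ne_zero _).2 (hT.ne i)
      have hu : w ((x - algebraMap k F (a i)) / algebraMap k F (ρ i)) = 1 := by
        rw [map_div₀, hG.ext, heq, div_self (hxne _).ne']
      have hnG : ¬ IsG v w ((x - algebraMap k F (a i)) / algebraMap k F (ρ i)) := by
        intro h1
        apply hn i
        have := h1.add_const (b := (a i - c i) / ρ i) (by
          rw [map_div₀]; exact (div_le_one₀ (hpos i)).2 (hT.mem i))
        convert this using 1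
        rw [map_div₀, map_sub]; field_simp; ring
      rw [isG_iff_not_algRes (h := hG.ext) hu.le, not_not] at hnG
      have := hnG.inv hu
      rwa [inv_div] at this
  by_cases hall : ∀ i, v (ρ i) ≤ w (x - algebraMap k F (a i))
  · have : AlgRes hG.ext (RR x a ρ) := AlgRes.sum _ _ fun i _ => key i (hall i)
    exact (isG_iff_not_algRes (h := hG.ext) hG.le_one).1 hG this
  · push Not at hall
    obtain ⟨j, hj⟩ := hall
    have hoth : ∀ i, i ≠ j → v (ρ i) ≤ w (x - algebraMap k F (a i)) := by
      intro i hij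
      by_contra hi
      rw [not_le] at hi
      have haa : v (a i - a j) < max (v (ρ i)) (v (ρ j)) := by
        have h1 := w.map_sub (x - algebraMap k F (a j)) (x - algebraMap k F (a i))
        rw [sub_sub_sub_cancel_left, ← map_sub, hG.ext] at h1
        rcases le_max_iff.1 h1 with h2 | h2
        · exact lt_of_lt_of_le (lt_of_le_of_lt h2 hj) (le_max_right _ _)
        · exact lt_of_lt_of_le (lt_of_le_of_lt h2 hi) (le_max_left _ _)
      rcases lt_trichotomy (v (ρ i)) (v (ρ j)) with hlt | heq | hgt
      · rw [max_eq_right hlt.le] at haa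
        have h1 := hT.sep j i hlt
        have h2 := vsub_le v (c i) (a i) (a j)
        rw [Valuation.map_sub_swap v (c i) (a i)] at h2
        exact absurd (h1.trans h2) (not_le.2 (max_lt ((hT.mem i).trans_lt hlt) haa))
      · rw [heq, max_self] at haa
        have h1 := hT.dist i j hij heq
        have h2 := vsub_le v (c i) (a i) (c j)
        have h3 := vsub_le v (a i) (a j) (c j)
        rw [Valuation.map_sub_swap v (c i) (a i)] at h2
        have h4 : v (c i - c j) ≤ v (ρ i) :=
          h2.trans (max_le (hT.mem i) (h3.trans (max_le (heq ▸ haa.le) (heq ▸ hT.mem j))))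
        exact absurd h4 (not_le.2 h1)
      · rw [max_eq_left hgt.le] at haa
        have h1 := hT.sep i j hgt
        have h2 := vsub_le v (c j) (a j) (a i)
        rw [Valuation.map_sub_swap v (c j) (a j), Valuation.map_sub_swap v (a j) (a i)] at h2
        exact absurd (h1.trans h2) (not_le.2 (max_lt ((hT.mem j).trans_lt hgt) haa))
    have h1 : w (∑ i ∈ Finset.univ.erase j,
        algebraMap k F (ρ i) / (x - algebraMap k F (a i))) ≤ 1 :=
      (AlgRes.sum (h := hG.ext) _ _ fun i hi =>
        key i (hoth i (Finset.ne_of_mem_erase hi))).le_one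
    have h2 : 1 < w (algebraMap k F (ρ j) / (x - algebraMap k F (a j))) := by
      rw [map_div₀, hG.ext]
      exact (one_lt_div₀ (hxne _)).2 hj
    have h3 := hG.le_one
    unfold RR at h3
    rw [← Finset.add_sum_erase Finset.univ _ (Finset.mem_univ j),
      Valuation.map_add_eq_of_lt_left w (lt_of_le_of_lt h1 h2)] at h3
    exact absurd h3 (not_le.2 h2)

/-- MAIN: the norms for which `R` is a Gauss element are exactly the norms `η_j`. -/
theorem isG_RR_iff [Fintype ι] (hT : Centers v c a ρ) {x : F}
    (hx : ∀ b : k, x ≠ algebraMap k F b) :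
    IsG v w (RR x a ρ) ↔ ∃ j, IsG v w ((x - algebraMap k F (c j)) / algebraMap k F (ρ j)) :=
  ⟨exists_isG_of_RR hT hx, fun ⟨_, hj⟩ => isG_RR hT hj⟩

end Crest.Agent.R013.SSX_93
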