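import Crest.Agent.R013.Set10_803

/-!
# Row 13, B-SET, part 11: `k(y) → Ω`, `y ↦ x / ρ`
-/

set_option autoImplicit false
set_option linter.unusedSectionVars false
set_option linter.style.haveILetI false

noncomputable section

namespace Crest.Agent.R013.Set_803

open scoped NNReal Topology
open Filter PowerSeries Crest.NumberTheoryR.Sect Crest.Agent.R013.A2a_275 Crest.Agent.R013.Gl946
  Crest.Agent.R013.SE_669 Crest.Agent.R013.CGood_588

variable {k : Type*} [Field k] {Ω : Type*} [Field Ω] [Algebra k Ω]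
variable {p : ℕ} [hp : Fact p.Prime] [Algebra ℚ_[p] k] {v P : Valuation Ω ℝ≥0}
  {C : IntermediateField k Ω}

namespace DiscData

variable {R : ℝ≥0} {x q c : Ω} (D : DiscData p v P C R x q c)
  [FiniteDimensional ℚ_[p] k] [FiniteDimensional k C]
  {E : Type*} [NormedField E] [IsUltrametricDist E] [CompleteSpace E]
  (A : NAlg D.hv C E) {y : E} (hy : IsG D.hv C A y)

/-- `k(y)` inside the circle field, over `C` -/
abbrev KYC {hv : ExtendsPadicNorm k Ω p v} {C : IntermediateField k Ω} {E : Type*} [NormedField E]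
    (A : NAlg hv C E) {y : E} (hy : IsG hv C A y) : Subfield E :=
  @KY C E (nC hv C).toNormedField _ A y hy

theorem exists_psi' (ρ : C) (hρ : v ρ < R) (h0 : ρ ≠ 0) :
    ∃ ψ : KYC A hy →+* Ω, ∀ (s : D.SD) (h : D.iota A hy ρ hρ h0 s ∈ KYC A hy),
      ψ ⟨D.iota A hy ρ hρ h0 s, h⟩ = s := by
  letI := nC D.hv C
  haveI := ultra_nC D.hv C
  haveI := complete_nC D.hv C
  letI := A
  have hρE : algebraMap C E ρ ≠ 0 := (map_ne_zero _).2 h0
  exact exists_psi hy (D.iota A hy ρ hρ h0) D.SD.subtype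
    (fun a => ⟨⟨a, D.C_le_SD a⟩, D.iota_const A hy ρ hρ h0 a _⟩)
    ⟨⟨x, D.x_mem_SD⟩ / ⟨ρ, D.C_le_SD ρ⟩, by
      rw [map_div₀, D.iota_x, D.iota_const]
      exact mul_div_cancel_left₀ _ hρE⟩

/-- **`C(y) → Ω`, `y ↦ x / ρ`** -/
def psi (ρ : C) (hρ : v ρ < R) (h0 : ρ ≠ 0) : KYC A hy →+* Ω := (D.exists_psi' A hy ρ hρ h0).choose

theorem psi_iota (ρ : C) (hρ : v ρ < R) (h0 : ρ ≠ 0) (s : D.SD)
    (h : D.iota A hy ρ hρ h0 s ∈ KYC A hy) : D.psi A hy ρ hρ h0 ⟨D.iota A hy ρ hρ h0 s, h⟩ = s :=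
  (D.exists_psi' A hy ρ hρ h0).choose_spec s h

theorem const_mem (a : C) : A.algebraMap a ∈ KYC A hy := by
  letI := nC D.hv C
  letI := A
  exact const_mem_KY hy a

theorem y_mem : y ∈ KYC A hy := by
  letI := nC D.hv C
  letI := A
  exact y_mem_KY hy

theorem psi_const (ρ : C) (hρ : v ρ < R) (h0 : ρ ≠ 0) (a : C) :
    D.psi A hy ρ hρ h0 ⟨A.algebraMap a, D.const_mem A hy a⟩ = a := by
  have h1 := D.psi_iota A hy ρ hρ h0 ⟨a, D.C_le_SD a⟩ (by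
    rw [D.iota_const]; exact D.const_mem A hy a)
  rw [← h1]
  congr 1
  exact Subtype.ext (D.iota_const A hy ρ hρ h0 a _).symm

theorem psi_y (ρ : C) (hρ : v ρ < R) (h0 : ρ ≠ 0) :
    D.psi A hy ρ hρ h0 ⟨y, D.y_mem A hy⟩ = x / ρ := by
  letI := nC D.hv C
  letI := A
  have hρE : algebraMap C E ρ ≠ 0 := (map_ne_zero _).2 h0
  have e : D.iota A hy ρ hρ h0 (⟨x, D.x_mem_SD⟩ / ⟨ρ, D.C_le_SD ρ⟩) = y := by
    rw [map_div₀, D.iota_x, D.iota_const]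
    exact mul_div_cancel_left₀ _ hρE
  have h1 := D.psi_iota A hy ρ hρ h0 (⟨x, D.x_mem_SD⟩ / ⟨ρ, D.C_le_SD ρ⟩) (by
    rw [e]; exact D.y_mem A hy)
  have h2 : (⟨y, D.y_mem A hy⟩ : KYC A hy) =
      ⟨D.iota A hy ρ hρ h0 (⟨x, D.x_mem_SD⟩ / ⟨ρ, D.C_le_SD ρ⟩), by
        rw [e]; exact D.y_mem A hy⟩ := Subtype.ext e.symm
  rw [h2, h1]
  rfl

/-- `psi` has values in every subfield containing `C` and `x`. -/
theorem psi_mem (ρ : C) (hρ : v ρ < R) (h0 : ρ ≠ 0) (S : Subfield Ω) (hS : ∀ a : C, (a : Ω) ∈ S)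
    (hx : x ∈ S) (z : KYC A hy) : D.psi A hy ρ hρ h0 z ∈ S := by
  letI := nC D.hv C
  letI := A
  have hpoly : ∀ f : Polynomial C, D.psi A hy ρ hρ h0 ⟨Polynomial.aeval y f, aeval_mem_KY hy f⟩ ∈ S := by
    intro f
    have e : (⟨Polynomial.aeval y f, aeval_mem_KY hy f⟩ : KYC A hy) =
        ∑ i ∈ Finset.range (f.natDegree + 1), ⟨A.algebraMap (f.coeff i), D.const_mem A hy _⟩ *
          (⟨y, D.y_mem A hy⟩ : KYC A hy) ^ i := by
      apply Subtype.ext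
      rw [AddSubmonoidClass.coe_finsetSum]
      push_cast
      rw [Polynomial.aeval_eq_sum_range]
      exact Finset.sum_congr rfl fun i _ => Algebra.smul_def _ _
    rw [e, map_sum]
    refine sum_mem fun i _ => ?_
    rw [map_mul, map_pow, D.psi_const, D.psi_y]
    exact mul_mem (hS _) (pow_mem (div_mem hx (hS _)) _)
  obtain ⟨z, f, g, hg, rfl⟩ := z
  have e : (⟨Polynomial.aeval y f / Polynomial.aeval y g, ⟨f, g, hg, rfl⟩⟩ : KYC A hy) =
      ⟨Polynomial.aeval y f, aeval_mem_KY hy f⟩ / ⟨Polynomial.aeval y g, aeval_mem_KY hy g⟩ := rfl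
  rw [e, map_div₀]
  exact div_mem (hpoly f) (hpoly g)

theorem psi_mem_SD (ρ : C) (hρ : v ρ < R) (h0 : ρ ≠ 0) (z : KYC A hy) :
    D.psi A hy ρ hρ h0 z ∈ D.SD := D.psi_mem A hy ρ hρ h0 D.SD D.C_le_SD D.x_mem_SD z

/-- `iota ∘ psi` is the inclusion `C(y) ⊂ E`. -/
theorem iota_psi (ρ : C) (hρ : v ρ < R) (h0 : ρ ≠ 0) (z : KYC A hy) :
    D.iota A hy ρ hρ h0 ⟨D.psi A hy ρ hρ h0 z, D.psi_mem_SD A hy ρ hρ h0 z⟩ = z := by
  letI := nC D.hv C
  letI := A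
  have hρE : algebraMap C E ρ ≠ 0 := (map_ne_zero _).2 h0
  -- the two homomorphisms `C(y) → E` agree
  let f1 : KYC A hy →+* E := (D.iota A hy ρ hρ h0).comp
    ((D.psi A hy ρ hρ h0).codRestrict D.SD (D.psi_mem_SD A hy ρ hρ h0))
  have h1 : ∀ a : C, f1 ⟨A.algebraMap a, D.const_mem A hy a⟩ = A.algebraMap a := by
    intro a
    change D.iota A hy ρ hρ h0 ⟨D.psi A hy ρ hρ h0 _, _⟩ = _
    have e : (⟨D.psi A hy ρ hρ h0 ⟨A.algebraMap a, D.const_mem A hy a⟩,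
        D.psi_mem_SD A hy ρ hρ h0 _⟩ : D.SD) = ⟨a, D.C_le_SD a⟩ :=
      Subtype.ext (D.psi_const A hy ρ hρ h0 a)
    rw [e, D.iota_const]
  have h2 : f1 ⟨y, D.y_mem A hy⟩ = y := by
    change D.iota A hy ρ hρ h0 ⟨D.psi A hy ρ hρ h0 _, _⟩ = _
    have e : (⟨D.psi A hy ρ hρ h0 ⟨y, D.y_mem A hy⟩, D.psi_mem_SD A hy ρ hρ h0 _⟩ : D.SD) =
        ⟨x, D.x_mem_SD⟩ / ⟨ρ, D.C_le_SD ρ⟩ := Subtype.ext (D.psi_y A hy ρ hρ h0)
    rw [e, map_div₀, D.iota_x, D.iota_const]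
    exact mul_div_cancel_left₀ _ hρE
  have hpoly : ∀ f : Polynomial C, f1 ⟨Polynomial.aeval y f, aeval_mem_KY hy f⟩ =
      Polynomial.aeval y f := by
    intro f
    have e : (⟨Polynomial.aeval y f, aeval_mem_KY hy f⟩ : KYC A hy) =
        ∑ i ∈ Finset.range (f.natDegree + 1), ⟨A.algebraMap (f.coeff i), D.const_mem A hy _⟩ *
          (⟨y, D.y_mem A hy⟩ : KYC A hy) ^ i := by
      apply Subtype.ext
      rw [AddSubmonoidClass.coe_finsetSum]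
      push_cast
      rw [Polynomial.aeval_eq_sum_range]
      exact Finset.sum_congr rfl fun i _ => Algebra.smul_def _ _
    rw [e, map_sum, Polynomial.aeval_eq_sum_range]
    refine Finset.sum_congr rfl fun i _ => ?_
    rw [map_mul, map_pow, h1, h2]
    exact (Algebra.smul_def _ _).symm
  obtain ⟨z, f, g, hg, rfl⟩ := z
  have e : (⟨Polynomial.aeval y f / Polynomial.aeval y g, ⟨f, g, hg, rfl⟩⟩ : KYC A hy) =
      ⟨Polynomial.aeval y f, aeval_mem_KY hy f⟩ / ⟨Polynomial.aeval y g, aeval_mem_KY hy g⟩ := rfl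
  change f1 _ = _
  rw [e, map_div₀, hpoly, hpoly]
  rfl

end DiscData

end Crest.Agent.R013.Set_803
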