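import Crest.Agent.R013.Set11_803
import Crest.Agent.R013.Half3_930
import Crest.Agent.R013.Unr9_957

/-!
# Row 13, B-SET, part 12: the annulus field, restriction maps
-/

set_option autoImplicit false
set_option linter.unusedSectionVars false
set_option linter.style.haveILetI false

noncomputable section

namespace Crest.Agent.R013.Set_803

open scoped NNReal Topology
open Filter PowerSeries Crest.NumberTheoryR.Sect Crest.Agent.R013.A2a_275 Crest.Agent.R013.Gl946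
  Crest.Agent.R013.SE_669 Crest.Agent.R013.CGood_588 Crest.Agent.R013.Annu_930
  Crest.Agent.R013.Half_930

variable {k : Type*} [Field k] {Ω : Type*} [Field Ω] [Algebra k Ω]
variable {p : ℕ} [hp : Fact p.Prime] [Algebra ℚ_[p] k] {v P : Valuation Ω ℝ≥0}
  {C : IntermediateField k Ω}

namespace DiscData

variable {R : ℝ≥0} {x q c : Ω} (D : DiscData p v P C R x q c)
  [FiniteDimensional ℚ_[p] k] [FiniteDimensional k C]
  {E : Type*} [NormedField E] [IsUltrametricDist E] [CompleteSpace E]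
  (A : NAlg D.hv C E) {y : E} (hy : IsG D.hv C A y)

/-- the annulus field over `C` -/
abbrev MNC {hv : ExtendsPadicNorm k Ω p v} {C : IntermediateField k Ω} {E : Type*} [NormedField E]
    [IsUltrametricDist E] [CompleteSpace E] [FiniteDimensional k C]
    (A : NAlg hv C E) {y : E} (hy : IsG hv C A y) {s : ℝ≥0} (hs : 1 < s) : Subring E :=
  letI := nC hv C
  haveI := ultra_nC hv C
  haveI := complete_nC hv C
  letI := A
  (MN hy hs).toSubfield.toSubring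

theorem hasSum_evE (ρ : C) (hρ : v ρ < R) (F : BS v C R D.hR) :
    HasSum (fun n => A.algebraMap (coeff n F.1) * (A.algebraMap ρ * y) ^ n)
      (D.evE A hy ρ hρ F) := by
  letI := nC D.hv C
  haveI := ultra_nC D.hv C
  haveI := complete_nC D.hv C
  letI := A
  have h1 : Good3_940.pt (k := C) (0 : C) ρ y = algebraMap C E ρ * y := by
    rw [Good3_940.pt, map_zero, zero_add]
  have h2 := hasSum_ev (k := C) (E := E) (r1 := (R : ℝ)) (hr1 := by exact_mod_cast D.hR)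
    (x := Good3_940.pt (k := C) (0 : C) ρ y)
    (hx := Good3_940.norm_pt_lt hy (by rw [norm_zero]; exact_mod_cast D.hR)
      (by rw [norm_nC D.hv C]; exact_mod_cast hρ)) F
  have h3 : (fun n => algebraMap C E (coeff n F.1) * Good3_940.pt (k := C) (0 : C) ρ y ^ n) =
      fun n => algebraMap C E (coeff n F.1) * (algebraMap C E ρ * y) ^ n := by rw [h1]
  rw [h3] at h2
  exact h2

theorem evE_mem_AN' (ρ : C) (hρ : v ρ < R) (h0 : ρ ≠ 0) {s : ℝ≥0} (hs : 1 < s) (hsR : s * v ρ < R)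
    (F : BS v C R D.hR) :
    letI := nC D.hv C
    haveI := ultra_nC D.hv C
    haveI := complete_nC D.hv C
    letI := A
    D.evE A hy ρ hρ F ∈ AN hy hs := by
  letI := nC D.hv C
  haveI := ultra_nC D.hv C
  haveI := complete_nC D.hv C
  letI := A
  obtain ⟨B, hB⟩ := mem_BS.1 F.2
  have hρ0 : v (ρ : Ω) ≠ 0 := by
    rw [Valuation.ne_zero_iff]
    exact fun h => h0 (Subtype.ext h)
  have hnn : ∀ a : C, ‖a‖₊ = v (a : Ω) := fun a => NNReal.eq (norm_nC D.hv C a)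
  refine hasSum_mem_AN_of_bounded hy hs (fun n => coeff n F.1 * ρ ^ n) (R := R / v ρ) (C := B)
    ?_ (fun n => ?_) ?_
  · rwa [lt_div_iff₀ (zero_lt_iff.2 hρ0)]
  · rw [nnnorm_mul, nnnorm_pow, hnn, hnn, div_pow, mul_assoc, mul_div_cancel₀ _ (pow_ne_zero _ hρ0)]
    exact hB n
  · have h1 := D.hasSum_evE A hy ρ hρ F
    have h2 : (fun n => (coeff n F.1 * ρ ^ n) • y ^ n) =
        fun n => algebraMap C E (coeff n F.1) * (algebraMap C E ρ * y) ^ n := by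
      funext n
      rw [Algebra.smul_def, map_mul, map_pow]
      ring
    rw [h2]
    exact h1

/-- **`iota f` is in the annulus field** -/
theorem iota_mem_MNC (ρ : C) (hρ : v ρ < R) (h0 : ρ ≠ 0) {s : ℝ≥0} (hs : 1 < s) (hsR : s * v ρ < R)
    (f : D.SD) : D.iota A hy ρ hρ h0 f ∈ MNC A hy hs := by
  letI := nC D.hv C
  haveI := ultra_nC D.hv C
  haveI := complete_nC D.hv C
  letI := A
  obtain ⟨f, G, H, h⟩ := f
  rw [D.iota_rep A hy ρ hρ h0 h]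
  exact (MN hy hs).div_mem
    (AN_le_MN hy hs (D.evE_mem_AN' A hy ρ hρ h0 hs hsR ⟨G, mem_BS.2 h.bG⟩))
    (AN_le_MN hy hs (D.evE_mem_AN' A hy ρ hρ h0 hs hsR ⟨H, mem_BS.2 h.bH⟩))

theorem psi_yinv (ρ : C) (hρ : v ρ < R) (h0 : ρ ≠ 0) (hm : y⁻¹ ∈ KYC A hy) :
    D.psi A hy ρ hρ h0 ⟨y⁻¹, hm⟩ = ρ / x := by
  have e : (⟨y⁻¹, hm⟩ : KYC A hy) = (⟨y, D.y_mem A hy⟩ : KYC A hy)⁻¹ := rfl
  rw [e, map_inv₀, D.psi_y, inv_div]

/-- **the restriction map from the region `|x| ≥ |ρ₁|` to the circle `|x| = |ρ|`** -/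
theorem exists_res (ρ : C) (hρ : v ρ < R) (h0 : ρ ≠ 0) (ρ₁ : C) (hρ₁ : v ρ₁ < R) (h1 : ρ₁ ≠ 0)
    {s : ℝ≥0} (hs : 1 < s) (hle : v ρ₁ * s ≤ v ρ) :
    letI := nC D.hv C
    haveI := ultra_nC D.hv C
    haveI := complete_nC D.hv C
    letI := A
    ∃ res : RU C y →+* E, (∀ z : KYC A hy, res ⟨z, KY_le_RU hy z.2⟩ =
        D.iota A hy ρ hρ h0 ⟨D.psi A hy ρ₁ hρ₁ h1 z, D.psi_mem_SD A hy ρ₁ hρ₁ h1 z⟩) ∧
      ∀ r, res r ∈ MNC A hy hs := by
  letI := nC D.hv C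
  haveI := ultra_nC D.hv C
  haveI := complete_nC D.hv C
  letI := A
  have hnn : ∀ a : C, ‖a‖₊ = v (a : Ω) := fun a => NNReal.eq (norm_nC D.hv C a)
  have hv0 : v (ρ : Ω) ≠ 0 := by
    rw [Valuation.ne_zero_iff]
    exact fun h => h0 (Subtype.ext h)
  let ψ : KYC A hy →+* E := (D.iota A hy ρ hρ h0).comp
    ((D.psi A hy ρ₁ hρ₁ h1).codRestrict D.SD (D.psi_mem_SD A hy ρ₁ hρ₁ h1))
  have hρE : algebraMap C E ρ ≠ 0 := (map_ne_zero _).2 h0
  obtain ⟨Φ, h2, h3⟩ := exists_resU hy hy hs ψ (fun a => by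
    change D.iota A hy ρ hρ h0 ⟨D.psi A hy ρ₁ hρ₁ h1 _, _⟩ = _
    have e : (⟨D.psi A hy ρ₁ hρ₁ h1 ⟨algebraMap C E a, const_mem_KY hy a⟩,
        D.psi_mem_SD A hy ρ₁ hρ₁ h1 _⟩ : D.SD) = ⟨a, D.C_le_SD a⟩ :=
      Subtype.ext (D.psi_const A hy ρ₁ hρ₁ h1 a)
    rw [e, D.iota_const]) (ρ₁ / ρ) (by
      rw [nnnorm_div, hnn, hnn, div_mul_eq_mul_div, div_le_one₀ (zero_lt_iff.2 hv0)]
      exact hle) (by
    change D.iota A hy ρ hρ h0 ⟨D.psi A hy ρ₁ hρ₁ h1 _, _⟩ = _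
    have e : (⟨D.psi A hy ρ₁ hρ₁ h1 ⟨y⁻¹, yinv_mem_KY hy⟩, D.psi_mem_SD A hy ρ₁ hρ₁ h1 _⟩ :
        D.SD) = ⟨ρ₁, D.C_le_SD ρ₁⟩ / ⟨x, D.x_mem_SD⟩ :=
      Subtype.ext (D.psi_yinv A hy ρ₁ hρ₁ h1 _)
    rw [e, map_div₀, D.iota_const, D.iota_x, map_div₀]
    change algebraMap C E ρ₁ / (algebraMap C E ρ * y) = _
    rw [div_mul_eq_div_div, div_eq_mul_inv _ y])
  exact ⟨Φ, fun z => h2 z z.2, h3⟩

/-- the images of `psi` for two radii agree -/
theorem psi_psi (ρ : C) (hρ : v ρ < R) (h0 : ρ ≠ 0) (ρ₁ : C) (hρ₁ : v ρ₁ < R) (h1 : ρ₁ ≠ 0)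
    (z : KYC A hy) : ∃ z', D.psi A hy ρ hρ h0 z' = D.psi A hy ρ₁ hρ₁ h1 z := by
  refine D.psi_mem A hy ρ₁ hρ₁ h1 (D.psi A hy ρ hρ h0).fieldRange (fun a => ?_) ?_ z
  · exact ⟨_, D.psi_const A hy ρ hρ h0 a⟩
  · refine ⟨⟨A.algebraMap ρ, D.const_mem A hy ρ⟩ * ⟨y, D.y_mem A hy⟩, ?_⟩
    rw [map_mul, D.psi_const, D.psi_y, mul_div_cancel₀]
    exact fun h => h0 (Subtype.ext h)

include D in
/-- norms of `Ω` over the circle `|x| = |ρ₁|` outside the vertex -/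
theorem out_norm {w : Valuation Ω ℝ≥0} (hwC : ∀ a ∈ C, w a = v a) {r : ℝ≥0} (hwx : w x = r)
    (hq : v q < r) (hc : v c < r) : ExtendsPadicNorm k Ω p w ∧ 1 < w ((x - q) / c) := by
  refine ⟨fun a => ?_, ?_⟩
  · rw [hwC _ (C.algebraMap_mem _)]; exact D.hv a
  · have h1 : w (x - q) = r := by
      rw [Valuation.map_sub_eq_of_lt_left]
      · exact hwx
      · rw [hwx, hwC q D.qC]; exact hq
    rw [map_div₀, h1, hwC c D.cC, one_lt_div₀]
    · exact hc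
    · rw [zero_lt_iff, Valuation.ne_zero_iff]; exact D.c0

/-- **extension of a norm over the circle** `|x| = |ρ₁|`: `N` any subfield containing `C(x)`. -/
theorem exists_out_ext (ρ₁ : C) (hρ₁ : v ρ₁ < R) (h1 : ρ₁ ≠ 0) (hq : v q < v ρ₁) (hc : v c < v ρ₁)
    {N : Type*} [Field N] [Algebra N Ω] [Algebra.IsAlgebraic N Ω] (θ : KYC A hy →+* N)
    (hθ : ∀ z, algebraMap N Ω (θ z) = D.psi A hy ρ₁ hρ₁ h1 z)
    (w₁ : Valuation N ℝ≥0) (hw : ∀ z, w₁ (θ z) = ‖(z : E)‖₊) :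
    ∃ w : Valuation Ω ℝ≥0, w.comap (algebraMap N Ω) = w₁ ∧ ExtendsPadicNorm k Ω p w ∧
      1 < w ((x - q) / c) := by
  letI := nC D.hv C
  letI := A
  obtain ⟨w, hw'⟩ := Unr9_957.exists_extend_alg (E := Ω) w₁
  have h2 : ∀ z, w (D.psi A hy ρ₁ hρ₁ h1 z) = ‖(z : E)‖₊ := by
    intro z
    rw [← hθ, ← hw z, ← hw']; rfl
  have hwC : ∀ a ∈ C, w a = v a := by
    intro a ha
    have h3 := h2 ⟨A.algebraMap ⟨a, ha⟩, D.const_mem A hy ⟨a, ha⟩⟩
    rw [D.psi_const] at h3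
    rw [h3]
    apply NNReal.eq
    exact (norm_algebraMap' E (⟨a, ha⟩ : C)).trans (norm_nC D.hv C _)
  have hwx : w x = v ρ₁ := by
    have h3 := h2 ⟨y, D.y_mem A hy⟩
    rw [D.psi_y, map_div₀, hwC _ ρ₁.2] at h3
    have h4 : ‖y‖₊ = 1 := NNReal.eq (IsGauss.norm_eq hy)
    have h5 : v (ρ₁ : Ω) ≠ 0 := by
      rw [Valuation.ne_zero_iff]
      exact fun h => h1 (Subtype.ext h)
    change w x / v ρ₁ = ‖y‖₊ at h3
    rw [h4, div_eq_one_iff_eq h5] at h3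
    exact h3
  exact ⟨w, hw', D.out_norm hwC hwx hq hc⟩

end DiscData

end Crest.Agent.R013.Set_803
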