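import Crest.Agent.R013.A2a_275
import Crest.Agent.R013.Gl2_946
import Crest.Prelude.Def_SectConj

/-!
# Row 13, B-SET, part 1: the normed field of constants

`v : Valuation Ω ℝ≥0` extends the `p`-adic norm, `C` an intermediate field of `Ω / k`, finite over
`k` (finite over `ℚ_p`).  `nnfld v C h` is the normed field structure on `C` induced by `v`; it is
ultrametric, complete and discretely valued.
-/

set_option autoImplicit false
set_option linter.unusedSectionVars false
set_option linter.style.haveILetI false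

noncomputable section

namespace Crest.Agent.R013.Set_803

open scoped NNReal Topology
open Filter Crest.NumberTheoryR.Sect Crest.Agent.R013.A2a_275 Crest.Agent.R013.Gl946

variable {k : Type*} [Field k] {Ω : Type*} [Field Ω] [Algebra k Ω]

/-- the embedding of `C` in the completion of `Ω` -/
def cEmb (v : Valuation Ω ℝ≥0) (C : IntermediateField k Ω) : C →+* Cpl v :=
  (toCpl v).comp C.val.toRingHom

theorem cEmb_apply (v : Valuation Ω ℝ≥0) (C : IntermediateField k Ω) (c : C) :
    cEmb v C c = toCpl v (c : Ω) := rfl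

/-- The norm on `C` given by `v`. -/
@[reducible] def nfld (v : Valuation Ω ℝ≥0) (C : IntermediateField k Ω) : NormedField C :=
  NormedField.induced C (Cpl v) (cEmb v C) (cEmb v C).injective

theorem nfld_norm (v : Valuation Ω ℝ≥0) (C : IntermediateField k Ω) (c : C) :
    (nfld v C).norm c = v (c : Ω) := by
  change ‖cEmb v C c‖ = _
  rw [cEmb_apply, norm_toCpl]

/-- The norm on `C` given by `v`, nontrivial. -/
@[reducible] def nnfld (v : Valuation Ω ℝ≥0) (C : IntermediateField k Ω)
    (h : ∃ c ∈ C, 1 < v c) : NontriviallyNormedField C :=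
  { nfld v C with
    non_trivial := by
      obtain ⟨c, hc, h1⟩ := h
      refine ⟨⟨c, hc⟩, ?_⟩
      rw [nfld_norm]
      exact_mod_cast h1 }

theorem ultra_nfld (v : Valuation Ω ℝ≥0) (C : IntermediateField k Ω) :
    @IsUltrametricDist C (nfld v C).toPseudoMetricSpace.toDist := by
  letI := nfld v C
  refine IsUltrametricDist.isUltrametricDist_of_forall_norm_add_le_max_norm ?_
  intro x y
  rw [nfld_norm v C, nfld_norm v C, nfld_norm v C]
  have := v.map_add (x : Ω) (y : Ω)
  rw [← NNReal.coe_max]
  exact_mod_cast this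

/-- `Cpl v` as a normed algebra over `C`. -/
@[reducible] def nalg0 (v : Valuation Ω ℝ≥0) (C : IntermediateField k Ω) :
    letI := nfld v C; NormedAlgebra C (Cpl v) :=
  letI := nfld v C
  { (cEmb v C).toAlgebra with
    norm_smul_le := fun a x => by
      change ‖cEmb v C a * x‖ ≤ _
      rw [norm_mul, cEmb_apply, norm_toCpl, nfld_norm v C] }

section

variable (v : Valuation Ω ℝ≥0) (C : IntermediateField k Ω) (h : ∃ c ∈ C, 1 < v c)

theorem norm_eq (c : C) : (nnfld v C h).norm c = v (c : Ω) := nfld_norm v C c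

theorem ultra : @IsUltrametricDist C (nnfld v C h).toPseudoMetricSpace.toDist := ultra_nfld v C

end

section Padic

variable {p : ℕ} [hp : Fact p.Prime] [Algebra ℚ_[p] k] {v : Valuation Ω ℝ≥0}

theorem val_p (hv : ExtendsPadicNorm k Ω p v) : v (p : Ω) = (p : ℝ≥0)⁻¹ := by
  have h1 := hv (p : ℚ_[p])
  rw [map_natCast, map_natCast] at h1
  rw [h1]
  ext
  rw [coe_nnnorm, Padic.norm_p, NNReal.coe_inv, NNReal.coe_natCast]

theorem exists_gt (hv : ExtendsPadicNorm k Ω p v) (C : IntermediateField k Ω) :
    ∃ c ∈ C, 1 < v c := by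
  refine ⟨(p : Ω)⁻¹, C.inv_mem (natCast_mem C p), ?_⟩
  rw [map_inv₀, val_p hv, inv_inv]
  exact_mod_cast hp.out.one_lt

/-- The norm on `C`. -/
@[reducible] def nC (hv : ExtendsPadicNorm k Ω p v) (C : IntermediateField k Ω) :
    NontriviallyNormedField C := nnfld v C (exists_gt hv C)

theorem norm_nC (hv : ExtendsPadicNorm k Ω p v) (C : IntermediateField k Ω) (c : C) :
    (nC hv C).norm c = v (c : Ω) := norm_eq v C _ c

theorem ultra_nC (hv : ExtendsPadicNorm k Ω p v) (C : IntermediateField k Ω) :
    @IsUltrametricDist C (nC hv C).toPseudoMetricSpace.toDist := ultra v C _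

/-- `C` as a `ℚ_p`-algebra -/
@[reducible] def algQ (p : ℕ) [Fact p.Prime] [Algebra ℚ_[p] k] (C : IntermediateField k Ω) :
    Algebra ℚ_[p] C := ((algebraMap k C).comp (algebraMap ℚ_[p] k)).toAlgebra

theorem fd_algQ [FiniteDimensional ℚ_[p] k] (C : IntermediateField k Ω) [FiniteDimensional k C] :
    letI := algQ p C; FiniteDimensional ℚ_[p] C := by
  letI := algQ p C
  haveI : IsScalarTower ℚ_[p] k C := IsScalarTower.of_algebraMap_eq fun _ => rfl
  exact FiniteDimensional.trans ℚ_[p] k C

/-- `C` as a normed algebra over `ℚ_p` -/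
@[reducible] def nalgQ (hv : ExtendsPadicNorm k Ω p v) (C : IntermediateField k Ω) :
    letI := nC hv C; NormedAlgebra ℚ_[p] C :=
  letI := nC hv C
  { algQ p C with
    norm_smul_le := fun a x => by
      change ‖(algebraMap k C) (algebraMap ℚ_[p] k a) * x‖ ≤ _
      rw [norm_mul]
      refine le_of_eq ?_
      congr 1
      rw [norm_nC hv C]
      have h1 := hv a
      have h2 : (((algebraMap k C) (algebraMap ℚ_[p] k a) : C) : Ω) =
          algebraMap k Ω (algebraMap ℚ_[p] k a) := rfl
      rw [h2, h1]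
      rfl }

theorem proper_nC [FiniteDimensional ℚ_[p] k] (hv : ExtendsPadicNorm k Ω p v)
    (C : IntermediateField k Ω) [FiniteDimensional k C] :
    @ProperSpace C (nC hv C).toPseudoMetricSpace := by
  letI := nC hv C
  letI := nalgQ hv C
  haveI : FiniteDimensional ℚ_[p] C := fd_algQ C
  exact FiniteDimensional.proper ℚ_[p] C

theorem complete_nC [FiniteDimensional ℚ_[p] k] (hv : ExtendsPadicNorm k Ω p v)
    (C : IntermediateField k Ω) [FiniteDimensional k C] :
    @CompleteSpace C (nC hv C).toPseudoMetricSpace.toUniformSpace := by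
  letI := nC hv C
  haveI := proper_nC hv C
  infer_instance

theorem norm_p_lt (hv : ExtendsPadicNorm k Ω p v) (C : IntermediateField k Ω) :
    (nC hv C).norm (p : C) < 1 := by
  rw [norm_nC hv C]
  have h2 : ((p : C) : Ω) = (p : Ω) := by simp
  rw [h2, val_p hv, NNReal.coe_inv, NNReal.coe_natCast]
  exact inv_lt_one_of_one_lt₀ (by exact_mod_cast hp.out.one_lt)

/-- a uniformiser of `C` -/
theorem exists_unif [FiniteDimensional ℚ_[p] k] (hv : ExtendsPadicNorm k Ω p v)
    (C : IntermediateField k Ω) [FiniteDimensional k C] :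
    letI := nC hv C; ∃ π₀ : C, IsUnif π₀ := by
  letI := nC hv C
  haveI := ultra_nC hv C
  haveI := proper_nC hv C
  have hcl : IsClosed (Metric.ball (0 : C) 1) := IsUltrametricDist.isClosed_ball 0 1
  have hK : IsCompact (Metric.ball (0 : C) 1) :=
    Metric.isCompact_of_isClosed_isBounded hcl Metric.isBounded_ball
  have hp1 := norm_p_lt hv C
  obtain ⟨x, hx, hmax⟩ := hK.exists_isMaxOn ⟨(p : C), by simpa using hp1⟩
    (continuous_norm (E := C)).continuousOn
  have hx1 : ‖x‖ < 1 := by simpa using hx
  have hle : ∀ a : C, ‖a‖ < 1 → ‖a‖ ≤ ‖x‖ := fun a ha => hmax (by simpa using ha)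
  refine ⟨x, ?_, hx1, hle⟩
  have h1 := hle _ hp1
  have h2 : 0 < ‖(p : C)‖ := by
    rw [norm_nC hv C]
    have h2 : ((p : C) : Ω) = (p : Ω) := by simp
    rw [h2, val_p hv, NNReal.coe_inv, NNReal.coe_natCast]
    have := hp.out.pos
    positivity
  exact h2.trans_le h1

end Padic

end Crest.Agent.R013.Set_803
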