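import Crest.Agent.R013.Set1_803
import Crest.Agent.R013.Good3_940
import Crest.Agent.R013.CGood_588

/-!
# Row 13, B-SET, part 2: expansions on a disc

`w` a valuation of `Ω` (norm or place), `C` the constants, `x : Ω`, `w x < R`.
* `evW` : power series over `C` bounded at radius `R` (for `w`) → completion of `(Ω, w)`, `X ↦ x`.
* `tendsto_iff` : `w (f * psum H x n - psum G x n) → 0` iff `f * H(x) = G(x)` in the completion.
-/

set_option autoImplicit false
set_option linter.unusedSectionVars false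
set_option linter.style.haveILetI false

noncomputable section

namespace Crest.Agent.R013.Set_803

open scoped NNReal Topology
open Filter PowerSeries Crest.NumberTheoryR.Sect Crest.Agent.R013.A2a_275 Crest.Agent.R013.Gl946
  Crest.Agent.R013.SE_669 Crest.Agent.R013.KAS2_940 Crest.Agent.R013.KAS3_940
  Crest.Agent.R013.Good1_940 Crest.Agent.R013.Good3_940 Crest.Agent.R013.CGood_588

variable {k : Type*} [Field k] {Ω : Type*} [Field Ω] [Algebra k Ω]

/-- the coefficients of a power series over `C`, in `Ω` -/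
def cf {C : IntermediateField k Ω} (G : C⟦X⟧) (i : ℕ) : Ω := ((coeff i G : C) : Ω)

/-- Power series over `C` bounded at radius `R` for the valuation `w`. -/
def BS (w : Valuation Ω ℝ≥0) (C : IntermediateField k Ω) (R : ℝ≥0) (hR : 0 < R) :
    Subring C⟦X⟧ :=
  letI := nfld w C
  haveI := ultra_nfld w C
  bsub (K := C) (R : ℝ) (by exact_mod_cast hR)

theorem mem_BS {w : Valuation Ω ℝ≥0} {C : IntermediateField k Ω} {R : ℝ≥0} {hR : 0 < R}
    {G : C⟦X⟧} : G ∈ BS w C R hR ↔ ∃ B : ℝ≥0, ∀ i, w (coeff i G : C) * R ^ i ≤ B := by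
  letI := nfld w C
  haveI := ultra_nfld w C
  constructor
  · rintro ⟨B, hB⟩
    refine ⟨Real.toNNReal B, fun i => ?_⟩
    have h1 := hB i
    rw [← NNReal.coe_le_coe, Real.coe_toNNReal _ hB.nonneg]
    have h2 : ‖coeff i G‖ = w (coeff i G : C) := nfld_norm w C _
    rw [h2] at h1
    push_cast
    exact h1
  · rintro ⟨B, hB⟩
    refine ⟨(B : ℝ), fun i => ?_⟩
    have h2 : ‖coeff i G‖ = w (coeff i G : C) := nfld_norm w C _
    rw [h2]
    exact_mod_cast hB i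

/-- evaluation at `x` -/
def evW (w : Valuation Ω ℝ≥0) (C : IntermediateField k Ω) (R : ℝ≥0) (hR : 0 < R) (x : Ω)
    (hx : w x < R) : BS w C R hR →+* Cpl w :=
  letI := nfld w C
  haveI := ultra_nfld w C
  letI := nalg0 w C
  ev (k := C) (E := Cpl w) (r1 := (R : ℝ)) (by exact_mod_cast hR) (toCpl w x)
    (by rw [norm_toCpl]; exact_mod_cast hx)

section

variable {w : Valuation Ω ℝ≥0} {C : IntermediateField k Ω} {R : ℝ≥0} {hR : 0 < R} {x : Ω}
  {hx : w x < R}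

theorem evW_apply (G : BS w C R hR) :
    evW w C R hR x hx G = ∑' m, toCpl w (coeff m G.1 : C) * toCpl w x ^ m := rfl

theorem hasSum_evW (G : BS w C R hR) :
    HasSum (fun m => toCpl w (coeff m G.1 : C) * toCpl w x ^ m) (evW w C R hR x hx G) := by
  letI := nfld w C
  haveI := ultra_nfld w C
  letI := nalg0 w C
  have h := summable_norm (k := C) (E := Cpl w) (f := G.1) (x := toCpl w x) (r1 := (R : ℝ))
    G.2.choose_spec (by rw [norm_toCpl]; exact_mod_cast hx)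
  exact h.of_norm.hasSum

theorem toCpl_psum (G : ℕ → Ω) (n : ℕ) :
    toCpl w (psum G x n) = ∑ i ∈ Finset.range n, toCpl w (G i) * toCpl w x ^ i := by
  rw [psum, map_sum]
  exact Finset.sum_congr rfl fun i _ => by rw [map_mul, map_pow]

theorem tendsto_psum (G : BS w C R hR) :
    Tendsto (fun n => toCpl w (psum (cf G.1) x n)) atTop
      (𝓝 (evW w C R hR x hx G)) := by
  have h := (hasSum_evW (hx := hx) G).tendsto_sum_nat
  simpa only [toCpl_psum, cf] using h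

theorem tendsto_iff (f : Ω) (G H : BS w C R hR) :
    Tendsto (fun n => w (f * psum (cf H.1) x n -
      psum (cf G.1) x n)) atTop (𝓝 0) ↔
    toCpl w f * evW w C R hR x hx H = evW w C R hR x hx G := by
  have h1 := ((tendsto_psum (hx := hx) H).const_mul (toCpl w f)).sub (tendsto_psum (hx := hx) G)
  have h2 : (fun n => toCpl w f * toCpl w (psum (cf H.1) x n) -
      toCpl w (psum (cf G.1) x n)) = fun n =>
      toCpl w (f * psum (cf H.1) x n -
        psum (cf G.1) x n) := by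
    funext n; rw [map_sub, map_mul]
  rw [h2] at h1
  have h3 := h1.norm
  constructor
  · intro h
    have h4 : Tendsto (fun n => ‖toCpl w (f * psum (cf H.1) x n -
        psum (cf G.1) x n)‖) atTop (𝓝 0) := by
      simp only [norm_toCpl]
      have := NNReal.tendsto_coe.2 h
      rwa [NNReal.coe_zero] at this
    have h5 := tendsto_nhds_unique h3 h4
    exact sub_eq_zero.1 (norm_eq_zero.1 h5)
  · intro h
    rw [sub_eq_zero.2 h, norm_zero] at h3
    simp only [norm_toCpl] at h3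
    rw [← NNReal.tendsto_coe]
    simpa using h3

end

section SD

variable {w : Valuation Ω ℝ≥0} {C : IntermediateField k Ω} {R : ℝ≥0} {hR : 0 < R} {x : Ω}

theorem C_mem_BS (w : Valuation Ω ℝ≥0) (R : ℝ≥0) (hR : 0 < R) (c : C) :
    (PowerSeries.C c : C⟦X⟧) ∈ BS w C R hR :=
  letI := nfld w C
  haveI := ultra_nfld w C
  KAS3_940.C_mem c

theorem X_mem_BS (w : Valuation Ω ℝ≥0) (R : ℝ≥0) (hR : 0 < R) :
    (PowerSeries.X : C⟦X⟧) ∈ BS w C R hR :=
  letI := nfld w C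
  haveI := ultra_nfld w C
  KAS3_940.X_mem

theorem evW_C {hx : w x < R} (c : C) :
    evW w C R hR x hx ⟨PowerSeries.C c, C_mem_BS w R hR c⟩ = toCpl w c := by
  letI := nfld w C
  haveI := ultra_nfld w C
  letI := nalg0 w C
  exact ev_C (k := C) (E := Cpl w) c

theorem evW_X {hx : w x < R} :
    evW w C R hR x hx ⟨PowerSeries.X, X_mem_BS w R hR⟩ = toCpl w x := by
  letI := nfld w C
  haveI := ultra_nfld w C
  letI := nalg0 w C
  exact ev_X (k := C) (E := Cpl w)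

/-- a norm `v` and a place `P` (trivial on `C`); every power series is bounded for `P` -/
theorem mem_BS_place {P : Valuation Ω ℝ≥0} (hP : ∀ c : C, P (c : Ω) ≤ 1) (G : C⟦X⟧) :
    G ∈ BS P C 1 one_pos := mem_BS.2 ⟨1, fun i => by
      rw [one_pow, mul_one]; exact hP _⟩

/-- `f = G(x) / H(x)` for the norm `v` and for the place `P`. -/
structure IsRep (v P : Valuation Ω ℝ≥0) (C : IntermediateField k Ω) (R : ℝ≥0) (x f : Ω)
    (G H : C⟦X⟧) : Prop where
  ne : H ≠ 0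
  bG : ∃ B : ℝ≥0, ∀ i, v (cf G i) * R ^ i ≤ B
  bH : ∃ B : ℝ≥0, ∀ i, v (cf H i) * R ^ i ≤ B
  lv : Tendsto (fun n => v (f * psum (cf H) x n - psum (cf G) x n)) atTop (𝓝 0)
  lP : Tendsto (fun n => P (f * psum (cf H) x n - psum (cf G) x n)) atTop (𝓝 0)

variable {v P : Valuation Ω ℝ≥0}

theorem IsRep.v_eq {hx : v x < R} {f : Ω} {G H : C⟦X⟧} (h : IsRep v P C R x f G H) :
    toCpl v f * evW v C R hR x hx ⟨H, mem_BS.2 h.bH⟩ = evW v C R hR x hx ⟨G, mem_BS.2 h.bG⟩ :=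
  (tendsto_iff f ⟨G, mem_BS.2 h.bG⟩ ⟨H, mem_BS.2 h.bH⟩).1 h.lv

theorem IsRep.P_eq (hP : ∀ c : C, P (c : Ω) ≤ 1) {hx : P x < 1} {f : Ω} {G H : C⟦X⟧}
    (h : IsRep v P C R x f G H) :
    toCpl P f * evW P C 1 one_pos x hx ⟨H, mem_BS_place hP H⟩ =
      evW P C 1 one_pos x hx ⟨G, mem_BS_place hP G⟩ :=
  (tendsto_iff f ⟨G, mem_BS_place hP G⟩ ⟨H, mem_BS_place hP H⟩).1 h.lP

theorem isRep_of (hR : 0 < R) (hx : v x < R) (hP : ∀ c : C, P (c : Ω) ≤ 1) (hPx : P x < 1)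
    {f : Ω} {G H : C⟦X⟧}
    (hH : H ≠ 0) (bG : G ∈ BS v C R hR) (bH : H ∈ BS v C R hR)
    (ev : toCpl v f * evW v C R hR x hx ⟨H, bH⟩ = evW v C R hR x hx ⟨G, bG⟩)
    (eP : toCpl P f * evW P C 1 one_pos x hPx ⟨H, mem_BS_place hP H⟩ =
      evW P C 1 one_pos x hPx ⟨G, mem_BS_place hP G⟩) : IsRep v P C R x f G H where
  ne := hH
  bG := mem_BS.1 bG
  bH := mem_BS.1 bH
  lv := (tendsto_iff f ⟨G, bG⟩ ⟨H, bH⟩).2 ev
  lP := (tendsto_iff f ⟨G, mem_BS_place hP G⟩ ⟨H, mem_BS_place hP H⟩).2 eP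

theorem IsRep.const (hR : 0 < R) (hx : v x < R) (hP : ∀ c : C, P (c : Ω) ≤ 1) (hPx : P x < 1)
    (c : C) : IsRep v P C R x (c : Ω) (PowerSeries.C c) 1 := by
  refine isRep_of hR hx hP hPx one_ne_zero (C_mem_BS v R hR c) (one_mem _) ?_ ?_
  · rw [evW_C]
    have : (⟨1, one_mem _⟩ : BS v C R hR) = 1 := rfl
    rw [this, map_one, mul_one]
  · have h2 := evW_C (w := P) (R := 1) (hR := one_pos) (hx := hPx) c
    have : (⟨1, mem_BS_place hP 1⟩ : BS P C 1 one_pos) = 1 := rfl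
    rw [this, map_one, mul_one]
    exact h2.symm

theorem IsRep.X (hR : 0 < R) (hx : v x < R) (hP : ∀ c : C, P (c : Ω) ≤ 1) (hPx : P x < 1) :
    IsRep v P C R x x PowerSeries.X 1 := by
  refine isRep_of hR hx hP hPx one_ne_zero (X_mem_BS v R hR) (one_mem _) ?_ ?_
  · rw [evW_X]
    have : (⟨1, one_mem _⟩ : BS v C R hR) = 1 := rfl
    rw [this, map_one, mul_one]
  · have h2 := evW_X (w := P) (C := C) (R := 1) (hR := one_pos) (hx := hPx)
    have : (⟨1, mem_BS_place hP 1⟩ : BS P C 1 one_pos) = 1 := rfl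
    rw [this, map_one, mul_one]
    exact h2.symm

theorem IsRep.mul (hR : 0 < R) (hx : v x < R) (hP : ∀ c : C, P (c : Ω) ≤ 1) (hPx : P x < 1)
    {f f' : Ω} {G H G' H' : C⟦X⟧} (h : IsRep v P C R x f G H) (h' : IsRep v P C R x f' G' H') :
    IsRep v P C R x (f * f') (G * G') (H * H') := by
  refine isRep_of hR hx hP hPx (mul_ne_zero h.ne h'.ne) (mul_mem (mem_BS.2 h.bG) (mem_BS.2 h'.bG))
    (mul_mem (mem_BS.2 h.bH) (mem_BS.2 h'.bH)) ?_ ?_
  · have e1 := h.v_eq (hR := hR) (hx := hx)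
    have e2 := h'.v_eq (hR := hR) (hx := hx)
    have e3 : evW v C R hR x hx ⟨H * H', mul_mem (mem_BS.2 h.bH) (mem_BS.2 h'.bH)⟩ =
        evW v C R hR x hx ⟨H, mem_BS.2 h.bH⟩ * evW v C R hR x hx ⟨H', mem_BS.2 h'.bH⟩ := by
      rw [← map_mul]; rfl
    have e4 : evW v C R hR x hx ⟨G * G', mul_mem (mem_BS.2 h.bG) (mem_BS.2 h'.bG)⟩ =
        evW v C R hR x hx ⟨G, mem_BS.2 h.bG⟩ * evW v C R hR x hx ⟨G', mem_BS.2 h'.bG⟩ := by
      rw [← map_mul]; rfl
    rw [e3, e4, ← e1, ← e2, map_mul]; ring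
  · have e1 := h.P_eq hP (hx := hPx)
    have e2 := h'.P_eq hP (hx := hPx)
    have e3 : evW P C 1 one_pos x hPx ⟨H * H', mem_BS_place hP _⟩ =
        evW P C 1 one_pos x hPx ⟨H, mem_BS_place hP _⟩ *
        evW P C 1 one_pos x hPx ⟨H', mem_BS_place hP _⟩ := by rw [← map_mul]; rfl
    have e4 : evW P C 1 one_pos x hPx ⟨G * G', mem_BS_place hP _⟩ =
        evW P C 1 one_pos x hPx ⟨G, mem_BS_place hP _⟩ *
        evW P C 1 one_pos x hPx ⟨G', mem_BS_place hP _⟩ := by rw [← map_mul]; rfl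
    rw [e3, e4, ← e1, ← e2, map_mul]; ring

theorem IsRep.add (hR : 0 < R) (hx : v x < R) (hP : ∀ c : C, P (c : Ω) ≤ 1) (hPx : P x < 1)
    {f f' : Ω} {G H G' H' : C⟦X⟧} (h : IsRep v P C R x f G H) (h' : IsRep v P C R x f' G' H') :
    IsRep v P C R x (f + f') (G * H' + G' * H) (H * H') := by
  refine isRep_of hR hx hP hPx (mul_ne_zero h.ne h'.ne)
    (add_mem (mul_mem (mem_BS.2 h.bG) (mem_BS.2 h'.bH)) (mul_mem (mem_BS.2 h'.bG) (mem_BS.2 h.bH)))
    (mul_mem (mem_BS.2 h.bH) (mem_BS.2 h'.bH)) ?_ ?_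
  · have e1 := h.v_eq (hR := hR) (hx := hx)
    have e2 := h'.v_eq (hR := hR) (hx := hx)
    have e3 : evW v C R hR x hx ⟨H * H', mul_mem (mem_BS.2 h.bH) (mem_BS.2 h'.bH)⟩ =
        evW v C R hR x hx ⟨H, mem_BS.2 h.bH⟩ * evW v C R hR x hx ⟨H', mem_BS.2 h'.bH⟩ := by
      rw [← map_mul]; rfl
    have e4 : evW v C R hR x hx ⟨G * H' + G' * H, add_mem (mul_mem (mem_BS.2 h.bG)
        (mem_BS.2 h'.bH)) (mul_mem (mem_BS.2 h'.bG) (mem_BS.2 h.bH))⟩ =
        evW v C R hR x hx ⟨G, mem_BS.2 h.bG⟩ * evW v C R hR x hx ⟨H', mem_BS.2 h'.bH⟩ +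
        evW v C R hR x hx ⟨G', mem_BS.2 h'.bG⟩ * evW v C R hR x hx ⟨H, mem_BS.2 h.bH⟩ := by
      rw [← map_mul, ← map_mul, ← map_add]; rfl
    rw [e3, e4, ← e1, ← e2, map_add]; ring
  · have e1 := h.P_eq hP (hx := hPx)
    have e2 := h'.P_eq hP (hx := hPx)
    have e3 : evW P C 1 one_pos x hPx ⟨H * H', mem_BS_place hP _⟩ =
        evW P C 1 one_pos x hPx ⟨H, mem_BS_place hP _⟩ *
        evW P C 1 one_pos x hPx ⟨H', mem_BS_place hP _⟩ := by rw [← map_mul]; rfl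
    have e4 : evW P C 1 one_pos x hPx ⟨G * H' + G' * H, mem_BS_place hP _⟩ =
        evW P C 1 one_pos x hPx ⟨G, mem_BS_place hP _⟩ *
        evW P C 1 one_pos x hPx ⟨H', mem_BS_place hP _⟩ +
        evW P C 1 one_pos x hPx ⟨G', mem_BS_place hP _⟩ *
        evW P C 1 one_pos x hPx ⟨H, mem_BS_place hP _⟩ := by
      rw [← map_mul, ← map_mul, ← map_add]; rfl
    rw [e3, e4, ← e1, ← e2, map_add]; ring

end SD

end Crest.Agent.R013.Set_803
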