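import Crest.Agent.R013.Set3_803
import Crest.Agent.R013.Good2_940
import Crest.Agent.R013.Gl8_946

/-!
# Row 13, B-SET, part 4: circles `|x| = |ρ|` inside the disc

`E` a circle field over `C` (setting of 946, `C` with the norm `nC`), `ρ ∈ C`, `0 < |ρ| < R`:
`iota : SD →+* E`, `x ↦ ρ y`, the identity on `C`, with range in `FP`.
-/

set_option autoImplicit false
set_option linter.unusedSectionVars false
set_option linter.style.haveILetI false

noncomputable section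

namespace Crest.Agent.R013.Set_803

open scoped NNReal Topology
open Filter PowerSeries Crest.NumberTheoryR.Sect Crest.Agent.R013.A2a_275 Crest.Agent.R013.Gl946
  Crest.Agent.R013.SE_669 Crest.Agent.R013.KAS2_940 Crest.Agent.R013.KAS3_940
  Crest.Agent.R013.Good1_940 Crest.Agent.R013.Good3_940 Crest.Agent.R013.CGood_588

variable {k : Type*} [Field k] {Ω : Type*} [Field Ω] [Algebra k Ω]
variable {p : ℕ} [hp : Fact p.Prime] [Algebra ℚ_[p] k] {v P : Valuation Ω ℝ≥0}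
  {C : IntermediateField k Ω}

/-- normed algebras over `C` -/
abbrev NAlg (hv : ExtendsPadicNorm k Ω p v) (C : IntermediateField k Ω) (E : Type*)
    [NormedField E] := @NormedAlgebra C E (nC hv C).toNormedField _

/-- `IsGauss` over `C` -/
abbrev IsG (hv : ExtendsPadicNorm k Ω p v) (C : IntermediateField k Ω) {E : Type*}
    [NormedField E] (A : NAlg hv C E) (y : E) : Prop := @IsGauss C E (nC hv C).toNormedField _ A y

/-- `DenseRat` over `C` -/
abbrev DenseR (hv : ExtendsPadicNorm k Ω p v) (C : IntermediateField k Ω) {E : Type*}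
    [NormedField E] (A : NAlg hv C E) (y : E) : Prop :=
  @DenseRat C E (nC hv C).toNormedField _ A y

/-- existence of the circle field -/
theorem exists_circ {k : Type} [Field k] {Ω : Type} [Field Ω] [Algebra k Ω]
    {p : ℕ} [Fact p.Prime] [Algebra ℚ_[p] k] {v : Valuation Ω ℝ≥0}
    (hv : ExtendsPadicNorm k Ω p v) (C : IntermediateField k Ω) :
    ∃ (E : Type) (_ : NormedField E) (A : NAlg hv C E) (_ : IsUltrametricDist E)
      (_ : CompleteSpace E) (y : E), IsG hv C A y ∧ DenseR hv C A y := by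
  letI := nC hv C
  haveI := ultra_nC hv C
  exact Good2_940.exists_circle C

namespace DiscData

variable {R : ℝ≥0} {x q c : Ω} (D : DiscData p v P C R x q c)
  [FiniteDimensional ℚ_[p] k] [FiniteDimensional k C]
  {E : Type*} [NormedField E] [IsUltrametricDist E] [CompleteSpace E]
  (A : NAlg D.hv C E) {y : E} (hy : IsG D.hv C A y)

/-- evaluation of bounded series at `ρ y` -/
def evE (ρ : C) (hρ : v ρ < R) : BS v C R D.hR →+* E :=
  letI := nC D.hv C
  haveI := ultra_nC D.hv C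
  haveI := complete_nC D.hv C
  evq (k := C) (E := E) (r := (R : ℝ)) (by exact_mod_cast D.hR) (q := 0) (c := ρ) hy
    (by rw [norm_zero]; exact_mod_cast D.hR) (by rw [norm_nC D.hv C]; exact_mod_cast hρ)

theorem evE_apply (ρ : C) (hρ : v ρ < R) (F : BS v C R D.hR) :
    D.evE A hy ρ hρ F = ∑' m, A.algebraMap (coeff m F.1) * (A.algebraMap ρ * y) ^ m := by
  letI := nC D.hv C
  haveI := ultra_nC D.hv C
  haveI := complete_nC D.hv C
  have h1 : pt (k := C) (0 : C) ρ y = algebraMap C E ρ * y := by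
    rw [pt, map_zero, zero_add]
  change (∑' m, algebraMap C E (coeff m F.1) * (pt (0 : C) ρ y) ^ m) = _
  rw [h1]

theorem evE_injective (ρ : C) (hρ : v ρ < R) (h0 : ρ ≠ 0) :
    Function.Injective (D.evE A hy ρ hρ) := by
  letI := nC D.hv C
  haveI := ultra_nC D.hv C
  haveI := complete_nC D.hv C
  exact evq_injective (k := C) (E := E) (r := (R : ℝ)) h0

theorem evE_C (ρ : C) (hρ : v ρ < R) (a : C) :
    D.evE A hy ρ hρ ⟨PowerSeries.C a, C_mem_BS v R D.hR a⟩ = A.algebraMap a := by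
  letI := nC D.hv C
  haveI := ultra_nC D.hv C
  haveI := complete_nC D.hv C
  exact evq_C (k := C) (E := E) a

theorem evE_X (ρ : C) (hρ : v ρ < R) :
    D.evE A hy ρ hρ ⟨PowerSeries.X, X_mem_BS v R D.hR⟩ = A.algebraMap ρ * y := by
  letI := nC D.hv C
  haveI := ultra_nC D.hv C
  haveI := complete_nC D.hv C
  have h := evq_X (k := C) (E := E) (r := (R : ℝ)) (hr := by exact_mod_cast D.hR) (q := 0) (c := ρ)
    (hy := hy) (hq := by rw [norm_zero]; exact_mod_cast D.hR)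
    (hc := by rw [norm_nC D.hv C]; exact_mod_cast hρ)
  rw [pt, map_zero, zero_add] at h
  exact h

/-- the disc field in the circle field -/
def frE (ρ : C) (hρ : v ρ < R) (h0 : ρ ≠ 0) : D.FD →+* E :=
  IsFractionRing.lift (D.evE_injective A hy ρ hρ h0)

theorem frE_algebraMap (ρ : C) (hρ : v ρ < R) (h0 : ρ ≠ 0) (F : BS v C R D.hR) :
    D.frE A hy ρ hρ h0 (algebraMap (BS v C R D.hR) D.FD F) = D.evE A hy ρ hρ F :=
  IsFractionRing.lift_algebraMap _ F

/-- **the circle `|x| = |ρ|` in `SD`** -/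
def iota (ρ : C) (hρ : v ρ < R) (h0 : ρ ≠ 0) : D.SD →+* E := (D.frE A hy ρ hρ h0).comp D.kap

theorem iota_const (ρ : C) (hρ : v ρ < R) (h0 : ρ ≠ 0) (a : C) (ha : (a : Ω) ∈ D.SD) :
    D.iota A hy ρ hρ h0 ⟨a, ha⟩ = A.algebraMap a := by
  rw [iota, RingHom.comp_apply, D.kap_const, D.frE_algebraMap, D.evE_C]

theorem iota_x (ρ : C) (hρ : v ρ < R) (h0 : ρ ≠ 0) (hx : x ∈ D.SD) :
    D.iota A hy ρ hρ h0 ⟨x, hx⟩ = A.algebraMap ρ * y := by
  rw [iota, RingHom.comp_apply, D.kap_x, D.frE_algebraMap, D.evE_X]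

theorem iota_rep (ρ : C) (hρ : v ρ < R) (h0 : ρ ≠ 0) {f : Ω} {G H : C⟦X⟧}
    (h : IsRep v P C R x f G H) (hf : f ∈ D.SD) :
    D.iota A hy ρ hρ h0 ⟨f, hf⟩ =
      D.evE A hy ρ hρ ⟨G, mem_BS.2 h.bG⟩ / D.evE A hy ρ hρ ⟨H, mem_BS.2 h.bH⟩ := by
  rw [iota, RingHom.comp_apply, D.kap_rep h hf, map_div₀, D.frE_algebraMap, D.frE_algebraMap]

theorem evE_ne_zero (ρ : C) (hρ : v ρ < R) (h0 : ρ ≠ 0) {H : C⟦X⟧} (hH : H ≠ 0)
    (bH : H ∈ BS v C R D.hR) : D.evE A hy ρ hρ ⟨H, bH⟩ ≠ 0 := by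
  intro h1
  have h2 := D.evE_injective A hy ρ hρ h0 (h1.trans (map_zero _).symm)
  exact hH (congrArg Subtype.val h2)

theorem iota_mul_rep (ρ : C) (hρ : v ρ < R) (h0 : ρ ≠ 0) {f : Ω} {G H : C⟦X⟧}
    (h : IsRep v P C R x f G H) (hf : f ∈ D.SD) :
    D.iota A hy ρ hρ h0 ⟨f, hf⟩ * D.evE A hy ρ hρ ⟨H, mem_BS.2 h.bH⟩ =
      D.evE A hy ρ hρ ⟨G, mem_BS.2 h.bG⟩ := by
  rw [D.iota_rep A hy ρ hρ h0 h hf, div_mul_cancel₀]
  exact D.evE_ne_zero A hy ρ hρ h0 h.ne _

end DiscData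

end Crest.Agent.R013.Set_803
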