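import Crest.Agent.R013.Set6_803

/-!
# Row 13, B-SET, part 7: extension of the constants
-/

set_option autoImplicit false
set_option linter.unusedSectionVars false
set_option linter.style.haveILetI false

noncomputable section

namespace Crest.Agent.R013.Set_803

open scoped NNReal Topology
open Filter PowerSeries Crest.NumberTheoryR.Sect Crest.Agent.R013.A2a_275 Crest.Agent.R013.Gl946
  Crest.Agent.R013.SE_669 Crest.Agent.R013.KAS2_940 Crest.Agent.R013.KAS3_940
  Crest.Agent.R013.Good1_940 Crest.Agent.R013.Good3_940 Crest.Agent.R013.CGood_588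

section Gauss

variable {k : Type*} [Field k] {Ω : Type*} [Field Ω] [Algebra k Ω]
variable {v : Valuation Ω ℝ≥0} {C C' : IntermediateField k Ω}

/-- the residue field of `C`, inside the residue field of `v` -/
def resC (v : Valuation Ω ℝ≥0) (C : IntermediateField k Ω) :
    Subfield (IsLocalRing.ResidueField v.valuationSubring) where
  carrier := {r | ∃ a : v.valuationSubring, (a : Ω) ∈ C ∧ IsLocalRing.residue _ a = r}
  mul_mem' := by
    rintro _ _ ⟨a, ha, rfl⟩ ⟨b, hb, rfl⟩
    exact ⟨a * b, mul_mem ha hb, map_mul _ _ _⟩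
  one_mem' := ⟨1, one_mem C, map_one _⟩
  add_mem' := by
    rintro _ _ ⟨a, ha, rfl⟩ ⟨b, hb, rfl⟩
    exact ⟨a + b, add_mem ha hb, map_add _ _ _⟩
  zero_mem' := ⟨0, zero_mem C, map_zero _⟩
  neg_mem' := by
    rintro _ ⟨a, ha, rfl⟩
    exact ⟨-a, neg_mem ha, map_neg _ _⟩
  inv_mem' := by
    rintro _ ⟨a, ha, rfl⟩
    by_cases h0 : IsLocalRing.residue v.valuationSubring a = 0
    · rw [h0, inv_zero]; exact ⟨0, zero_mem C, map_zero _⟩
    · have hu : IsUnit a := by
        by_contra hu
        exact h0 ((IsLocalRing.residue_eq_zero_iff _).2 hu)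
      obtain ⟨u, rfl⟩ := hu
      refine ⟨(u⁻¹ : v.valuationSubringˣ), ?_, ?_⟩
      · have e : (((u⁻¹ : v.valuationSubringˣ) : v.valuationSubring) : Ω) =
            ((u : v.valuationSubring) : Ω)⁻¹ := by
          apply eq_inv_of_mul_eq_one_left
          have := u.inv_mul
          exact congrArg Subtype.val this
        rw [e]; exact inv_mem ha
      · apply eq_inv_of_mul_eq_one_left
        rw [← map_mul, Units.inv_mul, map_one]

theorem residue_ne_zero_iff (a : v.valuationSubring) :
    IsLocalRing.residue v.valuationSubring a ≠ 0 ↔ v (a : Ω) = 1 := by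
  have h1 : IsLocalRing.residue v.valuationSubring a = 0 ↔ v (a : Ω) < 1 := by
    rw [IsLocalRing.residue_eq_zero_iff, ValuationSubring.valuation_lt_one_iff]
    exact (Valuation.isEquiv_valuation_valuationSubring v).symm.lt_one_iff_lt_one
  have h2 := (Valuation.mem_valuationSubring_iff v (a : Ω)).1 a.2
  rw [Ne, h1, not_lt]
  exact ⟨fun h => le_antisymm h2 h, fun h => h.ge⟩

theorem residue_psum (a : ℕ → v.valuationSubring) (t : v.valuationSubring) (n : ℕ)
    (h : psum (fun i => (a i : Ω)) t n ∈ v.valuationSubring) :
    IsLocalRing.residue v.valuationSubring ⟨_, h⟩ =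
      ∑ i ∈ Finset.range n, IsLocalRing.residue _ (a i) * IsLocalRing.residue _ t ^ i := by
  have e : (⟨_, h⟩ : v.valuationSubring) = ∑ i ∈ Finset.range n, a i * t ^ i := by
    apply Subtype.ext
    change psum _ _ _ = ((∑ i ∈ Finset.range n, a i * t ^ i : v.valuationSubring) : Ω)
    rw [psum]
    push_cast
    rfl
  rw [e, map_sum]
  exact Finset.sum_congr rfl fun i _ => by rw [map_mul, map_pow]

theorem psum_mem (a : ℕ → v.valuationSubring) (t : v.valuationSubring) (n : ℕ) :
    psum (fun i => (a i : Ω)) t n ∈ v.valuationSubring :=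
  sum_mem fun i _ => mul_mem (a i).2 (pow_mem t.2 _)

theorem transcendental_residue {t : v.valuationSubring} (hG : GaussAt C (t : Ω) v) :
    Transcendental (resC v C) (IsLocalRing.residue v.valuationSubring t) := by
  rintro ⟨g, hg0, hg⟩
  have hlift : ∀ r : resC v C, ∃ a : v.valuationSubring, (a : Ω) ∈ C ∧
      IsLocalRing.residue _ a = r := fun r => r.2
  choose σ hσC hσ using hlift
  let a : ℕ → v.valuationSubring := fun i => σ (g.coeff i)
  have h1 := residue_psum a t (g.natDegree + 1) (psum_mem a t _)
  have h2 : ∑ i ∈ Finset.range (g.natDegree + 1), IsLocalRing.residue _ (a i) *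
      IsLocalRing.residue _ t ^ i = Polynomial.aeval (IsLocalRing.residue v.valuationSubring t) g := by
    rw [Polynomial.aeval_eq_sum_range]
    exact Finset.sum_congr rfl fun i _ => by rw [hσ, Algebra.smul_def]; rfl
  rw [h2, hg] at h1
  have h3 : v (psum (fun i => (a i : Ω)) t (g.natDegree + 1)) < 1 := by
    by_contra hcon
    push Not at hcon
    refine (residue_ne_zero_iff ⟨_, psum_mem a t (g.natDegree + 1)⟩).2 ?_ h1
    exact le_antisymm ((Valuation.mem_valuationSubring_iff v _).1 (psum_mem a t _)) hcon
  rw [hG _ _ fun i => hσC _] at h3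
  have h4 : v (a g.natDegree : Ω) = 1 := by
    rw [← residue_ne_zero_iff, hσ]
    intro h0
    apply hg0
    rw [← Polynomial.leadingCoeff_eq_zero]
    exact Subtype.ext h0
  have h5 := Finset.le_sup (f := fun i => v (a i : Ω)) (s := Finset.range (g.natDegree + 1))
    (b := g.natDegree) (by simp)
  rw [h4] at h5
  exact absurd h3 (not_lt.2 h5)

theorem isAlgebraic_residue (a : v.valuationSubring) (ha : IsAlgebraic k (a : Ω)) :
    IsAlgebraic (resC v C) (IsLocalRing.residue v.valuationSubring a) := by
  obtain ⟨f, hf0, hf⟩ := ha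
  obtain ⟨j, hj, hmax⟩ := Finset.exists_max_image (Finset.range (f.natDegree + 1))
    (fun i => v (algebraMap k Ω (f.coeff i))) ⟨0, by simp⟩
  have hpos : 0 < v (algebraMap k Ω (f.coeff j)) := by
    refine lt_of_lt_of_le ?_ (hmax f.natDegree (by simp))
    rw [zero_lt_iff, Valuation.ne_zero_iff]
    exact (map_ne_zero _).2 (Polynomial.leadingCoeff_ne_zero.2 hf0)
  have hmax' : ∀ i, v (algebraMap k Ω (f.coeff i)) ≤ v (algebraMap k Ω (f.coeff j)) := by
    intro i
    by_cases hi : i ∈ Finset.range (f.natDegree + 1)
    · exact hmax i hi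
    · rw [Finset.mem_range, not_lt] at hi
      rw [Polynomial.coeff_eq_zero_of_natDegree_lt (by omega), map_zero, map_zero]
      exact zero_le
  let b : ℕ → v.valuationSubring := fun i => ⟨algebraMap k Ω (f.coeff i / f.coeff j), by
    rw [Valuation.mem_valuationSubring_iff, map_div₀, map_div₀]
    exact div_le_one_of_le₀ (hmax' i) zero_le⟩
  have hbC : ∀ i, (b i : Ω) ∈ C := fun i => C.algebraMap_mem _
  let g : Polynomial (resC v C) := ∑ i ∈ Finset.range (f.natDegree + 1),
    Polynomial.monomial i ⟨IsLocalRing.residue _ (b i), b i, hbC i, rfl⟩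
  refine ⟨g, ?_, ?_⟩
  · intro h0
    have h1 : g.coeff j = 1 := by
      simp only [g]
      rw [Polynomial.finsetSum_coeff, Finset.sum_eq_single j]
      · rw [Polynomial.coeff_monomial, if_pos rfl]
        apply Subtype.ext
        change IsLocalRing.residue _ (b j) = 1
        have : b j = 1 := by
          apply Subtype.ext
          change algebraMap k Ω (f.coeff j / f.coeff j) = 1
          rw [div_self, map_one]
          intro h
          rw [h, map_zero, map_zero] at hpos
          exact lt_irrefl _ hpos
        rw [this, map_one]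
      · intro i _ hi
        rw [Polynomial.coeff_monomial, if_neg hi]
      · intro h; exact absurd hj h
    rw [h0, Polynomial.coeff_zero] at h1
    exact zero_ne_one h1
  · have h1 := residue_psum b a (f.natDegree + 1) (psum_mem b a _)
    have h2 : Polynomial.aeval (IsLocalRing.residue v.valuationSubring a) g =
        ∑ i ∈ Finset.range (f.natDegree + 1), IsLocalRing.residue _ (b i) *
          IsLocalRing.residue _ a ^ i := by
      simp only [g]
      rw [map_sum]
      exact Finset.sum_congr rfl fun i _ => by rw [Polynomial.aeval_monomial]; rfl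
    rw [h2, ← h1, IsLocalRing.residue_eq_zero_iff]
    have h3 : psum (fun i => (b i : Ω)) a (f.natDegree + 1) = 0 := by
      have h4 : psum (fun i => (b i : Ω)) a (f.natDegree + 1) =
          (algebraMap k Ω (f.coeff j))⁻¹ * Polynomial.aeval (a : Ω) f := by
        rw [Polynomial.aeval_eq_sum_range, Finset.mul_sum, psum]
        refine Finset.sum_congr rfl fun i _ => ?_
        change algebraMap k Ω (f.coeff i / f.coeff j) * _ = _
        rw [map_div₀, Algebra.smul_def]; ring
      rw [h4, hf, mul_zero]
    have h5 : (⟨psum (fun i => (b i : Ω)) a (f.natDegree + 1), psum_mem b a _⟩ :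
        v.valuationSubring) = 0 := Subtype.ext h3
    rw [h5]
    exact zero_mem _

/-- **The Gauss norm after an algebraic extension of the constants.** -/
theorem GaussAt.mono {t : Ω} (hG : GaussAt C t v) (hC' : ∀ a ∈ C', IsAlgebraic k a) :
    GaussAt C' t v := by
  have ht1 := gaussAt_norm hG
  intro n c hc
  have hle : v (psum c t n) ≤ (Finset.range n).sup fun i => v (c i) := by
    refine v.map_sum_le fun i hi => ?_
    rw [map_mul, map_pow, ht1, one_pow, mul_one]
    exact Finset.le_sup (f := fun i => v (c i)) hi
  refine le_antisymm hle ?_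
  rcases Nat.eq_zero_or_pos n with rfl | hn
  · simp
  obtain ⟨j, hj, hmax⟩ := Finset.exists_max_image (Finset.range n) (fun i => v (c i))
    ⟨0, by simpa using hn⟩
  refine (Finset.sup_le hmax).trans ?_
  by_cases hj0 : v (c j) = 0
  · rw [hj0]; exact zero_le
  have hcj : c j ≠ 0 := by
    intro h; rw [h, map_zero] at hj0; exact hj0 rfl
  by_contra hcon
  push Not at hcon
  let tt : v.valuationSubring := ⟨t, ht1.le⟩
  let b : ℕ → v.valuationSubring := fun i => if h : i ∈ Finset.range n then ⟨c i / c j, by
    rw [Valuation.mem_valuationSubring_iff, map_div₀]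
    exact div_le_one_of_le₀ (hmax i h) zero_le⟩ else 0
  have hb : ∀ i ∈ Finset.range n, (b i : Ω) = c i / c j := fun i hi => by
    simp only [b, dif_pos hi]
  have hbalg : ∀ i, IsAlgebraic k (b i : Ω) := by
    intro i
    by_cases hi : i ∈ Finset.range n
    · rw [hb i hi]; exact hC' _ (div_mem (hc i) (hc j))
    · simp only [b, dif_neg hi]; exact isAlgebraic_zero
  have h1 := residue_psum b tt n (psum_mem b tt _)
  have h2 : psum (fun i => (b i : Ω)) t n = psum c t n / c j := by
    rw [psum, psum, Finset.sum_div]
    refine Finset.sum_congr rfl fun i hi => ?_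
    rw [hb i hi]; ring
  have h3 : v (psum (fun i => (b i : Ω)) t n) < 1 := by
    rw [h2, map_div₀, div_lt_one (zero_lt_iff.2 hj0)]; exact hcon
  have h4 : IsLocalRing.residue v.valuationSubring ⟨_, psum_mem b tt n⟩ = 0 := by
    by_contra h0
    exact absurd ((residue_ne_zero_iff _).1 h0) h3.ne
  rw [h4] at h1
  set κ := IsLocalRing.ResidueField v.valuationSubring
  let A := algebraicClosure (resC v C) κ
  have hA : ∀ i, IsLocalRing.residue v.valuationSubring (b i) ∈ A := fun i =>
    (isAlgebraic_residue (C := C) (b i) (hbalg i)).isIntegral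
  let g : Polynomial A := ∑ i ∈ Finset.range n, Polynomial.monomial i ⟨_, hA i⟩
  have hgj : g.coeff j = 1 := by
    simp only [g]
    rw [Polynomial.finsetSum_coeff, Finset.sum_eq_single j]
    · rw [Polynomial.coeff_monomial, if_pos rfl]
      apply Subtype.ext
      change IsLocalRing.residue _ (b j) = 1
      have : b j = 1 := by
        apply Subtype.ext
        rw [hb j hj, div_self hcj]; rfl
      rw [this, map_one]
    · intro i _ hi
      rw [Polynomial.coeff_monomial, if_neg hi]
    · intro h; exact absurd hj h
  have h5 : IsAlgebraic A (IsLocalRing.residue v.valuationSubring tt) := by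
    refine ⟨g, fun h0 => ?_, ?_⟩
    · rw [h0, Polynomial.coeff_zero] at hgj
      exact zero_ne_one hgj
    · rw [h1]
      simp only [g]
      rw [map_sum]
      exact Finset.sum_congr rfl fun i _ => by rw [Polynomial.aeval_monomial]; rfl
  have h6 : IsAlgebraic (resC v C) (IsLocalRing.residue v.valuationSubring tt) :=
    h5.restrictScalars (resC v C)
  exact transcendental_residue (C := C) (t := tt) hG h6

end Gauss

end Crest.Agent.R013.Set_803
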