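import Crest.Agent.R013.Set8_803

/-!
# Row 13, B-SET, part 9: the circle norm
-/

set_option autoImplicit false
set_option linter.unusedSectionVars false
set_option linter.style.haveILetI false

noncomputable section

namespace Crest.Agent.R013.Set_803

open scoped NNReal Topology
open Filter PowerSeries Crest.NumberTheoryR.Sect Crest.Agent.R013.A2a_275 Crest.Agent.R013.Gl946
  Crest.Agent.R013.SE_669 Crest.Agent.R013.KAS2_940 Crest.Agent.R013.KAS3_940
  Crest.Agent.R013.Good1_940 Crest.Agent.R013.Good3_940 Crest.Agent.R013.CGood_588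

variable {k : Type*} [Field k] {Ω : Type*} [Field Ω] [Algebra k Ω]
variable {p : ℕ} [hp : Fact p.Prime] [Algebra ℚ_[p] k] {v P : Valuation Ω ℝ≥0}
  {C : IntermediateField k Ω}

namespace DiscData

variable {R : ℝ≥0} {x q c : Ω} (D : DiscData p v P C R x q c)
  [FiniteDimensional ℚ_[p] k] [FiniteDimensional k C]
  {E : Type*} [NormedField E] [IsUltrametricDist E] [CompleteSpace E]
  (A : NAlg D.hv C E) {y : E} (hy : IsG D.hv C A y)

theorem norm_iota_const (ρ : C) (hρ : v ρ < R) (h0 : ρ ≠ 0) {a : Ω} (ha : a ∈ C) (ha' : a ∈ D.SD) :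
    ‖D.iota A hy ρ hρ h0 ⟨a, ha'⟩‖ = v a := by
  letI := nC D.hv C
  letI := A
  rw [D.iota_const A hy ρ hρ h0 ⟨a, ha⟩ ha']
  exact (norm_algebraMap' E (⟨a, ha⟩ : C)).trans (norm_nC D.hv C _)

theorem norm_iota_x (ρ : C) (hρ : v ρ < R) (h0 : ρ ≠ 0) (hx : x ∈ D.SD) :
    ‖D.iota A hy ρ hρ h0 ⟨x, hx⟩‖ = v ρ := by
  letI := nC D.hv C
  letI := A
  rw [D.iota_x A hy ρ hρ h0 hx, norm_mul]
  have h1 : ‖y‖ = 1 := IsGauss.norm_eq hy
  have h2 : ‖algebraMap C E ρ‖ = v ρ := (norm_algebraMap' E ρ).trans (norm_nC D.hv C _)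
  rw [h1, mul_one]
  exact h2

/-- a coefficient bound on the circle -/
theorem coeff_le_iota (ρ : C) (hρ : v ρ < R) (h0 : ρ ≠ 0) (a : ℕ → Ω) (ha : ∀ i, a i ∈ C) (n : ℕ)
    (h : psum a x n ∈ D.SD) (i : ℕ) (hi : i < n) :
    v (a i) * (v ρ : ℝ) ^ i ≤ ‖D.iota A hy ρ hρ h0 ⟨psum a x n, h⟩‖ := by
  letI := nC D.hv C
  letI := A
  let f : Polynomial C := ∑ j ∈ Finset.range n, Polynomial.monomial j (⟨a j, ha j⟩ * ρ ^ j)
  have h1 : D.iota A hy ρ hρ h0 ⟨psum a x n, h⟩ = Polynomial.aeval y f := by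
    have e : (⟨psum a x n, h⟩ : D.SD) = ∑ j ∈ Finset.range n,
        (⟨a j, D.C_le_SD ⟨a j, ha j⟩⟩ : D.SD) * (⟨x, D.x_mem_SD⟩ : D.SD) ^ j := by
      apply Subtype.ext
      rw [AddSubmonoidClass.coe_finsetSum]
      rfl
    rw [e, map_sum]
    simp only [f]
    rw [map_sum]
    refine Finset.sum_congr rfl fun j _ => ?_
    rw [map_mul, map_pow, Polynomial.aeval_monomial, D.iota_x A hy ρ hρ h0,
      D.iota_const A hy ρ hρ h0 ⟨a j, ha j⟩, map_mul, map_pow]
    change algebraMap C E _ * (algebraMap C E ρ * y) ^ j = _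
    ring
  have h2 : f.coeff i = ⟨a i, ha i⟩ * ρ ^ i := by
    simp only [f]
    rw [Polynomial.finsetSum_coeff, Finset.sum_eq_single i]
    · rw [Polynomial.coeff_monomial, if_pos rfl]
    · intro j _ hj
      rw [Polynomial.coeff_monomial, if_neg hj]
    · intro h; exact absurd (Finset.mem_range.2 hi) h
  have h3 := IsGauss.coeff_le hy f i
  rw [h1]
  rw [h2] at h3
  refine le_trans (le_of_eq ?_) h3
  have h4 : ‖(⟨a i, ha i⟩ : C) * ρ ^ i‖ = ‖(⟨a i, ha i⟩ : C)‖ * ‖ρ‖ ^ i := by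
    rw [norm_mul, norm_pow]
  rw [h4, norm_nC D.hv C, norm_nC D.hv C]

/-- **The circle norm**: a norm `w` of `Ω` which is `‖iota ·‖` on a field `S` containing `K`, `C`, `x`
is a circle in the sense of `SE_669`. -/
theorem isCircle {K : Type*} [Field K] [Algebra K Ω] (ρ : C) (hρ : v ρ < R) (h0 : ρ ≠ 0)
    (S : Subfield Ω) (hS : S ≤ D.SD) (hKS : ∀ f : K, algebraMap K Ω f ∈ S)
    (hCS : ∀ a ∈ C, a ∈ S) (hxS : x ∈ S) (w : Valuation Ω ℝ≥0)
    (hw : ∀ f (hf : f ∈ S), (w f : ℝ) = ‖D.iota A hy ρ hρ h0 ⟨f, hS hf⟩‖) :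
    IsCircle K C P x (v ρ) w := by
  have hwC : ∀ a ∈ C, w a = v a := by
    intro a ha
    have := hw a (hCS a ha)
    rw [D.norm_iota_const A hy ρ hρ h0 ha] at this
    exact_mod_cast this
  have hwx : w x = v ρ := by
    have := hw x hxS
    rw [D.norm_iota_x A hy ρ hρ h0] at this
    exact_mod_cast this
  have hpS : ∀ (a : ℕ → Ω) (n : ℕ), (∀ i, a i ∈ C) → psum a x n ∈ S := fun a n ha =>
    sum_mem fun i _ => mul_mem (hCS _ (ha i)) (pow_mem hxS _)
  refine ⟨fun n a ha => ?_, fun f => ?_⟩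
  · apply le_antisymm
    · refine w.map_sum_le fun i hi => ?_
      rw [map_mul, map_pow, hwx]
      exact Finset.le_sup (f := fun i => w (a i) * v ρ ^ i) hi
    · refine Finset.sup_le fun i hi => ?_
      have h1 := D.coeff_le_iota A hy ρ hρ h0 a ha n (hS (hpS a n ha)) i (Finset.mem_range.1 hi)
      rw [← hw _ (hpS a n ha)] at h1
      rw [hwC _ (ha i)]
      exact_mod_cast h1
  · obtain ⟨G, H, h⟩ := hS (hKS f)
    refine ⟨cf G, cf H, fun i => (coeff i G).2, fun i => (coeff i H).2, ?_, ?_, ?_, h.lP⟩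
    · by_contra hcon
      push Not at hcon
      apply h.ne
      ext i
      exact hcon i
    · obtain ⟨B, hB⟩ := h.bG
      obtain ⟨B', hB'⟩ := h.bH
      refine ⟨R, max B B', hρ, fun i => ?_⟩
      rw [hwC (cf G i) (coeff i G).2, hwC (cf H i) (coeff i H).2]
      exact ⟨(hB i).trans (le_max_left _ _), (hB' i).trans (le_max_right _ _)⟩
    · have h1 := (D.tendsto_evE A hy ρ hρ ⟨H, mem_BS.2 h.bH⟩).const_mul
        (D.iota A hy ρ hρ h0 ⟨algebraMap K Ω f, hS (hKS f)⟩)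
      have h2 := (h1.sub (D.tendsto_evE A hy ρ hρ ⟨G, mem_BS.2 h.bG⟩)).norm
      rw [D.iota_mul_rep A hy ρ hρ h0 h, sub_self, norm_zero] at h2
      rw [← NNReal.tendsto_coe, NNReal.coe_zero]
      refine h2.congr fun n => ?_
      have hm : algebraMap K Ω f * psum (cf H) x n - psum (cf G) x n ∈ S :=
        sub_mem (mul_mem (hKS f) (hpS _ n fun i => (coeff i H).2)) (hpS _ n fun i => (coeff i G).2)
      rw [hw _ hm]
      congr 1
      have e : ∀ F : C⟦X⟧, D.iota A hy ρ hρ h0 ⟨psum (cf F) x n, hS (hpS _ n fun i => (coeff i F).2)⟩ =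
          ∑ i ∈ Finset.range n, A.algebraMap (coeff i F) * (A.algebraMap ρ * y) ^ i := by
        intro F
        have e : (⟨psum (cf F) x n, hS (hpS _ n fun i => (coeff i F).2)⟩ : D.SD) =
            ∑ j ∈ Finset.range n, (⟨cf F j, D.C_le_SD (coeff j F)⟩ : D.SD) *
              (⟨x, D.x_mem_SD⟩ : D.SD) ^ j := by
          apply Subtype.ext
          rw [AddSubmonoidClass.coe_finsetSum]
          rfl
        rw [e, map_sum]
        refine Finset.sum_congr rfl fun j _ => ?_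
        rw [map_mul, map_pow, D.iota_x A hy ρ hρ h0]
        congr 1
        exact D.iota_const A hy ρ hρ h0 (coeff j F) _
      rw [← e, ← e, ← map_mul, ← map_sub]
      rfl

end DiscData

end Crest.Agent.R013.Set_803
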