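import Mathlib
import Crest.Agent.R013.Gl9_946
import Crest.Agent.R013.Lift1_903

/-!
# R013 / Slo3: homomorphisms on a patch with norm bounds, uniqueness (helper671)

`F ⊆ E` (`E` a complete normed field), `A0 ⊆ F` a subring (the functions regular on a region, the sup
norm over the region being the norm of `E`), `Ac` = closure of `A0` in `E`, `Rg` = quotients `a/b`,
`a ∈ Ac`, `b ∈ A0`.  A ring homomorphism `ψ : F → Ω` with `‖ψ a‖ ≤ ‖a‖` for `a ∈ A0` extends uniquely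
to `Rg` with `‖Φ a‖ ≤ ‖a‖` for `a ∈ Ac`.
-/

set_option autoImplicit false

namespace Crest.Agent.R013.Slo3_671

open Crest.Agent.R013.Gl946 Filter Topology

section

variable {F E : Type*} [Field F] [NormedField E] [Algebra F E]

/-- the closure of `A0` in `E` -/
def Ac (E : Type*) [NormedField E] [Algebra F E] (A0 : Subring F) : Subring E :=
  (A0.map (algebraMap F E)).topologicalClosure

/-- quotients `a/b`, `a ∈ Ac`, `b ∈ A0`. -/
def Rg (E : Type*) [NormedField E] [Algebra F E] (A0 : Subring F) : Subring E :=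
  fracSub (Ac E A0) (A0.map (algebraMap F E)) (Subring.le_topologicalClosure _)

/-- every element of `F` is a quotient of elements of `A0` -/
def IsFr (A0 : Subring F) : Prop := ∀ x : F, ∃ a ∈ A0, ∃ b ∈ A0, b ≠ 0 ∧ x = a / b

variable {A0 : Subring F}

theorem mem_Ac {a : F} (ha : a ∈ A0) : algebraMap F E a ∈ Ac E A0 :=
  Subring.le_topologicalClosure _ ⟨a, ha, rfl⟩

theorem Ac_le_Rg : Ac E A0 ≤ Rg E A0 := le_fracSub _ _ _

theorem mem_Rg_iff {z : E} : z ∈ Rg E A0 ↔ ∃ a ∈ Ac E A0, ∃ b ∈ A0, b ≠ 0 ∧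
    z = a / algebraMap F E b := by
  constructor
  · rintro ⟨a, ha, _, ⟨b, hb, rfl⟩, h, rfl⟩
    exact ⟨a, ha, b, hb, by rintro rfl; exact h (map_zero _), rfl⟩
  · rintro ⟨a, ha, b, hb, h, rfl⟩
    exact ⟨a, ha, _, ⟨b, hb, rfl⟩, by simpa using h, rfl⟩

theorem algebraMap_mem_Rg (hfr : IsFr A0) (x : F) : algebraMap F E x ∈ Rg E A0 := by
  obtain ⟨a, ha, b, hb, h, rfl⟩ := hfr x
  rw [mem_Rg_iff]
  exact ⟨_, mem_Ac ha, b, hb, h, by rw [map_div₀]⟩

theorem exists_near {a : E} (ha : a ∈ Ac E A0) {ε : ℝ} (hε : 0 < ε) :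
    ∃ s ∈ A0, ‖a - algebraMap F E s‖ < ε := by
  obtain ⟨_, ⟨s, hs, rfl⟩, h⟩ := Metric.mem_closure_iff.1
    (show a ∈ closure ((A0.map (algebraMap F E) : Subring E) : Set E) from ha) ε hε
  exact ⟨s, hs, by rwa [dist_eq_norm] at h⟩

variable {Ω : Type*} [NormedField Ω] [CompleteSpace Ω]

/-- **existence of the extension** -/
theorem exists_ext (hfr : IsFr A0) (ψ : F →+* Ω) (hψ : ∀ a ∈ A0, ‖ψ a‖ ≤ ‖algebraMap F E a‖) :
    ∃ Φ : Rg E A0 →+* Ω, (∀ x (hx : algebraMap F E x ∈ Rg E A0), Φ ⟨_, hx⟩ = ψ x) ∧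
      ∀ a (ha : a ∈ Ac E A0), ‖Φ ⟨a, Ac_le_Rg ha⟩‖ ≤ ‖a‖ := by
  classical
  set S0 : Subring E := A0.map (algebraMap F E) with hS0
  have hinjE : Function.Injective (algebraMap F E) := (algebraMap F E).injective
  -- `ψ` on `S0`
  let e : A0 ≃+* S0 := A0.equivMapOfInjective (algebraMap F E) hinjE
  let ψ0 : S0 →+* Ω := (ψ.comp A0.subtype).comp (e.symm : S0 →+* A0)
  have hψ0 : ∀ s : S0, ∀ a : F, algebraMap F E a = s → ψ0 s = ψ a := by
    intro s a ha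
    obtain ⟨b, hb⟩ : ∃ b : A0, e b = s := ⟨e.symm s, e.apply_symm_apply s⟩
    have h1 : ψ0 s = ψ b := by
      show ψ ((e.symm s : A0) : F) = ψ b
      rw [← hb, e.symm_apply_apply]
    have h2 : algebraMap F E (b : F) = s := by rw [← hb]; rfl
    rw [h1, hinjE (h2.trans ha.symm)]
  set i : S0 →+* S0.topologicalClosure := Subring.inclusion S0.le_topologicalClosure with hi
  have hui : IsUniformInducing i := by
    have h1 : IsUniformInducing (fun x : S0.topologicalClosure => (x : E)) :=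
      isUniformInducing_val _
    have h2 : IsUniformInducing (fun x : S0 => (x : E)) := isUniformInducing_val _
    exact h1.of_comp_iff.1 h2
  have hdr : DenseRange i := by
    intro x
    rw [Metric.mem_closure_iff]
    intro ε hε
    obtain ⟨s, hs, hxs⟩ := Metric.mem_closure_iff.1 (show (x : E) ∈ closure (S0 : Set E) from x.2)
      ε hε
    exact ⟨i ⟨s, hs⟩, ⟨⟨s, hs⟩, rfl⟩, hxs⟩
  have hbd : ∀ s : S0, ‖ψ0 s‖ ≤ ‖(s : E)‖ := by
    rintro ⟨s, a, ha, rfl⟩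
    rw [hψ0 _ a rfl]
    exact hψ a ha
  have huc : UniformContinuous ψ0 := by
    refine AddMonoidHomClass.uniformContinuous_of_bound ψ0 1 fun s => ?_
    rw [one_mul]; exact hbd s
  set Ψ : S0.topologicalClosure →+* Ω := IsDenseInducing.extendRingHom hui hdr huc with hΨ
  have hcont : Continuous Ψ := uniformContinuous_uniformly_extend hui hdr huc |>.continuous
  have hΨs : ∀ s : S0, Ψ (i s) = ψ0 s := fun s =>
    (hui.isDenseInducing hdr).extend_eq huc.continuous s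
  have hΨn : ∀ x : S0.topologicalClosure, ‖Ψ x‖ ≤ ‖(x : E)‖ := by
    intro x
    have hcl : IsClosed {x : S0.topologicalClosure | ‖Ψ x‖ ≤ ‖(x : E)‖} :=
      isClosed_le hcont.norm continuous_subtype_val.norm
    exact hdr.induction_on (p := fun x => ‖Ψ x‖ ≤ ‖(x : E)‖) x hcl fun s => by
      rw [hΨs]; exact hbd s
  obtain ⟨Φ, hΦ⟩ := ext_frac S0.topologicalClosure S0 (Subring.le_topologicalClosure _) Ψ (by
    rintro _ ⟨a, ha, rfl⟩ h0 h1
    have h2 : Ψ (i ⟨algebraMap F E a, a, ha, rfl⟩) = 0 := h1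
    rw [hΨs, hψ0 _ a rfl] at h2
    apply h0
    rw [(map_eq_zero ψ).1 h2]
    exact map_zero _)
  refine ⟨Φ, ?_, ?_⟩
  · intro x hx
    obtain ⟨a, ha, b, hb, h, e0⟩ := hfr x
    have h1 := hΦ (algebraMap F E x) hx (algebraMap F E a) (mem_Ac ha) (algebraMap F E b)
      ⟨b, hb, rfl⟩ (by simpa using h) (by rw [e0, map_div₀])
    have h2 : Ψ (i ⟨algebraMap F E a, a, ha, rfl⟩) = ψ a := by rw [hΨs, hψ0 _ a rfl]
    have h3 : Ψ (i ⟨algebraMap F E b, b, hb, rfl⟩) = ψ b := by rw [hΨs, hψ0 _ b rfl]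
    have h4 : ψ x = ψ a / ψ b := by rw [e0, map_div₀]
    exact h1.trans (by rw [h4, ← h2, ← h3]; rfl)
  · intro a ha
    have h1 := hΦ a (Ac_le_Rg ha) a ha 1 (one_mem _) one_ne_zero (by simp)
    have h2 : (⟨1, Subring.le_topologicalClosure _ (one_mem S0)⟩ : S0.topologicalClosure) = 1 := rfl
    rw [h2, map_one, div_one] at h1
    exact (congrArg norm h1).trans_le (hΨn _)

/-- **uniqueness of the extension** -/
theorem ext_unique {Φ Φ' : Rg E A0 →+* Ω}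
    (h : ∀ a ∈ A0, ∀ (h1 : algebraMap F E a ∈ Rg E A0), Φ ⟨_, h1⟩ = Φ' ⟨_, h1⟩)
    (hΦ : ∀ a (ha : a ∈ Ac E A0), ‖Φ ⟨a, Ac_le_Rg ha⟩‖ ≤ ‖a‖)
    (hΦ' : ∀ a (ha : a ∈ Ac E A0), ‖Φ' ⟨a, Ac_le_Rg ha⟩‖ ≤ ‖a‖) : Φ = Φ' := by
  have h1 : ∀ a (ha : a ∈ Ac E A0), Φ ⟨a, Ac_le_Rg ha⟩ = Φ' ⟨a, Ac_le_Rg ha⟩ := by
    intro a ha
    rw [← sub_eq_zero, ← norm_le_zero_iff]
    apply le_of_forall_pos_le_add
    intro ε hε
    obtain ⟨s, hs, hsa⟩ := exists_near ha (half_pos hε)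
    have hs' : algebraMap F E s ∈ Ac E A0 := mem_Ac hs
    have e1 : (⟨a, Ac_le_Rg ha⟩ : Rg E A0) = ⟨a - algebraMap F E s, Ac_le_Rg (sub_mem ha hs')⟩
      + ⟨algebraMap F E s, Ac_le_Rg hs'⟩ := by ext; simp
    rw [e1, map_add, map_add, h s hs, add_sub_add_right_eq_sub]
    have h2 := hΦ (a - algebraMap F E s) (sub_mem ha hs')
    have h3 := hΦ' (a - algebraMap F E s) (sub_mem ha hs')
    refine (norm_sub_le _ _).trans ?_
    linarith
  ext ⟨z, hz⟩
  obtain ⟨a, ha, b, hb, hb0, e⟩ := mem_Rg_iff.1 hz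
  have hb' : algebraMap F E b ∈ Ac E A0 := mem_Ac hb
  have hbne : algebraMap F E b ≠ 0 := by simpa using hb0
  have e2 : (⟨z, hz⟩ : Rg E A0) * ⟨algebraMap F E b, Ac_le_Rg hb'⟩ = ⟨a, Ac_le_Rg ha⟩ := by
    ext
    show z * algebraMap F E b = a
    rw [e, div_mul_cancel₀ _ hbne]
  have e3 := congrArg Φ e2
  have e4 := congrArg Φ' e2
  rw [map_mul] at e3 e4
  rw [h1 a ha, ← e4, h b hb] at e3
  have e5 : Φ' ⟨algebraMap F E b, Ac_le_Rg hb'⟩ ≠ 0 := by
    rw [← h b hb]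
    intro h0
    -- `b` is invertible in `Rg`
    have hinv : (algebraMap F E b)⁻¹ ∈ Rg E A0 :=
      mem_Rg_iff.2 ⟨1, one_mem _, b, hb, hb0, by simp⟩
    have h3 : (⟨algebraMap F E b, Ac_le_Rg hb'⟩ : Rg E A0) * ⟨_, hinv⟩ = 1 := by
      ext
      show algebraMap F E b * (algebraMap F E b)⁻¹ = 1
      rw [mul_inv_cancel₀ hbne]
    have h4 := congrArg Φ h3
    rw [map_mul, h0, zero_mul, map_one] at h4
    exact zero_ne_one h4
  exact mul_right_cancel₀ e5 e3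

end

end Crest.Agent.R013.Slo3_671
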