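import Crest.Agent.R013.Good3_940

/-!
# R013 / Small1: inverse function and substitution for bounded power series (helper940)

* `bd_subst` : Gauss bounds of `g.subst phi`, `phi(0) = 0`.
* `exists_inv` : `f(0) = 0`, `f'(0) ≠ 0`, `f` bounded: `phi` bounded with `f.subst phi = X = phi.subst f`.
* `substB` : the ring hom `bsub 1 → bsub del`, injective; `substF` on the disc fields.
-/

set_option autoImplicit false
set_option linter.unusedSectionVars false

namespace Crest.Agent.R013.Small1_940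

open PowerSeries
open scoped NNReal
open Crest.Agent.R013.KAS2_940 (Bd bd_zero bd_one bd_C)
open Crest.Agent.R013.KAS2_940
open Crest.Agent.R013.KAS3_940 Crest.Agent.R013.Good3_940

section Formal

variable {F : Type*} [Field F]

theorem coeff_subst_eq_sum {g phi : F⟦X⟧} (h0 : constantCoeff phi = 0) (m N : ℕ) (hN : m < N) :
    coeff m (g.subst phi) = ∑ d ∈ Finset.range N, coeff d g * coeff m (phi ^ d) := by
  rw [coeff_subst' (HasSubst.of_constantCoeff_zero' h0)]
  refine finsum_eq_sum_of_support_subset _ ?_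
  intro d hd
  rw [Finset.mem_coe, Finset.mem_range]
  by_contra hcon
  rw [not_lt] at hcon
  refine hd ?_
  have h1 : (X : F⟦X⟧) ∣ phi := X_dvd_iff.mpr h0
  have h2 : coeff m (phi ^ d) = 0 :=
    (X_pow_dvd_iff.mp (pow_dvd_pow_of_dvd h1 d)) m (lt_of_lt_of_le hN hcon)
  show coeff d g • coeff m (phi ^ d) = 0
  rw [h2, smul_zero]

theorem coeff_pow_self {phi : F⟦X⟧} (h0 : constantCoeff phi = 0) (d : ℕ) :
    coeff d (phi ^ d) = coeff 1 phi ^ d := by
  obtain ⟨psi, hpsi⟩ : (X : F⟦X⟧) ∣ phi := X_dvd_iff.mpr h0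
  rw [hpsi, mul_pow, coeff_X_pow_mul', if_pos le_rfl, Nat.sub_self]
  have h1 : coeff 1 (X * psi) = constantCoeff psi := by
    rw [show (1 : ℕ) = 0 + 1 from rfl, coeff_succ_X_mul, coeff_zero_eq_constantCoeff_apply]
  rw [h1, coeff_zero_eq_constantCoeff_apply, map_pow]

theorem subst_ne_zero {g phi : F⟦X⟧} (h0 : constantCoeff phi = 0) (h1 : coeff 1 phi ≠ 0)
    (hg : g ≠ 0) : g.subst phi ≠ 0 := by
  classical
  intro h
  have hex : ∃ d, coeff d g ≠ 0 := by
    by_contra hcon
    push Not at hcon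
    exact hg (PowerSeries.ext fun n => by rw [hcon n, map_zero])
  obtain ⟨d, hd, hmin⟩ : ∃ d, coeff d g ≠ 0 ∧ ∀ e < d, coeff e g = 0 :=
    ⟨Nat.find hex, Nat.find_spec hex, fun e he => by
      have := Nat.find_min hex he
      push Not at this
      exact this⟩
  have h2 := coeff_subst_eq_sum (g := g) h0 d (d + 1) (Nat.lt_succ_self d)
  rw [h, map_zero, Finset.sum_range_succ, Finset.sum_eq_zero, zero_add, coeff_pow_self h0] at h2
  · exact mul_ne_zero hd (pow_ne_zero _ h1) h2.symm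
  · intro e he
    rw [hmin e (Finset.mem_range.mp he), zero_mul]

theorem subst_C_mul {g phi : F⟦X⟧} (h0 : constantCoeff phi = 0) (b : F) :
    (C b * g).subst phi = C b * g.subst phi := by
  have h := HasSubst.of_constantCoeff_zero' h0
  rw [subst_mul h]
  congr 1
  rw [subst_C]
  rfl

end Formal

section Bounds

variable {F : Type*} [NormedField F] [IsUltrametricDist F]

theorem bd_subst {r A B : ℝ} (hr : 0 < r) {g phi : F⟦X⟧} (hg : Bd 1 B g) (hphi : Bd r A phi)
    (hA : A ≤ 1) (h0 : constantCoeff phi = 0) : Bd r B (g.subst phi) := by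
  intro m
  have hB := hg.nonneg
  have hA0 := hphi.nonneg
  have hrm : 0 < r ^ m := pow_pos hr m
  rw [coeff_subst_eq_sum h0 m (m + 1) (Nat.lt_succ_self m), ← le_div_iff₀ hrm]
  refine IsUltrametricDist.norm_sum_le_of_forall_le_of_nonneg (by positivity) fun d _ => ?_
  rw [le_div_iff₀ hrm, norm_mul]
  have h1 := hg d
  rw [one_pow, mul_one] at h1
  have h2 := (hphi.pow hr d) m
  calc ‖coeff d g‖ * ‖coeff m (phi ^ d)‖ * r ^ m
      = ‖coeff d g‖ * (‖coeff m (phi ^ d)‖ * r ^ m) := by ring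
    _ ≤ B * A ^ d := by gcongr
    _ ≤ B * 1 := by gcongr; exact pow_le_one₀ hA0 hA
    _ = B := mul_one _

/-- the closed unit ball as a subring -/
def ball1 (F : Type*) [NormedField F] [IsUltrametricDist F] : Subring F where
  carrier := {a | ‖a‖ ≤ 1}
  mul_mem' := by
    intro a b ha hb
    show ‖a * b‖ ≤ 1
    rw [norm_mul]
    exact mul_le_one₀ ha (norm_nonneg _) hb
  one_mem' := by show ‖(1 : F)‖ ≤ 1; rw [norm_one]
  add_mem' := by
    intro a b ha hb
    exact (IsUltrametricDist.norm_add_le_max a b).trans (max_le ha hb)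
  zero_mem' := by show ‖(0 : F)‖ ≤ 1; rw [norm_zero]; exact zero_le_one
  neg_mem' := by intro a ha; show ‖-a‖ ≤ 1; rw [norm_neg]; exact ha

/-- the inverse of an integral series `X + ...` is integral -/
theorem exists_inv_int {g : F⟦X⟧} (hg : ∀ n, ‖coeff n g‖ ≤ 1) (h0 : constantCoeff g = 0)
    (h1 : coeff 1 g = 1) : ∃ psi : F⟦X⟧, (∀ n, ‖coeff n psi‖ ≤ 1) ∧ constantCoeff psi = 0 ∧
      coeff 1 psi = 1 ∧ g.subst psi = X ∧ psi.subst g = X := by
  let gO : (ball1 F)⟦X⟧ := PowerSeries.mk fun n => ⟨coeff n g, hg n⟩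
  have hmap : PowerSeries.map (ball1 F).subtype gO = g := by
    ext n
    rw [coeff_map, coeff_mk]
    rfl
  have hgO0 : constantCoeff gO = 0 := by
    apply Subtype.ext
    rw [← coeff_zero_eq_constantCoeff_apply, coeff_mk]
    show coeff 0 g = 0
    rw [coeff_zero_eq_constantCoeff_apply, h0]
  have hgO1 : coeff 1 gO = 1 := by
    apply Subtype.ext
    rw [coeff_mk]
    exact h1
  have hu : IsUnit (coeff 1 gO) := by rw [hgO1]; exact isUnit_one
  let psiO := substInvOfIsUnit gO hu
  have hpsi0 : constantCoeff psiO = 0 := constantCoeff_substInvOfIsUnit gO hu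
  have hr : gO.subst psiO = X := subst_substInvOfIsUnit_right gO hgO0 hu
  have hl : psiO.subst gO = X := subst_substInvOfIsUnit_left gO hgO0 hu
  refine ⟨PowerSeries.map (ball1 F).subtype psiO, ?_, ?_, ?_, ?_, ?_⟩
  · intro n
    rw [coeff_map]
    exact (coeff n psiO).2
  · rw [← coeff_zero_eq_constantCoeff_apply, coeff_map, coeff_zero_eq_constantCoeff_apply, hpsi0,
      map_zero]
  · rw [coeff_map]
    have h2 : coeff 1 psiO = ((hu.unit⁻¹ : (ball1 F)ˣ) : ball1 F) :=
      coeff_one_substInvOfIsUnit gO hu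
    have h3 : hu.unit = 1 := Units.ext hgO1
    rw [h2, h3]
    simp
  · have := congrArg (PowerSeries.map (ball1 F).subtype) hr
    rw [map_X] at this
    rw [← this, ← hmap]
    exact (map_subst (HasSubst.of_constantCoeff_zero' hpsi0) gO).symm
  · have := congrArg (PowerSeries.map (ball1 F).subtype) hl
    rw [map_X] at this
    rw [← this, ← hmap]
    exact (map_subst (HasSubst.of_constantCoeff_zero' hgO0) psiO).symm

end Bounds

section Inv

variable {F : Type*} [NontriviallyNormedField F] [IsUltrametricDist F]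

theorem smul_X_eq (r : F) : (r • X : F⟦X⟧) = C r * X := smul_eq_C_mul X r

theorem smul_subst {r : F} {eta : F⟦X⟧} (h : constantCoeff eta = 0) :
    (r • X : F⟦X⟧).subst eta = C r * eta := by
  have hs := HasSubst.of_constantCoeff_zero' h
  rw [subst_smul hs, subst_X hs]
  exact smul_eq_C_mul eta r

theorem constantCoeff_rescale' (r : F) {f : F⟦X⟧} (h : constantCoeff f = 0) :
    constantCoeff (rescale r f) = 0 := by
  rw [← coeff_zero_eq_constantCoeff_apply, coeff_rescale, coeff_zero_eq_constantCoeff_apply, h,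
    mul_zero]

/-- **bounded inverse function theorem** -/
theorem exists_inv {f : F⟦X⟧} {B : ℝ} (hf : Bd 1 B f) (h0 : constantCoeff f = 0)
    (h1 : coeff 1 f ≠ 0) : ∃ (del : ℝ) (phi : F⟦X⟧), 0 < del ∧ (∃ A : ℝ, A < 1 ∧ Bd del A phi) ∧
      constantCoeff phi = 0 ∧ coeff 1 phi ≠ 0 ∧ f.subst phi = X ∧ phi.subst f = X := by
  have hB := hf.nonneg
  have hf1 : 0 < ‖coeff 1 f‖ := norm_pos_iff.mpr h1
  obtain ⟨a, ha0, ha1⟩ := NormedField.exists_norm_lt F
    (show (0 : ℝ) < min 1 (‖coeff 1 f‖ / (B + 1)) from lt_min one_pos (by positivity))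
  have ha : a ≠ 0 := norm_pos_iff.mp ha0
  have ha1' : ‖a‖ < 1 := ha1.trans_le (min_le_left _ _)
  have ha2 : ‖a‖ * B ≤ ‖coeff 1 f‖ := by
    have h2 : ‖a‖ ≤ ‖coeff 1 f‖ / (B + 1) := (ha1.trans_le (min_le_right _ _)).le
    calc ‖a‖ * B ≤ (‖coeff 1 f‖ / (B + 1)) * (B + 1) := by
          gcongr; linarith
      _ = ‖coeff 1 f‖ := by field_simp
  set b : F := a * coeff 1 f with hb
  have hb0 : b ≠ 0 := mul_ne_zero ha h1
  set g : F⟦X⟧ := C (b⁻¹) * rescale a f with hg
  have hcg : ∀ n, coeff n g = b⁻¹ * (a ^ n * coeff n f) := fun n => by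
    rw [hg, coeff_C_mul, coeff_rescale]
  have hg0 : constantCoeff g = 0 := by
    rw [← coeff_zero_eq_constantCoeff_apply, hcg, coeff_zero_eq_constantCoeff_apply, h0]; ring
  have hg1 : coeff 1 g = 1 := by
    rw [hcg, pow_one, hb]; field_simp
  have hgint : ∀ n, ‖coeff n g‖ ≤ 1 := by
    intro n
    rcases n with _ | _ | n
    · rw [coeff_zero_eq_constantCoeff_apply, hg0, norm_zero]; exact zero_le_one
    · rw [zero_add, hg1, norm_one]
    · rw [hcg, hb]
      have h3 := hf (n + 1 + 1)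
      rw [one_pow, mul_one] at h3
      have h4 : (a * coeff 1 f)⁻¹ * (a ^ (n + 1 + 1) * coeff (n + 1 + 1) f) =
          a ^ (n + 1) * coeff (n + 1 + 1) f / coeff 1 f := by
        field_simp
        ring
      rw [h4, norm_div, norm_mul, norm_pow, div_le_one hf1]
      calc ‖a‖ ^ (n + 1) * ‖coeff (n + 1 + 1) f‖ = ‖a‖ ^ n * (‖a‖ * ‖coeff (n + 1 + 1) f‖) := by ring
        _ ≤ 1 * (‖a‖ * B) := by
            gcongr
            exact pow_le_one₀ (norm_nonneg _) ha1'.le
        _ ≤ ‖coeff 1 f‖ := by rw [one_mul]; exact ha2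
  obtain ⟨psi, hpsi, hpsi0, hpsi1, hr, hl⟩ := exists_inv_int hgint hg0 hg1
  set eta : F⟦X⟧ := rescale b⁻¹ psi with heta
  have heta0 : constantCoeff eta = 0 := constantCoeff_rescale' _ hpsi0
  set phi : F⟦X⟧ := C a * eta with hphi
  have hphi0 : constantCoeff phi = 0 := by rw [hphi, map_mul, heta0, mul_zero]
  have hsX : ∀ r : F, HasSubst (r • X : F⟦X⟧) := fun r => HasSubst.smul_X' r
  refine ⟨‖b‖, phi, norm_pos_iff.mpr hb0, ⟨‖a‖, ha1', ?_⟩, hphi0, ?_, ?_, ?_⟩
  · intro n
    rw [hphi, coeff_C_mul, heta, coeff_rescale, norm_mul, norm_mul, norm_pow, norm_inv]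
    calc ‖a‖ * (‖b‖⁻¹ ^ n * ‖coeff n psi‖) * ‖b‖ ^ n = ‖a‖ * ‖coeff n psi‖ := by
          have : ‖b‖ ≠ 0 := norm_ne_zero_iff.mpr hb0
          rw [inv_pow]
          field_simp
      _ ≤ ‖a‖ * 1 := by gcongr; exact hpsi n
      _ = ‖a‖ := mul_one _
  · rw [hphi, coeff_C_mul, heta, coeff_rescale, hpsi1, mul_one, pow_one]
    exact mul_ne_zero ha (inv_ne_zero hb0)
  · have e1 : phi = (a • X : F⟦X⟧).subst eta := by rw [smul_subst heta0]
    have hes := HasSubst.of_constantCoeff_zero' heta0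
    rw [e1, ← subst_comp_subst_apply (hsX a) hes, ← rescale_eq_subst]
    have e2 : rescale a f = C b * g := by
      rw [hg, ← mul_assoc, ← map_mul, mul_inv_cancel₀ hb0, map_one, one_mul]
    have e3 : eta = psi.subst (b⁻¹ • X : F⟦X⟧) := by rw [heta, rescale_eq_subst]
    rw [e2, subst_C_mul heta0, e3,
      ← subst_comp_subst_apply (HasSubst.of_constantCoeff_zero' hpsi0) (hsX b⁻¹), hr,
      subst_X (hsX b⁻¹), smul_X_eq, ← mul_assoc, ← map_mul, mul_inv_cancel₀ hb0, map_one, one_mul]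
  · have hfs := HasSubst.of_constantCoeff_zero' h0
    have e3 : eta = psi.subst (b⁻¹ • X : F⟦X⟧) := by rw [heta, rescale_eq_subst]
    rw [hphi, subst_C_mul h0, e3, subst_comp_subst_apply (hsX b⁻¹) hfs, smul_subst h0]
    have e4 : C b⁻¹ * f = g.subst (a⁻¹ • X : F⟦X⟧) := by
      rw [← rescale_eq_subst]
      ext n
      rw [coeff_C_mul, coeff_rescale, hcg]
      have : a ^ n ≠ 0 := pow_ne_zero _ ha
      rw [inv_pow]
      field_simp
    rw [e4, ← subst_comp_subst_apply (HasSubst.of_constantCoeff_zero' hg0) (hsX a⁻¹), hl,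
      subst_X (hsX a⁻¹), smul_X_eq, ← mul_assoc, ← map_mul, mul_inv_cancel₀ ha, map_one, one_mul]

/-- substitution of `phi` as a ring hom of bounded functions -/
noncomputable def substB {del A : ℝ} (hd : 0 < del) {phi : F⟦X⟧} (hphi : Bd del A phi) (hA : A ≤ 1)
    (h0 : constantCoeff phi = 0) : bsub (K := F) 1 one_pos →+* bsub (K := F) del hd :=
  ((substAlgHom (R := F) (HasSubst.of_constantCoeff_zero' h0)).toRingHom.comp
    (bsub (K := F) 1 one_pos).subtype).codRestrict (bsub del hd) (fun g => by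
      refine ⟨g.2.choose, ?_⟩
      have h1 : (((substAlgHom (R := F) (HasSubst.of_constantCoeff_zero' h0)).toRingHom.comp
          (bsub (K := F) 1 one_pos).subtype) g : F⟦X⟧) = g.1.subst phi := by
        show (substAlgHom (R := F) (HasSubst.of_constantCoeff_zero' h0)) g.1 = _
        rw [coe_substAlgHom]
      rw [h1]
      exact bd_subst hd g.2.choose_spec hphi hA h0)

theorem substB_val {del A : ℝ} {hd : 0 < del} {phi : F⟦X⟧} {hphi : Bd del A phi} {hA : A ≤ 1}
    {h0 : constantCoeff phi = 0} (g : bsub (K := F) 1 one_pos) :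
    (substB hd hphi hA h0 g).1 = g.1.subst phi := by
  show (substAlgHom (R := F) (HasSubst.of_constantCoeff_zero' h0)) g.1 = _
  rw [coe_substAlgHom]

theorem substB_injective {del A : ℝ} {hd : 0 < del} {phi : F⟦X⟧} {hphi : Bd del A phi} {hA : A ≤ 1}
    {h0 : constantCoeff phi = 0} (h1 : coeff 1 phi ≠ 0) :
    Function.Injective (substB hd hphi hA h0) := by
  rw [injective_iff_map_eq_zero]
  intro g hg
  by_contra hne
  have h2 : g.1 ≠ 0 := fun h => hne (Subtype.ext h)
  refine subst_ne_zero h0 h1 h2 ?_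
  rw [← substB_val (hd := hd) (hphi := hphi) (hA := hA) (h0 := h0), hg]
  rfl

/-- substitution on the disc fields -/
noncomputable def substF {del A : ℝ} (hd : 0 < del) {phi : F⟦X⟧} (hphi : Bd del A phi) (hA : A ≤ 1)
    (h0 : constantCoeff phi = 0) (h1 : coeff 1 phi ≠ 0) : FDisc F 1 one_pos →+* FDisc F del hd :=
  IsFractionRing.lift (g := (algebraMap (bsub (K := F) del hd) (FDisc F del hd)).comp
    (substB hd hphi hA h0))
    ((IsFractionRing.injective (bsub (K := F) del hd) (FDisc F del hd)).comp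
      (substB_injective (hd := hd) (hphi := hphi) (hA := hA) (h0 := h0) h1))

theorem substF_algebraMap {del A : ℝ} {hd : 0 < del} {phi : F⟦X⟧} {hphi : Bd del A phi}
    {hA : A ≤ 1} {h0 : constantCoeff phi = 0} {h1 : coeff 1 phi ≠ 0}
    (g : bsub (K := F) 1 one_pos) :
    substF hd hphi hA h0 h1 (algebraMap _ _ g) = algebraMap _ _ (substB hd hphi hA h0 g) :=
  IsFractionRing.lift_algebraMap _ g

/-- the logarithmic derivative of a substitution -/
theorem derivative_subst_ode {H om phi : F⟦X⟧} (h0 : constantCoeff phi = 0)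
    (h : d⁄dX F H = om * H) :
    d⁄dX F (H.subst phi) = (om.subst phi * d⁄dX F phi) * H.subst phi := by
  have hs := HasSubst.of_constantCoeff_zero' h0
  rw [derivative_subst hs, h, subst_mul hs]; ring

theorem form_ne_zero {om phi : F⟦X⟧} [CharZero F] (h0 : constantCoeff phi = 0)
    (h1 : coeff 1 phi ≠ 0) (h : om ≠ 0) : om.subst phi * d⁄dX F phi ≠ 0 := by
  refine mul_ne_zero (subst_ne_zero h0 h1 h) ?_
  intro h2
  have h3 := congrArg (coeff 0) h2
  rw [coeff_derivative, map_zero] at h3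
  simp only [Nat.cast_zero, zero_add, mul_one] at h3
  exact h1 h3

end Inv

end Crest.Agent.R013.Small1_940
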