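import Crest.Agent.R013.Small4_940

/-!
# R013 / Small5: generation of the fields `E1 C`, finite levels (helper940)
-/

set_option autoImplicit false
set_option linter.unusedSectionVars false

namespace Crest.Agent.R013.Small5_940

open scoped NNReal
open Crest.NumberTheoryR.Sect Polynomial
open Crest.Agent.R013.Small2_940 Crest.Agent.R013.Small3_940 Crest.Agent.R013.Small4_940

section general

variable {k : Type*} [Field k] {K : Type*} [Field K] [Algebra k K] {Ω : Type*} [Field Ω]
  [Algebra K Ω] [Algebra k Ω] [IsScalarTower k K Ω]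

/-- a finite extension of a finitely generated extension -/
theorem exists_gen [Algebra (RatFunc k) K] [IsScalarTower k (RatFunc k) K]
    [FiniteDimensional (RatFunc k) K] (E : IntermediateField K Ω) [FiniteDimensional K E] :
    ∃ S : Finset Ω, (S : Set Ω) ⊆ E ∧
      ∀ z ∈ E, z ∈ Subfield.closure (Set.range (algebraMap k Ω) ∪ (S : Set Ω)) := by
  have h1 : Algebra.EssFiniteType k[X] (RatFunc k) :=
    Algebra.EssFiniteType.of_isLocalization _ (nonZeroDivisors k[X])
  have h2 : Algebra.EssFiniteType k (RatFunc k) := Algebra.EssFiniteType.comp k k[X] (RatFunc k)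
  have h3 : Algebra.EssFiniteType k K := Algebra.EssFiniteType.comp k (RatFunc k) K
  have h4 : Algebra.EssFiniteType k E := Algebra.EssFiniteType.comp k K E
  let E' : IntermediateField k Ω := E.restrictScalars k
  have h5 : Algebra.EssFiniteType k E' := h4
  obtain ⟨S, hS⟩ := IntermediateField.essFiniteType_iff.mp h5
  have hE : ∀ z, z ∈ E ↔ z ∈ IntermediateField.adjoin k (S : Set Ω) := by
    intro z
    rw [hS]
    rfl
  refine ⟨S, fun z hz => (hE z).mpr (IntermediateField.subset_adjoin k _ hz), fun z hz => ?_⟩
  have h6 := (hE z).mp hz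
  exact h6

/-- finite support of elements of a compositum -/
theorem exists_level (E : IntermediateField K Ω) (A B : Set Ω) {z : Ω}
    (hz : z ∈ E ⊔ IntermediateField.adjoin K A ⊔ IntermediateField.adjoin K B) :
    ∃ T : Finset Ω, (T : Set Ω) ⊆ A ∧
      z ∈ E ⊔ IntermediateField.adjoin K (T : Set Ω) ⊔ IntermediateField.adjoin K B := by
  classical
  have h1 : E ⊔ IntermediateField.adjoin K A ⊔ IntermediateField.adjoin K B =
      IntermediateField.adjoin K ((E : Set Ω) ∪ A ∪ B) := by
    rw [IntermediateField.adjoin_union, IntermediateField.adjoin_union,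
      IntermediateField.adjoin_self]
  rw [h1] at hz
  obtain ⟨U, hU, hzU⟩ := IntermediateField.exists_finset_of_mem_adjoin hz
  refine ⟨U.filter (· ∈ A), fun t ht => ?_, ?_⟩
  · exact (Finset.mem_filter.mp (Finset.mem_coe.mp ht)).2
  · have h2 : IntermediateField.adjoin K (U : Set Ω) ≤
        E ⊔ IntermediateField.adjoin K ((U.filter (· ∈ A) : Finset Ω) : Set Ω) ⊔
          IntermediateField.adjoin K B := by
      rw [IntermediateField.adjoin_le_iff]
      intro t ht
      rcases hU ht with (h3 | h3) | h3
      · exact (le_sup_left.trans le_sup_left : E ≤ _) h3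
      · refine (le_sup_right.trans le_sup_left : IntermediateField.adjoin K
          ((U.filter (· ∈ A) : Finset Ω) : Set Ω) ≤ _) ?_
        exact IntermediateField.subset_adjoin K _
          (Finset.mem_coe.mpr (Finset.mem_filter.mpr ⟨Finset.mem_coe.mp ht, h3⟩))
      · exact (le_sup_right : IntermediateField.adjoin K B ≤ _)
          (IntermediateField.subset_adjoin K _ h3)
    exact h2 hzU

/-- a finite set of algebraic elements is contained in the root set of a polynomial -/
theorem exists_poly (T : Finset Ω) (hT : ∀ t ∈ T, IsAlgebraic k t) :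
    ∃ f : k[X], f ≠ 0 ∧ ∀ t ∈ T, t ∈ f.rootSet Ω := by
  classical
  refine ⟨∏ t ∈ T, minpoly k t, ?_, fun t ht => ?_⟩
  · exact Finset.prod_ne_zero_iff.mpr fun t ht => minpoly.ne_zero (hT t ht).isIntegral
  · rw [mem_rootSet]
    refine ⟨Finset.prod_ne_zero_iff.mpr fun t ht => minpoly.ne_zero (hT t ht).isIntegral, ?_⟩
    rw [map_prod]
    exact Finset.prod_eq_zero ht (minpoly.aeval k t)

theorem finite_root (f : k[X]) : FiniteDimensional k (IntermediateField.adjoin k (f.rootSet Ω)) := by
  have : Finite (f.rootSet Ω) := (Polynomial.rootSet_finite f Ω).to_subtype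
  refine IntermediateField.finiteDimensional_adjoin fun t ht => ?_
  rw [mem_rootSet] at ht
  exact IsAlgebraic.isIntegral ⟨f, ht.1, ht.2⟩

theorem finite_rootK (f : k[X]) :
    FiniteDimensional K (IntermediateField.adjoin K (f.rootSet Ω)) := by
  have : Finite (f.rootSet Ω) := (Polynomial.rootSet_finite f Ω).to_subtype
  refine IntermediateField.finiteDimensional_adjoin fun t ht => ?_
  rw [mem_rootSet] at ht
  exact (IsAlgebraic.isIntegral ⟨f, ht.1, ht.2⟩ : IsIntegral k t).tower_top

theorem adjoin_root_le (f : k[X]) (c : Ω) (hc : c ∈ IntermediateField.adjoin k (f.rootSet Ω)) :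
    c ∈ IntermediateField.adjoin K (f.rootSet Ω) := by
  have h1 : IntermediateField.adjoin k (f.rootSet Ω) ≤
      (IntermediateField.adjoin K (f.rootSet Ω)).restrictScalars k := by
    rw [IntermediateField.adjoin_le_iff]
    exact IntermediateField.subset_adjoin K _
  exact h1 hc

/-- the compositum of a normal extension of `K` and a constant field `k(roots of f)` is normal -/
theorem normal_sup [Normal K Ω] (E : IntermediateField K Ω) [Normal K E] (f : k[X]) :
    Normal K (E ⊔ IntermediateField.adjoin K (f.rootSet Ω) : IntermediateField K Ω) := by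
  rw [IntermediateField.normal_iff_forall_map_le]
  intro σ
  rw [IntermediateField.map_sup]
  refine sup_le_sup ?_ ?_
  · exact IntermediateField.normal_iff_forall_map_le.mp inferInstance σ
  · rw [IntermediateField.adjoin_map, IntermediateField.adjoin_le_iff]
    rintro _ ⟨t, ht, rfl⟩
    refine IntermediateField.subset_adjoin K _ ?_
    rw [mem_rootSet] at ht ⊢
    refine ⟨ht.1, ?_⟩
    have h1 := Polynomial.aeval_algHom_apply (σ.restrictScalars k) t f
    rw [ht.2, map_zero] at h1
    exact h1

end general

end Crest.Agent.R013.Small5_940
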