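import Crest.Agent.R013.Small5_940

/-!
# R013 / Small6: convergence of expansions, at the place and at the circle (helper940)
-/

set_option autoImplicit false
set_option linter.unusedSectionVars false

namespace Crest.Agent.R013.Small6_940

open PowerSeries Filter
open scoped NNReal Topology
open Crest.Agent.R013.KAS2_940 (Bd bd_zero)
open Crest.Agent.R013.KAS2_940
open Crest.Agent.R013.KAS3_940 Crest.Agent.R013.Good1_940 Crest.Agent.R013.Gl946
open Crest.Agent.R013.Good3_940 Crest.Agent.R013.Small2_940 Crest.Agent.R013.Small3_940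
open Crest.Agent.R013.Puis_702 (mapL coeff_mapL exists_pow_mul)

section place

variable {C Y : Type*} [Field C] [Field Y] {i : C →+* Y} {P : Valuation Y ℝ≥0} {x : Y}
  {J : Y →+* LaurentSeries C}

theorem toL_X_pow (n : ℕ) : toL C (X ^ n) = HahnSeries.single (1 : ℤ) (1 : C) ^ n := by
  rw [map_pow, HahnSeries.ofPowerSeries_X]

theorem IsExp.val_le (hJ : IsExp i P x J) (h : RU i P x) {a : Y} {u : C⟦X⟧} (ha : J a = toL C u)
    {n : ℕ} (hu : X ^ n ∣ u) : P a ≤ P x ^ n := by
  obtain ⟨u', rfl⟩ := hu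
  set a' := a / x ^ n with ha'
  have hx := h.ne
  have h1 : J a' = toL C u' := by
    rw [ha', map_div₀, map_pow, hJ.par, ha, map_mul, toL_X_pow, mul_div_cancel_left₀]
    refine pow_ne_zero _ ?_
    rw [ne_eq, HahnSeries.single_eq_zero_iff]
    exact one_ne_zero
  have h2 : P a' ≤ 1 := by
    rcases eq_or_ne a' 0 with h0 | h0
    · rw [h0, map_zero]; exact zero_le
    rw [hJ.val_eq h h0]
    have h3 : 0 ≤ (J a').order := by
      by_contra hc
      push Not at hc
      have h4 := HahnSeries.coeff_order_eq_zero.not.2 ((map_ne_zero J).mpr h0)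
      apply h4
      rw [h1] at hc ⊢
      rw [toL, PowerSeries.coeff_coe, if_pos hc]
    obtain ⟨m, hm⟩ := Int.eq_ofNat_of_zero_le h3
    rw [hm, zpow_natCast]
    exact pow_le_one₀ zero_le h.lt_one.le
  have h3 : a = a' * x ^ n := by rw [ha']; field_simp
  rw [h3, map_mul, map_pow]
  exact mul_le_of_le_one_left' h2

theorem toL_trunc (hJ : IsExp i P x J) (f : C⟦X⟧) (n : ℕ) :
    J (∑ l ∈ Finset.range n, i (coeff l f) * x ^ l) = toL C (trunc n f : Polynomial C) := by
  rw [map_sum]
  have h1 : ((trunc n f : Polynomial C) : C⟦X⟧) =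
      ∑ l ∈ Finset.range n, PowerSeries.C (coeff l f) * X ^ l := by
    ext m
    rw [Polynomial.coeff_coe, coeff_trunc, map_sum]
    simp only [coeff_C_mul_X_pow]
    rw [Finset.sum_ite_eq]
    simp only [Finset.mem_range]
  rw [h1, map_sum]
  refine Finset.sum_congr rfl fun l _ => ?_
  rw [map_mul, map_mul, map_pow, hJ.con, hJ.par, toL_X_pow, HahnSeries.ofPowerSeries_C]

/-- **convergence at the place** -/
theorem tendsto_place (hJ : IsExp i P x J) (h : RU i P x) {z : Y} {G H : C⟦X⟧}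
    (hz : J z * toL C H = toL C G) :
    Tendsto (fun n => P (z * ∑ l ∈ Finset.range n, i (coeff l H) * x ^ l -
      ∑ l ∈ Finset.range n, i (coeff l G) * x ^ l)) atTop (𝓝 0) := by
  obtain ⟨N, hN⟩ := exists_pow_mul (J z)
  obtain ⟨w, hw⟩ := hN N le_rfl
  have hw' : toL C (X ^ N) * J z = toL C w := hw
  have hwH : w * H = X ^ N * G := by
    apply HahnSeries.ofPowerSeries_injective (Γ := ℤ)
    show toL C (w * H) = toL C (X ^ N * G)
    rw [map_mul, map_mul, ← hw', ← hz]; ring
  have key : ∀ n, P (z * ∑ l ∈ Finset.range n, i (coeff l H) * x ^ l -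
      ∑ l ∈ Finset.range n, i (coeff l G) * x ^ l) ≤ P x ^ n * (P x ^ N)⁻¹ := by
    intro n
    set g := z * ∑ l ∈ Finset.range n, i (coeff l H) * x ^ l -
      ∑ l ∈ Finset.range n, i (coeff l G) * x ^ l with hg
    have h1 : J (x ^ N * g) = toL C (w * ((trunc n H : Polynomial C) : C⟦X⟧) - X ^ N * ((trunc n G : Polynomial C) : C⟦X⟧)) := by
      rw [hg, map_mul, map_sub, map_mul, toL_trunc hJ, toL_trunc hJ, map_sub, map_mul, map_mul,
        ← hw', map_pow, hJ.par, toL_X_pow]
      ring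
    have hH : ∀ f : C⟦X⟧, X ^ n ∣ f - ((trunc n f : Polynomial C) : C⟦X⟧) := by
      intro f
      rw [X_pow_dvd_iff]
      intro m hm
      rw [map_sub, Polynomial.coeff_coe, coeff_trunc, if_pos hm, sub_self]
    have h2 : X ^ n ∣ w * ((trunc n H : Polynomial C) : C⟦X⟧) - X ^ N * ((trunc n G : Polynomial C) : C⟦X⟧) := by
      have h3 : w * ((trunc n H : Polynomial C) : C⟦X⟧) - X ^ N * ((trunc n G : Polynomial C) : C⟦X⟧) =
          X ^ N * (G - ((trunc n G : Polynomial C) : C⟦X⟧)) - w * (H - ((trunc n H : Polynomial C) : C⟦X⟧)) := by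
        linear_combination hwH
      rw [h3]
      exact dvd_sub (Dvd.dvd.mul_left (hH G) _) (Dvd.dvd.mul_left (hH H) _)
    have h3 := IsExp.val_le hJ h h1 h2
    rw [map_mul, map_pow] at h3
    rw [← div_eq_mul_inv, le_div_iff₀ (pow_pos h.pos N), mul_comm]
    exact h3
  have h4 : Tendsto (fun n => P x ^ n * (P x ^ N)⁻¹) atTop (𝓝 0) := by
    have h5 : Tendsto (fun n => P x ^ n) atTop (𝓝 0) :=
      tendsto_pow_atTop_nhds_zero_of_lt_one (NNReal.coe_nonneg _) h.lt_one
    simpa using h5.mul_const ((P x ^ N)⁻¹)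
  exact tendsto_of_tendsto_of_tendsto_of_le_of_le tendsto_const_nhds h4 (fun _ => zero_le) key

end place

section circle

variable {F E : Type*} [NontriviallyNormedField F] [IsUltrametricDist F] [CompleteSpace F]
  [NormedField E] [IsUltrametricDist E] [NormedAlgebra F E] [CompleteSpace E]

theorem tendsto_evq {r : ℝ} {hr : 0 < r} {q c : F} {y : E} {hy : IsGauss F y} {hq : ‖q‖ < r}
    {hc : ‖c‖ < r} (f : bsub (K := F) r hr) :
    Tendsto (fun n => ∑ l ∈ Finset.range n, algebraMap F E (coeff l f.1) * (pt q c y) ^ l) atTop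
      (𝓝 (evq hr hy hq hc f)) := by
  have h1 := (summable_norm f.2.choose_spec (norm_pt_lt hy hq hc)).of_norm.hasSum.tendsto_sum_nat
  exact h1

/-- **convergence at the circle** -/
theorem tendsto_circle {r : ℝ} {hr : 0 < r} {q c : F} {y : E} {hy : IsGauss F y} {hq : ‖q‖ < r}
    {hc : ‖c‖ < r} {hc0 : c ≠ 0} {w : FDisc F r hr} {a b : bsub (K := F) r hr}
    (h : w * algebraMap _ _ b = algebraMap _ _ a) :
    Tendsto (fun n => ‖frq hr hy hq hc hc0 w *
        ∑ l ∈ Finset.range n, algebraMap F E (coeff l b.1) * (pt q c y) ^ l -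
      ∑ l ∈ Finset.range n, algebraMap F E (coeff l a.1) * (pt q c y) ^ l‖₊) atTop (𝓝 0) := by
  have h1 : Tendsto (fun n => frq hr hy hq hc hc0 w *
        ∑ l ∈ Finset.range n, algebraMap F E (coeff l b.1) * (pt q c y) ^ l -
      ∑ l ∈ Finset.range n, algebraMap F E (coeff l a.1) * (pt q c y) ^ l) atTop
      (𝓝 (frq hr hy hq hc hc0 w * evq hr hy hq hc b - evq hr hy hq hc a)) :=
    (tendsto_const_nhds.mul (tendsto_evq b)).sub (tendsto_evq a)
  have h2 : frq hr hy hq hc hc0 w * evq hr hy hq hc b - evq hr hy hq hc a = 0 := by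
    rw [← frq_algebraMap (hc0 := hc0), ← frq_algebraMap (hc0 := hc0), ← map_mul, h, sub_self]
  rw [h2] at h1
  have h3 := h1.nnnorm
  rwa [nnnorm_zero] at h3

theorem gauss_sum {y : E} (hy : IsGauss F y) (n : ℕ) (c : ℕ → F) :
    ‖∑ l ∈ Finset.range n, algebraMap F E (c l) * y ^ l‖₊ = (Finset.range n).sup fun l => ‖c l‖₊ := by
  set f : Polynomial F := ∑ l ∈ Finset.range n, Polynomial.monomial l (c l) with hf
  have h1 : Polynomial.aeval y f = ∑ l ∈ Finset.range n, algebraMap F E (c l) * y ^ l := by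
    rw [hf, map_sum]
    exact Finset.sum_congr rfl fun l _ => Polynomial.aeval_monomial _
  have h2 : ∀ l ∈ Finset.range n, f.coeff l = c l := by
    intro l hl
    rw [hf, Polynomial.finsetSum_coeff]
    simp only [Polynomial.coeff_monomial]
    rw [Finset.sum_ite_eq', if_pos hl]
  refine le_antisymm ?_ ?_
  · refine ((Finset.range n).nnnorm_sum_le_sup_nnnorm _).trans ?_
    refine Finset.sup_le fun l hl => ?_
    rw [nnnorm_mul, nnnorm_pow]
    have h3 : ‖y‖₊ ≤ 1 := hy.norm_le
    calc ‖algebraMap F E (c l)‖₊ * ‖y‖₊ ^ l ≤ ‖algebraMap F E (c l)‖₊ * 1 := by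
          gcongr; exact pow_le_one₀ zero_le h3
      _ = ‖c l‖₊ := by rw [mul_one, nnnorm_algebraMap']
      _ ≤ _ := Finset.le_sup (f := fun l => ‖c l‖₊) hl
  · refine Finset.sup_le fun l hl => ?_
    have h3 := hy.coeff_le f l
    rw [h2 l hl, h1] at h3
    exact h3

end circle

end Crest.Agent.R013.Small6_940
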