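import Mathlib
import Crest.Agent.R013.RR22_948

/-!
# R013 / DIV-SPEC, part 1 (helper225): Gauss reduction modulo the maximal ideal of constants
-/

set_option autoImplicit false
set_option linter.all false

namespace Crest.Agent.R013.Spec1_225

open Module

section gauss

variable {F Om K L : Type*} [Field F] [Field Om] [Field K] [Field L]
  [Algebra F Om] [Algebra F K] [Algebra F L] [Algebra K L] [Algebra Om L]
  [IsScalarTower F K L] [IsScalarTower F Om L]
  {Γ : Type*} [LinearOrderedCommGroupWithZero Γ]

variable (K L) in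
/-- `K · m` with `m` the maximal ideal of the valuation ring of `Om` -/
def MM (v : Valuation Om Γ) : Submodule K L :=
  Submodule.span K {y | ∃ ω : Om, v ω < 1 ∧ algebraMap Om L ω = y}

variable {v : Valuation Om Γ}

theorem algebraMap_mem_MM {ω : Om} (h : v ω < 1) : algebraMap Om L ω ∈ MM K L v :=
  Submodule.subset_span ⟨ω, h, rfl⟩

theorem mul_mem_MM (r : K) {x : L} (hx : x ∈ MM K L v) : algebraMap K L r * x ∈ MM K L v := by
  rw [← Algebra.smul_def]; exact Submodule.smul_mem _ _ hx

theorem const_mul_mem_MM {ω : Om} (hω : v ω ≤ 1) {x : L} (hx : x ∈ MM K L v) :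
    algebraMap Om L ω * x ∈ MM K L v := by
  unfold MM at hx
  induction hx using Submodule.span_induction with
  | mem y hy =>
    obtain ⟨η, hη, rfl⟩ := hy
    rw [← map_mul]
    apply algebraMap_mem_MM
    rw [map_mul]
    exact lt_of_le_of_lt (mul_le_of_le_one_left' hω) hη
  | zero => rw [mul_zero]; exact Submodule.zero_mem _
  | add a b _ _ ha hb => rw [mul_add]; exact Submodule.add_mem _ ha hb
  | smul r a _ ha =>
    rw [Algebra.smul_def, mul_left_comm]
    exact mul_mem_MM r ha

theorem mul_MM {x y : L} (hx : x ∈ MM K L v) (hy : y ∈ MM K L v) : x * y ∈ MM K L v := by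
  unfold MM at hy
  induction hy using Submodule.span_induction with
  | mem y hy =>
    obtain ⟨η, hη, rfl⟩ := hy
    rw [mul_comm]
    exact const_mul_mem_MM hη.le hx
  | zero => rw [mul_zero]; exact Submodule.zero_mem _
  | add a b _ _ ha hb => rw [mul_add]; exact Submodule.add_mem _ ha hb
  | smul r a _ ha =>
    rw [Algebra.smul_def, mul_left_comm]
    exact mul_mem_MM r ha

variable (v) in
/-- `a` reduces to `r` -/
def Rd (a : L) (r : K) : Prop := a - algebraMap K L r ∈ MM K L v

theorem Rd.add {a b : L} {r s : K} (h : Rd v a r) (h' : Rd v b s) : Rd v (a + b) (r + s) := by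
  unfold Rd at *
  have := Submodule.add_mem _ h h'
  rw [map_add]
  convert this using 1
  ring

theorem Rd.neg {a : L} {r : K} (h : Rd v a r) : Rd v (-a) (-r) := by
  unfold Rd at *
  have := Submodule.neg_mem _ h
  rw [map_neg]
  convert this using 1
  ring

theorem Rd.sub {a b : L} {r s : K} (h : Rd v a r) (h' : Rd v b s) : Rd v (a - b) (r - s) := by
  rw [sub_eq_add_neg, sub_eq_add_neg]; exact h.add h'.neg

theorem Rd.of (r : K) : Rd v (algebraMap K L r) r := by
  unfold Rd; rw [sub_self]; exact Submodule.zero_mem _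

theorem Rd.of_mem {x : L} (h : x ∈ MM K L v) : Rd v x (0 : K) := by
  unfold Rd; rwa [map_zero, sub_zero]

theorem Rd.zero : Rd v (0 : L) (0 : K) := Rd.of_mem (Submodule.zero_mem _)

theorem Rd.one : Rd v (1 : L) (1 : K) := by
  have := Rd.of (L := L) (v := v) (1 : K)
  rwa [map_one] at this

theorem Rd.mul {a b : L} {r s : K} (h : Rd v a r) (h' : Rd v b s) : Rd v (a * b) (r * s) := by
  unfold Rd at *
  have e : a * b - algebraMap K L (r * s) =
      (a - algebraMap K L r) * (b - algebraMap K L s) + algebraMap K L r * (b - algebraMap K L s)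
        + algebraMap K L s * (a - algebraMap K L r) := by
    rw [map_mul]; ring
  rw [e]
  exact Submodule.add_mem _ (Submodule.add_mem _ (mul_MM h h') (mul_mem_MM r h')) (mul_mem_MM s h)

theorem Rd.sum {ι : Type*} (s : Finset ι) {a : ι → L} {r : ι → K} (h : ∀ i ∈ s, Rd v (a i) (r i)) :
    Rd v (∑ i ∈ s, a i) (∑ i ∈ s, r i) := by
  classical
  induction s using Finset.induction_on with
  | empty => simpa using Rd.zero
  | insert i s hi ih =>
    rw [Finset.sum_insert hi, Finset.sum_insert hi]
    exact (h i (Finset.mem_insert_self _ _)).add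
      (ih fun j hj => h j (Finset.mem_insert_of_mem hj))

theorem Rd.prod {ι : Type*} (s : Finset ι) {a : ι → L} {r : ι → K} (h : ∀ i ∈ s, Rd v (a i) (r i)) :
    Rd v (∏ i ∈ s, a i) (∏ i ∈ s, r i) := by
  classical
  induction s using Finset.induction_on with
  | empty => simpa using Rd.one
  | insert i s hi ih =>
    rw [Finset.prod_insert hi, Finset.prod_insert hi]
    exact (h i (Finset.mem_insert_self _ _)).mul
      (ih fun j hj => h j (Finset.mem_insert_of_mem hj))

theorem Rd.intMul (z : ℤ) {a : L} {r : K} (h : Rd v a r) : Rd v ((z : L) * a) ((z : K) * r) := by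
  have h1 : Rd v ((z : L)) ((z : K)) := by
    have := Rd.of (L := L) (v := v) ((z : K))
    rwa [map_intCast] at this
  exact h1.mul h

/-- reduction of determinants -/
theorem Rd.det {n : Type*} [Fintype n] [DecidableEq n] {A : Matrix n n L} {B : Matrix n n K}
    (h : ∀ i j, Rd v (A i j) (B i j)) : Rd v A.det B.det := by
  rw [Matrix.det_apply', Matrix.det_apply']
  refine Rd.sum _ fun σ _ => Rd.intMul _ (Rd.prod _ fun i _ => h _ _)

/-- the constants of the valuation ring reduce to constants of `F` -/
theorem Rd.const {ω : Om} {c : F} (h : v (ω - algebraMap F Om c) < 1) :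
    Rd v (algebraMap Om L ω) (algebraMap F K c) := by
  unfold Rd
  rw [← IsScalarTower.algebraMap_apply F K L, IsScalarTower.algebraMap_apply F Om L, ← map_sub]
  exact algebraMap_mem_MM h

section basis

variable {ι : Type*} (B : Basis ι F K)

/-- expansion of the elements of `K · m` in a basis of `K` -/
theorem exists_expand (hv : ∀ c : F, c ≠ 0 → v (algebraMap F Om c) = 1) {x : L}
    (hx : x ∈ MM K L v) :
    ∃ g : ι →₀ Om, (∀ i, v (g i) < 1) ∧ x = g.sum fun i ω => algebraMap Om L ω * algebraMap K L (B i) := by
  classical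
  unfold MM at hx
  have hle : ∀ c : F, v (algebraMap F Om c) ≤ 1 := fun c => by
    by_cases hc : c = 0
    · simp [hc]
    · rw [hv c hc]
  have hadd : ∀ g g' : ι →₀ Om,
      ((g + g').sum fun i ω => algebraMap Om L ω * algebraMap K L (B i)) =
      (g.sum fun i ω => algebraMap Om L ω * algebraMap K L (B i)) +
      (g'.sum fun i ω => algebraMap Om L ω * algebraMap K L (B i)) := by
    intro g g'
    rw [Finsupp.sum_add_index']
    · intro i; simp
    · intro i a b; rw [map_add, add_mul]
  -- `r * ω` for `r : K`
  have hsm : ∀ (r : K) (ω : Om), v ω < 1 → ∃ g : ι →₀ Om, (∀ i, v (g i) < 1) ∧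
      algebraMap K L r * algebraMap Om L ω =
        g.sum fun i η => algebraMap Om L η * algebraMap K L (B i) := by
    intro r ω hω
    refine ⟨(B.repr r).mapRange (fun c => algebraMap F Om c * ω) (by simp), ?_, ?_⟩
    · intro i
      rw [Finsupp.mapRange_apply, map_mul]
      exact lt_of_le_of_lt (mul_le_of_le_one_left' (hle _)) hω
    · rw [Finsupp.sum_mapRange_index (by intro i; simp)]
      conv_lhs => rw [← B.linearCombination_repr r, Finsupp.linearCombination_apply, Finsupp.sum,
        map_sum, Finset.sum_mul]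
      refine Finset.sum_congr rfl fun i _ => ?_
      dsimp only
      rw [Algebra.smul_def, map_mul, map_mul, ← IsScalarTower.algebraMap_apply F K L,
        ← IsScalarTower.algebraMap_apply F Om L]
      ring
  have key : ∀ (x : L), x ∈ Submodule.span K {y : L | ∃ ω : Om, v ω < 1 ∧ algebraMap Om L ω = y} →
      ∀ r : K, ∃ g : ι →₀ Om, (∀ i, v (g i) < 1) ∧
        algebraMap K L r * x = g.sum fun i ω => algebraMap Om L ω * algebraMap K L (B i) := by
    intro x hx
    induction hx using Submodule.span_induction with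
    | mem y hy =>
      obtain ⟨η, hη, rfl⟩ := hy
      exact fun r => hsm r η hη
    | zero => exact fun r => ⟨0, by simp, by simp⟩
    | add a b _ _ ha hb =>
      intro r
      obtain ⟨g, hg, e⟩ := ha r
      obtain ⟨g', hg', e'⟩ := hb r
      refine ⟨g + g', fun i => ?_, by rw [mul_add, e, e', hadd]⟩
      rw [Finsupp.add_apply]
      exact lt_of_le_of_lt (v.map_add _ _) (max_lt (hg i) (hg' i))
    | smul s a _ ha =>
      intro r
      obtain ⟨g, hg, e⟩ := ha (r * s)
      refine ⟨g, hg, ?_⟩
      rw [← e, Algebra.smul_def, map_mul]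
      ring
  obtain ⟨g, hg, e⟩ := key x hx 1
  refine ⟨g, hg, ?_⟩
  rw [← e, map_one, one_mul]

/-- `K ∩ K m = 0` -/
theorem eq_zero_of_mem_MM (hv : ∀ c : F, c ≠ 0 → v (algebraMap F Om c) = 1)
    (hB : LinearIndependent Om fun i => algebraMap K L (B i)) {r : K}
    (hr : algebraMap K L r ∈ MM K L v) : r = 0 := by
  classical
  obtain ⟨g, hg, e⟩ := exists_expand B hv hr
  have h1 : algebraMap K L r = Finsupp.linearCombination Om (fun i => algebraMap K L (B i))
      ((B.repr r).mapRange (algebraMap F Om) (map_zero _)) := by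
    rw [Finsupp.linearCombination_apply, Finsupp.sum_mapRange_index (by intro i; simp)]
    conv_lhs => rw [← B.linearCombination_repr r, Finsupp.linearCombination_apply, Finsupp.sum,
      map_sum]
    refine Finset.sum_congr rfl fun i _ => ?_
    dsimp only
    rw [Algebra.smul_def, map_mul, ← IsScalarTower.algebraMap_apply F K L, Algebra.smul_def,
      ← IsScalarTower.algebraMap_apply F Om L]
  have h2 : algebraMap K L r = Finsupp.linearCombination Om (fun i => algebraMap K L (B i)) g := by
    rw [e, Finsupp.linearCombination_apply]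
    simp only [Algebra.smul_def]
  have h3 := hB (h1.symm.trans h2)
  have h4 : B.repr r = 0 := by
    ext i
    by_contra hne
    have h5 := DFunLike.congr_fun h3 i
    rw [Finsupp.mapRange_apply] at h5
    have h6 := hg i
    rw [← h5, hv _ hne] at h6
    exact lt_irrefl _ h6
  rw [LinearEquiv.map_eq_zero_iff] at h4
  exact h4

/-- uniqueness of the reduction -/
theorem Rd.unique (hv : ∀ c : F, c ≠ 0 → v (algebraMap F Om c) = 1)
    (hB : LinearIndependent Om fun i => algebraMap K L (B i)) {a : L} {r s : K}
    (h : Rd v a r) (h' : Rd v a s) : r = s := by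
  have h1 := h.sub h'
  rw [sub_self] at h1
  unfold Rd at h1
  have h2 := Submodule.neg_mem _ h1
  rw [zero_sub, neg_neg] at h2
  exact sub_eq_zero.mp (eq_zero_of_mem_MM B hv hB h2)

include B in
/-- normalisation of the elements of `Om · K` -/
theorem exists_normal (hv : ∀ c : F, c ≠ 0 → v (algebraMap F Om c) = 1)
    (hres : ∀ a : Om, v a ≤ 1 → ∃ c : F, v (a - algebraMap F Om c) < 1)
    {x : L} (hx : x ∈ Submodule.span Om (Set.range (algebraMap K L))) (hx0 : x ≠ 0) :
    ∃ (ω : Om) (a : L) (r : K), ω ≠ 0 ∧ r ≠ 0 ∧ Rd v a r ∧ x = algebraMap Om L ω * a := by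
  classical
  obtain ⟨g, rfl⟩ : ∃ g : ι →₀ Om, Finsupp.linearCombination Om (fun i => algebraMap K L (B i)) g = x := by
    have h1 : x ∈ Submodule.span Om (Set.range fun i => algebraMap K L (B i)) := by
      refine Submodule.span_le.mpr ?_ hx
      rintro _ ⟨r, rfl⟩
      rw [← B.linearCombination_repr r, Finsupp.linearCombination_apply, Finsupp.sum, map_sum]
      refine Submodule.sum_mem _ fun i _ => ?_
      rw [Algebra.smul_def, map_mul, ← IsScalarTower.algebraMap_apply F K L,
        IsScalarTower.algebraMap_apply F Om L, ← Algebra.smul_def]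
      exact Submodule.smul_mem _ _ (Submodule.subset_span ⟨i, rfl⟩)
    exact (Finsupp.mem_span_range_iff_exists_finsupp.mp h1).imp fun g hg => by
      rw [Finsupp.linearCombination_apply]; exact hg
  have hg0 : g.support.Nonempty := by
    rw [Finsupp.support_nonempty_iff]
    rintro rfl
    exact hx0 (map_zero _)
  obtain ⟨i0, hi0, hmax⟩ := Finset.exists_max_image g.support (fun i => v (g i)) hg0
  have hω0 : g i0 ≠ 0 := Finsupp.mem_support_iff.mp hi0
  have hle : ∀ i, v (g i / g i0) ≤ 1 := by
    intro i
    rw [map_div₀]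
    apply div_le_one_of_le₀ _ zero_le
    by_cases hi : i ∈ g.support
    · exact hmax i hi
    · rw [Finsupp.notMem_support_iff.mp hi, map_zero]; exact zero_le
  choose c hc using fun i => hres _ (hle i)
  refine ⟨g i0, ∑ i ∈ g.support, algebraMap Om L (g i / g i0) * algebraMap K L (B i),
    ∑ i ∈ g.support, algebraMap F K (c i) * B i, hω0, ?_, ?_, ?_⟩
  · intro h0
    have h1 : ∑ i ∈ g.support, c i • B i = 0 := by
      rw [← h0]
      exact Finset.sum_congr rfl fun i _ => by rw [Algebra.smul_def]
    have h2 := linearIndependent_iff'.mp B.linearIndependent g.support c h1 i0 hi0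
    have h3 := hc i0
    rw [h2, map_zero, sub_zero, div_self hω0, map_one] at h3
    exact lt_irrefl _ h3
  · refine Rd.sum _ fun i _ => (Rd.const (hc i)).mul (Rd.of _)
  · rw [Finset.mul_sum, Finsupp.linearCombination_apply, Finsupp.sum]
    refine Finset.sum_congr rfl fun i _ => ?_
    rw [Algebra.smul_def, ← mul_assoc, ← map_mul, mul_div_cancel₀ _ hω0]

end basis

end gauss

end Crest.Agent.R013.Spec1_225
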