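import Mathlib
import Crest.Agent.R013.Spec1_225
import Crest.Agent.R013.WR5_777

/-!
# R013 / DIV-SPEC, part 2 (helper225): places over an algebraically closed field; the projective line
-/

set_option autoImplicit false
set_option linter.all false

namespace Crest.Agent.R013.Spec2_225

open Polynomial WithZero Module
open Crest.Agent.R013.RR1_948 Crest.Agent.R013.RR2_948
open Crest.Agent.R013.RR7_948 Crest.Agent.R013.RR8_948 Crest.Agent.R013.RR9_948
open Crest.Agent.R013.RR11_948 Crest.Agent.R013.RR12_948 Crest.Agent.R013.RR13_948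
open Crest.Agent.R013.RR18_948 Crest.Agent.R013.RR19_948 Crest.Agent.R013.RR20_948
open Crest.Agent.R013.WR5_777 Crest.Agent.R013.Spec1_225

section closed

variable {k : Type*} [Field k] [IsAlgClosed k] {K : Type*} [Field K] [Algebra k K]
  [Algebra (RatFunc k) K]
  [IsScalarTower k (RatFunc k) K] [FiniteDimensional (RatFunc k) K]
  [Algebra.IsSeparable (RatFunc k) K]

theorem degP_eq_one (P : Pl k K) : degP P = 1 := by
  rw [← finrank_Kap P]
  have h : Function.Bijective (algebraMap k (Kap P)) :=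
    IsAlgClosed.algebraMap_bijective_of_isIntegral
  exact (LinearEquiv.ofBijective (Algebra.linearMap k (Kap P)) h).finrank_eq.symm.trans
    (Module.finrank_self k)

/-- the value of a function regular at `P` is a constant -/
theorem exists_val (P : Pl k K) {f : K} (hf : P.v f ≤ 1) :
    ∃ c : k, P.v (f - algebraMap k K c) < 1 := by
  have h : Function.Bijective (algebraMap k (Kap P)) :=
    IsAlgClosed.algebraMap_bijective_of_isIntegral
  obtain ⟨c, hc⟩ := h.2 (val P f hf)
  refine ⟨c, ?_⟩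
  rw [algebraMap_Kap] at hc
  unfold val at hc
  rw [rs_eq] at hc
  rw [← Valuation.map_neg, neg_sub]
  exact hc

theorem degD_eq_sum (D : Pl k K →₀ ℤ) : degD D = D.sum fun _ n => n := by
  unfold degD
  refine Finsupp.sum_congr fun P _ => ?_
  rw [degP_eq_one, Nat.cast_one, mul_one]

end closed

/-- values are unique -/
theorem val_unique {k K : Type*} [Field k] [Field K] [Algebra k K] (P : Pl k K) {f : K} {c d : k}
    (hc : P.v (f - algebraMap k K c) < 1) (hd : P.v (f - algebraMap k K d) < 1) : c = d := by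
  by_contra hne
  have h1 : P.v (algebraMap k K (c - d)) < 1 := by
    have e : algebraMap k K (c - d) = (f - algebraMap k K d) - (f - algebraMap k K c) := by
      rw [map_sub]; ring
    rw [e]
    exact lt_of_le_of_lt (P.v.map_sub _ _) (max_lt hd hc)
  rw [P.const _ (sub_ne_zero.mpr hne)] at h1
  exact lt_irrefl _ h1

section line

variable {Om : Type*} [Field Om] {Γ : Type*} [LinearOrderedCommGroupWithZero Γ]
  (v : Valuation Om Γ)

/-- a function with a value in the valuation ring at `P` -/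
def Good {L : Type*} [Field L] [Algebra Om L] (P : Pl Om L) (f : L) : Prop :=
  ∃ c : Om, v c ≤ 1 ∧ P.v (f - algebraMap Om L c) < 1

variable {L : Type*} [Field L] [Algebra Om L]

open Classical in
/-- sum of the coefficients of `D` at the places where `x` is not in the valuation ring -/
noncomputable def Th (x : L) : (Pl Om L →₀ ℤ) →+ ℤ :=
  Finsupp.liftAddHom fun P => if Good v P x then 0 else AddMonoidHom.id ℤ

open Classical in
theorem Th_apply (x : L) (D : Pl Om L →₀ ℤ) :
    Th v x D = D.sum fun P n => if Good v P x then 0 else n := by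
  unfold Th
  rw [Finsupp.liftAddHom_apply]
  refine Finsupp.sum_congr fun P _ => ?_
  split_ifs <;> rfl

end line

section pinf

variable {k : Type*} [Field k]

theorem pinf_X : (pinf k).v RatFunc.X = exp 1 := by
  show vinf k RatFunc.X = exp 1
  exact vinf_X k

theorem pinf_X_sub_C (c : k) : (pinf k).v (RatFunc.X - algebraMap k (RatFunc k) c) = exp 1 := by
  have h1 : (pinf k).v (algebraMap k (RatFunc k) c) < (pinf k).v RatFunc.X := by
    rw [pinf_X]
    apply lt_of_le_of_lt (b := 1)
    · by_cases hc : c = 0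
      · simp [hc]
      · rw [(pinf k).const c hc]
    · rw [← exp_zero, exp_lt_exp]; norm_num
  rw [Valuation.map_sub_eq_of_lt_left _ h1]
  exact pinf_X

theorem X_sub_ne (c : k) : RatFunc.X - algebraMap k (RatFunc k) c ≠ 0 := by
  intro h
  have h1 := pinf_X_sub_C c
  rw [h, map_zero] at h1
  exact exp_ne_zero h1.symm

end pinf

section line2

variable {Om : Type*} [Field Om] [IsAlgClosed Om] {Γ : Type*} [LinearOrderedCommGroupWithZero Γ]
  (v : Valuation Om Γ)

theorem not_good_pinf : ¬ Good v (pinf Om) (RatFunc.X : RatFunc Om) := by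
  rintro ⟨c, _, hc⟩
  rw [pinf_X_sub_C, ← exp_zero, exp_lt_exp] at hc
  norm_num at hc

theorem eq_pinf {P : Pl Om (RatFunc Om)} (h : 1 < P.v RatFunc.X) : P = pinf Om := by
  apply Pl.ext
  apply eq_of_isEquiv_surj _ P.surj (pinf Om).surj
  exact isEquiv_vinf _ (fun c hc => P.const c hc) h

theorem v_X_sub {P : Pl Om (RatFunc Om)} {c d : Om}
    (hc : P.v (RatFunc.X - algebraMap Om (RatFunc Om) c) < 1) (hcd : c ≠ d) :
    P.v (RatFunc.X - algebraMap Om (RatFunc Om) d) = 1 := by
  have e : RatFunc.X - algebraMap Om (RatFunc Om) d =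
      (RatFunc.X - algebraMap Om (RatFunc Om) c) + algebraMap Om (RatFunc Om) (c - d) := by
    rw [map_sub]; ring
  have h1 := P.const (c - d) (sub_ne_zero.mpr hcd)
  rw [e, Valuation.map_add_eq_of_lt_right, h1]
  rwa [h1]

theorem Th_X_sub_of_le {c : Om} (hc : v c ≤ 1) :
    Th v (RatFunc.X : RatFunc Om) (divf (RatFunc.X - algebraMap Om (RatFunc Om) c)) = -1 := by
  classical
  rw [Th_apply, Finsupp.sum, Finset.sum_eq_single (pinf Om)]
  · rw [if_neg (not_good_pinf v)]
    have h1 := v_eq (k := Om) (X_sub_ne c) (pinf Om)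
    rw [pinf_X_sub_C, exp_inj] at h1
    linarith
  · intro P _ hP
    split_ifs with h
    · rfl
    · have h1 : P.v RatFunc.X ≤ 1 := not_lt.mp fun h2 => hP (eq_pinf h2)
      obtain ⟨d, hd⟩ := exists_val P h1
      have hdc : d ≠ c := by
        rintro rfl
        exact h ⟨d, hc, hd⟩
      have h2 := v_X_sub hd hdc
      rw [v_eq (X_sub_ne c), ← exp_zero, exp_inj] at h2
      linarith
  · intro h
    rw [Finsupp.notMem_support_iff.mp h]
    simp

theorem Th_X_sub_of_gt {c : Om} (hc : 1 < v c) :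
    Th v (RatFunc.X : RatFunc Om) (divf (RatFunc.X - algebraMap Om (RatFunc Om) c)) = 0 := by
  classical
  have h0 := degD_divf (k := Om) (X_sub_ne c)
  rw [degD_eq_sum] at h0
  rw [Th_apply, ← h0]
  refine Finsupp.sum_congr fun P _ => ?_
  split_ifs with h
  · obtain ⟨d, hd, hd'⟩ := h
    have hdc : d ≠ c := by
      rintro rfl
      exact absurd hd (not_le.mpr hc)
    have h2 := v_X_sub hd' hdc
    rw [v_eq (X_sub_ne c), ← exp_zero, exp_inj] at h2
    linarith
  · rfl

end line2

section const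

variable {k : Type*} [Field k] {K : Type*} [Field K] [Algebra k K] [Algebra (RatFunc k) K]
  [IsScalarTower k (RatFunc k) K] [FiniteDimensional (RatFunc k) K]
  [Algebra.IsSeparable (RatFunc k) K]

theorem divf_const {c : k} (hc : c ≠ 0) : divf (k := k) (algebraMap k K c) = 0 := by
  ext P
  have h0 : algebraMap k K c ≠ 0 := by simpa using hc
  have h1 := v_eq (k := k) h0 P
  rw [P.const c hc, ← exp_zero, exp_inj] at h1
  rw [Finsupp.zero_apply]
  linarith

end const

section poly

variable {F Om : Type*} [Field F] [Field Om] [Algebra F Om] [IsAlgClosed Om]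
  [Algebra (RatFunc F) (RatFunc Om)] [IsScalarTower F (RatFunc F) (RatFunc Om)]
  [IsScalarTower F Om (RatFunc Om)]
  {Γ : Type*} [LinearOrderedCommGroupWithZero Γ] {v : Valuation Om Γ}

/-- the comparison for one element -/
def Cmp (v : Valuation Om Γ) (n : RatFunc Om) : Prop :=
  n ≠ 0 ∧ ∃ (ω : Om) (a : RatFunc Om) (r : RatFunc F), ω ≠ 0 ∧ r ≠ 0 ∧ Rd v a r ∧
    n = algebraMap Om (RatFunc Om) ω * a ∧
    Th v (RatFunc.X : RatFunc Om) (divf n) = divf (k := F) r (pinf F)

theorem Cmp.mul {m n : RatFunc Om} (hm : Cmp (F := F) v m) (hn : Cmp (F := F) v n) :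
    Cmp (F := F) v (m * n) := by
  obtain ⟨hm0, ω, a, r, h1, h2, h3, h4, h5⟩ := hm
  obtain ⟨hn0, ω', a', r', h1', h2', h3', h4', h5'⟩ := hn
  refine ⟨mul_ne_zero hm0 hn0, ω * ω', a * a', r * r', mul_ne_zero h1 h1', mul_ne_zero h2 h2',
    h3.mul h3', ?_, ?_⟩
  · rw [h4, h4', map_mul]; ring
  · rw [divf_mul hm0 hn0, divf_mul h2 h2', map_add, h5, h5', Finsupp.add_apply]

theorem Cmp.const {c : Om} (hc : c ≠ 0) : Cmp (F := F) v (algebraMap Om (RatFunc Om) c) := by
  refine ⟨by simpa using hc, c, 1, 1, hc, one_ne_zero, Rd.one, by rw [mul_one], ?_⟩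
  rw [divf_const hc, divf_one, map_zero]
  rfl

variable (hX : algebraMap (RatFunc F) (RatFunc Om) RatFunc.X = RatFunc.X)
  (hres : ∀ a : Om, v a ≤ 1 → ∃ c : F, v (a - algebraMap F Om c) < 1)

include hX hres in
theorem Cmp.X_sub (c : Om) : Cmp (F := F) v (RatFunc.X - algebraMap Om (RatFunc Om) c) := by
  refine ⟨X_sub_ne c, ?_⟩
  rcases le_or_gt (v c) 1 with hc | hc
  · obtain ⟨d, hd⟩ := hres c hc
    have h1 : RatFunc.X - algebraMap F (RatFunc F) d ≠ 0 := X_sub_ne d
    refine ⟨1, RatFunc.X - algebraMap Om (RatFunc Om) c, RatFunc.X - algebraMap F (RatFunc F) d,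
      one_ne_zero, h1, ?_, by rw [map_one, one_mul], ?_⟩
    · refine Rd.sub ?_ (Rd.const hd)
      rw [← hX]
      exact Rd.of _
    · rw [Th_X_sub_of_le v hc]
      have h2 := v_eq (k := F) h1 (pinf F)
      rw [pinf_X_sub_C, exp_inj] at h2
      linarith
  · have hc0 : c ≠ 0 := by
      rintro rfl
      rw [map_zero] at hc
      exact absurd hc (not_lt.mpr zero_le_one)
    refine ⟨-c, 1 - algebraMap Om (RatFunc Om) c⁻¹ * RatFunc.X, 1, neg_ne_zero.mpr hc0,
      one_ne_zero, ?_, ?_, ?_⟩
    · have h1 : v c⁻¹ < 1 := by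
        rw [map_inv₀]
        exact inv_lt_one_of_one_lt₀ hc
      have h2 : algebraMap Om (RatFunc Om) c⁻¹ * RatFunc.X ∈ MM (RatFunc F) (RatFunc Om) v := by
        rw [mul_comm, ← hX]
        exact mul_mem_MM _ (algebraMap_mem_MM h1)
      have h3 := (Rd.one (K := RatFunc F) (L := RatFunc Om) (v := v)).sub (Rd.of_mem h2)
      rwa [sub_zero] at h3
    · have h1 : algebraMap Om (RatFunc Om) c * algebraMap Om (RatFunc Om) c⁻¹ = 1 := by
        rw [← map_mul, mul_inv_cancel₀ hc0, map_one]
      rw [map_neg]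
      linear_combination (-RatFunc.X) * h1
    · rw [Th_X_sub_of_gt v hc, divf_one]
      rfl

include hX hres in
theorem Cmp.poly {p : Om[X]} (hp : p ≠ 0) : Cmp (F := F) v (algebraMap Om[X] (RatFunc Om) p) := by
  have h := IsAlgClosed.splits p
  rw [h.eq_prod_roots, map_mul, RatFunc.algebraMap_C, ← algebraMap_eq_C]
  refine (Cmp.const (Polynomial.leadingCoeff_ne_zero.mpr hp)).mul ?_
  generalize p.roots = s
  induction s using Multiset.induction_on with
  | empty =>
    rw [Multiset.map_zero, Multiset.prod_zero, map_one, ← map_one (algebraMap Om (RatFunc Om))]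
    exact Cmp.const one_ne_zero
  | cons a s ih =>
    rw [Multiset.map_cons, Multiset.prod_cons, map_mul]
    refine Cmp.mul ?_ ih
    rw [map_sub, RatFunc.algebraMap_X, RatFunc.algebraMap_C, ← algebraMap_eq_C]
    exact Cmp.X_sub hX hres a

include hX hres in
/-- **comparison on the projective line** -/
theorem Th_eq_of_Rd (hv : ∀ c : F, c ≠ 0 → v (algebraMap F Om c) = 1)
    (huniq : ∀ r : RatFunc F, algebraMap (RatFunc F) (RatFunc Om) r ∈
      MM (RatFunc F) (RatFunc Om) v → r = 0)
    {n : RatFunc Om} {rho : RatFunc F} (hrho : rho ≠ 0) (h : Rd v n rho) :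
    n ≠ 0 ∧ Th v (RatFunc.X : RatFunc Om) (divf n) = divf (k := F) rho (pinf F) := by
  have hU : ∀ {a : RatFunc Om} {r s : RatFunc F}, Rd v a r → Rd v a s → r = s := by
    intro a r s h1 h2
    have h3 := h1.sub h2
    rw [sub_self] at h3
    unfold Rd at h3
    have h4 := Submodule.neg_mem _ h3
    rw [zero_sub, neg_neg] at h4
    exact sub_eq_zero.mp (huniq _ h4)
  have hn0 : n ≠ 0 := by
    rintro rfl
    exact hrho (hU h Rd.zero)
  refine ⟨hn0, ?_⟩
  obtain ⟨p, q, hq, hpq⟩ : ∃ p q : Om[X], q ≠ 0 ∧ n * algebraMap Om[X] (RatFunc Om) q =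
      algebraMap Om[X] (RatFunc Om) p := by
    refine ⟨n.num, n.denom, n.denom_ne_zero, ?_⟩
    have h1 := RatFunc.num_div_denom n
    have h2 : algebraMap Om[X] (RatFunc Om) n.denom ≠ 0 := by
      simpa using n.denom_ne_zero
    rw [div_eq_iff h2] at h1
    exact h1.symm
  have hp : p ≠ 0 := by
    rintro rfl
    rw [map_zero] at hpq
    have h2 : algebraMap Om[X] (RatFunc Om) q ≠ 0 := by simpa using hq
    exact (mul_ne_zero hn0 h2) hpq
  obtain ⟨hp0, ωp, ap, rp, hωp, hrp, hap, hep, hTp⟩ := Cmp.poly (F := F) hX hres hp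
  obtain ⟨hq0, ωq, aq, rq, hωq, hrq, haq, heq, hTq⟩ := Cmp.poly (F := F) hX hres hq
  have h1 : n * aq = algebraMap Om (RatFunc Om) (ωp / ωq) * ap := by
    have h2 : algebraMap Om (RatFunc Om) ωq ≠ 0 := by simpa using hωq
    apply mul_left_cancel₀ h2
    rw [map_div₀]
    calc algebraMap Om (RatFunc Om) ωq * (n * aq)
        = n * (algebraMap Om (RatFunc Om) ωq * aq) := by ring
      _ = algebraMap Om (RatFunc Om) ωp * ap := by rw [← heq, hpq, hep]
      _ = _ := by field_simp
  have h2 : Rd v (n * aq) (rho * rq) := h.mul haq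
  have hne : rho * rq ≠ 0 := mul_ne_zero hrho hrq
  have hκ0 : ωp / ωq ≠ 0 := div_ne_zero hωp hωq
  have hκ : v (ωp / ωq) = 1 := by
    rcases lt_trichotomy (v (ωp / ωq)) 1 with h3 | h3 | h3
    · exfalso
      have h4 : Rd v (algebraMap Om (RatFunc Om) (ωp / ωq) * ap) ((0 : RatFunc F) * rp) :=
        (Rd.of_mem (algebraMap_mem_MM h3)).mul hap
      rw [zero_mul, ← h1] at h4
      exact hne (hU h2 h4)
    · exact h3
    · exfalso
      have h4 : v (ωp / ωq)⁻¹ < 1 := by
        rw [map_inv₀]; exact inv_lt_one_of_one_lt₀ h3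
      have h5 : Rd v (algebraMap Om (RatFunc Om) (ωp / ωq)⁻¹ * (n * aq)) ((0 : RatFunc F) * (rho * rq)) :=
        (Rd.of_mem (algebraMap_mem_MM h4)).mul h2
      rw [zero_mul, h1, ← mul_assoc, ← map_mul, inv_mul_cancel₀ hκ0, map_one, one_mul] at h5
      exact hrp (hU hap h5)
  obtain ⟨c, hc⟩ := hres _ hκ.le
  have hc0 : c ≠ 0 := by
    rintro rfl
    rw [map_zero, sub_zero, hκ] at hc
    exact lt_irrefl _ hc
  have h3 : Rd v (algebraMap Om (RatFunc Om) (ωp / ωq) * ap) (algebraMap F (RatFunc F) c * rp) :=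
    (Rd.const hc).mul hap
  rw [← h1] at h3
  have h4 := hU h2 h3
  have hc1 : algebraMap F (RatFunc F) c ≠ 0 := by simpa using hc0
  have h5 : divf (k := F) (rho * rq) = divf (algebraMap F (RatFunc F) c * rp) := by rw [h4]
  rw [divf_mul hrho hrq, divf_mul hc1 hrp, divf_const hc0, zero_add] at h5
  have h6 := DFunLike.congr_fun h5 (pinf F)
  rw [Finsupp.add_apply] at h6
  have h7 : Th v (RatFunc.X : RatFunc Om) (divf (n * algebraMap Om[X] (RatFunc Om) q)) =
      Th v (RatFunc.X : RatFunc Om) (divf (algebraMap Om[X] (RatFunc Om) p)) := by rw [hpq]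
  rw [divf_mul hn0 hq0, map_add, hTp, hTq] at h7
  linarith

end poly

end Crest.Agent.R013.Spec2_225
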