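import Mathlib
import Crest.Agent.R013.Spec2_225
import Crest.Agent.R013.CE4_280

/-!
# R013 / DIV-SPEC, part 3 (helper225): the norm to the projective line commutes with reduction
-/

set_option autoImplicit false
set_option linter.all false

namespace Crest.Agent.R013.Spec3_225

open Polynomial WithZero Module
open scoped TensorProduct
open Crest.Agent.R013.RR1_948 Crest.Agent.R013.RR2_948
open Crest.Agent.R013.RR7_948 Crest.Agent.R013.RR8_948 Crest.Agent.R013.RR9_948
open Crest.Agent.R013.RR11_948 Crest.Agent.R013.RR12_948 Crest.Agent.R013.RR13_948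
open Crest.Agent.R013.RR18_948 Crest.Agent.R013.RR19_948 Crest.Agent.R013.RR20_948
open Crest.Agent.R013.RR22_948
open Crest.Agent.R013.WR5_777 Crest.Agent.R013.Spec1_225 Crest.Agent.R013.Spec2_225
open Crest.Agent.R013.CE3_280

section ld

variable {F Om K L : Type*} [Field F] [Field Om] [Field K] [Field L]
  [Algebra F Om] [Algebra F K] [Algebra F L] [Algebra K L] [Algebra Om L]
  [IsScalarTower F K L] [IsScalarTower F Om L]
  (hι : IsCE Om (IsScalarTower.toAlgHom F K L))

include hι in
theorem ld {ι : Type*} {b : ι → K} (hb : LinearIndependent F b) :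
    LinearIndependent Om fun i => algebraMap K L (b i) := by
  have h1 := Module.Flat.linearIndependent_one_tmul (S := Om) hb
  have h2 := h1.map_injOn (mu (Ω := Om) (IsScalarTower.toAlgHom F K L)).toLinearMap
    (hι.inj.injOn)
  convert h2 using 1
  funext i
  simp

end ld

section transfer

variable {F Om K L : Type*} [Field F] [Field Om] [Field K] [Field L]
  [Algebra F Om] [Algebra F K] [Algebra F L] [Algebra K L] [Algebra Om L]
  [IsScalarTower F K L] [IsScalarTower F Om L]
  (hι : IsCE Om (IsScalarTower.toAlgHom F K L))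
  [Algebra (RatFunc F) K] [IsScalarTower F (RatFunc F) K]
  [Algebra (RatFunc Om) L] [IsScalarTower Om (RatFunc Om) L] [FiniteDimensional (RatFunc Om) L]
  [Algebra (RatFunc F) (RatFunc Om)] [Algebra (RatFunc F) L]
  [IsScalarTower (RatFunc F) K L] [IsScalarTower (RatFunc F) (RatFunc Om) L]
  (hX : algebraMap (RatFunc F) (RatFunc Om) RatFunc.X = RatFunc.X)

include hX in
theorem map_xK : algebraMap K L (xK F K) = xK Om L := by
  show algebraMap K L (algebraMap (RatFunc F) K RatFunc.X) = algebraMap (RatFunc Om) L RatFunc.X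
  rw [← IsScalarTower.algebraMap_apply, IsScalarTower.algebraMap_apply (RatFunc F) (RatFunc Om) L,
    hX]

include hι hX in
theorem linearIndependent_transfer {n : ℕ} (β : Basis (Fin n) (RatFunc F) K) :
    LinearIndependent (RatFunc Om) fun i => algebraMap K L (β i) := by
  letI := algPoly F K
  haveI := towerPoly F K
  letI := algPoly Om L
  haveI := towerPoly Om L
  haveI : IsScalarTower F F[X] K := IsScalarTower.of_algebraMap_eq fun c => by
    show algebraMap F K c = algebraMap F[X] K (Polynomial.C c)
    rw [IsScalarTower.algebraMap_apply F[X] (RatFunc F) K, RatFunc.algebraMap_C,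
      ← algebraMap_eq_C, ← IsScalarTower.algebraMap_apply]
  rw [← LinearIndependent.iff_fractionRing Om[X] (RatFunc Om)]
  have h1 : LinearIndependent F[X] β := (LinearIndependent.iff_fractionRing F[X] (RatFunc F)).mpr
    β.linearIndependent
  have h2 : LinearIndependent F fun p : ℕ × Fin n => (Polynomial.basisMonomials F p.1) • β p.2 :=
    linearIndependent_smul (Polynomial.basisMonomials F).linearIndependent h1
  have h3 := ld hι h2
  have hmon : ∀ (m : ℕ) (y : K), algebraMap K L (Polynomial.basisMonomials F m • y) =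
      xK Om L ^ m * algebraMap K L y := by
    intro m y
    have e : (Polynomial.basisMonomials F) m = (Polynomial.X : F[X]) ^ m := by
      rw [Polynomial.coe_basisMonomials]
      exact (Polynomial.X_pow_eq_monomial _).symm
    have e2 : algebraMap F[X] K Polynomial.X = xK F K := by
      rw [IsScalarTower.algebraMap_apply F[X] (RatFunc F) K, RatFunc.algebraMap_X]
      rfl
    rw [e, Algebra.smul_def, map_mul, map_pow, map_pow, e2,
      map_xK (F := F) (Om := Om) (K := K) (L := L) hX]
  rw [Fintype.linearIndependent_iff]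
  intro g hg i
  obtain ⟨N, hN⟩ : ∃ N : ℕ, ∀ i, (g i).natDegree < N :=
    ⟨(Finset.univ.sup fun i => (g i).natDegree) + 1, fun i =>
      Nat.lt_succ_of_le (Finset.le_sup (f := fun i => (g i).natDegree) (Finset.mem_univ i))⟩
  have hsm : ∀ (p : Om[X]) (y : L), p.natDegree < N → p • y =
      ∑ m ∈ Finset.range N, p.coeff m • (xK Om L ^ m * y) := by
    intro p y hp
    conv_lhs => rw [p.as_sum_range' N hp]
    rw [Finset.sum_smul]
    refine Finset.sum_congr rfl fun m _ => ?_
    rw [Algebra.smul_def, Algebra.smul_def, ← Polynomial.C_mul_X_pow_eq_monomial, map_mul, map_pow,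
      ← mul_assoc]
    congr 2
    · rw [IsScalarTower.algebraMap_apply Om[X] (RatFunc Om) L, RatFunc.algebraMap_C,
        ← algebraMap_eq_C, ← IsScalarTower.algebraMap_apply]
  have h4 : ∑ p ∈ Finset.range N ×ˢ (Finset.univ : Finset (Fin n)), (g p.2).coeff p.1 •
      algebraMap K L (Polynomial.basisMonomials F p.1 • β p.2) = 0 := by
    rw [Finset.sum_product_right, ← hg]
    refine Finset.sum_congr rfl fun i _ => ?_
    rw [hsm _ _ (hN i)]
    exact Finset.sum_congr rfl fun m _ => by rw [hmon]
  have h5 := linearIndependent_iff'.mp h3 _ (fun p => (g p.2).coeff p.1) h4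
  ext m
  rw [Polynomial.coeff_zero]
  by_cases hm : m < N
  · exact h5 (m, i) (Finset.mem_product.mpr ⟨Finset.mem_range.mpr hm, Finset.mem_univ _⟩)
  · exact Polynomial.coeff_eq_zero_of_natDegree_lt (lt_of_lt_of_le (hN i) (not_lt.mp hm))

include hι in
theorem span_transfer {n : ℕ} (β : Basis (Fin n) (RatFunc F) K) :
    ⊤ ≤ Submodule.span (RatFunc Om) (Set.range fun i => algebraMap K L (β i)) := by
  set W := Submodule.span (RatFunc Om) (Set.range fun i => algebraMap K L (β i)) with hW
  let A : Subalgebra (RatFunc Om) L := Algebra.adjoin (RatFunc Om) (Set.range (algebraMap K L))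
  have hA : Subalgebra.toSubmodule A ≤ W := by
    show Subalgebra.toSubmodule (Algebra.adjoin (RatFunc Om) (Set.range (algebraMap K L))) ≤ W
    rw [Algebra.adjoin_eq_span]
    refine Submodule.span_le.mpr ?_
    intro y hy
    have hy' : y ∈ (algebraMap K L).rangeS.toSubmonoid := by
      refine Submonoid.closure_le.mpr ?_ hy
      rintro _ ⟨r, rfl⟩
      exact ⟨r, rfl⟩
    obtain ⟨r, rfl⟩ := hy'
    have e : r = ∑ i, β.repr r i • β i := (β.sum_repr r).symm
    show algebraMap K L r ∈ W
    rw [e, map_sum]
    refine Submodule.sum_mem _ fun i _ => ?_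
    rw [Algebra.smul_def, map_mul, ← IsScalarTower.algebraMap_apply (RatFunc F) K L,
      IsScalarTower.algebraMap_apply (RatFunc F) (RatFunc Om) L, ← Algebra.smul_def]
    exact Submodule.smul_mem _ _ (Submodule.subset_span ⟨i, rfl⟩)
  intro f _
  apply hA
  show f ∈ A
  have hmu : ∀ t : Om ⊗[F] K, mu (IsScalarTower.toAlgHom F K L) t ∈ A := by
    intro t
    induction t using TensorProduct.induction_on with
    | zero => rw [map_zero]; exact A.zero_mem
    | tmul c y =>
      rw [mu_tmul]
      refine A.mul_mem ?_ (Algebra.subset_adjoin ⟨y, rfl⟩)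
      rw [IsScalarTower.algebraMap_apply Om (RatFunc Om) L]
      exact A.algebraMap_mem _
    | add a b ha hb => rw [map_add]; exact A.add_mem ha hb
  obtain ⟨a, b, hb, hab⟩ := hι.frac f
  have hb0 := hι.ne_zero hb
  have h1 : f = mu (IsScalarTower.toAlgHom F K L) a * (mu (IsScalarTower.toAlgHom F K L) b)⁻¹ := by
    rw [← hab, mul_assoc, mul_inv_cancel₀ hb0, mul_one]
  rw [h1]
  refine A.mul_mem (hmu a) ?_
  exact A.inv_mem_of_algebraic (x := ⟨_, hmu b⟩) (Algebra.IsAlgebraic.isAlgebraic _)

/-- the transferred basis -/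
theorem exists_basis_transfer (hι : IsCE Om (IsScalarTower.toAlgHom F K L))
    (hX : algebraMap (RatFunc F) (RatFunc Om) RatFunc.X = RatFunc.X)
    {n : ℕ} (β : Basis (Fin n) (RatFunc F) K) :
    ∃ β' : Basis (Fin n) (RatFunc Om) L, ∀ i, β' i = algebraMap K L (β i) := by
  refine ⟨Basis.mk (linearIndependent_transfer hι hX β) (span_transfer hι β), fun i => ?_⟩
  rw [Basis.mk_apply]

variable {Γ : Type*} [LinearOrderedCommGroupWithZero Γ] {v : Valuation Om Γ}
  {n : ℕ} {β : Basis (Fin n) (RatFunc F) K} {β' : Basis (Fin n) (RatFunc Om) L}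
  (hβ : ∀ i, β' i = algebraMap K L (β i))

include hβ in
theorem repr_algebraMap (s : K) (i : Fin n) :
    β'.repr (algebraMap K L s) i = algebraMap (RatFunc F) (RatFunc Om) (β.repr s i) := by
  have h1 : algebraMap K L s = ∑ j, algebraMap (RatFunc F) (RatFunc Om) (β.repr s j) • β' j := by
    conv_lhs => rw [← β.sum_repr s]
    rw [map_sum]
    refine Finset.sum_congr rfl fun j _ => ?_
    rw [hβ, Algebra.smul_def, map_mul, ← IsScalarTower.algebraMap_apply (RatFunc F) K L,
      IsScalarTower.algebraMap_apply (RatFunc F) (RatFunc Om) L, ← Algebra.smul_def]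
  rw [h1, Basis.repr_sum_self]

include hβ in
theorem repr_mem_MM [IsScalarTower Om (RatFunc Om) L] {y : L} (hy : y ∈ MM K L v) (i : Fin n) :
    β'.repr y i ∈ MM (RatFunc F) (RatFunc Om) v := by
  unfold MM at hy
  revert i
  induction hy using Submodule.span_induction with
  | mem y hy =>
    obtain ⟨ω, hω, rfl⟩ := hy
    intro i
    have h1 : algebraMap Om L ω = algebraMap Om (RatFunc Om) ω • algebraMap K L 1 := by
      rw [map_one, Algebra.smul_def, mul_one, ← IsScalarTower.algebraMap_apply]
    rw [h1, map_smul, Finsupp.smul_apply, repr_algebraMap hβ, smul_eq_mul, mul_comm]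
    exact mul_mem_MM _ (algebraMap_mem_MM hω)
  | zero => intro i; rw [map_zero]; exact Submodule.zero_mem _
  | add a b _ _ ha hb =>
    intro i
    rw [map_add, Finsupp.add_apply]
    exact Submodule.add_mem _ (ha i) (hb i)
  | smul r a _ ha =>
    intro i
    have h1 : r • a = ∑ j, β'.repr a j • algebraMap K L (r * β j) := by
      conv_lhs => rw [← β'.sum_repr a]
      rw [Finset.smul_sum]
      refine Finset.sum_congr rfl fun j _ => ?_
      rw [hβ, Algebra.smul_def, Algebra.smul_def, Algebra.smul_def, map_mul]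
      ring
    rw [h1, map_sum, Finset.sum_apply']
    refine Submodule.sum_mem _ fun j _ => ?_
    rw [map_smul, Finsupp.smul_apply, repr_algebraMap hβ, smul_eq_mul, mul_comm]
    exact mul_mem_MM _ (ha j)

include hβ in
theorem Rd_norm [IsScalarTower Om (RatFunc Om) L] {a : L} {r : K} (h : Rd v a r) :
    Rd v (Algebra.norm (RatFunc Om) a) (Algebra.norm (RatFunc F) r) := by
  rw [Algebra.norm_eq_matrix_det β' a, Algebra.norm_eq_matrix_det β r]
  apply Rd.det
  intro i j
  rw [Algebra.leftMulMatrix_eq_repr_mul, Algebra.leftMulMatrix_eq_repr_mul, hβ]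
  unfold Rd
  rw [← repr_algebraMap hβ, ← Finsupp.sub_apply, ← map_sub]
  apply repr_mem_MM hβ
  rw [map_mul, ← sub_mul, mul_comm]
  exact mul_mem_MM _ h

end transfer

end Crest.Agent.R013.Spec3_225
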