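import Mathlib
import Crest.Agent.R013.Spec3_225
import Crest.Agent.R013.CE5_280

/-!
# R013 / DIV-SPEC, part 4 (helper225): specialisation of divisors
-/

set_option autoImplicit false
set_option linter.all false

namespace Crest.Agent.R013.Spec4_225

open Polynomial WithZero Module
open scoped TensorProduct
open Crest.Agent.R013.RR1_948 Crest.Agent.R013.RR2_948
open Crest.Agent.R013.RR7_948 Crest.Agent.R013.RR8_948 Crest.Agent.R013.RR9_948
open Crest.Agent.R013.RR11_948 Crest.Agent.R013.RR12_948 Crest.Agent.R013.RR13_948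
open Crest.Agent.R013.RR18_948 Crest.Agent.R013.RR19_948 Crest.Agent.R013.RR20_948
open Crest.Agent.R013.RR22_948
open Crest.Agent.R013.WR5_777 Crest.Agent.R013.Spec1_225 Crest.Agent.R013.Spec2_225
open Crest.Agent.R013.Spec3_225
open Crest.Agent.R013.CE3_280 Crest.Agent.R013.CE5_280

theorem mapDomain_eq_sum {α β : Type*} (f : α → β) (D : α →₀ ℤ) (b : β) (s : Finset α)
    (hs : ∀ a, a ∈ s ↔ f a = b) : Finsupp.mapDomain f D b = ∑ a ∈ s, D a := by
  classical
  rw [Finsupp.mapDomain, Finsupp.sum_apply, Finsupp.sum]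
  have h1 : ∀ a ∈ D.support, (Finsupp.single (f a) (D a)) b = if f a = b then D a else 0 :=
    fun a _ => by rw [Finsupp.single_apply]
  rw [Finset.sum_congr rfl h1, ← Finset.sum_filter]
  apply Finset.sum_subset
  · intro a ha
    rw [Finset.mem_filter] at ha
    exact (hs a).mpr ha.2
  · intro a ha ha'
    rw [Finset.mem_filter, not_and] at ha'
    by_contra hne
    exact ha' (Finsupp.mem_support_iff.mpr hne) ((hs a).mp ha)

section under

variable {k : Type*} [Field k] [IsAlgClosed k] {K : Type*} [Field K] [Algebra k K]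
  [Algebra (RatFunc k) K]
  [IsScalarTower k (RatFunc k) K] [FiniteDimensional (RatFunc k) K]
  [Algebra.IsSeparable (RatFunc k) K]

theorem divf_norm_under {a : K} (ha : a ≠ 0) :
    divf (k := k) (Algebra.norm (RatFunc k) a) =
      Finsupp.mapDomain (under (RatFunc k)) (divf (k := k) a) := by
  ext P
  rw [divf_norm_of_degP ha P fun Q _ => by rw [Spec2_225.degP_eq_one, Spec2_225.degP_eq_one],
    mapDomain_eq_sum _ _ _ (above K P) fun a => mem_above]

variable {Γ : Type*} [LinearOrderedCommGroupWithZero Γ] (v : Valuation k Γ)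

theorem good_under (P : Pl k K) :
    Good v (under (RatFunc k) P) (RatFunc.X : RatFunc k) ↔ Good v P (xK k K) := by
  unfold Good
  refine exists_congr fun c => and_congr_right fun _ => ?_
  rw [under_lt_one_iff, map_sub, ← IsScalarTower.algebraMap_apply]
  rfl

theorem Th_under (D : Pl k K →₀ ℤ) :
    Th v (RatFunc.X : RatFunc k) (Finsupp.mapDomain (under (RatFunc k)) D) = Th v (xK k K) D := by
  classical
  rw [Th_apply, Th_apply, Finsupp.sum_mapDomain_index]
  · refine Finsupp.sum_congr fun P _ => ?_
    have h := good_under v P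
    by_cases h1 : Good v P (xK k K)
    · rw [if_pos h1, if_pos (h.mpr h1)]
    · rw [if_neg h1, if_neg (fun h2 => h1 (h.mp h2))]
  · intro P; split_ifs <;> rfl
  · intro P m n; split_ifs <;> simp

end under

section key

variable {F Om K L : Type*} [Field F] [Field Om] [Field K] [Field L]
  [IsAlgClosed F] [IsAlgClosed Om]
  [Algebra F Om] [Algebra F K] [Algebra F L] [Algebra K L] [Algebra Om L]
  [IsScalarTower F K L] [IsScalarTower F Om L]
  [Algebra (RatFunc F) K] [IsScalarTower F (RatFunc F) K] [FiniteDimensional (RatFunc F) K]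
  [Algebra.IsSeparable (RatFunc F) K]
  [Algebra (RatFunc Om) L] [IsScalarTower Om (RatFunc Om) L] [FiniteDimensional (RatFunc Om) L]
  [Algebra.IsSeparable (RatFunc Om) L]
  [Algebra (RatFunc F) (RatFunc Om)] [Algebra (RatFunc F) L]
  [IsScalarTower (RatFunc F) K L] [IsScalarTower (RatFunc F) (RatFunc Om) L]
  [IsScalarTower F (RatFunc F) (RatFunc Om)] [IsScalarTower F Om (RatFunc Om)]
  {Γ : Type*} [LinearOrderedCommGroupWithZero Γ] {v : Valuation Om Γ}

theorem map_mem_MM {x : RatFunc Om} (hx : x ∈ MM (RatFunc F) (RatFunc Om) v) :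
    algebraMap (RatFunc Om) L x ∈ MM K L v := by
  unfold MM at hx
  induction hx using Submodule.span_induction with
  | mem y hy =>
    obtain ⟨ω, hω, rfl⟩ := hy
    rw [← IsScalarTower.algebraMap_apply]
    exact algebraMap_mem_MM hω
  | zero => rw [map_zero]; exact Submodule.zero_mem _
  | add a b _ _ ha hb => rw [map_add]; exact Submodule.add_mem _ ha hb
  | smul r a _ ha =>
    rw [Algebra.smul_def, map_mul, ← IsScalarTower.algebraMap_apply (RatFunc F) (RatFunc Om) L,
      IsScalarTower.algebraMap_apply (RatFunc F) K L]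
    exact mul_mem_MM _ ha

theorem key (hι : IsCE Om (IsScalarTower.toAlgHom F K L))
    (hX : algebraMap (RatFunc F) (RatFunc Om) RatFunc.X = RatFunc.X)
    (hv : ∀ c : F, c ≠ 0 → v (algebraMap F Om c) = 1)
    (hres : ∀ a : Om, v a ≤ 1 → ∃ c : F, v (a - algebraMap F Om c) < 1)
    {a : L} {r : K} (hr : r ≠ 0) (h : Rd v a r) :
    a ≠ 0 ∧ Th v (xK Om L) (divf a) = ∑ Q ∈ above K (pinf F), divf r Q := by
  let B := Basis.ofVectorSpace F K
  have hB : LinearIndependent Om fun i => algebraMap K L (B i) := ld hι B.linearIndependent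
  have huniq : ∀ r : RatFunc F, algebraMap (RatFunc F) (RatFunc Om) r ∈
      MM (RatFunc F) (RatFunc Om) v → r = 0 := by
    intro s hs
    have h1 := map_mem_MM (K := K) (L := L) hs
    rw [← IsScalarTower.algebraMap_apply (RatFunc F) (RatFunc Om) L,
      IsScalarTower.algebraMap_apply (RatFunc F) K L] at h1
    have h2 := eq_zero_of_mem_MM B hv hB h1
    simpa using h2
  obtain ⟨β', hβ'⟩ := exists_basis_transfer hι hX (Module.finBasis (RatFunc F) K)
  have hN := Rd_norm hβ' h
  have hr' : Algebra.norm (RatFunc F) r ≠ 0 := Algebra.norm_ne_zero_iff.mpr hr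
  obtain ⟨h1, h2⟩ := Th_eq_of_Rd hX hres hv huniq hr' hN
  have ha : a ≠ 0 := by
    rintro rfl
    rw [Algebra.norm_zero] at h1
    exact h1 rfl
  refine ⟨ha, ?_⟩
  rw [divf_norm_under ha, Th_under] at h2
  rw [h2, divf_norm_of_degP hr _ fun Q _ => by
    rw [Spec2_225.degP_eq_one, Spec2_225.degP_eq_one]]

end key

/-- the inclusion `F(X) → Om(X)` -/
noncomputable def incl (F Om : Type*) [Field F] [Field Om] [Algebra F Om] :
    RatFunc F →+* RatFunc Om :=
  RatFunc.mapRingHom (Polynomial.mapRingHom (algebraMap F Om))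
    (nonZeroDivisors_le_comap_nonZeroDivisors_of_injective _
      (Polynomial.map_injective _ (algebraMap F Om).injective))

theorem incl_algebraMap (F Om : Type*) [Field F] [Field Om] [Algebra F Om] (p : F[X]) :
    incl F Om (algebraMap F[X] (RatFunc F) p) =
      algebraMap Om[X] (RatFunc Om) (p.map (algebraMap F Om)) := by
  have h := RatFunc.map_apply_div (Polynomial.mapRingHom (algebraMap F Om))
    (nonZeroDivisors_le_comap_nonZeroDivisors_of_injective _
      (Polynomial.map_injective _ (algebraMap F Om).injective)) p 1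
  simp only [map_one, div_one] at h
  unfold incl
  rw [RatFunc.coe_mapRingHom_eq_coe_map]
  exact h

section instfree

variable {F Om K L : Type*} [Field F] [Field Om] [Field K] [Field L]
  [IsAlgClosed F] [IsAlgClosed Om] [CharZero F]
  [Algebra F Om] [Algebra F K] [Algebra F L] [Algebra K L] [Algebra Om L]
  [IsScalarTower F K L] [IsScalarTower F Om L]
  {Γ : Type*} [LinearOrderedCommGroupWithZero Γ] {v : Valuation Om Γ}

theorem key_free [iK : Algebra (RatFunc F) K] [IsScalarTower F (RatFunc F) K]
    [FiniteDimensional (RatFunc F) K]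
    [iL : Algebra (RatFunc Om) L] [IsScalarTower Om (RatFunc Om) L] [FiniteDimensional (RatFunc Om) L]
    (hι : IsCE Om (IsScalarTower.toAlgHom F K L))
    (hx : algebraMap K L (xK F K) = xK Om L)
    (hv : ∀ c : F, c ≠ 0 → v (algebraMap F Om c) = 1)
    (hres : ∀ a : Om, v a ≤ 1 → ∃ c : F, v (a - algebraMap F Om c) < 1)
    {q : Pl F K} (hq : 1 < q.v (xK F K)) (hq' : ∀ Q, Q ≠ q → Q.v (xK F K) ≤ 1)
    {a : L} {r : K} (hr : r ≠ 0) (h : Rd v a r) :
    a ≠ 0 ∧ ∀ (D : Pl Om L →₀ ℤ) (m : ℤ), (∀ P : Pl Om L, P.v a = exp (-D P)) →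
      q.v r = exp (-m) → Th v (xK Om L) D = m := by
  haveI : CharZero Om := charZero_of_injective_algebraMap (algebraMap F Om).injective
  haveI : CharZero (RatFunc F) := charZero_of_injective_algebraMap (algebraMap F (RatFunc F)).injective
  haveI : CharZero (RatFunc Om) :=
    charZero_of_injective_algebraMap (algebraMap Om (RatFunc Om)).injective
  letI i1 : Algebra (RatFunc F) (RatFunc Om) := (incl F Om).toAlgebra
  letI i2 : Algebra (RatFunc F) L := ((algebraMap K L).comp (algebraMap (RatFunc F) K)).toAlgebra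
  haveI : IsScalarTower (RatFunc F) K L := IsScalarTower.of_algebraMap_eq fun _ => rfl
  have hC : ∀ c : F, algebraMap Om (RatFunc Om) (algebraMap F Om c) =
      algebraMap (RatFunc F) (RatFunc Om) (algebraMap F (RatFunc F) c) := by
    intro c
    show _ = incl F Om _
    rw [algebraMap_eq_C (k := F), ← RatFunc.algebraMap_C, incl_algebraMap, Polynomial.map_C,
      RatFunc.algebraMap_C, algebraMap_eq_C (k := Om)]
  have hX : algebraMap (RatFunc F) (RatFunc Om) RatFunc.X = RatFunc.X := by
    show incl F Om _ = _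
    rw [← RatFunc.algebraMap_X, incl_algebraMap, Polynomial.map_X, RatFunc.algebraMap_X]
  haveI : IsScalarTower (RatFunc F) (RatFunc Om) L := by
    apply IsScalarTower.of_algebraMap_eq
    intro f
    have h1 : (algebraMap (RatFunc F) L) = (algebraMap (RatFunc Om) L).comp (incl F Om) := by
      apply IsLocalization.ringHom_ext (nonZeroDivisors F[X])
      apply Polynomial.ringHom_ext
      · intro c
        simp only [RingHom.comp_apply]
        rw [RatFunc.algebraMap_C, ← algebraMap_eq_C]
        have h2 := hC c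
        show algebraMap K L (algebraMap (RatFunc F) K (algebraMap F (RatFunc F) c)) =
          algebraMap (RatFunc Om) L (algebraMap (RatFunc F) (RatFunc Om) _)
        rw [← h2, ← IsScalarTower.algebraMap_apply F (RatFunc F) K,
          ← IsScalarTower.algebraMap_apply F K L, ← IsScalarTower.algebraMap_apply Om (RatFunc Om) L,
          ← IsScalarTower.algebraMap_apply F Om L]
      · simp only [RingHom.comp_apply]
        rw [RatFunc.algebraMap_X]
        show algebraMap K L (xK F K) = algebraMap (RatFunc Om) L (algebraMap (RatFunc F) (RatFunc Om) _)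
        rw [hX, hx]
        rfl
    rw [h1]
    rfl
  haveI : IsScalarTower F Om (RatFunc Om) := inferInstance
  haveI : IsScalarTower F (RatFunc F) (RatFunc Om) := by
    apply IsScalarTower.of_algebraMap_eq
    intro c
    rw [IsScalarTower.algebraMap_apply F Om (RatFunc Om), hC]
  obtain ⟨h1, h2⟩ := key hι hX hv hres hr h
  refine ⟨h1, fun D m hD hm => ?_⟩
  have h3 : D = divf a := by
    ext P
    have h4 := hD P
    rw [v_eq h1, exp_inj] at h4
    linarith
  rw [h3, h2]
  have h5 : above K (pinf F) = {q} := by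
    ext Q
    rw [mem_above, Finset.mem_singleton]
    constructor
    · intro h6
      by_contra hne
      have h7 := hq' Q hne
      have h8 : (under (RatFunc F) Q).v RatFunc.X ≤ 1 := (under_le_one_iff Q _).mpr h7
      rw [h6, pinf_X, ← exp_zero, exp_le_exp] at h8
      norm_num at h8
    · rintro rfl
      apply under_eq_of_isEquiv
      show (vinf F).IsEquiv _
      refine (isEquiv_vinf _ ?_ hq).symm
      intro c hc
      rw [Valuation.comap_apply, ← IsScalarTower.algebraMap_apply]
      exact Q.const c hc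
  rw [h5, Finset.sum_singleton]
  rw [v_eq hr, exp_inj] at hm
  linarith

end instfree

end Crest.Agent.R013.Spec4_225
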