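import Mathlib
import Crest.Agent.R013.Spec4_225

/-!
# R013 / DIV-SPEC, part 5 (helper225): the specialisation map on places, divisors and classes

`F ⊆ Om` algebraically closed, char 0, `L` = constant field extension of `K` to `Om` (280's `IsCE`),
`v` a valuation of `Om` trivial on `F` with residue field `F`.
-/

set_option autoImplicit false
set_option linter.all false

namespace Crest.Agent.R013.Spec5_225

open Polynomial WithZero Module
open scoped TensorProduct
open Crest.Agent.R013.RR1_948 Crest.Agent.R013.RR2_948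
open Crest.Agent.R013.RR7_948 Crest.Agent.R013.RR8_948 Crest.Agent.R013.RR9_948
open Crest.Agent.R013.RR11_948 Crest.Agent.R013.RR12_948 Crest.Agent.R013.RR13_948
open Crest.Agent.R013.RR18_948 Crest.Agent.R013.RR19_948 Crest.Agent.R013.RR20_948
open Crest.Agent.R013.RR22_948
open Crest.Agent.R013.WR5_777 Crest.Agent.R013.Spec1_225 Crest.Agent.R013.Spec2_225
open Crest.Agent.R013.Spec3_225 Crest.Agent.R013.Spec4_225
open Crest.Agent.R013.CE3_280 Crest.Agent.R013.CE5_280

section sp

variable {F Om K L : Type*} [Field F] [Field Om] [Field K] [Field L]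
  [IsAlgClosed F] [IsAlgClosed Om]
  [Algebra F Om] [Algebra F K] [Algebra F L] [Algebra K L] [Algebra Om L]
  [IsScalarTower F K L] [IsScalarTower F Om L]
  {Γ : Type*} [LinearOrderedCommGroupWithZero Γ] {v : Valuation Om Γ}

/-- the functions of `K` whose value at `P` lies in the valuation ring -/
def spRing (v : Valuation Om Γ) (P : Pl Om L)
    (hval : ∀ f : L, P.v f ≤ 1 → ∃ c : Om, P.v (f - algebraMap Om L c) < 1) :
    ValuationSubring K where
  carrier := {f | Good v P (algebraMap K L f)}
  mul_mem' := by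
    rintro f g ⟨c, hc, hc'⟩ ⟨d, hd, hd'⟩
    refine ⟨c * d, by rw [map_mul]; exact mul_le_one' hc hd, ?_⟩
    have e : algebraMap K L (f * g) - algebraMap Om L (c * d) =
        (algebraMap K L f - algebraMap Om L c) * (algebraMap K L g - algebraMap Om L d) +
        algebraMap Om L c * (algebraMap K L g - algebraMap Om L d) +
        algebraMap Om L d * (algebraMap K L f - algebraMap Om L c) := by
      rw [map_mul, map_mul]; ring
    have hle : ∀ c : Om, P.v (algebraMap Om L c) ≤ 1 := fun c => by
      by_cases hc : c = 0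
      · simp [hc]
      · rw [P.const c hc]
    rw [e]
    refine lt_of_le_of_lt (P.v.map_add _ _) (max_lt (lt_of_le_of_lt (P.v.map_add _ _)
      (max_lt ?_ ?_)) ?_)
    · rw [map_mul]; exact mul_lt_one' hc' hd'
    · rw [map_mul]; exact lt_of_le_of_lt (mul_le_of_le_one_left' (hle c)) hd'
    · rw [map_mul]; exact lt_of_le_of_lt (mul_le_of_le_one_left' (hle d)) hc'
  one_mem' := ⟨1, by rw [map_one], by rw [map_one, map_one, sub_self, map_zero]; exact zero_lt_one⟩
  add_mem' := by
    rintro f g ⟨c, hc, hc'⟩ ⟨d, hd, hd'⟩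
    refine ⟨c + d, (v.map_add _ _).trans (max_le hc hd), ?_⟩
    have e : algebraMap K L (f + g) - algebraMap Om L (c + d) =
        (algebraMap K L f - algebraMap Om L c) + (algebraMap K L g - algebraMap Om L d) := by
      rw [map_add, map_add]; ring
    rw [e]
    exact lt_of_le_of_lt (P.v.map_add _ _) (max_lt hc' hd')
  zero_mem' := ⟨0, by rw [map_zero]; exact zero_le, by
    rw [map_zero, map_zero, sub_self, map_zero]; exact zero_lt_one⟩
  neg_mem' := by
    rintro f ⟨c, hc, hc'⟩
    refine ⟨-c, by rwa [Valuation.map_neg], ?_⟩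
    have e : algebraMap K L (-f) - algebraMap Om L (-c) =
        -(algebraMap K L f - algebraMap Om L c) := by
      rw [map_neg, map_neg]; ring
    rw [e, Valuation.map_neg]
    exact hc'
  mem_or_inv_mem' := by
    intro f
    by_cases hf : f = 0
    · left
      rw [hf]
      exact ⟨0, by rw [map_zero]; exact zero_le, by
        rw [map_zero, map_zero, sub_self, map_zero]; exact zero_lt_one⟩
    have hf' : algebraMap K L f ≠ 0 := by simpa using hf
    by_cases h1 : P.v (algebraMap K L f) ≤ 1
    · obtain ⟨c, hc⟩ := hval _ h1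
      by_cases h2 : v c ≤ 1
      · left; exact ⟨c, h2, hc⟩
      · right
        have hc0 : c ≠ 0 := by
          rintro rfl
          exact h2 (by rw [map_zero]; exact zero_le)
        have h3 : P.v (algebraMap Om L c) = 1 := P.const c hc0
        have h4 : P.v (algebraMap K L f) = 1 := by
          have e : algebraMap K L f = (algebraMap K L f - algebraMap Om L c) + algebraMap Om L c := by
            ring
          rw [e, Valuation.map_add_eq_of_lt_right, h3]
          rwa [h3]
        refine ⟨c⁻¹, ?_, ?_⟩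
        · rw [map_inv₀]
          exact inv_le_one_of_one_le₀ (not_le.mp h2).le
        · have hcL : algebraMap Om L c ≠ 0 := by simpa using hc0
          have e : algebraMap K L f⁻¹ - algebraMap Om L c⁻¹ =
              -((algebraMap K L f - algebraMap Om L c) *
                (algebraMap K L f)⁻¹ * (algebraMap Om L c)⁻¹) := by
            rw [map_inv₀, map_inv₀]
            field_simp
            ring
          rw [e, Valuation.map_neg, map_mul, map_mul, map_inv₀, map_inv₀, h3, h4, inv_one, mul_one,
            mul_one]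
          exact hc
    · right
      refine ⟨0, by rw [map_zero]; exact zero_le, ?_⟩
      rw [map_zero, sub_zero, map_inv₀, map_inv₀]
      exact inv_lt_one_of_one_lt₀ (not_le.mp h1)

variable [Algebra (RatFunc F) K] [IsScalarTower F (RatFunc F) K] [FiniteDimensional (RatFunc F) K]
  [Algebra.IsSeparable (RatFunc F) K]
  [Algebra (RatFunc Om) L] [IsScalarTower Om (RatFunc Om) L] [FiniteDimensional (RatFunc Om) L]
  [Algebra.IsSeparable (RatFunc Om) L]

theorem exists_sp (hv : ∀ c : F, c ≠ 0 → v (algebraMap F Om c) = 1)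
    (hres : ∀ a : Om, v a ≤ 1 → ∃ c : F, v (a - algebraMap F Om c) < 1) (P : Pl Om L) :
    ∃ Q : Pl F K, ∀ f : K, Q.v f ≤ 1 ↔ Good v P (algebraMap K L f) := by
  have hval : ∀ f : L, P.v f ≤ 1 → ∃ c : Om, P.v (f - algebraMap Om L c) < 1 :=
    fun f hf => Spec2_225.exists_val P hf
  let O : ValuationSubring K := spRing v P hval
  have hmem : ∀ f : K, f ∈ O ↔ Good v P (algebraMap K L f) := fun f => Iff.rfl
  have hcst : ∀ c : F, algebraMap F K c ∈ O := by
    intro c
    rw [hmem]
    refine ⟨algebraMap F Om c, ?_, ?_⟩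
    · by_cases hc : c = 0
      · rw [hc, map_zero, map_zero]; exact zero_le
      · rw [hv c hc]
    · rw [← IsScalarTower.algebraMap_apply F K L, ← IsScalarTower.algebraMap_apply F Om L, sub_self,
        map_zero]
      exact zero_lt_one
  obtain ⟨Q, hQ⟩ := exists_place (k := F) O.valuation (by
    intro c hc
    apply le_antisymm
    · exact (O.valuation_le_one_iff _).mpr (hcst c)
    · have h1 := (O.valuation_le_one_iff _).mpr (hcst c⁻¹)
      rw [map_inv₀, map_inv₀] at h1
      have h2 : O.valuation (algebraMap F K c) ≠ 0 :=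
        (Valuation.ne_zero_iff _).mpr (by simpa using hc)
      rwa [inv_le_one₀ (zero_lt_iff.mpr h2)] at h1) (by
    by_contra hcon
    push Not at hcon
    have hall : ∀ f : K, f ∈ O := by
      intro f
      by_cases hf : f = 0
      · rw [hf]; exact O.zero_mem
      · exact (O.valuation_le_one_iff _).mp (hcon f ((Valuation.ne_zero_iff _).mpr hf)).le
    obtain ⟨c, hc, hc'⟩ := (hmem _).mp (hall (xK F K))
    obtain ⟨d, hd⟩ := hres c hc
    have hx0 : xK F K - algebraMap F K d ≠ 0 := by
      intro h
      have h1 := transcendental_xK (k := F) (K := K)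
      apply h1
      rw [sub_eq_zero.mp h]
      exact isAlgebraic_algebraMap d
    obtain ⟨e, he, he'⟩ := (hmem _).mp (hall (xK F K - algebraMap F K d)⁻¹)
    have h1 : P.v (algebraMap K L (xK F K - algebraMap F K d) -
        algebraMap Om L (c - algebraMap F Om d)) < 1 := by
      have e : algebraMap K L (xK F K - algebraMap F K d) -
          algebraMap Om L (c - algebraMap F Om d) = algebraMap K L (xK F K) - algebraMap Om L c := by
        rw [map_sub, map_sub, ← IsScalarTower.algebraMap_apply F K L,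
          ← IsScalarTower.algebraMap_apply F Om L]
        ring
      rw [e]
      exact hc'
    have h2 : P.v (1 - algebraMap Om L ((c - algebraMap F Om d) * e)) < 1 := by
      have hz0 : algebraMap K L (xK F K - algebraMap F K d) ≠ 0 :=
        (map_ne_zero (algebraMap K L)).mpr hx0
      set z := algebraMap K L (xK F K - algebraMap F K d) with hz
      have hle : ∀ c : Om, P.v (algebraMap Om L c) ≤ 1 := fun c => by
        by_cases hc : c = 0
        · simp [hc]
        · rw [P.const c hc]
      have e1 : 1 - algebraMap Om L ((c - algebraMap F Om d) * e) =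
          (z - algebraMap Om L (c - algebraMap F Om d)) * (z⁻¹ - algebraMap Om L e) +
          algebraMap Om L (c - algebraMap F Om d) * (z⁻¹ - algebraMap Om L e) +
          algebraMap Om L e * (z - algebraMap Om L (c - algebraMap F Om d)) := by
        have : z * z⁻¹ = 1 := mul_inv_cancel₀ hz0
        rw [map_mul]
        linear_combination -this
      have he'' : P.v (z⁻¹ - algebraMap Om L e) < 1 := by
        rw [hz, ← map_inv₀]; exact he'
      rw [e1]
      refine lt_of_le_of_lt (P.v.map_add _ _) (max_lt (lt_of_le_of_lt (P.v.map_add _ _)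
        (max_lt ?_ ?_)) ?_)
      · rw [map_mul]; exact mul_lt_one' h1 he''
      · rw [map_mul]; exact lt_of_le_of_lt (mul_le_of_le_one_left' (hle _)) he''
      · rw [map_mul]; exact lt_of_le_of_lt (mul_le_of_le_one_left' (hle _)) h1
    have h3 : P.v ((1 : L) - algebraMap Om L 1) < 1 := by
      rw [map_one, sub_self, map_zero]; exact zero_lt_one
    have h4 := val_unique P h2 h3
    have h5 : v ((c - algebraMap F Om d) * e) < 1 := by
      rw [map_mul, mul_comm]
      exact lt_of_le_of_lt (mul_le_of_le_one_left' he) hd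
    rw [h4, map_one] at h5
    exact lt_irrefl _ h5)
  refine ⟨Q, fun f => ?_⟩
  rw [hQ.le_one_iff_le_one, O.valuation_le_one_iff]
  exact hmem f

/-- the specialisation map on places -/
noncomputable def sp (hv : ∀ c : F, c ≠ 0 → v (algebraMap F Om c) = 1)
    (hres : ∀ a : Om, v a ≤ 1 → ∃ c : F, v (a - algebraMap F Om c) < 1) (P : Pl Om L) : Pl F K :=
  (exists_sp (K := K) hv hres P).choose

theorem sp_spec (hv : ∀ c : F, c ≠ 0 → v (algebraMap F Om c) = 1)
    (hres : ∀ a : Om, v a ≤ 1 → ∃ c : F, v (a - algebraMap F Om c) < 1) (P : Pl Om L) (f : K) :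
    (sp hv hres P : Pl F K).v f ≤ 1 ↔ Good v P (algebraMap K L f) :=
  (exists_sp (K := K) hv hres P).choose_spec f

/-- a constant place specialises to itself -/
theorem sp_const (hv : ∀ c : F, c ≠ 0 → v (algebraMap F Om c) = 1)
    (hres : ∀ a : Om, v a ≤ 1 → ∃ c : F, v (a - algebraMap F Om c) < 1) {P : Pl Om L} {Q : Pl F K}
    (h : ∀ f : K, Q.v f < 1 → P.v (algebraMap K L f) < 1) : sp hv hres P = Q := by
  symm
  apply pl_eq_of_le
  intro f hf
  rw [sp_spec]
  obtain ⟨c, hc⟩ := Spec2_225.exists_val Q hf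
  refine ⟨algebraMap F Om c, ?_, ?_⟩
  · by_cases hc : c = 0
    · rw [hc, map_zero, map_zero]; exact zero_le
    · rw [hv c hc]
  · have h1 := h _ hc
    rwa [map_sub, ← IsScalarTower.algebraMap_apply F K L, IsScalarTower.algebraMap_apply F Om L] at h1

theorem Th_sp (hv : ∀ c : F, c ≠ 0 → v (algebraMap F Om c) = 1)
    (hres : ∀ a : Om, v a ≤ 1 → ∃ c : F, v (a - algebraMap F Om c) < 1) {x : K} {q : Pl F K}
    (hq : 1 < q.v x) (hq' : ∀ Q, Q ≠ q → Q.v x ≤ 1) (D : Pl Om L →₀ ℤ) :
    Th v (algebraMap K L x) D = Finsupp.mapDomain (sp hv hres) D q := by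
  classical
  rw [Th_apply, Finsupp.mapDomain, Finsupp.sum_apply]
  refine Finsupp.sum_congr fun P _ => ?_
  rw [Finsupp.single_apply]
  have h1 := sp_spec (K := K) hv hres P x
  by_cases h2 : sp hv hres P = q
  · rw [if_pos h2, if_neg]
    intro h3
    have h4 := h1.mpr h3
    rw [h2] at h4
    exact absurd h4 (not_le.mpr hq)
  · rw [if_neg h2, if_pos (h1.mp (hq' _ h2))]

end sp

section main

variable {F Om K L : Type*} [Field F] [Field Om] [Field K] [Field L]
  [IsAlgClosed F] [IsAlgClosed Om] [CharZero F]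
  [Algebra F Om] [Algebra F K] [Algebra F L] [Algebra K L] [Algebra Om L]
  [IsScalarTower F K L] [IsScalarTower F Om L]
  [Algebra (RatFunc F) K] [IsScalarTower F (RatFunc F) K] [FiniteDimensional (RatFunc F) K]
  [Algebra.IsSeparable (RatFunc F) K]
  [Algebra (RatFunc Om) L] [IsScalarTower Om (RatFunc Om) L] [FiniteDimensional (RatFunc Om) L]
  [Algebra.IsSeparable (RatFunc Om) L]
  {Γ : Type*} [LinearOrderedCommGroupWithZero Γ] {v : Valuation Om Γ}

theorem transcendental_map (hι : IsCE Om (IsScalarTower.toAlgHom F K L)) {x : K}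
    (hx : Transcendental F x) : Transcendental Om (algebraMap K L x) := by
  have h1 : LinearIndependent F fun m : ℕ => x ^ m := by
    rw [linearIndependent_iff']
    intro s g hg i hi
    have h2 : Polynomial.aeval x (∑ m ∈ s, Polynomial.monomial m (g m)) = 0 := by
      rw [map_sum, ← hg]
      refine Finset.sum_congr rfl fun m _ => ?_
      rw [Polynomial.aeval_monomial, Algebra.smul_def]
    have h3 := (transcendental_iff.mp hx) _ h2
    have h4 := congrArg (fun p => Polynomial.coeff p i) h3
    simp only [Polynomial.finset_sum_coeff, Polynomial.coeff_monomial, Polynomial.coeff_zero,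
      Finset.sum_ite_eq', hi, if_true] at h4
    exact h4
  have h2 := ld hι h1
  rw [transcendental_iff]
  intro p hp
  rw [Polynomial.aeval_eq_sum_range] at hp
  have h3 := linearIndependent_iff'.mp h2 (Finset.range (p.natDegree + 1)) p.coeff (by
    rw [← hp]
    exact Finset.sum_congr rfl fun m _ => by rw [map_pow])
  ext m
  rw [Polynomial.coeff_zero]
  by_cases hm : m ∈ Finset.range (p.natDegree + 1)
  · exact h3 m hm
  · rw [Finset.mem_range, not_lt] at hm
    exact Polynomial.coeff_eq_zero_of_natDegree_lt (by omega)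

/-- **specialisation of principal divisors**, integral form -/
theorem mapDomain_divf_of_Rd (hι : IsCE Om (IsScalarTower.toAlgHom F K L))
    (hv : ∀ c : F, c ≠ 0 → v (algebraMap F Om c) = 1)
    (hres : ∀ a : Om, v a ≤ 1 → ∃ c : F, v (a - algebraMap F Om c) < 1)
    {a : L} {r : K} (hr : r ≠ 0) (h : Rd v a r) :
    a ≠ 0 ∧ Finsupp.mapDomain (sp (K := K) hv hres) (divf (k := Om) a) = divf (k := F) r := by
  have hmain : ∀ q : Pl F K, a ≠ 0 ∧
      Finsupp.mapDomain (sp (K := K) hv hres) (divf (k := Om) a) q = divf (k := F) r q := by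
    intro q
    obtain ⟨x, hx, hx'⟩ := exists_pole_order (CE5_280.algebraicClosure_eq_bot (k := F) (K := K)) q
      (2 * gen F K + 1) (by
        have h1 : (1 : ℤ) ≤ degP q := by exact_mod_cast degP_pos q
        push_cast
        nlinarith) (by omega)
    have hq : 1 < q.v x := by
      rw [hx, ← exp_zero, exp_lt_exp]
      positivity
    have htx : Transcendental F x := by
      apply CE2_280.transcendental_of_notMem
      rintro ⟨c, rfl⟩
      have h1 : q.v (algebraMap F K c) ≤ 1 := by
        by_cases hc : c = 0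
        · simp [hc]
        · rw [q.const c hc]
      exact absurd h1 (not_le.mpr hq)
    have htL := transcendental_map hι htx
    haveI : CharZero Om := charZero_of_injective_algebraMap (algebraMap F Om).injective
    have h1 := @key_free F Om K L _ _ _ _ _ _ _ _ _ _ _ _ _ _ Γ _ v (ratAlg x htx)
      (ratAlg_tower x htx) (ratAlg_finite x htx) (ratAlg _ htL) (ratAlg_tower _ htL)
      (ratAlg_finite _ htL) hι (by rw [ratAlg_xK, ratAlg_xK]) hv hres q (by rw [ratAlg_xK]; exact hq)
      (by rw [ratAlg_xK]; exact hx') a r hr h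
    refine ⟨h1.1, ?_⟩
    rw [← Th_sp hv hres hq hx']
    have h2 := h1.2 (divf (k := Om) a) (divf (k := F) r q) (fun P => v_eq h1.1 P) (v_eq hr q)
    rw [ratAlg_xK] at h2
    exact h2
  obtain ⟨P, _⟩ := exists_notMem (k := F) (K := K) ∅
  exact ⟨(hmain P).1, Finsupp.ext fun q => (hmain q).2⟩

theorem mu_mem_span (t : Om ⊗[F] K) : mu (IsScalarTower.toAlgHom F K L) t ∈
    Submodule.span Om (Set.range (algebraMap K L)) := by
  induction t using TensorProduct.induction_on with
  | zero => rw [map_zero]; exact Submodule.zero_mem _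
  | tmul c y =>
    rw [mu_tmul, ← Algebra.smul_def]
    exact Submodule.smul_mem _ _ (Submodule.subset_span ⟨y, rfl⟩)
  | add a b ha hb => rw [map_add]; exact Submodule.add_mem _ ha hb

/-- **specialisation of principal divisors** -/
theorem exists_divf (hι : IsCE Om (IsScalarTower.toAlgHom F K L))
    (hv : ∀ c : F, c ≠ 0 → v (algebraMap F Om c) = 1)
    (hres : ∀ a : Om, v a ≤ 1 → ∃ c : F, v (a - algebraMap F Om c) < 1)
    {f : L} (hf : f ≠ 0) :
    ∃ g : K, g ≠ 0 ∧ Finsupp.mapDomain (sp (K := K) hv hres) (divf (k := Om) f) = divf (k := F) g := by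
  let B := Basis.ofVectorSpace F K
  obtain ⟨a, b, hb, hab⟩ := hι.frac f
  have hb0 := hι.ne_zero hb
  have ha0 : mu (IsScalarTower.toAlgHom F K L) a ≠ 0 := by
    rw [← hab]; exact mul_ne_zero hf hb0
  obtain ⟨ω, a', r, hω, hr, hRa, ha⟩ := exists_normal B hv hres (mu_mem_span a) ha0
  obtain ⟨η, b', s, hη, hs, hRb, hb'⟩ := exists_normal B hv hres (mu_mem_span b) hb0
  obtain ⟨ha'0, h1⟩ := mapDomain_divf_of_Rd hι hv hres hr hRa
  obtain ⟨hb'0, h2⟩ := mapDomain_divf_of_Rd hι hv hres hs hRb
  have hω0 : algebraMap Om L ω ≠ 0 := (_root_.map_ne_zero _).mpr hω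
  have hη0 : algebraMap Om L η ≠ 0 := (_root_.map_ne_zero _).mpr hη
  refine ⟨r * s⁻¹, mul_ne_zero hr (inv_ne_zero hs), ?_⟩
  have h3 : divf (k := Om) f + divf (k := Om) (mu (IsScalarTower.toAlgHom F K L) b) =
      divf (k := Om) (mu (IsScalarTower.toAlgHom F K L) a) := by
    rw [← divf_mul hf hb0, hab]
  rw [ha, hb', divf_mul hη0 hb'0, divf_mul hω0 ha'0, divf_const hω, divf_const hη, zero_add,
    zero_add] at h3
  have h4 : divf (k := Om) f = divf (k := Om) a' - divf (k := Om) b' := by rw [← h3]; abel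
  have h5 := congrArg (Finsupp.mapDomain.addMonoidHom (sp (K := K) hv hres)) h4
  rw [map_sub] at h5
  have h6 : Finsupp.mapDomain (sp (K := K) hv hres) (divf (k := Om) f) =
      Finsupp.mapDomain (sp (K := K) hv hres) (divf (k := Om) a') -
      Finsupp.mapDomain (sp (K := K) hv hres) (divf (k := Om) b') := h5
  rw [h6, h1, h2, divf_mul hr (inv_ne_zero hs), divf_inv hs, sub_eq_add_neg]

end main

section final

variable {F K Ω L : Type*} [Field F] [IsAlgClosed F] [CharZero F] [Field K] [Algebra F K]
  [Algebra (RatFunc F) K] [IsScalarTower F (RatFunc F) K] [FiniteDimensional (RatFunc F) K]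
  [Algebra.IsSeparable (RatFunc F) K]
  [Field Ω] [Algebra F Ω] [IsAlgClosed Ω]
  [Field L] [Algebra Ω L] [Algebra F L] [IsScalarTower F Ω L]
  [Algebra (RatFunc Ω) L] [IsScalarTower Ω (RatFunc Ω) L]
  [FiniteDimensional (RatFunc Ω) L] [Algebra.IsSeparable (RatFunc Ω) L]
  {ι : K →ₐ[F] L} {Γ : Type*} [LinearOrderedCommGroupWithZero Γ]

/-- **DIV-SPEC**: the specialisation map on divisors -/
theorem exists_spD (hι : IsCE Ω ι) (v : Valuation Ω Γ)
    (hv : ∀ c : F, c ≠ 0 → v (algebraMap F Ω c) = 1)
    (hres : ∀ a : Ω, v a ≤ 1 → ∃ c : F, v (a - algebraMap F Ω c) < 1) :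
    ∃ sp : Pl Ω L → Pl F K,
      (∀ P f, (sp P).v f ≤ 1 ↔ ∃ c : Ω, v c ≤ 1 ∧ P.v (ι f - algebraMap Ω L c) < 1) ∧
      (∀ P, sp (conP hι P) = P) ∧
      (∀ f : L, f ≠ 0 → ∃ g : K, g ≠ 0 ∧
        Finsupp.mapDomain sp (divf (k := Ω) f) = divf (k := F) g) := by
  letI : Algebra K L := ι.toRingHom.toAlgebra
  haveI : IsScalarTower F K L := IsScalarTower.of_algebraMap_eq fun c => (ι.commutes c).symm
  have e : ι = IsScalarTower.toAlgHom F K L := rfl
  have hι' : IsCE Ω (IsScalarTower.toAlgHom F K L) := hι
  refine ⟨sp (K := K) hv hres, fun P f => sp_spec hv hres P f, fun P => ?_, fun f hf =>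
    exists_divf hι' hv hres hf⟩
  exact sp_const hv hres fun f hf => (conP_Over hι P).2 f hf

/-- a class of `K` which is `n`-divisible over `Ω` is `n`-divisible over `F` -/
theorem divisible_descend (hι : IsCE Ω ι) (v : Valuation Ω Γ)
    (hv : ∀ c : F, c ≠ 0 → v (algebraMap F Ω c) = 1)
    (hres : ∀ a : Ω, v a ≤ 1 → ∃ c : F, v (a - algebraMap F Ω c) < 1)
    {D : Pl F K →₀ ℤ} {n : ℕ} {E : Pl Ω L →₀ ℤ} {f : L} (hf : f ≠ 0)
    (h : base hι D = n • E + divf f) :
    ∃ (E₀ : Pl F K →₀ ℤ) (g : K), g ≠ 0 ∧ D = n • E₀ + divf g ∧ degD E₀ = degD E := by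
  obtain ⟨sp, _, h2, h3⟩ := exists_spD hι v hv hres
  obtain ⟨g, hg, hg'⟩ := h3 f hf
  refine ⟨Finsupp.mapDomain sp E, g, hg, ?_, ?_⟩
  · have h4 := congrArg (Finsupp.mapDomain.addMonoidHom sp) h
    rw [map_add, map_nsmul] at h4
    have h5 : Finsupp.mapDomain sp (base hι D) = D := by
      show Finsupp.mapDomain sp (Finsupp.mapDomain (conP hι) D) = D
      rw [← Finsupp.mapDomain_comp]
      have : sp ∘ conP hι = id := funext h2
      rw [this, Finsupp.mapDomain_id]
    rw [← hg', ← h5]
    exact h4
  · rw [Spec2_225.degD_eq_sum, Spec2_225.degD_eq_sum, Finsupp.sum_mapDomain_index]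
    · intro _; rfl
    · intro _ _ _; rfl

end final

end Crest.Agent.R013.Spec5_225
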