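import Mathlib

/-!
# R013 / Val1 (helper225): a field extension `Om/F` of an algebraically closed field `F` has a
valuation ring containing `F` with residue field `F` (place `Om → F ∪ ∞`).  Mathlib only.
-/

set_option autoImplicit false
set_option linter.all false

namespace Crest.Agent.R013.Val1_225

open Polynomial

section inf

variable {Om : Type*} [Field Om]

/-- the intersection of a nonempty chain of valuation rings -/
def infChain (S : Set (ValuationSubring Om)) (hS : IsChain (· ≤ ·) S) : ValuationSubring Om where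
  carrier := {x | ∀ V ∈ S, x ∈ V}
  mul_mem' := fun ha hb V hV => V.mul_mem _ _ (ha V hV) (hb V hV)
  one_mem' := fun V _ => V.one_mem
  add_mem' := fun ha hb V hV => V.add_mem _ _ (ha V hV) (hb V hV)
  zero_mem' := fun V _ => V.zero_mem
  neg_mem' := fun ha V hV => V.neg_mem _ (ha V hV)
  mem_or_inv_mem' := by
    intro x
    by_contra hcon
    rw [not_or] at hcon
    obtain ⟨h1, h2⟩ := hcon
    simp only [Set.mem_setOf_eq, not_forall, Subsemigroup.mem_mk, Submonoid.mem_mk,
      Subsemiring.mem_mk, Subring.mem_mk] at h1 h2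
    obtain ⟨V, hV, hxV⟩ := h1
    obtain ⟨W, hW, hxW⟩ := h2
    rcases hS.total hV hW with h | h
    · exact hxW (h ((V.mem_or_inv_mem x).resolve_left hxV))
    · exact hxV (h ((W.mem_or_inv_mem x).resolve_right hxW))

theorem mem_infChain {S : Set (ValuationSubring Om)} {hS : IsChain (· ≤ ·) S} {x : Om} :
    x ∈ infChain S hS ↔ ∀ V ∈ S, x ∈ V := Iff.rfl

end inf

section trans

variable {F Om : Type*} [Field F] [Field Om] [Algebra F Om]
  (V : ValuationSubring Om) (hV : ∀ c : F, algebraMap F Om c ∈ V)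

include hV in
theorem val_const {c : F} (hc : c ≠ 0) : V.valuation (algebraMap F Om c) = 1 := by
  have h1 : V.valuation (algebraMap F Om c) ≤ 1 := (V.valuation_le_one_iff _).mpr (hV c)
  have h2 : V.valuation (algebraMap F Om c⁻¹) ≤ 1 := (V.valuation_le_one_iff _).mpr (hV c⁻¹)
  refine le_antisymm h1 ?_
  have h3 : V.valuation (algebraMap F Om c) * V.valuation (algebraMap F Om c⁻¹) = 1 := by
    rw [← map_mul, ← map_mul, mul_inv_cancel₀ hc, map_one, map_one]
  calc (1 : V.ValueGroup) = V.valuation (algebraMap F Om c) * V.valuation (algebraMap F Om c⁻¹) :=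
        h3.symm
    _ ≤ V.valuation (algebraMap F Om c) * 1 := mul_le_mul_right h2 _
    _ = _ := mul_one _

variable {a : Om} (ha : a ∈ V)

include hV ha in
theorem aeval_mem (q : F[X]) : aeval a q ∈ V := by
  rw [aeval_eq_sum_range]
  refine sum_mem fun i _ => ?_
  rw [Algebra.smul_def]
  exact V.mul_mem _ _ (hV _) (pow_mem ha _)

include hV in
theorem val_aeval [IsAlgClosed F] (hres : ∀ c : F, ¬ V.valuation (a - algebraMap F Om c) < 1)
    (ha : a ∈ V) {q : F[X]} (hq : q ≠ 0) : V.valuation (aeval a q) = 1 := by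
  have hs := IsAlgClosed.splits q
  have h1 : ∀ c : F, V.valuation (a - algebraMap F Om c) = 1 := fun c =>
    le_antisymm ((V.valuation_le_one_iff _).mpr (sub_mem ha (hV c))) (not_lt.mp (hres c))
  rw [hs.eq_prod_roots, map_mul, aeval_C, map_mul, val_const V hV (leadingCoeff_ne_zero.mpr hq),
    one_mul, map_multiset_prod, map_multiset_prod]
  apply Multiset.prod_eq_one
  intro y hy
  simp only [Multiset.mem_map] at hy
  obtain ⟨_, ⟨_, ⟨c, hc, rfl⟩, rfl⟩, rfl⟩ := hy
  rw [map_sub, aeval_X, aeval_C]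
  exact h1 c

/-- `F[a] + 𝔪` -/
def ring (hV : ∀ c : F, algebraMap F Om c ∈ V) (ha : a ∈ V) : Subring Om where
  carrier := {x | ∃ q : F[X], V.valuation (x - aeval a q) < 1}
  mul_mem' := by
    rintro x y ⟨p, hp⟩ ⟨q, hq⟩
    refine ⟨p * q, ?_⟩
    have e : x * y - aeval a (p * q) = (x - aeval a p) * (y - aeval a q) +
        aeval a p * (y - aeval a q) + aeval a q * (x - aeval a p) := by
      rw [map_mul]; ring
    have h1 := (V.valuation_le_one_iff _).mpr (aeval_mem V hV ha p)
    have h2 := (V.valuation_le_one_iff _).mpr (aeval_mem V hV ha q)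
    rw [e]
    refine lt_of_le_of_lt (V.valuation.map_add _ _) (max_lt (lt_of_le_of_lt
      (V.valuation.map_add _ _) (max_lt ?_ ?_)) ?_)
    · rw [map_mul]; exact mul_lt_one' hp hq
    · rw [map_mul]; exact lt_of_le_of_lt (mul_le_of_le_one_left' h1) hq
    · rw [map_mul]; exact lt_of_le_of_lt (mul_le_of_le_one_left' h2) hp
  one_mem' := ⟨1, by rw [map_one, sub_self, map_zero]; exact zero_lt_one⟩
  add_mem' := by
    rintro x y ⟨p, hp⟩ ⟨q, hq⟩
    refine ⟨p + q, ?_⟩
    have e : x + y - aeval a (p + q) = (x - aeval a p) + (y - aeval a q) := by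
      rw [map_add]; ring
    rw [e]
    exact lt_of_le_of_lt (V.valuation.map_add _ _) (max_lt hp hq)
  zero_mem' := ⟨0, by rw [map_zero, sub_self, map_zero]; exact zero_lt_one⟩
  neg_mem' := by
    rintro x ⟨p, hp⟩
    refine ⟨-p, ?_⟩
    have e : -x - aeval a (-p) = -(x - aeval a p) := by rw [map_neg]; ring
    rw [e, Valuation.map_neg]
    exact hp

/-- `(a) + 𝔪` -/
def idl (hV : ∀ c : F, algebraMap F Om c ∈ V) (ha : a ∈ V) : Ideal (ring V hV ha) where
  carrier := {x | ∃ q : F[X], q.coeff 0 = 0 ∧ V.valuation ((x : Om) - aeval a q) < 1}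
  add_mem' := by
    rintro x y ⟨p, hp0, hp⟩ ⟨q, hq0, hq⟩
    refine ⟨p + q, by rw [coeff_add, hp0, hq0, add_zero], ?_⟩
    have e : ((x + y : ring V hV ha) : Om) - aeval a (p + q) =
        ((x : Om) - aeval a p) + ((y : Om) - aeval a q) := by
      rw [map_add, Subring.coe_add]; ring
    rw [e]
    exact lt_of_le_of_lt (V.valuation.map_add _ _) (max_lt hp hq)
  zero_mem' := ⟨0, coeff_zero _, by
    rw [map_zero, sub_zero, Subring.coe_zero, map_zero]; exact zero_lt_one⟩
  smul_mem' := by
    rintro ⟨x, p, hp⟩ y ⟨q, hq0, hq⟩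
    refine ⟨p * q, by rw [mul_coeff_zero, hq0, mul_zero], ?_⟩
    have e : ((((⟨x, p, hp⟩ : ring V hV ha) • y : ring V hV ha)) : Om) - aeval a (p * q) =
        (x - aeval a p) * ((y : Om) - aeval a q) +
        aeval a p * ((y : Om) - aeval a q) + aeval a q * (x - aeval a p) := by
      rw [map_mul, smul_eq_mul, Subring.coe_mul]; ring
    have h1 := (V.valuation_le_one_iff _).mpr (aeval_mem V hV ha p)
    have h2 := (V.valuation_le_one_iff _).mpr (aeval_mem V hV ha q)
    rw [e]
    refine lt_of_le_of_lt (V.valuation.map_add _ _) (max_lt (lt_of_le_of_lt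
      (V.valuation.map_add _ _) (max_lt ?_ ?_)) ?_)
    · rw [map_mul]; exact mul_lt_one' hp hq
    · rw [map_mul]; exact lt_of_le_of_lt (mul_le_of_le_one_left' h1) hq
    · rw [map_mul]; exact lt_of_le_of_lt (mul_le_of_le_one_left' h2) hp

end trans

variable (F Om : Type*) [Field F] [IsAlgClosed F] [Field Om] [Algebra F Om]

/-- a place `Om → F ∪ ∞` exists -/
theorem exists_valuationSubring : ∃ V : ValuationSubring Om, (∀ c : F, algebraMap F Om c ∈ V) ∧
    ∀ a ∈ V, ∃ c : F, V.valuation (a - algebraMap F Om c) < 1 := by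
  classical
  obtain ⟨V, -, hV⟩ := zorn_le_nonempty₀ (α := (ValuationSubring Om)ᵒᵈ)
    {V | ∀ c : F, algebraMap F Om c ∈ OrderDual.ofDual V} (by
      intro S hS hc V₀ hV₀
      refine ⟨OrderDual.toDual (infChain (OrderDual.ofDual '' S) ?_), ?_, ?_⟩
      · rintro _ ⟨a, ha, rfl⟩ _ ⟨b, hb, rfl⟩ hne
        rcases hc.total ha hb with h | h
        · exact Or.inr h
        · exact Or.inl h
      · intro c V hV
        obtain ⟨W, hW, rfl⟩ := hV
        exact hS hW c
      · intro W hW x hx
        exact hx _ ⟨W, hW, rfl⟩) (OrderDual.toDual ⊤) (fun c => ValuationSubring.mem_top _)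
  have hVF : ∀ c : F, algebraMap F Om c ∈ OrderDual.ofDual V := hV.prop
  refine ⟨OrderDual.ofDual V, hVF, ?_⟩
  set W : ValuationSubring Om := OrderDual.ofDual V with hW
  intro a ha
  by_contra hcon
  push_neg at hcon
  have hres : ∀ c : F, ¬ W.valuation (a - algebraMap F Om c) < 1 := fun c => not_lt.mpr (hcon c)
  have hI : idl W hVF ha ≠ ⊤ := by
    intro htop
    have h1 : (1 : ring W hVF ha) ∈ idl W hVF ha := by rw [htop]; trivial
    obtain ⟨q, hq0, hq⟩ := h1
    have h2 : (1 : F[X]) - q ≠ 0 := by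
      intro h
      have := congrArg (fun p => coeff p 0) h
      simp [hq0] at this
    have h3 := val_aeval W hVF hres ha h2
    rw [map_sub, map_one] at h3
    rw [Subring.coe_one, h3] at hq
    exact lt_irrefl _ hq
  obtain ⟨B, hB1, hB2⟩ := Ideal.image_subset_nonunits_valuationSubring _ hI
  have hm : ∀ x : Om, W.valuation x < 1 → x ∈ B.nonunits := by
    intro x hx
    apply hB2
    have hx1 : W.valuation (x - aeval a (0 : F[X])) < 1 := by rwa [map_zero, sub_zero]
    exact ⟨⟨x, 0, hx1⟩, ⟨0, coeff_zero _, hx1⟩, rfl⟩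
  have hBW : B ≤ W := by
    intro x hx
    by_contra hxW
    have hx0 : x ≠ 0 := fun h => hxW (h ▸ W.zero_mem)
    have h1 : W.valuation x⁻¹ < 1 := by
      rw [map_inv₀]
      have h2 : 1 < W.valuation x := not_le.mp fun h => hxW ((W.valuation_le_one_iff _).mp h)
      exact inv_lt_one_of_one_lt₀ h2
    have h3 := hm _ h1
    rw [ValuationSubring.inv_mem_nonunits_iff] at h3
    exact h3.elim hx0 (fun h => h hx)
  have hBF : ∀ c : F, algebraMap F Om c ∈ B := by
    intro c
    apply hB1
    exact ⟨C c, by rw [aeval_C, sub_self, map_zero]; exact zero_lt_one⟩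
  have hWB : W ≤ B := hV.le_of_ge (y := OrderDual.toDual B) hBF hBW
  have ha0 : a ≠ 0 := by
    rintro rfl
    apply hres 0
    rw [map_zero, sub_zero, map_zero]
    exact zero_lt_one
  have haB : a ∈ B.nonunits := by
    apply hB2
    have hx1 : W.valuation (a - aeval a (X : F[X])) < 1 := by
      rw [aeval_X, sub_self, map_zero]; exact zero_lt_one
    exact ⟨⟨a, X, hx1⟩, ⟨X, coeff_X_zero, hx1⟩, rfl⟩
  have haW : a⁻¹ ∈ W := by
    rw [← W.valuation_le_one_iff, map_inv₀]
    have h1 : W.valuation a = 1 := by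
      have h2 := hres 0
      rw [map_zero, sub_zero] at h2
      exact le_antisymm ((W.valuation_le_one_iff _).mpr ha) (not_lt.mp h2)
    rw [h1, inv_one]
  have h4 := B.mem_nonunits_iff_or.mp haB
  exact h4.elim ha0 (fun h => h (hWB haW))

/-- the same, in the form used by `Spec5_225` -/
theorem exists_valuation : ∃ (V : ValuationSubring Om),
    (∀ c : F, c ≠ 0 → V.valuation (algebraMap F Om c) = 1) ∧
    ∀ a : Om, V.valuation a ≤ 1 → ∃ c : F, V.valuation (a - algebraMap F Om c) < 1 := by
  obtain ⟨V, h1, h2⟩ := exists_valuationSubring F Om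
  exact ⟨V, fun c hc => val_const V h1 hc, fun a ha => h2 a ((V.valuation_le_one_iff _).mp ha)⟩

end Crest.Agent.R013.Val1_225
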