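import Mathlib
import Crest.Agent.R013.Spec5_225
import Crest.Agent.R013.Val1_225

/-!
# R013 / DIV-SPEC, part 6 (helper225): no valuation needed in the statement

`F ⊆ Ω` algebraically closed, char 0, `L` = constant field extension of `K` to `Ω` (280's `IsCE`).
There is an additive specialisation map `Div(L) → Div(K)` which is a retraction of `base hι`,
preserves degrees, effectivity and principal divisors.
-/

set_option autoImplicit false
set_option linter.all false

namespace Crest.Agent.R013.Spec6_225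

open Polynomial WithZero Module
open scoped TensorProduct
open Crest.Agent.R013.RR1_948 Crest.Agent.R013.RR2_948
open Crest.Agent.R013.RR7_948 Crest.Agent.R013.RR8_948 Crest.Agent.R013.RR9_948
open Crest.Agent.R013.RR11_948 Crest.Agent.R013.RR12_948 Crest.Agent.R013.RR13_948
open Crest.Agent.R013.RR18_948 Crest.Agent.R013.RR19_948 Crest.Agent.R013.RR20_948
open Crest.Agent.R013.RR22_948
open Crest.Agent.R013.CE3_280 Crest.Agent.R013.CE5_280

section final

variable {F K Ω L : Type*} [Field F] [IsAlgClosed F] [CharZero F] [Field K] [Algebra F K]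
  [Algebra (RatFunc F) K] [IsScalarTower F (RatFunc F) K] [FiniteDimensional (RatFunc F) K]
  [Algebra.IsSeparable (RatFunc F) K]
  [Field Ω] [Algebra F Ω] [IsAlgClosed Ω]
  [Field L] [Algebra Ω L] [Algebra F L] [IsScalarTower F Ω L]
  [Algebra (RatFunc Ω) L] [IsScalarTower Ω (RatFunc Ω) L]
  [FiniteDimensional (RatFunc Ω) L] [Algebra.IsSeparable (RatFunc Ω) L]
  {ι : K →ₐ[F] L}

/-- **DIV-SPEC**: the specialisation homomorphism on divisors -/
theorem exists_spH (hι : IsCE Ω ι) :
    ∃ s : (Pl Ω L →₀ ℤ) →+ (Pl F K →₀ ℤ),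
      (∀ D, s (base hι D) = D) ∧ (∀ E, degD (s E) = degD E) ∧ (∀ E, 0 ≤ E → 0 ≤ s E) ∧
      (∀ f : L, f ≠ 0 → ∃ g : K, g ≠ 0 ∧ s (divf (k := Ω) f) = divf (k := F) g) := by
  classical
  obtain ⟨V, hv, hres⟩ := Val1_225.exists_valuation F Ω
  obtain ⟨sp, _, h2, h3⟩ := Spec5_225.exists_spD hι V.valuation hv hres
  refine ⟨Finsupp.mapDomain.addMonoidHom sp, fun D => ?_, fun E => ?_, fun E hE => ?_, h3⟩
  · show Finsupp.mapDomain sp (Finsupp.mapDomain (conP hι) D) = D
    rw [← Finsupp.mapDomain_comp]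
    have : sp ∘ conP hι = id := funext h2
    rw [this, Finsupp.mapDomain_id]
  · show degD (Finsupp.mapDomain sp E) = _
    rw [Spec2_225.degD_eq_sum, Spec2_225.degD_eq_sum, Finsupp.sum_mapDomain_index]
    · intro _; rfl
    · intro _ _ _; rfl
  · show 0 ≤ Finsupp.mapDomain sp E
    intro P
    rw [Finsupp.mapDomain, Finsupp.sum, Finsupp.finset_sum_apply, Finsupp.coe_zero, Pi.zero_apply]
    refine Finset.sum_nonneg fun Q _ => ?_
    rw [Finsupp.single_apply]
    split_ifs
    · exact hE Q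
    · exact le_refl _

/-- a class of `K` which is `n`-divisible over `Ω` is `n`-divisible over `F` -/
theorem divisible_descend (hι : IsCE Ω ι)
    {D : Pl F K →₀ ℤ} {n : ℕ} {E : Pl Ω L →₀ ℤ} {f : L} (hf : f ≠ 0)
    (h : base hι D = n • E + divf f) :
    ∃ (E₀ : Pl F K →₀ ℤ) (g : K), g ≠ 0 ∧ D = n • E₀ + divf g ∧ degD E₀ = degD E := by
  obtain ⟨s, h1, h2, _, h4⟩ := exists_spH hι
  obtain ⟨g, hg, hg'⟩ := h4 f hf
  refine ⟨s E, g, hg, ?_, h2 E⟩
  rw [← hg', ← h1 D, h, map_add, map_nsmul]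

end final

end Crest.Agent.R013.Spec6_225
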