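import Crest.Agent.R013.Inh12_770

/-!
# R013 / SplT_332 : transitivity of `Spl`

`P : Spl S L` (`L / K` finite Galois), `Q : Spl (P.SL hff) Y` ⟹ `Spl S Y`: the embedding of `Y`
over a direction `d` of `S` is the embedding over the sheet `(d, 1)` of `P.SL hff`.
-/

set_option autoImplicit false
set_option linter.unusedSectionVars false
open WithZero
open scoped NNReal
open Crest.Agent.R013.RR7_948 Crest.Agent.R013.Red332 Crest.Agent.R013.EE809
open Crest.Agent.R013.Cell_408 (FinDef DiscNorm)
open Crest.Agent.R013.SSK_332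

namespace Crest.Agent.R013.SplT_332

open Crest.Agent.R013.Inh_770 Crest.Agent.R013.Inh_770.Spl

variable {k : Type*} [NontriviallyNormedField k] [CompleteSpace k] [IsUltrametricDist k]
variable {C : Type*} [NormedField C] [IsUltrametricDist C] [NormedAlgebra k C]
variable [Algebra.IsAlgebraic k C] [IsAlgClosed C] [hk : Fact (DiscNorm k)]
variable {K : Type*} [Field K] [Algebra C K]
variable {L : Type*} [Field L] [Algebra C L] [Algebra K L] [IsScalarTower C K L]
variable {Y : Type*} [Field Y] [Algebra C Y] [Algebra K Y] [Algebra L Y] [IsScalarTower C K Y]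
  [IsScalarTower C L Y] [IsScalarTower K L Y]
variable {S : SSK k C K} (P : Spl S L) [FiniteDimensional K L] [IsGalois K L]
  [Algebra (RatFunc C) K] [IsScalarTower C (RatFunc C) K]
  [FiniteDimensional (RatFunc C) K] [Algebra.IsSeparable (RatFunc C) K]
  (hff : ∀ i, FFat (P.nmL i)) (Q : Spl (P.SL hff) Y)

/-- the sheet of `1` over a direction -/
noncomputable def sht (d : S.Dir) : (P.SL hff).Dir := (P.dirE hff).symm (d, 1)

theorem dirE_sht (d : S.Dir) : P.dirE hff (sht P hff d) = (d, 1) :=
  Equiv.apply_symm_apply _ _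

theorem em_sht (d : S.Dir) (f : L) : (P.SL hff).em (sht P hff d) f = P.ps d f := by
  rw [em_eq, dirE_sht, AlgEquiv.one_apply]

/-- the sheet of `1` over an edge -/
noncomputable def shE (e : S.Ed) : (P.SL hff).Ed := (P.edE hff).symm (e, 1)

theorem edE_shE (e : S.Ed) : P.edE hff (shE P hff e) = (e, 1) :=
  Equiv.apply_symm_apply _ _

theorem e0_shE (e : S.Ed) : (P.SL hff).e0 (shE P hff e) = sht P hff (S.e0 e) := by
  apply (P.dirE hff).injective
  rw [dirE_sht, e0_eq, edE_shE]

theorem e1_shE (e : S.Ed) : (P.SL hff).e1 (shE P hff e) = sht P hff (S.e1 e) := by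
  apply (P.dirE hff).injective
  rw [dirE_sht, e1_eq, edE_shE]

theorem cc_shE (e : S.Ed) : (P.SL hff).cc (shE P hff e) = S.cc e := by
  rw [cc_eq, edE_shE]

omit [Algebra (RatFunc C) K] [IsScalarTower C (RatFunc C) K]
  [FiniteDimensional (RatFunc C) K] [Algebra.IsSeparable (RatFunc C) K] in
/-- no inertia, in towers -/
theorem noInertia_tower {w : Valuation Y NNReal} (h1 : NoInertia K (w.comap (algebraMap L Y)))
    (h2 : NoInertia L w) : NoInertia K w := by
  intro σ hσ hw
  by_cases h : σ.restrictNormal L = 1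
  · let τ : Y ≃ₐ[L] Y := AlgEquiv.ofRingEquiv (f := (σ : Y ≃+* Y)) fun x => by
      have h3 := AlgEquiv.restrictNormal_commutes σ L x
      rw [h, AlgEquiv.one_apply] at h3
      exact h3.symm
    have hτ : ∀ y, τ y = σ y := fun y => rfl
    have hτ1 : τ ≠ 1 := by
      intro h3
      apply hσ
      ext y
      rw [← hτ, h3]
      rfl
    obtain ⟨θ, h3, h4⟩ := h2 τ hτ1 fun f => by rw [hτ]; exact hw f
    exact ⟨θ, h3, by rw [← hτ]; exact h4⟩
  · obtain ⟨θ, h3, h4⟩ := h1 (σ.restrictNormal L) h fun f => by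
      rw [Valuation.comap_apply, Valuation.comap_apply, AlgEquiv.restrictNormal_commutes]
      exact hw _
    refine ⟨algebraMap L Y θ, h3, ?_⟩
    rw [Valuation.comap_apply, map_sub, AlgEquiv.restrictNormal_commutes] at h4
    exact h4

/-- **transitivity of `Spl`** -/
noncomputable def trans : Spl S Y where
  ps d := Q.ps (sht P hff d)
  ps_K d f := by
    rw [IsScalarTower.algebraMap_apply K L Y, Q.ps_K, em_sht, P.ps_K]
  ps_ann e f := by
    have h := Q.ps_ann (shE P hff e) f
    rw [cc_shE, e0_shE, e1_shE] at h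
    exact h
  ps_disc d hd f := by
    refine Q.ps_disc (sht P hff d) ?_ f
    rw [isDisc_iff, dirE_sht]
    exact hd
  ni d := by
    refine noInertia_tower (L := L) ?_ (Q.ni (sht P hff d))
    have e : (gnV.comap (Q.ps (sht P hff d))).comap (algebraMap L Y) = gnV.comap (P.ps d) := by
      ext f
      rw [Valuation.comap_apply, Valuation.comap_apply, Valuation.comap_apply, Q.ps_K, em_sht]
    rw [e]
    exact P.ni d

theorem trans_ps (d : S.Dir) (f : Y) : (trans P hff Q).ps d f = Q.ps (sht P hff d) f := rfl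

theorem trans_ps_L (d : S.Dir) (f : L) : (trans P hff Q).ps d (algebraMap L Y f) = P.ps d f := by
  rw [trans_ps, Q.ps_K, em_sht]

end Crest.Agent.R013.SplT_332
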