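import Crest.Agent.R013.Spr9_607
import Crest.Agent.R013.SSG1_109
import Crest.Agent.R013.LU6_935

/-! # R013 / Spr10_607 : (SPR4) small discs around a point of type 4 are good. -/

set_option autoImplicit false
set_option linter.unusedSectionVars false
set_option linter.style.haveILetI false

noncomputable section

namespace Crest.Agent.R013.Spread_607

open Topology Crest.Agent.R013.Cell_408 Crest.Agent.R013.Comp_267 Crest.Agent.R013.Sub_270
open Crest.Agent.R013.A2a_275 Crest.Agent.R013.Good_408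
open scoped NNReal

universe u

variable {k : Type*} {C : Type u} [NontriviallyNormedField k] [CompleteSpace k] [IsUltrametricDist k]
  [NormedField C] [IsUltrametricDist C] [NormedAlgebra k C] [Algebra.IsAlgebraic k C] [IsAlgClosed C]
  {K : Type u} [Field K] [Algebra C K] [Algebra (RatFunc C) K] [IsScalarTower C (RatFunc C) K]

omit [NontriviallyNormedField k] [CompleteSpace k] [IsUltrametricDist k] [IsUltrametricDist C]
  [NormedAlgebra k C] [Algebra.IsAlgebraic k C] [IsAlgClosed C] in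
theorem fam_norm {w0 : Valuation (RatFunc C) ℝ≥0} (hw0 : ∀ c, w0 (RatFunc.C c) = ‖c‖₊)
    (D : Fam (RatFunc C) K w0) (i : Fin D.N) (c : C) : D.w i (algebraMap C K c) = ‖c‖₊ := by
  rw [IsScalarTower.algebraMap_apply C (RatFunc C) K, D.ov, RatFunc.algebraMap_eq_C, hw0]

omit [NontriviallyNormedField k] [CompleteSpace k] [IsUltrametricDist k]
  [NormedAlgebra k C] [Algebra.IsAlgebraic k C] [IsAlgClosed C] in
theorem ev_congr {k : Type*} [NontriviallyNormedField k] [NormedAlgebra k C] [Algebra.IsAlgebraic k C]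
    {E : Type*} [NormedField E] [IsUltrametricDist E] [CompleteSpace E] {j : C →+* E}
    (hj : ∀ c, ‖j c‖ = ‖c‖) {z z' : E} (hz : ‖z‖ < 1) (hz' : ‖z'‖ < 1) (h : z = z') (f : BD k C) :
    Spread_607.ev j hj hz f = Spread_607.ev j hj hz' f := by
  subst h; rfl

/-- **INJ** for type 4 -/
theorem inj4 (hk : DiscNorm k) {w0 : Valuation (RatFunc C) ℝ≥0} (hw0 : ∀ c, w0 (RatFunc.C c) = ‖c‖₊)
    [FiniteDimensional (RatFunc C) K]
    (D : Fam (RatFunc C) K w0) (a ρ : C) (haρ : w0 (RatFunc.X - RatFunc.C a) < ‖ρ‖₊)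
    {n : ℕ} (b : Module.Basis (Fin n) (RatFunc C) K)
    (t : Fin D.N → K)
    (ht : ∀ i, Ty4 (jw C (D.w i)) (toCpl (D.w i) (t i)))
    (V : ∀ i, Dc (jw C (D.w i)) (toCpl (D.w i) (t i)))
    (g : Fin D.N → PowerSeries C) (m : Fin D.N → ℕ) (hg : ∀ i, WD k (g i) (m i)) (hm : ∀ i, m i ≠ 0)
    (hev : ∀ i, (V i).ev (norm_jw (fam_norm hw0 D i)) ⟨g i, (hg i).mem⟩ =
      (toCpl (D.w i) (algebraMap (RatFunc C) K RatFunc.X) - jw C (D.w i) a) / jw C (D.w i) ρ)
    (ι : Fin D.N → K →ₐ[C] FD k C)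
    (hι : ∀ i z, (V i).evF hk (norm_jw (fam_norm hw0 D i)) (ht i) (ι i z) = toCpl (D.w i) z) :
    Inj (fun i => (compF hk (hg i) (hm i)).toRingHom) (fun i => (ι i).toRingHom) b := by
  classical
  have hρ : 0 < ‖ρ‖₊ := lt_of_le_of_lt zero_le haρ
  have hρ0 : ρ ≠ 0 := nnnorm_pos.1 hρ
  set XK : K := algebraMap (RatFunc C) K RatFunc.X with hXK
  let u : RatFunc C := (RatFunc.X - RatFunc.C a) / RatFunc.C ρ
  let r : ℝ≥0 := w0 u
  have hr1 : r < 1 := by
    change w0 ((RatFunc.X - RatFunc.C a) / RatFunc.C ρ) < 1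
    rw [map_div₀, hw0]
    exact (div_lt_one hρ).2 haρ
  let z : ∀ i, Cpl (D.w i) := fun i => (toCpl (D.w i) XK - jw C (D.w i) a) / jw C (D.w i) ρ
  have hzu : ∀ i, z i = toCpl (D.w i) (algebraMap (RatFunc C) K u) := by
    intro i
    have h1 : ∀ c : C, jw C (D.w i) c = toCpl (D.w i) (algebraMap (RatFunc C) K (RatFunc.C c)) := by
      intro c
      rw [← RatFunc.algebraMap_eq_C, ← IsScalarTower.algebraMap_apply]; rfl
    change (toCpl (D.w i) XK - jw C (D.w i) a) / jw C (D.w i) ρ =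
      toCpl (D.w i) (algebraMap (RatFunc C) K ((RatFunc.X - RatFunc.C a) / RatFunc.C ρ))
    rw [h1, h1, map_div₀, map_div₀, map_sub, map_sub]
  have hnz : ∀ i, ‖z i‖ = r := by
    intro i
    rw [hzu, norm_toCpl, D.ov]
  have hz1 : ∀ i, ‖z i‖ < 1 := fun i => by
    rw [hnz]; exact_mod_cast hr1
  intro e he
  obtain ⟨s, hs⟩ := IsLocalization.exist_integer_multiples_of_finite (nonZeroDivisors (BD k C)) e
  choose A hA using hs
  have hinj := IsFractionRing.injective (BD k C) (FD k C)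
  have hs0 : (s : BD k C) ≠ 0 := nonZeroDivisors.ne_zero s.2
  have hs1 : algebraMap (BD k C) (FD k C) (s : BD k C) ≠ 0 := fun h =>
    hs0 (hinj (h.trans (map_zero _).symm))
  have hA' : ∀ l, algebraMap (BD k C) (FD k C) (A l) =
      algebraMap (BD k C) (FD k C) (s : BD k C) * e l := by
    intro l
    rw [hA l, Algebra.smul_def]
  -- the relation in `Cpl (w i)`
  have hrel : ∀ i, ∑ l, Spread_607.ev (jw C (D.w i)) (norm_jw (fam_norm hw0 D i)) (hz1 i) (A l) *
      toCpl (D.w i) (b l) = 0 := by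
    intro i
    have h1 : ∑ l, compF hk (hg i) (hm i) (algebraMap (BD k C) (FD k C) (A l)) * ι i (b l) = 0 := by
      have h2 : ∀ l, compF hk (hg i) (hm i) (algebraMap (BD k C) (FD k C) (A l)) * ι i (b l) =
          compF hk (hg i) (hm i) (algebraMap (BD k C) (FD k C) (s : BD k C)) *
          (compF hk (hg i) (hm i) (e l) * ι i (b l)) := by
        intro l
        rw [hA', map_mul]; ring
      simp only [h2]
      rw [← Finset.mul_sum]
      have h3 : ∑ l, compF hk (hg i) (hm i) (e l) * ι i (b l) = 0 := he i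
      rw [h3, mul_zero]
    have h4 := congrArg ((V i).evF hk (norm_jw (fam_norm hw0 D i)) (ht i)) h1
    rw [map_sum, map_zero] at h4
    rw [← h4]
    refine Finset.sum_congr rfl fun l _ => ?_
    rw [map_mul, hι, compF_algebraMap, Dc.evF_algebraMap, Dc.ev, ev_compE]
    congr 1
    exact ev_congr _ _ _ (hev i).symm _
  -- uniform bounds
  obtain ⟨M, hM0, hM⟩ : ∃ M : ℝ≥0, 0 ≤ M ∧ ∀ l n, ‖PowerSeries.coeff n (A l : PowerSeries C)‖ ≤ M := by
    have h1 : ∀ l, ∃ M : ℝ≥0, ∀ n, ‖PowerSeries.coeff n (A l : PowerSeries C)‖ ≤ M := by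
      intro l
      obtain ⟨-, M, hM⟩ := mem_BD.1 (A l).2
      exact ⟨⟨M, (norm_nonneg _).trans (hM 0)⟩, hM⟩
    choose Ml hMl using h1
    refine ⟨∑ l, Ml l, zero_le, fun l n => (hMl l n).trans ?_⟩
    exact_mod_cast Finset.single_le_sum (f := Ml) (fun _ _ => zero_le) (Finset.mem_univ l)
  obtain ⟨β, hβ⟩ : ∃ β : ℝ≥0, ∀ i l, D.w i (b l) ≤ β := by
    refine ⟨∑ i, ∑ l, D.w i (b l), fun i l => ?_⟩
    exact (Finset.single_le_sum (f := fun l => D.w i (b l)) (fun _ _ => zero_le)
      (Finset.mem_univ l)).trans (Finset.single_le_sum (f := fun i => ∑ l, D.w i (b l))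
        (fun _ _ => zero_le) (Finset.mem_univ i))
  obtain ⟨A0, hA0⟩ := D.coord b
  obtain ⟨i0⟩ := D.nonempty
  -- main estimate
  have key : ∀ l N, ‖Spread_607.ev (jw C (D.w i0)) (norm_jw (fam_norm hw0 D i0)) (hz1 i0) (A l)‖ ≤
      (M * (1 + β * A0) : ℝ≥0) * (r : ℝ) ^ N := by
    intro l N
    let P : Fin n → Polynomial C := fun l => PowerSeries.trunc N (A l : PowerSeries C)
    let q : Fin n → RatFunc C := fun l => (P l).eval₂ (algebraMap C (RatFunc C)) u
    have hq : ∀ i l, toCpl (D.w i) (algebraMap (RatFunc C) K (q l)) =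
        (P l).eval₂ (jw C (D.w i)) (z i) := by
      intro i l
      change toCpl (D.w i) (algebraMap (RatFunc C) K ((P l).eval₂ (algebraMap C (RatFunc C)) u)) = _
      rw [Polynomial.hom_eval₂, Polynomial.hom_eval₂, hzu]
      congr 1
      ext c
      change toCpl (D.w i) (algebraMap (RatFunc C) K (algebraMap C (RatFunc C) c)) = _
      rw [← IsScalarTower.algebraMap_apply]; rfl
    have htr : ∀ i l, ‖Spread_607.ev (jw C (D.w i)) (norm_jw (fam_norm hw0 D i)) (hz1 i) (A l) -
        (P l).eval₂ (jw C (D.w i)) (z i)‖ ≤ M * (r : ℝ) ^ N := by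
      intro i l
      have := norm_ev_sub_trunc (jw C (D.w i)) (norm_jw (fam_norm hw0 D i)) (hz1 i) (A l)
        (M := M) M.2 (hM l) N
      rwa [hnz] at this
    let y : K := ∑ l, q l • b l
    have hy : ∀ i, D.w i y ≤ M * r ^ N * β := by
      intro i
      have h1 : toCpl (D.w i) y = ∑ l, ((P l).eval₂ (jw C (D.w i)) (z i) -
          Spread_607.ev (jw C (D.w i)) (norm_jw (fam_norm hw0 D i)) (hz1 i) (A l)) *
          toCpl (D.w i) (b l) := by
        change toCpl (D.w i) (∑ l, q l • b l) = _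
        simp only [sub_mul]
        rw [Finset.sum_sub_distrib, hrel i, sub_zero, map_sum]
        refine Finset.sum_congr rfl fun l _ => ?_
        rw [Algebra.smul_def, map_mul, hq]
      have h2 : ‖toCpl (D.w i) y‖ ≤ M * (r : ℝ) ^ N * β := by
        rw [h1]
        refine IsUltrametricDist.norm_sum_le_of_forall_le_of_nonneg (by positivity) fun l _ => ?_
        rw [norm_mul, norm_toCpl, norm_sub_rev]
        exact mul_le_mul (htr i l) (by exact_mod_cast hβ i l) NNReal.zero_le_coe (by positivity)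
      rw [norm_toCpl] at h2
      exact_mod_cast h2
    have h3 : w0 (q l) ≤ M * r ^ N * β * A0 := by
      have h4 := hA0 y (M * r ^ N * β) hy l
      have h5 : b.repr y l = q l := by
        change b.repr (∑ l, q l • b l) l = q l
        rw [b.repr_sum_self]
      rwa [h5] at h4
    have h6 : ‖(P l).eval₂ (jw C (D.w i0)) (z i0)‖ ≤ M * (r : ℝ) ^ N * β * A0 := by
      rw [← hq, norm_toCpl, D.ov]
      exact_mod_cast h3
    have h7 : Spread_607.ev (jw C (D.w i0)) (norm_jw (fam_norm hw0 D i0)) (hz1 i0) (A l) =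
        (Spread_607.ev (jw C (D.w i0)) (norm_jw (fam_norm hw0 D i0)) (hz1 i0) (A l) -
        (P l).eval₂ (jw C (D.w i0)) (z i0)) + (P l).eval₂ (jw C (D.w i0)) (z i0) := by ring
    rw [h7]
    refine (norm_add_le _ _).trans ((add_le_add (htr i0 l) h6).trans ?_)
    push_cast
    apply le_of_eq
    ring
  have hzero : ∀ l, Spread_607.ev (jw C (D.w i0)) (norm_jw (fam_norm hw0 D i0)) (hz1 i0) (A l) = 0 := by
    intro l
    have h1 : Filter.Tendsto (fun N : ℕ => ((M * (1 + β * A0) : ℝ≥0) : ℝ) * (r : ℝ) ^ N) Filter.atTop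
        (𝓝 (((M * (1 + β * A0) : ℝ≥0) : ℝ) * 0)) :=
      (tendsto_pow_atTop_nhds_zero_of_lt_one NNReal.zero_le_coe (by exact_mod_cast hr1)).const_mul _
    rw [mul_zero] at h1
    have h2 := ge_of_tendsto' h1 (key l)
    exact norm_le_zero_iff.1 h2
  funext l
  have h1 : (V i0).ev (norm_jw (fam_norm hw0 D i0)) (comp (g i0) (WD.co (hg i0) (hm i0)) (A l)) = 0 := by
    rw [Dc.ev, ev_compE, ← hzero l]
    exact ev_congr _ _ _ (hev i0) _
  have h2 : comp (g i0) (WD.co (hg i0) (hm i0)) (A l) = 0 :=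
    (V i0).ev_injective hk _ (ht i0) (h1.trans (map_zero _).symm)
  have h3 : A l = 0 := comp_injective hk (hg i0) (hm i0) (h2.trans (map_zero _).symm)
  have h4 := hA' l
  rw [h3, map_zero] at h4
  exact (mul_eq_zero.1 h4.symm).resolve_left hs1

end Crest.Agent.R013.Spread_607
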