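import Crest.Agent.R013.Cell3_408

/-! # R013 / Spr1_607 : evaluation of bounded finitely defined power series at an element of norm `< 1`
of a complete ultrametric field over `C`. -/

set_option autoImplicit false
set_option linter.unusedSectionVars false

noncomputable section

namespace Crest.Agent.R013.Spread_607

open Topology Crest.Agent.R013.Cell_408

section Ev

variable {k C E : Type*} [NontriviallyNormedField k]
  [NormedField C] [IsUltrametricDist C] [NormedAlgebra k C] [Algebra.IsAlgebraic k C]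
  [NormedField E] [IsUltrametricDist E] [CompleteSpace E]
  (j : C →+* E) (hj : ∀ c, ‖j c‖ = ‖c‖)

include hj

theorem summable_norm_ev {f : PowerSeries C} {M : ℝ} (hf : ∀ n, ‖PowerSeries.coeff n f‖ ≤ M)
    {z : E} (hz : ‖z‖ < 1) : Summable fun n => ‖j (PowerSeries.coeff n f) * z ^ n‖ := by
  refine Summable.of_nonneg_of_le (fun n => norm_nonneg _) (fun n => ?_)
    ((summable_geometric_of_lt_one (norm_nonneg z) hz).mul_left M)
  rw [norm_mul, norm_pow, hj]
  exact mul_le_mul_of_nonneg_right (hf n) (pow_nonneg (norm_nonneg _) _)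

theorem summable_ev {f : PowerSeries C} {M : ℝ} (hf : ∀ n, ‖PowerSeries.coeff n f‖ ≤ M)
    {z : E} (hz : ‖z‖ < 1) : Summable fun n => j (PowerSeries.coeff n f) * z ^ n :=
  (summable_norm_ev j hj hf hz).of_norm

/-- evaluation -/
def ev {z : E} (hz : ‖z‖ < 1) : BD k C →+* E where
  toFun f := ∑' n, j (PowerSeries.coeff n (f : PowerSeries C)) * z ^ n
  map_one' := by
    rw [tsum_eq_single 0]
    · simp
    · intro n hn
      simp [PowerSeries.coeff_one, hn]
  map_zero' := by simp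
  map_add' f g := by
    obtain ⟨-, M, hM⟩ := mem_BD.1 f.2
    obtain ⟨-, N, hN⟩ := mem_BD.1 g.2
    rw [← (summable_ev j hj hM hz).tsum_add (summable_ev j hj hN hz)]
    refine tsum_congr fun n => ?_
    rw [Subalgebra.coe_add, map_add, map_add, add_mul]
  map_mul' f g := by
    obtain ⟨-, M, hM⟩ := mem_BD.1 f.2
    obtain ⟨-, N, hN⟩ := mem_BD.1 g.2
    rw [tsum_mul_tsum_eq_tsum_sum_antidiagonal_of_summable_norm (summable_norm_ev j hj hM hz)
      (summable_norm_ev j hj hN hz)]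
    refine tsum_congr fun n => ?_
    rw [Subalgebra.coe_mul, PowerSeries.coeff_mul, map_sum, Finset.sum_mul]
    refine Finset.sum_congr rfl fun p hp => ?_
    rw [Finset.HasAntidiagonal.mem_antidiagonal] at hp
    rw [map_mul, ← hp, pow_add]
    ring

theorem ev_apply {z : E} (hz : ‖z‖ < 1) (f : BD k C) :
    ev j hj hz f = ∑' n, j (PowerSeries.coeff n (f : PowerSeries C)) * z ^ n := rfl

theorem hasSum_ev {z : E} (hz : ‖z‖ < 1) (f : BD k C) :
    HasSum (fun n => j (PowerSeries.coeff n (f : PowerSeries C)) * z ^ n) (ev j hj hz f) := by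
  obtain ⟨-, M, hM⟩ := mem_BD.1 f.2
  exact (summable_ev j hj hM hz).hasSum

theorem ev_C {z : E} (hz : ‖z‖ < 1) (c : C) : ev j hj hz ⟨PowerSeries.C c, C_mem_BD (k := k) c⟩ = j c := by
  rw [ev_apply, tsum_eq_single 0]
  · simp
  · intro n hn
    simp [PowerSeries.coeff_C, hn]

theorem ev_X {z : E} (hz : ‖z‖ < 1) : ev j hj hz ⟨PowerSeries.X, X_mem_BD (k := k)⟩ = z := by
  rw [ev_apply, tsum_eq_single 1]
  · simp
  · intro n hn
    simp [PowerSeries.coeff_X, hn]

theorem norm_ev_le {z : E} (hz : ‖z‖ < 1) (f : BD k C) {M : ℝ} (hM0 : 0 ≤ M)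
    (hM : ∀ n, ‖PowerSeries.coeff n (f : PowerSeries C)‖ * ‖z‖ ^ n ≤ M) : ‖ev j hj hz f‖ ≤ M := by
  rw [ev_apply]
  refine IsUltrametricDist.norm_tsum_le_of_forall_le_of_nonneg hM0 fun n => ?_
  rw [norm_mul, norm_pow, hj]
  exact hM n

theorem norm_ev_le' {z : E} (hz : ‖z‖ < 1) (f : BD k C) {M : ℝ} (hM0 : 0 ≤ M)
    (hM : ∀ n, ‖PowerSeries.coeff n (f : PowerSeries C)‖ ≤ M) : ‖ev j hj hz f‖ ≤ M := by
  refine norm_ev_le j hj hz f hM0 fun n => ?_
  calc _ ≤ M * 1 := mul_le_mul (hM n) (pow_le_one₀ (norm_nonneg _) hz.le)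
        (pow_nonneg (norm_nonneg _) _) hM0
    _ = M := mul_one M

/-- if the constant coefficient dominates then it gives the norm -/
theorem norm_ev_eq {z : E} (hz : ‖z‖ < 1) (f : BD k C)
    (hM : ∀ n, ‖PowerSeries.coeff n (f : PowerSeries C)‖ ≤ ‖PowerSeries.coeff 0 (f : PowerSeries C)‖) :
    ‖ev j hj hz f‖ = ‖PowerSeries.coeff 0 (f : PowerSeries C)‖ := by
  set a := PowerSeries.coeff 0 (f : PowerSeries C) with ha
  rcases eq_or_ne a 0 with h0 | h0
  · have : ‖ev j hj hz f‖ ≤ 0 := norm_ev_le' j hj hz f le_rfl fun n => by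
      have := hM n; rwa [h0, norm_zero] at this
    rw [h0, norm_zero]
    exact le_antisymm this (norm_nonneg _)
  · set g : BD k C := f - ⟨PowerSeries.C a, C_mem_BD a⟩ with hg
    have hfg : ev j hj hz f = j a + ev j hj hz g := by
      rw [hg, map_sub, ev_C]; ring
    have hgle : ‖ev j hj hz g‖ ≤ ‖a‖ * ‖z‖ := by
      refine norm_ev_le j hj hz g (mul_nonneg (norm_nonneg _) (norm_nonneg _)) fun n => ?_
      rcases Nat.eq_zero_or_pos n with hn | hn
      · rw [hn, hg, Subalgebra.coe_sub, map_sub, PowerSeries.coeff_C]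
        simp only [if_true]
        rw [← ha, sub_self, norm_zero, zero_mul]
        exact mul_nonneg (norm_nonneg _) (norm_nonneg _)
      · rw [hg, Subalgebra.coe_sub, map_sub, PowerSeries.coeff_C, if_neg hn.ne', sub_zero]
        refine mul_le_mul (hM n) ?_ (pow_nonneg (norm_nonneg _) _) (norm_nonneg _)
        calc ‖z‖ ^ n ≤ ‖z‖ ^ 1 := pow_le_pow_of_le_one (norm_nonneg _) hz.le hn
          _ = ‖z‖ := pow_one _
    have hlt : ‖ev j hj hz g‖ < ‖j a‖ := by
      rw [hj]
      refine hgle.trans_lt ?_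
      have : 0 < ‖a‖ := norm_pos_iff.2 h0
      nlinarith
    rw [hfg, IsUltrametricDist.norm_add_eq_max_of_norm_ne_norm hlt.ne', max_eq_left hlt.le, hj]

theorem ev_pow_smul {z : E} (hz : ‖z‖ < 1) (c : C) (n : ℕ) :
    ev j hj hz ⟨PowerSeries.C c * PowerSeries.X ^ n,
      mul_mem (C_mem_BD (k := k) c) (pow_mem X_mem_BD n)⟩ = j c * z ^ n := by
  have : (⟨PowerSeries.C c * PowerSeries.X ^ n,
      mul_mem (C_mem_BD (k := k) c) (pow_mem X_mem_BD n)⟩ : BD k C) =
      ⟨PowerSeries.C c, C_mem_BD c⟩ * ⟨PowerSeries.X, X_mem_BD⟩ ^ n := rfl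
  rw [this, map_mul, map_pow, ev_C, ev_X]

theorem ev_poly {z : E} (hz : ‖z‖ < 1) (P : Polynomial C) :
    ev j hj hz ⟨(P : PowerSeries C), coe_mem_BD (k := k) P⟩ = P.eval₂ j z := by
  induction P using Polynomial.induction_on' with
  | add p q hp hq =>
    have : (⟨((p + q : Polynomial C) : PowerSeries C), coe_mem_BD (k := k) _⟩ : BD k C) =
      ⟨(p : PowerSeries C), coe_mem_BD p⟩ + ⟨(q : PowerSeries C), coe_mem_BD q⟩ := by
        apply Subtype.ext; simp
    rw [this, map_add, hp, hq, Polynomial.eval₂_add]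
  | monomial n c =>
    have : (⟨((Polynomial.monomial n c : Polynomial C) : PowerSeries C), coe_mem_BD (k := k) _⟩ :
        BD k C) = ⟨PowerSeries.C c * PowerSeries.X ^ n,
      mul_mem (C_mem_BD (k := k) c) (pow_mem X_mem_BD n)⟩ := by
        apply Subtype.ext
        simp [← Polynomial.C_mul_X_pow_eq_monomial]
    rw [this, ev_pow_smul, Polynomial.eval₂_monomial]

/-- the polynomial truncations approximate -/
theorem norm_ev_sub_trunc {z : E} (hz : ‖z‖ < 1) (f : BD k C) {M : ℝ} (hM0 : 0 ≤ M)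
    (hM : ∀ n, ‖PowerSeries.coeff n (f : PowerSeries C)‖ ≤ M) (N : ℕ) :
    ‖ev j hj hz f - (PowerSeries.trunc N (f : PowerSeries C)).eval₂ j z‖ ≤ M * ‖z‖ ^ N := by
  rw [← ev_poly (k := k) j hj hz, ← map_sub]
  refine norm_ev_le j hj hz _ (mul_nonneg hM0 (pow_nonneg (norm_nonneg _) _)) fun n => ?_
  rw [Subalgebra.coe_sub, map_sub, Polynomial.coeff_coe, PowerSeries.coeff_trunc]
  split_ifs with h
  · rw [sub_self, norm_zero, zero_mul]
    exact mul_nonneg hM0 (pow_nonneg (norm_nonneg _) _)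
  · rw [sub_zero]
    exact mul_le_mul (hM n) (pow_le_pow_of_le_one (norm_nonneg _) hz.le (not_lt.1 h))
      (pow_nonneg (norm_nonneg _) _) hM0

end Ev

end Crest.Agent.R013.Spread_607
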