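import Mathlib

/-! # R013 / Spr2_607 : Newton's method in an abstract complete ultrametric ring (sup norm given by a
predicate `Bd M a`). -/

set_option autoImplicit false
set_option linter.unusedSectionVars false

noncomputable section

namespace Crest.Agent.R013.Spread_607

/-- a complete ultrametric ring, the norm given by a predicate -/
structure UBall (A : Type*) [CommRing A] (Bd : ℝ → A → Prop) : Prop where
  zero : ∀ M, 0 ≤ M → Bd M 0
  one : Bd 1 1
  add : ∀ M a b, Bd M a → Bd M b → Bd M (a + b)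
  neg : ∀ M a, Bd M a → Bd M (-a)
  mul : ∀ M N a b, 0 ≤ M → 0 ≤ N → Bd M a → Bd N b → Bd (M * N) (a * b)
  mono : ∀ M N a, M ≤ N → Bd M a → Bd N a
  sep : ∀ a, (∀ M, 0 < M → Bd M a) → a = 0
  complete : ∀ (θ c : ℝ), 0 ≤ θ → θ < 1 → 0 ≤ c → ∀ Z : ℕ → A,
    (∀ n, Bd (c * θ ^ n) (Z (n + 1) - Z n)) → ∃ z, ∀ n, Bd (c * θ ^ n) (z - Z n)

namespace UBall

variable {A : Type*} [CommRing A] {Bd : ℝ → A → Prop} (h : UBall A Bd)

include h

theorem sub {M : ℝ} {a b : A} (ha : Bd M a) (hb : Bd M b) : Bd M (a - b) := by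
  rw [sub_eq_add_neg]; exact h.add _ _ _ ha (h.neg _ _ hb)

theorem sum {ι : Type*} {M : ℝ} (hM : 0 ≤ M) (s : Finset ι) (f : ι → A) (hf : ∀ i ∈ s, Bd M (f i)) :
    Bd M (∑ i ∈ s, f i) := by
  classical
  induction s using Finset.induction_on with
  | empty => simpa using h.zero M hM
  | insert i s hi ih =>
    rw [Finset.sum_insert hi]
    exact h.add _ _ _ (hf i (Finset.mem_insert_self _ _))
      (ih fun j hj => hf j (Finset.mem_insert_of_mem hj))

theorem pow {M : ℝ} (hM : 0 ≤ M) {a : A} (ha : Bd M a) (n : ℕ) : Bd (M ^ n) (a ^ n) := by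
  induction n with
  | zero => simpa using h.one
  | succ n ih =>
    rw [pow_succ, pow_succ]
    exact h.mul _ _ _ _ (pow_nonneg hM n) hM ih ha

theorem eq_of_forall {a b : A} (hab : ∀ M, 0 < M → Bd M (a - b)) : a = b :=
  sub_eq_zero.1 (h.sep _ hab)

/-- difference of powers -/
theorem pow_sub_pow {θ δ : ℝ} (hθ : 0 ≤ θ) (hδ : 0 ≤ δ) {a b : A} (ha : Bd θ a) (hb : Bd θ b)
    (hab : Bd δ (a - b)) (n : ℕ) : Bd (θ ^ n * δ) (a ^ (n + 1) - b ^ (n + 1)) := by
  have e : a ^ (n + 1) - b ^ (n + 1) =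
      (∑ i ∈ Finset.range (n + 1), a ^ i * b ^ (n + 1 - 1 - i)) * (a - b) :=
    (Commute.all a b).geom_sum₂_mul (n + 1) |>.symm
  rw [e]
  refine h.mul _ _ _ _ (pow_nonneg hθ n) hδ (h.sum (pow_nonneg hθ n) _ _ fun i hi => ?_) hab
  have hi' : i ≤ n := Nat.lt_succ_iff.1 (Finset.mem_range.1 hi)
  have := h.mul _ _ _ _ (pow_nonneg hθ i) (pow_nonneg hθ (n + 1 - 1 - i)) (h.pow hθ ha i)
    (h.pow hθ hb (n + 1 - 1 - i))
  rwa [← pow_add, show i + (n + 1 - 1 - i) = n by omega] at this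

variable (P : Polynomial A) {θ M : ℝ} (hθ : 0 ≤ θ) (hM : 1 ≤ M) (hθM : M * θ < 1)
  (h0 : Bd θ (P.coeff 0)) (h1 : P.coeff 1 = 1) (hj : ∀ j, 2 ≤ j → Bd M (P.coeff j))

include hθ hM hθM h1 hj

theorem contraction {δ : ℝ} (hδ : 0 ≤ δ) {a b : A} (ha : Bd θ a) (hb : Bd θ b)
    (hab : Bd δ (a - b)) : Bd (M * θ * δ) (P.eval a - P.eval b - (a - b)) := by
  have hM0 : 0 ≤ M := zero_le_one.trans hM
  have hθ1 : θ ≤ 1 := by nlinarith
  set N := P.natDegree + 2 with hN
  have e1 : ∀ z : A, P.eval z = P.coeff 0 + P.coeff 1 * z +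
      ∑ i ∈ Finset.range P.natDegree, P.coeff (i + 2) * z ^ (i + 2) := by
    intro z
    rw [Polynomial.eval_eq_sum_range' (n := N) (by omega), hN, Finset.sum_range_succ',
      Finset.sum_range_succ']
    simp only [pow_zero, mul_one, zero_add, pow_one]
    ring
  have e2 : P.eval a - P.eval b - (a - b) =
      ∑ i ∈ Finset.range P.natDegree, P.coeff (i + 2) * (a ^ (i + 2) - b ^ (i + 2)) := by
    rw [e1 a, e1 b, h1]
    simp only [mul_sub, Finset.sum_sub_distrib]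
    ring
  rw [e2]
  refine h.sum (by positivity) _ _ fun i _ => ?_
  have h3 := h.mul _ _ _ _ hM0 (mul_nonneg (pow_nonneg hθ _) hδ) (hj (i + 2) (by omega))
    (h.pow_sub_pow hθ hδ ha hb hab (i + 1))
  refine h.mono _ _ _ ?_ h3
  have h4 : θ ^ (i + 1) ≤ θ := by
    rw [pow_succ]
    exact mul_le_of_le_one_left hθ (pow_le_one₀ hθ hθ1)
  calc M * (θ ^ (i + 1) * δ) ≤ M * (θ * δ) := by
        gcongr
    _ = M * θ * δ := by ring

include h0

theorem stable {a : A} (ha : Bd θ a) : Bd θ (a - P.eval a) := by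
  have hM0 : 0 ≤ M := zero_le_one.trans hM
  have h2 : Bd θ (a - 0) := by simpa using ha
  have h3 := h.contraction P hθ hM hθM h1 hj hθ ha (h.zero θ hθ) h2
  have h5 : Bd θ (P.eval a - P.eval 0 - (a - 0)) := h.mono _ _ _ (by nlinarith) h3
  have e : a - P.eval a = -(P.eval a - P.eval 0 - (a - 0)) - P.coeff 0 := by
    rw [← Polynomial.coeff_zero_eq_eval_zero]; ring
  rw [e]
  exact h.sub (h.neg _ _ h5) h0

/-- **Newton's method**. -/
theorem newton : ∃ z, Bd θ z ∧ P.eval z = 0 := by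
  have hM0 : 0 ≤ M := zero_le_one.trans hM
  have hMθ : 0 ≤ M * θ := mul_nonneg hM0 hθ
  let Z : ℕ → A := fun n => Nat.rec 0 (fun _ a => a - P.eval a) n
  have hZ0 : Z 0 = 0 := rfl
  have hZs : ∀ n, Z (n + 1) = Z n - P.eval (Z n) := fun n => rfl
  have hZb : ∀ n, Bd θ (Z n) := by
    intro n
    induction n with
    | zero => rw [hZ0]; exact h.zero θ hθ
    | succ n ih => rw [hZs]; exact h.stable P hθ hM hθM h0 h1 hj ih
  have hZd : ∀ n, Bd (θ * (M * θ) ^ n) (Z (n + 1) - Z n) := by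
    intro n
    induction n with
    | zero =>
      rw [pow_zero, mul_one]
      exact h.sub (hZb 1) (hZb 0)
    | succ n ih =>
      have h3 := h.contraction P hθ hM hθM h1 hj (by positivity) (hZb (n + 1)) (hZb n) ih
      have e : Z (n + 1 + 1) - Z (n + 1) = -(P.eval (Z (n + 1)) - P.eval (Z n) -
          (Z (n + 1) - Z n)) := by
        rw [hZs (n + 1), hZs n]; ring
      rw [e]
      have h4 := h.neg _ _ h3
      rwa [show M * θ * (θ * (M * θ) ^ n) = θ * (M * θ) ^ (n + 1) by ring] at h4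
  obtain ⟨z, hz⟩ := h.complete (M * θ) θ hMθ hθM hθ Z hZd
  have hzb : Bd θ z := by
    have := hz 0
    rw [pow_zero, mul_one, hZ0, sub_zero] at this
    exact this
  refine ⟨z, hzb, ?_⟩
  refine h.sep _ fun ε hε => ?_
  have hlim : Filter.Tendsto (fun n : ℕ => θ * (M * θ) ^ n) Filter.atTop (nhds (θ * 0)) :=
    (tendsto_pow_atTop_nhds_zero_of_lt_one hMθ hθM).const_mul θ
  rw [mul_zero] at hlim
  obtain ⟨n, hn⟩ := (hlim.eventually (gt_mem_nhds hε)).exists
  have h3 := h.contraction P hθ hM hθM h1 hj (by positivity) hzb (hZb n) (hz n)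
  have h4 : Bd ε (P.eval z - P.eval (Z n) - (z - Z n)) := by
    refine h.mono _ _ _ ?_ h3
    nlinarith
  have h5 : Bd ε (P.eval (Z n)) := by
    have := h.neg _ _ (hZd n)
    have e : -(Z (n + 1) - Z n) = P.eval (Z n) := by rw [hZs]; ring
    rw [e] at this
    exact h.mono _ _ _ hn.le this
  have e : P.eval z = (P.eval z - P.eval (Z n) - (z - Z n)) + (P.eval (Z n) + (z - Z n)) := by ring
  rw [e]
  exact h.add _ _ _ h4 (h.add _ _ _ h5 (h.mono _ _ _ hn.le (hz n)))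

end UBall

end Crest.Agent.R013.Spread_607
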