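import Crest.Agent.R013.Spr1_607
import Crest.Agent.R013.Spr2_607

/-! # R013 / Spr3_607 : (1) the level `L` of bounded power series is a complete ball;
(2) SP1: elements of `E` algebraic over the dense subfield `FT` lie in all small cells. -/

set_option autoImplicit false
set_option linter.unusedSectionVars false

noncomputable section

namespace Crest.Agent.R013.Spread_607

open Topology Crest.Agent.R013.Cell_408

section Level

variable {k C : Type*} [NontriviallyNormedField k] [CompleteSpace k]
  [NormedField C] [IsUltrametricDist C] [NormedAlgebra k C] [Algebra.IsAlgebraic k C]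

/-- bound on the coefficients -/
def BdS (M : ℝ) (f : BD k C) : Prop := ∀ n, ‖PowerSeries.coeff n (f : PowerSeries C)‖ ≤ M

/-- the subring of `BD` of series with coefficients in `L` -/
def lev (L : IntermediateField k C) : Subring (BD k C) where
  carrier := {f | ∀ n, PowerSeries.coeff n (f : PowerSeries C) ∈ L}
  mul_mem' {f g} hf hg n := by
    change PowerSeries.coeff n ((f : PowerSeries C) * (g : PowerSeries C)) ∈ L
    rw [PowerSeries.coeff_mul]
    exact sum_mem fun p _ => mul_mem (hf _) (hg _)
  one_mem' n := by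
    change PowerSeries.coeff n (1 : PowerSeries C) ∈ L
    rw [PowerSeries.coeff_one]; split_ifs
    · exact one_mem _
    · exact zero_mem _
  add_mem' {f g} hf hg n := by
    change PowerSeries.coeff n ((f : PowerSeries C) + (g : PowerSeries C)) ∈ L
    rw [map_add]; exact add_mem (hf n) (hg n)
  zero_mem' n := by
    change PowerSeries.coeff n (0 : PowerSeries C) ∈ L
    rw [map_zero]; exact zero_mem _
  neg_mem' {f} hf n := by
    change PowerSeries.coeff n (-(f : PowerSeries C)) ∈ L
    rw [map_neg]; exact neg_mem (hf n)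

theorem exists_lev (T : Finset (BD k C)) :
    ∃ L : IntermediateField k C, FiniteDimensional k L ∧ ∀ f ∈ T, f ∈ lev L := by
  classical
  induction T using Finset.induction_on with
  | empty => exact ⟨⊥, inferInstance, by simp⟩
  | insert f T _ ih =>
    obtain ⟨L, hL, h1⟩ := ih
    obtain ⟨M, hM, h2⟩ := (mem_BD.1 f.2).1
    refine ⟨L ⊔ M, IntermediateField.finiteDimensional_sup L M, fun g hg n => ?_⟩
    rcases Finset.mem_insert.1 hg with rfl | hg
    · exact (le_sup_right : M ≤ L ⊔ M) (h2 n)
    · exact (le_sup_left : L ≤ L ⊔ M) (h1 g hg n)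

theorem bdS_mul {M N : ℝ} {f g : BD k C} (hM : 0 ≤ M) (hN : 0 ≤ N) (hf : BdS M f) (hg : BdS N g) :
    BdS (M * N) (f * g) := by
  intro n
  change ‖PowerSeries.coeff n ((f : PowerSeries C) * (g : PowerSeries C))‖ ≤ _
  rw [PowerSeries.coeff_mul]
  refine IsUltrametricDist.norm_sum_le_of_forall_le_of_nonneg (mul_nonneg hM hN) fun p _ => ?_
  rw [norm_mul]
  exact mul_le_mul (hf _) (hg _) (norm_nonneg _) hM

theorem bdS_add {M : ℝ} {f g : BD k C} (hf : BdS M f) (hg : BdS M g) : BdS M (f + g) := by
  intro n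
  change ‖PowerSeries.coeff n ((f : PowerSeries C) + (g : PowerSeries C))‖ ≤ _
  rw [map_add]
  exact (IsUltrametricDist.norm_add_le_max _ _).trans (max_le (hf n) (hg n))

theorem bdS_neg {M : ℝ} {f : BD k C} (hf : BdS M f) : BdS M (-f) := by
  intro n
  change ‖PowerSeries.coeff n (-(f : PowerSeries C))‖ ≤ _
  rw [map_neg, norm_neg]
  exact hf n

theorem uball_lev (L : IntermediateField k C) [FiniteDimensional k L] :
    UBall (lev L) (fun M f => BdS M (f : BD k C)) where
  zero M hM n := by
    change ‖PowerSeries.coeff n (0 : PowerSeries C)‖ ≤ M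
    rw [map_zero, norm_zero]; exact hM
  one n := by
    change ‖PowerSeries.coeff n (1 : PowerSeries C)‖ ≤ 1
    rw [PowerSeries.coeff_one]; split_ifs <;> simp
  add M a b ha hb := bdS_add ha hb
  neg M a ha := bdS_neg ha
  mul M N a b hM hN ha hb := bdS_mul hM hN ha hb
  mono M N a hMN ha n := (ha n).trans hMN
  sep a ha := by
    apply Subtype.ext
    apply Subtype.ext
    ext n
    change PowerSeries.coeff n ((a : BD k C) : PowerSeries C) = PowerSeries.coeff n (0 : PowerSeries C)
    rw [map_zero, ← norm_le_zero_iff]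
    refine le_of_forall_pos_le_add fun ε hε => ?_
    rw [zero_add]
    exact ha ε hε n
  complete θ c hθ0 hθ1 hc Z hZ := by
    have : CompleteSpace L := FiniteDimensional.complete k L
    -- coefficient sequences
    let a : ℕ → ℕ → L := fun m n => ⟨PowerSeries.coeff n (((Z m : lev L) : BD k C) : PowerSeries C),
      (Z m).2 n⟩
    have had : ∀ m n, ‖a (m + 1) n - a m n‖ ≤ c * θ ^ m := by
      intro m n
      have h1 := hZ m n
      have e : PowerSeries.coeff n ((((Z (m + 1) - Z m : lev L)) : BD k C) : PowerSeries C) =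
          ((a (m + 1) n - a m n : L) : C) := by
        change PowerSeries.coeff n ((((Z (m + 1) : lev L)) : BD k C) : PowerSeries C) -
          PowerSeries.coeff n (((Z m : lev L) : BD k C) : PowerSeries C) = _
        rfl
      rw [e] at h1
      exact h1
    have hcau : ∀ n, CauchySeq (fun m => a m n) := fun n =>
      cauchySeq_of_le_geometric θ c hθ1 fun m => by
        rw [dist_comm, dist_eq_norm]; exact had m n
    choose b hb using fun n => cauchySeq_tendsto_of_complete (hcau n)
    have hfar : ∀ m n p, ‖a (m + p) n - a m n‖ ≤ c * θ ^ m := by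
      intro m n p
      induction p with
      | zero => rw [add_zero, sub_self, norm_zero]; positivity
      | succ p ih =>
        have e : a (m + (p + 1)) n - a m n = (a (m + p + 1) n - a (m + p) n) + (a (m + p) n - a m n) := by
          rw [← add_assoc]; ring
        rw [e]
        refine (IsUltrametricDist.norm_add_le_max _ _).trans (max_le ?_ ih)
        refine (had _ _).trans ?_
        exact mul_le_mul_of_nonneg_left (pow_le_pow_of_le_one hθ0 hθ1.le (Nat.le_add_right _ _)) hc
    have hlim : ∀ m n, ‖b n - a m n‖ ≤ c * θ ^ m := by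
      intro m n
      have h1 : Filter.Tendsto (fun p => ‖a (m + p) n - a m n‖) Filter.atTop
          (𝓝 ‖b n - a m n‖) := by
        have h2 : Filter.Tendsto (fun p => a (m + p) n) Filter.atTop (𝓝 (b n)) := by
          have := (hb n).comp (Filter.tendsto_add_atTop_nat m)
          refine this.congr fun p => ?_
          simp only [Function.comp]
          rw [add_comm]
        exact (h2.sub tendsto_const_nhds).norm
      exact le_of_tendsto' h1 (hfar m n)
    obtain ⟨-, M0, hM0⟩ := mem_BD.1 ((Z 0 : lev L) : BD k C).2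
    have hmem : (PowerSeries.mk fun n => ((b n : L) : C)) ∈ BD k C := by
      refine mem_BD.2 ⟨⟨L, inferInstance, fun n => ?_⟩, max M0 c, fun n => ?_⟩
      · dsimp only
        rw [PowerSeries.coeff_mk]; exact (b n).2
      · rw [PowerSeries.coeff_mk]
        have h1 := hlim 0 n
        rw [pow_zero, mul_one] at h1
        have e : ((b n : L) : C) = ((b n - a 0 n : L) : C) + ((a 0 n : L) : C) := by
          push_cast; ring
        rw [e]
        refine (IsUltrametricDist.norm_add_le_max _ _).trans (max_le ?_ ?_)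
        · exact le_trans h1 (le_max_right _ _)
        · exact (hM0 n).trans (le_max_left _ _)
    refine ⟨⟨⟨PowerSeries.mk fun n => ((b n : L) : C), hmem⟩, fun n => ?_⟩, fun m n => ?_⟩
    · change PowerSeries.coeff n (PowerSeries.mk fun n => ((b n : L) : C)) ∈ L
      rw [PowerSeries.coeff_mk]; exact (b n).2
    · change ‖PowerSeries.coeff n ((PowerSeries.mk fun n => ((b n : L) : C)) -
        (((Z m : lev L) : BD k C) : PowerSeries C))‖ ≤ _
      rw [map_sub, PowerSeries.coeff_mk]
      exact hlim m n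

end Level

section SP1

variable {E : Type*} [NormedField E] [IsUltrametricDist E] [CharZero E]

omit [IsUltrametricDist E] [CharZero E] in
theorem hasseDeriv_map' (FT : Subfield E) (m : ℕ) (F : Polynomial FT) :
    Polynomial.hasseDeriv m (F.map (algebraMap FT E)) =
      (Polynomial.hasseDeriv m F).map (algebraMap FT E) := by
  ext n
  rw [Polynomial.hasseDeriv_coeff, Polynomial.coeff_map, Polynomial.coeff_map,
    Polynomial.hasseDeriv_coeff, map_mul, map_natCast]

/-- Elements of `E` which are algebraic over the subfield `FT` and limits of elements of `FT` lie in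
every small cell. -/
theorem sp1 (FT : Subfield E) {ι : Type*} (l : Filter ι) (A : ι → Type*) [∀ i, CommRing (A i)]
    (Bd : ∀ i, ℝ → A i → Prop)
    (hA : ∀ i, ∀ T : Finset (A i), ∃ B : Subring (A i), (∀ a ∈ T, a ∈ B) ∧
      UBall B (fun M b => Bd i M (b : A i)))
    (φ : ∀ i, A i →+* E) (hφ : ∀ i M a, Bd i M a → ‖φ i a‖ ≤ M)
    (hFT : ∀ e ∈ FT, ∀ η : ℝ, 1 < η → ∀ᶠ i in l, ∃ a : A i, φ i a = e ∧ Bd i (η * ‖e‖) a)
    {s : E} (hs : IsAlgebraic FT s) (hcl : s ∈ closure (FT : Set E)) {η : ℝ} (hη : 1 < η) :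
    ∀ᶠ i in l, ∃ a : A i, φ i a = s ∧ Bd i (η * ‖s‖) a := by
  classical
  rcases eq_or_ne s 0 with h0 | h0
  · rw [h0]; exact hFT 0 FT.zero_mem η hη
  set F : Polynomial FT := minpoly FT s with hF
  have hint : IsIntegral FT s := hs.isIntegral
  have hirr : Irreducible F := minpoly.irreducible hint
  have hsep : F.Separable := hirr.separable
  have hFs : Polynomial.aeval s F = 0 := minpoly.aeval _ _
  have hF's : Polynomial.aeval s (Polynomial.derivative F) ≠ 0 := hsep.aeval_derivative_ne_zero hFs
  set N := F.natDegree + 2 with hN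
  -- the functions of the base point
  let q : ℕ → E → E := fun i y => Polynomial.aeval y (Polynomial.hasseDeriv i F)
  have hqc : ∀ i, Continuous (q i) := fun i => by
    have : q i = fun y => Polynomial.eval₂ (algebraMap FT E) y (Polynomial.hasseDeriv i F) := rfl
    rw [this]
    have h2 : (fun y => Polynomial.eval₂ (algebraMap FT E) y (Polynomial.hasseDeriv i F)) =
        fun y => Polynomial.eval y ((Polynomial.hasseDeriv i F).map (algebraMap FT E)) := by
      funext y; rw [Polynomial.eval_map]
    rw [h2]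
    exact Polynomial.continuous _
  let D : E → E := q 1
  have hDs : D s ≠ 0 := by
    change Polynomial.aeval s (Polynomial.hasseDeriv 1 F) ≠ 0
    rw [Polynomial.hasseDeriv_one]; exact hF's
  let c : ℕ → E → E := fun i y => q i y * D y ^ i / D y ^ 2
  have hcc : ∀ i, ContinuousAt (c i) s := fun i =>
    (((hqc i).continuousAt).mul (((hqc 1).continuousAt).pow i)).div (((hqc 1).continuousAt).pow 2)
      (pow_ne_zero 2 hDs)
  obtain ⟨M0, hM0, hM0'⟩ : ∃ M0 : ℝ, 1 ≤ M0 ∧ ∀ i ∈ Finset.range N, ‖c i s‖ < M0 := by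
    refine ⟨1 + ∑ i ∈ Finset.range N, ‖c i s‖, ?_, fun i hi => ?_⟩
    · have : 0 ≤ ∑ i ∈ Finset.range N, ‖c i s‖ := Finset.sum_nonneg fun i _ => norm_nonneg _
      linarith
    · have : ‖c i s‖ ≤ ∑ i ∈ Finset.range N, ‖c i s‖ :=
        Finset.single_le_sum (f := fun i => ‖c i s‖) (fun i _ => norm_nonneg _) hi
      linarith
  -- the contraction constant
  have hη0 : 0 < η := one_pos.trans hη
  obtain ⟨θ, hθ0, hθ1, hθ2⟩ : ∃ θ : ℝ, 0 < θ ∧ η * M0 * θ < 1 ∧ (‖D s‖) * θ < ‖s‖ := by
    have hs0 : 0 < ‖s‖ := norm_pos_iff.2 h0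
    have hD0 : 0 < ‖D s‖ := norm_pos_iff.2 hDs
    refine ⟨min (1 / (2 * (η * M0))) (‖s‖ / (2 * ‖D s‖)), ?_, ?_, ?_⟩
    · have : 0 < η * M0 := by positivity
      positivity
    · have h1 : 0 < η * M0 := by positivity
      calc η * M0 * min (1 / (2 * (η * M0))) (‖s‖ / (2 * ‖D s‖))
          ≤ η * M0 * (1 / (2 * (η * M0))) := by gcongr; exact min_le_left _ _
        _ = 1 / 2 := by field_simp
        _ < 1 := by norm_num
    · calc ‖D s‖ * min (1 / (2 * (η * M0))) (‖s‖ / (2 * ‖D s‖))
          ≤ ‖D s‖ * (‖s‖ / (2 * ‖D s‖)) := by gcongr; exact min_le_right _ _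
        _ = ‖s‖ / 2 := by field_simp
        _ < ‖s‖ := by linarith
  -- choice of the base point
  have hev : ∀ᶠ y in 𝓝 s, D y ≠ 0 ∧ (∀ i ∈ Finset.range N, ‖c i y‖ < M0) ∧ ‖c 0 y‖ < θ / η ∧
      ‖(s - y) / D y‖ < θ ∧ ‖D y‖ * θ < ‖s‖ ∧ ‖s - y‖ < ‖s‖ := by
    refine Filter.Eventually.and ?_ (Filter.Eventually.and ?_ (Filter.Eventually.and ?_
      (Filter.Eventually.and ?_ (Filter.Eventually.and ?_ ?_))))
    · exact (hqc 1).continuousAt.eventually_ne hDs
    · rw [Filter.eventually_all_finset]
      intro i hi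
      exact ((hcc i).norm).eventually (gt_mem_nhds (hM0' i hi))
    · have h1 : c 0 s = 0 := by
        change q 0 s * D s ^ 0 / D s ^ 2 = 0
        have : q 0 s = 0 := by
          change Polynomial.aeval s (Polynomial.hasseDeriv 0 F) = 0
          rw [Polynomial.hasseDeriv_zero']; exact hFs
        rw [this]; simp
      refine ((hcc 0).norm).eventually (gt_mem_nhds ?_)
      change ‖c 0 s‖ < θ / η
      rw [h1, norm_zero]; positivity
    · have h1 : ContinuousAt (fun y => (s - y) / D y) s :=
        (continuousAt_const.sub continuousAt_id).div (hqc 1).continuousAt hDs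
      refine h1.norm.eventually (gt_mem_nhds ?_)
      change ‖(s - s) / D s‖ < θ
      rw [sub_self, zero_div, norm_zero]
      exact hθ0
    · have h1 : ContinuousAt (fun y => ‖D y‖ * θ) s :=
        ((hqc 1).continuousAt.norm).mul continuousAt_const
      exact h1.eventually (gt_mem_nhds hθ2)
    · have h1 : ContinuousAt (fun y => s - y) s := continuousAt_const.sub continuousAt_id
      refine h1.norm.eventually (gt_mem_nhds ?_)
      change ‖s - s‖ < ‖s‖
      rw [sub_self, norm_zero]
      exact norm_pos_iff.2 h0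
  obtain ⟨y, hyFT, hDy, hcM, hc0, hu, hDθ, hsy⟩ :=
    ((mem_closure_iff_frequently.1 hcl).and_eventually hev).exists
  -- everything is in FT
  have hyFT' : y ∈ FT := hyFT
  have hqFT : ∀ i, q i y ∈ FT := fun i => by
    have e : q i y = ((Polynomial.eval (⟨y, hyFT'⟩ : FT) (Polynomial.hasseDeriv i F) : FT) : E) := by
      change Polynomial.aeval y (Polynomial.hasseDeriv i F) = _
      exact Polynomial.aeval_algebraMap_apply_eq_algebraMap_eval (A := E)
        (⟨y, hyFT'⟩ : FT) (Polynomial.hasseDeriv i F)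
    rw [e]; exact Subtype.mem _
  have hcFT : ∀ i, c i y ∈ FT := fun i =>
    FT.div_mem (FT.mul_mem (hqFT i) (FT.pow_mem (hqFT 1) i)) (FT.pow_mem (hqFT 1) 2)
  have hny : ‖y‖ = ‖s‖ := by
    have e : y = s + -(s - y) := by ring
    rw [e, IsUltrametricDist.norm_add_eq_max_of_norm_ne_norm (by rw [norm_neg]; exact hsy.ne'),
      norm_neg, max_eq_left hsy.le]
  -- eventually in the cells
  have hall : ∀ᶠ i in l, (∀ m ∈ Finset.range N, ∃ a : A i, φ i a = c m y ∧ Bd i (η * ‖c m y‖) a) ∧
      (∃ a : A i, φ i a = y ∧ Bd i (η * ‖y‖) a) ∧ ∃ a : A i, φ i a = D y ∧ Bd i (η * ‖D y‖) a := by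
    refine Filter.Eventually.and ?_ (Filter.Eventually.and (hFT y hyFT' η hη) (hFT _ (hqFT 1) η hη))
    rw [Filter.eventually_all_finset]
    intro m _
    exact hFT _ (hcFT m) η hη
  filter_upwards [hall] with i hi
  obtain ⟨h1, ⟨ay, hay1, hay2⟩, aD, haD1, haD2⟩ := hi
  choose! g hg1 hg2 using h1
  let T : Finset (A i) := (Finset.range N).image g ∪ {ay, aD}
  obtain ⟨B, hTB, hB⟩ := hA i T
  have hgB : ∀ m ∈ Finset.range N, g m ∈ B := fun m hm =>
    hTB _ (Finset.mem_union_left _ (Finset.mem_image_of_mem g hm))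
  have hayB : ay ∈ B := hTB _ (Finset.mem_union_right _ (by simp))
  have haDB : aD ∈ B := hTB _ (Finset.mem_union_right _ (by simp))
  -- the polynomial over B
  let G : Polynomial B := ∑ m ∈ (Finset.range N).attach,
    Polynomial.monomial m.1 (if m.1 = 1 then (1 : B) else ⟨g m.1, hgB m.1 m.2⟩)
  have hGc : ∀ m (hm : m ∈ Finset.range N), G.coeff m = if m = 1 then (1 : B) else ⟨g m, hgB m hm⟩ := by
    intro m hm
    rw [Polynomial.finsetSum_coeff]
    rw [Finset.sum_eq_single ⟨m, hm⟩]
    · rw [Polynomial.coeff_monomial]; simp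
    · rintro ⟨b, hb⟩ _ hne
      rw [Polynomial.coeff_monomial, if_neg]
      intro h; exact hne (Subtype.ext h)
    · intro h; exact absurd (Finset.mem_attach _ _) h
  have hGc' : ∀ m, m ∉ Finset.range N → G.coeff m = 0 := by
    intro m hm
    rw [Polynomial.finsetSum_coeff]
    refine Finset.sum_eq_zero fun b _ => ?_
    rw [Polynomial.coeff_monomial, if_neg]
    intro h; exact hm (h ▸ b.2)
  have hN1 : 1 ∈ Finset.range N := Finset.mem_range.2 (by omega)
  have hN0 : 0 ∈ Finset.range N := Finset.mem_range.2 (by omega)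
  have hM0' : (0 : ℝ) ≤ M0 := zero_le_one.trans hM0
  have hM1 : 1 ≤ η * M0 := by nlinarith
  have hG0 : Bd i θ ((G.coeff 0 : B) : A i) := by
    rw [hGc 0 hN0, if_neg zero_ne_one]
    refine hB.mono _ _ ⟨g 0, hgB 0 hN0⟩ ?_ (hg2 0 hN0)
    rw [lt_div_iff₀ hη0] at hc0
    nlinarith
  have hG1 : G.coeff 1 = 1 := by rw [hGc 1 hN1, if_pos rfl]
  have hGj : ∀ m, 2 ≤ m → Bd i (η * M0) ((G.coeff m : B) : A i) := by
    intro m hm
    by_cases hmN : m ∈ Finset.range N
    · rw [hGc m hmN, if_neg (by omega)]
      refine hB.mono _ _ ⟨g m, hgB m hmN⟩ ?_ (hg2 m hmN)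
      exact mul_le_mul_of_nonneg_left (hcM m hmN).le hη0.le
    · rw [hGc' m hmN]
      exact hB.zero _ (by positivity)
  obtain ⟨z, hz1, hz2⟩ := hB.newton G hθ0.le hM1 hθ1 hG0 hG1 hGj
  -- compare with the root in E
  let GE : Polynomial E := G.map ((φ i).comp B.subtype)
  have hc1 : c 1 y = 1 := by
    change q 1 y * D y ^ 1 / D y ^ 2 = 1
    change D y * D y ^ 1 / D y ^ 2 = 1
    field_simp
  have hGE : ∀ m, GE.coeff m = if m ∈ Finset.range N then c m y else 0 := by
    intro m
    rw [Polynomial.coeff_map]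
    split_ifs with hm
    · rw [hGc m hm]
      split_ifs with h1
      · rw [map_one, h1, hc1]
      · exact hg1 m hm
    · rw [hGc' m hm, map_zero]
  set u := (s - y) / D y with hudef
  have hGEu : GE.eval u = 0 := by
    have hdegGE : GE.natDegree < N := by
      have : GE.natDegree ≤ N - 1 := by
        rw [Polynomial.natDegree_le_iff_coeff_eq_zero]
        intro m hm
        rw [hGE, if_neg]
        rw [Finset.mem_range]; omega
      omega
    rw [Polynomial.eval_eq_sum_range' hdegGE]
    have e1 : ∀ m ∈ Finset.range N, GE.coeff m * u ^ m = (q m y * (s - y) ^ m) / D y ^ 2 := by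
      intro m hm
      rw [hGE, if_pos hm, hudef]
      change q m y * D y ^ m / D y ^ 2 * ((s - y) / D y) ^ m = _
      rw [div_pow]
      field_simp
    rw [Finset.sum_congr rfl e1, ← Finset.sum_div]
    have e2 : ∑ m ∈ Finset.range N, q m y * (s - y) ^ m = Polynomial.aeval s F := by
      have h1 : Polynomial.aeval s F = (Polynomial.taylor y (F.map (algebraMap FT E))).eval (s - y) := by
        rw [Polynomial.taylor_eval_sub, Polynomial.eval_map_algebraMap]
      rw [h1, Polynomial.eval_eq_sum_range' (n := N)]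
      · refine Finset.sum_congr rfl fun m _ => ?_
        rw [Polynomial.taylor_coeff]
        congr 1
        change Polynomial.aeval y (Polynomial.hasseDeriv m F) = _
        rw [hasseDeriv_map', Polynomial.eval_map_algebraMap]
      · rw [Polynomial.natDegree_taylor, Polynomial.natDegree_map]
        omega
    rw [e2, hFs, zero_div]
  -- uniqueness
  have huz : (φ i).comp B.subtype z = u := by
    by_contra hne
    set v := (φ i).comp B.subtype z with hv
    have hv1 : ‖v‖ ≤ θ := hφ i θ _ hz1
    have hGEv : GE.eval v = 0 := by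
      rw [hv, Polynomial.eval_map, Polynomial.eval₂_at_apply, hz2, map_zero]
    have hdiff : v - u ≠ 0 := sub_ne_zero.2 hne
    have hu1 : ‖u‖ ≤ θ := hu.le
    have key : ‖GE.eval v - GE.eval u - (v - u)‖ ≤ (η * M0) * θ * ‖v - u‖ := by
      have e1 : ∀ x : E, GE.eval x = GE.coeff 0 + x +
          ∑ m ∈ Finset.range GE.natDegree, GE.coeff (m + 2) * x ^ (m + 2) := by
        intro x
        rw [Polynomial.eval_eq_sum_range' (n := GE.natDegree + 2) (by omega), Finset.sum_range_succ',
          Finset.sum_range_succ']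
        have : GE.coeff (0 + 1) = 1 := by rw [zero_add, hGE, if_pos hN1, hc1]
        rw [this]
        simp only [pow_zero, mul_one, zero_add, pow_one, one_mul]
        ring
      have e2 : GE.eval v - GE.eval u - (v - u) =
          ∑ m ∈ Finset.range GE.natDegree, GE.coeff (m + 2) * (v ^ (m + 2) - u ^ (m + 2)) := by
        rw [e1 v, e1 u]
        simp only [mul_sub, Finset.sum_sub_distrib]
        ring
      rw [e2]
      refine IsUltrametricDist.norm_sum_le_of_forall_le_of_nonneg (by positivity) fun m _ => ?_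
      have hcoef : ‖GE.coeff (m + 2)‖ ≤ η * M0 := by
        rw [hGE]
        split_ifs with hm
        · refine (hcM _ hm).le.trans ?_
          nlinarith
        · rw [norm_zero]; positivity
      have hp : ‖v ^ (m + 2) - u ^ (m + 2)‖ ≤ θ ^ (m + 1) * ‖v - u‖ := by
        have e : v ^ (m + 2) - u ^ (m + 2) =
            (∑ a ∈ Finset.range (m + 2), v ^ a * u ^ (m + 2 - 1 - a)) * (v - u) :=
          ((Commute.all v u).geom_sum₂_mul (m + 2)).symm
        rw [e, norm_mul]
        refine mul_le_mul_of_nonneg_right ?_ (norm_nonneg _)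
        refine IsUltrametricDist.norm_sum_le_of_forall_le_of_nonneg (by positivity) fun a ha => ?_
        rw [norm_mul, norm_pow, norm_pow]
        have ha' : a ≤ m + 1 := Nat.lt_succ_iff.1 (Finset.mem_range.1 ha)
        calc ‖v‖ ^ a * ‖u‖ ^ (m + 2 - 1 - a) ≤ θ ^ a * θ ^ (m + 2 - 1 - a) := by gcongr
          _ = θ ^ (m + 1) := by rw [← pow_add]; congr 1; omega
      rw [norm_mul]
      have hθle : θ ≤ 1 := by nlinarith
      calc ‖GE.coeff (m + 2)‖ * ‖v ^ (m + 2) - u ^ (m + 2)‖
          ≤ (η * M0) * (θ ^ (m + 1) * ‖v - u‖) := by gcongr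
        _ ≤ (η * M0) * (θ * ‖v - u‖) := by
            have : θ ^ (m + 1) ≤ θ := by
              rw [pow_succ]; exact mul_le_of_le_one_left hθ0.le (pow_le_one₀ hθ0.le hθle)
            gcongr
        _ = (η * M0) * θ * ‖v - u‖ := by ring
    rw [hGEv, hGEu, sub_self, zero_sub, norm_neg] at key
    have : 0 < ‖v - u‖ := norm_pos_iff.2 hdiff
    nlinarith
  -- conclusion
  refine ⟨ay + aD * (z : A i), ?_, ?_⟩
  · have h2 : φ i (z : A i) = u := huz
    rw [map_add, map_mul, hay1, haD1, h2, hudef]
    field_simp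
    ring
  · have h2 := hB.mul _ _ (⟨aD, haDB⟩ : B) z (by positivity) hθ0.le haD2 hz1
    have h3 : Bd i (η * ‖s‖) ((⟨aD, haDB⟩ * z : B) : A i) := by
      refine hB.mono _ _ _ ?_ h2
      calc η * ‖D y‖ * θ = η * (‖D y‖ * θ) := by ring
        _ ≤ η * ‖s‖ := by gcongr
    have h4 := hB.add _ (⟨ay, hayB⟩ : B) _ (by rw [← hny]; exact hay2) h3
    exact h4

end SP1

end Crest.Agent.R013.Spread_607
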