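import Crest.Agent.R013.Spr3_607
import Crest.Agent.R013.Comp3_267

/-! # R013 / Spr4_607 : discs around a point of type 4.

`E` complete ultrametric field over `C` (isometric `j : C → E`), `t : E` with
`∀ c, ∃ c', ‖t - c'‖ < ‖t - c‖`. `Dc j t` = open discs `D(τ, ‖σ‖)` containing `t`, `U.ev : BD → E`,
`T ↦ (t - τ)/σ`; `l4` = filter of small discs. -/

set_option autoImplicit false
set_option linter.unusedSectionVars false

noncomputable section

namespace Crest.Agent.R013.Spread_607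

open Topology Crest.Agent.R013.Cell_408 Crest.Agent.R013.Comp_267

variable {k C E : Type*} [NontriviallyNormedField k] [CompleteSpace k] [IsUltrametricDist k]
  [NormedField C] [IsUltrametricDist C] [NormedAlgebra k C] [Algebra.IsAlgebraic k C] [IsAlgClosed C]
  [NormedField E] [IsUltrametricDist E] [CompleteSpace E]

/-- open discs containing `t` -/
structure Dc (j : C →+* E) (t : E) where
  τ : C
  σ : C
  lt : ‖t - j τ‖ < ‖σ‖

/-- type 4 -/
def Ty4 (j : C →+* E) (t : E) : Prop := ∀ c, ∃ c', ‖t - j c'‖ < ‖t - j c‖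

section Basic

variable {j : C →+* E} {t : E}

theorem Dc.σ_ne (U : Dc j t) : U.σ ≠ 0 := by
  have := (norm_nonneg _).trans_lt U.lt
  exact norm_pos_iff.1 this

theorem Dc.σ_pos (U : Dc j t) : 0 < ‖U.σ‖ := norm_pos_iff.2 U.σ_ne

/-- the filter of small discs -/
def l4 (j : C →+* E) (t : E) : Filter (Dc j t) where
  sets := {S | ∃ c, ∀ U : Dc j t, ‖U.σ‖ ≤ ‖t - j c‖ → U ∈ S}
  univ_sets := ⟨0, fun _ _ => trivial⟩
  sets_of_superset := by
    rintro S S' ⟨c, h⟩ hSS
    exact ⟨c, fun U hU => hSS (h U hU)⟩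
  inter_sets := by
    rintro S S' ⟨c, h⟩ ⟨c', h'⟩
    rcases le_total ‖t - j c‖ ‖t - j c'‖ with hc | hc
    · exact ⟨c, fun U hU => ⟨h U hU, h' U (hU.trans hc)⟩⟩
    · exact ⟨c', fun U hU => ⟨h U (hU.trans hc), h' U hU⟩⟩

theorem eventually_l4 {P : Dc j t → Prop} :
    (∀ᶠ U in l4 j t, P U) ↔ ∃ c, ∀ U : Dc j t, ‖U.σ‖ ≤ ‖t - j c‖ → P U := Iff.rfl

theorem Ty4.pos (ht : Ty4 j t) (c : C) : 0 < ‖t - j c‖ := by
  obtain ⟨c', hc'⟩ := ht c
  exact (norm_nonneg _).trans_lt hc'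

theorem Ty4.ne (ht : Ty4 j t) (c : C) : t ≠ j c := fun h => by
  have := ht.pos c
  rw [h, sub_self, norm_zero] at this
  exact lt_irrefl _ this

variable (hj : ∀ c, ‖j c‖ = ‖c‖)

include hj

theorem Dc.norm_lt (U : Dc j t) : ‖(t - j U.τ) / j U.σ‖ < 1 := by
  rw [norm_div, hj, div_lt_one U.σ_pos]; exact U.lt

/-- evaluation at `t` of functions on the disc -/
def Dc.ev (U : Dc j t) : BD k C →+* E := Spread_607.ev (k := k) j hj (U.norm_lt hj)

theorem Dc.ev_C (U : Dc j t) (c : C) : U.ev (k := k) hj ⟨PowerSeries.C c, C_mem_BD c⟩ = j c :=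
  Spread_607.ev_C j hj _ c

theorem Dc.ev_algebraMap (U : Dc j t) (c : C) : U.ev (k := k) hj (algebraMap C (BD k C) c) = j c :=
  Spread_607.ev_C j hj _ c

theorem Dc.ev_XB (U : Dc j t) : U.ev (k := k) hj XB = (t - j U.τ) / j U.σ :=
  Spread_607.ev_X j hj _

theorem Dc.norm_ev_le (U : Dc j t) {M : ℝ} {a : BD k C} (ha : BdS M a) :
    ‖U.ev (k := k) hj a‖ ≤ M := by
  have hM : 0 ≤ M := (norm_nonneg _).trans (ha 0)
  exact Spread_607.norm_ev_le' j hj _ a hM ha

/-- a disc around `t` of given radius -/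
theorem exists_dc (ht : Ty4 j t) (c : C) : ∃ U : Dc j t, ‖U.σ‖ = ‖t - j c‖ := by
  obtain ⟨c', hc'⟩ := ht c
  have e : ‖c' - c‖ = ‖t - j c‖ := by
    rw [← hj, map_sub]
    have : j c' - j c = (t - j c) + -(t - j c') := by ring
    rw [this, IsUltrametricDist.norm_add_eq_max_of_norm_ne_norm (by rw [norm_neg]; exact hc'.ne'),
      norm_neg, max_eq_left hc'.le]
  exact ⟨⟨c', c' - c, by rw [e]; exact hc'⟩, e⟩

theorem l4_neBot (ht : Ty4 j t) : (l4 j t).NeBot := by
  rw [Filter.neBot_iff]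
  intro h
  have h1 : (∅ : Set (Dc j t)) ∈ l4 j t := by rw [h]; exact Filter.mem_bot
  obtain ⟨c, hc⟩ := h1
  obtain ⟨U, hU⟩ := exists_dc hj ht c
  exact hc U hU.le

/-- the element `t - α` on small discs: a dominated unit -/
theorem lin_cell (ht : Ty4 j t) (α : C) : ∀ᶠ U in l4 j t,
    (∃ a : BD k C, U.ev (k := k) hj a = t - j α ∧ BdS ‖t - j α‖ a) ∧
    (∃ a : BD k C, U.ev (k := k) hj a = (t - j α)⁻¹ ∧ BdS ‖(t - j α)⁻¹‖ a) := by
  obtain ⟨c, hc⟩ := ht α
  refine eventually_l4.2 ⟨c, fun U hU => ?_⟩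
  have h1 : ‖U.σ‖ < ‖t - j α‖ := hU.trans_lt hc
  have h2 : ‖t - j U.τ‖ < ‖t - j α‖ := U.lt.trans h1
  have e : ‖U.τ - α‖ = ‖t - j α‖ := by
    rw [← hj, map_sub]
    have : j U.τ - j α = (t - j α) + -(t - j U.τ) := by ring
    rw [this, IsUltrametricDist.norm_add_eq_max_of_norm_ne_norm (by rw [norm_neg]; exact h2.ne'),
      norm_neg, max_eq_left h2.le]
  have hne : U.τ - α ≠ 0 := norm_pos_iff.1 (by rw [e]; exact ht.pos α)
  have hjne : j (U.τ - α) ≠ 0 := by
    rw [← norm_pos_iff, hj]; exact norm_pos_iff.2 hne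
  have hjσ : j U.σ ≠ 0 := by rw [← norm_pos_iff, hj]; exact U.σ_pos
  set β := U.σ / (U.τ - α) with hβ
  have hβ1 : ‖β‖ < 1 := by
    rw [hβ, norm_div, e, div_lt_one (ht.pos α)]; exact h1
  -- the unit 1 + β T
  let u : PowerSeries C := PowerSeries.C 1 + PowerSeries.C β * PowerSeries.X
  have hu0 : PowerSeries.coeff 0 u = 1 := by simp [u]
  have hu1 : PowerSeries.coeff 1 u = β := by simp [u, PowerSeries.coeff_one]
  have hun : ∀ n, 2 ≤ n → PowerSeries.coeff n u = 0 := by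
    intro n hn
    obtain ⟨m, rfl⟩ : ∃ m, n = m + 1 := ⟨n - 1, by omega⟩
    have : m ≠ 0 := by omega
    simp [u, PowerSeries.coeff_one, PowerSeries.coeff_succ_mul_X, PowerSeries.coeff_C, this]
  have hmemu : u ∈ BD k C :=
    add_mem (C_mem_BD 1) (mul_mem (C_mem_BD β) X_mem_BD)
  have hule : ∀ n, ‖PowerSeries.coeff n u‖ ≤ 1 := by
    intro n
    rcases Nat.lt_or_ge n 2 with h | h
    · interval_cases n
      · rw [hu0, norm_one]
      · rw [hu1]; exact hβ1.le
    · rw [hun n h, norm_zero]; exact zero_le_one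
  have hU1 : IsU k u := ⟨hmemu.1, hule, by rw [hu0, norm_one]⟩
  obtain ⟨v, hv, huv⟩ := hU1.inv
  have hevu : U.ev (k := k) hj ⟨u, hmemu⟩ = 1 + j β * ((t - j U.τ) / j U.σ) := by
    have e1 : (⟨u, hmemu⟩ : BD k C) = ⟨PowerSeries.C 1, C_mem_BD 1⟩ +
        ⟨PowerSeries.C β, C_mem_BD β⟩ * XB := rfl
    rw [e1, map_add, map_mul, U.ev_C, U.ev_C, U.ev_XB, map_one]
  have hevu' : j (U.τ - α) * U.ev (k := k) hj ⟨u, hmemu⟩ = t - j α := by
    rw [hevu, hβ, map_div₀]
    field_simp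
    rw [map_sub]; ring
  have hevuv : U.ev (k := k) hj ⟨u, hmemu⟩ * U.ev (k := k) hj ⟨v, hv.mem⟩ = 1 := by
    rw [← map_mul, show (⟨u, hmemu⟩ : BD k C) * ⟨v, hv.mem⟩ = 1 from Subtype.ext huv, map_one]
  constructor
  · refine ⟨algebraMap C (BD k C) (U.τ - α) * ⟨u, hmemu⟩, ?_, ?_⟩
    · rw [map_mul, U.ev_algebraMap]; exact hevu'
    · rw [← e]
      have h3 : BdS ‖U.τ - α‖ (algebraMap C (BD k C) (U.τ - α)) := by
        intro n
        change ‖PowerSeries.coeff n (PowerSeries.C (U.τ - α))‖ ≤ _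
        rw [PowerSeries.coeff_C]; split_ifs <;> simp
      have := bdS_mul (norm_nonneg _) zero_le_one h3 (show BdS 1 (⟨u, hmemu⟩ : BD k C) from hule)
      rwa [mul_one] at this
  · refine ⟨algebraMap C (BD k C) (U.τ - α)⁻¹ * ⟨v, hv.mem⟩, ?_, ?_⟩
    · rw [map_mul, U.ev_algebraMap, map_inv₀]
      rw [← hevu', mul_inv]
      congr 1
      exact eq_inv_of_mul_eq_one_right hevuv
    · rw [norm_inv, ← e, ← norm_inv]
      have h3 : BdS ‖(U.τ - α)⁻¹‖ (algebraMap C (BD k C) (U.τ - α)⁻¹) := by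
        intro n
        change ‖PowerSeries.coeff n (PowerSeries.C (U.τ - α)⁻¹)‖ ≤ _
        rw [PowerSeries.coeff_C]; split_ifs
        · exact le_rfl
        · rw [norm_zero]; exact norm_nonneg _
      have := bdS_mul (norm_nonneg _) zero_le_one h3 (show BdS 1 (⟨v, hv.mem⟩ : BD k C) from hv.le)
      rwa [mul_one] at this

omit hj in
theorem cell_mul (U : Dc j t) (hj : ∀ c, ‖j c‖ = ‖c‖) {e e' : E}
    (h : ∃ a : BD k C, U.ev (k := k) hj a = e ∧ BdS ‖e‖ a)
    (h' : ∃ a : BD k C, U.ev (k := k) hj a = e' ∧ BdS ‖e'‖ a) :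
    ∃ a : BD k C, U.ev (k := k) hj a = e * e' ∧ BdS ‖e * e'‖ a := by
  obtain ⟨a, ha, hb⟩ := h
  obtain ⟨a', ha', hb'⟩ := h'
  refine ⟨a * a', by rw [map_mul, ha, ha'], ?_⟩
  rw [norm_mul]
  exact bdS_mul (norm_nonneg _) (norm_nonneg _) hb hb'

theorem const_cell (U : Dc j t) (c : C) : ∃ a : BD k C, U.ev (k := k) hj a = j c ∧ BdS ‖j c‖ a := by
  refine ⟨algebraMap C (BD k C) c, U.ev_algebraMap hj c, fun n => ?_⟩
  change ‖PowerSeries.coeff n (PowerSeries.C c)‖ ≤ _
  rw [hj, PowerSeries.coeff_C]; split_ifs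
  · exact le_rfl
  · rw [norm_zero]; exact norm_nonneg _

/-- polynomials in `t` and their inverses on small discs -/
theorem poly_cell (ht : Ty4 j t) (P : Polynomial C) : ∀ᶠ U in l4 j t,
    (∃ a : BD k C, U.ev (k := k) hj a = P.eval₂ j t ∧ BdS ‖P.eval₂ j t‖ a) ∧
    (∃ a : BD k C, U.ev (k := k) hj a = (P.eval₂ j t)⁻¹ ∧ BdS ‖(P.eval₂ j t)⁻¹‖ a) := by
  have hP : P = Polynomial.C P.leadingCoeff * (P.roots.map fun a => Polynomial.X - Polynomial.C a).prod :=
    (IsAlgClosed.splits P).eq_prod_roots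
  have hprod : ∀ S : Multiset C, ∀ᶠ U in l4 j t,
      (∃ a : BD k C, U.ev (k := k) hj a = (S.map fun a => t - j a).prod ∧
        BdS ‖(S.map fun a => t - j a).prod‖ a) ∧
      (∃ a : BD k C, U.ev (k := k) hj a = ((S.map fun a => t - j a).prod)⁻¹ ∧
        BdS ‖((S.map fun a => t - j a).prod)⁻¹‖ a) := by
    intro S
    induction S using Multiset.induction_on with
    | empty =>
      refine Filter.Eventually.of_forall fun U => ?_
      have h1 := const_cell (k := k) hj U 1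
      rw [map_one] at h1
      simp only [Multiset.map_zero, Multiset.prod_zero, inv_one]
      exact ⟨h1, h1⟩
    | cons a S ih =>
      filter_upwards [ih, lin_cell (k := k) hj ht a] with U h1 h2
      simp only [Multiset.map_cons, Multiset.prod_cons, mul_inv]
      exact ⟨cell_mul U hj h2.1 h1.1, cell_mul U hj h2.2 h1.2⟩
  have heval : P.eval₂ j t = j P.leadingCoeff * (P.roots.map fun a => t - j a).prod := by
    conv_lhs => rw [hP]
    rw [Polynomial.eval₂_mul, Polynomial.eval₂_C, Polynomial.eval₂_multiset_prod, Multiset.map_map]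
    congr 2
    refine Multiset.map_congr rfl fun a _ => ?_
    simp
  filter_upwards [hprod P.roots] with U h
  rw [heval]
  refine ⟨cell_mul U hj (const_cell hj U _) h.1, ?_⟩
  rw [mul_inv, ← map_inv₀]
  exact cell_mul U hj (const_cell hj U _) h.2

theorem Ty4.eval_ne_zero (ht : Ty4 j t) {P : Polynomial C} (hP : P ≠ 0) : P.eval₂ j t ≠ 0 := by
  have hP' : P = Polynomial.C P.leadingCoeff * (P.roots.map fun a => Polynomial.X - Polynomial.C a).prod :=
    (IsAlgClosed.splits P).eq_prod_roots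
  have heval : P.eval₂ j t = j P.leadingCoeff * (P.roots.map fun a => t - j a).prod := by
    conv_lhs => rw [hP']
    rw [Polynomial.eval₂_mul, Polynomial.eval₂_C, Polynomial.eval₂_multiset_prod, Multiset.map_map]
    congr 2
    refine Multiset.map_congr rfl fun a _ => ?_
    simp
  rw [heval]
  refine mul_ne_zero ?_ ?_
  · rw [Ne, map_eq_zero]
    exact Polynomial.leadingCoeff_ne_zero.2 hP
  · intro h
    rw [Multiset.prod_eq_zero_iff, Multiset.mem_map] at h
    obtain ⟨a, -, ha⟩ := h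
    exact ht.ne a (sub_eq_zero.1 ha)

end Basic

section FT

variable (j : C →+* E) (t : E)

/-- the subfield `C(t)` of `E` -/
def FT : Subfield E := Subfield.closure (Set.range j ∪ {t})

variable {j t}

theorem mem_FT_iff {e : E} : e ∈ FT j t ↔ ∃ f g : Polynomial C, e = f.eval₂ j t / g.eval₂ j t := by
  constructor
  · intro h
    refine Subfield.closure_induction (p := fun e _ => ∃ f g : Polynomial C,
      e = f.eval₂ j t / g.eval₂ j t) ?_ ?_ ?_ ?_ ?_ ?_ h
    · rintro x (⟨c, rfl⟩ | hx)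
      · exact ⟨Polynomial.C c, 1, by simp⟩
      · rw [Set.mem_singleton_iff] at hx
        exact ⟨Polynomial.X, 1, by simp [hx]⟩
    · exact ⟨1, 1, by simp⟩
    · rintro x y _ _ ⟨f, g, rfl⟩ ⟨f', g', rfl⟩
      by_cases hg : g.eval₂ j t = 0
      · exact ⟨f', g', by rw [hg]; simp⟩
      by_cases hg' : g'.eval₂ j t = 0
      · exact ⟨f, g, by rw [hg']; simp⟩
      refine ⟨f * g' + g * f', g * g', ?_⟩
      rw [Polynomial.eval₂_add, Polynomial.eval₂_mul, Polynomial.eval₂_mul, Polynomial.eval₂_mul,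
        div_add_div _ _ hg hg']
    · rintro x _ ⟨f, g, rfl⟩
      exact ⟨-f, g, by rw [Polynomial.eval₂_neg, neg_div]⟩
    · rintro x _ ⟨f, g, rfl⟩
      exact ⟨g, f, by rw [inv_div]⟩
    · rintro x y _ _ ⟨f, g, rfl⟩ ⟨f', g', rfl⟩
      exact ⟨f * f', g * g', by rw [Polynomial.eval₂_mul, Polynomial.eval₂_mul, div_mul_div_comm]⟩
  · rintro ⟨f, g, rfl⟩
    have hmem : ∀ P : Polynomial C, P.eval₂ j t ∈ FT j t := by
      intro P
      rw [Polynomial.eval₂_eq_sum_range]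
      refine sum_mem fun i _ => mul_mem ?_ (pow_mem ?_ i)
      · exact Subfield.subset_closure (Or.inl ⟨_, rfl⟩)
      · exact Subfield.subset_closure (Or.inr rfl)
    exact div_mem (hmem f) (hmem g)

/-- elements of `C(t)` on small discs -/
theorem FT_cell (hj : ∀ c, ‖j c‖ = ‖c‖) (ht : Ty4 j t) {e : E} (he : e ∈ FT j t) :
    ∀ᶠ U in l4 j t, ∃ a : BD k C, U.ev (k := k) hj a = e ∧ BdS ‖e‖ a := by
  obtain ⟨f, g, rfl⟩ := mem_FT_iff.1 he
  filter_upwards [poly_cell (k := k) hj ht f, poly_cell (k := k) hj ht g] with U h1 h2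
  rw [div_eq_mul_inv]
  exact cell_mul U hj h1.1 h2.2

/-- **SP1** for type 4 -/
theorem alg_cell [CharZero E] (hj : ∀ c, ‖j c‖ = ‖c‖) (ht : Ty4 j t) {s : E}
    (hs : IsAlgebraic (FT j t) s) (hcl : s ∈ closure (FT j t : Set E)) {η : ℝ} (hη : 1 < η) :
    ∀ᶠ U in l4 j t, ∃ a : BD k C, U.ev (k := k) hj a = s ∧ BdS (η * ‖s‖) a := by
  refine sp1 (FT j t) (l4 j t) (fun _ => BD k C) (fun _ M a => BdS M a) ?_
    (fun U => U.ev (k := k) hj) (fun U M a ha => U.norm_ev_le hj ha) ?_ hs hcl hη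
  · intro U T
    obtain ⟨L, hL, hT⟩ := exists_lev T
    exact ⟨lev L, hT, uball_lev L⟩
  · intro e he η hη
    filter_upwards [FT_cell (k := k) hj ht he] with U ⟨a, ha, hb⟩
    refine ⟨a, ha, fun n => (hb n).trans ?_⟩
    exact le_mul_of_one_le_left (norm_nonneg _) hη.le

end FT

section Inj

variable {j : C →+* E} {t : E}

/-- evaluation is injective -/
theorem Dc.ev_injective (hk : DiscNorm k) (hj : ∀ c, ‖j c‖ = ‖c‖) (ht : Ty4 j t) (U : Dc j t) :
    Function.Injective (U.ev (k := k) hj) := by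
  rw [injective_iff_map_eq_zero]
  intro f hf
  by_contra h0
  have h1 : (f : PowerSeries C) ≠ 0 := fun h => h0 (Subtype.ext h)
  obtain ⟨c, g, m, hc, hg, hfg, -, -⟩ := exists_normalise hk f.2 h1
  obtain ⟨u, S, hu, -, hS, hgu⟩ := hg.exists_roots
  have e : f = algebraMap C (BD k C) c * (⟨u, hu.mem⟩ * ⟨(rootPoly S : PowerSeries C), coe_mem_BD _⟩) := by
    apply Subtype.ext
    rw [hfg, hgu]; rfl
  rw [e, map_mul, map_mul, U.ev_algebraMap] at hf
  have h2 : U.ev (k := k) hj ⟨u, hu.mem⟩ ≠ 0 := by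
    obtain ⟨v, hv, huv⟩ := hu.inv
    intro h
    have h3 : U.ev (k := k) hj ⟨u, hu.mem⟩ * U.ev (k := k) hj ⟨v, hv.mem⟩ = 1 := by
      rw [← map_mul, show (⟨u, hu.mem⟩ : BD k C) * ⟨v, hv.mem⟩ = 1 from Subtype.ext huv, map_one]
    rw [h, zero_mul] at h3
    exact zero_ne_one h3
  have h4 : U.ev (k := k) hj ⟨(rootPoly S : PowerSeries C), coe_mem_BD _⟩ ≠ 0 := by
    rw [Dc.ev, ev_poly]
    have : (rootPoly S).eval₂ j ((t - j U.τ) / j U.σ) =
        (S.map fun τ => (t - j U.τ) / j U.σ - j τ).prod := by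
      rw [rootPoly, Polynomial.eval₂_multiset_prod, Multiset.map_map]
      congr 1
      refine Multiset.map_congr rfl fun a _ => ?_
      simp
    rw [this]
    intro h
    rw [Multiset.prod_eq_zero_iff, Multiset.mem_map] at h
    obtain ⟨a, -, ha⟩ := h
    have hjσ : j U.σ ≠ 0 := by rw [← norm_pos_iff, hj]; exact U.σ_pos
    refine ht.ne (U.τ + U.σ * a) ?_
    rw [map_add, map_mul]
    field_simp at ha
    linear_combination ha
  rcases mul_eq_zero.1 hf with h | h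
  · rw [map_eq_zero] at h; exact hc h
  · rcases mul_eq_zero.1 h with h | h
    · exact h2 h
    · exact h4 h

end Inj

end Crest.Agent.R013.Spread_607
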