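import Mathlib

/-! # R013 / Spr5_607 : linear algebra for the count of degrees.

`L` a field, `φ j : L → M j`, `ι j : K → M j` (finitely many `j`). If the `L`-span of `K` projects onto
every `M j` and the kernels are separated by integrality over a subring `O` of `L`, then the
`L`-span of `K` is the whole product. -/

set_option autoImplicit false
set_option linter.unusedSectionVars false
set_option linter.style.haveILetI false

noncomputable section

namespace Crest.Agent.R013.Spread_607

open Module

/-- a subalgebra of a finite product of fields which projects onto the factors and whose kernels are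
separated by integrality is everything. -/
theorem surj_of_sep {O L J : Type*} [CommRing O] [Field L] [Algebra O L] [Finite J]
    (M : J → Type*) [∀ j, Field (M j)] [∀ j, Algebra L (M j)] [∀ j, Algebra O (M j)]
    [∀ j, IsScalarTower O L (M j)] (B : Subalgebra L (∀ j, M j))
    (hproj : ∀ j (u : M j), ∃ b ∈ B, b j = u)
    (hsep : ∀ i j, i ≠ j → ∃ b ∈ B, ∃ c d : L, IsIntegral O (algebraMap L (M i) c * b i) ∧ b j ≠ 0 ∧
      IsIntegral O (algebraMap L (M j) d * (b j)⁻¹) ∧ ¬ IsIntegral O (c * d)) : B = ⊤ := by
  classical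
  let p : ∀ j, B →ₐ[L] M j := fun j => (Pi.evalAlgHom L M j).comp B.val
  have hp : ∀ j, Function.Surjective (p j) := by
    intro j u
    obtain ⟨b, hb, hbu⟩ := hproj j u
    exact ⟨⟨b, hb⟩, hbu⟩
  let I : J → Ideal B := fun j => RingHom.ker (p j)
  have hmax : ∀ j, (I j).IsMaximal := fun j => RingHom.ker_isMaximal_of_surjective _ (hp j)
  have hne : ∀ i j, i ≠ j → I i ≠ I j := by
    intro i j hij h
    obtain ⟨b, hb, c, d, h1, h2, h3, h4⟩ := hsep i j hij
    obtain ⟨b', hb', hbb⟩ := hproj j (b j)⁻¹
    let β : B := ⟨b, hb⟩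
    let β' : B := ⟨b', hb'⟩
    have e1 : β * β' - 1 ∈ I i := by
      rw [h, RingHom.mem_ker]
      change b j * b' j - 1 = 0
      rw [hbb, mul_inv_cancel₀ h2, sub_self]
    have e2 : b i * b' i = 1 := by
      have := (RingHom.mem_ker).1 e1
      change b i * b' i - 1 = 0 at this
      exact sub_eq_zero.1 this
    have e3 : IsIntegral O (algebraMap L (M i) d * b' i) := by
      obtain ⟨P, hP, hP0⟩ := h3
      refine ⟨P, hP, ?_⟩
      letI : Algebra O B := (((algebraMap L B)).comp (algebraMap O L)).toAlgebra
      have key : ∀ l, (p l).toRingHom.comp (algebraMap O B) = algebraMap O (M l) := by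
        intro l
        ext x
        change p l (algebraMap L B (algebraMap O L x)) = _
        rw [AlgHom.commutes, IsScalarTower.algebraMap_apply O L (M l)]
      have e4 : P.eval₂ (algebraMap O B) (algebraMap L B d * β') ∈ I i := by
        rw [h, RingHom.mem_ker]
        have := Polynomial.hom_eval₂ P (algebraMap O B) (p j).toRingHom (algebraMap L B d * β')
        rw [key j] at this
        change (p j).toRingHom _ = 0
        rw [this]
        have e5 : (p j).toRingHom (algebraMap L B d * β') = algebraMap L (M j) d * (b j)⁻¹ := by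
          rw [map_mul, ← hbb]
          congr 1
        rw [e5]; exact hP0
      have := Polynomial.hom_eval₂ P (algebraMap O B) (p i).toRingHom (algebraMap L B d * β')
      rw [key i] at this
      have e5 : (p i).toRingHom (algebraMap L B d * β') = algebraMap L (M i) d * b' i := by
        rw [map_mul]
        congr 1
      rw [e5] at this
      rw [← this]
      exact (RingHom.mem_ker).1 e4
    have e6 : IsIntegral O (algebraMap L (M i) (c * d)) := by
      have := h1.mul e3
      have e7 : algebraMap L (M i) c * b i * (algebraMap L (M i) d * b' i) =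
          algebraMap L (M i) (c * d) := by
        rw [map_mul]
        linear_combination (algebraMap L (M i) c * algebraMap L (M i) d) * e2
      rwa [e7] at this
    exact h4 ((isIntegral_algebraMap_iff (algebraMap L (M i)).injective).1 e6)
  have hcop : Pairwise (Function.onFun IsCoprime I) := by
    intro i j hij
    change IsCoprime (I i) (I j)
    rw [Ideal.isCoprime_iff_sup_eq]
    exact (hmax i).coprime_of_ne (hmax j) (hne i j hij)
  rw [eq_top_iff]
  intro u _
  choose b hb hbu using fun j => hproj j (u j)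
  obtain ⟨r, hr⟩ := Ideal.pi_quotient_surjective hcop (fun j => (Ideal.Quotient.mk (I j) ⟨b j, hb j⟩))
  have : (r : ∀ j, M j) = u := by
    funext j
    have h1 := hr j
    rw [Ideal.Quotient.mk_eq_mk_iff_sub_mem, RingHom.mem_ker] at h1
    change (r : ∀ j, M j) j - b j j = 0 at h1
    rw [sub_eq_zero.1 h1, hbu]
  rw [← this]
  exact r.2

section Count

variable {F K L : Type*} [Field F] [Field K] [Algebra F K] [Field L] {α : F →+* L}
  {O : Type*} [CommRing O] {o : O →+* L}
  {J : Type*} [Fintype J] {M : J → Type*} [∀ j, Field (M j)] {φ : ∀ j, L →+* M j}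
  {ι : ∀ j, K →+* M j}
  {n : ℕ} {b : Basis (Fin n) F K} {m : J → ℕ} {T : ∀ j, M j}

/-- the span of `K` is everything -/
theorem span_all (hι : ∀ j f, ι j (algebraMap F K f) = φ j (α f))
    (hrep : ∀ j (u : M j), ∃ e : Fin (m j) → L, u = ∑ i, φ j (e i) * T j ^ (i : ℕ))
    (hT : ∀ j, ∃ e : Fin n → L, T j = ∑ i, φ j (e i) * ι j (b i))
    (hsep : ∀ i j, i ≠ j → ∃ z : K, ∃ c d : L, z ≠ 0 ∧ ((φ i).comp o).IsIntegralElem (φ i c * ι i z) ∧
      ((φ j).comp o).IsIntegralElem (φ j d * (ι j z)⁻¹) ∧ ¬ o.IsIntegralElem (c * d))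
    (u : ∀ j, M j) : ∃ e : Fin n → L, ∀ j, u j = ∑ i, φ j (e i) * ι j (b i) := by
  classical
  letI : ∀ j, Algebra L (M j) := fun j => (φ j).toAlgebra
  letI : Algebra O L := o.toAlgebra
  letI : ∀ j, Algebra O (M j) := fun j => ((φ j).comp o).toAlgebra
  haveI : ∀ j, IsScalarTower O L (M j) := fun j => IsScalarTower.of_algebraMap_eq fun _ => rfl
  -- the span
  let ιp : K →+* ∀ j, M j := RingHom.pi ι
  let S : Submodule L (∀ j, M j) := Submodule.span L (Set.range fun i => ιp (b i))
  have hKS : ∀ z : K, ιp z ∈ S := by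
    intro z
    have h1 : z = ∑ i, b.repr z i • b i := (b.sum_repr z).symm
    rw [h1, map_sum]
    refine S.sum_mem fun i _ => ?_
    have h2 : ιp (b.repr z i • b i) = α (b.repr z i) • ιp (b i) := by
      funext j
      change ι j (b.repr z i • b i) = φ j (α (b.repr z i)) * ι j (b i)
      rw [Algebra.smul_def, map_mul, hι]
    rw [h2]
    exact S.smul_mem _ (Submodule.subset_span ⟨i, rfl⟩)
  have hmul : ∀ x ∈ S, ∀ y ∈ S, x * y ∈ S := by
    intro x hx y hy
    induction hx using Submodule.span_induction with
    | mem x hx =>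
      obtain ⟨i, rfl⟩ := hx
      induction hy using Submodule.span_induction with
      | mem y hy =>
        obtain ⟨i', rfl⟩ := hy
        change ιp (b i) * ιp (b i') ∈ S
        rw [← map_mul]; exact hKS _
      | zero => rw [mul_zero]; exact S.zero_mem
      | add y z _ _ h1 h2 => rw [mul_add]; exact S.add_mem h1 h2
      | smul a y _ h1 => rw [mul_smul_comm]; exact S.smul_mem _ h1
    | zero => rw [zero_mul]; exact S.zero_mem
    | add x z _ _ h1 h2 => rw [add_mul]; exact S.add_mem h1 h2
    | smul a x _ h1 => rw [smul_mul_assoc]; exact S.smul_mem _ h1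
  have hone : (1 : ∀ j, M j) ∈ S := by
    have := hKS 1
    rwa [map_one] at this
  let B : Subalgebra L (∀ j, M j) := S.toSubalgebra hone (fun x y hx hy => hmul x hx y hy)
  have hB : ∀ x, x ∈ B ↔ x ∈ S := fun x => Iff.rfl
  have hmemS : ∀ e : Fin n → L, (fun j => ∑ i, φ j (e i) * ι j (b i)) ∈ S := by
    intro e
    have : (fun j => ∑ i, φ j (e i) * ι j (b i)) = ∑ i, e i • ιp (b i) := by
      funext j
      rw [Finset.sum_apply]
      rfl
    rw [this]
    exact S.sum_mem fun i _ => S.smul_mem _ (Submodule.subset_span ⟨i, rfl⟩)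
  have hproj : ∀ j (u : M j), ∃ b ∈ B, b j = u := by
    intro j u
    obtain ⟨e, he⟩ := hrep j u
    obtain ⟨e', he'⟩ := hT j
    have hT' : ∀ i : ℕ, ∃ t ∈ B, t j = T j ^ i := fun i =>
      ⟨(fun j => ∑ i, φ j (e' i) * ι j (b i)) ^ i, B.pow_mem (hmemS e') i, by
        rw [Pi.pow_apply, ← he']⟩
    choose t ht htj using hT'
    refine ⟨∑ i, e i • t (i : ℕ), B.sum_mem fun i _ => B.smul_mem (ht _) _, ?_⟩
    rw [he, Finset.sum_apply]
    refine Finset.sum_congr rfl fun i _ => ?_
    rw [Pi.smul_apply, htj, Algebra.smul_def]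
    rfl
  have hBtop : B = ⊤ := by
    refine surj_of_sep (O := O) M B hproj fun i j hij => ?_
    obtain ⟨z, c, d, hz, h1, h2, h3⟩ := hsep i j hij
    refine ⟨ιp z, hKS z, c, d, h1, ?_, h2, h3⟩
    change ι j z ≠ 0
    exact (map_ne_zero_iff _ (ι j).injective).2 hz
  have hu : u ∈ S := by
    rw [← hB, hBtop]; trivial
  obtain ⟨e, he⟩ := (Submodule.mem_span_range_iff_exists_fun L).1 hu
  refine ⟨e, fun j => ?_⟩
  rw [← he, Finset.sum_apply]
  rfl

/-- count: `∑ m j ≤ n` -/
theorem count_le (hspan : ∀ u : ∀ j, M j, ∃ e : Fin n → L, ∀ j, u j = ∑ i, φ j (e i) * ι j (b i))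
    (hind : ∀ j (e : Fin (m j) → L), ∑ i, φ j (e i) * T j ^ (i : ℕ) = 0 → ∀ i, e i = 0) :
    ∑ j, m j ≤ n := by
  classical
  letI : ∀ j, Algebra L (M j) := fun j => (φ j).toAlgebra
  -- a linearly independent family of `∑ m j` elements in the product
  let v : (Σ j, Fin (m j)) → ∀ j, M j := fun p => Pi.single p.1 (T p.1 ^ (p.2 : ℕ))
  have hv : LinearIndependent L v := by
    rw [Fintype.linearIndependent_iff]
    intro g hg
    rintro ⟨j, i⟩
    have h1 := congrFun hg j
    rw [Finset.sum_apply, Fintype.sum_sigma, Finset.sum_eq_single j] at h1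
    · refine hind j (fun i => g ⟨j, i⟩) ?_ i
      rw [Pi.zero_apply] at h1
      rw [← h1]
      refine Finset.sum_congr rfl fun i _ => ?_
      simp only [v, Pi.smul_apply, Pi.single_eq_same, Algebra.smul_def]
      rfl
    · intro j' _ hj'
      refine Finset.sum_eq_zero fun i _ => ?_
      simp only [v, Pi.smul_apply]
      rw [Pi.single_eq_of_ne (Ne.symm hj'), smul_zero]
    · intro h; exact absurd (Finset.mem_univ _) h
  let w : Fin n → ∀ j, M j := fun i j => ι j (b i)
  have hw : Submodule.span L (Set.range w) = ⊤ := by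
    rw [eq_top_iff]
    intro u _
    obtain ⟨e, he⟩ := hspan u
    rw [Submodule.mem_span_range_iff_exists_fun]
    refine ⟨e, ?_⟩
    funext j
    rw [he j, Finset.sum_apply]
    rfl
  have h2 : Fintype.card (Σ j, Fin (m j)) ≤ Fintype.card (Fin n) := by
    have hfin : Module.Finite L (∀ j, M j) := ⟨⟨Finset.univ.image w, by
      rw [Finset.coe_image, Finset.coe_univ, Set.image_univ]; exact hw⟩⟩
    have h3 := hv.fintype_card_le_finrank
    have h4 : finrank L (∀ j, M j) ≤ Fintype.card (Fin n) := by
      have := finrank_range_le_card (R := L) w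
      rw [Set.finrank, hw, finrank_top] at this
      exact this
    exact h3.trans h4
  simpa [Fintype.card_sigma] using h2

/-- count: `n ≤ ∑ m j` -/
theorem le_count (hrep : ∀ j (u : M j), ∃ e : Fin (m j) → L, u = ∑ i, φ j (e i) * T j ^ (i : ℕ))
    (hinj : ∀ e : Fin n → L, (∀ j, ∑ i, φ j (e i) * ι j (b i) = 0) → ∀ i, e i = 0) :
    n ≤ ∑ j, m j := by
  classical
  letI : ∀ j, Algebra L (M j) := fun j => (φ j).toAlgebra
  let v : (Σ j, Fin (m j)) → ∀ j, M j := fun p => Pi.single p.1 (T p.1 ^ (p.2 : ℕ))
  have hv : Submodule.span L (Set.range v) = ⊤ := by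
    rw [eq_top_iff]
    intro u _
    choose e he using fun j => hrep j (u j)
    rw [Submodule.mem_span_range_iff_exists_fun]
    refine ⟨fun p => e p.1 p.2, ?_⟩
    funext j
    rw [Finset.sum_apply, Fintype.sum_sigma, Finset.sum_eq_single j]
    · rw [he j]
      refine Finset.sum_congr rfl fun i _ => ?_
      simp only [v, Pi.smul_apply, Pi.single_eq_same, Algebra.smul_def]
      rfl
    · intro j' _ hj'
      refine Finset.sum_eq_zero fun i _ => ?_
      simp only [v, Pi.smul_apply]
      rw [Pi.single_eq_of_ne (Ne.symm hj'), smul_zero]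
    · intro h; exact absurd (Finset.mem_univ _) h
  let w : Fin n → ∀ j, M j := fun i j => ι j (b i)
  have hw : LinearIndependent L w := by
    rw [Fintype.linearIndependent_iff]
    intro g hg
    refine hinj g fun j => ?_
    have h1 := congrFun hg j
    rw [Finset.sum_apply] at h1
    exact h1
  have hfin : Module.Finite L (∀ j, M j) := ⟨⟨Finset.univ.image v, by
    rw [Finset.coe_image, Finset.coe_univ, Set.image_univ]; exact hv⟩⟩
  have h3 := hw.fintype_card_le_finrank
  have h4 : finrank L (∀ j, M j) ≤ Fintype.card (Σ j, Fin (m j)) := by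
    have := finrank_range_le_card (R := L) v
    rw [Set.finrank, hv, finrank_top] at this
    exact this
  have h5 := h3.trans h4
  simpa [Fintype.card_sigma] using h5

end Count

end Crest.Agent.R013.Spread_607
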