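import Crest.Agent.R013.A2a_275
import Crest.Agent.R013.StabD_83

/-! # R013 / Spr6_607 : the family of norms of `K` over a norm `w0` of `F`. -/

set_option autoImplicit false
set_option linter.unusedSectionVars false
set_option linter.style.haveILetI false

noncomputable section

namespace Crest.Agent.R013.Spread_607

open scoped NNReal
open Crest.Agent.R013.A2a_275 Crest.Agent.R013.StabF_83

universe u

/-- the norms of `K` over the norm `w0` of `F` -/
structure Fam (F K : Type u) [Field F] [Field K] [Algebra F K] (w0 : Valuation F ℝ≥0) where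
  N : ℕ
  w : Fin N → Valuation K ℝ≥0
  ov : ∀ i f, w i (algebraMap F K f) = w0 f
  approx : ∀ (a : Fin N → K) (ε : ℝ≥0), 0 < ε → ∃ y : K, ∀ i, w i (y - a i) < ε
  coord : ∀ {n : ℕ} (b : Module.Basis (Fin n) F K), ∃ A : ℝ≥0, ∀ (y : K) (M : ℝ≥0),
    (∀ i, w i y ≤ M) → ∀ l, w0 (b.repr y l) ≤ M * A

theorem exists_fam (F K : Type u) [Field F] [Field K] [Algebra F K] [FiniteDimensional F K]
    [Algebra.IsSeparable F K] (w0 : Valuation F ℝ≥0) (hnt : ∃ a, 1 < w0 a) :
    Nonempty (Fam F K w0) := by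
  classical
  letI : NontriviallyNormedField (Cpl w0) := nnf w0 hnt
  letI : Algebra F (Cpl w0) := (toCpl w0).toAlgebra
  have hn : ∀ f : F, ‖algebraMap F (Cpl w0) f‖₊ = w0 f := by
    intro f
    have h1 : ‖toCpl w0 f‖ = w0 f := norm_toCpl w0 f
    exact NNReal.coe_injective h1
  have hd : DenseRange (algebraMap F (Cpl w0)) := denseRange_toCpl w0
  obtain ⟨I, hI, L, i1, i2, i3, ⟨e⟩⟩ := exists_dec F (Cpl w0) K
  let ε := Fintype.equivFin I
  refine ⟨⟨Fintype.card I, fun i => wv e (ε.symm i), fun i f => ?_, fun a δ hδ => ?_, fun b => ?_⟩⟩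
  · rw [wv_algebraMap, hn]
  · obtain ⟨y, hy⟩ := approx e hd (fun i => a (ε i)) δ hδ
    refine ⟨y, fun i => ?_⟩
    have := hy (ε.symm i)
    rwa [Equiv.apply_symm_apply] at this
  · obtain ⟨A, hA⟩ := coord_bound e b
    refine ⟨A, fun y M hM l => ?_⟩
    rw [← hn]
    refine hA y M (fun i => ?_) l
    have := hM (ε i)
    rwa [Equiv.symm_apply_apply] at this

variable {F K : Type u} [Field F] [Field K] [Algebra F K] {w0 : Valuation F ℝ≥0}

theorem Fam.nonempty (D : Fam F K w0) [FiniteDimensional F K] : Nonempty (Fin D.N) := by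
  by_contra h
  rw [not_nonempty_iff] at h
  have : Nontrivial K := inferInstance
  obtain ⟨A, hA⟩ := D.coord (Module.finBasis F K)
  have h1 : ∀ l, (Module.finBasis F K).repr 1 l = 0 := by
    intro l
    have := hA 1 0 (fun i => h.elim i) l
    rw [zero_mul] at this
    exact (Valuation.zero_iff _).1 (le_antisymm this zero_le)
  have h2 : (Module.finBasis F K).repr (1 : K) = 0 := by
    ext l; exact h1 l
  have h3 : (1 : K) = 0 := (LinearEquiv.map_eq_zero_iff _).1 h2
  exact one_ne_zero h3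

/-- separation -/
theorem Fam.sep (D : Fam F K w0) (hnt : ∃ a, 1 < w0 a) {i j : Fin D.N} (hij : i ≠ j) :
    ∃ z : K, D.w i z < 1 ∧ 1 < D.w j z := by
  classical
  obtain ⟨a, ha⟩ := hnt
  obtain ⟨y, hy⟩ := D.approx (fun l => if l = j then algebraMap F K a else 0) 1 one_pos
  refine ⟨y, ?_, ?_⟩
  · have := hy i
    simpa [hij] using this
  · have h1 := hy j
    simp only [if_true] at h1
    have h2 : D.w j (algebraMap F K a) = w0 a := D.ov j a
    have h3 : y = algebraMap F K a + (y - algebraMap F K a) := by ring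
    rw [h3, Valuation.map_add_eq_of_lt_left _ (by rw [h2]; exact h1.trans ha), h2]
    exact ha

/-- strong separation -/
theorem Fam.sep' (D : Fam F K w0) (hnt : ∃ a, 1 < w0 a) {i j : Fin D.N} (hij : i ≠ j) {δ : ℝ≥0}
    (hδ : 0 < δ) : ∃ z : K, z ≠ 0 ∧ D.w i z < δ ∧ D.w j z⁻¹ < δ := by
  obtain ⟨z, h1, h2⟩ := D.sep hnt hij
  have hz : z ≠ 0 := by
    rintro rfl
    rw [map_zero] at h2
    exact absurd h2 (not_lt.2 zero_le)
  have h3 : D.w j z⁻¹ < 1 := by
    rw [map_inv₀]
    exact inv_lt_one_of_one_lt₀ h2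
  have e1 := (tendsto_pow_atTop_nhds_zero_of_lt_one (r := (D.w i z : ℝ)) NNReal.zero_le_coe
    (by exact_mod_cast h1)).eventually (gt_mem_nhds (show (0:ℝ) < δ from by exact_mod_cast hδ))
  have e2 := (tendsto_pow_atTop_nhds_zero_of_lt_one (r := (D.w j z⁻¹ : ℝ)) NNReal.zero_le_coe
    (by exact_mod_cast h3)).eventually (gt_mem_nhds (show (0:ℝ) < δ from by exact_mod_cast hδ))
  obtain ⟨N, hN1, hN2⟩ := (e1.and e2).exists
  refine ⟨z ^ N, pow_ne_zero N hz, ?_, ?_⟩
  · rw [map_pow]; exact_mod_cast hN1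
  · rw [← inv_pow, map_pow]; exact_mod_cast hN2

end Crest.Agent.R013.Spread_607
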