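import Crest.Agent.R013.Cell4_408
import Crest.Agent.R013.Comp1_267
import Crest.Agent.R013.Clu1_270

/-! # R013 / Sub1_270 : restriction of a Weierstrass series to the clusters of its zeros.

For `f` with `WD k f m`, `1 ≤ m`, `‖c‖ < 1`, `0 < ‖r‖ ≤ 1` the preimage of the disc `|y - c| < |r|` is
the disjoint union of the discs `α_i + b_i T` (`i : Fin n`); there `f = c + r g_i` with
`WD k g_i m_i`, `1 ≤ m_i`, `∑ m_i = m` (`exists_sub`), and `1, T, .., T^(m-1)` restricted to these discs
are independent over the series in `y` (last clause). -/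

set_option autoImplicit false
set_option linter.unusedSectionVars false
set_option linter.style.haveILetI false

noncomputable section

namespace Crest.Agent.R013.Sub_270

open Topology Crest.Agent.R013.Cell_408 Crest.Agent.R013.Clu_270 Crest.Agent.R013.Comp_267

section Norm

variable {C : Type*} [NormedField C] [IsUltrametricDist C]

/-- the affine series `α + b T` -/
def aff (α b : C) : PowerSeries C := PowerSeries.C α + PowerSeries.C b * PowerSeries.X

omit [IsUltrametricDist C] in
theorem coeff_zero_aff (α b : C) : PowerSeries.coeff 0 (aff α b) = α := by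
  simp [aff]

omit [IsUltrametricDist C] in
theorem coeff_one_aff (α b : C) : PowerSeries.coeff 1 (aff α b) = b := by
  rw [aff, map_add, PowerSeries.coeff_C, if_neg one_ne_zero, PowerSeries.coeff_C_mul,
    PowerSeries.coeff_X, if_pos rfl, zero_add, mul_one]

omit [IsUltrametricDist C] in
theorem coeff_aff (α b : C) {n : ℕ} (hn : 2 ≤ n) : PowerSeries.coeff n (aff α b) = 0 := by
  rw [aff, map_add, PowerSeries.coeff_C, if_neg (by omega), PowerSeries.coeff_C_mul,
    PowerSeries.coeff_X, if_neg (by omega), zero_add, mul_zero]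

omit [IsUltrametricDist C] in
theorem hasW_aff_near {α b : C} (h : ‖α‖ < ‖b‖) : HasW (aff α b) ‖b‖ 1 := by
  refine ⟨fun n => ?_, ?_, fun n hn => ?_⟩
  · rcases n with _ | _ | n
    · rw [coeff_zero_aff]; exact h.le
    · rw [coeff_one_aff]
    · rw [coeff_aff α b (by omega), norm_zero]; exact norm_nonneg _
  · rw [coeff_one_aff]
  · obtain rfl : n = 0 := by omega
    rw [coeff_zero_aff]; exact h

omit [IsUltrametricDist C] in
theorem hasW_aff_far {α b : C} (h : ‖b‖ ≤ ‖α‖) : HasW (aff α b) ‖α‖ 0 := by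
  refine ⟨fun n => ?_, ?_, fun n hn => absurd hn (Nat.not_lt_zero n)⟩
  · rcases n with _ | _ | n
    · rw [coeff_zero_aff]
    · rw [coeff_one_aff]; exact h
    · rw [coeff_aff α b (by omega), norm_zero]; exact norm_nonneg _
  · rw [coeff_zero_aff]

theorem norm_sub_lt_one {a b : C} (ha : ‖a‖ < 1) (hb : ‖b‖ < 1) : ‖a - b‖ < 1 := by
  rw [sub_eq_add_neg]
  refine (IsUltrametricDist.norm_add_le_max _ _).trans_lt (max_lt ha ?_)
  rwa [norm_neg]

end Norm

section Main

variable {k C : Type*} [NontriviallyNormedField k] [CompleteSpace k] [IsUltrametricDist k]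
  [NormedField C] [IsUltrametricDist C] [NormedAlgebra k C] [Algebra.IsAlgebraic k C] [IsAlgClosed C]

theorem co_aff {α b : C} (hα : ‖α‖ < 1) (hb : ‖b‖ ≤ 1) : Co k (aff α b) := by
  obtain ⟨L, hL, hmem⟩ := finDef_finite (k := k) ![α, b]
  refine ⟨⟨L, hL, fun n => ?_⟩, fun n => ?_, ?_⟩
  · dsimp only
    rcases n with _ | _ | n
    · rw [coeff_zero_aff]; exact hmem 0
    · rw [coeff_one_aff]; exact hmem 1
    · rw [coeff_aff α b (by omega)]; exact zero_mem L
  · rcases n with _ | _ | n
    · rw [coeff_zero_aff]; exact hα.le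
    · rw [coeff_one_aff]; exact hb
    · rw [coeff_aff α b (by omega), norm_zero]; exact zero_le_one
  · rw [coeff_zero_aff]; exact hα

/-- the coordinate as an element of `BD` -/
def bX : BD k C := ⟨PowerSeries.X, X_mem_BD⟩

theorem coe_aeval_bX (P : Polynomial C) :
    ((Polynomial.aeval (bX : BD k C) P : BD k C) : PowerSeries C) = (P : PowerSeries C) := by
  have h : (BD k C).val (Polynomial.aeval (bX : BD k C) P) =
      Polynomial.aeval (PowerSeries.X : PowerSeries C) P :=
    (Polynomial.aeval_algHom_apply (BD k C).val (bX : BD k C) P).symm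
  change (BD k C).val (Polynomial.aeval (bX : BD k C) P) = _
  rw [h, Polynomial.aeval_def, ← Polynomial.eval₂_C_X_eq_coe]
  rfl

/-- `comp (aff α b)` on polynomials, evaluated -/
theorem ev_comp_aff {α b t : C} (hα : ‖α‖ < 1) (hb : ‖b‖ ≤ 1) (ht : ‖t‖ < 1) (P : Polynomial C) :
    ev t ht (comp (aff α b) (co_aff (k := k) hα hb) (Polynomial.aeval bX P)) =
      P.eval (α + b * t) := by
  rw [← Polynomial.aeval_algHom_apply, ← Polynomial.aeval_algHom_apply, ← Polynomial.coe_aeval_eq_eval]
  congr 2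
  change evp t (compS (aff α b) PowerSeries.X) = _
  rw [compS_X]
  have h : aff α b = ((Polynomial.C α + Polynomial.C b * Polynomial.X : Polynomial C) :
      PowerSeries C) := by
    rw [Polynomial.coe_add, Polynomial.coe_mul, Polynomial.coe_C, Polynomial.coe_C,
      Polynomial.coe_X]; rfl
  rw [h, evp_coe]; simp

/-- divisibility in the small disc comes from divisibility of polynomials -/
theorem pow_dvd {α b τ : C} (hα : ‖α‖ < 1) (hb0 : b ≠ 0) (hb : ‖b‖ ≤ 1) (hτ : ‖τ - α‖ < ‖b‖)
    (n : ℕ) (P : Polynomial C)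
    (h : (comp (aff α b) (co_aff (k := k) hα hb) (Polynomial.aeval bX (Polynomial.X - Polynomial.C τ))) ^ n ∣
      comp (aff α b) (co_aff (k := k) hα hb) (Polynomial.aeval bX P)) :
    (Polynomial.X - Polynomial.C τ) ^ n ∣ P := by
  induction n generalizing P with
  | zero => simp
  | succ n ih =>
    set φ := comp (aff α b) (co_aff (k := k) hα hb) with hφ
    have hb' : 0 < ‖b‖ := norm_pos_iff.2 hb0
    have ht : ‖(τ - α) / b‖ < 1 := by rw [norm_div]; exact (div_lt_one hb').2 hτ
    have hpt : α + b * ((τ - α) / b) = τ := by field_simp; ring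
    have h1 : P.eval τ = 0 := by
      obtain ⟨w, hw⟩ := h
      have := congrArg (ev ((τ - α) / b) ht) hw
      rw [ev_comp_aff hα hb ht, map_mul, pow_succ, map_mul, ev_comp_aff hα hb ht, hpt] at this
      rw [this]
      simp
    obtain ⟨P', rfl⟩ := Polynomial.dvd_iff_isRoot.2 h1
    have hne : φ (Polynomial.aeval bX (Polynomial.X - Polynomial.C τ)) ≠ 0 := by
      intro h0
      have hx : ‖(0 : C)‖ < 1 := by simp
      rcases eq_or_ne τ α with h2 | h2
      · obtain ⟨y, hy0, hy1⟩ := NormedField.exists_norm_lt_one k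
        have hy : ‖algebraMap k C y‖ < 1 := by rwa [norm_algebraMap']
        have := congrArg (ev (algebraMap k C y) hy) h0
        rw [hφ, ev_comp_aff hα hb hy, map_zero] at this
        simp only [Polynomial.eval_sub, Polynomial.eval_X, Polynomial.eval_C, h2,
          add_sub_cancel_left, mul_eq_zero, hb0, false_or] at this
        rw [map_eq_zero] at this
        rw [this, norm_zero] at hy0
        exact lt_irrefl _ hy0
      · have := congrArg (ev (0 : C) hx) h0
        rw [hφ, ev_comp_aff hα hb hx, map_zero] at this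
        simp only [Polynomial.eval_sub, Polynomial.eval_X, Polynomial.eval_C, mul_zero,
          add_zero] at this
        exact h2 (sub_eq_zero.1 this).symm
    rw [pow_succ']
    refine mul_dvd_mul_left _ (ih P' ?_)
    rw [pow_succ', map_mul, map_mul] at h
    exact (mul_dvd_mul_iff_left hne).1 h

theorem hasW_comp_unit {f u : PowerSeries C} (hf : Co k f) (hu : IsU k u) :
    HasW (compS f u) 1 0 := by
  obtain ⟨v, hv, huv⟩ := hu.inv
  have h1 := compS_le hf hu.mem hu.le
  have h2 := compS_le hf hv.mem hv.le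
  refine ⟨h1, ?_, fun n hn => absurd hn (Nat.not_lt_zero n)⟩
  have h3 : compS f u * compS f v = 1 := by
    rw [← compS_mul hf hu.mem hv.mem, huv, ← map_one (PowerSeries.C (R := C)), compS_C]
  have h4 := congrArg (PowerSeries.coeff 0) h3
  simp only [PowerSeries.coeff_zero_eq_constantCoeff_apply, map_mul, map_one] at h4 ⊢
  have h5 := congrArg norm h4
  rw [norm_mul, norm_one] at h5
  have h1' := h1 0
  have h2' := h2 0
  rw [PowerSeries.coeff_zero_eq_constantCoeff_apply] at h1' h2'
  nlinarith [norm_nonneg (PowerSeries.constantCoeff (compS f u)),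
    norm_nonneg (PowerSeries.constantCoeff (compS f v))]

theorem compS_sub {f g h : PowerSeries C} (hf : Co k f) (hg : g ∈ BD k C) (hh : h ∈ BD k C) :
    compS f (g - h) = compS f g - compS f h := by
  rw [eq_sub_iff_add_eq, ← compS_add hf (sub_mem hg hh) hh, sub_add_cancel]

variable (k) in
include k in
theorem compS_aff_lin {α b : C} (τ : C) (hα : ‖α‖ < 1) (hb : ‖b‖ ≤ 1) :
    compS (aff α b) ((Polynomial.X - Polynomial.C τ : Polynomial C) : PowerSeries C) =
      aff (α - τ) b := by
  rw [Polynomial.coe_sub, Polynomial.coe_X, Polynomial.coe_C,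
    compS_sub (k := k) (co_aff hα hb) X_mem_BD (C_mem_BD τ), compS_X, compS_C]
  unfold aff
  rw [map_sub]; ring

variable (k) in
include k in
theorem hasW_comp_roots {α b : C} (hα : ‖α‖ < 1) (hb0 : b ≠ 0) (hb : ‖b‖ ≤ 1) (S : Multiset C) :
    HasW (compS (aff α b) (rootPoly S : PowerSeries C)) (phi S α ‖b‖)
      (S.countP fun τ => ‖τ - α‖ < ‖b‖) := by
  have hb' : 0 < ‖b‖ := norm_pos_iff.2 hb0
  induction S using Multiset.induction_on with
  | empty =>
    rw [phi_zero, Multiset.countP_zero]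
    have : (rootPoly (0 : Multiset C) : PowerSeries C) = PowerSeries.C 1 := by
      simp [rootPoly]
    rw [this, compS_C, map_one]
    exact hasW_one
  | cons a S ih =>
    have h1 : (rootPoly (a ::ₘ S) : PowerSeries C) =
        ((Polynomial.X - Polynomial.C a : Polynomial C) : PowerSeries C) * (rootPoly S : PowerSeries C) := by
      rw [← Polynomial.coe_mul]
      simp [rootPoly]
    rw [h1, compS_mul (k := k) (co_aff hα hb) (coe_mem_BD _) (coe_mem_BD _),
      compS_aff_lin k a hα hb, phi_cons, Multiset.countP_cons, add_comm (Multiset.countP _ S)]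
    have hpos := phi_pos S α hb'
    rcases lt_or_ge ‖α - a‖ ‖b‖ with h | h
    · rw [max_eq_left h.le, if_pos (by rwa [norm_sub_rev])]
      exact (hasW_aff_near h).mul ih hb' hpos
    · rw [max_eq_right h, if_neg (by rw [norm_sub_rev]; exact not_lt.2 h)]
      exact (hasW_aff_far h).mul ih (hb'.trans_le h) hpos

/-- the shifted series -/
def shiftB (e : BD k C) : BD k C :=
  ⟨PowerSeries.mk fun n => PowerSeries.coeff (n + 1) (e : PowerSeries C), by
    obtain ⟨h1, M, h2⟩ := e.2
    refine ⟨?_, M, fun n => ?_⟩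
    · obtain ⟨L, hL, h3⟩ := h1
      exact ⟨L, hL, fun n => by dsimp only; rw [PowerSeries.coeff_mk]; exact h3 (n + 1)⟩
    · rw [PowerSeries.coeff_mk]; exact h2 (n + 1)⟩

/-- constants in `BD` -/
def bC (c : C) : BD k C := ⟨PowerSeries.C c, C_mem_BD c⟩

theorem bC_eq (c : C) : (bC c : BD k C) = algebraMap C (BD k C) c := rfl

theorem eq_const_add (e : BD k C) :
    e = bC (PowerSeries.coeff 0 (e : PowerSeries C)) + bX * shiftB e := by
  apply Subtype.ext
  have := PowerSeries.sub_const_eq_X_mul_shift (e : PowerSeries C)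
  rw [sub_eq_iff_eq_add'] at this
  rw [PowerSeries.coeff_zero_eq_constantCoeff_apply]
  exact this

theorem coeff_shiftB (e : BD k C) (n : ℕ) :
    PowerSeries.coeff n (shiftB e : PowerSeries C) = PowerSeries.coeff (n + 1) (e : PowerSeries C) := by
  exact PowerSeries.coeff_mk n fun n => PowerSeries.coeff (n + 1) (e : PowerSeries C)

theorem comp_bC {f : PowerSeries C} (hf : Co k f) (c : C) : comp f hf (bC c) = bC c :=
  (comp f hf).commutes c

theorem coe_comp_bX {f : PowerSeries C} (hf : Co k f) :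
    ((comp f hf bX : BD k C) : PowerSeries C) = f := compS_X f

theorem coeff_zero_of_rel {m : ℕ} {S : Multiset C} (hcard : S.card = m)
    {n : ℕ} (α b : Fin n → C) (hα : ∀ i, ‖α i‖ < 1) (hb : ∀ i, ‖b i‖ ≤ 1) (hb0 : ∀ i, b i ≠ 0)
    (hcov : ∀ τ ∈ S, ∃ i, ‖τ - α i‖ < ‖b i‖) (g : Fin n → PowerSeries C) (hgc : ∀ i, Co k (g i))
    (hdvd : ∀ i, comp (aff (α i) (b i)) (co_aff (hα i) (hb i)) (Polynomial.aeval bX (rootPoly S)) ∣
      (⟨g i, (hgc i).mem⟩ : BD k C))
    (e : Fin m → BD k C) (he : ∀ i, ∑ s, comp (g i) (hgc i) (e s) *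
        (comp (aff (α i) (b i)) (co_aff (hα i) (hb i)) bX) ^ (s : ℕ) = 0) (s : Fin m) :
    PowerSeries.coeff 0 (e s : PowerSeries C) = 0 := by
  classical
  let q : Fin m → C := fun s => PowerSeries.coeff 0 (e s : PowerSeries C)
  let Q : Polynomial C := ∑ s : Fin m, Polynomial.C (q s) * Polynomial.X ^ (s : ℕ)
  let A : ∀ i, BD k C →ₐ[C] BD k C := fun i => comp (aff (α i) (b i)) (co_aff (hα i) (hb i))
  let G : Fin n → BD k C := fun i => ⟨g i, (hgc i).mem⟩
  have hG : ∀ i, comp (g i) (hgc i) bX = G i := fun i => Subtype.ext (compS_X _)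
  have hQ : ∀ i, G i ∣ A i (Polynomial.aeval bX Q) := by
    intro i
    have h1 : A i (Polynomial.aeval bX Q) = ∑ s : Fin m, bC (q s) * (A i bX) ^ (s : ℕ) := by
      rw [← Polynomial.aeval_algHom_apply, map_sum]
      refine Finset.sum_congr rfl fun s _ => ?_
      rw [map_mul, map_pow, Polynomial.aeval_C, Polynomial.aeval_X, ← bC_eq]
    have h2 : ∑ s : Fin m, comp (g i) (hgc i) (e s) * (A i bX) ^ (s : ℕ) =
        ∑ s : Fin m, bC (q s) * (A i bX) ^ (s : ℕ) +
          G i * ∑ s : Fin m, comp (g i) (hgc i) (shiftB (e s)) * (A i bX) ^ (s : ℕ) := by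
      rw [Finset.mul_sum, ← Finset.sum_add_distrib]
      refine Finset.sum_congr rfl fun s _ => ?_
      conv_lhs => rw [eq_const_add (e s)]
      rw [map_add, map_mul, hG, comp_bC]
      ring
    rw [h1]
    have h3 := he i
    change ∑ s : Fin m, comp (g i) (hgc i) (e s) * (A i bX) ^ (s : ℕ) = 0 at h3
    rw [h2] at h3
    rw [eq_neg_of_add_eq_zero_left h3]
    exact (dvd_neg (α := BD k C)).2 (dvd_mul_right _ _)
  -- divisibility by the root factors
  have hpow : ∀ τ ∈ S, (Polynomial.X - Polynomial.C τ) ^ S.count τ ∣ Q := by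
    intro τ hτ
    obtain ⟨i, hi⟩ := hcov τ hτ
    refine pow_dvd (k := k) (hα i) (hb0 i) (hb i) hi _ _ (dvd_trans ?_ (hQ i))
    have h1 : (Polynomial.X - Polynomial.C τ) ^ S.count τ ∣ rootPoly S := by
      unfold rootPoly
      rw [← Multiset.prod_replicate, ← Multiset.map_replicate (fun τ => Polynomial.X - Polynomial.C τ)]
      exact Multiset.prod_dvd_prod_of_le (Multiset.map_le_map (Multiset.le_count_iff_replicate_le.1 le_rfl))
    have h2 : (A i (Polynomial.aeval bX (Polynomial.X - Polynomial.C τ))) ^ S.count τ ∣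
        A i (Polynomial.aeval bX (rootPoly S)) := by
      rw [← map_pow, ← map_pow]
      exact map_dvd (A i) (map_dvd (Polynomial.aeval bX) h1)
    exact h2.trans (hdvd i)
  have hQdeg : Q.degree < m := by
    refine (Polynomial.degree_sum_fin_lt q).trans_le le_rfl
  have hQ0 : Q = 0 := by
    by_contra hne
    have h1 : S ≤ Q.roots := by
      rw [Multiset.le_iff_count]
      intro τ
      by_cases hτ : τ ∈ S
      · rw [Polynomial.count_roots]
        exact (Polynomial.le_rootMultiplicity_iff hne).2 (hpow τ hτ)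
      · rw [Multiset.count_eq_zero_of_notMem hτ]; exact Nat.zero_le _
    have h2 := (Multiset.card_le_card h1).trans (Polynomial.card_roots' Q)
    rw [hcard] at h2
    have h3 : Q.natDegree < m := (Polynomial.natDegree_lt_iff_degree_lt hne).2 hQdeg
    omega
  have h4 : Q.coeff (s : ℕ) = q s := by
    simp only [Q, Polynomial.finsetSum_coeff, Polynomial.coeff_C_mul, Polynomial.coeff_X_pow]
    rw [Finset.sum_eq_single s]
    · simp
    · intro t _ hts
      rw [if_neg, mul_zero]
      intro h; exact hts (Fin.ext h.symm)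
    · intro h; exact absurd (Finset.mem_univ _) h
  rw [hQ0, Polynomial.coeff_zero] at h4
  exact h4.symm

/-- **Independence** over the series in `y`, from the divisibility of the root polynomial. -/
theorem indep_of_dvd {m : ℕ} {S : Multiset C} (hcard : S.card = m)
    {n : ℕ} (α b : Fin n → C) (hα : ∀ i, ‖α i‖ < 1) (hb : ∀ i, ‖b i‖ ≤ 1) (hb0 : ∀ i, b i ≠ 0)
    (hcov : ∀ τ ∈ S, ∃ i, ‖τ - α i‖ < ‖b i‖) (g : Fin n → PowerSeries C) (hgc : ∀ i, Co k (g i))
    (hg0 : ∀ i, g i ≠ 0)
    (hdvd : ∀ i, comp (aff (α i) (b i)) (co_aff (hα i) (hb i)) (Polynomial.aeval bX (rootPoly S)) ∣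
      (⟨g i, (hgc i).mem⟩ : BD k C))
    (e : Fin m → BD k C) (he : ∀ i, ∑ s, comp (g i) (hgc i) (e s) *
        (comp (aff (α i) (b i)) (co_aff (hα i) (hb i)) bX) ^ (s : ℕ) = 0) : e = 0 := by
  have hGne : ∀ i, (⟨g i, (hgc i).mem⟩ : BD k C) ≠ 0 := fun i h0 =>
    hg0 i (congrArg Subtype.val h0)
  have key : ∀ (N : ℕ) (e : Fin m → BD k C), (∀ i, ∑ s, comp (g i) (hgc i) (e s) *
      (comp (aff (α i) (b i)) (co_aff (hα i) (hb i)) bX) ^ (s : ℕ) = 0) →
      ∀ s, PowerSeries.coeff N (e s : PowerSeries C) = 0 := by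
    intro N
    induction N with
    | zero =>
      intro e he s
      exact coeff_zero_of_rel hcard α b hα hb hb0 hcov g hgc hdvd e he s
    | succ N ih =>
      intro e he s
      rw [← coeff_shiftB]
      refine ih (fun s => shiftB (e s)) (fun i => ?_) s
      have h0 := fun s => coeff_zero_of_rel hcard α b hα hb hb0 hcov g hgc hdvd e he s
      have h1 : ∀ s, e s = bX * shiftB (e s) := fun s => by
        conv_lhs => rw [eq_const_add (e s), h0 s]
        have : (bC 0 : BD k C) = 0 := by rw [bC_eq, map_zero]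
        rw [this, zero_add]
      have h2 := he i
      have h3 : ∑ s, comp (g i) (hgc i) (e s) *
          (comp (aff (α i) (b i)) (co_aff (hα i) (hb i)) bX) ^ (s : ℕ) =
          (⟨g i, (hgc i).mem⟩ : BD k C) * ∑ s, comp (g i) (hgc i) (shiftB (e s)) *
          (comp (aff (α i) (b i)) (co_aff (hα i) (hb i)) bX) ^ (s : ℕ) := by
        rw [Finset.mul_sum]
        refine Finset.sum_congr rfl fun s _ => ?_
        conv_lhs => rw [h1 s]
        rw [map_mul, show comp (g i) (hgc i) bX = (⟨g i, (hgc i).mem⟩ : BD k C) from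
          Subtype.ext (compS_X _), mul_assoc]
      rw [h3] at h2
      exact (mul_eq_zero.1 h2).resolve_left (hGne i)
  funext s
  apply Subtype.ext
  ext N
  rw [key N e he s]
  simp

/-- **Restriction to the preimage of a disc.** -/
theorem exists_sub {f : PowerSeries C} {m : ℕ} (hm : 1 ≤ m) (hf : WD k f m) {c r : C}
    (hc : ‖c‖ < 1) (hr0 : r ≠ 0) (hr : ‖r‖ ≤ 1) :
    ∃ (n : ℕ) (α b : Fin n → C) (hα : ∀ i, ‖α i‖ < 1) (hb : ∀ i, ‖b i‖ ≤ 1) (mm : Fin n → ℕ)
      (g : Fin n → PowerSeries C) (_ : ∀ i, WD k (g i) (mm i)) (hgc : ∀ i, Co k (g i)),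
      (∀ i, b i ≠ 0) ∧ (∀ i, 1 ≤ mm i) ∧ ∑ i, mm i = m ∧
      (∀ i, compS (aff (α i) (b i)) f = compS (g i) (aff c r)) ∧
      ∀ (e : Fin m → BD k C), (∀ i, ∑ s, comp (g i) (hgc i) (e s) *
        (comp (aff (α i) (b i)) (co_aff (hα i) (hb i)) bX) ^ (s : ℕ) = 0) → e = 0 := by
  classical
  -- the zeros of `f - c`
  have hfc : WD k (f - PowerSeries.C c) m := by
    have hco : ∀ n, n ≠ 0 → PowerSeries.coeff n (f - PowerSeries.C c) = PowerSeries.coeff n f := by
      intro n hn
      rw [map_sub, PowerSeries.coeff_C, if_neg hn, sub_zero]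
    have h0 : ‖PowerSeries.coeff 0 (f - PowerSeries.C c)‖ < 1 := by
      rw [map_sub, PowerSeries.coeff_C, if_pos rfl]
      exact norm_sub_lt_one (hf.lt 0 (by omega)) hc
    refine ⟨(sub_mem hf.mem (C_mem_BD c)).1, fun n => ?_, ?_, fun n hn => ?_⟩
    · rcases Nat.eq_zero_or_pos n with rfl | hn
      · exact h0.le
      · rw [hco n hn.ne']; exact hf.le n
    · rw [hco m (by omega)]; exact hf.eq
    · rcases Nat.eq_zero_or_pos n with rfl | hn'
      · exact h0
      · rw [hco n hn'.ne']; exact hf.lt n hn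
  obtain ⟨u, S, hu, hcard, hS, hfu⟩ := hfc.exists_roots
  obtain ⟨n, α, b, hαS, hb0, hb, hphi, -, hcov, hsum⟩ :=
    exists_clusters S (fun τ hτ => (hS τ hτ).le) hr0 hr
  have hα : ∀ i, ‖α i‖ < 1 := fun i => hS _ (hαS i)
  let A : ∀ i, Co k (aff (α i) (b i)) := fun i => co_aff (hα i) (hb i)
  let mm : Fin n → ℕ := fun i => S.countP fun τ => ‖τ - α i‖ < ‖b i‖
  let g : Fin n → PowerSeries C := fun i =>
    PowerSeries.C r⁻¹ * compS (aff (α i) (b i)) (f - PowerSeries.C c)
  have hmm : ∀ i, 1 ≤ mm i := fun i => by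
    refine Multiset.countP_pos.2 ⟨α i, hαS i, ?_⟩
    rw [sub_self, norm_zero]; exact norm_pos_iff.2 (hb0 i)
  have hgW : ∀ i, HasW (g i) 1 (mm i) := by
    intro i
    have h1 : HasW (compS (aff (α i) (b i)) (f - PowerSeries.C c)) ‖r‖ (mm i) := by
      rw [hfu, compS_mul (A i) hu.mem (coe_mem_BD _)]
      have := (hasW_comp_unit (A i) hu).mul (hasW_comp_roots k (hα i) (hb0 i) (hb i) S) one_pos
        (phi_pos S _ (norm_pos_iff.2 (hb0 i)))
      rw [one_mul, zero_add, hphi i] at this
      exact this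
    have h2 := h1.smul (inv_ne_zero hr0)
    rwa [norm_inv, inv_mul_cancel₀ (norm_ne_zero_iff.2 hr0)] at h2
  have hgB : ∀ i, g i ∈ BD k C := fun i =>
    mul_mem (C_mem_BD _) (compS_mem (A i) hfc.mem)
  have hg : ∀ i, WD k (g i) (mm i) := fun i => ⟨(hgB i).1, (hgW i).le, (hgW i).eq, (hgW i).lt⟩
  have hgc : ∀ i, Co k (g i) := fun i => ⟨(hgB i).1, (hgW i).le, (hgW i).lt 0 (hmm i)⟩
  have hrel : ∀ i, compS (aff (α i) (b i)) (f - PowerSeries.C c) = PowerSeries.C r * g i := by
    intro i
    change _ = PowerSeries.C r * (PowerSeries.C r⁻¹ * _)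
    rw [← mul_assoc, ← map_mul, mul_inv_cancel₀ hr0, map_one, one_mul]
  refine ⟨n, α, b, hα, hb, mm, g, hg, hgc, hb0, hmm, hsum.trans hcard, ?_, ?_⟩
  · intro i
    have h1 : compS (g i) (aff c r) = PowerSeries.C c + PowerSeries.C r * g i := by
      unfold aff
      rw [compS_add (hgc i) (C_mem_BD c) (mul_mem (C_mem_BD r) X_mem_BD),
        compS_mul (hgc i) (C_mem_BD r) X_mem_BD, compS_C, compS_C, compS_X]
    rw [h1, ← hrel i, compS_sub (A i) hf.mem (C_mem_BD c), compS_C]
    ring
  · -- independence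
    intro e he
    refine indep_of_dvd hcard α b hα hb hb0 hcov g hgc (fun i => (hgW i).ne_zero one_pos)
      (fun i => ?_) e he
    have h3 : comp (aff (α i) (b i)) (A i) (⟨u, hu.mem⟩ * Polynomial.aeval bX (rootPoly S)) =
        bC r * (⟨g i, (hgc i).mem⟩ : BD k C) := by
      apply Subtype.ext
      change compS (aff (α i) (b i))
        (u * ((Polynomial.aeval bX (rootPoly S) : BD k C) : PowerSeries C)) = _
      rw [coe_aeval_bX, ← hfu, hrel i]
      rfl
    have h4 : comp (aff (α i) (b i)) (A i) (Polynomial.aeval bX (rootPoly S)) ∣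
        bC r * (⟨g i, (hgc i).mem⟩ : BD k C) := by
      rw [← h3, map_mul]; exact dvd_mul_left _ _
    refine h4.trans ⟨bC r⁻¹, ?_⟩
    have h5 : (bC r : BD k C) * bC r⁻¹ = 1 := by
      rw [bC_eq, bC_eq, ← map_mul, mul_inv_cancel₀ hr0, map_one]
    calc (⟨g i, (hgc i).mem⟩ : BD k C) = (bC r * bC r⁻¹) * (⟨g i, (hgc i).mem⟩ : BD k C) := by
          rw [h5, one_mul]
      _ = bC r * (⟨g i, (hgc i).mem⟩ : BD k C) * bC r⁻¹ := by ring

end Main

end Crest.Agent.R013.Sub_270
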