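import Crest.Agent.R013.Spr4_607
import Crest.Agent.R013.Comp4_267
import Crest.Agent.R013.Sub1_270

/-! # R013 / Spr7_607 : composition and evaluation at a point of `E`; restriction to smaller discs;
(SP2) the component of the preimage of a small disc. -/

set_option autoImplicit false
set_option linter.unusedSectionVars false
set_option linter.style.haveILetI false

noncomputable section

namespace Crest.Agent.R013.Spread_607

open Topology Crest.Agent.R013.Cell_408 Crest.Agent.R013.Comp_267 Crest.Agent.R013.Sub_270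

variable {k C E : Type*} [NontriviallyNormedField k] [CompleteSpace k] [IsUltrametricDist k]
  [NormedField C] [IsUltrametricDist C] [NormedAlgebra k C] [Algebra.IsAlgebraic k C] [IsAlgClosed C]
  [NormedField E] [IsUltrametricDist E] [CompleteSpace E]

section CompE

variable (j : C →+* E) (hj : ∀ c, ‖j c‖ = ‖c‖)

include hj

theorem norm_ev_lt {f : PowerSeries C} (hf : Co k f) {z : E} (hz : ‖z‖ < 1) :
    ‖Spread_607.ev (k := k) j hj hz ⟨f, hf.mem⟩‖ < 1 := by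
  have h1 : ‖Spread_607.ev (k := k) j hj hz ⟨f, hf.mem⟩‖ ≤ max ‖PowerSeries.coeff 0 f‖ ‖z‖ := by
    refine norm_ev_le j hj hz _ (le_max_of_le_right (norm_nonneg _)) fun n => ?_
    rcases Nat.eq_zero_or_pos n with rfl | hn
    · rw [pow_zero, mul_one]; exact le_max_left _ _
    · refine le_max_of_le_right ?_
      calc _ ≤ 1 * ‖z‖ ^ 1 := mul_le_mul (hf.le n)
            (pow_le_pow_of_le_one (norm_nonneg _) hz.le hn) (pow_nonneg (norm_nonneg _) _) zero_le_one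
        _ = ‖z‖ := by rw [one_mul, pow_one]
  exact h1.trans_lt (max_lt hf.lt hz)

/-- evaluation of a composition -/
theorem ev_compE {f : PowerSeries C} (hf : Co k f) {z : E} (hz : ‖z‖ < 1) (g : BD k C) :
    Spread_607.ev j hj hz (comp f hf g) =
      Spread_607.ev j hj (norm_ev_lt j hj hf hz) g := by
  set z' := Spread_607.ev (k := k) j hj hz ⟨f, hf.mem⟩ with hz'
  have hz'1 : ‖z'‖ < 1 := norm_ev_lt j hj hf hz
  obtain ⟨-, M, hM⟩ := mem_BD.1 g.2
  have hM0 : 0 ≤ M := (norm_nonneg _).trans (hM 0)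
  have key : ∀ N : ℕ, ‖Spread_607.ev j hj hz (comp f hf g) -
      Spread_607.ev j hj (norm_ev_lt j hj hf hz) g‖ ≤ ‖z'‖ ^ N * M := by
    intro N
    have h1 : g = (∑ i ∈ Finset.range N,
        algebraMap C (BD k C) (PowerSeries.coeff i (g : PowerSeries C)) * XB ^ i) +
        XB ^ N * ⟨shf N g, shf_mem N g.2⟩ := by
      refine Subtype.ext ?_
      rw [AddMemClass.coe_add, AddSubmonoidClass.coe_finsetSum]
      exact shf_eq N (g : PowerSeries C)
    have hC : ∀ c, Spread_607.ev j hj hz (algebraMap C (BD k C) c) = j c := fun c =>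
      Spread_607.ev_C j hj hz c
    have hC' : ∀ c, Spread_607.ev j hj hz'1 (algebraMap C (BD k C) c) = j c := fun c =>
      Spread_607.ev_C j hj _ c
    have hX' : Spread_607.ev (k := k) j hj hz'1 XB = z' := Spread_607.ev_X j hj _
    have e1 : Spread_607.ev j hj hz (comp f hf g) = (∑ i ∈ Finset.range N,
        j (PowerSeries.coeff i (g : PowerSeries C)) * z' ^ i) +
        z' ^ N * Spread_607.ev j hj hz (comp f hf ⟨shf N g, shf_mem N g.2⟩) := by
      conv_lhs => rw [h1]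
      simp only [map_add, map_sum, map_mul, map_pow, comp_X, AlgHom.commutes, hC]
      rfl
    have e2 : Spread_607.ev j hj hz'1 g = (∑ i ∈ Finset.range N,
        j (PowerSeries.coeff i (g : PowerSeries C)) * z' ^ i) +
        z' ^ N * Spread_607.ev j hj hz'1 ⟨shf N g, shf_mem N g.2⟩ := by
      conv_lhs => rw [h1]
      simp only [map_add, map_sum, map_mul, map_pow, hC', hX']
    change ‖_ - Spread_607.ev j hj hz'1 g‖ ≤ _
    rw [e1, e2, add_sub_add_left_eq_sub, ← mul_sub, norm_mul, norm_pow]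
    refine mul_le_mul_of_nonneg_left ?_ (pow_nonneg (norm_nonneg _) _)
    have hsh : ∀ n, ‖PowerSeries.coeff n (shf N (g : PowerSeries C))‖ ≤ M := by
      intro n
      rw [shf, PowerSeries.coeff_mk]; exact hM _
    rw [sub_eq_add_neg]
    refine (IsUltrametricDist.norm_add_le_max _ _).trans (max_le ?_ ?_)
    · refine norm_ev_le' j hj hz _ hM0 fun n => ?_
      exact compS_le hf (shf_mem N g.2) hsh n
    · rw [norm_neg]
      exact norm_ev_le' j hj hz'1 _ hM0 hsh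
  have h2 : Filter.Tendsto (fun N : ℕ => ‖z'‖ ^ N * M) Filter.atTop (𝓝 (0 * M)) :=
    (tendsto_pow_atTop_nhds_zero_of_lt_one (norm_nonneg _) hz'1).mul_const M
  rw [zero_mul] at h2
  have h3 := ge_of_tendsto' h2 key
  exact sub_eq_zero.1 (norm_le_zero_iff.1 h3)

end CompE

section Aff

omit [CompleteSpace k] [IsUltrametricDist k] [Algebra.IsAlgebraic k C] [IsAlgClosed C]
  [NormedAlgebra k C] [IsUltrametricDist C] [NontriviallyNormedField k] in
theorem coeff_compS_smul (β : C) (g : PowerSeries C) (n : ℕ) :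
    PowerSeries.coeff n (compS (aff 0 β) g) = β ^ n * PowerSeries.coeff n g := by
  have h1 : ∀ m, (aff 0 β : PowerSeries C) ^ m = PowerSeries.C (β ^ m) * PowerSeries.X ^ m := by
    intro m
    rw [aff, map_zero, zero_add, mul_pow, map_pow]
  rw [compS, PowerSeries.coeff_mk, tsum_eq_single n]
  · rw [h1, PowerSeries.coeff_C_mul, PowerSeries.coeff_X_pow_self, mul_one, mul_comm]
  · intro m hm
    rw [h1, PowerSeries.coeff_C_mul, PowerSeries.coeff_X_pow, if_neg (Ne.symm hm), mul_zero, mul_zero]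

variable (k) in
include k in
theorem compS_aff_aff {α α' β β' : C} (hα : ‖α‖ < 1) (hβ : ‖β‖ ≤ 1) :
    compS (aff α β) (aff α' β') = aff (α' + β' * α) (β' * β) := by
  have h1 : (aff α' β' : PowerSeries C) = PowerSeries.C α' + PowerSeries.C β' * PowerSeries.X := rfl
  rw [h1, compS_add (k := k) (co_aff hα hβ) (C_mem_BD _) (mul_mem (C_mem_BD _) X_mem_BD),
    compS_mul (k := k) (co_aff hα hβ) (C_mem_BD _) X_mem_BD, compS_C, compS_C, compS_X, aff, aff,
    map_add, map_mul, map_mul]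
  ring

theorem compS_aff_eq (hk : DiscNorm k) {α β : C} (hα : ‖α‖ < 1) (hβ : ‖β‖ ≤ 1) {g : PowerSeries C}
    (hg : g ∈ BD k C) : compS (aff α β) g = compS (aff 0 β) (compS (aff α 1) g) := by
  have h0 : ‖(0 : C)‖ < 1 := by rw [norm_zero]; exact one_pos
  rw [compS_compS hk (co_aff h0 hβ) (co_aff hα norm_one.le) hg, compS_aff_aff k h0 hβ]
  congr 2 <;> ring

theorem coeff_compS_aff (hk : DiscNorm k) {α β : C} (hα : ‖α‖ < 1) (hβ : ‖β‖ ≤ 1) {g : PowerSeries C}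
    (hg : g ∈ BD k C) (n : ℕ) : PowerSeries.coeff n (compS (aff α β) g) =
      β ^ n * PowerSeries.coeff n (compS (aff α 1) g) := by
  rw [compS_aff_eq hk hα hβ hg, coeff_compS_smul]

theorem compS_aff_neg (hk : DiscNorm k) {α : C} (hα : ‖α‖ < 1) {g : PowerSeries C}
    (hg : g ∈ BD k C) : compS (aff (-α) 1) (compS (aff α 1) g) = g := by
  have h0 : ‖-α‖ < 1 := by rwa [norm_neg]
  rw [compS_compS hk (co_aff h0 norm_one.le) (co_aff hα norm_one.le) hg,
    compS_aff_aff k h0 norm_one.le]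
  have e1 : α + 1 * -α = 0 := by ring
  rw [e1, one_mul]
  ext n
  rw [coeff_compS_smul, one_pow, one_mul]

end Aff

/-- choice of the radius -/
theorem pick_beta {h : ℕ → C} {M : ℝ} (hM : ∀ n, ‖h n‖ ≤ M) {ρ : C} (hρ : ρ ≠ 0)
    {n1 : ℕ} (hn1 : 1 ≤ n1) (h1 : ‖ρ‖ < ‖h n1‖) :
    ∃ (β : C) (m : ℕ), β ≠ 0 ∧ ‖β‖ < 1 ∧ 1 ≤ m ∧ (∀ n, 1 ≤ n → ‖h n‖ * ‖β‖ ^ n ≤ ‖ρ‖) ∧
      ‖h m‖ * ‖β‖ ^ m = ‖ρ‖ ∧ ∀ n, 1 ≤ n → n < m → ‖h n‖ * ‖β‖ ^ n < ‖ρ‖ := by
  classical
  have hρ' : 0 < ‖ρ‖ := norm_pos_iff.2 hρ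
  have hroot : ∀ n, 1 ≤ n → h n ≠ 0 → ∃ b : C, h n * b ^ n = ρ := by
    intro n hn hne
    obtain ⟨b, hb⟩ := IsAlgClosed.exists_pow_nat_eq (ρ / h n) (n := n) (by omega)
    exact ⟨b, by rw [hb]; field_simp⟩
  choose! b hb using hroot
  have hh1 : h n1 ≠ 0 := norm_pos_iff.1 (hρ'.trans h1)
  have hbn : ∀ n, 1 ≤ n → h n ≠ 0 → ‖h n‖ * ‖b n‖ ^ n = ‖ρ‖ := by
    intro n hn hne
    rw [← norm_pow, ← norm_mul, hb n hn hne]
  have hb1 : ‖b n1‖ < 1 := by
    by_contra hc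
    push Not at hc
    have := hbn n1 hn1 hh1
    have h2 : 1 ≤ ‖b n1‖ ^ n1 := one_le_pow₀ hc
    nlinarith [norm_nonneg (h n1)]
  -- beyond N0 the terms are small
  have hM0 : 0 ≤ M := (norm_nonneg _).trans (hM 0)
  obtain ⟨N0, hN0⟩ : ∃ N0 : ℕ, ∀ n, N0 ≤ n → M * ‖b n1‖ ^ n < ‖ρ‖ := by
    have h2 : Filter.Tendsto (fun n : ℕ => M * ‖b n1‖ ^ n) Filter.atTop (𝓝 (M * 0)) :=
      (tendsto_pow_atTop_nhds_zero_of_lt_one (norm_nonneg _) hb1).const_mul M
    rw [mul_zero] at h2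
    exact Filter.eventually_atTop.1 (h2.eventually (gt_mem_nhds hρ'))
  set S : Finset ℕ := (Finset.range (N0 + n1 + 1)).filter fun n => 1 ≤ n ∧ h n ≠ 0 with hS
  have hn1S : n1 ∈ S := by
    rw [hS, Finset.mem_filter, Finset.mem_range]
    exact ⟨by omega, hn1, hh1⟩
  obtain ⟨n2, hn2, hmin⟩ := S.exists_min_image (fun n => ‖b n‖) ⟨n1, hn1S⟩
  rw [hS, Finset.mem_filter] at hn2
  set β := b n2 with hβ
  have hβ1 : ‖β‖ ≤ ‖b n1‖ := hmin n1 hn1S
  have hall : ∀ n, 1 ≤ n → ‖h n‖ * ‖β‖ ^ n ≤ ‖ρ‖ := by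
    intro n hn
    rcases Nat.lt_or_ge n N0 with h2 | h2
    · by_cases h3 : h n = 0
      · rw [h3, norm_zero, zero_mul]; exact hρ'.le
      · have h4 : n ∈ S := by
          rw [hS, Finset.mem_filter, Finset.mem_range]
          exact ⟨by omega, hn, h3⟩
        rw [← hbn n hn h3]
        exact mul_le_mul_of_nonneg_left (pow_le_pow_left₀ (norm_nonneg _) (hmin n h4) n)
          (norm_nonneg _)
    · calc ‖h n‖ * ‖β‖ ^ n ≤ M * ‖b n1‖ ^ n := mul_le_mul (hM n)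
            (pow_le_pow_left₀ (norm_nonneg _) hβ1 n) (pow_nonneg (norm_nonneg _) _) hM0
        _ ≤ ‖ρ‖ := (hN0 n h2).le
  have hex : ∃ m, 1 ≤ m ∧ ‖h m‖ * ‖β‖ ^ m = ‖ρ‖ := ⟨n2, hn2.2.1, hbn n2 hn2.2.1 hn2.2.2⟩
  have hβ0 : β ≠ 0 := by
    intro h0
    have := hbn n2 hn2.2.1 hn2.2.2
    rw [← hβ, h0, norm_zero, zero_pow (by omega), mul_zero] at this
    exact hρ'.ne this
  refine ⟨β, Nat.find hex, hβ0, hβ1.trans_lt hb1, (Nat.find_spec hex).1, hall,
    (Nat.find_spec hex).2, fun n hn hlt => lt_of_le_of_ne (hall n hn) fun h2 => ?_⟩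
  exact Nat.find_min hex hlt ⟨hn, h2⟩

section Res

variable {j : C →+* E} {t : E}

theorem Dc.norm_sub_lt (hj : ∀ c, ‖j c‖ = ‖c‖) {U V : Dc j t} (h : ‖V.σ‖ ≤ ‖U.σ‖) :
    ‖(V.τ - U.τ) / U.σ‖ < 1 := by
  rw [norm_div, div_lt_one U.σ_pos, ← hj, map_sub]
  have e : j V.τ - j U.τ = (t - j U.τ) + -(t - j V.τ) := by ring
  rw [e]
  refine (IsUltrametricDist.norm_add_le_max _ _).trans_lt (max_lt U.lt ?_)
  rw [norm_neg]
  exact V.lt.trans_le h

theorem Dc.norm_div_le {U V : Dc j t} (h : ‖V.σ‖ ≤ ‖U.σ‖) : ‖V.σ / U.σ‖ ≤ 1 := by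
  rw [norm_div]; exact (div_le_one U.σ_pos).2 h

/-- restriction to a smaller disc -/
theorem Dc.ev_res (hj : ∀ c, ‖j c‖ = ‖c‖) {U V : Dc j t} (h : ‖V.σ‖ ≤ ‖U.σ‖) (f : BD k C) :
    V.ev hj (comp (aff ((V.τ - U.τ) / U.σ) (V.σ / U.σ))
      (co_aff (Dc.norm_sub_lt hj h) (Dc.norm_div_le h)) f) = U.ev hj f := by
  have hσ : j U.σ ≠ 0 := by rw [← norm_pos_iff, hj]; exact U.σ_pos
  have hσ' : j V.σ ≠ 0 := by rw [← norm_pos_iff, hj]; exact V.σ_pos
  rw [Dc.ev, ev_compE]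
  have e : Spread_607.ev (k := k) j hj (V.norm_lt hj) ⟨aff ((V.τ - U.τ) / U.σ) (V.σ / U.σ),
      (co_aff (k := k) (Dc.norm_sub_lt hj h) (Dc.norm_div_le h)).mem⟩ = (t - j U.τ) / j U.σ := by
    have e1 : (⟨aff ((V.τ - U.τ) / U.σ) (V.σ / U.σ),
        (co_aff (k := k) (Dc.norm_sub_lt hj h) (Dc.norm_div_le h)).mem⟩ : BD k C) =
        algebraMap C (BD k C) ((V.τ - U.τ) / U.σ) + algebraMap C (BD k C) (V.σ / U.σ) * XB := rfl
    have h1 := V.ev_algebraMap (k := k) hj ((V.τ - U.τ) / U.σ)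
    have h2 := V.ev_algebraMap (k := k) hj (V.σ / U.σ)
    have h3 := V.ev_XB (k := k) hj
    rw [Dc.ev] at h1 h2 h3
    rw [e1, map_add, map_mul, h1, h2, h3, map_div₀, map_div₀, map_sub]
    field_simp
    ring
  unfold Dc.ev
  congr 1
  congr 1

/-- elements of the cell of `U` are in the cell of the smaller `V`, with the same bound -/
theorem Dc.res (hj : ∀ c, ‖j c‖ = ‖c‖) {U V : Dc j t} (h : ‖V.σ‖ ≤ ‖U.σ‖) {s : E} {M : ℝ}
    (hs : ∃ a : BD k C, U.ev hj a = s ∧ BdS M a) : ∃ a : BD k C, V.ev hj a = s ∧ BdS M a := by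
  obtain ⟨a, ha, hb⟩ := hs
  exact ⟨_, (Dc.ev_res hj h a).trans ha, fun n =>
    compS_le (co_aff (Dc.norm_sub_lt hj h) (Dc.norm_div_le h)) a.2 hb n⟩

/-- **SP2** -/
theorem sp2 (hk : DiscNorm k) (hj : ∀ c, ‖j c‖ = ‖c‖) (ht : Ty4 j t) (U : Dc j t) (f : BD k C)
    {x : E} (hfx : U.ev hj f = x) (hx : ∀ c, x ≠ j c)
    (halg : ∀ (a : C) (η : ℝ), 1 < η → ∀ᶠ V in l4 j t,
      ∃ g : BD k C, V.ev hj g = x - j a ∧ BdS (η * ‖x - j a‖) g) :
    ∃ B : ℝ, (∃ c, ‖x - j c‖ < B) ∧ ∀ a ρ : C, ‖x - j a‖ < ‖ρ‖ → ‖ρ‖ < B →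
      ∃ (V : Dc j t) (g : PowerSeries C) (m : ℕ) (hg : WD k g m), m ≠ 0 ∧ ‖V.σ‖ ≤ ‖U.σ‖ ∧
        V.ev hj ⟨g, hg.mem⟩ = (x - j a) / j ρ := by
  -- the Gauss norm of `f - f(0)`
  set f0 := PowerSeries.coeff 0 (f : PowerSeries C) with hf0
  set F : BD k C := f - algebraMap C (BD k C) f0 with hF
  have hFc0 : PowerSeries.coeff 0 (F : PowerSeries C) = 0 := by
    change PowerSeries.coeff 0 ((f : PowerSeries C) - PowerSeries.C f0) = 0
    rw [map_sub, PowerSeries.coeff_C, if_pos rfl, ← hf0, sub_self]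
  have hFc : ∀ n, 1 ≤ n → PowerSeries.coeff n (F : PowerSeries C) =
      PowerSeries.coeff n (f : PowerSeries C) := by
    intro n hn
    change PowerSeries.coeff n ((f : PowerSeries C) - PowerSeries.C f0) = _
    rw [map_sub, PowerSeries.coeff_C, if_neg (by omega), sub_zero]
  have hFne : (F : PowerSeries C) ≠ 0 := by
    intro h
    have h1 : F = 0 := Subtype.ext h
    have h2 : f = algebraMap C (BD k C) f0 := sub_eq_zero.1 h1
    refine hx f0 ?_
    rw [← hfx, h2, U.ev_algebraMap]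
  obtain ⟨B, s, hB, hW⟩ := exists_hasW hk F.2 hFne
  have hs : 1 ≤ s := by
    by_contra h
    have h0 : s = 0 := by omega
    have := hW.eq
    rw [h0, hFc0, norm_zero] at this
    exact hB.ne this
  refine ⟨B, ⟨f0, ?_⟩, fun a ρ h1 h2 => ?_⟩
  · have e : x - j f0 = U.ev hj F := by rw [hF, map_sub, hfx, U.ev_algebraMap]
    rw [e]
    have h3 : ‖U.ev hj F‖ ≤ B * ‖(t - j U.τ) / j U.σ‖ := by
      refine norm_ev_le j hj (U.norm_lt hj) F (mul_nonneg hB.le (norm_nonneg _)) fun n => ?_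
      rcases Nat.eq_zero_or_pos n with rfl | hn
      · rw [hFc0, norm_zero, zero_mul]; exact mul_nonneg hB.le (norm_nonneg _)
      · refine mul_le_mul (hW.le n) ?_ (pow_nonneg (norm_nonneg _) _) hB.le
        calc _ ≤ ‖(t - j U.τ) / j U.σ‖ ^ 1 :=
              pow_le_pow_of_le_one (norm_nonneg _) (U.norm_lt hj).le hn
          _ = _ := pow_one _
    refine h3.trans_lt ?_
    have := U.norm_lt hj
    nlinarith
  -- the main part
  have hρ : 0 < ‖ρ‖ := (norm_nonneg _).trans_lt h1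
  have hρ0 : ρ ≠ 0 := norm_pos_iff.1 hρ
  have hs0 : 0 < ‖x - j a‖ := norm_pos_iff.2 (sub_ne_zero.2 (hx a))
  obtain ⟨η, hη1, hη2⟩ : ∃ η : ℝ, 1 < η ∧ η * ‖x - j a‖ < ‖ρ‖ := by
    have h3 : 1 < ‖ρ‖ / ‖x - j a‖ := (one_lt_div hs0).2 h1
    obtain ⟨η, h4, h5⟩ := exists_between h3
    exact ⟨η, h4, (lt_div_iff₀ hs0).1 h5⟩
  have hsmall : ∀ᶠ V in l4 j t, ‖V.σ‖ < ‖U.σ‖ :=
    eventually_l4.2 ⟨U.τ, fun V hV => hV.trans_lt U.lt⟩
  haveI := l4_neBot hj ht
  obtain ⟨V1, ⟨a1, ha1, hb1⟩, hV1⟩ := ((halg a η hη1).and hsmall).exists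
  set α := (V1.τ - U.τ) / U.σ with hα
  set β1 := V1.σ / U.σ with hβ1
  have hα1 : ‖α‖ < 1 := Dc.norm_sub_lt hj hV1.le
  have hβ1' : ‖β1‖ ≤ 1 := Dc.norm_div_le hV1.le
  have hres := Dc.ev_res (k := k) hj hV1.le f
  have hinj := V1.ev_injective hk hj ht
  have e1 : comp (aff α β1) (co_aff hα1 hβ1') f - algebraMap C (BD k C) a = a1 := by
    apply hinj
    rw [ha1, map_sub, V1.ev_algebraMap]
    congr 1
    exact hres.trans hfx
  set h : ℕ → C := fun n => PowerSeries.coeff n (compS (aff α 1) (f : PowerSeries C)) with hh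
  have hmem : compS (aff α 1) (f : PowerSeries C) ∈ BD k C :=
    compS_mem (co_aff hα1 norm_one.le) f.2
  obtain ⟨-, M, hM⟩ := mem_BD.1 hmem
  have hco : ∀ n, PowerSeries.coeff n (compS (aff α β1) (f : PowerSeries C)) = β1 ^ n * h n :=
    fun n => coeff_compS_aff hk hα1 hβ1' f.2 n
  have hc0 : ‖h 0 - a‖ < ‖ρ‖ := by
    have h3 := hb1 0
    rw [← e1] at h3
    change ‖PowerSeries.coeff 0 (compS (aff α β1) (f : PowerSeries C) - PowerSeries.C a)‖ ≤ _ at h3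
    rw [map_sub, hco, pow_zero, one_mul, PowerSeries.coeff_C, if_pos rfl] at h3
    exact h3.trans_lt hη2
  have hcn : ∀ n, 1 ≤ n → ‖h n‖ * ‖β1‖ ^ n < ‖ρ‖ := by
    intro n hn
    have h3 := hb1 n
    rw [← e1] at h3
    change ‖PowerSeries.coeff n (compS (aff α β1) (f : PowerSeries C) - PowerSeries.C a)‖ ≤ _ at h3
    rw [map_sub, hco, PowerSeries.coeff_C, if_neg (by omega), sub_zero, norm_mul, norm_pow,
      mul_comm] at h3
    exact h3.trans_lt hη2
  obtain ⟨n1, hn1, hn1'⟩ : ∃ n1, 1 ≤ n1 ∧ ‖ρ‖ < ‖h n1‖ := by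
    by_contra hcon
    push Not at hcon
    -- then all coefficients of `f` are small
    have h3 : ∀ n, ‖PowerSeries.coeff n (compS (aff α 1) (f : PowerSeries C) -
        PowerSeries.C (h 0))‖ ≤ ‖ρ‖ := by
      intro n
      rcases Nat.eq_zero_or_pos n with rfl | hn
      · rw [map_sub, PowerSeries.coeff_C, if_pos rfl, sub_self, norm_zero]; exact hρ.le
      · rw [map_sub, PowerSeries.coeff_C, if_neg (by omega), sub_zero]
        exact hcon n hn
    have hα' : ‖-α‖ < 1 := by rwa [norm_neg]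
    have hco' : Co k (aff (-α) 1) := co_aff hα' norm_one.le
    have h4 := compS_le hco' (sub_mem hmem (C_mem_BD (h 0))) h3
    rw [compS_sub hco' hmem (C_mem_BD _), compS_aff_neg hk hα1 f.2, compS_C] at h4
    have h5 := h4 s
    rw [map_sub, PowerSeries.coeff_C, if_neg (by omega), sub_zero, ← hFc s hs, hW.eq] at h5
    exact absurd h5 (not_le.2 h2)
  obtain ⟨β, m, hβ0, hβ1lt, hm, hle, heq, hlt⟩ := pick_beta (h := h) hM hρ0 hn1 hn1'
  have hββ : ‖β1‖ < ‖β‖ := by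
    have h3 := hcn m hm
    rw [← heq] at h3
    have h4 : 0 < ‖h m‖ := by
      by_contra hc
      have : ‖h m‖ = 0 := le_antisymm (not_lt.1 hc) (norm_nonneg _)
      rw [this, zero_mul] at heq
      exact hρ.ne heq
    exact lt_of_pow_lt_pow_left₀ m (norm_nonneg _) (lt_of_mul_lt_mul_left h3 h4.le)
  have hVlt : ‖t - j V1.τ‖ < ‖U.σ * β‖ := by
    refine V1.lt.trans ?_
    rw [hβ1, norm_div, div_lt_iff₀ U.σ_pos] at hββ
    rw [norm_mul, mul_comm]; exact hββ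
  let V : Dc j t := ⟨V1.τ, U.σ * β, hVlt⟩
  have hVU : ‖V.σ‖ ≤ ‖U.σ‖ := by
    change ‖U.σ * β‖ ≤ ‖U.σ‖
    rw [norm_mul]
    exact mul_le_of_le_one_right (norm_nonneg _) hβ1lt.le
  let g : BD k C := algebraMap C (BD k C) ρ⁻¹ *
    (comp (aff α β) (co_aff hα1 hβ1lt.le) f - algebraMap C (BD k C) a)
  have hgc : ∀ n, PowerSeries.coeff n (g : PowerSeries C) =
      ρ⁻¹ * (β ^ n * h n - if n = 0 then a else 0) := by
    intro n
    change PowerSeries.coeff n (PowerSeries.C ρ⁻¹ * (compS (aff α β) (f : PowerSeries C) -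
      PowerSeries.C a)) = _
    rw [PowerSeries.coeff_C_mul, map_sub, coeff_compS_aff hk hα1 hβ1lt.le f.2, PowerSeries.coeff_C]
  have hg0 : ‖PowerSeries.coeff 0 (g : PowerSeries C)‖ < 1 := by
    rw [hgc, pow_zero, one_mul, if_pos rfl, norm_mul, norm_inv, inv_mul_lt_iff₀ hρ, mul_one]
    exact hc0
  have hgn : ∀ n, 1 ≤ n → ‖PowerSeries.coeff n (g : PowerSeries C)‖ = ‖ρ‖⁻¹ * (‖h n‖ * ‖β‖ ^ n) := by
    intro n hn
    rw [hgc, if_neg (by omega), sub_zero, norm_mul, norm_inv, norm_mul, norm_pow, mul_comm (‖β‖ ^ n)]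
  have hWD : WD k (g : PowerSeries C) m := by
    refine ⟨(mem_BD.1 g.2).1, fun n => ?_, ?_, fun n hn => ?_⟩
    · rcases Nat.eq_zero_or_pos n with rfl | hn
      · exact hg0.le
      · rw [hgn n hn, inv_mul_le_iff₀ hρ, mul_one]; exact hle n hn
    · rw [hgn m hm, heq, inv_mul_cancel₀ hρ.ne']
    · rcases Nat.eq_zero_or_pos n with rfl | hn'
      · exact hg0
      · rw [hgn n hn', inv_mul_lt_iff₀ hρ, mul_one]; exact hlt n hn' hn
  refine ⟨V, (g : PowerSeries C), m, hWD, by omega, hVU, ?_⟩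
  change V.ev hj g = _
  have e2 : V.ev hj (comp (aff α β) (co_aff hα1 hβ1lt.le) f) = x := by
    have h3 := Dc.ev_res (k := k) hj hVU f
    rw [hfx] at h3
    have e3 : V.σ / U.σ = β := by
      change U.σ * β / U.σ = β
      field_simp [U.σ_ne]
    have e4 : comp (aff ((V.τ - U.τ) / U.σ) (V.σ / U.σ))
        (co_aff (Dc.norm_sub_lt hj hVU) (Dc.norm_div_le hVU)) f =
        comp (aff α β) (co_aff hα1 hβ1lt.le) f := by
      apply Subtype.ext
      change compS (aff ((V.τ - U.τ) / U.σ) (V.σ / U.σ)) (f : PowerSeries C) =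
        compS (aff α β) (f : PowerSeries C)
      rw [e3]
    rw [e4] at h3
    exact h3
  change V.ev hj (algebraMap C (BD k C) ρ⁻¹ *
    (comp (aff α β) (co_aff hα1 hβ1lt.le) f - algebraMap C (BD k C) a)) = _
  rw [map_mul, map_sub, e2, V.ev_algebraMap, V.ev_algebraMap, map_inv₀]
  ring

end Res

end Crest.Agent.R013.Spread_607
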