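import Crest.Agent.R013.Spr5_607
import Crest.Agent.R013.Spr6_607
import Crest.Agent.R013.Spr7_607

/-! # R013 / Spr8_607 : local embeddings `K → FD` at a norm `w` of `K` with a coordinate of type 4. -/

set_option autoImplicit false
set_option linter.unusedSectionVars false
set_option linter.style.haveILetI false

noncomputable section

namespace Crest.Agent.R013.Spread_607

open Topology Crest.Agent.R013.Cell_408 Crest.Agent.R013.Comp_267 Crest.Agent.R013.Sub_270
open Crest.Agent.R013.A2a_275
open scoped NNReal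

universe u

section Fin

variable {k C E : Type*} [NontriviallyNormedField k] [CompleteSpace k] [IsUltrametricDist k]
  [NormedField C] [IsUltrametricDist C] [NormedAlgebra k C] [Algebra.IsAlgebraic k C] [IsAlgClosed C]
  [NormedField E] [IsUltrametricDist E] [CompleteSpace E]
  {j : C →+* E} {t : E}

/-- evaluation at `t` of meromorphic functions on the disc -/
def Dc.evF (hk : DiscNorm k) (hj : ∀ c, ‖j c‖ = ‖c‖) (ht : Ty4 j t) (U : Dc j t) : FD k C →+* E :=
  IsFractionRing.lift (U.ev_injective hk hj ht)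

theorem Dc.evF_algebraMap (hk : DiscNorm k) (hj : ∀ c, ‖j c‖ = ‖c‖) (ht : Ty4 j t) (U : Dc j t)
    (f : BD k C) : U.evF hk hj ht (algebraMap (BD k C) (FD k C) f) = U.ev hj f :=
  IsFractionRing.lift_algebraMap _ _

theorem Dc.evF_C (hk : DiscNorm k) (hj : ∀ c, ‖j c‖ = ‖c‖) (ht : Ty4 j t) (U : Dc j t)
    (c : C) : U.evF hk hj ht (algebraMap C (FD k C) c) = j c := by
  rw [IsScalarTower.algebraMap_apply C (BD k C) (FD k C), U.evF_algebraMap, U.ev_algebraMap]

theorem Dc.evF_TF (hk : DiscNorm k) (hj : ∀ c, ‖j c‖ = ‖c‖) (ht : Ty4 j t) (U : Dc j t) :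
    U.evF hk hj ht (TF k C) = (t - j U.τ) / j U.σ := by
  rw [TF, U.evF_algebraMap, U.ev_XB]

end Fin

section Emb

variable {k C E : Type*} [NontriviallyNormedField k] [CompleteSpace k] [IsUltrametricDist k]
  [NormedField C] [IsUltrametricDist C] [NormedAlgebra k C] [Algebra.IsAlgebraic k C] [IsAlgClosed C]
  [NormedField E] [IsUltrametricDist E] [CompleteSpace E]
  {K : Type*} [Field K] [Algebra C K] [Algebra (RatFunc C) K] [IsScalarTower C (RatFunc C) K]
  [FiniteDimensional (RatFunc C) K]

/-- a subfield of `K` containing `C`, `X` and a basis is everything -/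
theorem subfield_top (R : Subfield K) (hC : ∀ c : C, algebraMap C K c ∈ R)
    (hX : algebraMap (RatFunc C) K RatFunc.X ∈ R) {n : ℕ} (b : Module.Basis (Fin n) (RatFunc C) K)
    (hb : ∀ i, b i ∈ R) (z : K) : z ∈ R := by
  have hP : ∀ P : Polynomial C, algebraMap (RatFunc C) K (algebraMap (Polynomial C) (RatFunc C) P) ∈ R := by
    intro P
    induction P using Polynomial.induction_on' with
    | add p q hp hq => rw [map_add, map_add]; exact R.add_mem hp hq
    | monomial m a =>
      rw [← Polynomial.C_mul_X_pow_eq_monomial, map_mul, map_pow, map_mul, map_pow,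
        RatFunc.algebraMap_X, RatFunc.algebraMap_C, ← RatFunc.algebraMap_eq_C,
        ← IsScalarTower.algebraMap_apply]
      exact R.mul_mem (hC a) (R.pow_mem hX m)
  have hr : ∀ r : RatFunc C, algebraMap (RatFunc C) K r ∈ R := by
    intro r
    rw [← RatFunc.num_div_denom r, map_div₀]
    exact R.div_mem (hP _) (hP _)
  rw [← b.sum_repr z]
  refine R.sum_mem fun i _ => ?_
  rw [Algebra.smul_def]
  exact R.mul_mem (hr _) (hb i)

theorem exists_iota (hk : DiscNorm k) (φ : K →+* E) {j : C →+* E} (hjφ : j = φ.comp (algebraMap C K))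
    (hj : ∀ c, ‖j c‖ = ‖c‖) {t : E} (ht : Ty4 j t) (U : Dc j t)
    (hX : ∃ f : BD k C, U.ev hj f = φ (algebraMap (RatFunc C) K RatFunc.X))
    {n : ℕ} (b : Module.Basis (Fin n) (RatFunc C) K) (hb : ∀ i, ∃ f : BD k C, U.ev hj f = φ (b i)) :
    ∃ ι : K →ₐ[C] FD k C, ∀ z, U.evF hk hj ht (ι z) = φ z := by
  let ψ := U.evF hk hj ht
  have hinj : Function.Injective ψ := ψ.injective
  have hmem : ∀ z, φ z ∈ ψ.fieldRange := by
    intro z
    have h1 := subfield_top (ψ.fieldRange.comap φ) (C := C) (K := K) ?_ ?_ b ?_ z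
    · exact h1
    · intro c
      refine ⟨algebraMap C (FD k C) c, ?_⟩
      change U.evF hk hj ht _ = _
      rw [U.evF_C, hjφ]; rfl
    · obtain ⟨f, hf⟩ := hX
      refine ⟨algebraMap (BD k C) (FD k C) f, ?_⟩
      change U.evF hk hj ht _ = _
      rw [U.evF_algebraMap, hf]
    · intro i
      obtain ⟨f, hf⟩ := hb i
      refine ⟨algebraMap (BD k C) (FD k C) f, ?_⟩
      change U.evF hk hj ht _ = _
      rw [U.evF_algebraMap, hf]
  choose g hg using hmem
  have hg' : ∀ z, U.evF hk hj ht (g z) = φ z := hg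
  refine ⟨{ toFun := g
            map_one' := hinj (by change U.evF hk hj ht _ = U.evF hk hj ht _; rw [hg', map_one, map_one])
            map_mul' := fun x y => hinj (by
              change U.evF hk hj ht _ = U.evF hk hj ht _; rw [map_mul, hg', hg', hg', map_mul])
            map_zero' := hinj (by change U.evF hk hj ht _ = U.evF hk hj ht _; rw [hg', map_zero, map_zero])
            map_add' := fun x y => hinj (by
              change U.evF hk hj ht _ = U.evF hk hj ht _; rw [map_add, hg', hg', hg', map_add])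
            commutes' := fun c => hinj (by
              change U.evF hk hj ht _ = U.evF hk hj ht _; rw [hg', U.evF_C, hjφ]; rfl) }, hg'⟩

end Emb

section Loc

variable {k : Type*} {C : Type*} [NontriviallyNormedField k] [CompleteSpace k] [IsUltrametricDist k]
  [NormedField C] [IsUltrametricDist C] [NormedAlgebra k C] [Algebra.IsAlgebraic k C] [IsAlgClosed C]
  {K : Type*} [Field K] [Algebra C K]

/-- the map `C → Cpl w` -/
def jw (C : Type*) [Field C] {K : Type*} [Field K] [Algebra C K] (w : Valuation K ℝ≥0) :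
    C →+* Cpl w := (toCpl w).comp (algebraMap C K)

theorem norm_jw {w : Valuation K ℝ≥0} (hw : ∀ c : C, w (algebraMap C K c) = ‖c‖₊) (c : C) :
    ‖jw C w c‖ = ‖c‖ := by
  change ‖toCpl w (algebraMap C K c)‖ = ‖c‖
  rw [norm_toCpl, hw]; rfl

theorem norm_sub_jw (w : Valuation K ℝ≥0) (t : K) (c : C) :
    ‖toCpl w t - jw C w c‖ = w (t - algebraMap C K c) := by
  change ‖toCpl w t - toCpl w (algebraMap C K c)‖ = _
  rw [← map_sub, norm_toCpl]

theorem ty4_of {w : Valuation K ℝ≥0} {t : K}
    (ht : ∀ c : C, ∃ c', w (t - algebraMap C K c') < w (t - algebraMap C K c)) :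
    Ty4 (jw C w) (toCpl w t) := by
  intro c
  obtain ⟨c', hc'⟩ := ht c
  refine ⟨c', ?_⟩
  rw [norm_sub_jw, norm_sub_jw]
  exact_mod_cast hc'

/-- every element of `K` on small discs -/
theorem cell_of_mem [CharZero K] {w : Valuation K ℝ≥0} (hw : ∀ c : C, w (algebraMap C K c) = ‖c‖₊)
    {t : K} (ht : ∀ c : C, ∃ c', w (t - algebraMap C K c') < w (t - algebraMap C K c))
    (hfd : FiniteDimensional (IntermediateField.adjoin C {t}) K)
    (hd : ∀ z : K, ∀ e : ℝ≥0, 0 < e → ∃ s ∈ IntermediateField.adjoin C {t}, w (z - s) < e)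
    (z : K) {η : ℝ} (hη : 1 < η) :
    ∀ᶠ U in l4 (jw C w) (toCpl w t), ∃ a : BD k C, U.ev (norm_jw hw) a = toCpl w z ∧
      BdS (η * ‖toCpl w z‖) a := by
  haveI : CharZero (Cpl w) := charZero_of_injective_ringHom (toCpl w).injective
  have hmem : ∀ s ∈ IntermediateField.adjoin C {t}, toCpl w s ∈ FT (jw C w) (toCpl w t) := by
    intro s hs
    have h1 : IntermediateField.adjoin C {t} ≤
        { (FT (jw C w) (toCpl w t)).comap (toCpl w) with
          algebraMap_mem' := fun c => by
            change toCpl w (algebraMap C K c) ∈ FT (jw C w) (toCpl w t)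
            exact Subfield.subset_closure (Or.inl ⟨c, rfl⟩) } := by
      rw [IntermediateField.adjoin_le_iff]
      intro x hx
      rw [Set.mem_singleton_iff] at hx
      rw [hx]
      change toCpl w t ∈ FT (jw C w) (toCpl w t)
      exact Subfield.subset_closure (Or.inr rfl)
    exact h1 hs
  refine alg_cell (norm_jw hw) (ty4_of ht) ?_ ?_ hη
  · -- algebraic
    let g : IntermediateField.adjoin C {t} →+* FT (jw C w) (toCpl w t) :=
      ((toCpl w).comp (algebraMap (IntermediateField.adjoin C {t}) K)).codRestrict _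
        (fun s => hmem s s.2)
    have hz : IsIntegral (IntermediateField.adjoin C {t}) z := Algebra.IsIntegral.isIntegral z
    have h2 : IsIntegral (FT (jw C w) (toCpl w t)) (toCpl w z) := by
      obtain ⟨P, hP, hP0⟩ := hz
      refine ⟨P.map g, hP.map g, ?_⟩
      rw [Polynomial.eval₂_map]
      have h3 : (algebraMap (FT (jw C w) (toCpl w t)) (Cpl w)).comp g =
          (toCpl w).comp (algebraMap (IntermediateField.adjoin C {t}) K) := rfl
      rw [h3, ← Polynomial.hom_eval₂, hP0, map_zero]
    exact h2.isAlgebraic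
  · rw [Metric.mem_closure_iff]
    intro ε hε
    obtain ⟨s, hs, hs'⟩ := hd z ⟨ε, hε.le⟩ hε
    refine ⟨toCpl w s, hmem s hs, ?_⟩
    rw [dist_eq_norm, ← map_sub, norm_toCpl]
    exact hs'

end Loc

end Crest.Agent.R013.Spread_607
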