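import Crest.Agent.R013.Spr8_607
import Crest.Agent.R013.Good1_408

/-! # R013 / Spr9_607 : integrality of `FD` over the ball of `FD` through `compF`; injectivity. -/

set_option autoImplicit false
set_option linter.unusedSectionVars false
set_option linter.style.haveILetI false

noncomputable section

namespace Crest.Agent.R013.Spread_607

open Topology Crest.Agent.R013.Cell_408 Crest.Agent.R013.Comp_267 Crest.Agent.R013.Sub_270
open Crest.Agent.R013.A2a_275 Crest.Agent.R013.Good_408
open scoped NNReal

/-- finite generation gives integrality -/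
theorem integralElem_of_gen {A B : Type*} [CommRing A] [CommRing B] (f : A →+* B) (m : ℕ)
    (x : ℕ → B) (h : ∀ b, ∃ a : ℕ → A, b = ∑ i ∈ Finset.range m, f (a i) * x i) (b : B) :
    f.IsIntegralElem b := by
  classical
  letI := f.toAlgebra
  have hfin : Module.Finite A B := ⟨⟨(Finset.range m).image x, by
    rw [eq_top_iff]
    intro b _
    obtain ⟨a, ha⟩ := h b
    rw [ha]
    refine Submodule.sum_mem _ fun i hi => ?_
    exact Submodule.smul_mem _ (a i) (Submodule.subset_span
      (Finset.mem_coe.2 (Finset.mem_image_of_mem x hi)))⟩⟩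
  exact (Algebra.IsIntegral.isIntegral b : IsIntegral A b)

variable {k C : Type*} [NontriviallyNormedField k] [CompleteSpace k] [IsUltrametricDist k]
  [NormedField C] [IsUltrametricDist C] [NormedAlgebra k C] [Algebra.IsAlgebraic k C] [IsAlgClosed C]

/-- the unit ball of `BD` -/
def OB (k C : Type*) [NontriviallyNormedField k] [CompleteSpace k] [IsUltrametricDist k]
    [NormedField C] [IsUltrametricDist C] [NormedAlgebra k C] [Algebra.IsAlgebraic k C]
    [IsAlgClosed C] : Subring (BD k C) where
  carrier := {f | BdS 1 f}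
  mul_mem' {f g} hf hg := by
    have := bdS_mul zero_le_one zero_le_one hf hg
    rwa [mul_one] at this
  one_mem' n := by
    change ‖PowerSeries.coeff n (1 : PowerSeries C)‖ ≤ 1
    rw [PowerSeries.coeff_one]; split_ifs <;> simp
  add_mem' {f g} hf hg := bdS_add hf hg
  zero_mem' n := by
    change ‖PowerSeries.coeff n (0 : PowerSeries C)‖ ≤ 1
    rw [map_zero, norm_zero]; exact zero_le_one
  neg_mem' {f} hf := bdS_neg hf

theorem mem_OB {f : BD k C} : f ∈ OB k C ↔ BdS 1 f := Iff.rfl

/-- the inclusion of the ball in `FD` -/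
def oB (k C : Type*) [NontriviallyNormedField k] [CompleteSpace k] [IsUltrametricDist k]
    [NormedField C] [IsUltrametricDist C] [NormedAlgebra k C] [Algebra.IsAlgebraic k C]
    [IsAlgClosed C] : OB k C →+* FD k C := (algebraMap (BD k C) (FD k C)).comp (OB k C).subtype

theorem bdS_comp {f : PowerSeries C} (hf : Co k f) {M : ℝ} {a : BD k C} (ha : BdS M a) :
    BdS M (comp f hf a) := fun n => compS_le hf a.2 ha n

/-- elements of the ball are integral over the ball, through a normalised map -/
theorem integral_of_bdS (hk : DiscNorm k) {f : PowerSeries C} {m : ℕ} (hf : WD k f m) (hm : m ≠ 0)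
    {a : BD k C} (ha : BdS 1 a) :
    ((compF hk hf hm).toRingHom.comp (oB k C)).IsIntegralElem (algebraMap (BD k C) (FD k C) a) := by
  let cO : OB k C →+* OB k C :=
    ((comp f (WD.co hf hm)).toRingHom.comp (OB k C).subtype).codRestrict (OB k C)
      (fun x => bdS_comp (WD.co hf hm) x.2)
  have hXB : (XB : BD k C) ∈ OB k C := by
    intro n
    change ‖PowerSeries.coeff n (PowerSeries.X : PowerSeries C)‖ ≤ 1
    rw [PowerSeries.coeff_X]; split_ifs <;> simp
  have h1 : cO.IsIntegralElem (⟨a, ha⟩ : OB k C) := by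
    refine integralElem_of_gen cO m (fun i => (⟨XB, hXB⟩ : OB k C) ^ i) (fun b => ?_) _
    obtain ⟨A, hA, hA1, hA2⟩ := exists_repr_le hf hm (mem_BD.1 (b : BD k C).2).1 b.2
    refine ⟨fun i => ⟨⟨A i, hA i⟩, hA1 i⟩, ?_⟩
    apply Subtype.ext
    apply Subtype.ext
    rw [hA2]
    push_cast
    refine Finset.sum_congr rfl fun i _ => ?_
    rw [mul_comm]
    rfl
  obtain ⟨P, hP, hP0⟩ := h1
  refine ⟨P, hP, ?_⟩
  have h2 : (compF hk hf hm).toRingHom.comp (oB k C) = (oB k C).comp cO := by
    ext x
    change compF hk hf hm (algebraMap (BD k C) (FD k C) (x : BD k C)) = _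
    rw [compF_algebraMap]
    rfl
  have h3 : algebraMap (BD k C) (FD k C) a = oB k C ⟨a, ha⟩ := rfl
  rw [h2, h3, ← Polynomial.hom_eval₂, hP0, map_zero]

omit [NormedField C] [IsUltrametricDist C] [NormedAlgebra k C] [Algebra.IsAlgebraic k C] [IsAlgClosed C] in
theorem norm_root_le [NormedField C] [IsUltrametricDist C] {P : Polynomial C} (hP : P.Monic)
    (h : ∀ i, ‖P.coeff i‖ ≤ 1) {x : C} (hx : P.eval x = 0) : ‖x‖ ≤ 1 := by
  by_contra hc
  push Not at hc
  rcases Nat.eq_zero_or_pos P.natDegree with h0 | h0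
  · rw [(Polynomial.Monic.natDegree_eq_zero hP).1 h0, Polynomial.eval_one] at hx
    exact one_ne_zero hx
  · rw [Polynomial.eval_eq_sum_range, Finset.sum_range_succ, hP.coeff_natDegree, one_mul] at hx
    have h1 : x ^ P.natDegree = -∑ i ∈ Finset.range P.natDegree, P.coeff i * x ^ i := by
      linear_combination hx
    have h2 : ‖x ^ P.natDegree‖ ≤ ‖x‖ ^ (P.natDegree - 1) := by
      rw [h1, norm_neg]
      refine IsUltrametricDist.norm_sum_le_of_forall_le_of_nonneg (pow_nonneg (norm_nonneg _) _)
        fun i hi => ?_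
      rw [norm_mul, norm_pow]
      calc _ ≤ 1 * ‖x‖ ^ i := mul_le_mul_of_nonneg_right (h i) (pow_nonneg (norm_nonneg _) _)
        _ ≤ ‖x‖ ^ (P.natDegree - 1) := by
          rw [one_mul]
          exact pow_le_pow_right₀ hc.le (by have := Finset.mem_range.1 hi; omega)
    rw [norm_pow] at h2
    have h3 : ‖x‖ ^ (P.natDegree - 1) < ‖x‖ ^ P.natDegree :=
      pow_lt_pow_right₀ hc (by omega)
    linarith

theorem not_integral {x : C} (hx : 1 < ‖x‖) : ¬ (oB k C).IsIntegralElem (algebraMap C (FD k C) x) := by
  rintro ⟨P, hP, hP0⟩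
  have h1 : algebraMap C (FD k C) x = algebraMap (BD k C) (FD k C) (algebraMap C (BD k C) x) :=
    IsScalarTower.algebraMap_apply C (BD k C) (FD k C) x
  rw [h1, oB, ← Polynomial.hom_eval₂] at hP0
  have h2 : P.eval₂ (OB k C).subtype (algebraMap C (BD k C) x) = 0 :=
    IsFractionRing.injective (BD k C) (FD k C) (hP0.trans (map_zero _).symm)
  let c0 : BD k C →+* C := (PowerSeries.constantCoeff (R := C)).comp (BD k C).val.toRingHom
  have h3 := congrArg c0 h2
  rw [Polynomial.hom_eval₂, map_zero] at h3
  have h4 : c0 (algebraMap C (BD k C) x) = x := by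
    change PowerSeries.constantCoeff (PowerSeries.C x) = x
    simp
  rw [h4] at h3
  have h5 := norm_root_le (hP.map (c0.comp (OB k C).subtype)) (fun i => ?_)
    (by rw [Polynomial.eval_map]; exact h3)
  · exact absurd h5 (not_le.2 hx)
  · rw [Polynomial.coeff_map]
    have := (P.coeff i).2 0
    rw [PowerSeries.coeff_zero_eq_constantCoeff_apply] at this
    exact this

/-- `T` is transcendental -/
theorem transcendental_discY (a : C) {ρ : C} (hρ : ρ ≠ 0) : Transcendental C (discY k C a ρ) := by
  intro h
  have h1 : (minpoly C (discY k C a ρ)).degree = 1 :=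
    IsAlgClosed.degree_eq_one_of_irreducible C (minpoly.irreducible h.isIntegral)
  obtain ⟨c, hc⟩ := minpoly.mem_range_of_degree_eq_one C _ h1
  have h2 : algebraMap (BD k C) (FD k C) (algebraMap C (BD k C) c) =
      algebraMap (BD k C) (FD k C) (algebraMap C (BD k C) a + algebraMap C (BD k C) ρ * XB) := by
    rw [map_add, map_mul, ← IsScalarTower.algebraMap_apply, ← IsScalarTower.algebraMap_apply,
      ← IsScalarTower.algebraMap_apply, hc]
    rfl
  have h3 := congrArg (fun f : BD k C => PowerSeries.coeff 1 (f : PowerSeries C))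
    (IsFractionRing.injective (BD k C) (FD k C) h2)
  change PowerSeries.coeff 1 (PowerSeries.C c) =
    PowerSeries.coeff 1 (PowerSeries.C a + PowerSeries.C ρ * PowerSeries.X) at h3
  rw [map_add, PowerSeries.coeff_C, PowerSeries.coeff_C, PowerSeries.coeff_C_mul,
    PowerSeries.coeff_one_X, if_neg one_ne_zero, if_neg one_ne_zero, zero_add, mul_one] at h3
  exact hρ h3.symm

end Crest.Agent.R013.Spread_607
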