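import Crest.Agent.R013.AN1_243

/-! # R013 / Spt1_260 : evaluation of bounded series on an annulus at a point of a complete
ultrametric field; points of type 3.

`evA j hj hc hz1 hz2 : AN k c →+* E`, `a ↦ ∑ j (a n) z ^ n` for `‖c‖ < ‖z‖ < 1`. If `‖z‖` is not in
the value group of the algebraically closed field `C`, one monomial dominates strictly and `evA` is
injective. -/

set_option autoImplicit false
set_option linter.unusedSectionVars false

noncomputable section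

namespace Crest.Agent.R013.Spread3_260

open Filter Topology
open Crest.Agent.R013.Cell_408 (FinDef DiscNorm BD)
open Crest.Agent.R013.EE809 Crest.Agent.R013.CAn_243

section Real

/-- a family tending to `0` which is pointwise `< r` is uniformly `< r` -/
theorem exists_lt_unif {ι : Type*} {f : ι → ℝ} {r : ℝ} (hr : 0 < r)
    (h0 : Tendsto f cofinite (𝓝 0)) (h : ∀ i, f i < r) :
    ∃ r', 0 ≤ r' ∧ r' < r ∧ ∀ i, f i ≤ r' := by
  classical
  have h1 : {i | ¬ f i < r / 2}.Finite := by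
    have := h0.eventually (gt_mem_nhds (show (0 : ℝ) < r / 2 by linarith))
    rwa [eventually_cofinite] at this
  have key : ∀ S : Finset ι, ∃ r', 0 ≤ r' ∧ r' < r ∧ ∀ i ∈ S, f i ≤ r' := by
    intro S
    induction S using Finset.induction_on with
    | empty => exact ⟨0, le_rfl, hr, by simp⟩
    | insert i S _ ih =>
      obtain ⟨r', h2, h3, h4⟩ := ih
      refine ⟨max r' (f i), le_max_of_le_left h2, max_lt h3 (h i), fun n hn => ?_⟩
      rcases Finset.mem_insert.1 hn with rfl | hn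
      · exact le_max_right _ _
      · exact (h4 n hn).trans (le_max_left _ _)
  obtain ⟨r', h2, h3, h4⟩ := key h1.toFinset
  refine ⟨max r' (r / 2), le_max_of_le_left h2, max_lt h3 (by linarith), fun i => ?_⟩
  by_cases hi : f i < r / 2
  · exact hi.le.trans (le_max_right _ _)
  · exact (h4 i (h1.mem_toFinset.2 hi)).trans (le_max_left _ _)

/-- a family of nonnegative numbers tending to `0` has a maximum -/
theorem exists_max_of_tendsto {ι : Type*} {f : ι → ℝ} (h0 : Tendsto f cofinite (𝓝 0))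
    {n : ι} (hn : 0 < f n) : ∃ m, f n ≤ f m ∧ ∀ i, f i ≤ f m := by
  classical
  have h1 : {i | ¬ f i < f n}.Finite := by
    have := h0.eventually (gt_mem_nhds hn)
    rwa [eventually_cofinite] at this
  have hne : h1.toFinset.Nonempty := ⟨n, h1.mem_toFinset.2 (lt_irrefl _)⟩
  obtain ⟨m, hm, h2⟩ := h1.toFinset.exists_max_image f hne
  have hmn : f n ≤ f m := not_lt.1 (h1.mem_toFinset.1 hm)
  refine ⟨m, hmn, fun i => ?_⟩
  by_cases hi : f i < f n
  · exact hi.le.trans hmn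
  · exact h2 i (h1.mem_toFinset.2 hi)

end Real

section Ev

variable {k C E : Type*} [NontriviallyNormedField k] [CompleteSpace k]
  [NormedField C] [IsUltrametricDist C] [NormedAlgebra k C] [Algebra.IsAlgebraic k C]
  [NormedField E] [IsUltrametricDist E] [CompleteSpace E]
  (j : C →+* E) (hj : ∀ c, ‖j c‖ = ‖c‖)

include hj

omit [IsUltrametricDist C] [IsUltrametricDist E] [CompleteSpace E] in
theorem continuous_of_norm : Continuous j :=
  (AddMonoidHomClass.isometry_of_norm j hj).continuous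

theorem summable_norm_tm {ρ : ℝ} (hρ : 0 < ρ) {a : EE k C} {M : ℝ} (h1 : Bdd 1 M a)
    (h2 : Bdd ρ M a) {z : E} (hz1 : ρ < ‖z‖) (hz2 : ‖z‖ < 1) :
    Summable fun n : ℤ => ‖j (a.co n) * z ^ n‖ := by
  have hz0 : 0 < ‖z‖ := hρ.trans hz1
  refine Summable.of_nat_of_neg ?_ ?_
  · refine Summable.of_nonneg_of_le (fun n => norm_nonneg _) (fun n => ?_)
      ((summable_geometric_of_lt_one (norm_nonneg z) hz2).mul_left M)
    rw [norm_mul, norm_zpow, hj, zpow_natCast]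
    have := h1 n
    rw [one_zpow, mul_one] at this
    exact mul_le_mul_of_nonneg_right this (pow_nonneg hz0.le _)
  · have hq : ρ / ‖z‖ < 1 := (div_lt_one hz0).2 hz1
    refine Summable.of_nonneg_of_le (fun n => norm_nonneg _) (fun n => ?_)
      ((summable_geometric_of_lt_one (by positivity) hq).mul_left M)
    rw [norm_mul, norm_zpow, hj]
    have h3 := h2 (-(n : ℤ))
    have e : ‖a.co (-(n : ℤ))‖ * ‖z‖ ^ (-(n : ℤ)) =
        ‖a.co (-(n : ℤ))‖ * ρ ^ (-(n : ℤ)) * (ρ / ‖z‖) ^ n := by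
      rw [zpow_neg, zpow_neg, zpow_natCast, zpow_natCast, div_pow]
      field_simp
    rw [e]
    exact mul_le_mul_of_nonneg_right h3 (by positivity)

theorem summable_norm_ev {c : C} (hc : c ≠ 0) {z : E} (hz1 : ‖c‖ < ‖z‖) (hz2 : ‖z‖ < 1)
    (a : AN k c) : Summable fun n : ℤ => ‖j (a.1.co n) * z ^ n‖ := by
  obtain ⟨M, hM, h1, h2⟩ := AN.bd2 a.2
  exact summable_norm_tm j hj (norm_pos_iff.2 hc)
    (show Bdd 1 M a.1 from fun n => by rw [one_zpow, mul_one]; exact h1 n) h2 hz1 hz2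

theorem summable_ev {c : C} (hc : c ≠ 0) {z : E} (hz1 : ‖c‖ < ‖z‖) (hz2 : ‖z‖ < 1)
    (a : AN k c) : Summable fun n : ℤ => j (a.1.co n) * z ^ n :=
  (summable_norm_ev j hj hc hz1 hz2 a).of_norm

/-- **evaluation** of functions on the annulus `‖c‖ < |T| < 1` at `z` -/
def evA {c : C} (hc : c ≠ 0) {z : E} (hz1 : ‖c‖ < ‖z‖) (hz2 : ‖z‖ < 1) : AN k c →+* E where
  toFun a := ∑' n : ℤ, j (a.1.co n) * z ^ n
  map_one' := by
    rw [tsum_eq_single 0]
    · change j ((1 : EE k C).co 0) * z ^ (0 : ℤ) = 1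
      rw [co_one, if_pos rfl, map_one, zpow_zero, one_mul]
    · intro n hn
      change j ((1 : EE k C).co n) * z ^ n = 0
      rw [co_one, if_neg hn, map_zero, zero_mul]
  map_zero' := by
    have : ∀ n : ℤ, j ((0 : AN k c).1.co n) * z ^ n = 0 := fun n => by
      change j ((0 : EE k C).co n) * z ^ n = 0
      rw [co_zero, map_zero, zero_mul]
    rw [tsum_congr this, tsum_zero]
  map_add' a b := by
    rw [← (summable_ev j hj hc hz1 hz2 a).tsum_add (summable_ev j hj hc hz1 hz2 b)]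
    refine tsum_congr fun n => ?_
    change j ((a.1 + b.1 : EE k C).co n) * z ^ n = _
    rw [co_add, map_add, add_mul]
  map_mul' a b := by
    have hz0 : z ≠ 0 := norm_pos_iff.1 ((norm_nonneg _).trans_lt hz1)
    have ha := summable_norm_ev j hj hc hz1 hz2 a
    have hb := summable_norm_ev j hj hc hz1 hz2 b
    rw [tsum_mul_tsum_of_summable_norm ha hb]
    have hs := summable_mul_of_summable_norm ha hb
    have h1 : ∑' p : ℤ × ℤ, (j (a.1.co p.1) * z ^ p.1) * (j (b.1.co p.2) * z ^ p.2) =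
        ∑' q : ℤ × ℤ, (j (a.1.co q.2) * z ^ q.2) * (j (b.1.co (q.1 - q.2)) * z ^ (q.1 - q.2)) := by
      rw [← shearEquiv.symm.tsum_eq]
      rfl
    have hs2 : Summable fun q : ℤ × ℤ =>
        (j (a.1.co q.2) * z ^ q.2) * (j (b.1.co (q.1 - q.2)) * z ^ (q.1 - q.2)) := by
      have := (shearEquiv.symm.summable_iff (f := fun p : ℤ × ℤ =>
        (j (a.1.co p.1) * z ^ p.1) * (j (b.1.co p.2) * z ^ p.2))).2 hs
      exact this
    rw [h1, hs2.tsum_prod]
    refine tsum_congr fun n => ?_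
    change j ((a.1 * b.1 : EE k C).co n) * z ^ n = _
    rw [co_mul, (summable_conv a.1 b.1 n).map_tsum j (continuous_of_norm j hj), ← tsum_mul_right]
    refine tsum_congr fun i => ?_
    rw [map_mul]
    have : z ^ n = z ^ i * z ^ (n - i) := by rw [← zpow_add₀ hz0]; congr 1; ring
    rw [this]
    ring

theorem evA_apply {c : C} (hc : c ≠ 0) {z : E} (hz1 : ‖c‖ < ‖z‖) (hz2 : ‖z‖ < 1) (a : AN k c) :
    evA j hj hc hz1 hz2 a = ∑' n : ℤ, j (a.1.co n) * z ^ n := rfl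

theorem hasSum_evA {c : C} (hc : c ≠ 0) {z : E} (hz1 : ‖c‖ < ‖z‖) (hz2 : ‖z‖ < 1) (a : AN k c) :
    HasSum (fun n : ℤ => j (a.1.co n) * z ^ n) (evA j hj hc hz1 hz2 a) :=
  (summable_ev j hj hc hz1 hz2 a).hasSum

theorem evA_mo {c : C} (hc : c ≠ 0) {z : E} (hz1 : ‖c‖ < ‖z‖) (hz2 : ‖z‖ < 1) (n : ℤ) (x : C) :
    evA j hj hc hz1 hz2 (⟨mo n x, mo_mem_AN c n x⟩ : AN k c) = j x * z ^ n := by
  rw [evA_apply, tsum_eq_single n]
  · change j ((mo n x : EE k C).co n) * z ^ n = _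
    rw [co_mo, if_pos rfl]
  · intro m hm
    change j ((mo n x : EE k C).co m) * z ^ m = _
    rw [co_mo, if_neg hm, map_zero, zero_mul]

theorem evA_T {c : C} (hc : c ≠ 0) {z : E} (hz1 : ‖c‖ < ‖z‖) (hz2 : ‖z‖ < 1) (n : ℤ) :
    evA j hj hc hz1 hz2 (⟨T n, T_mem_AN c n⟩ : AN k c) = z ^ n := by
  have := evA_mo (k := k) j hj hc hz1 hz2 n 1
  rw [map_one, one_mul] at this
  exact this

theorem evA_algebraMap {c : C} (hc : c ≠ 0) {z : E} (hz1 : ‖c‖ < ‖z‖) (hz2 : ‖z‖ < 1) (x : C) :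
    evA j hj hc hz1 hz2 (algebraMap C (AN k c) x) = j x := by
  have := evA_mo (k := k) j hj hc hz1 hz2 0 x
  rw [zpow_zero, mul_one] at this
  exact this

theorem norm_evA_le {c : C} (hc : c ≠ 0) {z : E} (hz1 : ‖c‖ < ‖z‖) (hz2 : ‖z‖ < 1) (a : AN k c)
    {M : ℝ} (hM : ∀ n : ℤ, ‖a.1.co n‖ * ‖z‖ ^ n ≤ M) : ‖evA j hj hc hz1 hz2 a‖ ≤ M := by
  have hM0 : 0 ≤ M := le_trans (mul_nonneg (norm_nonneg _) (zpow_nonneg (norm_nonneg z) 0)) (hM 0)
  rw [evA_apply]
  refine IsUltrametricDist.norm_tsum_le_of_forall_le_of_nonneg hM0 fun n => ?_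
  rw [norm_mul, norm_zpow, hj]
  exact hM n

theorem tendsto_norm_evA {c : C} (hc : c ≠ 0) {z : E} (hz1 : ‖c‖ < ‖z‖) (hz2 : ‖z‖ < 1)
    (a : AN k c) : Tendsto (fun n : ℤ => ‖a.1.co n‖ * ‖z‖ ^ n) cofinite (𝓝 0) := by
  have := (summable_norm_ev j hj hc hz1 hz2 a).tendsto_cofinite_zero
  refine this.congr fun n => ?_
  rw [norm_mul, norm_zpow, hj]

/-- a strictly dominating monomial gives the norm -/
theorem norm_evA_eq {c : C} (hc : c ≠ 0) {z : E} (hz1 : ‖c‖ < ‖z‖) (hz2 : ‖z‖ < 1) (a : AN k c)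
    {m : ℤ} (hm : ∀ n, n ≠ m → ‖a.1.co n‖ * ‖z‖ ^ n < ‖a.1.co m‖ * ‖z‖ ^ m) :
    ‖evA j hj hc hz1 hz2 a‖ = ‖a.1.co m‖ * ‖z‖ ^ m := by
  have hnm : ∀ n : ℤ, ‖j (a.1.co n) * z ^ n‖ = ‖a.1.co n‖ * ‖z‖ ^ n := fun n => by
    rw [norm_mul, norm_zpow, hj]
  have hpos : 0 < ‖a.1.co m‖ * ‖z‖ ^ m :=
    lt_of_le_of_lt (mul_nonneg (norm_nonneg _) (zpow_nonneg (norm_nonneg z) _))
      (hm (m + 1) (by omega))
  rw [evA_apply, (summable_ev j hj hc hz1 hz2 a).tsum_eq_add_tsum_ite m]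
  have h0 : Tendsto (fun n : ℤ => if n = m then 0 else ‖a.1.co n‖ * ‖z‖ ^ n) cofinite (𝓝 0) := by
    refine squeeze_zero (fun n => ?_) (fun n => ?_) (tendsto_norm_evA j hj hc hz1 hz2 a)
    · split_ifs
      · exact le_rfl
      · exact mul_nonneg (norm_nonneg _) (zpow_nonneg (norm_nonneg z) _)
    · split_ifs
      · exact mul_nonneg (norm_nonneg _) (zpow_nonneg (norm_nonneg z) _)
      · exact le_rfl
  obtain ⟨r', h1, h2, h3⟩ := exists_lt_unif hpos h0 (fun n => by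
    split_ifs with h
    · exact hpos
    · exact hm n h)
  have h4 : ‖∑' n : ℤ, ite (n = m) 0 (j (a.1.co n) * z ^ n)‖ < ‖j (a.1.co m) * z ^ m‖ := by
    rw [hnm]
    refine lt_of_le_of_lt ?_ h2
    refine IsUltrametricDist.norm_tsum_le_of_forall_le_of_nonneg h1 fun n => ?_
    have h5 := h3 n
    split_ifs at h5 ⊢ with h
    · rw [norm_zero]; exact h1
    · rw [hnm]; exact h5
  rw [IsUltrametricDist.norm_add_eq_max_of_norm_ne_norm h4.ne', max_eq_left h4.le, hnm]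

end Ev

section Ty3

variable {C : Type*} [NormedField C] [IsAlgClosed C]

/-- powers of a real number outside the value group are outside the value group -/
theorem zpow_ne_norm {r : ℝ} (hr : 0 ≤ r) (h : ∀ c : C, r ≠ ‖c‖) {n : ℤ} (hn : n ≠ 0) (c : C) :
    r ^ n ≠ ‖c‖ := by
  have key : ∀ m : ℕ, m ≠ 0 → ∀ c : C, r ^ m ≠ ‖c‖ := by
    intro m hm c hc
    obtain ⟨x, hx⟩ := IsAlgClosed.exists_pow_nat_eq c (Nat.pos_of_ne_zero hm)
    rw [← hx, norm_pow] at hc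
    exact h x (pow_left_injective₀' hm hr (norm_nonneg x) hc)
  rcases lt_or_gt_of_ne hn with h1 | h1
  · obtain ⟨m, hm⟩ := Int.exists_eq_neg_ofNat h1.le
    rw [hm, zpow_neg, zpow_natCast]
    intro h2
    refine key m (by omega) c⁻¹ ?_
    rw [norm_inv, ← h2, inv_inv]
  · obtain ⟨m, hm⟩ := Int.eq_ofNat_of_zero_le h1.le
    rw [hm, zpow_natCast]
    exact key m (by omega) c
where
  pow_left_injective₀' {m : ℕ} (hm : m ≠ 0) {x y : ℝ} (hx : 0 ≤ x) (hy : 0 ≤ y)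
      (h : x ^ m = y ^ m) : x = y := (pow_left_inj₀ hx hy hm).1 h

/-- distinct monomials have distinct norms at a point of type 3 -/
theorem mono_norm_ne {r : ℝ} (hr : 0 < r) (h : ∀ c : C, r ≠ ‖c‖) {x y : C} (hy : y ≠ 0)
    {n m : ℤ} (hnm : n ≠ m) : ‖x‖ * r ^ n ≠ ‖y‖ * r ^ m := by
  intro h1
  have hx : x ≠ 0 := by
    rintro rfl
    rw [norm_zero, zero_mul] at h1
    exact (mul_pos (norm_pos_iff.2 hy) (zpow_pos hr m)).ne h1
  refine zpow_ne_norm (C := C) hr.le h (n := n - m) (sub_ne_zero.2 hnm) (y / x) ?_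
  rw [zpow_sub₀ hr.ne', norm_div, div_eq_div_iff (zpow_pos hr m).ne' (norm_pos_iff.2 hx).ne']
  rw [mul_comm] at h1
  rw [h1]

end Ty3

section Dom

variable {k C E : Type*} [NontriviallyNormedField k] [CompleteSpace k]
  [NormedField C] [IsUltrametricDist C] [NormedAlgebra k C] [Algebra.IsAlgebraic k C]
  [IsAlgClosed C]
  [NormedField E] [IsUltrametricDist E] [CompleteSpace E]
  (j : C →+* E) (hj : ∀ c, ‖j c‖ = ‖c‖)

include hj

/-- **one monomial dominates** (uniformly) at a point of type 3 -/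
theorem exists_dom {c : C} (hc : c ≠ 0) {z : E} (hz1 : ‖c‖ < ‖z‖) (hz2 : ‖z‖ < 1)
    (hz : ∀ x : C, ‖z‖ ≠ ‖x‖) {a : AN k c} (ha : a ≠ 0) :
    ∃ (m : ℤ) (θ : ℝ), a.1.co m ≠ 0 ∧ 0 ≤ θ ∧ θ < 1 ∧
      (∀ n, n ≠ m → ‖a.1.co n‖ * ‖z‖ ^ n ≤ θ * (‖a.1.co m‖ * ‖z‖ ^ m)) ∧
      ‖evA j hj hc hz1 hz2 a‖ = ‖a.1.co m‖ * ‖z‖ ^ m := by
  have hz0 : 0 < ‖z‖ := (norm_nonneg _).trans_lt hz1
  have h0 := tendsto_norm_evA (k := k) j hj hc hz1 hz2 a
  obtain ⟨n, hn⟩ : ∃ n, a.1.co n ≠ 0 := by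
    by_contra h
    push Not at h
    exact ha (Subtype.ext (EE.ext h))
  have hn' : 0 < ‖a.1.co n‖ * ‖z‖ ^ n := mul_pos (norm_pos_iff.2 hn) (zpow_pos hz0 n)
  obtain ⟨m, hm1, hm2⟩ := exists_max_of_tendsto h0 hn'
  have hm0 : a.1.co m ≠ 0 := by
    intro h
    rw [h, norm_zero, zero_mul] at hm1
    exact absurd hn' (not_lt.2 hm1)
  have hm' : 0 < ‖a.1.co m‖ * ‖z‖ ^ m := mul_pos (norm_pos_iff.2 hm0) (zpow_pos hz0 m)
  have hlt : ∀ i, i ≠ m → ‖a.1.co i‖ * ‖z‖ ^ i < ‖a.1.co m‖ * ‖z‖ ^ m := fun i hi =>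
    lt_of_le_of_ne (hm2 i) (mono_norm_ne hz0 hz hm0 hi)
  have h5 : Tendsto (fun n : ℤ => if n = m then 0 else ‖a.1.co n‖ * ‖z‖ ^ n) cofinite (𝓝 0) := by
    refine squeeze_zero (fun n => ?_) (fun n => ?_) h0
    · split_ifs
      · exact le_rfl
      · exact mul_nonneg (norm_nonneg _) (zpow_nonneg (norm_nonneg z) _)
    · split_ifs
      · exact mul_nonneg (norm_nonneg _) (zpow_nonneg (norm_nonneg z) _)
      · exact le_rfl
  obtain ⟨r', h1, h2, h3⟩ := exists_lt_unif hm' h5 (fun n => by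
    split_ifs with h
    · exact hm'
    · exact hlt n h)
  refine ⟨m, r' / (‖a.1.co m‖ * ‖z‖ ^ m), hm0, by positivity, (div_lt_one hm').2 h2,
    fun n hn => ?_, norm_evA_eq j hj hc hz1 hz2 a hlt⟩
  rw [div_mul_cancel₀ _ hm'.ne']
  have := h3 n
  rwa [if_neg hn] at this

/-- evaluation at a point of type 3 is injective -/
theorem evA_injective {c : C} (hc : c ≠ 0) {z : E} (hz1 : ‖c‖ < ‖z‖) (hz2 : ‖z‖ < 1)
    (hz : ∀ x : C, ‖z‖ ≠ ‖x‖) : Function.Injective (evA (k := k) j hj hc hz1 hz2) := by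
  rw [injective_iff_map_eq_zero]
  intro a h
  by_contra ha
  obtain ⟨m, θ, h1, -, -, -, h2⟩ := exists_dom j hj hc hz1 hz2 hz ha
  rw [h, norm_zero] at h2
  exact (mul_pos (norm_pos_iff.2 h1) (zpow_pos ((norm_nonneg _).trans_lt hz1) m)).ne h2

end Dom

end Crest.Agent.R013.Spread3_260
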