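import Crest.Agent.R013.Spt2_260
import Crest.Agent.R013.Spr4_607

/-! # R013 / Spt3_260 : SP1 for points of type 3 (annuli).

* `uball_levA` : the level `L` of `AN c` is a complete ultrametric ring (`UBall` of Spr2_607);
* `Rep` : the elements of `E` represented on small annuli around `t` form a subfield;
* `FT_cell3`, `alg_cell3` (= SP1 at type 3), `unit_cell3` (a nonzero element is `α T^m u`, `u` a
  dominated unit, on all small annuli). -/

set_option autoImplicit false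
set_option linter.unusedSectionVars false

noncomputable section

namespace Crest.Agent.R013.Spread3_260

open Filter Topology
open Crest.Agent.R013.Cell_408 (FinDef DiscNorm BD)
open Crest.Agent.R013.EE809 Crest.Agent.R013.CAn_243
open Crest.Agent.R013.Spread_607 (UBall FT sp1)

section UB

/-- geometric series in a complete ultrametric ring -/
theorem uball_inv {A : Type*} [CommRing A] {Bd : ℝ → A → Prop} (h : UBall A Bd) {θ : ℝ}
    (hθ0 : 0 ≤ θ) (hθ1 : θ < 1) {x : A} (hx : Bd θ (1 - x)) : ∃ y, x * y = 1 ∧ Bd 1 y := by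
  set Z : ℕ → A := fun n => ∑ i ∈ Finset.range n, (1 - x) ^ i with hZ
  have hp : ∀ n, Bd (1 * θ ^ n) ((1 - x) ^ n) := fun n => by
    rw [one_mul]; exact h.pow hθ0 hx n
  obtain ⟨z, hz⟩ := h.complete θ 1 hθ0 hθ1 zero_le_one Z fun n => by
    have : Z (n + 1) - Z n = (1 - x) ^ n := by
      rw [hZ]
      simp only [Finset.sum_range_succ]
      ring
    rw [this]; exact hp n
  have hx1 : Bd 1 x := by
    have := h.sub h.one (h.mono _ 1 _ hθ1.le hx)
    rwa [sub_sub_cancel] at this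
  have hxZ : ∀ n, x * Z n = 1 - (1 - x) ^ n := by
    intro n
    calc x * Z n = -(((1 - x) - 1) * ∑ i ∈ Finset.range n, (1 - x) ^ i) := by
          rw [hZ]; ring
      _ = 1 - (1 - x) ^ n := by rw [mul_geom_sum]; ring
  refine ⟨z, ?_, ?_⟩
  · refine h.eq_of_forall fun M hM => ?_
    have hlim := tendsto_pow_atTop_nhds_zero_of_lt_one hθ0 hθ1
    obtain ⟨n, hn⟩ := (hlim.eventually (gt_mem_nhds hM)).exists
    have e : x * z - 1 = x * (z - Z n) - (1 - x) ^ n := by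
      rw [mul_sub, hxZ]; ring
    rw [e]
    have h1 := h.mul 1 (1 * θ ^ n) x (z - Z n) zero_le_one (by positivity) hx1 (hz n)
    refine h.sub (h.mono _ _ _ ?_ h1) (h.mono _ _ _ ?_ (hp n))
    · rw [one_mul, one_mul]; exact hn.le
    · rw [one_mul]; exact hn.le
  · have := hz 0
    rw [pow_zero, mul_one] at this
    simpa [hZ] using this

end UB

section Lev

variable {k C : Type*} [NontriviallyNormedField k] [CompleteSpace k]
  [NormedField C] [IsUltrametricDist C] [NormedAlgebra k C] [Algebra.IsAlgebraic k C]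

/-- elements of `AN c` defined over the finite level `L` -/
def levA (c : C) (L : IntermediateField k C) [FiniteDimensional k L] : Subring (AN k c) where
  carrier := {a | InL L a.1}
  mul_mem' := fun ha hb => InL.mul ha hb
  one_mem' := InL.one L
  add_mem' := fun ha hb => InL.add ha hb
  zero_mem' := InL.zero L
  neg_mem' := fun ha => InL.neg ha

theorem exists_levA {c : C} (S : Finset (AN k c)) : ∃ (L : IntermediateField k C)
    (_ : FiniteDimensional k L), ∀ a ∈ S, a ∈ levA c L := by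
  obtain ⟨L, hL, h⟩ := exists_inL_finset (k := k) S (fun a => a.1)
  exact ⟨L, hL, h⟩

theorem uball_levA {c : C} (hc : c ≠ 0) (L : IntermediateField k C) [FiniteDimensional k L] :
    UBall (levA c L) (fun M b => BdA M (b : AN k c)) where
  zero M hM := ⟨Bdd.zero hM, Bdd.zero hM⟩
  one := ⟨Bdd.one, Bdd.one⟩
  add M a b ha hb := ⟨ha.1.add one_pos hb.1, ha.2.add (norm_pos_iff.2 hc) hb.2⟩
  neg M a ha := ⟨ha.1.neg, ha.2.neg⟩
  mul M N a b _ _ ha hb := ⟨ha.1.mul one_pos hb.1, ha.2.mul (norm_pos_iff.2 hc) hb.2⟩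
  mono M N a hMN ha := ha.mono hMN
  sep a ha := by
    apply Subtype.ext
    apply Subtype.ext
    ext n
    change ((a : AN k c).1).co n = (0 : EE k C).co n
    rw [co_zero, ← norm_le_zero_iff]
    refine le_of_forall_pos_le_add fun ε hε => ?_
    rw [zero_add]
    exact (bdA_iff.1 (ha ε hε)).1 n
  complete θ c0 hθ0 hθ1 hc0 Z hZ := by
    have hρ : 0 < ‖c‖ := norm_pos_iff.2 hc
    set s : ℕ → EE k C := fun m => ((Z m : levA c L) : AN k c).1 with hs
    have hsub : ∀ m, ((Z (m + 1) - Z m : levA c L) : AN k c).1 = s (m + 1) - s m := fun m => rfl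
    have hfar : ∀ ρ : ℝ, 0 < ρ → (∀ m, Bdd ρ (c0 * θ ^ m) (s (m + 1) - s m)) →
        ∀ m p, Bdd ρ (c0 * θ ^ m) (s (m + p) - s m) := by
      intro ρ hρ h m p
      induction p with
      | zero => rw [add_zero, sub_self]; exact Bdd.zero (by positivity)
      | succ p ih =>
        have e : s (m + (p + 1)) - s m = (s (m + p + 1) - s (m + p)) + (s (m + p) - s m) := by
          rw [← add_assoc]; ring
        rw [e]
        refine ((h _).le ?_).add hρ ih
        exact mul_le_mul_of_nonneg_left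
          (pow_le_pow_of_le_one hθ0 hθ1.le (Nat.le_add_right _ _)) hc0
    have hfar1 := hfar 1 one_pos fun m => (hZ m).1
    have hfarc := hfar ‖c‖ hρ fun m => (hZ m).2
    have hr : ∀ q : ℕ, Tendsto (fun m : ℕ => c0 * θ ^ (q + m)) atTop (𝓝 0) := by
      intro q
      have h1 : Tendsto (fun m : ℕ => c0 * θ ^ m) atTop (𝓝 (c0 * 0)) :=
        (tendsto_pow_atTop_nhds_zero_of_lt_one hθ0 hθ1).const_mul c0
      rw [mul_zero] at h1
      refine (h1.comp (tendsto_add_atTop_nat q)).congr fun m => ?_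
      simp only [Function.comp]
      rw [add_comm]
    obtain ⟨S, hS, h1⟩ := complete_of L s (fun m => (Z m).2) (fun m => c0 * θ ^ m)
      (by simpa using hr 0) (fun m n hmn => by
        obtain ⟨p, rfl⟩ := Nat.exists_eq_add_of_le hmn
        exact bdd_one_iff.1 (hfar1 m p))
    have h2 : ∀ m, Bdd ‖c‖ (c0 * θ ^ m) (S - s m) := by
      intro m
      refine Bdd.limit hρ (s := fun p => s (m + p) - s m) (hr m) (fun p => ?_) (hfarc m)
      rw [sub_sub_sub_cancel_right]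
      exact h1 (m + p)
    have hmem : S ∈ AN k c := by
      have h3 : S - s 0 ∈ AN k c := ⟨_, h2 0⟩
      have h4 := add_mem h3 ((Z 0 : levA c L) : AN k c).2
      rwa [show S - s 0 + ((Z 0 : levA c L) : AN k c).1 = S from sub_add_cancel _ _] at h4
    exact ⟨⟨⟨S, hmem⟩, hS⟩, fun m => ⟨bdd_one_iff.2 (h1 m), h2 m⟩⟩

end Lev

section Rep

variable {k C E : Type*} [NontriviallyNormedField k] [CompleteSpace k]
  [NormedField C] [IsUltrametricDist C] [NormedAlgebra k C] [Algebra.IsAlgebraic k C]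
  [IsAlgClosed C]
  [NormedField E] [IsUltrametricDist E] [CompleteSpace E]
  {j : C →+* E} {t : E} (hj : ∀ c, ‖j c‖ = ‖c‖)

/-- dominated units: `u 0 = 1`, `‖u n‖ ≤ θ`, `‖u n‖ ‖c‖ ^ n ≤ θ` for `n ≠ 0` -/
structure DU {c : C} (θ : ℝ) (u : AN k c) : Prop where
  zero : u.1.co 0 = 1
  out : ∀ n, n ≠ 0 → ‖u.1.co n‖ ≤ θ
  inn : ∀ n, n ≠ 0 → ‖u.1.co n‖ * ‖c‖ ^ n ≤ θ

theorem DU.sub {c : C} {θ : ℝ} (hθ : 0 ≤ θ) {u : AN k c} (h : DU θ u) : BdA θ (1 - u) := by
  have e : ∀ n, (1 - u).1.co n = if n = 0 then 0 else -u.1.co n := by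
    intro n
    change ((1 : EE k C) - u.1).co n = _
    rw [co_sub, co_one]
    split_ifs with hn
    · rw [hn, h.zero, sub_self]
    · rw [zero_sub]
  refine bdA_iff.2 ⟨fun n => ?_, fun n => ?_⟩
  · rw [e]
    split_ifs with hn
    · rw [norm_zero]; exact hθ
    · rw [norm_neg]; exact h.out n hn
  · rw [e]
    split_ifs with hn
    · rw [norm_zero, zero_mul]; exact hθ
    · rw [norm_neg]; exact h.inn n hn

/-- dominated units are units -/
theorem DU.inv {c : C} (hc : c ≠ 0) {θ : ℝ} (hθ0 : 0 ≤ θ) (hθ1 : θ < 1) {u : AN k c}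
    (h : DU θ u) : ∃ v : AN k c, u * v = 1 ∧ BdA 1 v := by
  obtain ⟨L, hL, h1⟩ := exists_levA ({u} : Finset (AN k c))
  have hu : u ∈ levA c L := h1 u (Finset.mem_singleton_self u)
  obtain ⟨y, hy, hy1⟩ := uball_inv (uball_levA hc L) hθ0 hθ1 (x := (⟨u, hu⟩ : levA c L))
    (h.sub hθ0)
  exact ⟨y.1, congrArg Subtype.val hy, hy1⟩

include hj

/-- **(T4)** for an element represented on some annulus -/
theorem Ac.unit_cell (ht : Ty3 j t) (U : Ac j t) {a : AN k U.c} (ha : a ≠ 0) :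
    ∃ (m : ℤ) (θ : ℝ), a.1.co m ≠ 0 ∧ 0 ≤ θ ∧ θ < 1 ∧ ∀ᶠ U' in l3 j t, U'.Le U ∧
      ∃ u v : AN k U'.c, u * v = 1 ∧ BdA 1 v ∧ DU θ u ∧
        U'.ev hj (algebraMap C _ (a.1.co m * (U'.σ / U.σ) ^ m) * ⟨T m, T_mem_AN U'.c m⟩ * u) =
          U.ev hj a := by
  obtain ⟨m, θ, hm, hθ0, hθ1, h⟩ := U.dom_cell hj ht ha (η := 2) one_lt_two
  refine ⟨m, θ, hm, hθ0, hθ1, ?_⟩
  filter_upwards [h] with U' h'
  obtain ⟨a', h1, h2⟩ := Ac.exists_res hj h'.1 a
  obtain ⟨h3, h4, -, -⟩ := h'.2 a' h2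
  have hal : a'.1.co m ≠ 0 := by
    rw [h2]
    exact mul_ne_zero hm (zpow_ne_zero _ (div_ne_zero U'.σ_ne U.σ_ne))
  have hal' : 0 < ‖a'.1.co m‖ := norm_pos_iff.2 hal
  set u : AN k U'.c := ⟨mo (-m) (a'.1.co m)⁻¹, mo_mem_AN _ _ _⟩ * a' with hu
  have hco : ∀ n, u.1.co n = (a'.1.co m)⁻¹ * a'.1.co (n + m) := by
    intro n
    change (mo (-m) (a'.1.co m)⁻¹ * a'.1 : EE k C).co n = _
    rw [co_mo_mul, sub_neg_eq_add]
  have hDU : DU θ u := by
    refine ⟨?_, fun n hn => ?_, fun n hn => ?_⟩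
    · rw [hco, zero_add, inv_mul_cancel₀ hal]
    · have h5 := h3 (n + m) (by omega)
      rw [hco, norm_mul, norm_inv, ← div_eq_inv_mul, div_le_iff₀ hal']
      exact h5
    · have h5 := h4 (n + m) (by omega)
      rw [hco, norm_mul, norm_inv, mul_assoc, ← div_eq_inv_mul, div_le_iff₀ hal']
      rw [zpow_add₀ U'.c_pos.ne', ← mul_assoc, ← mul_assoc] at h5
      exact le_of_mul_le_mul_right h5 (zpow_pos U'.c_pos m)
  obtain ⟨v, hv, hv1⟩ := hDU.inv U'.c_ne hθ0 hθ1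
  refine ⟨h'.1, u, v, hv, hv1, hDU, ?_⟩
  rw [← h1]
  congr 1
  rw [← h2, hu]
  apply Subtype.ext
  change algebraMap C (EE k C) (a'.1.co m) * T m * (mo (-m) (a'.1.co m)⁻¹ * a'.1) = a'.1
  rw [← mo_eq, ← mul_assoc, mo_mul_mo, add_neg_cancel, mul_inv_cancel₀ hal, mo_zero_one, one_mul]

variable (k) in
/-- represented on all small annuli -/
def IsRep (e : E) : Prop := ∀ᶠ U in l3 j t, ∃ a : AN k U.c, U.ev hj a = e

theorem IsRep.all {e : E} (h : ∀ U : Ac j t, ∃ a : AN k U.c, U.ev hj a = e) :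
    IsRep k (t := t) hj e := Eventually.of_forall h

theorem IsRep.zero : IsRep k (t := t) hj 0 := IsRep.all hj fun _ => ⟨0, map_zero _⟩

theorem IsRep.one : IsRep k (t := t) hj 1 := IsRep.all hj fun _ => ⟨1, map_one _⟩

theorem IsRep.mul {e e' : E} (h : IsRep k (t := t) hj e) (h' : IsRep k (t := t) hj e') :
    IsRep k (t := t) hj (e * e') := by
  unfold IsRep at *
  filter_upwards [h, h'] with U h1 h2
  obtain ⟨a, ha⟩ := h1
  obtain ⟨b, hb⟩ := h2
  exact ⟨a * b, by rw [map_mul, ha, hb]⟩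

theorem IsRep.add {e e' : E} (h : IsRep k (t := t) hj e) (h' : IsRep k (t := t) hj e') :
    IsRep k (t := t) hj (e + e') := by
  unfold IsRep at *
  filter_upwards [h, h'] with U h1 h2
  obtain ⟨a, ha⟩ := h1
  obtain ⟨b, hb⟩ := h2
  exact ⟨a + b, by rw [map_add, ha, hb]⟩

theorem IsRep.neg {e : E} (h : IsRep k (t := t) hj e) : IsRep k (t := t) hj (-e) := by
  unfold IsRep at *
  filter_upwards [h] with U h1
  obtain ⟨a, ha⟩ := h1
  exact ⟨-a, by rw [map_neg, ha]⟩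

theorem IsRep.inv (ht : Ty3 j t) {e : E} (h : IsRep k (t := t) hj e) :
    IsRep k (t := t) hj e⁻¹ := by
  by_cases he : e = 0
  · rw [he, inv_zero]
    exact IsRep.zero hj
  · have := l3_neBot k ht
    unfold IsRep at *
    obtain ⟨U, a, ha⟩ := h.exists
    have ha0 : a ≠ 0 := by
      rintro rfl
      rw [map_zero] at ha
      exact he ha.symm
    obtain ⟨m, θ, hm, hθ0, hθ1, h2⟩ := U.unit_cell hj ht ha0
    filter_upwards [h2] with U' h3
    obtain ⟨-, u, v, huv, -, -, h4⟩ := h3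
    set al : C := a.1.co m * (U'.σ / U.σ) ^ m with hal
    have hal0 : al ≠ 0 := mul_ne_zero hm (zpow_ne_zero _ (div_ne_zero U'.σ_ne U.σ_ne))
    refine ⟨algebraMap C _ al⁻¹ * ⟨T (-m), T_mem_AN U'.c (-m)⟩ * v, ?_⟩
    refine eq_inv_of_mul_eq_one_right ?_
    rw [← ha, ← h4, ← map_mul, ← map_one (U'.ev (k := k) hj)]
    congr 1
    have e1 : (⟨T m, T_mem_AN U'.c m⟩ : AN k U'.c) * ⟨T (-m), T_mem_AN U'.c (-m)⟩ = 1 := by
      apply Subtype.ext
      change (T m * T (-m) : EE k C) = 1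
      rw [T_mul_T, add_neg_cancel, T_zero]
    have e2 : algebraMap C (AN k U'.c) al * algebraMap C (AN k U'.c) al⁻¹ = 1 := by
      rw [← map_mul, mul_inv_cancel₀ hal0, map_one]
    calc algebraMap C (AN k U'.c) al * ⟨T m, T_mem_AN U'.c m⟩ * u *
          (algebraMap C (AN k U'.c) al⁻¹ * ⟨T (-m), T_mem_AN U'.c (-m)⟩ * v)
        = (algebraMap C (AN k U'.c) al * algebraMap C (AN k U'.c) al⁻¹) *
          ((⟨T m, T_mem_AN U'.c m⟩ : AN k U'.c) * ⟨T (-m), T_mem_AN U'.c (-m)⟩) * (u * v) := by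
            ring
      _ = 1 := by rw [e1, e2, huv, one_mul, one_mul]

variable (k) in
/-- **the field of elements represented on all small annuli** -/
def Rep (ht : Ty3 j t) : Subfield E where
  carrier := {e | IsRep k (t := t) hj e}
  mul_mem' := fun h h' => IsRep.mul hj h h'
  one_mem' := IsRep.one hj
  add_mem' := fun h h' => IsRep.add hj h h'
  zero_mem' := IsRep.zero hj
  neg_mem' := fun h => IsRep.neg hj h
  inv_mem' := fun _ h => IsRep.inv hj ht h

theorem mem_Rep {ht : Ty3 j t} {e : E} :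
    e ∈ Rep k hj ht ↔ ∀ᶠ U in l3 j t, ∃ a : AN k U.c, U.ev hj a = e := Iff.rfl

theorem FT_le_Rep (ht : Ty3 j t) : FT j t ≤ Rep k hj ht := by
  rw [FT, Subfield.closure_le]
  rintro e (⟨c, rfl⟩ | he)
  · exact IsRep.all hj fun U => ⟨algebraMap C _ c, U.ev_algebraMap hj c⟩
  · rw [Set.mem_singleton_iff] at he
    rw [he]
    refine IsRep.all hj fun U => ⟨⟨mo 1 U.σ, mo_mem_AN U.c 1 U.σ⟩, ?_⟩
    rw [U.ev_mo hj, zpow_one]
    have : j U.σ ≠ 0 := by rw [← norm_pos_iff, hj]; exact U.σ_pos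
    field_simp

/-- a represented element is represented with good bounds -/
theorem Rep_cell (ht : Ty3 j t) {e : E} (he : e ∈ Rep k hj ht) {η : ℝ} (hη : 1 < η) :
    ∀ᶠ U in l3 j t, ∃ a : AN k U.c, U.ev hj a = e ∧ BdA (η * ‖e‖) a := by
  have := l3_neBot k ht
  obtain ⟨U, a, rfl⟩ := ((mem_Rep (k := k) hj).1 he).exists
  exact U.bd_cell hj ht a hη

/-- **(T2)** elements of `C(t)` on small annuli -/
theorem FT_cell3 (ht : Ty3 j t) {e : E} (he : e ∈ FT j t) {η : ℝ} (hη : 1 < η) :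
    ∀ᶠ U in l3 j t, ∃ a : AN k U.c, U.ev hj a = e ∧ BdA (η * ‖e‖) a :=
  Rep_cell hj ht (FT_le_Rep hj ht he) hη

/-- **(T3) = SP1 for type 3** -/
theorem alg_cell3 [CharZero E] (ht : Ty3 j t) {s : E}
    (hs : IsAlgebraic (FT j t) s) (hcl : s ∈ closure (FT j t : Set E)) {η : ℝ} (hη : 1 < η) :
    ∀ᶠ U in l3 j t, ∃ a : AN k U.c, U.ev hj a = s ∧ BdA (η * ‖s‖) a := by
  refine sp1 (FT j t) (l3 j t) (fun U => AN k U.c) (fun _ M a => BdA M a) ?_
    (fun U => U.ev (k := k) hj) (fun U M a ha => U.norm_ev_le hj ha)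
    (fun e he η hη => FT_cell3 hj ht he hη) hs hcl hη
  intro U S
  obtain ⟨L, hL, hS⟩ := exists_levA S
  exact ⟨levA U.c L, hS, uball_levA U.c_ne L⟩

theorem alg_mem_Rep [CharZero E] (ht : Ty3 j t) {s : E}
    (hs : IsAlgebraic (FT j t) s) (hcl : s ∈ closure (FT j t : Set E)) : s ∈ Rep k hj ht := by
  refine (mem_Rep hj).2 ?_
  filter_upwards [alg_cell3 (k := k) hj ht hs hcl (η := 2) one_lt_two] with U h
  obtain ⟨a, h1, -⟩ := h
  exact ⟨a, h1⟩

/-- **(T4)** a nonzero represented element is `α T ^ m u`, `u` a dominated unit, on small annuli;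
`m` and `θ` do not depend on the annulus -/
theorem unit_cell3 (ht : Ty3 j t) {s : E} (hs0 : s ≠ 0) (hs : s ∈ Rep k hj ht) :
    ∃ (m : ℤ) (θ : ℝ), 0 ≤ θ ∧ θ < 1 ∧ ∀ᶠ U in l3 j t, ∃ (al : C) (u v : AN k U.c), al ≠ 0 ∧
      u * v = 1 ∧ BdA 1 v ∧ DU θ u ∧
        U.ev hj (algebraMap C _ al * ⟨T m, T_mem_AN U.c m⟩ * u) = s := by
  have := l3_neBot k ht
  obtain ⟨U, a, rfl⟩ := ((mem_Rep (k := k) hj).1 hs).exists
  have ha0 : a ≠ 0 := by
    rintro rfl
    exact hs0 (map_zero _)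
  obtain ⟨m, θ, hm, hθ0, hθ1, h2⟩ := U.unit_cell hj ht ha0
  refine ⟨m, θ, hθ0, hθ1, ?_⟩
  filter_upwards [h2] with U' h3
  obtain ⟨-, u, v, huv, hv, hDU, h4⟩ := h3
  exact ⟨_, u, v, mul_ne_zero hm (zpow_ne_zero _ (div_ne_zero U'.σ_ne U.σ_ne)), huv, hv, hDU, h4⟩

end Rep

end Crest.Agent.R013.Spread3_260
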