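import Crest.Agent.R013.Spt3_260

/-! # R013 / Spt4_260 : expansions and the local degree at a point of type 3.

* `exp3` : a nonzero represented element is `α t ^ m (1 + small)`, at `t` and on small annuli;
* `finrank_le3` : if `ξ ∈ E` is `α t ^ m (1 + small)` (`m ≥ 1`) and `C(t)` is dense in the finite
  extension `L` of the complete field `E`, then `[L : E] ≤ m`. -/

set_option autoImplicit false
set_option linter.unusedSectionVars false

noncomputable section

namespace Crest.Agent.R013.Spread3_260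

open Filter Topology
open Crest.Agent.R013.Cell_408 (FinDef DiscNorm BD)
open Crest.Agent.R013.EE809 Crest.Agent.R013.CAn_243
open Crest.Agent.R013.Spread_607 (UBall FT sp1)

section Top

/-- a subspace which approximates every vector up to a factor `θ < 1` is everything -/
theorem submodule_eq_top {E L : Type*} [NontriviallyNormedField E] [CompleteSpace E]
    [NormedField L] [NormedAlgebra E L] [FiniteDimensional E L] (V : Submodule E L) {θ : ℝ}
    (hθ0 : 0 ≤ θ) (hθ : θ < 1) (h : ∀ y : L, ∃ v ∈ V, ‖y - v‖ ≤ θ * ‖y‖) : V = ⊤ := by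
  have hc : IsClosed (V : Set L) := V.closed_of_finiteDimensional
  rw [eq_top_iff]
  rintro y -
  have h1 : ∀ n : ℕ, ∃ v ∈ V, ‖y - v‖ ≤ θ ^ n * ‖y‖ := by
    intro n
    induction n with
    | zero => exact ⟨0, V.zero_mem, by simp⟩
    | succ n ih =>
      obtain ⟨v, hv, h2⟩ := ih
      obtain ⟨v', hv', h3⟩ := h (y - v)
      refine ⟨v + v', V.add_mem hv hv', ?_⟩
      rw [← sub_sub, pow_succ, mul_comm (θ ^ n) θ, mul_assoc]
      exact h3.trans (mul_le_mul_of_nonneg_left h2 hθ0)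
  have h2 : y ∈ closure (V : Set L) := by
    rw [Metric.mem_closure_iff]
    intro ε hε
    have hlim : Tendsto (fun n : ℕ => θ ^ n * ‖y‖) atTop (𝓝 (0 * ‖y‖)) :=
      (tendsto_pow_atTop_nhds_zero_of_lt_one hθ0 hθ).mul_const _
    rw [zero_mul] at hlim
    obtain ⟨n, hn⟩ := (hlim.eventually (gt_mem_nhds hε)).exists
    obtain ⟨v, hv, h3⟩ := h1 n
    exact ⟨v, hv, by rw [dist_eq_norm]; exact h3.trans_lt hn⟩
  rw [hc.closure_eq] at h2
  exact h2

end Top

section Units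

variable {L : Type*} [NormedField L] [IsUltrametricDist L]

theorem norm_eq_one_of_sub {θ : ℝ} (hθ : θ < 1) {x : L} (h : ‖x - 1‖ ≤ θ) : ‖x‖ = 1 := by
  have e : x = (x - 1) + 1 := by ring
  rw [e, IsUltrametricDist.norm_add_eq_max_of_norm_ne_norm
    (by rw [norm_one]; exact (h.trans_lt hθ).ne), norm_one, max_eq_right (h.trans hθ.le)]

/-- the 1-units of level `θ` form a group -/
theorem zpow_sub_one_le {θ : ℝ} (hθ : θ < 1) {x : L} (h : ‖x - 1‖ ≤ θ) (q : ℤ) :
    ‖x ^ q - 1‖ ≤ θ := by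
  have hθ0 : 0 ≤ θ := (norm_nonneg _).trans h
  have hp : ∀ (y : L), ‖y - 1‖ ≤ θ → ∀ n : ℕ, ‖y ^ n - 1‖ ≤ θ := by
    intro y hy n
    induction n with
    | zero => rw [pow_zero, sub_self, norm_zero]; exact hθ0
    | succ n ih =>
      have e : y ^ (n + 1) - 1 = (y ^ n - 1) * y + (y - 1) := by ring
      rw [e]
      refine (IsUltrametricDist.norm_add_le_max _ _).trans (max_le ?_ hy)
      rw [norm_mul, norm_eq_one_of_sub hθ hy, mul_one]
      exact ih
  have hx0 : x ≠ 0 := by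
    rintro rfl
    have := norm_eq_one_of_sub hθ h
    rw [norm_zero] at this
    exact zero_ne_one this
  cases q with
  | ofNat n => rw [Int.ofNat_eq_natCast, zpow_natCast]; exact hp x h n
  | negSucc n =>
    rw [zpow_negSucc, ← inv_pow]
    refine hp _ ?_ _
    have e : x⁻¹ - 1 = -((x - 1) * x⁻¹) := by
      rw [sub_mul, mul_inv_cancel₀ hx0]; ring
    rw [e, norm_neg, norm_mul, norm_inv, norm_eq_one_of_sub hθ h, inv_one, mul_one]
    exact h

end Units

section Exp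

variable {k C L : Type*} [NontriviallyNormedField k] [CompleteSpace k]
  [NormedField C] [IsUltrametricDist C] [NormedAlgebra k C] [Algebra.IsAlgebraic k C]
  [IsAlgClosed C]
  [NormedField L] [IsUltrametricDist L] [CompleteSpace L]
  {j : C →+* L} {t : L} (hj : ∀ c, ‖j c‖ = ‖c‖)

include hj

/-- the norm at `t` is the maximum of the norms of the monomials -/
theorem Ac.norm_term_le (ht : Ty3 j t) (U : Ac j t) (a : AN k U.c) (n : ℤ) :
    ‖j (a.1.co n) * (t / j U.σ) ^ n‖ ≤ ‖U.ev hj a‖ := by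
  rw [norm_mul, norm_zpow, hj]
  by_cases ha : a = 0
  · rw [ha, map_zero, norm_zero]
    change ‖(0 : EE k C).co n‖ * _ ≤ 0
    rw [co_zero, norm_zero, zero_mul]
  · obtain ⟨m, θ, -, h0, h1, h2, h3⟩ := exists_dom j hj U.c_ne (U.lt_norm hj) (U.norm_lt hj)
      (ht.div hj U.σ_ne) ha
    have h3' : ‖U.ev hj a‖ = ‖a.1.co m‖ * ‖t / j U.σ‖ ^ m := h3
    rw [h3']
    by_cases hn : n = m
    · rw [hn]
    · exact (h2 n hn).trans (mul_le_of_le_one_left
        (mul_nonneg (norm_nonneg _) (zpow_nonneg (norm_nonneg _) _)) h1.le)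

/-- **expansion** of a nonzero represented element: `α t ^ m (1 + small)` -/
theorem exp3 (ht : Ty3 j t) {s : L} (hs0 : s ≠ 0) (hs : s ∈ Rep k hj ht) :
    ∃ (m : ℤ) (al : C) (θ : ℝ), al ≠ 0 ∧ 0 ≤ θ ∧ θ < 1 ∧ ‖s / (j al * t ^ m) - 1‖ ≤ θ ∧
      ∀ᶠ U in l3 j t, ∃ u v : AN k U.c, u * v = 1 ∧ BdA 1 v ∧ DU θ u ∧
        U.ev hj (algebraMap C _ (al * U.σ ^ m) * ⟨T m, T_mem_AN U.c m⟩ * u) = s := by
  have := l3_neBot k ht
  obtain ⟨U, a, rfl⟩ := ((mem_Rep (k := k) hj).1 hs).exists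
  have ha0 : a ≠ 0 := by
    rintro rfl
    exact hs0 (map_zero _)
  obtain ⟨m, θ, hm, hθ0, hθ1, h2⟩ := U.unit_cell hj ht ha0
  have hal : a.1.co m * (U.σ ^ m)⁻¹ ≠ 0 := mul_ne_zero hm (inv_ne_zero (zpow_ne_zero _ U.σ_ne))
  have hall : ∀ᶠ U' in l3 j t, ∃ u v : AN k U'.c, u * v = 1 ∧ BdA 1 v ∧ DU θ u ∧
      U'.ev hj (algebraMap C _ (a.1.co m * (U.σ ^ m)⁻¹ * U'.σ ^ m) * ⟨T m, T_mem_AN U'.c m⟩ * u) =
        U.ev hj a := by
    filter_upwards [h2] with U' h3
    obtain ⟨-, u, v, huv, hv, hDU, h4⟩ := h3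
    refine ⟨u, v, huv, hv, hDU, ?_⟩
    rw [← h4]
    congr 4
    rw [div_zpow]
    ring
  refine ⟨m, a.1.co m * (U.σ ^ m)⁻¹, θ, hal, hθ0, hθ1, ?_, hall⟩
  obtain ⟨U', u, v, -, -, hDU, h4⟩ := hall.exists
  have hjσ : j U'.σ ≠ 0 := by rw [← norm_pos_iff, hj]; exact U'.σ_pos
  have hjal : j (a.1.co m * (U.σ ^ m)⁻¹) ≠ 0 := by
    rw [← norm_pos_iff, hj]; exact norm_pos_iff.2 hal
  rw [← h4, map_mul, map_mul, U'.ev_algebraMap hj, U'.ev_T hj]
  have e : j (a.1.co m * (U.σ ^ m)⁻¹ * U'.σ ^ m) * (t / j U'.σ) ^ m * U'.ev hj u /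
      (j (a.1.co m * (U.σ ^ m)⁻¹) * t ^ m) = U'.ev hj u := by
    rw [map_mul, map_zpow₀, div_zpow]
    have h5 : (j U'.σ) ^ m ≠ 0 := zpow_ne_zero _ hjσ
    have h6 : t ^ m ≠ 0 := zpow_ne_zero _ ht.1
    generalize j (a.1.co m * (U.σ ^ m)⁻¹) = A at hjal ⊢
    field_simp
  rw [e]
  have h7 := U'.norm_ev_le hj (hDU.sub hθ0)
  rw [map_sub, map_one] at h7
  rw [norm_sub_rev]
  exact h7

end Exp

section Degree

variable {k C E L : Type*} [NontriviallyNormedField k] [CompleteSpace k]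
  [NormedField C] [IsUltrametricDist C] [NormedAlgebra k C] [Algebra.IsAlgebraic k C]
  [IsAlgClosed C]
  [NontriviallyNormedField E] [CompleteSpace E]
  [NormedField L] [IsUltrametricDist L] [CompleteSpace L] [NormedAlgebra E L]
  [FiniteDimensional E L]

/-- **the local degree** -/
theorem finrank_le3 (k : Type*) [NontriviallyNormedField k] [CompleteSpace k] [NormedAlgebra k C]
    [Algebra.IsAlgebraic k C] (jE : C →+* E) {j : C →+* L}
    (hjE : ∀ c, j c = algebraMap E L (jE c)) (hj : ∀ c, ‖j c‖ = ‖c‖) {t : L}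
    (ht : Ty3 j t) (hd : ∀ y : L, y ∈ closure (FT j t : Set L)) (ξ : E) {al : C} (hal : al ≠ 0)
    {m : ℕ} (hm : m ≠ 0) {θ : ℝ} (hθ : θ < 1)
    (hξ : ‖algebraMap E L ξ / (j al * t ^ m) - 1‖ ≤ θ) : Module.finrank E L ≤ m := by
  classical
  have hθ0 : 0 ≤ θ := (norm_nonneg _).trans hξ
  obtain ⟨θ', h1, h2⟩ := exists_between hθ
  have hθ' : 0 < θ' := hθ0.trans_lt h1
  have ht0 : t ≠ 0 := ht.1
  have hjal : j al ≠ 0 := by rw [← norm_pos_iff, hj]; exact norm_pos_iff.2 hal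
  set x : L := algebraMap E L ξ / (j al * t ^ m) with hx
  -- the span of `1, t, ..., t ^ (m - 1)`
  set V : Submodule E L := Submodule.span E (Set.range fun l : Fin m => t ^ (l : ℕ)) with hV
  -- every monomial is close to `V`
  have hmono : ∀ (c : C) (n : ℤ), ∃ v ∈ V, ‖j c * t ^ n - v‖ ≤ θ * ‖j c * t ^ n‖ := by
    intro c n
    have hm' : (0 : ℤ) < m := by exact_mod_cast Nat.pos_of_ne_zero hm
    set q : ℤ := n / m with hq
    set l : ℤ := n % m with hl
    have hl0 : 0 ≤ l := Int.emod_nonneg _ hm'.ne'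
    have hl1 : l < m := Int.emod_lt_of_pos _ hm'
    obtain ⟨l', hl'⟩ := Int.eq_ofNat_of_zero_le hl0
    have hl2 : l' < m := by omega
    have hn : n = l + m * q := (Int.emod_add_mul_ediv n m).symm
    refine ⟨(jE c * (ξ / jE al) ^ q) • t ^ l', V.smul_mem _ (Submodule.subset_span
      ⟨⟨l', hl2⟩, rfl⟩), ?_⟩
    have e : (jE c * (ξ / jE al) ^ q) • t ^ l' = j c * t ^ n * x ^ q := by
      rw [Algebra.smul_def, map_mul, map_zpow₀, map_div₀, ← hjE, ← hjE, hn, hl', zpow_add₀ ht0,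
        zpow_mul, zpow_natCast, zpow_natCast, hx]
      have e2 : algebraMap E L ξ / j al = t ^ m * (algebraMap E L ξ / (j al * t ^ m)) := by
        have h6 : t ^ m ≠ 0 := pow_ne_zero _ ht0
        field_simp
      rw [e2, mul_zpow]
      ring
    rw [e]
    have e3 : j c * t ^ n - j c * t ^ n * x ^ q = -(j c * t ^ n * (x ^ q - 1)) := by ring
    rw [e3, norm_neg, norm_mul, mul_comm]
    exact mul_le_mul_of_nonneg_right (zpow_sub_one_le hθ hξ q) (norm_nonneg _)
  have htop : V = ⊤ := by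
    refine submodule_eq_top V hθ'.le h2 fun y => ?_
    by_cases hy : y = 0
    · exact ⟨0, V.zero_mem, by rw [hy]; simp⟩
    have hy0 : 0 < ‖y‖ := norm_pos_iff.2 hy
    -- approximate by an element of `C(t)`
    obtain ⟨e, he, hye⟩ := Metric.mem_closure_iff.1 (hd y) (θ' * ‖y‖) (by positivity)
    rw [dist_eq_norm] at hye
    have hne : ‖e‖ = ‖y‖ := by
      have e1 : e = y + -(y - e) := by ring
      have h3 : ‖y - e‖ < ‖y‖ := hye.trans (mul_lt_of_lt_one_left hy0 h2)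
      rw [e1, IsUltrametricDist.norm_add_eq_max_of_norm_ne_norm (by rw [norm_neg]; exact h3.ne'),
        norm_neg, max_eq_left h3.le]
    have := l3_neBot k ht
    obtain ⟨U, a, ha⟩ := ((mem_Rep (k := k) hj).1 (FT_le_Rep hj ht he)).exists
    -- a finite partial sum
    have hs := U.hasSum_ev hj a
    rw [ha] at hs
    have h4 : ∀ᶠ S in atTop, ‖(∑ n ∈ S, j (a.1.co n) * (t / j U.σ) ^ n) - e‖ < θ' * ‖y‖ := by
      have := (Metric.tendsto_nhds.1 hs) (θ' * ‖y‖) (by positivity)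
      filter_upwards [this] with S hS
      rwa [dist_eq_norm] at hS
    obtain ⟨S, hS⟩ := h4.exists
    have h5 : ∀ n : ℤ, ∃ v ∈ V, ‖j (a.1.co n) * (t / j U.σ) ^ n - v‖ ≤ θ * ‖y‖ := by
      intro n
      have e1 : j (a.1.co n) * (t / j U.σ) ^ n = j (a.1.co n * (U.σ ^ n)⁻¹) * t ^ n := by
        rw [map_mul, map_inv₀, map_zpow₀, div_zpow]
        ring
      obtain ⟨v, hv, h6⟩ := hmono (a.1.co n * (U.σ ^ n)⁻¹) n
      rw [← e1] at h6
      refine ⟨v, hv, h6.trans (mul_le_mul_of_nonneg_left ?_ hθ0)⟩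
      have h7 := U.norm_term_le hj ht a n
      rw [ha, hne] at h7
      exact h7
    choose v hv hv' using h5
    refine ⟨∑ n ∈ S, v n, V.sum_mem fun n _ => hv n, ?_⟩
    have e1 : y - ∑ n ∈ S, v n = (y - e) + (-((∑ n ∈ S, j (a.1.co n) * (t / j U.σ) ^ n) - e) +
        ∑ n ∈ S, (j (a.1.co n) * (t / j U.σ) ^ n - v n)) := by
      rw [Finset.sum_sub_distrib]; ring
    rw [e1]
    refine (IsUltrametricDist.norm_add_le_max _ _).trans (max_le hye.le ?_)
    refine (IsUltrametricDist.norm_add_le_max _ _).trans (max_le ?_ ?_)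
    · rw [norm_neg]; exact hS.le
    · refine IsUltrametricDist.norm_sum_le_of_forall_le_of_nonneg (by positivity) fun n _ => ?_
      exact (hv' n).trans (mul_le_mul_of_nonneg_right h1.le hy0.le)
  have h3 := finrank_range_le_card (R := E) (b := fun l : Fin m => t ^ (l : ℕ))
  rw [Fintype.card_fin] at h3
  have h4 : Module.finrank E V = Module.finrank E L := by rw [htop, finrank_top]
  rw [← h4]
  exact h3

end Degree

end Crest.Agent.R013.Spread3_260
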