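import Crest.Agent.R013.Spt4_260
import Crest.Agent.R013.CAn2_243

/-! # R013 / Spt5_260 : the embedding of `K` into the field of functions of a small annulus around a
point of type 3.

`evF : FA k U.c →+* L`; `exists_emb` : if `K` is generated by elements represented on `U` then
`K → FA k U.c`; `cell3` : all data of a good annulus at one norm of `K`. -/

set_option autoImplicit false
set_option linter.unusedSectionVars false

noncomputable section

namespace Crest.Agent.R013.Spread3_260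

open Filter Topology
open Crest.Agent.R013.Cell_408 (FinDef DiscNorm BD)
open Crest.Agent.R013.EE809 Crest.Agent.R013.CAn_243
open Crest.Agent.R013.Spread_607 (UBall FT sp1)

section Lead

variable {k C : Type*} [NontriviallyNormedField k] [CompleteSpace k]
  [NormedField C] [IsUltrametricDist C] [NormedAlgebra k C] [Algebra.IsAlgebraic k C]

/-- a monomial plus something smaller -/
theorem lead_of {c : C} (l : ℤ) {b : EE k C} (h : gn b < ‖c‖) :
    gn (mo l c + b) = ‖c‖ ∧ od (mo l c + b) = l := by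
  have hc : 0 < ‖c‖ := (gn_nonneg b).trans_lt h
  have h1 : ‖(mo l c + b : EE k C).co l‖ = ‖c‖ := by
    rw [co_add, co_mo, if_pos rfl, IsUltrametricDist.norm_add_eq_max_of_norm_ne_norm
      ((le_gn b l).trans_lt h).ne', max_eq_left ((le_gn b l).trans_lt h).le]
  have h2 : ∀ n, n ≠ l → ‖(mo l c + b : EE k C).co n‖ < ‖c‖ := by
    intro n hn
    rw [co_add, co_mo, if_neg hn, zero_add]
    exact (le_gn b n).trans_lt h
  have h3 : gn (mo l c + b) = ‖c‖ := by
    rw [← h1]
    refine gn_eq_of fun n => ?_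
    by_cases hn : n = l
    · rw [hn]
    · rw [h1]; exact (h2 n hn).le
  refine ⟨h3, od_eq_of (by rw [h3]; exact h1) fun n hn => by rw [h3]; exact h2 n hn.ne⟩

theorem DU.we {c : C} {θ : ℝ} (hθ : θ < 1) {u : AN k c} (h : DU θ u) (m : ℕ) :
    WE (T m * u.1) m := by
  have hle : ∀ n, ‖u.1.co n‖ ≤ 1 := fun n => by
    by_cases hn : n = 0
    · rw [hn, h.zero, norm_one]
    · exact (h.out n hn).trans hθ.le
  refine ⟨fun n => ?_, ?_, fun n hn => ?_⟩
  · rw [co_T_mul]; exact hle _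
  · rw [co_T_mul, sub_self, h.zero, norm_one]
  · rw [co_T_mul]; exact (h.out _ (by omega)).trans_lt hθ

theorem DU.wa {c : C} (hc : c ≠ 0) {θ : ℝ} (hθ : θ < 1) {u : AN k c} (h : DU θ u) (m : ℕ)
    (n : ℤ) : ‖(T m * u.1 : EE k C).co n‖ * ‖c‖ ^ n ≤ ‖c‖ ^ m := by
  have hc0 : 0 < ‖c‖ := norm_pos_iff.2 hc
  rw [co_T_mul]
  have e : ‖c‖ ^ n = ‖c‖ ^ (n - m) * ‖c‖ ^ m := by
    rw [← zpow_natCast, ← zpow_add₀ hc0.ne']
    congr 1
    ring
  rw [e, ← mul_assoc]
  refine mul_le_of_le_one_left (pow_nonneg hc0.le _) ?_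
  by_cases hn : n - m = 0
  · rw [hn, h.zero, norm_one, zpow_zero, mul_one]
  · exact (h.inn _ hn).trans hθ.le

end Lead

section EvF

variable {k C L : Type*} [NontriviallyNormedField k] [CompleteSpace k] [IsUltrametricDist k]
  [NormedField C] [IsUltrametricDist C] [NormedAlgebra k C] [Algebra.IsAlgebraic k C]
  [IsAlgClosed C] [hk : Fact (DiscNorm k)]
  [NormedField L] [IsUltrametricDist L] [CompleteSpace L]
  {j : C →+* L} {t : L} (hj : ∀ c, ‖j c‖ = ‖c‖)

include hj

variable (k) in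
/-- extension of the evaluation to the field of fractions -/
def Ac.evF (ht : Ty3 j t) (U : Ac j t) : FA k U.c →+* L :=
  IsFractionRing.lift (A := AN k U.c) (K := FA k U.c) (g := U.ev hj) (U.ev_injective hj ht)

theorem Ac.evF_algebraMap (ht : Ty3 j t) (U : Ac j t) (a : AN k U.c) :
    U.evF k hj ht (algebraMap (AN k U.c) (FA k U.c) a) = U.ev hj a :=
  IsFractionRing.lift_algebraMap _ a

theorem exists_emb {K : Type*} [Field K] [Algebra C K] (κ : K →+* L)
    (hκ : ∀ c, κ (algebraMap C K c) = j c) (ht : Ty3 j t) (U : Ac j t) (S : Set K)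
    (hS : IntermediateField.adjoin C S = ⊤) (hU : ∀ s ∈ S, ∃ a : AN k U.c, U.ev hj a = κ s) :
    ∃ io : K →ₐ[C] EE k C, (∀ z, io z ∈ FA k U.c) ∧
      ∀ (z : K) (a : AN k U.c), U.ev hj a = κ z → io z = a.1 := by
  have hC : ∀ c : C, U.evF k hj ht (algebraMap C (FA k U.c) c) = j c := by
    intro c
    rw [IsScalarTower.algebraMap_apply C (AN k U.c) (FA k U.c), U.evF_algebraMap hj ht,
      U.ev_algebraMap hj]
  let R : Subfield K := (U.evF k hj ht).fieldRange.comap κ
  have hR : ∀ c : C, algebraMap C K c ∈ R := by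
    intro c
    refine Subfield.mem_comap.2 ⟨algebraMap C (FA k U.c) c, ?_⟩
    rw [hC, hκ]
  have hall : ∀ z : K, ∃ g : FA k U.c, U.evF k hj ht g = κ z := by
    have h1 : IntermediateField.adjoin C S ≤ R.toIntermediateField hR := by
      rw [IntermediateField.adjoin_le_iff]
      intro s hs
      obtain ⟨a, ha⟩ := hU s hs
      refine Subfield.mem_comap.2 ⟨algebraMap (AN k U.c) (FA k U.c) a, ?_⟩
      rw [U.evF_algebraMap hj ht, ha]
    intro z
    have h2 : z ∈ R.toIntermediateField hR := h1 (by rw [hS]; exact IntermediateField.mem_top)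
    exact Subfield.mem_comap.1 h2
  choose g hg using hall
  have hinj : Function.Injective (U.evF k hj ht) := (U.evF k hj ht).injective
  let io : K →ₐ[C] EE k C :=
    { toFun := fun z => (g z : EE k C)
      map_one' := by
        have : g 1 = 1 := hinj (by rw [hg, map_one, map_one])
        rw [this]; rfl
      map_mul' := fun x y => by
        have : g (x * y) = g x * g y := hinj (by rw [hg, map_mul, map_mul, hg, hg])
        rw [this]; rfl
      map_zero' := by
        have : g 0 = 0 := hinj (by rw [hg, map_zero, map_zero])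
        rw [this]; rfl
      map_add' := fun x y => by
        have : g (x + y) = g x + g y := hinj (by rw [hg, map_add, map_add, hg, hg])
        rw [this]; rfl
      commutes' := fun c => by
        have : g (algebraMap C K c) = algebraMap C (FA k U.c) c := hinj (by rw [hg, hκ, hC])
        rw [this]; rfl }
  refine ⟨io, fun z => (g z).2, fun z a ha => ?_⟩
  have : g z = algebraMap (AN k U.c) (FA k U.c) a :=
    hinj (by rw [hg, U.evF_algebraMap hj ht, ha])
  change ((g z : FA k U.c) : EE k C) = a.1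
  rw [this]
  rfl

/-- **one norm of `K`: the cell data on all small annuli** -/
theorem cell3 {K : Type*} [Field K] [Algebra C K] (κ : K →+* L)
    (hκ : ∀ c, κ (algebraMap C K c) = j c) (ht : Ty3 j t) (hR : ∀ z : K, κ z ∈ Rep k hj ht)
    (S : Finset K) (hS : IntermediateField.adjoin C (S : Set K) = ⊤) {ξ : K} {m : ℕ} {al : C}
    {θ : ℝ} (hθ : θ < 1)
    (hξ : ∀ᶠ U in l3 j t, ∃ u v : AN k U.c, u * v = 1 ∧ BdA 1 v ∧ DU θ u ∧
        U.ev hj (algebraMap C _ (al * U.σ ^ (m : ℤ)) * ⟨T m, T_mem_AN U.c m⟩ * u) = κ ξ) :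
    ∀ᶠ U in l3 j t, ∃ (io : K →ₐ[C] EE k C) (f : EE k C), (∀ z, io z ∈ FA k U.c) ∧
      (∀ (z : K) (a : AN k U.c), U.ev hj a = κ z → io z = a.1) ∧ WE f m ∧
      (∀ n : ℤ, ‖f.co n‖ * ‖U.c‖ ^ n ≤ ‖U.c‖ ^ m) ∧
      io ξ = algebraMap C (EE k C) (al * U.σ ^ m) * f := by
  have h1 : ∀ᶠ U in l3 j t, ∀ s ∈ S, ∃ a : AN k U.c, U.ev hj a = κ s := by
    rw [Filter.eventually_all_finset]
    intro s _
    exact (mem_Rep hj).1 (hR s)
  filter_upwards [h1, hξ] with U hU1 hU2
  obtain ⟨io, hio1, hio2⟩ := exists_emb hj κ hκ ht U (S : Set K) hS (fun s hs => hU1 s hs)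
  obtain ⟨u, v, -, -, hDU, h3⟩ := hU2
  refine ⟨io, T m * u.1, hio1, hio2, hDU.we hθ m, hDU.wa U.c_ne hθ m, ?_⟩
  rw [hio2 ξ _ h3, ← zpow_natCast U.σ m, ← mul_assoc]
  rfl

/-- norms on small annuli -/
theorem gn_io_le {K : Type*} [Field K] [Algebra C K] (κ : K →+* L) (ht : Ty3 j t) {z : K}
    (hR : κ z ∈ Rep k hj ht) {η : ℝ} (hη : 1 < η) :
    ∀ᶠ U in l3 j t, ∀ io : K →ₐ[C] EE k C,
      (∀ (z : K) (a : AN k U.c), U.ev hj a = κ z → io z = a.1) → gn (io z) ≤ η * ‖κ z‖ := by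
  filter_upwards [Rep_cell (k := k) hj ht hR hη] with U hU io hio
  obtain ⟨a, ha, hb⟩ := hU
  rw [hio z a ha]
  exact bdd_one_iff.1 hb.1

/-- elements close to `t ^ l` -/
theorem gn_io_eq {K : Type*} [Field K] [Algebra C K] (κ : K →+* L) (ht : Ty3 j t)
    (hR : ∀ z : K, κ z ∈ Rep k hj ht) {tK : K} (htK : κ tK = t) (l : ℕ) {z : K}
    (hz : ‖κ (z - tK ^ l)‖ < ‖t‖ ^ l) :
    ∀ᶠ U in l3 j t, ∀ io : K →ₐ[C] EE k C,
      (∀ (z : K) (a : AN k U.c), U.ev hj a = κ z → io z = a.1) →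
        gn (io z) = ‖U.σ‖ ^ l ∧ od (io z) = l := by
  have ht0 : 0 < ‖t‖ := norm_pos_iff.2 ht.1
  have htl : 0 < ‖t‖ ^ l := pow_pos ht0 l
  obtain ⟨η, hη1, hη2⟩ : ∃ η : ℝ, 1 < η ∧ η * ‖κ (z - tK ^ l)‖ < ‖t‖ ^ l := by
    rcases (norm_nonneg (κ (z - tK ^ l))).eq_or_lt with h0 | h0
    · exact ⟨2, one_lt_two, by rw [← h0, mul_zero]; exact htl⟩
    · obtain ⟨η, h1, h2⟩ := exists_between ((one_lt_div h0).2 hz)
      exact ⟨η, h1, by rwa [lt_div_iff₀ h0] at h2⟩
  filter_upwards [gn_io_le hj κ ht (hR (z - tK ^ l)) hη1] with U hU io hio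
  have h1 := hU io hio
  have hjσ : j U.σ ≠ 0 := by rw [← norm_pos_iff, hj]; exact U.σ_pos
  have h2 : io (tK ^ l) = mo l (U.σ ^ l) := by
    refine hio (tK ^ l) ⟨mo l (U.σ ^ l), mo_mem_AN _ _ _⟩ ?_
    rw [U.ev_mo hj, map_pow, map_pow, htK, zpow_natCast, div_pow]
    have : (j U.σ) ^ l ≠ 0 := pow_ne_zero _ hjσ
    field_simp
  have h3 : io z = mo l (U.σ ^ l) + io (z - tK ^ l) := by
    rw [map_sub, h2]; ring
  have h4 : gn (io (z - tK ^ l)) < ‖U.σ ^ l‖ := by
    rw [norm_pow]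
    exact (h1.trans_lt hη2).trans_le (pow_le_pow_left₀ ht0.le U.lt_out.le l)
  have h5 := lead_of (k := k) (l : ℤ) h4
  rw [h3]
  rw [norm_pow] at h5
  exact h5

end EvF

end Crest.Agent.R013.Spread3_260
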