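import Crest.Agent.R013.Spt5_260

/-! # R013 / Spt6_260 : the data of one norm of `K` over all small annuli of the `x`-line.

`lx r` : filter of annuli `(c, σ)`, `‖c σ‖ < r < ‖σ‖`; `Out3 k w ξ r d` : what one norm `w` of `K`
contributes; `exists_out3`. -/

set_option autoImplicit false
set_option linter.unusedSectionVars false

noncomputable section

namespace Crest.Agent.R013.Spread3_260

open Filter Topology
open Crest.Agent.R013.Cell_408 (FinDef DiscNorm BD)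
open Crest.Agent.R013.EE809 Crest.Agent.R013.CAn_243
open Crest.Agent.R013.Spread_607 (UBall FT sp1)

section LX

/-- annuli `‖c σ‖ < |x| < ‖σ‖` shrinking to `|x| = r` -/
def lx (C : Type*) [NormedField C] (r : ℝ) : Filter (C × C) where
  sets := {S | ∃ r1 r2 : ℝ, r1 < r ∧ r < r2 ∧ ∀ P : C × C, P.1 ≠ 0 → r1 < ‖P.1‖ * ‖P.2‖ →
    ‖P.1‖ * ‖P.2‖ < r → r < ‖P.2‖ → ‖P.2‖ < r2 → P ∈ S}
  univ_sets := ⟨r - 1, r + 1, by linarith, by linarith, fun _ _ _ _ _ _ => trivial⟩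
  sets_of_superset := by
    rintro S S' ⟨r1, r2, h1, h2, h⟩ hSS
    exact ⟨r1, r2, h1, h2, fun P h3 h4 h5 h6 h7 => hSS (h P h3 h4 h5 h6 h7)⟩
  inter_sets := by
    rintro S S' ⟨r1, r2, h1, h2, h⟩ ⟨s1, s2, h3, h4, h'⟩
    exact ⟨max r1 s1, min r2 s2, max_lt h1 h3, lt_min h2 h4, fun P h5 h6 h7 h8 h9 =>
      ⟨h P h5 ((le_max_left _ _).trans_lt h6) h7 h8 (h9.trans_le (min_le_left _ _)),
        h' P h5 ((le_max_right _ _).trans_lt h6) h7 h8 (h9.trans_le (min_le_right _ _))⟩⟩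

variable {C : Type*} [NormedField C]

theorem eventually_lx {r : ℝ} {Q : C × C → Prop} :
    (∀ᶠ P in lx C r, Q P) ↔ ∃ r1 r2 : ℝ, r1 < r ∧ r < r2 ∧ ∀ P : C × C, P.1 ≠ 0 →
      r1 < ‖P.1‖ * ‖P.2‖ → ‖P.1‖ * ‖P.2‖ < r → r < ‖P.2‖ → ‖P.2‖ < r2 → Q P := Iff.rfl

theorem eventually_lx_ann (r : ℝ) :
    ∀ᶠ P in lx C r, P.1 ≠ 0 ∧ ‖P.1‖ * ‖P.2‖ < r ∧ r < ‖P.2‖ :=
  eventually_lx.2 ⟨r - 1, r + 1, by linarith, by linarith, fun _ h1 _ h2 h3 _ => ⟨h1, h2, h3⟩⟩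

theorem lx_neBot (k : Type*) [NontriviallyNormedField k] [NormedAlgebra k C] [IsAlgClosed C]
    {r : ℝ} (hr : 0 < r) : (lx C r).NeBot := by
  rw [Filter.neBot_iff]
  intro h
  have h1 : (∅ : Set (C × C)) ∈ lx C r := by rw [h]; exact Filter.mem_bot
  obtain ⟨r1, r2, h2, h3, h4⟩ := h1
  obtain ⟨σ, hσ, hσ1, hσ2⟩ := exists_norm_between k (C := C) h3 (hr.trans h3)
  obtain ⟨τ, hτ, hτ1, hτ2⟩ := exists_norm_between k (C := C) h2 hr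
  have e : ‖τ / σ‖ * ‖σ‖ = ‖τ‖ := by
    rw [norm_div, div_mul_cancel₀ _ (norm_ne_zero_iff.2 hσ)]
  exact h4 (τ / σ, σ) (div_ne_zero hτ hσ) (by change r1 < ‖τ / σ‖ * ‖σ‖; rw [e]; exact hτ1)
    (by change ‖τ / σ‖ * ‖σ‖ < r; rw [e]; exact hτ2) hσ1 hσ2

end LX

section Out

variable {k C L : Type*} [NontriviallyNormedField k] [CompleteSpace k] [IsUltrametricDist k]
  [NormedField C] [IsUltrametricDist C] [NormedAlgebra k C] [Algebra.IsAlgebraic k C]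
  [IsAlgClosed C] [hk : Fact (DiscNorm k)]

variable (k C) in
/-- what one norm `w` of `K` contributes to the annuli around `|ξ| = r`; `d` = local degree -/
structure Out3 {K : Type*} [Field K] [Algebra C K] (w : K → ℝ) (ξ : K) (r : ℝ) (d : ℕ) where
  m : ℕ
  m_ne : m ≠ 0
  d_le : d ≤ m
  tK : K
  t_pos : 0 < w tK
  c' : C × C → C
  σ' : C × C → C
  f : C × C → EE k C
  io : C × C → K →ₐ[C] EE k C
  ann : ∀ᶠ P in lx C r, c' P ≠ 0 ∧ ‖c' P‖ ^ m = ‖P.1‖ ∧ w tK < ‖σ' P‖ ∧ WE (f P) m ∧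
    (∀ n : ℤ, ‖(f P).co n‖ * ‖c' P‖ ^ n ≤ ‖c' P‖ ^ m) ∧ (∀ z, io P z ∈ FA k (c' P)) ∧
    io P ξ = algebraMap C (EE k C) P.2 * f P
  le : ∀ (z : K) (η : ℝ), 1 < η → ∀ᶠ P in lx C r, gn (io P z) ≤ η * w z
  eq : ∀ (z : K) (l : ℕ), w (z - tK ^ l) < w tK ^ l →
    ∀ᶠ P in lx C r, gn (io P z) = ‖σ' P‖ ^ l ∧ od (io P z) = l

variable [NormedField L] [IsUltrametricDist L] [CompleteSpace L]
  {j : C →+* L} {t : L}

/-- from annuli of the `x`-line to annuli of the `t`-line -/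
theorem lx_to_l3 {al : C} (hal : al ≠ 0) {m : ℕ} (hm : m ≠ 0)
    {r : ℝ} (hr : r = ‖al‖ * ‖t‖ ^ m) {Q : Ac j t → Prop} (hQ : ∀ᶠ U in l3 j t, Q U) :
    ∀ᶠ P in lx C r, ∀ U : Ac j t, U.c ^ m = P.1 → U.σ ^ m = P.2 / al → Q U := by
  obtain ⟨s1, s2, h1, h2, h3⟩ := eventually_l3.1 hQ
  have hal' : 0 < ‖al‖ := norm_pos_iff.2 hal
  rcases (norm_nonneg t).eq_or_lt with ht | ht
  · -- no annuli
    refine Eventually.of_forall fun P U _ _ => ?_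
    exact absurd U.t_pos (not_lt.2 ht.symm.le)
  have h0 : max s1 0 < ‖t‖ := max_lt h1 ht
  refine eventually_lx.2 ⟨‖al‖ * (max s1 0) ^ m, ‖al‖ * s2 ^ m, ?_, ?_, ?_⟩
  · rw [hr]
    exact mul_lt_mul_of_pos_left (pow_lt_pow_left₀ h0 (le_max_right _ _) hm) hal'
  · rw [hr]
    exact mul_lt_mul_of_pos_left (pow_lt_pow_left₀ h2 ht.le hm) hal'
  · intro P _ h5 _ _ h8 U hc hσ
    have e1 : ‖U.σ‖ ^ m = ‖P.2‖ / ‖al‖ := by rw [← norm_pow, hσ, norm_div]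
    have e2 : (‖U.c‖ * ‖U.σ‖) ^ m = ‖P.1‖ * ‖P.2‖ / ‖al‖ := by
      rw [mul_pow, e1, ← norm_pow, hc, mul_div_assoc]
    refine h3 U ?_ ?_
    · refine (le_max_left s1 0).trans_lt (lt_of_pow_lt_pow_left₀ m (by positivity) ?_)
      rw [e2, lt_div_iff₀ hal', mul_comm]
      exact h5
    · refine lt_of_pow_lt_pow_left₀ m (ht.le.trans h2.le) ?_
      rw [e1, div_lt_iff₀ hal', mul_comm]
      exact h8

theorem exists_ac_of_lx {al : C} (hal : al ≠ 0) {m : ℕ} (hm : m ≠ 0)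
    {r : ℝ} (hr : r = ‖al‖ * ‖t‖ ^ m) :
    ∀ᶠ P in lx C r, ∃ U : Ac j t, U.c ^ m = P.1 ∧ U.σ ^ m = P.2 / al := by
  have hal' : 0 < ‖al‖ := norm_pos_iff.2 hal
  filter_upwards [eventually_lx_ann (C := C) r] with P hP
  obtain ⟨c, hc⟩ := IsAlgClosed.exists_pow_nat_eq P.1 (Nat.pos_of_ne_zero hm)
  obtain ⟨σ, hσ⟩ := IsAlgClosed.exists_pow_nat_eq (P.2 / al) (Nat.pos_of_ne_zero hm)
  have e1 : ‖σ‖ ^ m = ‖P.2‖ / ‖al‖ := by rw [← norm_pow, hσ, norm_div]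
  have e2 : (‖c‖ * ‖σ‖) ^ m = ‖P.1‖ * ‖P.2‖ / ‖al‖ := by
    rw [mul_pow, e1, ← norm_pow, hc, mul_div_assoc]
  refine ⟨⟨c, σ, ?_, ?_, ?_⟩, hc, hσ⟩
  · rintro rfl
    rw [zero_pow hm] at hc
    exact hP.1 hc.symm
  · refine lt_of_pow_lt_pow_left₀ m (norm_nonneg _) ?_
    rw [e2, div_lt_iff₀ hal', mul_comm (‖t‖ ^ m)]
    exact hP.2.1.trans_eq hr
  · refine lt_of_pow_lt_pow_left₀ m (norm_nonneg _) ?_
    rw [e1, lt_div_iff₀ hal', mul_comm (‖t‖ ^ m)]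
    exact hr.symm.trans_lt hP.2.2

/-- **the contribution of one norm** -/
theorem exists_out3 (hj : ∀ c, ‖j c‖ = ‖c‖) {K : Type*} [Field K] [Algebra C K] (κ : K →+* L)
    (hκ : ∀ c, κ (algebraMap C K c) = j c) (ht : Ty3 j t) (hR : ∀ z : K, κ z ∈ Rep k hj ht)
    (S : Finset K) (hS : IntermediateField.adjoin C (S : Set K) = ⊤)
    {tK : K} (htK : κ tK = t) {ξ : K} {m : ℕ} (hm : m ≠ 0) {al : C} (hal : al ≠ 0)
    {θ : ℝ} (hθ : θ < 1) (hn : ‖κ ξ‖ = ‖al‖ * ‖t‖ ^ m)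
    (hξ : ∀ᶠ U in l3 j t, ∃ u v : AN k U.c, u * v = 1 ∧ BdA 1 v ∧ DU θ u ∧
        U.ev hj (algebraMap C _ (al * U.σ ^ (m : ℤ)) * ⟨T m, T_mem_AN U.c m⟩ * u) = κ ξ)
    {d : ℕ} (hd : d ≤ m) : Nonempty (Out3 k C (fun z => ‖κ z‖) ξ ‖κ ξ‖ d) := by
  have ht0 : 0 < ‖t‖ := norm_pos_iff.2 ht.1
  have hr : 0 < ‖κ ξ‖ := by
    rw [hn]; exact mul_pos (norm_pos_iff.2 hal) (pow_pos ht0 m)
  have := lx_neBot (C := C) k hr
  have h1 := lx_to_l3 (j := j) hal hm hn (cell3 hj κ hκ ht hR S hS hθ hξ)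
  have h2 := exists_ac_of_lx (j := j) hal hm hn
  have h3 : ∀ᶠ P in lx C ‖κ ξ‖, ∃ y : Ac j t × (K →ₐ[C] EE k C) × EE k C,
      (y.1.c ^ m = P.1 ∧ y.1.σ ^ m = P.2 / al) ∧ (∀ z, y.2.1 z ∈ FA k y.1.c) ∧
      (∀ (z : K) (a : AN k y.1.c), y.1.ev hj a = κ z → y.2.1 z = a.1) ∧ WE y.2.2 m ∧
      (∀ n : ℤ, ‖y.2.2.co n‖ * ‖y.1.c‖ ^ n ≤ ‖y.1.c‖ ^ m) ∧
      y.2.1 ξ = algebraMap C (EE k C) P.2 * y.2.2 := by
    filter_upwards [h1, h2] with P hP1 hP2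
    obtain ⟨U, hc, hσ⟩ := hP2
    obtain ⟨io, f, e1, e2, e3, e4, e5⟩ := hP1 U hc hσ
    refine ⟨(U, io, f), ⟨hc, hσ⟩, e1, e2, e3, e4, ?_⟩
    change io ξ = algebraMap C (EE k C) P.2 * f
    rw [e5, hσ, mul_div_cancel₀ _ hal]
  obtain ⟨Y, hY⟩ := h3.choice
  refine ⟨⟨m, hm, hd, tK, by rw [htK]; exact ht0, fun P => (Y P).1.c, fun P => (Y P).1.σ,
    fun P => (Y P).2.2, fun P => (Y P).2.1, ?_, ?_, ?_⟩⟩
  · filter_upwards [hY] with P hP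
    obtain ⟨⟨hc, hσ⟩, e1, e2, e3, e4, e5⟩ := hP
    refine ⟨(Y P).1.c_ne, by rw [← norm_pow, hc], ?_, e3, e4, e1, e5⟩
    rw [htK]; exact (Y P).1.lt_out
  · intro z η hη
    have h4 := lx_to_l3 (j := j) hal hm hn (gn_io_le hj κ ht (hR z) hη)
    filter_upwards [hY, h4] with P hP hP4
    exact hP4 (Y P).1 hP.1.1 hP.1.2 (Y P).2.1 hP.2.2.1
  · intro z l hz
    rw [htK] at hz
    have h4 := lx_to_l3 (j := j) hal hm hn (gn_io_eq hj κ ht hR htK l hz)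
    filter_upwards [hY, h4] with P hP hP4
    exact hP4 (Y P).1 hP.1.1 hP.1.2 (Y P).2.1 hP.2.2.1

end Out

end Crest.Agent.R013.Spread3_260
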