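import Crest.Agent.R013.Spt6_260
import Crest.Agent.R013.Good6_408

/-! # R013 / Spt7_260 : good annuli from the contributions of the norms. -/

set_option autoImplicit false
set_option linter.unusedSectionVars false

noncomputable section

namespace Crest.Agent.R013.Spread3_260

open Filter Topology Module
open Crest.Agent.R013.Cell_408 (FinDef DiscNorm BD)
open Crest.Agent.R013.EE809 Crest.Agent.R013.CAn_243 Crest.Agent.R013.Good_408

variable {k C : Type*} [NontriviallyNormedField k] [CompleteSpace k] [IsUltrametricDist k]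
  [NormedField C] [IsUltrametricDist C] [NormedAlgebra k C] [Algebra.IsAlgebraic k C]
  [IsAlgClosed C] [hk : Fact (DiscNorm k)]

theorem gn_const_mul (c : C) (x : EE k C) : gn (algebraMap C (EE k C) c * x) = ‖c‖ * gn x := by
  rw [gn_mul hk.out, gn_algebraMap]

theorem od_const_mul {c : C} (hc : c ≠ 0) {x : EE k C} (hx : x ≠ 0) :
    od (algebraMap C (EE k C) c * x) = od x := by
  have h1 : (algebraMap C (EE k C) c) ≠ 0 := (map_ne_zero _).2 hc
  have h2 : od (algebraMap C (EE k C) c) = 0 := by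
    rw [algebraMap_eq]; exact od_mono 0 _ hc
  rw [od_mul hk.out h1 hx, h2, zero_add]

variable {K : Type*} [Field K] [Algebra C K] [Algebra (RatFunc C) K]
    [IsScalarTower C (RatFunc C) K] [FiniteDimensional (RatFunc C) K]

/-- a family with `Inj` is independent -/
theorem li_of_inj {y : EE k C} (hy : Transcendental C y) {J : Type*} {m : J → ℕ} {f : J → EE k C}
    {we : ∀ j, WE (f j) (m j)} {m_ne : ∀ j, m j ≠ 0} {io : J → K →ₐ[C] EE k C}
    (hx : ∀ j, io j (algebraMap (RatFunc C) K RatFunc.X) = compE (f j) (we j) (m_ne j) y)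
    {I : Type*} [Fintype I] (z : I → K)
    (hz : Inj (fun j => (compE (f j) (we j) (m_ne j)).toRingHom) (fun j => (io j).toRingHom) z) :
    LinearIndependent (RatFunc C) z := by
  rw [Fintype.linearIndependent_iff]
  intro r hr
  have h4 := hz (fun p => ratHom y hy (r p)) (fun j => by
    change ∑ p, compE (f j) (we j) (m_ne j) (ratHom y hy (r p)) * io j (z p) = 0
    have h5 := congrArg (io j) hr
    rw [map_zero, map_sum] at h5
    rw [← h5]
    refine Finset.sum_congr rfl fun p _ => ?_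
    rw [commE hy hx, Algebra.smul_def, map_mul])
  intro p
  exact (map_eq_zero (ratHom y hy)).1 (congrFun h4 p)

/-- **assembly at type 3** -/
theorem goodA_of_out3 (a : C) {r : ℝ} (J : Type) [Fintype J] (w : J → K → ℝ)
    (d : J → ℕ) (hd : finrank (RatFunc C) K ≤ ∑ i, d i)
    (o : ∀ i, Out3 k C (w i) (algebraMap (RatFunc C) K RatFunc.X - algebraMap C K a) r (d i))
    (approx : ∀ (b : J → K) (ε : ℝ), 0 < ε → ∃ y, ∀ i, w i (y - b i) < ε) :
    ∀ᶠ P in lx C r, GoodA k C K P.1 (annY k C a P.2) := by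
  classical
  -- the approximate family
  have hz : ∀ p : Σ i, Fin (o i).m, ∃ z : K,
      w p.1 (z - (o p.1).tK ^ (p.2 : ℕ)) < w p.1 (o p.1).tK ^ (p.2 : ℕ) ∧
      ∀ i, i ≠ p.1 → w i z < w p.1 (o p.1).tK ^ (p.2 : ℕ) / 2 := by
    intro p
    have h0 : 0 < w p.1 (o p.1).tK ^ (p.2 : ℕ) := pow_pos (o p.1).t_pos _
    obtain ⟨z, hz⟩ := approx (fun i => if i = p.1 then (o p.1).tK ^ (p.2 : ℕ) else 0)
      (w p.1 (o p.1).tK ^ (p.2 : ℕ) / 2) (by linarith)
    refine ⟨z, ?_, fun i hi => ?_⟩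
    · have := hz p.1
      rw [if_pos rfl] at this
      linarith
    · have := hz i
      rwa [if_neg hi, sub_zero] at this
  choose z' hz1 hz2 using hz
  have e1 : ∀ᶠ P in lx C r, ∀ p : Σ i, Fin (o i).m,
      gn ((o p.1).io P (z' p)) = ‖(o p.1).σ' P‖ ^ (p.2 : ℕ) ∧
        od ((o p.1).io P (z' p)) = ((p.2 : ℕ) : ℤ) :=
    Filter.eventually_all.2 fun p => (o p.1).eq (z' p) p.2 (hz1 p)
  have e2 : ∀ᶠ P in lx C r, ∀ (p : Σ i, Fin (o i).m) (i : J),
      gn ((o i).io P (z' p)) ≤ 2 * w i (z' p) :=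
    Filter.eventually_all.2 fun p => Filter.eventually_all.2 fun i =>
      (o i).le (z' p) 2 one_lt_two
  have e3 := Filter.eventually_all.2 fun i => (o i).ann
  filter_upwards [e1, e2, e3, eventually_lx_ann r] with P h1 h2 h3 h4
  obtain ⟨hP1, hP2, hP3⟩ := h4
  have hPσ : P.2 ≠ 0 := by
    intro h
    rw [h, norm_zero] at hP3 hP2
    rw [mul_zero] at hP2
    linarith
  have hPlt : ‖P.1‖ < 1 := by
    have h5 : 0 < ‖P.2‖ := norm_pos_iff.2 hPσ
    by_contra h6
    have := not_lt.1 h6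
    nlinarith
  have hy : Transcendental C (annY k C a P.2) := transc_annY a hPσ
  have we : ∀ i, WE ((o i).f P) (o i).m := fun i => (h3 i).2.2.2.1
  have m_ne : ∀ i, (o i).m ≠ 0 := fun i => (o i).m_ne
  have hx : ∀ i, (o i).io P (algebraMap (RatFunc C) K RatFunc.X) =
      compE ((o i).f P) (we i) (m_ne i) (annY k C a P.2) := by
    intro i
    have h5 := (h3 i).2.2.2.2.2.2
    rw [annY, map_add, map_mul, AlgHom.commutes, AlgHom.commutes, compE_T_one, ← h5, map_sub,
      AlgHom.commutes]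
    ring
  have hσ0 : ∀ i, (o i).σ' P ≠ 0 := fun i => by
    have h5 := (h3 i).2.2.1
    exact norm_pos_iff.1 ((o i).t_pos.trans h5)
  set z : (Σ i, Fin (o i).m) → K := fun p =>
    algebraMap C K (((o p.1).σ' P ^ (p.2 : ℕ))⁻¹) * z' p with hzdef
  have hio : ∀ (p : Σ i, Fin (o i).m) (i : J), (o i).io P (z p) =
      algebraMap C (EE k C) (((o p.1).σ' P ^ (p.2 : ℕ))⁻¹) * (o i).io P (z' p) := by
    intro p i
    rw [hzdef]
    dsimp only
    rw [map_mul, AlgHom.commutes]
  have hσp : ∀ p : Σ i, Fin (o i).m, 0 < ‖(o p.1).σ' P‖ ^ (p.2 : ℕ) := fun p =>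
    pow_pos (norm_pos_iff.2 (hσ0 p.1)) _
  have g1 : ∀ p, gn ((o p.1).io P (z p)) = 1 := by
    intro p
    rw [hio, gn_const_mul, norm_inv, norm_pow, (h1 p).1, inv_mul_cancel₀ (hσp p).ne']
  have g2 : ∀ p, od ((o p.1).io P (z p)) = ((p.2 : ℕ) : ℤ) := by
    intro p
    have h5 : (o p.1).io P (z' p) ≠ 0 := by
      intro h
      have := (h1 p).1
      rw [h, gn_zero] at this
      exact (hσp p).ne this
    rw [hio, od_const_mul (inv_ne_zero (pow_ne_zero _ (hσ0 p.1))) h5, (h1 p).2]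
  have g3 : ∀ p i, i ≠ p.1 → gn ((o i).io P (z p)) < 1 := by
    intro p i hi
    rw [hio, gn_const_mul, norm_inv, norm_pow, ← div_eq_inv_mul, div_lt_one (hσp p)]
    have h5 := h2 p i
    have h6 := hz2 p i hi
    have h7 : w p.1 (o p.1).tK ^ (p.2 : ℕ) ≤ ‖(o p.1).σ' P‖ ^ (p.2 : ℕ) :=
      pow_le_pow_left₀ (o p.1).t_pos.le (h3 p.1).2.2.1.le _
    linarith
  have hinj := inj_ends J (fun i => (o i).m) (fun i => (o i).f P) we m_ne
    (fun i => (o i).io P) z g1 g2 (fun p i hi => Or.inl (g3 p i hi))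
  have hli : LinearIndependent (RatFunc C) z := li_of_inj hy hx z hinj
  have hsum : ∑ i, (o i).m = finrank (RatFunc C) K := by
    refine le_antisymm ?_ (hd.trans (Finset.sum_le_sum fun i _ => (o i).d_le))
    have h5 := hli.fintype_card_le_finrank
    rw [Fintype.card_sigma] at h5
    refine le_trans (le_of_eq ?_) h5
    exact Finset.sum_congr rfl fun j _ => (Fintype.card_fin _).symm
  exact GoodA.mk_res hP1 hPlt (annY k C a P.2) hy (annY_mem a P.2 P.1) J (fun i => (o i).m) m_ne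
    (fun i => (o i).c' P) (fun i => (h3 i).2.1) (fun i => (o i).f P) we
    (fun i => (h3 i).2.2.2.2.1) (fun i => (o i).io P) (fun i => (h3 i).2.2.2.2.2.1) hx hsum z g1 g2
    (fun p i hi => Or.inl (g3 p i hi))

end Crest.Agent.R013.Spread3_260
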