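import Crest.Agent.R013.Spt7_260
import Crest.Agent.R013.Spr11_607
import Crest.Agent.R013.LU3f_205

/-! # R013 / Spt8_260 : the contribution of one norm, from 205's LU3. -/

set_option autoImplicit false
set_option linter.unusedSectionVars false
set_option linter.style.haveILetI false

noncomputable section

namespace Crest.Agent.R013.Spread3_260

open Filter Topology Module
open Crest.Agent.R013.Cell_408 (FinDef DiscNorm BD)
open Crest.Agent.R013.EE809 Crest.Agent.R013.CAn_243 Crest.Agent.R013.Good_408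
open Crest.Agent.R013.Spread_607 (UBall FT sp1 finite_adjoin_X subfield_top)
open Crest.Agent.R013.LU3_205 (T3 VG Dn LU3)
open scoped NNReal

section T3

variable {C K : Type*} [Field C] [Field K] [Algebra C K]

theorem t3_inv {w : Valuation K ℝ≥0} {t : K} (h : T3 C w t) : T3 C w t⁻¹ := by
  refine ⟨inv_ne_zero h.ne, fun n c hc => ?_⟩
  rw [map_inv₀, inv_zpow, ← zpow_neg] at hc
  have := h.tor _ c hc
  omega

theorem adjoin_inv (t : K) : IntermediateField.adjoin C {t⁻¹} = IntermediateField.adjoin C {t} := by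
  refine le_antisymm ?_ ?_
  · rw [IntermediateField.adjoin_simple_le_iff]
    exact inv_mem (IntermediateField.mem_adjoin_simple_self C t)
  · rw [IntermediateField.adjoin_simple_le_iff]
    have h := inv_mem (IntermediateField.mem_adjoin_simple_self C t⁻¹)
    rwa [inv_inv] at h

/-- choose the coordinate so that the exponent is positive -/
theorem exists_pos_coord {w : Valuation K ℝ≥0} {t : K} (h : T3 C w t) {c : C} {n : ℤ} (hn : n ≠ 0)
    {ξ : K} (hξ : w ξ = w (algebraMap C K c) * w t ^ n) :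
    ∃ (t' : K) (m : ℕ), m ≠ 0 ∧ T3 C w t' ∧ w ξ = w (algebraMap C K c) * w t' ^ m ∧
      IntermediateField.adjoin C {t'} = IntermediateField.adjoin C {t} := by
  rcases lt_or_gt_of_ne hn with h1 | h1
  · obtain ⟨m, hm⟩ := Int.exists_eq_neg_ofNat h1.le
    refine ⟨t⁻¹, m, by omega, t3_inv h, ?_, adjoin_inv t⟩
    rw [hξ, hm, map_inv₀, zpow_neg, zpow_natCast, inv_pow]
  · obtain ⟨m, hm⟩ := Int.eq_ofNat_of_zero_le h1.le
    refine ⟨t, m, by omega, h, ?_, rfl⟩
    rw [hξ, hm, zpow_natCast]

end T3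

section Loc

universe u

variable {k : Type*} {C K : Type u} [NontriviallyNormedField k] [CompleteSpace k] [IsUltrametricDist k]
  [NormedField C] [IsUltrametricDist C] [NormedAlgebra k C] [Algebra.IsAlgebraic k C]
  [IsAlgClosed C] [CharZero C] [hk : Fact (DiscNorm k)]
  [Field K] [Algebra C K]
  {L : Type*} [NormedField L] [IsUltrametricDist L] [CompleteSpace L]

/-- every element of `K` is represented -/
theorem rep_all (κ : K →+* L) {j : C →+* L} (hjκ : ∀ c, κ (algebraMap C K c) = j c)
    (hj : ∀ c, ‖j c‖ = ‖c‖) {t1 : K} (ht : Ty3 j (κ t1))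
    (hfd : FiniteDimensional (IntermediateField.adjoin C {t1}) K)
    (hd : ∀ z : K, ∀ e : ℝ, 0 < e → ∃ s ∈ IntermediateField.adjoin C {t1}, ‖κ (z - s)‖ < e)
    (z : K) : κ z ∈ closure (FT j (κ t1) : Set L) ∧ κ z ∈ Rep k hj ht := by
  haveI : CharZero K := charZero_of_injective_algebraMap (algebraMap C K).injective
  haveI : CharZero L := charZero_of_injective_ringHom κ.injective
  have hmem : ∀ s ∈ IntermediateField.adjoin C {t1}, κ s ∈ FT j (κ t1) := by
    intro s hs
    have h1 : IntermediateField.adjoin C {t1} ≤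
        { (FT j (κ t1)).comap κ with
          algebraMap_mem' := fun c => by
            change κ (algebraMap C K c) ∈ FT j (κ t1)
            rw [hjκ]
            exact Subfield.subset_closure (Or.inl ⟨c, rfl⟩) } := by
      rw [IntermediateField.adjoin_le_iff]
      intro x hx
      rw [Set.mem_singleton_iff] at hx
      rw [hx]
      change κ t1 ∈ FT j (κ t1)
      exact Subfield.subset_closure (Or.inr rfl)
    exact h1 hs
  have hcl : κ z ∈ closure (FT j (κ t1) : Set L) := by
    rw [Metric.mem_closure_iff]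
    intro ε hε
    obtain ⟨s, hs, hs'⟩ := hd z ε hε
    refine ⟨κ s, hmem s hs, ?_⟩
    rw [dist_eq_norm, ← map_sub]
    exact hs'
  refine ⟨hcl, alg_mem_Rep hj ht ?_ hcl⟩
  let g : IntermediateField.adjoin C {t1} →+* FT j (κ t1) :=
    (κ.comp (algebraMap (IntermediateField.adjoin C {t1}) K)).codRestrict _
      (fun s => hmem s s.2)
  have hz : IsIntegral (IntermediateField.adjoin C {t1}) z := Algebra.IsIntegral.isIntegral z
  have h2 : IsIntegral (FT j (κ t1)) (κ z) := by
    obtain ⟨P, hP, hP0⟩ := hz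
    refine ⟨P.map g, hP.map g, ?_⟩
    rw [Polynomial.eval₂_map]
    have h3 : (algebraMap (FT j (κ t1)) L).comp g =
        κ.comp (algebraMap (IntermediateField.adjoin C {t1}) K) := rfl
    rw [h3, ← Polynomial.hom_eval₂, hP0, map_zero]
  exact h2.isAlgebraic

variable [Algebra (RatFunc C) K] [IsScalarTower C (RatFunc C) K] [FiniteDimensional (RatFunc C) K]
  {E : Type*} [NontriviallyNormedField E] [CompleteSpace E] [Algebra (RatFunc C) E]
  [NormedAlgebra E L] [FiniteDimensional E L]

variable (k) in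
/-- **the contribution of one completion `L` of `K`** -/
theorem loc3 (κ : K →+* L)
    (hκ : ∀ f : RatFunc C, κ (algebraMap (RatFunc C) K f) = algebraMap E L (algebraMap (RatFunc C) E f))
    (hdense : ∀ y : L, ∀ ε : ℝ, 0 < ε → ∃ z : K, ‖κ z - y‖ < ε)
    (hn : ∀ c : C, ‖κ (algebraMap C K c)‖ = ‖c‖) {p : ℕ} (hp : p.Prime) (hp1 : ‖(p : C)‖ < 1)
    (a : C) (hξ : ∀ c : C, ‖κ (algebraMap (RatFunc C) K RatFunc.X - algebraMap C K a)‖ ≠ ‖c‖) :
    Nonempty (Out3 k C (fun z => ‖κ z‖) (algebraMap (RatFunc C) K RatFunc.X - algebraMap C K a)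
      ‖κ (algebraMap (RatFunc C) K RatFunc.X - algebraMap C K a)‖ (Module.finrank E L)) := by
  classical
  haveI : CharZero K := charZero_of_injective_algebraMap (algebraMap C K).injective
  set XK : K := algebraMap (RatFunc C) K RatFunc.X with hXK
  set ξ : K := XK - algebraMap C K a with hξdef
  let w : Valuation K ℝ≥0 := (NormedField.valuation (K := L)).comap κ
  have hw : ∀ z, w z = ‖κ z‖₊ := fun z => rfl
  have hwr : ∀ z, (w z : ℝ) = ‖κ z‖ := fun z => rfl
  have hξ0 : ξ ≠ 0 := by
    intro h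
    refine hξ 0 ?_
    rw [h, map_zero, norm_zero, norm_zero]
  haveI := finite_adjoin_X (C := C) (K := K)
  -- local uniformisation
  obtain ⟨t0, hT3, hVG, -, hfin, hden⟩ := LU3 hp w (by
      have h2 : w ((p : ℕ) : K) = ‖(p : C)‖₊ := by
        rw [hw]
        have : ((p : ℕ) : K) = algebraMap C K (p : C) := (map_natCast (algebraMap C K) p).symm
        rw [this]
        exact NNReal.coe_injective (hn _)
      rw [h2]
      exact_mod_cast hp1) XK ⟨ξ, hξ0, fun c h => hξ c (by
        rw [← hn c]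
        exact congrArg NNReal.toReal h)⟩
  obtain ⟨c0, n, hc0, hcn⟩ := hVG ξ (Set.mem_univ _) hξ0
  have hn0 : n ≠ 0 := by
    rintro rfl
    rw [zpow_zero, mul_one] at hcn
    refine hξ c0 ?_
    rw [← hn c0]
    exact congrArg NNReal.toReal hcn
  obtain ⟨t1, m, hm, hT1, hcm, hadj⟩ := exists_pos_coord hT3 hn0 hcn
  have hfin1 : FiniteDimensional (IntermediateField.adjoin C {t1}) K := by rw [hadj]; exact hfin
  have hden1 : ∀ z : K, ∀ e : ℝ, 0 < e → ∃ s ∈ IntermediateField.adjoin C {t1},
      ‖κ (z - s)‖ < e := by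
    intro z e he
    obtain ⟨s, hs, hs'⟩ := hden z ⟨e, he.le⟩ he
    exact ⟨s, by rw [hadj]; exact hs, hs'⟩
  let j : C →+* L := κ.comp (algebraMap C K)
  have hjκ : ∀ c, κ (algebraMap C K c) = j c := fun c => rfl
  have hj : ∀ c, ‖j c‖ = ‖c‖ := hn
  have ht : Ty3 j (κ t1) := by
    refine ⟨(map_ne_zero κ).2 hT1.ne, fun c h => ?_⟩
    have h1 : w t1 ^ (1 : ℤ) = w (algebraMap C K c) := by
      rw [zpow_one]
      apply NNReal.coe_injective
      rw [hwr, hwr, h, hn]
    exact one_ne_zero (hT1.tor 1 c h1)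
  have hall := rep_all (k := k) κ hjκ hj ht hfin1 hden1
  have hd : ∀ y : L, y ∈ closure (FT j (κ t1) : Set L) := by
    intro y
    rw [← closure_closure, Metric.mem_closure_iff]
    intro ε hε
    obtain ⟨z, hz⟩ := hdense y ε hε
    refine ⟨κ z, (hall z).1, ?_⟩
    rw [dist_comm, dist_eq_norm]
    exact hz
  -- the expansion of `ξ`
  obtain ⟨m', al, θ, hal, hθ0, hθ1, hnear, hev⟩ := exp3 (k := k) hj ht
    ((map_ne_zero κ).2 hξ0) (hall ξ).2
  have hjal : j al ≠ 0 := by rw [← norm_pos_iff, hj]; exact norm_pos_iff.2 hal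
  have htm : ∀ i : ℤ, κ t1 ^ i ≠ 0 := fun i => zpow_ne_zero _ ht.1
  have hnξ : ‖κ ξ‖ = ‖al‖ * ‖κ t1‖ ^ m' := by
    have h1 := norm_eq_one_of_sub hθ1 hnear
    rw [norm_div, norm_mul, norm_zpow, hj, div_eq_one_iff_eq] at h1
    · exact h1
    · exact mul_ne_zero (norm_ne_zero_iff.2 hal) (zpow_ne_zero _ (norm_ne_zero_iff.2 ht.1))
  have hmm : m' = m := by
    by_contra hne
    refine mono_norm_ne (C := C) (norm_pos_iff.2 ht.1) ht.2 (x := al) (y := c0) hc0 hne ?_
    rw [← hnξ, ← hwr, hcm, zpow_natCast]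
    push_cast
    rw [hwr, hwr, hn]
  subst hmm
  rw [zpow_natCast] at hnξ hnear
  -- the local degree
  let jE : C →+* E := (algebraMap (RatFunc C) E).comp (algebraMap C (RatFunc C))
  have hjE : ∀ c, j c = algebraMap E L (jE c) := by
    intro c
    change κ (algebraMap C K c) = algebraMap E L (algebraMap (RatFunc C) E (algebraMap C (RatFunc C) c))
    rw [← hκ, ← IsScalarTower.algebraMap_apply]
  have hξE : algebraMap E L (algebraMap (RatFunc C) E (RatFunc.X - algebraMap C (RatFunc C) a)) =
      κ ξ := by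
    rw [← hκ, map_sub (algebraMap (RatFunc C) K), ← IsScalarTower.algebraMap_apply]
  have hdeg : Module.finrank E L ≤ m :=
    finrank_le3 k jE hjE hj ht hd (algebraMap (RatFunc C) E (RatFunc.X - algebraMap C (RatFunc C) a))
      hal hm hθ1 (by rw [hξE]; exact hnear)
  -- generators of `K`
  let b := Module.finBasis (RatFunc C) K
  let S : Finset K := insert XK (Finset.univ.image b)
  have hS : IntermediateField.adjoin C (S : Set K) = ⊤ := by
    rw [eq_top_iff]
    rintro z -
    have h1 : ∀ s ∈ S, s ∈ IntermediateField.adjoin C (S : Set K) := fun s hs =>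
      IntermediateField.subset_adjoin C _ hs
    exact subfield_top (IntermediateField.adjoin C (S : Set K)).toSubfield
      (fun c => (IntermediateField.adjoin C (S : Set K)).algebraMap_mem c)
      (h1 XK (Finset.mem_insert_self _ _)) b
      (fun i => h1 (b i) (Finset.mem_insert_of_mem
        (Finset.mem_image_of_mem b (Finset.mem_univ i)))) z
  exact exists_out3 hj κ hjκ ht (fun z => (hall z).2) S hS rfl hm hal hθ1 hnξ hev hdeg

end Loc

end Crest.Agent.R013.Spread3_260
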