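import Crest.Agent.R013.Red19_332
import Crest.Agent.R013.CB1j_903
import Crest.Agent.R013.GR12_921
import Crest.Agent.R013.A2c_398
import Crest.Agent.R013.CAsm2_588

/-!
# R013 / StA_332 : stages (A1) and (A2) of part C, composed

`stageA`: over `C` = an algebraic closure of `ℚ_p`, every function field `KC` of genus `≥ 2` has a
finite unramified extension `K1` with a semistable structure `S1`, `#V ≤ #Ed`, and a cyclic
unramified extension `K'` of `K1` with the data `A2Data` (398).
-/

set_option autoImplicit false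
set_option linter.unusedSectionVars false
set_option linter.style.haveILetI false

universe u

namespace Crest.Agent.R013.StA_332

open scoped NNReal
open Crest.Agent.R013.Cell_408 Crest.Agent.R013.Good_408
open Crest.Agent.R013.RR11_948 Crest.Agent.R013.RR12_948
open Crest.Agent.R013.SSK_332 Crest.Agent.R013.Red332 Crest.Agent.R013.CB1_903
open Crest.Agent.R013.GR3_921
open Crest.Agent.R013.A2_398

variable (p : ℕ) [hp : Fact p.Prime] (k : Type*) {C : Type u} [NontriviallyNormedField k]
  [CompleteSpace k] [IsUltrametricDist k] [NormedField C] [IsUltrametricDist C] [NormedAlgebra k C]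
  [Algebra.IsAlgebraic k C] [IsAlgClosed C] [hk : Fact (DiscNorm k)] [CharZero C]
  [NormedAlgebra ℚ_[p] C] [Algebra.IsAlgebraic ℚ_[p] C]

theorem norm_p_lt {p : ℕ} [hp : Fact p.Prime] {C : Type*} [NormedField C]
    [NormedAlgebra ℚ_[p] C] : ‖(p : C)‖ < 1 := by
  have h1 : ‖algebraMap ℚ_[p] C (p : ℚ_[p])‖ = ‖(p : ℚ_[p])‖ := norm_algebraMap' C _
  rw [map_natCast] at h1
  rw [h1]
  exact Padic.norm_p_lt_one

include p in
/-- **(A1)** from `DirAll` -/
theorem a1_of_dir (dir : DirAll k C) (K : Type u) [Field K] [Algebra C K] (g : ℕ)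
    (hg : HasGen C K g) (h2 : 2 ≤ g) : A1 k C K := by
  haveI := TP14_928.charP_Ct (C := C) p
  haveI : IsAlgClosed (Ct C) := TP14_928.isAlgClosed_Ct
  exact a1_two p (inDisc_of_dir p norm_p_lt dir) (GR12_921.inSig C p norm_p_lt) K g hg h2

/-- **stages (A1) and (A2)** -/
theorem stageA (dir : DirAll k C) (KC : Type u) [Field KC] [Algebra C KC] [Algebra (RatFunc C) KC]
    [IsScalarTower C (RatFunc C) KC] [FiniteDimensional (RatFunc C) KC] (hg : 2 ≤ gen C KC) :
    ∃ (K1 : Type u) (_ : Field K1) (_ : Algebra C K1) (_ : Algebra KC K1)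
      (_ : IsScalarTower C KC K1) (_ : FiniteDimensional KC K1) (_ : Algebra (RatFunc C) K1)
      (_ : IsScalarTower C (RatFunc C) K1) (_ : IsScalarTower (RatFunc C) KC K1)
      (_ : FiniteDimensional (RatFunc C) K1) (S1 : SSK k C K1),
      Unr10_957.UnrEv C KC K1 ∧ nV S1 ≤ nE S1 ∧
      Nat.card {v : S1.V // HasGen (Ct C) (kap (S1.nm v)) 0} < Nat.card S1.Ed ∧
      ∃ (K' : Type u) (_ : Field K') (_ : Algebra C K') (_ : Algebra K1 K')
        (_ : IsScalarTower C K1 K') (_ : FiniteDimensional K1 K') (_ : IsGalois K1 K'),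
        Nonempty (A2Data p S1 K') := by
  haveI : CharZero (RatFunc C) :=
    charZero_of_injective_ringHom (algebraMap C (RatFunc C)).injective
  haveI : CharZero KC := charZero_of_injective_algebraMap (algebraMap C KC).injective
  haveI : Algebra.IsSeparable (RatFunc C) KC := inferInstance
  obtain ⟨K1, i1, i2, i3, i4, i5, S1, h1, -, h3, g', hg', hg2⟩ :=
    (a1_of_dir p k dir KC (gen C KC) (hasGen_gen C KC) hg).genus (hasGen_gen C KC) hg
  letI i6 : Algebra (RatFunc C) K1 :=
    ((algebraMap KC K1).comp (algebraMap (RatFunc C) KC)).toAlgebra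
  haveI i7 : IsScalarTower (RatFunc C) KC K1 := IsScalarTower.of_algebraMap_eq fun x => rfl
  haveI i8 : IsScalarTower C (RatFunc C) K1 := IsScalarTower.of_algebraMap_eq fun x => by
    rw [IsScalarTower.algebraMap_apply C KC K1, IsScalarTower.algebraMap_apply C (RatFunc C) KC]
    rfl
  haveI i9 : FiniteDimensional (RatFunc C) K1 := FiniteDimensional.trans (RatFunc C) KC K1
  haveI : CharZero K1 := charZero_of_injective_algebraMap (algebraMap C K1).injective
  haveI : Algebra.IsSeparable (RatFunc C) K1 := inferInstance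
  haveI : Algebra.IsSeparable KC K1 := inferInstance
  exact ⟨K1, i1, i2, i3, i4, i5, i6, i8, i7, i9, S1, CAsm2_588.unrPl_iff.1 h1, h3,
    card_zero_lt S1 hg' hg2 h3, a2 p S1⟩

end Crest.Agent.R013.StA_332
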