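import Mathlib

/-!
# Solvability of the system `d_i ^ q = c_i + ∑ B_ij d_j` over an algebraically closed field

`exists_sol` : complete intersection without zeros at infinity.  The ring `C[X]` is integral over
`C[f_1, …, f_n]`, `f_i = X_i ^ q - ∑ B_ij X_j`; the `f_i` are algebraically independent
(transcendence degree), lying over and the Nullstellensatz give a point.
-/

set_option autoImplicit false

namespace Crest.Agent.R013.Stab2_267

open MvPolynomial

section

variable {C : Type*} [Field C] {ι : Type*} [Fintype ι] [DecidableEq ι]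

/-- the polynomials `X_i ^ q - ∑ B_ij X_j` -/
noncomputable def fp (q : ℕ) (B : ι → ι → C) (i : ι) : MvPolynomial ι C :=
  X i ^ q - ∑ j, MvPolynomial.C (B i j) * X j

theorem monomial_mem (q : ℕ) (hq : 2 ≤ q) (B : ι → ι → C) (N : ℕ) :
    ∀ a : ι →₀ ℕ, a.degree ≤ N →
      (monomial a (1 : C)) ∈ Submodule.span (Algebra.adjoin C (Set.range (fp q B)))
        (Set.range fun b : ι → Fin q => ∏ i, (X i : MvPolynomial ι C) ^ (b i : ℕ)) := by
  induction N using Nat.strong_induction_on with
  | _ N ih =>
  intro a ha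
  by_cases h : ∀ i, a i < q
  · refine Submodule.subset_span ⟨fun i => ⟨a i, h i⟩, ?_⟩
    simp only
    rw [MvPolynomial.monomial_eq, Finsupp.prod_fintype _ _ (by simp)]
    simp
  · push Not at h
    obtain ⟨i, hi⟩ := h
    set a' : ι →₀ ℕ := a - Finsupp.single i q with ha'
    have hle : Finsupp.single i q ≤ a := by
      intro j
      by_cases hj : i = j
      · subst hj; simpa using hi
      · simp [hj]
    have haa : a' + Finsupp.single i q = a := tsub_add_cancel_of_le hle
    have hdeg : a'.degree + q = a.degree := by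
      conv_rhs => rw [← haa]
      rw [map_add, Finsupp.degree_single]
    have hX : (monomial a (1 : C)) = fp q B i * monomial a' 1 +
        ∑ j, MvPolynomial.C (B i j) * monomial (a' + Finsupp.single j 1) 1 := by
      have h1 : (monomial a (1 : C)) = monomial a' 1 * X i ^ q := by
        rw [← haa, X_pow_eq_monomial, monomial_mul, one_mul]
      rw [h1, fp, sub_mul, mul_comm (X i ^ q)]
      have h2 : ∀ j, (monomial (a' + Finsupp.single j 1) (1 : C)) = X j * monomial a' 1 := by
        intro j
        rw [X, monomial_mul, one_mul, add_comm]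
      simp only [h2]
      rw [Finset.sum_mul]
      simp only [mul_assoc]
      ring
    rw [hX]
    refine Submodule.add_mem _ ?_ (Submodule.sum_mem _ fun j _ => ?_)
    · have h3 := Submodule.smul_mem (Submodule.span (Algebra.adjoin C (Set.range (fp q B)))
        (Set.range fun b : ι → Fin q => ∏ i, (X i : MvPolynomial ι C) ^ (b i : ℕ)))
        (⟨fp q B i, Algebra.subset_adjoin ⟨i, rfl⟩⟩ : Algebra.adjoin C (Set.range (fp q B)))
        (ih (a'.degree) (by omega) a' le_rfl)
      exact h3
    · have h3 := Submodule.smul_mem (Submodule.span (Algebra.adjoin C (Set.range (fp q B)))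
        (Set.range fun b : ι → Fin q => ∏ i, (X i : MvPolynomial ι C) ^ (b i : ℕ)))
        (algebraMap C (Algebra.adjoin C (Set.range (fp q B))) (B i j))
        (ih ((a' + Finsupp.single j 1).degree) (by
          rw [map_add, Finsupp.degree_single]; omega) (a' + Finsupp.single j 1) le_rfl)
      exact h3

theorem span_eq_top (q : ℕ) (hq : 2 ≤ q) (B : ι → ι → C) :
    Submodule.span (Algebra.adjoin C (Set.range (fp q B)))
        (Set.range fun b : ι → Fin q => ∏ i, (X i : MvPolynomial ι C) ^ (b i : ℕ)) = ⊤ := by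
  rw [eq_top_iff]
  intro g _
  rw [g.as_sum]
  refine Submodule.sum_mem _ fun a _ => ?_
  have h := Submodule.smul_mem (Submodule.span (Algebra.adjoin C (Set.range (fp q B)))
        (Set.range fun b : ι → Fin q => ∏ i, (X i : MvPolynomial ι C) ^ (b i : ℕ)))
        (algebraMap C (Algebra.adjoin C (Set.range (fp q B))) (coeff a g))
        (monomial_mem q hq B _ a le_rfl)
  have h2 : (algebraMap C (Algebra.adjoin C (Set.range (fp q B))) (coeff a g)) •
      (monomial a (1 : C)) = monomial a (coeff a g) := by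
    change MvPolynomial.C (coeff a g) * monomial a (1 : C) = _
    rw [C_mul_monomial, mul_one]
  rw [h2] at h
  exact h

theorem finite (q : ℕ) (hq : 2 ≤ q) (B : ι → ι → C) :
    Module.Finite (Algebra.adjoin C (Set.range (fp q B))) (MvPolynomial ι C) :=
  ⟨⟨(Set.finite_range fun b : ι → Fin q => ∏ i, (X i : MvPolynomial ι C) ^ (b i : ℕ)).toFinset,
    by rw [Set.Finite.coe_toFinset]; exact span_eq_top q hq B⟩⟩

theorem algInd (q : ℕ) (hq : 2 ≤ q) (B : ι → ι → C) : AlgebraicIndependent C (fp q B) := by
  have := finite q hq B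
  have : Algebra.IsAlgebraic (Algebra.adjoin C (Set.range (fp q B))) (MvPolynomial ι C) :=
    inferInstance
  refine (Algebra.IsAlgebraic.isTranscendenceBasis_of_lift_le_trdeg_of_finite C (fp q B) ?_).1
  rw [MvPolynomial.trdeg_of_isDomain]
  simp

end

/-- The system `d_i ^ q = c_i + ∑ B_ij d_j` (`q ≥ 2`) has a solution over an algebraically closed
field. -/
theorem exists_sol {C : Type*} [Field C] [IsAlgClosed C] {ι : Type*} [Fintype ι]
    (q : ℕ) (hq : 2 ≤ q) (B : ι → ι → C) (c : ι → C) :
    ∃ d : ι → C, ∀ i, d i ^ q = c i + ∑ j, B i j * d j := by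
  classical
  have hfin := finite q hq B
  have hai := algInd q hq B
  let S := Algebra.adjoin C (Set.range (fp q B))
  let ψ : S →ₐ[C] C := (aeval c : MvPolynomial ι C →ₐ[C] C).comp hai.aevalEquiv.symm.toAlgHom
  have hψ : Function.Surjective ψ := fun r => ⟨algebraMap C S r, by simp⟩
  have hmax : (RingHom.ker ψ).IsMaximal := RingHom.ker_isMaximal_of_surjective ψ hψ
  have hker : RingHom.ker (algebraMap S (MvPolynomial ι C)) ≤ RingHom.ker ψ := by
    intro x hx
    have h0 : x = 0 := Subtype.ext hx
    rw [h0]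
    exact Ideal.zero_mem _
  obtain ⟨Q, hQ, hQc⟩ := Ideal.exists_ideal_over_maximal_of_isIntegral (S := MvPolynomial ι C)
    (RingHom.ker ψ) hker
  obtain ⟨d, rfl⟩ := (isMaximal_iff_eq_vanishingIdeal_singleton).1 hQ
  refine ⟨d, fun i => ?_⟩
  let s : S := ⟨fp q B i, Algebra.subset_adjoin ⟨i, rfl⟩⟩
  have hs : hai.aevalEquiv.symm s = X i := by
    rw [AlgEquiv.symm_apply_eq]
    refine Subtype.ext ?_
    have h0 := hai.algebraMap_aevalEquiv (X i)
    rw [aeval_X] at h0
    exact h0.symm
  have h1 : s - algebraMap C S (c i) ∈ RingHom.ker ψ := by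
    rw [RingHom.mem_ker, map_sub]
    have h2 : ψ s = c i := by
      simp only [ψ, AlgHom.comp_apply]
      change aeval c (hai.aevalEquiv.symm s) = c i
      rw [hs, aeval_X]
    rw [h2, AlgHom.commutes]
    simp
  rw [← hQc, Ideal.mem_comap] at h1
  rw [mem_vanishingIdeal_singleton_iff] at h1
  have h3 : algebraMap S (MvPolynomial ι C) (s - algebraMap C S (c i)) =
      fp q B i - MvPolynomial.C (c i) := rfl
  rw [h3] at h1
  simp only [fp, map_sub, map_pow, map_sum, map_mul, aeval_X, aeval_C, Algebra.algebraMap_self,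
    RingHom.id_apply] at h1
  linear_combination h1

/-- Size of a solution, for a rank one valuation: if all `w (B i j) ≤ 1`, `w (c i) ≤ r`, `1 ≤ r`,
then `w (d i) ^ q ≤ r`. -/
theorem bound_sol {C : Type*} [Field C] {ι : Type*} [Fintype ι] (w : Valuation C NNReal)
    (q : ℕ) (hq : 2 ≤ q) (B : ι → ι → C) (c d : ι → C)
    (h : ∀ i, d i ^ q = c i + ∑ j, B i j * d j) (b r M : NNReal)
    (hB : ∀ i j, w (B i j) ≤ b) (hc : ∀ i, w (c i) ≤ r) (hM1 : r ≤ M ^ q) (hM2 : b ≤ M ^ (q - 1)) :
    ∀ i, w (d i) ≤ M := by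
  classical
  intro i0
  by_contra hcon
  push Not at hcon
  obtain ⟨i, -, hi⟩ := Finset.exists_max_image Finset.univ (fun i => w (d i)) ⟨i0, Finset.mem_univ _⟩
  have hlt : M < w (d i) := hcon.trans_le (hi i0 (Finset.mem_univ _))
  have h1 : w (d i) ^ q ≤ max (w (c i)) (b * w (d i)) := by
    rw [← map_pow, h i]
    refine (w.map_add _ _).trans (max_le_max le_rfl ?_)
    refine w.map_sum_le fun j _ => ?_
    rw [map_mul]
    exact mul_le_mul' (hB i j) (hi j (Finset.mem_univ _))
  have hq0 : q ≠ 0 := by omega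
  have h2 : M ^ q < w (d i) ^ q := pow_lt_pow_left₀ hlt zero_le hq0
  rcases le_max_iff.1 h1 with h3 | h3
  · exact absurd (h3.trans ((hc i).trans hM1)) (not_le.2 h2)
  · have hpos : 0 < w (d i) := zero_le.trans_lt hlt
    have h4 : w (d i) ^ (q - 1) ≤ b := by
      have h5 : w (d i) ^ (q - 1) * w (d i) ≤ b * w (d i) := by
        rw [← pow_succ, Nat.sub_add_cancel (by omega)]
        exact h3
      exact le_of_mul_le_mul_right h5 hpos
    have h6 : M ^ (q - 1) < w (d i) ^ (q - 1) := pow_lt_pow_left₀ hlt zero_le (by omega)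
    exact absurd (h4.trans hM2) (not_le.2 h6)

end Crest.Agent.R013.Stab2_267
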