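import Mathlib

/-!
# STABF: from orthonormal bases of the finite extensions of the completion `E` of `F`
to an orthonormal basis of a finite separable `K / F` (helper83, row 13)
-/

set_option autoImplicit false
set_option linter.unusedSectionVars false
set_option linter.style.haveILetI false

namespace Crest.Agent.R013.StabF_83

open TensorProduct NNReal
open scoped NNReal

universe u

/-! ### The valuation given by the spectral norm -/

section SV

variable (E L : Type*) [NontriviallyNormedField E] [CompleteSpace E] [IsUltrametricDist E]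
  [Field L] [Algebra E L] [Algebra.IsAlgebraic E L]

/-- The spectral norm as a valuation. -/
noncomputable def sv : Valuation L ℝ≥0 where
  toFun x := (spectralNorm E L x).toNNReal
  map_zero' := by simp [spectralNorm_zero]
  map_one' := by simp [spectralNorm_one]
  map_mul' x y := by
    rw [← Real.toNNReal_mul (spectralNorm_nonneg x)]
    congr 1
    exact spectralAlgNorm_mul (K := E) x y
  map_add_le_max' x y := by
    have h := isNonarchimedean_spectralNorm (K := E) (L := L) x y
    have hm : Monotone Real.toNNReal := fun _ _ h => Real.toNNReal_mono h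
    rw [← hm.map_max]
    exact hm h

theorem coe_sv (x : L) : (sv E L x : ℝ) = spectralNorm E L x :=
  Real.coe_toNNReal _ (spectralNorm_nonneg x)

theorem sv_algebraMap (a : E) : sv E L (algebraMap E L a) = ‖a‖₊ := by
  ext
  rw [coe_sv, spectralNorm_extends]; rfl

theorem sv_smul (a : E) (x : L) : sv E L (a • x) = ‖a‖₊ * sv E L x := by
  rw [Algebra.smul_def, map_mul, sv_algebraMap]

end SV

/-- `b` is an orthonormal basis. -/
def IsON {E L ι : Type*} [NontriviallyNormedField E] [CompleteSpace E] [IsUltrametricDist E]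
    [Field L] [Algebra E L] [Algebra.IsAlgebraic E L] [Fintype ι] (b : ι → L) : Prop :=
  (∀ i, sv E L (b i) ≤ 1) ∧ ∀ (c : ι → E) (i : ι), ‖c i‖₊ ≤ sv E L (∑ j, c j • b j)

section Main

variable {F E K : Type u} [Field F] [NontriviallyNormedField E] [CompleteSpace E]
  [IsUltrametricDist E] [Algebra F E] [Field K] [Algebra F K]
  {I : Type*} [Fintype I] [DecidableEq I] {L : I → Type*} [∀ i, Field (L i)]
  [∀ i, Algebra E (L i)] [∀ i, FiniteDimensional E (L i)]

variable (e : E ⊗[F] K ≃ₐ[E] ∀ i, L i)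

/-- the valuations of `K` -/
noncomputable def wv (i : I) : Valuation K ℝ≥0 :=
  (sv E (L i)).comap
    (((Pi.evalRingHom L i).comp (e : E ⊗[F] K →+* ∀ i, L i)).comp
      (Algebra.TensorProduct.includeRight : K →ₐ[F] E ⊗[F] K).toRingHom)

theorem wv_apply (i : I) (y : K) : wv e i y = sv E (L i) (e ((1 : E) ⊗ₜ[F] y) i) := rfl

theorem e_algebraMap (i : I) (f : F) :
    e ((1 : E) ⊗ₜ[F] (algebraMap F K f)) i = algebraMap E (L i) (algebraMap F E f) := by
  have : (1 : E) ⊗ₜ[F] (algebraMap F K f) = algebraMap E (E ⊗[F] K) (algebraMap F E f) := by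
    rw [Algebra.TensorProduct.algebraMap_apply, Algebra.algebraMap_self, RingHom.id_apply,
      Algebra.algebraMap_eq_smul_one (R := F) (A := K) f,
      Algebra.algebraMap_eq_smul_one (R := F) (A := E) f, TensorProduct.smul_tmul]
  rw [this, AlgEquiv.commutes]
  rfl

theorem wv_algebraMap (i : I) (f : F) : wv e i (algebraMap F K f) = ‖algebraMap F E f‖₊ := by
  rw [wv_apply, e_algebraMap, sv_algebraMap]

include e in
/-- density of `K` in `∏ L i`. -/
theorem dense_prod (hd : DenseRange (algebraMap F E)) (t : E ⊗[F] K) :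
    ∀ ε : ℝ≥0, 0 < ε → ∃ y : K, ∀ i, sv E (L i) (e ((1 : E) ⊗ₜ[F] y) i - e t i) < ε := by
  induction t with
  | zero =>
    intro ε hε
    exact ⟨0, fun i => by simpa using hε⟩
  | tmul a b =>
    intro ε hε
    obtain ⟨M, hM⟩ : ∃ M : ℝ≥0, ∀ i, wv e i b ≤ M := by
      refine ⟨∑ i, wv e i b, fun i => ?_⟩
      exact Finset.single_le_sum (f := fun i => wv e i b) (fun _ _ => zero_le) (Finset.mem_univ i)
    have hδ : 0 < ε / (M + 1) := by positivity
    obtain ⟨f, hf⟩ : ∃ f : F, ‖algebraMap F E f - a‖₊ < ε / (M + 1) := by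
      have := hd.exists_dist_lt a (ε := ((ε / (M + 1) : ℝ≥0) : ℝ)) (by exact_mod_cast hδ)
      obtain ⟨f, hf⟩ := this
      refine ⟨f, ?_⟩
      rw [dist_comm, dist_eq_norm] at hf
      exact_mod_cast hf
    refine ⟨f • b, fun i => ?_⟩
    have h1 : e ((1 : E) ⊗ₜ[F] (f • b)) i - e (a ⊗ₜ[F] b) i =
        (algebraMap F E f - a) • e ((1 : E) ⊗ₜ[F] b) i := by
      have h2 : (1 : E) ⊗ₜ[F] (f • b) = (algebraMap F E f) • ((1 : E) ⊗ₜ[F] b) := by
        rw [← TensorProduct.smul_tmul, TensorProduct.smul_tmul', Algebra.smul_def, smul_eq_mul]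
      have h3 : a ⊗ₜ[F] b = a • ((1 : E) ⊗ₜ[F] b) := by
        rw [TensorProduct.smul_tmul', smul_eq_mul, mul_one]
      rw [h2, h3, map_smul, map_smul, sub_smul]
      rfl
    rw [h1, sv_smul, ← wv_apply]
    calc ‖algebraMap F E f - a‖₊ * wv e i b ≤ (ε / (M + 1)) * M := by
          gcongr
          exact hM i
      _ < (ε / (M + 1)) * (M + 1) := by
          gcongr
          exact lt_add_one M
      _ = ε := by field_simp
  | add x y hx hy =>
    intro ε hε
    obtain ⟨a, ha⟩ := hx ε hε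
    obtain ⟨b, hb⟩ := hy ε hε
    refine ⟨a + b, fun i => ?_⟩
    have : e ((1 : E) ⊗ₜ[F] (a + b)) i - e (x + y) i =
        (e ((1 : E) ⊗ₜ[F] a) i - e x i) + (e ((1 : E) ⊗ₜ[F] b) i - e y i) := by
      rw [TensorProduct.tmul_add, map_add, map_add]
      simp only [Pi.add_apply]
      ring
    rw [this]
    exact (Valuation.map_add _ _ _).trans_lt (max_lt (ha i) (hb i))

/-- density, target form. -/
theorem dense_pi (hd : DenseRange (algebraMap F E)) (a : ∀ i, L i) (ε : ℝ≥0) (hε : 0 < ε) :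
    ∃ y : K, ∀ i, sv E (L i) (e ((1 : E) ⊗ₜ[F] y) i - a i) < ε := by
  obtain ⟨y, hy⟩ := dense_prod e hd (e.symm a) ε hε
  exact ⟨y, fun i => by simpa using hy i⟩

/-- **weak approximation** -/
theorem approx (hd : DenseRange (algebraMap F E)) (a : I → K) (ε : ℝ≥0) (hε : 0 < ε) :
    ∃ y : K, ∀ i, wv e i (y - a i) < ε := by
  obtain ⟨y, hy⟩ := dense_pi e hd (fun i => e ((1 : E) ⊗ₜ[F] (a i)) i) ε hε
  refine ⟨y, fun i => ?_⟩
  rw [wv_apply, TensorProduct.tmul_sub, map_sub]
  exact hy i

/-- Perturbation: the sup of the `wv e i` of a combination with `E` coefficients of elements close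
to an orthonormal family is the max of the coefficients. -/
theorem perturb {J : Type*} [Fintype J] (s : J → ∀ i, L i)
    (hs : ∀ (c : J → E) (j : J), ∃ i, ‖c j‖₊ ≤ sv E (L i) ((∑ l, c l • s l) i))
    (y : J → K) (hy : ∀ j i, sv E (L i) (e ((1 : E) ⊗ₜ[F] (y j)) i - s j i) < 1)
    (c : J → E) (j : J) :
    ∃ i, ‖c j‖₊ ≤ sv E (L i) ((∑ l, c l • e ((1 : E) ⊗ₜ[F] (y l))) i) := by
  classical
  by_cases hc : c = 0
  · obtain ⟨i, hi⟩ := hs c j
    exact ⟨i, by subst hc; simp⟩
  -- the maximal coefficient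
  obtain ⟨m, -, hm⟩ := Finset.exists_max_image Finset.univ (fun l => ‖c l‖₊) ⟨j, Finset.mem_univ j⟩
  have hm0 : 0 < ‖c m‖₊ := by
    rw [nnnorm_pos]
    intro h0
    apply hc
    funext l
    have := hm l (Finset.mem_univ l)
    rw [h0, nnnorm_zero] at this
    simpa using le_antisymm this zero_le
  obtain ⟨i, hi⟩ := hs c m
  refine ⟨i, (hm j (Finset.mem_univ j)).trans ?_⟩
  -- difference
  have hdiff : sv E (L i) ((∑ l, c l • e ((1 : E) ⊗ₜ[F] (y l))) i - (∑ l, c l • s l) i) < ‖c m‖₊ := by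
    have h1 : (∑ l, c l • e ((1 : E) ⊗ₜ[F] (y l))) i - (∑ l, c l • s l) i =
        ∑ l, c l • (e ((1 : E) ⊗ₜ[F] (y l)) i - s l i) := by
      rw [Finset.sum_apply, Finset.sum_apply, ← Finset.sum_sub_distrib]
      refine Finset.sum_congr rfl fun l _ => ?_
      rw [Pi.smul_apply, Pi.smul_apply, smul_sub]
    rw [h1]
    refine Valuation.map_sum_lt _ hm0.ne' fun l _ => ?_
    rw [sv_smul]
    calc ‖c l‖₊ * sv E (L i) (e ((1 : E) ⊗ₜ[F] (y l)) i - s l i)
        ≤ ‖c m‖₊ * sv E (L i) (e ((1 : E) ⊗ₜ[F] (y l)) i - s l i) := by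
          gcongr
          exact hm l (Finset.mem_univ l)
      _ < ‖c m‖₊ * 1 := by
          gcongr
          exact hy l i
      _ = ‖c m‖₊ := mul_one _
  have h2 : sv E (L i) ((∑ l, c l • e ((1 : E) ⊗ₜ[F] (y l))) i) =
      sv E (L i) ((∑ l, c l • s l) i) := by
    have h3 : (∑ l, c l • e ((1 : E) ⊗ₜ[F] (y l))) i =
        (∑ l, c l • s l) i + ((∑ l, c l • e ((1 : E) ⊗ₜ[F] (y l))) i - (∑ l, c l • s l) i) := by
      ring
    rw [h3]
    exact Valuation.map_add_eq_of_lt_left _ (hdiff.trans_le hi)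
  rw [h2]; exact hi

end Main

/-- The output of `STABF`: an orthonormal basis adapted to the valuations. -/
structure Out (F E K : Type u) [Field F] [NontriviallyNormedField E] [Algebra F E] [Field K]
    [Algebra F K] (I : Type u) [Fintype I] where
  /-- the valuations -/
  w : I → Valuation K ℝ≥0
  /-- residue degrees -/
  d : I → ℕ
  /-- the basis -/
  b : Module.Basis (Σ i, Fin (d i)) F K
  w_alg : ∀ i f, w i (algebraMap F K f) = ‖algebraMap F E f‖₊
  b_le : ∀ i j, w i (b j) ≤ 1
  b_lt : ∀ i j, j.1 ≠ i → w i (b j) < 1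
  ge : ∀ (c : (Σ i, Fin (d i)) → F) (j), ∃ i, ‖algebraMap F E (c j)‖₊ ≤ w i (∑ l, c l • b l)
  approx : ∀ (a : I → K) (ε : ℝ≥0), 0 < ε → ∃ y : K, ∀ i, w i (y - a i) < ε

section Main2

variable {F E K : Type u} [Field F] [NontriviallyNormedField E] [CompleteSpace E]
  [IsUltrametricDist E] [Algebra F E] [Field K] [Algebra F K] [FiniteDimensional F K]
  {I : Type u} [Fintype I] {L : I → Type u} [∀ i, Field (L i)]
  [∀ i, Algebra E (L i)] [∀ i, FiniteDimensional E (L i)]

theorem smul_tmul' (f : F) (y : K) :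
    (1 : E) ⊗ₜ[F] (f • y) = (algebraMap F E f) • ((1 : E) ⊗ₜ[F] y) := by
  rw [← TensorProduct.smul_tmul, TensorProduct.smul_tmul', Algebra.smul_def, smul_eq_mul]

theorem exists_out (e : E ⊗[F] K ≃ₐ[E] ∀ i, L i) (hd : DenseRange (algebraMap F E))
    (hON : ∀ i, ∃ b : Module.Basis (Fin (Module.finrank E (L i))) E (L i), IsON (E := E) b) :
    Nonempty (Out F E K I) := by
  classical
  choose β hβ using hON
  let d : I → ℕ := fun i => Module.finrank E (L i)
  let s : (Σ i, Fin (d i)) → ∀ i, L i := fun j => Pi.single j.1 (β j.1 j.2)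
  have hsum : ∀ (c : (Σ i, Fin (d i)) → E) (i : I), (∑ l, c l • s l) i = ∑ l, c ⟨i, l⟩ • β i l := by
    intro c i
    rw [Finset.sum_apply, Fintype.sum_sigma]
    rw [Finset.sum_eq_single i]
    · refine Finset.sum_congr rfl fun l _ => ?_
      simp [s]
    · intro i' _ hi'
      refine Finset.sum_eq_zero fun l _ => ?_
      simp [s, Pi.single_eq_of_ne (Ne.symm hi')]
    · intro h; exact absurd (Finset.mem_univ i) h
  have hs : ∀ (c : (Σ i, Fin (d i)) → E) (j), ∃ i, ‖c j‖₊ ≤ sv E (L i) ((∑ l, c l • s l) i) := by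
    rintro c ⟨i, l⟩
    refine ⟨i, ?_⟩
    rw [hsum]
    exact (hβ i).2 (fun l => c ⟨i, l⟩) l
  have hex : ∀ j : (Σ i, Fin (d i)), ∃ y : K, ∀ i, sv E (L i) (e ((1 : E) ⊗ₜ[F] y) i - s j i) < 1 :=
    fun j => dense_pi e hd (s j) 1 one_pos
  choose y hy using hex
  have hcomb : ∀ (c : (Σ i, Fin (d i)) → F), e ((1 : E) ⊗ₜ[F] (∑ l, c l • y l)) =
      ∑ l, (algebraMap F E (c l)) • e ((1 : E) ⊗ₜ[F] (y l)) := by
    intro c
    rw [TensorProduct.tmul_sum, map_sum]
    refine Finset.sum_congr rfl fun l _ => ?_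
    rw [smul_tmul', map_smul]
  have hge : ∀ (c : (Σ i, Fin (d i)) → F) (j), ∃ i,
      ‖algebraMap F E (c j)‖₊ ≤ wv e i (∑ l, c l • y l) := by
    intro c j
    obtain ⟨i, hi⟩ := perturb e s hs y hy (fun l => algebraMap F E (c l)) j
    refine ⟨i, ?_⟩
    rw [wv_apply, hcomb]
    exact hi
  have hli : LinearIndependent F y := by
    rw [Fintype.linearIndependent_iff]
    intro c hc j
    obtain ⟨i, hi⟩ := hge c j
    rw [hc, map_zero, nonpos_iff_eq_zero, nnnorm_eq_zero] at hi
    exact (map_eq_zero _).mp hi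
  have hcard : Fintype.card (Σ i, Fin (d i)) = Module.finrank F K := by
    rw [Fintype.card_sigma]
    simp only [Fintype.card_fin, d]
    rw [← Module.finrank_pi_fintype, ← e.toLinearEquiv.finrank_eq, Module.finrank_baseChange]
  let b : Module.Basis (Σ i, Fin (d i)) F K := basisOfLinearIndependentOfCardEqFinrank' y hli hcard
  have hb : ∀ j, b j = y j := fun j => by simp [b]
  have hw : ∀ i j, wv e i (y j) ≤ 1 ∧ (j.1 ≠ i → wv e i (y j) < 1) := by
    intro i j
    have h1 := hy j i
    rw [wv_apply]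
    have h2 : e ((1 : E) ⊗ₜ[F] (y j)) i = (e ((1 : E) ⊗ₜ[F] (y j)) i - s j i) + s j i := by ring
    constructor
    · rw [h2]
      refine (Valuation.map_add _ _ _).trans (max_le h1.le ?_)
      by_cases hij : j.1 = i
      · subst hij
        simp only [s, Pi.single_eq_same]
        exact (hβ _).1 _
      · simp [s, Pi.single_eq_of_ne (Ne.symm hij)]
    · intro hij
      have : s j i = 0 := by simp [s, Pi.single_eq_of_ne (Ne.symm hij)]
      rw [this, sub_zero] at h1
      exact h1
  exact ⟨{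
    w := wv e
    d := d
    b := b
    w_alg := wv_algebraMap e
    b_le := fun i j => by rw [hb]; exact (hw i j).1
    b_lt := fun i j h => by rw [hb]; exact (hw i j).2 h
    ge := fun c j => by simp only [hb]; exact hge c j
    approx := approx e hd }⟩

end Main2

end Crest.Agent.R013.StabF_83
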