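import Crest.Agent.R013.Sub3_270
import Crest.Agent.R013.Good1_408

/-! # R013 / Sub4_270 : heredity of good discs (S1), (SInf). -/

set_option autoImplicit false
set_option linter.unusedSectionVars false
set_option linter.style.haveILetI false

noncomputable section

namespace Crest.Agent.R013.Sub_270

open Module Topology Crest.Agent.R013.Cell_408 Crest.Agent.R013.Clu_270 Crest.Agent.R013.Comp_267
  Crest.Agent.R013.Good_408

theorem transc_map {C A B : Type*} [Field C] [Field A] [Field B] [Algebra C A] [Algebra C B]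
    (f : A →ₐ[C] B) {y : A} (h : Transcendental C y) : Transcendental C (f y) := fun hy =>
  h ((isAlgebraic_algHom_iff f (RingHom.injective f.toRingHom)).1 hy)

variable (k C : Type*) [NontriviallyNormedField k] [CompleteSpace k] [IsUltrametricDist k]
  [NormedField C] [IsUltrametricDist C] [NormedAlgebra k C] [Algebra.IsAlgebraic k C]
  [IsAlgClosed C] [hk : Fact (DiscNorm k)]
variable (K : Type*) [Field K] [Algebra C K] [Algebra (RatFunc C) K]
    [IsScalarTower C (RatFunc C) K] [FiniteDimensional (RatFunc C) K]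

variable {k C K} in
/-- a good disc restricts to the subdisc `c + r T` -/
theorem GoodD.sub {y : FD k C} (h : GoodD k C K y) {c r : C} (hc : ‖c‖ < 1) (hr0 : r ≠ 0)
    (hr : ‖r‖ ≤ 1) : GoodD k C K (resF hk.out hc hr0 hr y) := by
  obtain ⟨D⟩ := h
  have hcard : Fintype.card (Fin (finrank (RatFunc C) K)) = finrank (RatFunc C) K := Fintype.card_fin _
  let b := Module.finBasis (RatFunc C) K
  have hinj := D.inj _ b b.linearIndependent
  obtain ⟨J', hJ', p, m', hm', f', hf', α, β, hα, hβ0, hβ, hsum, hrel, hcomp, hinj'⟩ :=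
    sub_disc hk.out b D.m D.m_ne D.f D.wd (fun j => (D.io j).toRingHom)
      (by rw [D.sum_m, hcard]) hinj hc hr0 hr
  have ht : Transcendental C (resF hk.out hc hr0 hr y) := transc_map _ D.transc
  have hx : ∀ j, ((resF hk.out (hα j) (hβ0 j) (hβ j)).comp (D.io (p j)))
      (algebraMap (RatFunc C) K RatFunc.X) =
      compF hk.out (hf' j) (hm' j) (resF hk.out hc hr0 hr y) := by
    intro j
    rw [AlgHom.comp_apply, D.hx, hcomp]
  exact GoodD.mk' _ ht J' m' f' hf' hm'
    (fun j => (resF hk.out (hα j) (hβ0 j) (hβ j)).comp (D.io (p j))) hx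
    (by rw [hsum, hcard]) b b.linearIndependent hcard hinj'

variable {C} in
theorem resF_discY (a ρ : C) {c r : C} (hc : ‖c‖ < 1) (hr0 : r ≠ 0) (hr : ‖r‖ ≤ 1) :
    resF hk.out hc hr0 hr (discY k C a ρ) = discY k C (a + ρ * c) (ρ * r) := by
  rw [discY, discY, map_add, map_mul, AlgHom.commutes, AlgHom.commutes, resF_TF, map_add, map_mul,
    map_mul]
  ring

variable {C} in
theorem resF_infY (ρ : C) {r : C} (hr0 : r ≠ 0) (hr : ‖r‖ ≤ 1) :
    resF hk.out (by rw [norm_zero]; exact one_pos) hr0 hr (infY k C ρ) = infY k C (ρ / r) := by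
  rw [infY, infY, map_mul, map_inv₀, AlgHom.commutes, resF_TF, map_zero, zero_add, map_div₀,
    mul_inv]
  ring

variable {C}

/-- **(S1)** -/
theorem goodDisc_sub {a ρ a' ρ' : C} (h : GoodDisc k C K a ρ) (ha : ‖a' - a‖ < ‖ρ‖) (h0 : ρ' ≠ 0)
    (hρ : ‖ρ'‖ ≤ ‖ρ‖) : GoodDisc k C K a' ρ' := by
  have hρ0 : ρ ≠ 0 := by
    rintro rfl
    rw [norm_zero] at ha
    exact absurd ha (not_lt.2 (norm_nonneg _))
  have hpos : 0 < ‖ρ‖ := norm_pos_iff.2 hρ0
  have hc : ‖(a' - a) / ρ‖ < 1 := by rw [norm_div, div_lt_one hpos]; exact ha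
  have hr : ‖ρ' / ρ‖ ≤ 1 := by rw [norm_div, div_le_one hpos]; exact hρ
  have h1 := GoodD.sub h hc (div_ne_zero h0 hρ0) hr
  rw [resF_discY] at h1
  have e1 : a + ρ * ((a' - a) / ρ) = a' := by field_simp; ring
  have e2 : ρ * (ρ' / ρ) = ρ' := by field_simp
  rw [e1, e2] at h1
  exact h1

/-- **(SInf)** -/
theorem goodInf_sub {ρ ρ' : C} (h : GoodInf k C K ρ) (hρ : ‖ρ‖ ≤ ‖ρ'‖) : GoodInf k C K ρ' := by
  have hρ0 : ρ ≠ 0 := by
    rintro rfl
    obtain ⟨D⟩ := h
    apply D.transc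
    rw [infY, map_zero, zero_mul]
    exact isAlgebraic_zero
  have hpos : 0 < ‖ρ‖ := norm_pos_iff.2 hρ0
  have hpos' : 0 < ‖ρ'‖ := hpos.trans_le hρ
  have hρ0' : ρ' ≠ 0 := norm_pos_iff.1 hpos'
  have hr : ‖ρ / ρ'‖ ≤ 1 := by rw [norm_div, div_le_one hpos']; exact hρ
  have h1 := GoodD.sub h (by rw [norm_zero]; exact one_pos) (div_ne_zero hρ0 hρ0') hr
  rw [resF_infY] at h1
  have e1 : ρ / (ρ / ρ') = ρ' := by field_simp
  rw [e1] at h1
  exact h1

end Crest.Agent.R013.Sub_270
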