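import Crest.Agent.R013.ResA3_270

/-! # R013 / Sub5_270 : the preimage of a disc in an annulus (S2), core.

`f = T^m u` maps `|c| < |T| < 1` onto `|c|^m < |y| < 1`; for a disc `y = al + r T`
(`|c|^m < |al| < 1`, `0 < |r| ≤ |al|`) the preimage is a disjoint union of discs `α_i + b_i T`. -/

set_option autoImplicit false
set_option linter.unusedSectionVars false
set_option linter.style.haveILetI false

noncomputable section

namespace Crest.Agent.R013.Sub_270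

open Filter Topology Crest.Agent.R013.Cell_408 Crest.Agent.R013.Clu_270 Crest.Agent.R013.Comp_267
  Crest.Agent.R013.Good_408 Crest.Agent.R013.EE809 Crest.Agent.R013.CAn_243
open Crest.Agent.R013.AnW_201 (evE InA evE_add evE_mul evE_mo summable_evE lin Fac exists_fac inA_lin
  evE_lin IsUA)

section clusters

variable {C : Type*} [NormedField C] [IsUltrametricDist C] [IsAlgClosed C]

omit [IsUltrametricDist C] [IsAlgClosed C] in
theorem phi_scale (S : Multiset C) {t : C} (ht : t ≠ 0) (α : C) (ρ : ℝ) :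
    phi S (t * α) (‖t‖ * ρ) = ‖t‖ ^ S.card * phi (S.map fun τ => τ / t) α ρ := by
  induction S using Multiset.induction_on with
  | empty => simp [phi_zero]
  | cons a S ih =>
    rw [phi_cons, ih, Multiset.map_cons, phi_cons, Multiset.card_cons, pow_succ]
    have e : t * α - a = t * (α - a / t) := by field_simp
    rw [e, norm_mul, ← mul_max_of_nonneg _ _ (norm_nonneg t)]
    ring

/-- clusters for zeros of norm `≤ |t|` -/
theorem exists_clusters' (S : Multiset C) {t : C} (ht : t ≠ 0) (hS : ∀ τ ∈ S, ‖τ‖ ≤ ‖t‖) {r : C}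
    (hr0 : r ≠ 0) (hr : ‖r‖ ≤ ‖t‖ ^ S.card) :
    ∃ (n : ℕ) (α b : Fin n → C), (∀ i, α i ∈ S) ∧ (∀ i, b i ≠ 0) ∧ (∀ i, ‖b i‖ ≤ ‖t‖) ∧
      (∀ i, phi S (α i) ‖b i‖ = ‖r‖) ∧
      (∀ τ ∈ S, ∃ i, ‖τ - α i‖ < ‖b i‖) ∧
      ∑ i, (S.countP fun τ => ‖τ - α i‖ < ‖b i‖) = S.card := by
  classical
  have ht' : 0 < ‖t‖ := norm_pos_iff.2 ht
  have hr' : ‖r / t ^ S.card‖ ≤ 1 := by
    rw [norm_div, norm_pow]; exact (div_le_one (pow_pos ht' _)).2 hr
  obtain ⟨n, α, b, h1, h2, h3, h4, -, h6, h7⟩ := exists_clusters (S.map fun τ => τ / t)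
    (fun τ hτ => by
      obtain ⟨σ, hσ, rfl⟩ := Multiset.mem_map.1 hτ
      rw [norm_div]; exact (div_le_one ht').2 (hS σ hσ))
    (div_ne_zero hr0 (pow_ne_zero S.card ht)) hr'
  have hiff : ∀ i τ, ‖τ - t * α i‖ < ‖t * b i‖ ↔ ‖τ / t - α i‖ < ‖b i‖ := by
    intro i τ
    have e : τ - t * α i = t * (τ / t - α i) := by field_simp
    rw [e, norm_mul, norm_mul]
    exact mul_lt_mul_iff_right₀ ht'
  refine ⟨n, fun i => t * α i, fun i => t * b i, fun i => ?_, fun i => mul_ne_zero ht (h2 i),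
    fun i => ?_, fun i => ?_, fun τ hτ => ?_, ?_⟩
  · obtain ⟨σ, hσ, h⟩ := Multiset.mem_map.1 (h1 i)
    have : t * α i = σ := by rw [← h]; field_simp
    change t * α i ∈ S
    rw [this]; exact hσ
  · rw [norm_mul]
    exact mul_le_of_le_one_right ht'.le (h3 i)
  · rw [norm_mul, phi_scale S ht, h4 i, norm_div, norm_pow]
    field_simp
  · obtain ⟨i, hi⟩ := h6 (τ / t) (Multiset.mem_map.2 ⟨τ, hτ, rfl⟩)
    exact ⟨i, (hiff i τ).2 hi⟩
  · rw [Multiset.card_map] at h7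
    rw [← h7]
    refine Finset.sum_congr rfl fun i _ => ?_
    rw [Multiset.countP_map, Multiset.countP_eq_card_filter]
    congr 1
    refine Multiset.filter_congr fun τ _ => ?_
    exact hiff i τ

end clusters

variable {k C : Type*} [NontriviallyNormedField k] [CompleteSpace k] [IsUltrametricDist k]
  [NormedField C] [IsUltrametricDist C] [NormedAlgebra k C] [Algebra.IsAlgebraic k C] [IsAlgClosed C]

variable {c : C}

theorem tA_poly (P : Polynomial C) {α b : C} (hk : DiscNorm k) (hc0 : c ≠ 0) (hc1 : ‖c‖ < 1)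
    (hα0 : α ≠ 0) (hcα : ‖c‖ < ‖α‖) (hα : ‖α‖ < 1) (hb : ‖b‖ ≤ ‖α‖) :
    resA hk hc0 hc1 hα0 hcα hα hb (Polynomial.aeval (tA c) P) =
      comp (aff α b) (co_aff (k := k) hα (hb.trans hα.le)) (Polynomial.aeval bX P) := by
  rw [← Polynomial.aeval_algHom_apply, ← Polynomial.aeval_algHom_apply, resA_tA]
  congr 2
  exact (comp_X (aff α b) (co_aff (k := k) hα (hb.trans hα.le))).symm

theorem aeval_tA_rootPoly (S : Multiset C) :
    ((Polynomial.aeval (tA c : AN k c) (rootPoly S) : AN k c) : EE k C) = (S.map lin).prod := by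
  unfold rootPoly
  rw [map_multiset_prod, Multiset.map_map]
  have h2 := map_multiset_prod (AN k c).val
    (S.map (Polynomial.aeval (tA c : AN k c) ∘ fun τ => Polynomial.X - Polynomial.C τ))
  rw [Multiset.map_map] at h2
  refine h2.trans ?_
  congr 1
  refine Multiset.map_congr rfl fun τ _ => ?_
  simp only [Function.comp_apply, map_sub, Polynomial.aeval_X, Polynomial.aeval_C]
  rfl

section WAf

variable [hk : Fact (DiscNorm k)]

/-- the value of `f = T^m u` -/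
theorem norm_evE_WA (hc0 : c ≠ 0) (hc1 : ‖c‖ < 1) {f : EE k C} {m : ℤ} (hf : WA c f m) {s : C}
    (hcs : ‖c‖ < ‖s‖) (hs : ‖s‖ < 1) : ‖evE s f‖ = ‖s‖ ^ m := by
  obtain ⟨u, v, hu, hv, huv, e, -⟩ := hf.dvd hc0 hc1
  have hu' : IsUA c u := ⟨hu.le, fun n => by simpa using hu.leA n, hu.one⟩
  have hv' : IsUA c v := ⟨hv.le, fun n => by simpa using hv.leA n, hv.one⟩
  rw [e, evE_mul hcs hs hc0 (T_mem_AN c m) hu'.inA, evE_T, norm_mul, norm_zpow,
    AnW_201.norm_evE_unit hc0 hcs hs hu' hv' huv, mul_one]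

/-- the zeros of `f - al` -/
theorem exists_fac_sub (hc0 : c ≠ 0) (hc1 : ‖c‖ < 1) {f : EE k C} {m : ℕ} (hm : m ≠ 0)
    (hf : WA c f m) {al : C} (hal : ‖c‖ ^ m < ‖al‖) (hal1 : ‖al‖ < 1) :
    ∃ F : Fac c (f - algebraMap C (EE k C) al), F.N = 0 ∧ F.S.card = m ∧ ‖F.A‖ = 1 ∧
      ∀ τ ∈ F.S, ‖τ‖ ^ m = ‖al‖ := by
  have hc' : 0 < ‖c‖ := norm_pos_iff.2 hc0
  have hmZ : (m : ℤ) ≠ 0 := by exact_mod_cast hm
  have hmpos : (0 : ℤ) < m := by exact_mod_cast Nat.pos_of_ne_zero hm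
  set f0 : EE k C := f - algebraMap C (EE k C) al with hf0
  have hco : ∀ n, n ≠ 0 → f0.co n = f.co n := by
    intro n hn
    rw [hf0, co_sub, co_algebraMap, if_neg hn, sub_zero]
  have hf00 : ‖f.co 0‖ < ‖al‖ := by
    have := hf.leA 0
    rw [zpow_zero, mul_one, zpow_natCast] at this
    exact this.trans_lt hal
  have hco0 : ‖f0.co 0‖ = ‖al‖ := by
    rw [hf0, co_sub, co_algebraMap, if_pos rfl, sub_eq_add_neg,
      IsUltrametricDist.norm_add_eq_max_of_norm_ne_norm (by rw [norm_neg]; exact hf00.ne), norm_neg,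
      max_eq_right hf00.le]
  have hle : ∀ n, ‖f0.co n‖ ≤ 1 := by
    intro n
    by_cases hn : n = 0
    · rw [hn, hco0]; exact hal1.le
    · rw [hco n hn]; exact hf.le n
  have hone : ‖f0.co m‖ = 1 := by rw [hco m hmZ]; exact hf.one
  have hlt : ∀ n : ℤ, n < m → ‖f0.co n‖ < 1 := by
    intro n hn
    by_cases hn0 : n = 0
    · rw [hn0, hco0]; exact hal1
    · rw [hco n hn0]; exact hf.lt hc0 hc1 hn
  have hgn : gn f0 = 1 := le_antisymm (gn_le hle) (by rw [← hone]; exact le_gn f0 _)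
  have hod : od f0 = m := od_eq_of (by rw [hgn]; exact hone) (by rw [hgn]; exact hlt)
  have hin : InA c f0 := InA.sub hf.mem_AN ((AN k c).algebraMap_mem al)
  have hne : f0 ≠ 0 := by
    intro h
    rw [h, gn_zero] at hgn
    exact zero_ne_one hgn
  obtain ⟨F⟩ := exists_fac hk.out hc0 hc1 hin hne
  have hfl : ∀ n, ‖(AnW_201.flip c hc0 hc1 f0 F.inA).co n‖ = ‖f0.co (-n)‖ * ‖c‖ ^ (-n) := by
    intro n
    rw [AnW_201.co_flip, norm_mul, norm_zpow]
  have hfl0 : ‖(AnW_201.flip c hc0 hc1 f0 F.inA).co 0‖ = ‖al‖ := by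
    rw [hfl, neg_zero, zpow_zero, mul_one, hco0]
  have hfln : ∀ n, n ≠ 0 → ‖(AnW_201.flip c hc0 hc1 f0 F.inA).co n‖ < ‖al‖ := by
    intro n hn
    rw [hfl, hco _ (by omega)]
    have := hf.leA (-n)
    rw [zpow_natCast] at this
    exact this.trans_lt hal
  have hgnf : gn (AnW_201.flip c hc0 hc1 f0 F.inA) = ‖al‖ := by
    refine le_antisymm (gn_le fun n => ?_) (by rw [← hfl0]; exact le_gn _ _)
    by_cases hn : n = 0
    · rw [hn, hfl0]
    · exact (hfln n hn).le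
  have hodf : od (AnW_201.flip c hc0 hc1 f0 F.inA) = 0 :=
    od_eq_of (by rw [hgnf]; exact hfl0) (fun n hn => by rw [hgnf]; exact hfln n hn.ne)
  have hN : F.N = 0 := by
    have := F.od_flip hk.out hc0 hc1
    rw [hodf] at this
    omega
  have hcard : F.S.card = m := by
    have := F.od_eq hk.out hc0 hc1
    rw [hod, hN, zero_add] at this
    exact_mod_cast this.symm
  refine ⟨F, hN, hcard, ?_, fun τ hτ => ?_⟩
  · rw [← F.gn_eq hk.out, hgn]
  · obtain ⟨h1, h2⟩ := F.hS τ hτ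
    have h3 := (F.evE_eq_zero hc0 h1 h2).2 hτ
    rw [hf0, evE_sub h1 h2 hc0 hf.mem_AN ((AN k c).algebraMap_mem al), evE_const, sub_eq_zero] at h3
    have h4 := norm_evE_WA hc0 hc1 hf h1 h2
    rw [h3, zpow_natCast] at h4
    exact h4.symm

end WAf

/-- the disc `α + b T` lies in the annulus `|c| < |T| < 1` -/
structure Dc (c α b : C) : Prop where
  c0 : c ≠ 0
  c1 : ‖c‖ < 1
  cα : ‖c‖ < ‖α‖
  α1 : ‖α‖ < 1
  b0 : b ≠ 0
  bα : ‖b‖ ≤ ‖α‖

namespace Dc

variable {α b : C}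

theorem α0 (h : Dc c α b) : α ≠ 0 := norm_pos_iff.1 ((norm_nonneg c).trans_lt h.cα)

theorem b1 (h : Dc c α b) : ‖b‖ ≤ 1 := h.bα.trans h.α1.le

theorem norm_pt (h : Dc c α b) {t : C} (ht : ‖t‖ < 1) : ‖α + b * t‖ = ‖α‖ :=
  norm_aff_eq h.α0 h.bα ht

theorem lt_pt (h : Dc c α b) {t : C} (ht : ‖t‖ < 1) : ‖c‖ < ‖α + b * t‖ := by
  rw [h.norm_pt ht]; exact h.cα

theorem pt_lt (h : Dc c α b) {t : C} (ht : ‖t‖ < 1) : ‖α + b * t‖ < 1 := by
  rw [h.norm_pt ht]; exact h.α1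

end Dc

/-- restriction to the disc -/
def resD (hk : DiscNorm k) {α b : C} (h : Dc c α b) : AN k c →ₐ[C] BD k C :=
  resA hk h.c0 h.c1 h.α0 h.cα h.α1 h.bα

theorem evp_resD (hk : DiscNorm k) {α b : C} (h : Dc c α b) (g : AN k c) {t : C} (ht : ‖t‖ < 1) :
    evp t (resD hk h g : PowerSeries C) = evE (α + b * t) g.1 :=
  evp_resA hk h.c0 h.c1 h.α0 h.cα h.α1 h.bα g ht

theorem hasW_isU {u : PowerSeries C} (hu : IsU k u) : HasW u 1 0 :=
  ⟨hu.le, hu.zero, fun n hn => absurd hn (Nat.not_lt_zero n)⟩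

theorem hasW_C {x : C} (hx : ‖x‖ = 1) : HasW (PowerSeries.C x) 1 0 := by
  refine ⟨fun n => ?_, ?_, fun n hn => absurd hn (Nat.not_lt_zero n)⟩
  · rw [PowerSeries.coeff_C]
    split_ifs
    · exact hx.le
    · rw [norm_zero]; exact zero_le_one
  · rw [PowerSeries.coeff_C, if_pos rfl, hx]

/-- **The preimage of a disc** in an annulus. -/
theorem exists_subA [hk : Fact (DiscNorm k)] (hc0 : c ≠ 0) (hc1 : ‖c‖ < 1) {f : EE k C} {m : ℕ}
    (hm : m ≠ 0) (hf : WA c f m) {al r : C} (hal : ‖c‖ ^ m < ‖al‖) (hal1 : ‖al‖ < 1) (hr0 : r ≠ 0)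
    (hr : ‖r‖ ≤ ‖al‖) :
    ∃ (n : ℕ) (α b : Fin n → C) (hD : ∀ i, Dc c (α i) (b i)) (mm : Fin n → ℕ)
      (g : Fin n → PowerSeries C) (hg : ∀ i, WD k (g i) (mm i)) (hmm : ∀ i, mm i ≠ 0),
      ∑ i, mm i = m ∧ (∀ i, ‖α i‖ ^ m = ‖al‖) ∧
      (∀ i, (resD hk.out (hD i) ⟨f, hf.mem_AN⟩ : PowerSeries C) =
        PowerSeries.C al + PowerSeries.C r * g i) ∧
      ∀ (e : Fin m → BD k C), (∀ i, ∑ s, comp (g i) (WD.co (hg i) (hmm i)) (e s) *
        (comp (aff (α i) (b i)) (co_aff (hD i).α1 (hD i).b1) bX) ^ (s : ℕ) = 0) → e = 0 := by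
  classical
  obtain ⟨F, hN, hcard, hA, hroot⟩ := exists_fac_sub hc0 hc1 hm hf hal hal1
  obtain ⟨t0, ht0⟩ := IsAlgClosed.exists_pow_nat_eq al (n := m) (Nat.pos_of_ne_zero hm)
  have hal0 : al ≠ 0 := norm_pos_iff.1 ((pow_nonneg (norm_nonneg c) m).trans_lt hal)
  have ht00 : t0 ≠ 0 := by
    rintro rfl
    rw [zero_pow hm] at ht0
    exact hal0 ht0.symm
  have hnt0 : ‖t0‖ ^ m = ‖al‖ := by rw [← norm_pow, ht0]
  have hrt : ∀ τ ∈ F.S, ‖τ‖ = ‖t0‖ := fun τ hτ =>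
    (pow_left_inj₀ (norm_nonneg _) (norm_nonneg _) hm).1 ((hroot τ hτ).trans hnt0.symm)
  obtain ⟨n, α, b, hαS, hb0, hb, hphi, hcov, hsum⟩ := exists_clusters' F.S ht00
    (fun τ hτ => (hrt τ hτ).le) hr0 (by rw [hcard, hnt0]; exact hr)
  have hαn : ∀ i, ‖α i‖ = ‖t0‖ := fun i => hrt _ (hαS i)
  have hD : ∀ i, Dc c (α i) (b i) := fun i =>
    ⟨hc0, hc1, (F.hS _ (hαS i)).1, (F.hS _ (hαS i)).2, hb0 i, by rw [hαn i]; exact hb i⟩
  let mm : Fin n → ℕ := fun i => F.S.countP fun τ => ‖τ - α i‖ < ‖b i‖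
  have hmm : ∀ i, mm i ≠ 0 := fun i => by
    refine (Multiset.countP_pos.2 ⟨α i, hαS i, ?_⟩).ne'
    rw [sub_self, norm_zero]; exact norm_pos_iff.2 (hb0 i)
  -- `f - al` on the discs
  let f0 : AN k c := ⟨f, hf.mem_AN⟩ - algebraMap C (AN k c) al
  let uA : AN k c := ⟨F.u, F.hu.inA⟩
  have hf0 : f0 = algebraMap C (AN k c) F.A * Polynomial.aeval (tA c) (rootPoly F.S) * uA := by
    apply Subtype.ext
    change f - algebraMap C (EE k C) al = algebraMap C (EE k C) F.A *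
      ((Polynomial.aeval (tA c : AN k c) (rootPoly F.S) : AN k c) : EE k C) * F.u
    rw [aeval_tA_rootPoly]
    conv_lhs => rw [F.eq, hN]
    rfl
  let A : ∀ i, Co k (aff (α i) (b i)) := fun i => co_aff (hD i).α1 (hD i).b1
  have hres : ∀ i, resD hk.out (hD i) f0 = algebraMap C (BD k C) F.A *
      comp (aff (α i) (b i)) (A i) (Polynomial.aeval bX (rootPoly F.S)) * resD hk.out (hD i) uA := by
    intro i
    rw [hf0, map_mul, map_mul, AlgHom.commutes]
    congr 2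
    exact tA_poly _ hk.out (hD i).c0 (hD i).c1 (hD i).α0 (hD i).cα (hD i).α1 (hD i).bα
  have hU : ∀ i, IsU k (resD hk.out (hD i) uA : PowerSeries C) := fun i =>
    isU_resA hk.out (hD i).c0 (hD i).c1 (hD i).α0 (hD i).cα (hD i).α1 (hD i).bα F.hu.zero F.hu.le
      F.hu.le'
  have hW : ∀ i, HasW (resD hk.out (hD i) f0 : PowerSeries C) ‖r‖ (mm i) := by
    intro i
    have e1 : (resD hk.out (hD i) f0 : PowerSeries C) = PowerSeries.C F.A *
        compS (aff (α i) (b i)) (rootPoly F.S : PowerSeries C) *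
          (resD hk.out (hD i) uA : PowerSeries C) := by
      rw [hres i]
      change PowerSeries.C F.A * compS (aff (α i) (b i))
        ((Polynomial.aeval bX (rootPoly F.S) : BD k C) : PowerSeries C) * _ = _
      rw [coe_aeval_bX]
    rw [e1]
    have h1 := ((hasW_C hA).mul (hasW_comp_roots k (hD i).α1 (hb0 i) (hD i).b1 F.S) one_pos
      (phi_pos F.S _ (norm_pos_iff.2 (hb0 i)))).mul (hasW_isU (hU i))
      (by rw [one_mul]; exact phi_pos F.S _ (norm_pos_iff.2 (hb0 i))) one_pos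
    rw [one_mul, mul_one, zero_add, add_zero, hphi i] at h1
    exact h1
  let g : Fin n → PowerSeries C := fun i =>
    PowerSeries.C r⁻¹ * (resD hk.out (hD i) f0 : PowerSeries C)
  have hgW : ∀ i, HasW (g i) 1 (mm i) := by
    intro i
    have h2 := (hW i).smul (inv_ne_zero hr0)
    rwa [norm_inv, inv_mul_cancel₀ (norm_ne_zero_iff.2 hr0)] at h2
  have hgB : ∀ i, g i ∈ BD k C := fun i =>
    mul_mem (C_mem_BD _) (resD hk.out (hD i) f0).2
  have hg : ∀ i, WD k (g i) (mm i) := fun i => ⟨(hgB i).1, (hgW i).le, (hgW i).eq, (hgW i).lt⟩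
  have hrel : ∀ i, (resD hk.out (hD i) f0 : PowerSeries C) = PowerSeries.C r * g i := by
    intro i
    change _ = PowerSeries.C r * (PowerSeries.C r⁻¹ * _)
    rw [← mul_assoc, ← map_mul, mul_inv_cancel₀ hr0, map_one, one_mul]
  refine ⟨n, α, b, hD, mm, g, hg, hmm, hsum.trans hcard, fun i => by rw [hαn i, hnt0], ?_, ?_⟩
  · intro i
    rw [← hrel i]
    have h1 : resD hk.out (hD i) f0 = resD hk.out (hD i) ⟨f, hf.mem_AN⟩ -
        algebraMap C (BD k C) al := by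
      change resD hk.out (hD i) (⟨f, hf.mem_AN⟩ - algebraMap C (AN k c) al) = _
      rw [map_sub, AlgHom.commutes]
    rw [h1]
    change _ = PowerSeries.C al + ((resD hk.out (hD i) ⟨f, hf.mem_AN⟩ : PowerSeries C) -
      PowerSeries.C al)
    ring
  · intro e he
    refine indep_of_dvd hcard α b (fun i => (hD i).α1) (fun i => (hD i).b1) hb0 hcov g
      (fun i => WD.co (hg i) (hmm i)) (fun i => (hgW i).ne_zero one_pos) (fun i => ?_) e he
    have h4 : comp (aff (α i) (b i)) (A i) (Polynomial.aeval bX (rootPoly F.S)) ∣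
        bC r * (⟨g i, (WD.co (hg i) (hmm i)).mem⟩ : BD k C) := by
      have h5 : bC r * (⟨g i, (WD.co (hg i) (hmm i)).mem⟩ : BD k C) = resD hk.out (hD i) f0 :=
        Subtype.ext (hrel i).symm
      rw [h5, hres i, mul_assoc, mul_comm (algebraMap C (BD k C) F.A), mul_assoc]
      exact dvd_mul_right _ _
    refine h4.trans ⟨bC r⁻¹, ?_⟩
    have h5 : (bC r : BD k C) * bC r⁻¹ = 1 := by
      rw [bC_eq, bC_eq, ← map_mul, mul_inv_cancel₀ hr0, map_one]
    calc (⟨g i, (WD.co (hg i) (hmm i)).mem⟩ : BD k C) =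
          (bC r * bC r⁻¹) * (⟨g i, (WD.co (hg i) (hmm i)).mem⟩ : BD k C) := by rw [h5, one_mul]
      _ = bC r * (⟨g i, (WD.co (hg i) (hmm i)).mem⟩ : BD k C) * bC r⁻¹ := by ring

/-- compatibility with the composition -/
theorem resD_comp [hk : Fact (DiscNorm k)] {c' : C} (hc0 : c ≠ 0) (hc1 : ‖c‖ < 1) {f : EE k C} {m : ℕ}
    (hf : WA c' f m) (Φ : AN k c →ₐ[C] AN k c') (hΦ : Φ (tA c) = ⟨f, hf.mem_AN⟩)
    {al r : C} (hD0 : Dc c al r) {α b : C} (hD : Dc c' α b)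
    {g : PowerSeries C} {mm : ℕ} (hg : WD k g mm) (hmm : mm ≠ 0)
    (hrel : (resD hk.out hD ⟨f, hf.mem_AN⟩ : PowerSeries C) =
        PowerSeries.C al + PowerSeries.C r * g) (x : AN k c) :
    resD hk.out hD (Φ x) = comp g (WD.co hg hmm) (resD hk.out hD0 x) := by
  refine Subtype.ext (evp_ext' hk.out (Subtype.mem _) (Subtype.mem _) fun t ht => ?_)
  have hgt : ‖evp t g‖ < 1 := (WD.co hg hmm).norm_evp ht
  have h0 : evE (α + b * t) f = al + r * evp t g := by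
    have h1 := evp_resD hk.out hD ⟨f, hf.mem_AN⟩ ht
    rw [hrel, evp_add (k := k) (C_mem_BD al) (mul_mem (C_mem_BD r) (WD.co hg hmm).mem) ht,
      evp_mul (k := k) (C_mem_BD r) (WD.co hg hmm).mem ht, evp_C, evp_C] at h1
    exact h1.symm
  have h2 := algHom_eq_evE hk.out hc0 hc1 (((AnW_201.evA (k := k) hD.c0 (α + b * t) (hD.lt_pt ht)
    (hD.pt_lt ht)).comp (Subalgebra.inclusion (fun _ h => h : AN k c' ≤ AnW_201.AN k C c'))).comp Φ)
    (s := al + r * evp t g) (by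
      rw [AlgHom.comp_apply, hΦ]
      exact h0) (hD0.lt_pt hgt) (hD0.pt_lt hgt) x
  rw [evp_resD hk.out hD _ ht, evp_comp hk.out (WD.co hg hmm) _ ht, evp_resD hk.out hD0 _ hgt]
  exact h2

end Crest.Agent.R013.Sub_270
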