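import Crest.Agent.R013.Sub5_270
import Crest.Agent.R013.Sub4_270
import Crest.Agent.R013.CAn4_243
import Crest.Agent.R013.Good4_408

/-! # R013 / Sub6_270 : heredity of good annuli, preparations:
values of composites, independence of `1, T, .., T^(m-1)` over `compE`, compatibilities on `FA`. -/

set_option autoImplicit false
set_option linter.unusedSectionVars false
set_option linter.style.haveILetI false

noncomputable section

namespace Crest.Agent.R013.Sub_270

open Module Filter Topology Crest.Agent.R013.Cell_408 Crest.Agent.R013.Clu_270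
  Crest.Agent.R013.Comp_267 Crest.Agent.R013.Good_408 Crest.Agent.R013.EE809 Crest.Agent.R013.CAn_243
open Crest.Agent.R013.AnW_201 (evE InA evE_add evE_mul evE_mo summable_evE lin Fac exists_fac inA_lin
  evE_lin IsUA)

variable {k C : Type*} [NontriviallyNormedField k] [CompleteSpace k] [IsUltrametricDist k]
  [NormedField C] [IsUltrametricDist C] [NormedAlgebra k C] [Algebra.IsAlgebraic k C] [IsAlgClosed C]
  [hk : Fact (DiscNorm k)]

variable {c c' : C}

section comp

variable {f : EE k C} {m : ℕ} (hc0 : c ≠ 0) (hc1 : ‖c‖ < 1) (hc0' : c' ≠ 0) (hc1' : ‖c'‖ < 1)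
  (hf : WA c' f m) (hm : m ≠ 0) (hcc : ‖c'‖ ^ m = ‖c‖)

theorem compA_tA : compA hc0' hc1' hf hm hcc (tA c) = ⟨f, hf.mem_AN⟩ := by
  apply Subtype.ext
  rw [coe_compA]
  exact compE_T_one _ _

include hc0 hc1 in
/-- the value of a composite -/
theorem evE_compA {s : C} (hcs : ‖c'‖ < ‖s‖) (hs : ‖s‖ < 1) (g : AN k c) :
    evE s (compA hc0' hc1' hf hm hcc g).1 = evE (evE s f) g.1 := by
  have hn : ‖evE s f‖ = ‖s‖ ^ m := by
    rw [norm_evE_WA hc0' hc1' hf hcs hs, zpow_natCast]
  have hc'' : 0 ≤ ‖c'‖ := norm_nonneg _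
  have h1 : ‖c‖ < ‖evE s f‖ := by
    rw [hn, ← hcc]; exact pow_lt_pow_left₀ hcs hc'' hm
  have h2 : ‖evE s f‖ < 1 := by
    rw [hn]; exact pow_lt_one₀ (norm_nonneg _) hs hm
  have h3 := algHom_eq_evE hk.out hc0 hc1 (((AnW_201.evA (k := k) hc0' s hcs hs).comp
    (Subalgebra.inclusion (fun _ h => h : AN k c' ≤ AnW_201.AN k C c'))).comp
      (compA hc0' hc1' hf hm hcc)) (s := evE s f) (by
      rw [AlgHom.comp_apply, compA_tA]
      rfl) h1 h2 g
  exact h3

end comp

/-! ### independence over `compE` -/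

theorem norm_sum_lt' {C : Type*} [NormedField C] [IsUltrametricDist C] {ι : Type*} (s : Finset ι)
    (x : ι → C) {M : ℝ} (hM : 0 < M) (h : ∀ i ∈ s, ‖x i‖ < M) : ‖∑ i ∈ s, x i‖ < M := by
  classical
  induction s using Finset.induction_on with
  | empty => rw [Finset.sum_empty, norm_zero]; exact hM
  | insert i s hi ih =>
    rw [Finset.sum_insert hi]
    exact (IsUltrametricDist.norm_add_le_max _ _).trans_lt (max_lt (h i (Finset.mem_insert_self _ _))
      (ih fun j hj => h j (Finset.mem_insert_of_mem hj)))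

theorem indep_compE {f : EE k C} {m : ℕ} (h : WE f m) (hm : m ≠ 0) (A : Fin m → EE k C)
    (h0 : ∑ i, compE f h hm (A i) * T (i : ℕ) = 0) : A = 0 := by
  classical
  by_contra hne
  have hne' : ∃ i, A i ≠ 0 := by
    by_contra hcon
    push Not at hcon
    exact hne (funext hcon)
  obtain ⟨i1, hi1⟩ := hne'
  -- the maximal norm
  obtain ⟨i2, -, hmax⟩ := Finset.exists_max_image (Finset.univ : Finset (Fin m)) (fun i => gn (A i))
    ⟨i1, Finset.mem_univ _⟩
  set M := gn (A i2) with hM
  have hMpos : 0 < M := (gn_pos hi1).trans_le (hmax i1 (Finset.mem_univ _))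
  let X : Fin m → EE k C := fun i => compE f h hm (A i) * T (i : ℕ)
  have hTne : ∀ n : ℤ, (T n : EE k C) ≠ 0 := fun n hT => by
    have := congrArg (fun z : EE k C => z.co n) hT
    simp only [EE809.T, co_mo, if_pos, co_zero] at this
    exact one_ne_zero this
  have hgT : ∀ n : ℤ, gn (T n : EE k C) = 1 := fun n => by rw [EE809.T, gn_mo, norm_one]
  have hoT : ∀ n : ℤ, od (T n : EE k C) = n := fun n => by
    rw [EE809.T, mo, od_mono _ _ one_ne_zero]
  have hgX : ∀ i, gn (X i) = gn (A i) := fun i => by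
    change gn (compE f h hm (A i) * T (i : ℕ)) = _
    rw [gn_mul hk.out, gn_compE, hgT, mul_one]
  have hoX : ∀ i, A i ≠ 0 → od (X i) = m * od (A i) + i := fun i hi => by
    change od (compE f h hm (A i) * T (i : ℕ)) = _
    rw [od_mul hk.out (compE_ne_zero h hm hi) (hTne _), od_compE, hoT]
  have hXne : ∀ i, A i ≠ 0 → X i ≠ 0 := fun i hi h' => by
    have := hgX i
    rw [h', gn_zero] at this
    exact hi (gn_eq_zero.1 this.symm)
  let B : Finset (Fin m) := Finset.univ.filter fun i => gn (A i) = M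
  have hBne : B.Nonempty := ⟨i2, by simp [B, hM]⟩
  obtain ⟨i0, hi0B, hmin⟩ := Finset.exists_min_image B (fun i => od (X i)) hBne
  have hi0 : gn (A i0) = M := (Finset.mem_filter.1 hi0B).2
  have hAne : ∀ i, gn (A i) = M → A i ≠ 0 := fun i hi h' => by
    rw [h', gn_zero] at hi; exact hMpos.ne hi
  set n0 := od (X i0) with hn0
  have h1 : ‖(X i0).co n0‖ = M := by
    rw [hn0, norm_co_od hk.out (hXne i0 (hAne i0 hi0)), hgX, hi0]
  have h2 : ∀ i, i ≠ i0 → ‖(X i).co n0‖ < M := by
    intro i hi
    rcases (hmax i (Finset.mem_univ _)).eq_or_lt with h3 | h3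
    · have hAi := hAne i h3
      have hle := hmin i (Finset.mem_filter.2 ⟨Finset.mem_univ _, h3⟩)
      have hneq : od (X i) ≠ od (X i0) := by
        rw [hoX i hAi, hoX i0 (hAne i0 hi0)]
        intro heq
        apply hi
        have h4 : ((i : ℕ) : ℤ) % m = ((i0 : ℕ) : ℤ) % m := by
          have e1 : ((i : ℕ) : ℤ) = (i0 : ℕ) + m * (od (A i0) - od (A i)) := by linarith
          rw [e1, Int.add_mul_emod_self_left]
        rw [Int.emod_eq_of_lt (by positivity) (by exact_mod_cast i.2),
          Int.emod_eq_of_lt (by positivity) (by exact_mod_cast i0.2)] at h4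
        exact Fin.ext (by exact_mod_cast h4)
      have hlt : n0 < od (X i) := lt_of_le_of_ne hle (fun h' => hneq h'.symm)
      have := norm_lt_of_lt_od (hXne i hAi) hlt
      rwa [hgX, h3] at this
    · exact (le_gn (X i) n0).trans_lt (by rw [hgX]; exact h3)
  have h3 : ∑ i, (X i).co n0 = 0 := by
    have := congrArg (fun z : EE k C => z.co n0) h0
    simp only [co_finset_sum, co_zero] at this
    exact this
  rw [← Finset.add_sum_erase _ _ (Finset.mem_univ i0)] at h3
  have h4 : ‖∑ i ∈ Finset.univ.erase i0, (X i).co n0‖ < M :=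
    norm_sum_lt' _ _ hMpos fun i hi => h2 i (Finset.ne_of_mem_erase hi)
  rw [eq_neg_of_add_eq_zero_left h3, norm_neg] at h1
  exact h4.ne h1

end Crest.Agent.R013.Sub_270
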