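import Crest.Agent.R013.Sub6_270
import Crest.Agent.R013.Good6_408

/-! # R013 / Sub7_270 : heredity of good annuli (S3): concentric sub-annuli. -/

set_option autoImplicit false
set_option linter.unusedSectionVars false
set_option linter.style.haveILetI false

noncomputable section

namespace Crest.Agent.R013.Sub_270

open Module Filter Topology Crest.Agent.R013.Cell_408 Crest.Agent.R013.Clu_270
  Crest.Agent.R013.Comp_267 Crest.Agent.R013.Good_408 Crest.Agent.R013.EE809 Crest.Agent.R013.CAn_243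
open Crest.Agent.R013.AnW_201 (evE InA evE_add evE_mul evE_mo summable_evE lin Fac exists_fac inA_lin
  evE_lin IsUA)

variable {k C : Type*} [NontriviallyNormedField k] [CompleteSpace k] [IsUltrametricDist k]
  [NormedField C] [IsUltrametricDist C] [NormedAlgebra k C] [Algebra.IsAlgebraic k C] [IsAlgClosed C]
  [hk : Fact (DiscNorm k)]

variable {c c' c₂ c₂' r r1 : C}

/-- the map `T ↦ f (r1 T) / r` -/
def fres (h' : Cc c' c₂' r1) (r : C) {f : EE k C} (hf : f ∈ AN k c') : AN k c₂' :=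
  algebraMap C (AN k c₂') r⁻¹ * resAA h' ⟨f, hf⟩

theorem co_fres (h' : Cc c' c₂' r1) (r : C) {f : EE k C} (hf : f ∈ AN k c') (n : ℤ) :
    (fres h' r hf).1.co n = r⁻¹ * (f.co n * r1 ^ n) := by
  change (algebraMap C (EE k C) r⁻¹ * (resAA h' ⟨f, hf⟩).1).co n = _
  rw [algebraMap_eq, co_mo_mul, sub_zero, co_resAA]

section S3

variable {f : EE k C} {m : ℕ} (h : Cc c c₂ r) (h' : Cc c' c₂' r1) (hr : r1 ^ m = r)
  (hf : WA c' f m) (hm : m ≠ 0)

include hr in
theorem WA_fres : WA c₂' (fres h' r hf.mem_AN).1 (m : ℤ) := by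
  have hr1 : 0 < ‖r1‖ := norm_pos_iff.2 h'.r0
  have hrn : ‖r‖ = ‖r1‖ ^ (m : ℤ) := by rw [← hr, norm_pow, zpow_natCast]
  have hr0 : 0 < ‖r‖ := by rw [hrn]; exact zpow_pos hr1 _
  have hc2 : 0 < ‖c₂'‖ := norm_pos_iff.2 h'.c'0
  have h1 := hf.bdd h'.c0 h'.lt.le h'.r1
  have h2 := hf.bdd h'.c0 h'.le (by
    rw [norm_mul]; exact mul_le_one₀ h'.r1 (norm_nonneg _) h'.c'1.le)
  have hco : ∀ n, ‖(fres h' r hf.mem_AN).1.co n‖ = ‖r‖⁻¹ * (‖f.co n‖ * ‖r1‖ ^ n) := fun n => by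
    rw [co_fres, norm_mul, norm_mul, norm_inv, norm_zpow]
  refine ⟨fun n => ?_, ?_, fun n => ?_⟩
  · rw [hco]
    calc ‖r‖⁻¹ * (‖f.co n‖ * ‖r1‖ ^ n) ≤ ‖r‖⁻¹ * ‖r1‖ ^ (m : ℤ) :=
          mul_le_mul_of_nonneg_left (h1 n) (inv_nonneg.2 hr0.le)
      _ = 1 := by rw [← hrn, inv_mul_cancel₀ hr0.ne']
  · rw [hco, hf.one, one_mul, ← hrn, inv_mul_cancel₀ hr0.ne']
  · have h3 := h2 n
    rw [norm_mul, mul_zpow, mul_zpow] at h3
    rw [hco]
    calc ‖r‖⁻¹ * (‖f.co n‖ * ‖r1‖ ^ n) * ‖c₂'‖ ^ n =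
          ‖r‖⁻¹ * (‖f.co n‖ * (‖r1‖ ^ n * ‖c₂'‖ ^ n)) := by ring
      _ ≤ ‖r‖⁻¹ * (‖r1‖ ^ (m : ℤ) * ‖c₂'‖ ^ (m : ℤ)) :=
          mul_le_mul_of_nonneg_left h3 (inv_nonneg.2 hr0.le)
      _ = ‖c₂'‖ ^ (m : ℤ) := by rw [← hrn, ← mul_assoc, inv_mul_cancel₀ hr0.ne', one_mul]

include hr in
theorem evE_fres {t : C} (hct : ‖c₂'‖ < ‖t‖) (ht : ‖t‖ < 1) :
    r * evE t (fres h' r hf.mem_AN).1 = evE (r1 * t) f := by
  have hr0 : r ≠ 0 := by rw [← hr]; exact pow_ne_zero _ h'.r0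
  have e : evE t (fres h' r hf.mem_AN).1 = r⁻¹ * evE (r1 * t) f := by
    change evE t (algebraMap C (EE k C) r⁻¹ * (resAA h' ⟨f, hf.mem_AN⟩).1) = _
    rw [evE_mul hct ht h'.c'0 ((AN k c₂').algebraMap_mem _) (resAA h' ⟨f, hf.mem_AN⟩).2, evE_const,
      evE_resAA]
  rw [e, ← mul_assoc, mul_inv_cancel₀ hr0, one_mul]

variable (hc1' : ‖c'‖ < 1) (hcc : ‖c'‖ ^ m = ‖c‖) (hcc₂ : ‖c₂'‖ ^ m = ‖c₂‖)

include h in
/-- compatibility of restriction and composition, on `AN` -/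
theorem resAA_compA (g : AN k c) :
    resAA h' (compA h'.c0 hc1' hf hm hcc g) =
      compA h'.c'0 h'.c'1 (WA_fres h' hr hf) hm hcc₂ (resAA h g) := by
  refine evE_ext hk.out h'.c'0 h'.c'1 fun t hct ht => ?_
  have hs : ‖c'‖ < ‖r1 * t‖ := by
    refine h'.le.trans_lt ?_
    rw [norm_mul, norm_mul]
    exact mul_lt_mul_of_pos_left hct (norm_pos_iff.2 h'.r0)
  have hs1 : ‖r1 * t‖ < 1 := by
    rw [norm_mul]
    exact (mul_le_of_le_one_left (norm_nonneg _) h'.r1).trans_lt ht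
  rw [evE_resAA, evE_compA h.c0 h.c1 h'.c0 hc1' hf hm hcc hs hs1,
    evE_compA h.c'0 h.c'1 h'.c'0 h'.c'1 (WA_fres h' hr hf) hm hcc₂ hct ht, evE_resAA,
    evE_fres h' hr hf hct ht]

include h in
/-- compatibility of restriction and composition, on `FA` -/
theorem resFAA_compFA (g : FA k c) :
    resFAA h' (compFA h'.c0 hc1' hf hm hcc g) =
      compFA h'.c'0 h'.c'1 (WA_fres h' hr hf) hm hcc₂ (resFAA h g) := by
  have e : (resFAA h').comp (compFA h'.c0 hc1' hf hm hcc) =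
      (compFA h'.c'0 h'.c'1 (WA_fres h' hr hf) hm hcc₂).comp (resFAA h) := by
    refine FA_hom_ext fun a => ?_
    rw [AlgHom.comp_apply, AlgHom.comp_apply, compFA_algebraMap, resFAA_algebraMap,
      resFAA_algebraMap, compFA_algebraMap, resAA_compA h h' hr hf hm hc1' hcc hcc₂]
  exact DFunLike.congr_fun e g

end S3

theorem T_pow_nat (l : ℕ) : (T 1 : EE k C) ^ l = T (l : ℤ) := by
  rw [T_eq_zpow (l : ℤ), zpow_natCast]

/-- `1, T, .., T^(m-1)` generate `FA (c' j)` over `FA c` -/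
def Span {K : Type*} [Field K] [Algebra C K] [Algebra (RatFunc C) K] [IsScalarTower C (RatFunc C) K]
    {y : EE k C} (D : ACells k C K c y) : Prop :=
  ∀ j z, z ∈ FA k (D.c' j) → ∃ A : Fin (D.m j) → EE k C, (∀ i, A i ∈ FA k c) ∧
    z = ∑ i, D.φ j (A i) * T (i : ℕ)

section cells

variable {K : Type*} [Field K] [Algebra C K] [Algebra (RatFunc C) K]
    [IsScalarTower C (RatFunc C) K] [FiniteDimensional (RatFunc C) K] {y : EE k C}

theorem ACells.wa' (D : ACells k C K c y) (j : D.J) : WA (D.c' j) (D.f j) (D.m j : ℤ) :=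
  WA.of_we (D.we j) (D.wa j)

/-- the embedding with values in `FA` -/
def ioF (D : ACells k C K c y) (j : D.J) : K →ₐ[C] FA k (D.c' j) :=
  (D.io j).codRestrict (FA k (D.c' j)).toSubalgebra (D.io_mem j)

theorem coe_ioF (D : ACells k C K c y) (j : D.J) (a : K) : (ioF D j a : EE k C) = D.io j a := rfl

/-- the composition with values in `FA` -/
def φF (D : ACells k C K c y) (j : D.J) : FA k c →ₐ[C] FA k (D.c' j) :=
  compFA (D.c'_ne j) (D.c'_lt j) (ACells.wa' D j) (D.m_ne j) (D.hc' j)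

theorem coe_φF (D : ACells k C K c y) (j : D.J) (a : FA k c) :
    (φF D j a : EE k C) = D.φ j (a : EE k C) := rfl

theorem hx_F (D : ACells k C K c y) (j : D.J) :
    ioF D j (algebraMap (RatFunc C) K RatFunc.X) = φF D j ⟨y, D.hy⟩ :=
  Subtype.ext (D.hx j)

/-- `Inj` with values in `FA` -/
theorem injF (D : ACells k C K c y) {I : Type*} [Fintype I] (b : I → K)
    (hb : LinearIndependent (RatFunc C) b) :
    Inj (fun j => (φF D j).toRingHom) (fun j => (ioF D j).toRingHom) b := by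
  intro e he
  have h1 := D.inj' b hb (fun i => (e i : EE k C)) (fun i => (e i).2) (fun j => by
    have h2 := congrArg (fun z : FA k (D.c' j) => (z : EE k C)) (he j)
    refine Eq.trans ?_ h2
    change _ = (FA k (D.c' j)).val (∑ i, (φF D j) (e i) * (ioF D j) (b i))
    rw [map_sum]
    rfl)
  funext i
  exact Subtype.ext (congrFun h1 i)

theorem spanF {D : ACells k C K c y} (hs : Span D) (j : D.J) (z : FA k (D.c' j)) :
    ∃ e : Fin (D.m j) → FA k c, z = ∑ l, (φF D j) (e l) *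
      (algebraMap (AN k (D.c' j)) (FA k (D.c' j)) (tA (D.c' j))) ^ (l : ℕ) := by
  obtain ⟨A, hA, e⟩ := hs j z z.2
  refine ⟨fun i => ⟨A i, hA i⟩, Subtype.ext ?_⟩
  have h1 : ((∑ l, (φF D j) ⟨A l, hA l⟩ *
      (algebraMap (AN k (D.c' j)) (FA k (D.c' j)) (tA (D.c' j))) ^ (l : ℕ) : FA k (D.c' j)) : EE k C)
      = ∑ l, D.φ j (A l) * (T 1 : EE k C) ^ (l : ℕ) := by
    change (FA k (D.c' j)).val (∑ l, (φF D j) ⟨A l, hA l⟩ *
      (algebraMap (AN k (D.c' j)) (FA k (D.c' j)) (tA (D.c' j))) ^ (l : ℕ)) = _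
    rw [map_sum]
    rfl
  rw [h1, e]
  refine Finset.sum_congr rfl fun l _ => ?_
  rw [T_pow_nat]

/-- **(S3)** a good annulus restricts to concentric sub-annuli -/
theorem GoodA.subA (D : ACells k C K c y) (hs : Span D) {c₂ r : C} (h : Cc c c₂ r) :
    GoodA k C K c₂ (resFAA h ⟨y, D.hy⟩ : EE k C) := by
  classical
  have hc₂ : ‖c₂‖ < 1 := h.c'1
  choose r1 hr1 using fun j => IsAlgClosed.exists_pow_nat_eq r (n := D.m j)
    (Nat.pos_of_ne_zero (D.m_ne j))
  choose c₂' hc₂' using fun j => IsAlgClosed.exists_pow_nat_eq c₂ (n := D.m j)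
    (Nat.pos_of_ne_zero (D.m_ne j))
  have hcc₂ : ∀ j, ‖c₂' j‖ ^ D.m j = ‖c₂‖ := fun j => by rw [← norm_pow, hc₂']
  have hCc : ∀ j, Cc (D.c' j) (c₂' j) (r1 j) := fun j => by
    refine ⟨D.c'_ne j, ?_, ?_, ?_, ?_⟩
    · rintro h0
      have := hc₂' j
      rw [h0, zero_pow (D.m_ne j)] at this
      exact h.c'0 this.symm
    · by_contra hcon
      have h1 : 1 ≤ ‖c₂' j‖ ^ D.m j := one_le_pow₀ (not_lt.1 hcon)
      rw [hcc₂ j] at h1
      exact absurd hc₂ (not_lt.2 h1)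
    · by_contra hcon
      have h1 : 1 < ‖r1 j‖ ^ D.m j := one_lt_pow₀ (not_le.1 hcon) (D.m_ne j)
      rw [← norm_pow, hr1 j] at h1
      exact absurd h.r1 (not_le.2 h1)
    · have h1 : ‖D.c' j‖ ^ D.m j ≤ ‖r1 j * c₂' j‖ ^ D.m j := by
        rw [D.hc' j, ← norm_pow, mul_pow, hr1 j, hc₂' j]; exact h.le
      exact (pow_le_pow_iff_left₀ (norm_nonneg _) (norm_nonneg _) (D.m_ne j)).1 h1
  have hWA : ∀ j, WA (D.c' j) (D.f j) (D.m j : ℤ) := fun j => ACells.wa' D j
  let f₂ : D.J → EE k C := fun j => (fres (hCc j) r (hWA j).mem_AN).1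
  have hWA₂ : ∀ j, WA (c₂' j) (f₂ j) (D.m j : ℤ) := fun j => WA_fres (hCc j) (hr1 j) (hWA j)
  have hwe₂ : ∀ j, WE (f₂ j) (D.m j) := fun j => (hWA₂ j).we (hCc j).c'0 (hCc j).c'1
  let io₂ : D.J → K →ₐ[C] EE k C := fun j =>
    ((FA k (c₂' j)).val.comp (resFAA (hCc j))).comp (ioF D j)
  have hcomp : ∀ j (a : FA k c), resFAA (hCc j) (φF D j a) =
      compFA (hCc j).c'0 (hCc j).c'1 (hWA₂ j) (D.m_ne j) (hcc₂ j) (resFAA h a) := fun j a =>
    resFAA_compFA h (hCc j) (hr1 j) (hWA j) (D.m_ne j) (D.c'_lt j) (D.hc' j) (hcc₂ j) a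
  have hx₂ : ∀ j, io₂ j (algebraMap (RatFunc C) K RatFunc.X) =
      compE (f₂ j) (hwe₂ j) (D.m_ne j) (resFAA h ⟨y, D.hy⟩ : EE k C) := by
    intro j
    change (resFAA (hCc j) (ioF D j (algebraMap (RatFunc C) K RatFunc.X)) : EE k C) = _
    rw [hx_F, hcomp j]
    rfl
  have hcard : Fintype.card (Fin (finrank (RatFunc C) K)) = finrank (RatFunc C) K :=
    Fintype.card_fin _
  let b := Module.finBasis (RatFunc C) K
  have hinj := injF D b b.linearIndependent
  have hy : Transcendental C ((FA k c₂).val.comp (resFAA h) ⟨y, D.hy⟩) := by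
    refine transc_map _ ?_
    intro hal
    exact D.transc (hal.algHom (FA k c).val)
  refine GoodA.mk' h.c'0 h.c'1 _ hy (resFAA h ⟨y, D.hy⟩).2 D.J D.m D.m_ne c₂' hcc₂ f₂ hwe₂
    (fun j n => ?_) io₂ (fun j a => (resFAA (hCc j) (ioF D j a)).2) hx₂ D.sum_m b hcard ?_
  · have := (hWA₂ j).leA n
    rwa [zpow_natCast] at this
  · -- base change to the boundary
    have key := Inj.sub hinj D.m (by rw [D.sum_m, hcard])
      (fun j l => (algebraMap (AN k (D.c' j)) (FA k (D.c' j)) (tA (D.c' j))) ^ (l : ℕ))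
      (fun j z => spanF hs j z) (((FA k c₂).val.comp (resFAA h)).toRingHom : FA k c →+* EE k C)
      (N := fun _ => Unit) (E' := fun _ _ => EE k C)
      (fun j _ => (((FA k (c₂' j)).val.comp (resFAA (hCc j))).toRingHom : FA k (D.c' j) →+* EE k C))
      (fun j _ => (compE (f₂ j) (hwe₂ j) (D.m_ne j)).toRingHom)
      (fun j _ a => by
        change compE (f₂ j) (hwe₂ j) (D.m_ne j) (resFAA h a : EE k C) =
          (resFAA (hCc j) (φF D j a) : EE k C)
        rw [hcomp j]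
        rfl)
      (fun j e he => by
        have h1 := he ()
        have h2 : ∀ l : Fin (D.m j), (((FA k (c₂' j)).val.comp (resFAA (hCc j))).toRingHom :
            FA k (D.c' j) →+* EE k C)
              ((algebraMap (AN k (D.c' j)) (FA k (D.c' j)) (tA (D.c' j))) ^ (l : ℕ)) =
            algebraMap C (EE k C) (r1 j ^ (l : ℕ)) * T (l : ℕ) := by
          intro l
          rw [map_pow]
          have h3 : (((FA k (c₂' j)).val.comp (resFAA (hCc j))).toRingHom :
              FA k (D.c' j) →+* EE k C) (algebraMap (AN k (D.c' j)) (FA k (D.c' j)) (tA (D.c' j))) =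
              algebraMap C (EE k C) (r1 j) * T 1 := by
            change (resFAA (hCc j) (algebraMap (AN k (D.c' j)) (FA k (D.c' j)) (tA (D.c' j))) :
              EE k C) = _
            rw [resFAA_algebraMap]
            have h4 := congrArg (fun z : AN k (c₂' j) => (z : EE k C)) (resAA_mo (hCc j) 1 (1 : C))
            refine Eq.trans h4 ?_
            change (mo 1 (1 * r1 j ^ (1 : ℤ)) : EE k C) = _
            rw [one_mul, zpow_one, mo_eq]
          rw [h3, mul_pow, ← map_pow, T_pow_nat]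
        simp only [h2] at h1
        have h5 : ∑ l : Fin (D.m j), compE (f₂ j) (hwe₂ j) (D.m_ne j)
            (e l * algebraMap C (EE k C) (r1 j ^ (l : ℕ))) * T (l : ℕ) = 0 := by
          refine Eq.trans ?_ h1
          refine Finset.sum_congr rfl fun l _ => ?_
          rw [map_mul, AlgHom.commutes, mul_assoc]
          rfl
        have h6 := indep_compE (hwe₂ j) (D.m_ne j) _ h5
        funext l
        have h7 := congrFun h6 l
        rw [Pi.zero_apply, mul_eq_zero] at h7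
        refine h7.resolve_right ?_
        exact (map_ne_zero (algebraMap C (EE k C))).2 (pow_ne_zero _ (hCc j).r0))
    intro e he
    refine key e fun p => ?_
    obtain ⟨j, u⟩ := p
    exact he j

end cells

end Crest.Agent.R013.Sub_270
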