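import Crest.Agent.R013.Sub7_270

/-! # R013 / Sub8_270 : heredity of good annuli (S2): discs in annuli. -/

set_option autoImplicit false
set_option linter.unusedSectionVars false
set_option linter.style.haveILetI false

noncomputable section

namespace Crest.Agent.R013.Sub_270

open Module Filter Topology Crest.Agent.R013.Cell_408 Crest.Agent.R013.Clu_270
  Crest.Agent.R013.Comp_267 Crest.Agent.R013.Good_408 Crest.Agent.R013.EE809 Crest.Agent.R013.CAn_243
open Crest.Agent.R013.AnW_201 (evE InA evE_add evE_mul evE_mo summable_evE lin Fac exists_fac inA_lin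
  evE_lin IsUA)

variable {k C : Type*} [NontriviallyNormedField k] [CompleteSpace k] [IsUltrametricDist k]
  [NormedField C] [IsUltrametricDist C] [NormedAlgebra k C] [Algebra.IsAlgebraic k C] [IsAlgClosed C]
  [hk : Fact (DiscNorm k)]

variable {c : C}

/-- restriction to the disc `α + b T` on `FA c` -/
def resFD {α b : C} (h : Dc c α b) : FA k c →ₐ[C] FD k C :=
  resFA h.c0 h.c1 h.α0 h.cα h.α1 h.b0 h.bα

theorem resFD_algebraMap {α b : C} (h : Dc c α b) (a : AN k c) :
    resFD (k := k) h (algebraMap (AN k c) (FA k c) a) = algebraMap (BD k C) (FD k C) (resD hk.out h a) :=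
  resFA_algebraMap _ _ _ _ _ _ _ _

theorem resFD_tA {α b : C} (h : Dc c α b) :
    resFD (k := k) h (algebraMap (AN k c) (FA k c) (tA c)) = resF hk.out h.α1 h.b0 h.b1 (TF k C) := by
  rw [resFD_algebraMap, TF, resF_algebraMap]
  congr 1
  refine (resA_tA hk.out h.c0 h.c1 h.α0 h.cα h.α1 h.bα).trans ?_
  exact (comp_X (aff α b) (co_aff (k := k) h.α1 h.b1)).symm

theorem resFD_compFA {c' : C} {f : EE k C} {m : ℕ} (hc0 : c ≠ 0) (hc1 : ‖c‖ < 1) (hc0' : c' ≠ 0)
    (hc1' : ‖c'‖ < 1) (hf : WA c' f m) (hm : m ≠ 0) (hcc : ‖c'‖ ^ m = ‖c‖)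
    {al r : C} (hD0 : Dc c al r) {α b : C} (hD : Dc c' α b)
    {g : PowerSeries C} {mm : ℕ} (hg : WD k g mm) (hmm : mm ≠ 0)
    (hrel : (resD hk.out hD ⟨f, hf.mem_AN⟩ : PowerSeries C) =
        PowerSeries.C al + PowerSeries.C r * g) (x : FA k c) :
    resFD (k := k) hD (compFA hc0' hc1' hf hm hcc x) = compF hk.out hg hmm (resFD (k := k) hD0 x) := by
  have e : (resFD (k := k) hD).comp (compFA hc0' hc1' hf hm hcc) =
      (compF hk.out hg hmm).comp (resFD (k := k) hD0) := by
    refine FA_hom_ext fun a => ?_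
    rw [AlgHom.comp_apply, AlgHom.comp_apply, compFA_algebraMap, resFD_algebraMap,
      resFD_algebraMap, compF_algebraMap]
    congr 1
    exact resD_comp hc0 hc1 hf (compA hc0' hc1' hf hm hcc) (compA_tA hc0' hc1' hf hm hcc) hD0 hD hg hmm
      hrel a
  exact DFunLike.congr_fun e x

variable {K : Type*} [Field K] [Algebra C K] [Algebra (RatFunc C) K]
    [IsScalarTower C (RatFunc C) K] [FiniteDimensional (RatFunc C) K] {y : EE k C}

/-- **(S2)** a good annulus restricts to discs -/
theorem GoodA.subD (D : ACells k C K c y) (hs : Span D) {al r : C} (h : Dc c al r) :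
    GoodD k C K (resFD (k := k) h ⟨y, D.hy⟩) := by
  classical
  have hWA : ∀ j, WA (D.c' j) (D.f j) (D.m j : ℤ) := fun j => ACells.wa' D j
  choose n α b hD mm g hg hmm hsum hα hrel hind using fun j =>
    exists_subA (k := k) (D.c'_ne j) (D.c'_lt j) (D.m_ne j) (hWA j) (al := al) (r := r)
      (by rw [D.hc' j]; exact h.cα) h.α1 h.b0 h.bα
  have hcomp : ∀ j i (a : FA k c), resFD (k := k) (hD j i) (φF D j a) =
      compF hk.out (hg j i) (hmm j i) (resFD (k := k) h a) := fun j i a =>
    resFD_compFA h.c0 h.c1 (D.c'_ne j) (D.c'_lt j) (hWA j) (D.m_ne j) (D.hc' j) h (hD j i) (hg j i)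
      (hmm j i) (hrel j i) a
  have hcard : Fintype.card (Fin (finrank (RatFunc C) K)) = finrank (RatFunc C) K :=
    Fintype.card_fin _
  let b' := Module.finBasis (RatFunc C) K
  have hinj := injF D b' b'.linearIndependent
  have hy : Transcendental C (resFD (k := k) h ⟨y, D.hy⟩) := by
    refine transc_map _ ?_
    intro hal
    exact D.transc (hal.algHom (FA k c).val)
  have hcomp' : ∀ j i (a : FA k c), (compF hk.out (hg j i) (hmm j i)).toRingHom
      ((resFD (k := k) h).toRingHom a) = (resFD (k := k) (hD j i)).toRingHom ((φF D j).toRingHom a) :=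
    fun j i a => (hcomp j i a).symm
  have hli : ∀ j (e : Fin (D.m j) → FD k C), (∀ i, ∑ l, (compF hk.out (hg j i) (hmm j i)).toRingHom (e l)
      * (resFD (k := k) (hD j i)).toRingHom
        ((algebraMap (AN k (D.c' j)) (FA k (D.c' j)) (tA (D.c' j))) ^ (l : ℕ)) = 0) → e = 0 := by
    intro j e he
    refine indep_FD hk.out (α j) (b j) (fun i => (hD j i).α1) (fun i => (hD j i).b0)
      (fun i => (hD j i).b1) (mm j) (g j) (hg j) (hmm j) (fun e he => hind j e he) e (fun i => ?_)
    refine Eq.trans ?_ (he i)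
    refine Finset.sum_congr rfl fun l _ => ?_
    congr 1
    change resF hk.out (hD j i).α1 (hD j i).b0 (hD j i).b1 (TF k C ^ (l : ℕ)) =
      resFD (k := k) (hD j i) ((algebraMap (AN k (D.c' j)) (FA k (D.c' j)) (tA (D.c' j))) ^ (l : ℕ))
    rw [map_pow, map_pow, resFD_tA]
  have hfin : Inj (J := Σ j, Fin (n j)) (E := fun _ => FD k C)
      (fun p => (compF hk.out (hg p.1 p.2) (hmm p.1 p.2)).toRingHom)
      (fun p => (resFD (k := k) (hD p.1 p.2)).toRingHom.comp (ioF D p.1).toRingHom) b' :=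
    Inj.sub (E := fun j => FA k (D.c' j)) hinj D.m (by rw [D.sum_m, hcard])
      (fun j l => (algebraMap (AN k (D.c' j)) (FA k (D.c' j)) (tA (D.c' j))) ^ (l : ℕ))
      (fun j z => spanF hs j z) (resFD (k := k) h).toRingHom
      (N := fun j => Fin (n j)) (E' := fun _ _ => FD k C)
      (fun j i => (resFD (k := k) (hD j i)).toRingHom)
      (fun j i => (compF hk.out (hg j i) (hmm j i)).toRingHom) hcomp' hli
  have hsum' : ∑ p : (Σ j, Fin (n j)), mm p.1 p.2 ≤ finrank (RatFunc C) K := by
    rw [Fintype.sum_sigma]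
    refine le_of_eq (Eq.trans ?_ D.sum_m)
    exact Finset.sum_congr rfl fun j _ => hsum j
  exact GoodD.mk' _ hy (Σ j, Fin (n j)) (fun p => mm p.1 p.2) (fun p => g p.1 p.2)
    (fun p => hg p.1 p.2) (fun p => hmm p.1 p.2) (fun p => (resFD (k := k) (hD p.1 p.2)).comp (ioF D p.1))
    (fun p => by rw [AlgHom.comp_apply, hx_F, hcomp]) hsum' b' b'.linearIndependent hcard hfin

/-! ### coordinate functions -/

theorem resFD_annY {al r : C} (h : Dc c al r) (a ρ : C) :
    resFD (k := k) h ⟨annY k C a ρ, annY_mem a ρ c⟩ = discY k C (a + ρ * al) (ρ * r) := by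
  have e : (⟨annY k C a ρ, annY_mem a ρ c⟩ : FA k c) = algebraMap C (FA k c) a +
      algebraMap C (FA k c) ρ * algebraMap (AN k c) (FA k c) (tA c) := rfl
  rw [e, map_add, map_mul, AlgHom.commutes, AlgHom.commutes, resFD_tA, resF_TF, discY, map_add,
    map_mul, map_mul]
  ring

theorem resFAA_annY {c₂ r : C} (h : Cc c c₂ r) (a ρ : C) :
    (resFAA h ⟨annY k C a ρ, annY_mem a ρ c⟩ : EE k C) = annY k C a (ρ * r) := by
  have e : (⟨annY k C a ρ, annY_mem a ρ c⟩ : FA k c) = algebraMap C (FA k c) a +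
      algebraMap C (FA k c) ρ * algebraMap (AN k c) (FA k c) (tA c) := rfl
  rw [e, map_add, map_mul, AlgHom.commutes, AlgHom.commutes, resFAA_algebraMap]
  have h3 : (algebraMap (AN k c₂) (FA k c₂) (resAA h (tA c)) : EE k C) =
      algebraMap C (EE k C) r * T 1 := by
    have h4 := congrArg (fun z : AN k c₂ => (z : EE k C)) (resAA_mo h 1 (1 : C))
    refine Eq.trans h4 ?_
    change (mo 1 (1 * r ^ (1 : ℤ)) : EE k C) = _
    rw [one_mul, zpow_one, mo_eq]
  change algebraMap C (EE k C) a + algebraMap C (EE k C) ρ *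
    (algebraMap (AN k c₂) (FA k c₂) (resAA h (tA c)) : EE k C) = _
  rw [h3, annY, map_mul]
  ring

end Crest.Agent.R013.Sub_270
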