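import Crest.Agent.R013.Sub8_270
import Crest.Agent.R013.CAn9_243

/-! # R013 / Sub9_270 : heredity of good annuli, final shapes (S2), (S3). -/

set_option autoImplicit false
set_option linter.unusedSectionVars false
set_option linter.style.haveILetI false

noncomputable section

namespace Crest.Agent.R013.Sub_270

open Module Filter Topology Crest.Agent.R013.Cell_408 Crest.Agent.R013.Clu_270
  Crest.Agent.R013.Comp_267 Crest.Agent.R013.Good_408 Crest.Agent.R013.EE809 Crest.Agent.R013.CAn_243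

variable (k : Type*) {C : Type*} [NontriviallyNormedField k] [CompleteSpace k] [IsUltrametricDist k]
  [NormedField C] [IsUltrametricDist C] [NormedAlgebra k C] [Algebra.IsAlgebraic k C] [IsAlgClosed C]
  [hk : Fact (DiscNorm k)]
variable (K : Type*) [Field K] [Algebra C K] [Algebra (RatFunc C) K]
    [IsScalarTower C (RatFunc C) K] [FiniteDimensional (RatFunc C) K]

variable {k K} in
theorem span {c : C} {y : EE k C} (D : ACells k C K c y) : Span D := fun j _ hz =>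
  span_FA (D.c'_ne j) (D.c'_lt j) (ACells.wa' D j) (D.m_ne j) (D.hc' j) hz

variable {k K} in
/-- a good annulus restricts to discs -/
theorem GoodA.disc {c : C} {y : EE k C} (D : ACells k C K c y) {al r : C} (h : Dc c al r) :
    GoodD k C K (resFD (k := k) h ⟨y, D.hy⟩) := GoodA.subD D (span D) h

variable {k K} in
/-- a good annulus restricts to concentric annuli -/
theorem GoodA.ann {c : C} {y : EE k C} (D : ACells k C K c y) {c₂ r : C} (h : Cc c c₂ r) :
    GoodA k C K c₂ (resFAA (k := k) h ⟨y, D.hy⟩ : EE k C) := GoodA.subA D (span D) h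

/-- **(S2)** -/
theorem goodAnn_disc {a σ ρ c τ : C} (h : GoodAnn k C K a σ ρ) (h1 : ‖σ‖ < ‖c - a‖)
    (h2 : ‖c - a‖ < ‖ρ‖) (h0 : τ ≠ 0) (hτ : ‖τ‖ ≤ ‖c - a‖) : GoodDisc k C K c τ := by
  obtain ⟨D⟩ := h
  have hρ0 : ρ ≠ 0 := by
    rintro rfl
    exact D.c_ne (div_zero _)
  have hpos : 0 < ‖ρ‖ := norm_pos_iff.2 hρ0
  have hD : Dc (σ / ρ) ((c - a) / ρ) (τ / ρ) := by
    refine ⟨D.c_ne, D.c_lt, ?_, ?_, div_ne_zero h0 hρ0, ?_⟩
    · rw [norm_div, norm_div]; exact (div_lt_div_iff_of_pos_right hpos).2 h1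
    · rw [norm_div]; exact (div_lt_one hpos).2 h2
    · rw [norm_div, norm_div]; exact (div_le_div_iff_of_pos_right hpos).2 hτ
  have h3 := GoodA.disc D hD
  rw [resFD_annY] at h3
  have e1 : a + ρ * ((c - a) / ρ) = c := by field_simp; ring
  have e2 : ρ * (τ / ρ) = τ := by field_simp
  rw [e1, e2] at h3
  exact h3

/-- **(S3)** -/
theorem goodAnn_ann {a σ ρ σ' ρ' : C} (h : GoodAnn k C K a σ ρ) (h1 : ‖σ‖ ≤ ‖σ'‖)
    (h2 : ‖σ'‖ < ‖ρ'‖) (h3 : ‖ρ'‖ ≤ ‖ρ‖) : GoodAnn k C K a σ' ρ' := by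
  obtain ⟨D⟩ := h
  have hρ0 : ρ ≠ 0 := by
    rintro rfl
    exact D.c_ne (div_zero _)
  have hσ0 : σ ≠ 0 := by
    rintro rfl
    exact D.c_ne (zero_div _)
  have hpos : 0 < ‖ρ‖ := norm_pos_iff.2 hρ0
  have hσ : 0 < ‖σ'‖ := (norm_pos_iff.2 hσ0).trans_le h1
  have hσ0' : σ' ≠ 0 := norm_pos_iff.1 hσ
  have hρ' : 0 < ‖ρ'‖ := hσ.trans h2
  have hρ0' : ρ' ≠ 0 := norm_pos_iff.1 hρ'
  have hD : Cc (σ / ρ) (σ' / ρ') (ρ' / ρ) := by
    refine ⟨D.c_ne, div_ne_zero hσ0' hρ0', ?_, ?_, ?_⟩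
    · rw [norm_div]; exact (div_lt_one hρ').2 h2
    · rw [norm_div]; exact (div_le_one hpos).2 h3
    · have e : ρ' / ρ * (σ' / ρ') = σ' / ρ := by field_simp
      rw [e, norm_div, norm_div]
      exact (div_le_div_iff_of_pos_right hpos).2 h1
  have h4 := GoodA.ann D hD
  rw [resFAA_annY] at h4
  have e2 : ρ * (ρ' / ρ) = ρ' := by field_simp
  rw [e2] at h4
  exact h4

end Crest.Agent.R013.Sub_270
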