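import Crest.Agent.R013.GoodA3_109
import Crest.Agent.R013.CAn7_243
import Crest.Agent.R013.Sub2_270
import Crest.Agent.R013.Good6_408

/-!
# Row 13, SS-SUB (helper109): **(S3)** good annuli restrict to concentric good annuli

* `GoodA.mkF` : a good annulus from `Inj` over the field `FA` for one basis;
* `ACells.sub` : restriction `T ↦ β T`;
* `goodAnn_sub` : `GoodAnn a σ ρ`, `|σ| ≤ |σ'| < |ρ'| ≤ |ρ|` ⟹ `GoodAnn a σ' ρ'`.
-/

set_option autoImplicit false
set_option linter.unusedSectionVars false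

noncomputable section

namespace Crest.Agent.R013.Good_408

open Module
open Crest.Agent.R013.Cell_408 Crest.Agent.R013.Comp_267
open Crest.Agent.R013.EE809 Crest.Agent.R013.CAn_243 Crest.Agent.R013.CAnR_109

variable {k C : Type*} [NontriviallyNormedField k] [CompleteSpace k] [IsUltrametricDist k]
  [NormedField C] [IsUltrametricDist C] [NormedAlgebra k C] [Algebra.IsAlgebraic k C]
  [IsAlgClosed C] [hk : Fact (DiscNorm k)]

variable {K : Type*} [Field K] [Algebra C K] [Algebra (RatFunc C) K]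
    [IsScalarTower C (RatFunc C) K] [FiniteDimensional (RatFunc C) K]

/-- a good annulus from `Inj` over `FA` for one independent family of the right size -/
theorem GoodA.mkF {c : C} (c_ne : c ≠ 0) (c_lt : ‖c‖ < 1) (y : FA k c)
    (hy : Transcendental C y) (J : Type) [Fintype J] (m : J → ℕ)
    (m_ne : ∀ j, m j ≠ 0) (c' : J → C) (hc0 : ∀ j, c' j ≠ 0) (hc1 : ∀ j, ‖c' j‖ < 1)
    (hc' : ∀ j, ‖c' j‖ ^ m j = ‖c‖) (f : J → EE k C) (hf : ∀ j, WA (c' j) (f j) (m j))
    (io : ∀ j, K →ₐ[C] FA k (c' j))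
    (hx : ∀ j, io j (algebraMap (RatFunc C) K RatFunc.X) =
      compFA (hc0 j) (hc1 j) (hf j) (m_ne j) (hc' j) y)
    (sum_m : ∑ j, m j = finrank (RatFunc C) K)
    {I : Type*} [Fintype I] (z : I → K) (hcard : Fintype.card I = finrank (RatFunc C) K)
    (hli : LinearIndependent (RatFunc C) z)
    (hz : Inj (fun j => (compFA (hc0 j) (hc1 j) (hf j) (m_ne j) (hc' j)).toRingHom)
      (fun j => (io j).toRingHom) z) :
    GoodA k C K c (y : EE k C) := by
  have comm : ∀ j (r : RatFunc C), compFA (hc0 j) (hc1 j) (hf j) (m_ne j) (hc' j)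
      (ratHom y hy r) = io j (algebraMap (RatFunc C) K r) := by
    intro j r
    have h : (compFA (hc0 j) (hc1 j) (hf j) (m_ne j) (hc' j)).toRingHom.comp
        (ratHom y hy).toRingHom = (io j).toRingHom.comp (algebraMap (RatFunc C) K) := by
      refine rat_ext (fun c => ?_) ?_
      · change compFA (hc0 j) (hc1 j) (hf j) (m_ne j) (hc' j)
          (ratHom y hy (algebraMap C _ c)) = io j (algebraMap (RatFunc C) K (algebraMap C _ c))
        rw [AlgHom.commutes, AlgHom.commutes, ← IsScalarTower.algebraMap_apply, AlgHom.commutes]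
      · change compFA (hc0 j) (hc1 j) (hf j) (m_ne j) (hc' j) (ratHom y hy RatFunc.X) =
          io j (algebraMap (RatFunc C) K RatFunc.X)
        rw [ratHom_X, hx]
    exact DFunLike.congr_fun h r
  refine ⟨⟨c_ne, c_lt, y.2, J, inferInstance, m, m_ne, c', hc', f,
    fun j => (hf j).we (hc0 j) (hc1 j), fun j n => ?_,
    fun j => (FA k (c' j)).val.comp (io j), fun j a => (io j a).2, fun j => ?_, sum_m,
    fun n b hb e he h0 => ?_⟩⟩
  · have := (hf j).leA n
    rwa [zpow_natCast] at this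
  · exact congrArg Subtype.val (hx j)
  · let _ : Algebra (RatFunc C) (FA k c) := (ratHom y hy).toRingHom.toAlgebra
    have h1 := Inj.of_linearIndependent (F0 := RatFunc C) (Fc := FA k c)
      (E := fun j => FA k (c' j))
      (φ := fun j => (compFA (hc0 j) (hc1 j) (hf j) (m_ne j) (hc' j)).toRingHom)
      (ι := fun j => (io j).toRingHom) comm z hli hcard hz b hb
      (fun i => (⟨e i, he i⟩ : FA k c)) (fun j => by
        apply Subtype.ext
        rw [AddSubmonoidClass.coe_finsetSum]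
        exact h0 j)
    funext i
    exact congrArg Subtype.val (congrFun h1 i)

theorem transc_FA {c : C} {y : EE k C} (hy : Transcendental C y) (h : y ∈ FA k c) :
    Transcendental C (⟨y, h⟩ : FA k c) := fun h' =>
  hy (h'.algHom (FA k c).val)

/-- **restriction of a good annulus** to a concentric annulus, `T ↦ β T` -/
theorem ACells.sub {c : C} {y : EE k C} (D : ACells k C K c y) {c₁ β : C}
    (h1 : ‖c‖ ≤ ‖c₁‖ * ‖β‖) (h2 : ‖β‖ ≤ 1) (h3 : ‖c₁‖ < 1) :
    GoodA k C K c₁ (resFAA D.c_ne h1 h2 h3 ⟨y, D.hy⟩ : EE k C) := by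
  have hc₁ : c₁ ≠ 0 := ne_zero_of_le' D.c_ne h1
  choose β' c₁' h1' h2' h3' hc₁' g hg hcc₁ hβ' hcm hgco hAN hFA using fun j : D.J =>
    exists_restrict (D.WA' j) (D.m_ne j) (D.c'_ne j) (D.c'_lt j) (D.hc' j) D.c_ne h1 h2 h3
  let b := Module.finBasis (RatFunc C) K
  have hcard : Fintype.card (Fin (finrank (RatFunc C) K)) = finrank (RatFunc C) K :=
    Fintype.card_fin _
  have hy : Transcendental C (resFAA D.c_ne h1 h2 h3 ⟨y, D.hy⟩ : FA k c₁) := fun h' =>
    transc_FA D.transc D.hy ((isAlgebraic_algHom_iff _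
      (RingHom.injective (resFAA D.c_ne h1 h2 h3).toRingHom)).1 h')
  have hβ0 : ∀ j, β' j ≠ 0 := fun j => ne_zero_of_le (D.c'_ne j) (h1' j)
  refine GoodA.mkF hc₁ h3 _ hy D.J D.m D.m_ne c₁' hc₁' h3' hcc₁ g hg
    (fun j => (resFAA (D.c'_ne j) (h1' j) (h2' j) (h3' j)).comp (D.ioF j)) (fun j => ?_) D.sum_m
    b hcard b.linearIndependent ?_
  · rw [AlgHom.comp_apply, ← hFA j]
    congr 1
    exact Subtype.ext (D.hx j)
  · have key := Inj.sub (Fc := FA k c) (Fc' := FA k c₁) (E := fun j => FA k (D.c' j))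
      (φ := fun j => (D.φFA j).toRingHom) (ι := fun j => (D.ioF j).toRingHom)
      (D.injF b b.linearIndependent) D.m (by rw [D.sum_m, hcard])
      (fun j l => algebraMap (AN k (D.c' j)) (FA k (D.c' j)) (TA (D.c' j)) ^ (l : ℕ))
      (fun j z => spanFA D.spanAN j z) (resFAA D.c_ne h1 h2 h3).toRingHom (N := fun _ => Unit)
      (E' := fun j _ => FA k (c₁' j))
      (fun j _ => (resFAA (D.c'_ne j) (h1' j) (h2' j) (h3' j)).toRingHom)
      (fun j _ => (compFA (hc₁' j) (h3' j) (hg j) (D.m_ne j) (hcc₁ j)).toRingHom)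
      (fun j _ a => (hFA j a).symm) (fun j e he => ?_)
    · intro e he
      refine key e fun p => ?_
      exact he p.1
    · have h4 := congrArg Subtype.val (he ())
      rw [AddSubmonoidClass.coe_finsetSum] at h4
      have hT : ∀ l : ℕ, ((resFAA (D.c'_ne j) (h1' j) (h2' j) (h3' j)
          (algebraMap (AN k (D.c' j)) (FA k (D.c' j)) (TA (D.c' j)) ^ l) : FA k (c₁' j)) :
            EE k C) = algebraMap C (EE k C) (β' j ^ l) * T (l : ℤ) := by
        intro l
        rw [map_pow, resFAA_algebraMap, ← map_pow, ← map_pow]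
        change ((resAA (D.c'_ne j) (h1' j) (h2' j) (h3' j) (TA (D.c' j) ^ l) : AN k (c₁' j)) :
          EE k C) = _
        ext n
        rw [co_resAA, TA_pow, algebraMap_eq, co_mo_mul, sub_zero, T, co_mo]
        split_ifs with hn
        · rw [hn, one_mul, mul_one, zpow_natCast]
        · rw [zero_mul, mul_zero]
      have h5 : ∑ l : Fin (D.m j), T ((l : ℕ) : ℤ) * compE (g j) ((hg j).we (hc₁' j) (h3' j))
          (D.m_ne j) (algebraMap C (EE k C) (β' j ^ (l : ℕ)) * (e l : EE k C)) = 0 := by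
        refine Eq.trans ?_ h4
        refine Finset.sum_congr rfl fun l _ => ?_
        rw [map_mul, AlgHom.commutes]
        change _ = compE (g j) ((hg j).we (hc₁' j) (h3' j)) (D.m_ne j) (e l : EE k C) *
          (resFAA (D.c'_ne j) (h1' j) (h2' j) (h3' j)
            (algebraMap (AN k (D.c' j)) (FA k (D.c' j)) (TA (D.c' j)) ^ (l : ℕ)) :
              EE k C)
        rw [hT]
        ring
      have h6 := compE_indep _ (D.m_ne j) _ h5
      funext l
      have h7 := congrFun h6 l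
      rw [Pi.zero_apply] at h7
      rcases mul_eq_zero.1 h7 with h | h
      · rw [map_eq_zero] at h
        exact absurd h (pow_ne_zero _ (hβ0 j))
      · exact Subtype.ext h

/-- **(S3)** -/
theorem goodAnn_sub {a σ ρ σ' ρ' : C} (h : GoodAnn k C K a σ ρ) (h1 : ‖σ‖ ≤ ‖σ'‖)
    (h2 : ‖σ'‖ < ‖ρ'‖) (h3 : ‖ρ'‖ ≤ ‖ρ‖) : GoodAnn k C K a σ' ρ' := by
  obtain ⟨D⟩ := h
  have hρ' : 0 < ‖ρ'‖ := (norm_nonneg _).trans_lt h2
  have hρ : 0 < ‖ρ‖ := hρ'.trans_le h3
  have hρ0' : ρ' ≠ 0 := norm_pos_iff.1 hρ'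
  have hρ0 : ρ ≠ 0 := norm_pos_iff.1 hρ
  have e1 : ‖σ / ρ‖ ≤ ‖σ' / ρ'‖ * ‖ρ' / ρ‖ := by
    rw [norm_div, norm_div, norm_div, div_mul_div_cancel₀ hρ'.ne']
    exact div_le_div_of_nonneg_right h1 hρ.le
  have e2 : ‖ρ' / ρ‖ ≤ 1 := by rw [norm_div]; exact (div_le_one hρ).2 h3
  have e3 : ‖σ' / ρ'‖ < 1 := by rw [norm_div]; exact (div_lt_one hρ').2 h2
  have h4 := D.sub e1 e2 e3
  have e5 : (resFAA D.c_ne e1 e2 e3 ⟨annY k C a ρ, D.hy⟩ : EE k C) = annY k C a ρ' := by
    have e6 : (⟨annY k C a ρ, D.hy⟩ : FA k (σ / ρ)) = algebraMap C _ a + algebraMap C _ ρ *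
        algebraMap (AN k (σ / ρ)) (FA k (σ / ρ)) (tA k (σ / ρ)) := rfl
    rw [e6, map_add, map_mul, AlgHom.commutes, AlgHom.commutes, resFAA_algebraMap, resAA_tA]
    change algebraMap C (EE k C) a + algebraMap C (EE k C) ρ *
      (algebraMap C (EE k C) (ρ' / ρ) * T 1) = _
    rw [annY, ← mul_assoc, ← map_mul, mul_div_cancel₀ _ hρ0]
  rw [e5] at h4
  exact h4

end Crest.Agent.R013.Good_408
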