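import Mathlib
import Crest.Agent.R013.CE9_280
import Crest.Agent.R013.Frob1_914

/-!
# R013 / TORS part 2 (helper225), TG1: `M = K_Ω` is Galois over `L = K_E` if `Ω / E` is Galois;
the semilinear action of `Gal(M/L)` on places.
-/

set_option autoImplicit false
set_option linter.all false

namespace Crest.Agent.R013.TG1_225

open WithZero Module TensorProduct
open Crest.Agent.R013.RR7_948 Crest.Agent.R013.RR8_948 Crest.Agent.R013.RR9_948
open Crest.Agent.R013.RR11_948 Crest.Agent.R013.RR12_948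
open Crest.Agent.R013.CE1_280 Crest.Agent.R013.CE2_280 Crest.Agent.R013.CE3_280
open Crest.Agent.R013.CE5_280 Crest.Agent.R013.Frob1_914

section Gal

variable {F K E Ω L M : Type*} [Field F] [Field K] [Algebra F K]
  [Field E] [Algebra F E] [Field Ω] [Algebra F Ω] [Algebra E Ω]
  [Field L] [Algebra E L] [Algebra F L] [IsScalarTower F E L]
  [Field M] [Algebra Ω M] [Algebra F M] [IsScalarTower F Ω M]
  [Algebra L M] [Algebra E M] [IsScalarTower E L M] [IsScalarTower E Ω M]
  {ι : K →ₐ[F] L} {κ : K →ₐ[F] M}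

theorem adjoin_eq_top (hM : IsCE Ω κ) (hc : ∀ f, algebraMap L M (ι f) = κ f) :
    IntermediateField.adjoin L (Set.range (algebraMap Ω M)) = ⊤ := by
  rw [eq_top_iff]
  intro f _
  have hmu : ∀ t : Ω ⊗[F] K, mu κ t ∈ IntermediateField.adjoin L (Set.range (algebraMap Ω M)) := by
    intro t
    induction t with
    | zero => rw [map_zero]; exact zero_mem _
    | add t t' h h' => rw [map_add]; exact add_mem h h'
    | tmul c g =>
      rw [mu_tmul]
      refine mul_mem (IntermediateField.subset_adjoin _ _ ⟨c, rfl⟩) ?_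
      rw [← hc]
      exact IntermediateField.algebraMap_mem _ _
  obtain ⟨a, c, hc, hac⟩ := hM.frac f
  have h1 : f = mu κ a / mu κ c := by
    rw [eq_div_iff (hM.ne_zero hc)]
    exact hac
  rw [h1]
  exact div_mem (hmu a) (hmu c)

theorem splits_const [Normal E Ω] (c : Ω) :
    IsIntegral L (algebraMap Ω M c) ∧
      ((minpoly L (algebraMap Ω M c)).map (algebraMap L M)).Splits := by
  have hc : IsIntegral E c := Normal.isIntegral inferInstance c
  have hc' : IsIntegral E (algebraMap Ω M c) := hc.map (IsScalarTower.toAlgHom E Ω M)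
  have hcL : IsIntegral L (algebraMap Ω M c) := hc'.tower_top
  refine ⟨hcL, ?_⟩
  have h1 : ((minpoly E c).map (algebraMap E Ω)).Splits := Normal.splits inferInstance c
  have h2 : ((minpoly E c).map (algebraMap E M)).Splits := by
    rw [IsScalarTower.algebraMap_eq E Ω M, ← Polynomial.map_map]
    exact h1.map _
  have h3 : minpoly L (algebraMap Ω M c) ∣ (minpoly E c).map (algebraMap E L) := by
    apply minpoly.dvd
    rw [Polynomial.aeval_map_algebraMap, Polynomial.aeval_algebraMap_apply, minpoly.aeval, map_zero]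
  have h4 : ((minpoly L (algebraMap Ω M c)).map (algebraMap L M)) ∣
      (minpoly E c).map (algebraMap E M) := by
    have := Polynomial.map_dvd (algebraMap L M) h3
    rwa [Polynomial.map_map, ← IsScalarTower.algebraMap_eq E L M] at this
  refine h2.of_dvd ?_ h4
  exact (Polynomial.map_ne_zero (minpoly.ne_zero hc))

/-- `K_Ω / K_E` is normal -/
theorem normal (hM : IsCE Ω κ) (hc : ∀ f, algebraMap L M (ι f) = κ f) [Normal E Ω] :
    Normal L M := by
  have htop := adjoin_eq_top (ι := ι) hM hc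
  have halg : Algebra.IsAlgebraic L M := by
    constructor
    intro f
    have : f ∈ IntermediateField.adjoin L (Set.range (algebraMap Ω M)) := by
      rw [htop]; trivial
    have h2 : Algebra.IsAlgebraic L (IntermediateField.adjoin L (Set.range (algebraMap Ω M))) :=
      IntermediateField.isAlgebraic_adjoin (by
        rintro _ ⟨c, rfl⟩
        exact (splits_const (L := L) (E := E) c).1)
    have h3 := h2.isAlgebraic ⟨f, this⟩
    exact h3.algebraMap (A := M)
  rw [normal_iff]
  intro f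
  refine ⟨(halg.isAlgebraic f).isIntegral, ?_⟩
  refine IntermediateField.splits_of_mem_adjoin (F := L) (K := M) (L := M)
    (S := Set.range (algebraMap Ω M)) ?_ ?_
  · rintro _ ⟨c, rfl⟩
    exact splits_const (L := L) (E := E) c
  · rw [htop]; trivial

theorem isGalois [CharZero L] (hM : IsCE Ω κ) (hc : ∀ f, algebraMap L M (ι f) = κ f)
    [Normal E Ω] : IsGalois L M := by
  haveI := normal (E := E) (ι := ι) hM hc
  haveI : Algebra.IsAlgebraic L M := Normal.toIsAlgebraic
  exact IsGalois.mk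

end Gal

section Act

variable {F K E Ω L M : Type*} [Field F] [Field K] [Algebra F K]
  [Field E] [Algebra F E] [Field Ω] [Algebra F Ω] [Algebra E Ω] [Normal E Ω]
  [Field L] [Algebra E L] [Algebra F L] [IsScalarTower F E L]
  [Field M] [Algebra Ω M] [Algebra F M] [IsScalarTower F Ω M]
  [Algebra L M] [Algebra E M] [IsScalarTower E L M] [IsScalarTower E Ω M]
  {ι : K →ₐ[F] L} {κ : K →ₐ[F] M}

/-- restriction of an automorphism to the constants -/
noncomputable def res (E Ω : Type*) [Field E] [Field Ω] [Algebra E Ω] [Normal E Ω]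
    {L M : Type*} [Field L] [Field M] [Algebra E L] [Algebra L M] [Algebra E M]
    [IsScalarTower E L M] [Algebra Ω M] [IsScalarTower E Ω M]
    (σ : M ≃ₐ[L] M) : Ω ≃ₐ[E] Ω :=
  AlgEquiv.restrictNormal (σ.restrictScalars E) Ω

theorem res_commutes (σ : M ≃ₐ[L] M) (c : Ω) :
    algebraMap Ω M (res E Ω σ c) = σ (algebraMap Ω M c) :=
  AlgEquiv.restrictNormal_commutes (σ.restrictScalars E) Ω c

/-- the semilinear automorphism given by `σ` -/
noncomputable def si (E Ω : Type*) [Field E] [Field Ω] [Algebra E Ω] [Normal E Ω]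
    {L M : Type*} [Field L] [Field M] [Algebra E L] [Algebra L M] [Algebra E M]
    [IsScalarTower E L M] [Algebra Ω M] [IsScalarTower E Ω M]
    (σ : M ≃ₐ[L] M) : SI Ω M Ω M where
  s := (res E Ω σ).toRingEquiv
  f := σ.toRingEquiv
  comm := fun c => (res_commutes (E := E) σ c).symm

@[simp] theorem si_f (σ : M ≃ₐ[L] M) (f : M) : (si E Ω σ).f f = σ f := rfl

theorem si_pl_v (σ : M ≃ₐ[L] M) (P : Pl Ω M) (f : M) :
    ((si E Ω σ).pl P).v (σ f) = P.v f := by
  have := SI.pl_v_apply (si E Ω σ) P f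
  exact this

end Act

section Fix

variable {F K E Ω L M : Type*} [Field F] [IsAlgClosed F] [Field K] [Algebra F K]
  [Algebra (RatFunc F) K] [IsScalarTower F (RatFunc F) K] [FiniteDimensional (RatFunc F) K]
  [Algebra.IsSeparable (RatFunc F) K]
  [Field E] [Algebra F E] [Field Ω] [IsAlgClosed Ω] [Algebra F Ω] [Algebra E Ω] [Normal E Ω]
  [Field L] [Algebra E L] [Algebra F L] [IsScalarTower F E L]
  [Field M] [Algebra Ω M] [Algebra F M] [IsScalarTower F Ω M]
  [Algebra L M] [Algebra E M] [IsScalarTower E L M] [IsScalarTower E Ω M]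
  [Algebra (RatFunc Ω) M] [IsScalarTower Ω (RatFunc Ω) M]
  [FiniteDimensional (RatFunc Ω) M] [Algebra.IsSeparable (RatFunc Ω) M]
  {ι : K →ₐ[F] L} {κ : K →ₐ[F] M}

theorem sigma_kappa (hc : ∀ f, algebraMap L M (ι f) = κ f) (σ : M ≃ₐ[L] M) (f : K) :
    σ (κ f) = κ f := by
  rw [← hc, AlgEquiv.commutes]

/-- places over places of `K` are fixed -/
theorem pl_conP (hM : IsCE Ω κ) (hc : ∀ f, algebraMap L M (ι f) = κ f) (σ : M ≃ₐ[L] M)
    (P : Pl F K) : (si E Ω σ).pl (conP hM P) = conP hM P := by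
  refine Over.unique hM (P := P) ⟨fun f hf => ?_, fun f hf => ?_⟩ (conP_Over hM P)
  · have h1 := si_pl_v (E := E) σ (conP hM P) (κ f)
    rw [sigma_kappa hc] at h1
    rw [h1]
    exact (conP_Over hM P).1 f hf
  · have h1 := si_pl_v (E := E) σ (conP hM P) (κ f)
    rw [sigma_kappa hc] at h1
    rw [h1]
    exact (conP_Over hM P).2 f hf

/-- points are permuted -/
theorem pl_plQ (hM : IsCE Ω κ) (hc : ∀ f, algebraMap L M (ι f) = κ f) (σ : M ≃ₐ[L] M)
    (Q Q' : K →ₐ[F] Ω) (hQ : ∀ f, Q' f = res E Ω σ (Q f)) :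
    (si E Ω σ).pl (plQ hM Q) = plQ hM Q' := by
  refine At.unique hM (Q := Q') (fun f => ?_) (plQ_At hM Q')
  have h1 := si_pl_v (E := E) σ (plQ hM Q) (κ f - algebraMap Ω M (Q f))
  rw [map_sub, sigma_kappa hc, ← res_commutes (E := E), ← hQ] at h1
  rw [h1]
  exact plQ_At hM Q f

theorem divf_sigma {f : M} (hf : f ≠ 0) (σ : M ≃ₐ[L] M) :
    divf (k := Ω) (σ f) = (si E Ω σ).D (divf (k := Ω) f) :=
  SI.divf_f (si E Ω σ) hf

end Fix

end Crest.Agent.R013.TG1_225
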