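import Mathlib

/-!
# R013 / TORS part 2 (helper225), TG2: an element of a Galois extension whose conjugates differ from
it by (normalised) `N`-th powers is an `N`-th power times an element of the base field.
-/

set_option autoImplicit false
set_option linter.all false

namespace Crest.Agent.R013.TG2_225

open groupCohomology IntermediateField

variable {L M : Type*} [Field L] [Field M] [Algebra L M]

/-- action of an automorphism on units -/
def um (σ : M ≃ₐ[L] M) : Mˣ →* Mˣ := Units.map (σ : M →* M)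

@[simp] theorem um_val (σ : M ≃ₐ[L] M) (u : Mˣ) : ((um σ u : Mˣ) : M) = σ u := rfl

/-- Hilbert 90 in terms of values -/
theorem h90 {L E : Type*} [Field L] [Field E] [Algebra L E] [FiniteDimensional L E]
    (G : (E ≃ₐ[L] E) → Eˣ)
    (hG : ∀ σ τ : E ≃ₐ[L] E, (G (σ * τ) : E) = σ (G τ : E) * (G σ : E)) :
    ∃ β : Eˣ, ∀ τ : E ≃ₐ[L] E, τ (β : E) = β * (G τ : E) := by
  have hc : IsMulCocycle₁ G := by
    intro σ τ
    apply Units.ext
    rw [hG, Units.val_mul]
    rfl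
  obtain ⟨β, hβ⟩ := isMulCoboundary₁_of_isMulCocycle₁_of_aut_to_units G hc
  refine ⟨β, fun τ => ?_⟩
  have h1 := hβ τ
  rw [div_eq_iff_eq_mul] at h1
  have h2 := congrArg Units.val h1
  rw [Units.val_mul, mul_comm] at h2
  exact h2

section

variable [IsGalois L M] (U : Subgroup Mˣ) (hU : ∀ σ : M ≃ₐ[L] M, ∀ u ∈ U, um σ u ∈ U) {N : ℕ}
  (htf : ∀ u ∈ U, u ^ N = 1 → u = 1)

include htf in
omit [IsGalois L M] in
theorem uniq {u v : Mˣ} (hu : u ∈ U) (hv : v ∈ U) (h : u ^ N = v ^ N) : u = v := by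
  have h1 : u / v = 1 := by
    apply htf _ (U.div_mem hu hv)
    rw [div_pow, h, div_self']
  exact div_eq_one.mp h1

include hU htf in
/-- **descent** -/
theorem descend_abs (h₁ : Mˣ) (H : ∀ σ : M ≃ₐ[L] M, ∃ g ∈ U, um σ h₁ = h₁ * g ^ N) :
    ∃ (z : Mˣ) (h : L), algebraMap L M h = h₁ * z ^ N := by
  classical
  let N0 : IntermediateField L M := normalClosure L (adjoin L {(h₁ : M)}) M
  haveI : FiniteDimensional L (adjoin L {(h₁ : M)}) :=
    IntermediateField.adjoin.finiteDimensional (Algebra.IsIntegral.isIntegral _)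
  haveI : FiniteDimensional L N0 := inferInstanceAs (FiniteDimensional L (normalClosure _ _ _))
  haveI : Normal L N0 := inferInstanceAs (Normal L (normalClosure _ _ _))
  haveI : IsGalois L N0 := IsGalois.mk
  have hmem : (h₁ : M) ∈ N0 :=
    IntermediateField.le_normalClosure _ (IntermediateField.mem_adjoin_simple_self L (h₁ : M))
  choose g hgU hg using H
  -- values
  have hgv : ∀ σ : M ≃ₐ[L] M, σ (h₁ : M) = h₁ * (g σ : M) ^ N := by
    intro σ
    have := congrArg (Units.val) (hg σ)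
    simpa using this
  have hext : ∀ σ σ' : M ≃ₐ[L] M, σ (h₁ : M) = σ' h₁ → g σ = g σ' := by
    intro σ σ' h
    apply uniq U htf (hgU σ) (hgU σ')
    apply Units.ext
    rw [hgv, hgv] at h
    exact mul_left_cancel₀ (Units.ne_zero h₁) h
  have hmul : ∀ σ τ : M ≃ₐ[L] M, g (σ * τ) = g σ * um σ (g τ) := by
    intro σ τ
    apply uniq U htf (hgU _) (U.mul_mem (hgU σ) (hU σ _ (hgU τ)))
    apply Units.ext
    have h1 := hgv (σ * τ)
    rw [AlgEquiv.mul_apply, hgv τ, map_mul, map_pow, hgv σ, mul_assoc] at h1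
    have h2 := mul_left_cancel₀ (Units.ne_zero h₁) h1
    rw [Units.val_pow_eq_pow_val, Units.val_pow_eq_pow_val, ← h2, Units.val_mul, mul_pow, um_val]
  -- the values lie in `N0`
  have hN0 : ∀ σ : M ≃ₐ[L] M, (g σ : M) ∈ N0 := by
    intro σ
    have h1 : ∀ ρ : M ≃ₐ[N0] M, ρ (g σ : M) = g σ := by
      intro ρ
      have h2 : um (ρ.restrictScalars L) (g σ) = g σ := by
        apply uniq U htf (hU _ _ (hgU σ)) (hgU σ)
        apply Units.ext
        rw [Units.val_pow_eq_pow_val, Units.val_pow_eq_pow_val, um_val]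
        have h3 := hgv σ
        have h4 : (σ (h₁ : M)) ∈ N0 := by
          have h5 := (σ.restrictNormal N0) ⟨h₁, hmem⟩
          have h6 := AlgEquiv.restrictNormal_commutes σ N0 ⟨h₁, hmem⟩
          rw [show σ (h₁ : M) = σ (algebraMap N0 M ⟨h₁, hmem⟩) from rfl, ← h6]
          exact SetLike.coe_mem _
        have h7 : ρ (σ (h₁ : M)) = σ h₁ := ρ.commutes ⟨_, h4⟩
        have h8 : ρ (h₁ : M) = h₁ := ρ.commutes ⟨_, hmem⟩
        have h9 := congrArg ρ h3
        rw [h7, map_mul, h8, h3, map_pow] at h9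
        exact (mul_left_cancel₀ (Units.ne_zero h₁) h9).symm
      have := congrArg Units.val h2
      exact this
    have h2 := (InfiniteGalois.mem_range_algebraMap_iff_fixed (k := N0) (K := M) (g σ : M)).mpr h1
    obtain ⟨y, hy⟩ := h2
    rw [← hy]
    exact y.2
  -- the cocycle
  have hne : ∀ τ : N0 ≃ₐ[L] N0, (⟨(g (τ.liftNormal M) : M), hN0 _⟩ : N0) ≠ 0 := by
    intro τ h
    exact Units.ne_zero (g (τ.liftNormal M)) (congrArg Subtype.val h)
  let G : (N0 ≃ₐ[L] N0) → N0ˣ := fun τ => Units.mk0 ⟨(g (τ.liftNormal M) : M), hN0 _⟩ (hne τ)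
  have hGv : ∀ τ : N0 ≃ₐ[L] N0, ((G τ : N0) : M) = g (τ.liftNormal M) := fun τ => rfl
  have hlift : ∀ (τ : N0 ≃ₐ[L] N0) (y : N0), (τ.liftNormal M) (y : M) = (τ y : N0) := fun τ y =>
    AlgEquiv.liftNormal_commutes τ M y
  have hG : ∀ σ τ : N0 ≃ₐ[L] N0, (G (σ * τ) : N0) = σ (G τ : N0) * (G σ : N0) := by
    intro σ τ
    apply Subtype.ext
    have h1 : g ((σ * τ).liftNormal M) = g (σ.liftNormal M * τ.liftNormal M) := by
      apply hext
      rw [AlgEquiv.mul_apply]
      have e1 := hlift (σ * τ) ⟨h₁, hmem⟩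
      have e2 := hlift τ ⟨h₁, hmem⟩
      have e3 := hlift σ (τ ⟨h₁, hmem⟩)
      rw [show ((⟨(h₁ : M), hmem⟩ : N0) : M) = h₁ from rfl] at e1 e2
      rw [e1, e2, e3]
      rfl
    rw [hGv, h1, hmul, Units.val_mul, um_val, mul_comm]
    show _ = ((σ (G τ : N0) : N0) : M) * ((G σ : N0) : M)
    rw [← hlift σ, hGv, hGv]
  obtain ⟨β, hβ'⟩ := h90 G hG
  let y : N0 := ⟨h₁, hmem⟩ * ((β : N0)⁻¹) ^ N
  have hy : ∀ τ : N0 ≃ₐ[L] N0, τ y = y := by
    intro τ
    have h1 : τ ⟨h₁, hmem⟩ = (⟨h₁, hmem⟩ : N0) * (G τ : N0) ^ N := by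
      apply Subtype.ext
      rw [← hlift τ]
      exact hgv (τ.liftNormal M)
    have h3 : (G τ : N0) ≠ 0 := Units.ne_zero _
    have h4 : (β : N0) ≠ 0 := Units.ne_zero _
    simp only [y]
    rw [map_mul, h1, map_pow, map_inv₀, hβ' τ, mul_inv, mul_pow, mul_assoc]
    congr 1
    rw [mul_comm ((β : N0)⁻¹ ^ N), ← mul_assoc, ← mul_pow, mul_inv_cancel₀ h3, one_pow, one_mul]
  obtain ⟨h, hh⟩ := (IsGalois.mem_range_algebraMap_iff_fixed (F := L) (E := N0) y).mpr hy
  have hβM : (algebraMap N0 M (β : N0)) ≠ 0 := by simp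
  refine ⟨(Units.mk0 _ hβM)⁻¹, h, ?_⟩
  have h1 := congrArg (algebraMap N0 M) hh
  rw [← IsScalarTower.algebraMap_apply] at h1
  rw [h1]
  simp only [y]
  rw [map_mul, map_pow, map_inv₀, Units.val_inv_eq_inv_val, Units.val_mk0]
  rfl

end

end Crest.Agent.R013.TG2_225
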