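import Mathlib
import Crest.Agent.R013.TG1_225
import Crest.Agent.R013.TG2_225
import Crest.Agent.R013.RR22_948

/-!
# R013 / TORS part 2 (helper225), TG3: descent of a function modulo `N`-th powers from `K_Ω` to `K_E`
(normalisation at a place of `K`, Hilbert 90).
-/

set_option autoImplicit false
set_option linter.all false

namespace Crest.Agent.R013.TG3_225

open WithZero Module TensorProduct
open Crest.Agent.R013.RR7_948 Crest.Agent.R013.RR8_948 Crest.Agent.R013.RR9_948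
open Crest.Agent.R013.RR11_948 Crest.Agent.R013.RR12_948
open Crest.Agent.R013.CE1_280 Crest.Agent.R013.CE2_280 Crest.Agent.R013.CE3_280
open Crest.Agent.R013.CE5_280 Crest.Agent.R013.Frob1_914
open Crest.Agent.R013.TG1_225 Crest.Agent.R013.TG2_225

section Lc

variable {Ω M : Type*} [Field Ω] [Field M] [Algebra Ω M]

theorem one_unit_mul (P : Pl Ω M) {a b : M} (ha : P.v (a - 1) < 1) (hb : P.v (b - 1) < 1) :
    P.v (a * b - 1) < 1 := by
  have e : a * b - 1 = (a - 1) * (b - 1) + (a - 1) + (b - 1) := by ring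
  rw [e]
  refine lt_of_le_of_lt (P.v.map_add _ _) (max_lt (lt_of_le_of_lt (P.v.map_add _ _)
    (max_lt ?_ ha)) hb)
  rw [map_mul]; exact mul_lt_one' ha hb

theorem one_unit_val (P : Pl Ω M) {a : M} (ha : P.v (a - 1) < 1) : P.v a = 1 := by
  have h1 : P.v (1 : M) = 1 := map_one _
  have := Valuation.map_add_eq_of_lt_right P.v (x := a - 1) (y := 1) (by rw [h1]; exact ha)
  rw [sub_add_cancel, h1] at this
  exact this

theorem one_unit_inv (P : Pl Ω M) {a : M} (ha : P.v (a - 1) < 1) : P.v (a⁻¹ - 1) < 1 := by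
  have h1 := one_unit_val P ha
  have h0 : a ≠ 0 := by rintro rfl; simp at h1
  have e : a⁻¹ - 1 = - (a - 1) * a⁻¹ := by field_simp; ring
  rw [e, map_mul, Valuation.map_neg, map_inv₀, h1, inv_one, mul_one]
  exact ha

/-- the functions with leading coefficient `1` at `P` with respect to `t` -/
def lcOne (P : Pl Ω M) (t : Mˣ) : Subgroup Mˣ where
  carrier := {u | ∃ n : ℤ, P.v (((u * t ^ n : Mˣ) : M) - 1) < 1}
  mul_mem' := by
    rintro u v ⟨n, hn⟩ ⟨m, hm⟩
    refine ⟨n + m, ?_⟩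
    have e : (u * v * t ^ (n + m) : Mˣ) = (u * t ^ n) * (v * t ^ m) := by
      rw [zpow_add]
      exact mul_mul_mul_comm _ _ _ _
    rw [e, Units.val_mul]
    exact one_unit_mul P hn hm
  one_mem' := ⟨0, by simp⟩
  inv_mem' := by
    rintro u ⟨n, hn⟩
    refine ⟨-n, ?_⟩
    have e : (u⁻¹ * t ^ (-n) : Mˣ) = (u * t ^ n)⁻¹ := by
      rw [zpow_neg, mul_inv]
    rw [e, Units.val_inv_eq_inv_val]
    exact one_unit_inv P hn

theorem mem_lcOne {P : Pl Ω M} {t u : Mˣ} :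
    u ∈ lcOne P t ↔ ∃ n : ℤ, P.v (((u * t ^ n : Mˣ) : M) - 1) < 1 := Iff.rfl

/-- constants as units -/
def cu (Ω M : Type*) [Field Ω] [Field M] [Algebra Ω M] : Ωˣ →* Mˣ :=
  Units.map (algebraMap Ω M : Ω →* M)

@[simp] theorem cu_val (c : Ωˣ) : ((cu Ω M c : Mˣ) : M) = algebraMap Ω M c := rfl

variable {P : Pl Ω M} {t : Mˣ} (ht : P.v (t : M) = exp (-1))

include ht in
theorem cu_mem {c : Ωˣ} (h : cu Ω M c ∈ lcOne P t) : c = 1 := by
  obtain ⟨n, hn⟩ := h
  have h1 := one_unit_val P hn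
  rw [Units.val_mul, map_mul, cu_val, P.const _ c.ne_zero, one_mul, Units.val_zpow_eq_zpow_val,
    map_zpow₀, ht, ← exp_zsmul] at h1
  have hn0 : n = 0 := by
    rw [← exp_zero, exp_inj] at h1
    simpa using h1
  rw [hn0, zpow_zero, mul_one, cu_val] at hn
  have h2 : P.v (algebraMap Ω M ((c : Ω) - 1)) < 1 := by rwa [map_sub, map_one]
  have h3 := v_algebraMap_lt P h2
  exact Units.ext (sub_eq_zero.mp h3)

end Lc

section Lc2

variable {Ω M : Type*} [Field Ω] [IsAlgClosed Ω] [Field M] [Algebra Ω M]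
  [Algebra (RatFunc Ω) M] [IsScalarTower Ω (RatFunc Ω) M]
  [FiniteDimensional (RatFunc Ω) M] [Algebra.IsSeparable (RatFunc Ω) M]

theorem exists_lc {P : Pl Ω M} {t : Mˣ} (ht : P.v (t : M) = exp (-1)) (u : Mˣ) :
    ∃ c : Ωˣ, u * (cu Ω M c)⁻¹ ∈ lcOne P t := by
  obtain ⟨n, hn⟩ : ∃ n : ℤ, P.v (u : M) = exp n := ⟨_, v_eq (k := Ω) u.ne_zero P⟩
  have h1 : P.v (((u * t ^ n : Mˣ)) : M) = 1 := by
    rw [Units.val_mul, map_mul, hn, Units.val_zpow_eq_zpow_val, map_zpow₀, ht, ← exp_zsmul,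
      ← exp_add, ← exp_zero]
    congr 1
    simp
  obtain ⟨c, hc⟩ := exists_residue P h1.le
  have hc0 : c ≠ 0 := by
    rintro rfl
    rw [map_zero, sub_zero, h1] at hc
    exact lt_irrefl _ hc
  refine ⟨Units.mk0 c hc0, n, ?_⟩
  have hcM : algebraMap Ω M c ≠ 0 := by simpa using hc0
  have e : (((u * (cu Ω M (Units.mk0 c hc0))⁻¹ * t ^ n : Mˣ)) : M) - 1 =
      (((u * t ^ n : Mˣ) : M) - algebraMap Ω M c) * (algebraMap Ω M c)⁻¹ := by
    rw [sub_mul, mul_inv_cancel₀ hcM]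
    congr 1
    rw [mul_right_comm, Units.val_mul, Units.val_inv_eq_inv_val, cu_val, Units.val_mk0]
  rw [e, map_mul, map_inv₀, P.const c hc0, inv_one, mul_one]
  exact hc

end Lc2

section Desc

variable {F K E Ω L M : Type*} [Field F] [IsAlgClosed F] [Field K] [Algebra F K]
  [Algebra (RatFunc F) K] [IsScalarTower F (RatFunc F) K] [FiniteDimensional (RatFunc F) K]
  [Algebra.IsSeparable (RatFunc F) K]
  [Field E] [Algebra F E] [Field Ω] [IsAlgClosed Ω] [Algebra F Ω] [Algebra E Ω] [Normal E Ω]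
  [Field L] [Algebra E L] [Algebra F L] [IsScalarTower F E L]
  [Field M] [Algebra Ω M] [Algebra F M] [IsScalarTower F Ω M]
  [Algebra L M] [Algebra E M] [IsScalarTower E L M] [IsScalarTower E Ω M]
  [Algebra (RatFunc Ω) M] [IsScalarTower Ω (RatFunc Ω) M]
  [FiniteDimensional (RatFunc Ω) M] [Algebra.IsSeparable (RatFunc Ω) M]
  {ι : K →ₐ[F] L} {κ : K →ₐ[F] M}

variable (E)

include E in
theorem v_sigma (hM : IsCE Ω κ) (hc : ∀ f, algebraMap L M (ι f) = κ f) (P₀ : Pl F K)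
    (σ : M ≃ₐ[L] M) (f : M) : (conP hM P₀).v (σ f) = (conP hM P₀).v f := by
  have h1 := si_pl_v (E := E) σ (conP hM P₀) f
  rwa [pl_conP (ι := ι) hM hc] at h1

include E in
/-- **descent modulo `N`-th powers** -/
theorem descend_pow [CharZero L] (hM : IsCE Ω κ) (hc : ∀ f, algebraMap L M (ι f) = κ f)
    (P₀ : Pl F K) {h₁ : M} (h10 : h₁ ≠ 0) {N : ℕ} (hN : 0 < N)
    (H : ∀ σ : M ≃ₐ[L] M, ∃ g : M, σ h₁ = h₁ * g ^ N) :
    ∃ (z : M) (h : L), z ≠ 0 ∧ algebraMap L M h = h₁ * z ^ N := by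
  haveI : IsGalois L M := isGalois (E := E) (ι := ι) hM hc
  set P := conP hM P₀ with hP
  -- the uniformizer
  obtain ⟨t₀, ht₀⟩ : ∃ t₀ : K, P₀.v t₀ = exp (-1) := P₀.surj _
  have htv : P.v (κ t₀) = exp (-1) := by
    rw [Over.v_iota hM (conP_Over hM P₀), ht₀]
  have ht0 : κ t₀ ≠ 0 := by
    intro h; rw [h, map_zero] at htv; exact exp_ne_zero htv.symm
  let t : Mˣ := Units.mk0 (κ t₀) ht0
  have ht : P.v (t : M) = exp (-1) := htv
  have hσt : ∀ σ : M ≃ₐ[L] M, um σ t = t := fun σ => Units.ext (sigma_kappa hc σ t₀)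
  let U := lcOne P t
  have hU : ∀ σ : M ≃ₐ[L] M, ∀ u ∈ U, um σ u ∈ U := by
    rintro σ u ⟨n, hn⟩
    refine ⟨n, ?_⟩
    have e : (((um σ u * t ^ n : Mˣ) : M) - 1) = σ (((u * t ^ n : Mˣ) : M) - 1) := by
      rw [map_sub, map_one]
      congr 1
      have : um σ (u * t ^ n) = um σ u * t ^ n := by
        rw [map_mul, map_zpow, hσt]
      rw [← this]
      rfl
    rw [e, hP, v_sigma E (ι := ι) hM hc]
    exact hn
  -- roots of unity
  have htf : ∀ u ∈ U, u ^ N = 1 → u = 1 := by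
    intro u hu huN
    have h1 : (u : M) ∈ algebraicClosure Ω M := by
      rw [mem_algebraicClosure_iff]
      refine ⟨Polynomial.X ^ N - 1, ?_, ?_⟩
      · exact (Polynomial.monic_X_pow_sub_C (1 : Ω) hN.ne').ne_zero
      · have := congrArg Units.val huN
        rw [Units.val_pow_eq_pow_val, Units.val_one] at this
        simp [this]
    rw [algebraicClosure_eq_bot, IntermediateField.mem_bot] at h1
    obtain ⟨ζ, hζ⟩ := h1
    have hζ0 : ζ ≠ 0 := by
      rintro rfl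
      rw [map_zero] at hζ
      exact u.ne_zero hζ.symm
    have h2 : u = cu Ω M (Units.mk0 ζ hζ0) := Units.ext hζ.symm
    rw [h2] at hu ⊢
    rw [cu_mem ht hu, map_one]
  -- normalise
  obtain ⟨c, hcU⟩ := exists_lc ht (Units.mk0 h₁ h10)
  set h₂ : Mˣ := Units.mk0 h₁ h10 * (cu Ω M c)⁻¹ with hh₂
  have H' : ∀ σ : M ≃ₐ[L] M, ∃ g ∈ U, um σ h₂ = h₂ * g ^ N := by
    intro σ
    obtain ⟨g, hg⟩ := H σ
    have hg0 : g ≠ 0 := by
      rintro rfl
      rw [zero_pow hN.ne', mul_zero] at hg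
      exact h10 (by simpa using hg)
    have hcM : algebraMap Ω M (c : Ω) ≠ 0 := by simp
    have hrc : (res E Ω σ (c : Ω)) ≠ 0 := by simp
    -- an `N`-th root of the constant
    obtain ⟨e, he⟩ := IsAlgClosed.exists_pow_nat_eq ((c : Ω) / res E Ω σ (c : Ω)) hN
    have he0 : e ≠ 0 := by
      rintro rfl
      rw [zero_pow hN.ne'] at he
      have := div_ne_zero (Units.ne_zero c) hrc
      exact this he.symm
    let g' : Mˣ := Units.mk0 (g * algebraMap Ω M e) (mul_ne_zero hg0 (by simpa using he0))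
    have hg' : um σ h₂ = h₂ * g' ^ N := by
      apply Units.ext
      rw [um_val, hh₂, Units.val_mul, Units.val_mul, Units.val_mul, Units.val_mk0,
        Units.val_inv_eq_inv_val, cu_val, Units.val_pow_eq_pow_val, Units.val_mk0, map_mul,
        map_inv₀, ← res_commutes (E := E), hg, mul_pow, ← map_pow, he, map_div₀]
      have : algebraMap Ω M (res E Ω σ (c : Ω)) ≠ 0 := by simp
      field_simp
    obtain ⟨d, hd⟩ := exists_lc ht g'
    have hσU : um σ h₂ ∈ U := hU σ _ hcU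
    have h3 : g' ^ N ∈ U := by
      have : g' ^ N = h₂⁻¹ * um σ h₂ := by rw [hg', inv_mul_cancel_left]
      rw [this]
      exact U.mul_mem (U.inv_mem hcU) hσU
    have h4 : cu Ω M (d ^ N) ∈ U := by
      have : cu Ω M (d ^ N) = g' ^ N * ((g' * (cu Ω M d)⁻¹) ^ N)⁻¹ := by
        rw [mul_pow, mul_inv, mul_inv_cancel_left, inv_pow, inv_inv, map_pow]
      rw [this]
      exact U.mul_mem h3 (U.inv_mem (U.pow_mem hd N))
    have h5 := cu_mem ht h4
    refine ⟨g' * (cu Ω M d)⁻¹, hd, ?_⟩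
    rw [hg', mul_pow, inv_pow, ← map_pow, h5, map_one, inv_one, mul_one]
  obtain ⟨z, h, hz⟩ := descend_abs U hU htf h₂ H'
  -- absorb the constant
  obtain ⟨d, hd⟩ := IsAlgClosed.exists_pow_nat_eq ((c : Ω)⁻¹) hN
  have hd0 : d ≠ 0 := by
    rintro rfl
    rw [zero_pow hN.ne'] at hd
    exact inv_ne_zero c.ne_zero hd.symm
  refine ⟨z * algebraMap Ω M d, h, mul_ne_zero z.ne_zero (by simpa using hd0), ?_⟩
  rw [hz, hh₂, Units.val_mul, Units.val_mk0, Units.val_inv_eq_inv_val, cu_val, mul_pow, ← map_pow,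
    hd, map_inv₀]
  ring

end Desc

end Crest.Agent.R013.TG3_225
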