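import Mathlib
import Crest.Agent.R013.TG1_225
import Crest.Agent.R013.CntB2_491
import Crest.Agent.R013.Tors7_235

/-!
# R013 / TORS part 2 (helper225), TG4: places of `K_E` extend to `K_Ω` (`Ω / E` algebraic), without
ramification.
-/

set_option autoImplicit false
set_option linter.all false

namespace Crest.Agent.R013.TG4_225

open WithZero Module TensorProduct
open Crest.Agent.R013.RR7_948 Crest.Agent.R013.RR8_948 Crest.Agent.R013.RR9_948
open Crest.Agent.R013.RR11_948 Crest.Agent.R013.RR12_948 Crest.Agent.R013.RR13_948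
open Crest.Agent.R013.CE1_280 Crest.Agent.R013.CE2_280 Crest.Agent.R013.CE3_280
open Crest.Agent.R013.CE5_280 Crest.Agent.R013.Frob1_914
open Crest.Agent.R013.TG1_225

section Ext

variable {E Ω L M : Type*} [Field E] [Field Ω] [Algebra E Ω] [Algebra.IsAlgebraic E Ω]
  [Field L] [Algebra E L] [Field M] [Algebra Ω M]
  [Algebra L M] [Algebra E M] [IsScalarTower E L M] [IsScalarTower E Ω M]
  [Algebra (RatFunc Ω) M] [IsScalarTower Ω (RatFunc Ω) M]
  [FiniteDimensional (RatFunc Ω) M] [Algebra.IsSeparable (RatFunc Ω) M]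

/-- places extend -/
theorem exists_ext (Ω : Type*) [Field Ω] [Algebra E Ω] [Algebra.IsAlgebraic E Ω] [Algebra Ω M]
    [IsScalarTower E Ω M] [Algebra (RatFunc Ω) M] [IsScalarTower Ω (RatFunc Ω) M]
    [FiniteDimensional (RatFunc Ω) M] [Algebra.IsSeparable (RatFunc Ω) M]
    (w : Valuation L ℤᵐ⁰) (hw : ∀ b : E, b ≠ 0 → w (algebraMap E L b) = 1)
    (hnt : ∃ a : L, w a ≠ 0 ∧ w a ≠ 1) :
    ∃ P : Pl Ω M, ∀ f : L, P.v (algebraMap L M f) ≤ 1 ↔ w f ≤ 1 := by
  obtain ⟨B, hB, hloc⟩ := IsLocalRing.exists_factor_valuationRing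
    ((algebraMap L M).comp w.valuationSubring.subtype)
  have h1 : ∀ f : L, w f ≤ 1 → B.valuation (algebraMap L M f) ≤ 1 := by
    intro f hf
    rw [ValuationSubring.valuation_le_one_iff]
    exact hB ⟨f, hf⟩
  have h2 : ∀ f : L, w f < 1 → B.valuation (algebraMap L M f) < 1 := by
    intro f hf
    rw [← ValuationSubring.mem_nonunits_iff]
    have h3 : ¬ IsUnit (⟨f, hf.le⟩ : w.valuationSubring) := by
      intro hu
      have := (w.valuationSubring.valuation_eq_one_iff ⟨f, hf.le⟩).mp hu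
      have h5 : w.IsEquiv w.valuationSubring.valuation :=
        Valuation.isEquiv_valuation_valuationSubring w
      rw [← h5.eq_one_iff_eq_one] at this
      exact absurd this hf.ne
    have h4 : ¬ IsUnit (((algebraMap L M).comp w.valuationSubring.subtype).codRestrict
        B.toSubring hB ⟨f, hf.le⟩) := fun hu => h3 (hloc.map_nonunit _ hu)
    by_contra hcon
    rw [ValuationSubring.mem_nonunits_iff, not_lt] at hcon
    have h7 : B.valuation (algebraMap L M f) = 1 := le_antisymm (h1 f hf.le) hcon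
    have h8 : IsUnit (⟨algebraMap L M f, hB ⟨f, hf.le⟩⟩ : B) :=
      (B.valuation_eq_one_iff ⟨algebraMap L M f, hB ⟨f, hf.le⟩⟩).mpr h7
    exact h4 h8
  have h3 : ∀ f : L, B.valuation (algebraMap L M f) ≤ 1 ↔ w f ≤ 1 := by
    intro f
    refine ⟨fun h => ?_, h1 f⟩
    by_contra hcon
    push Not at hcon
    have hf0 : f ≠ 0 := by rintro rfl; simp at hcon
    have h4 : w f⁻¹ < 1 := by
      rw [map_inv₀]
      exact inv_lt_one_of_one_lt₀ hcon
    have h5 := h2 _ h4
    rw [map_inv₀, map_inv₀] at h5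
    have h6 : B.valuation (algebraMap L M f) ≠ 0 :=
      (Valuation.ne_zero_iff _).mpr (by simpa using hf0)
    exact absurd ((inv_lt_one₀ (zero_lt_iff.mpr h6)).mp h5) (not_lt.mpr h)
  have hk : ∀ c : E, c ≠ 0 → B.valuation (algebraMap E M c) = 1 := by
    intro c hc
    have h4 := h1 _ (hw c hc).le
    have h5 := h1 _ (hw c⁻¹ (inv_ne_zero hc)).le
    rw [← IsScalarTower.algebraMap_apply] at h4 h5
    apply le_antisymm h4
    rw [map_inv₀, map_inv₀] at h5
    have h6 : B.valuation (algebraMap E M c) ≠ 0 :=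
      (Valuation.ne_zero_iff _).mpr (by simpa using hc)
    exact (inv_le_one₀ (zero_lt_iff.mpr h6)).mp h5
  have hkΩ : ∀ c : Ω, c ≠ 0 → B.valuation (algebraMap Ω M c) = 1 := fun c hc =>
    CntB2_491.eq_one_of_algebraic (k := E) B.valuation hk c hc
  obtain ⟨a, ha0, ha1⟩ := hnt
  have hne0 : a ≠ 0 := by rintro rfl; simp at ha0
  obtain ⟨P, hP⟩ := exists_place (k := Ω) B.valuation hkΩ ⟨algebraMap L M a, by
    rw [Valuation.ne_zero_iff]; simpa using hne0, by
    intro h
    rcases lt_or_gt_of_ne ha1 with h4 | h4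
    · exact absurd h (h2 a h4).ne
    · exact absurd ((h3 a).mp h.le) (not_le.mpr h4)⟩
  refine ⟨P, fun f => ?_⟩
  rw [hP.le_one_iff_le_one, h3]

end Ext

section Unif

variable {F K E Ω L M : Type*} [Field F] [IsAlgClosed F] [Field K] [Algebra F K]
  [Algebra (RatFunc F) K] [IsScalarTower F (RatFunc F) K] [FiniteDimensional (RatFunc F) K]
  [Algebra.IsSeparable (RatFunc F) K]
  [Field E] [Algebra F E] [CharZero E] [Field Ω] [IsAlgClosed Ω] [Algebra F Ω] [Algebra E Ω]
  [Algebra.IsAlgebraic E Ω]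
  [Field L] [Algebra E L] [Algebra F L] [IsScalarTower F E L]
  [Field M] [Algebra Ω M] [Algebra F M] [IsScalarTower F Ω M]
  [Algebra L M] [Algebra E M] [IsScalarTower E L M] [IsScalarTower E Ω M]
  [Algebra (RatFunc Ω) M] [IsScalarTower Ω (RatFunc Ω) M]
  [FiniteDimensional (RatFunc Ω) M] [Algebra.IsSeparable (RatFunc Ω) M]
  {ι : K →ₐ[F] L} {κ : K →ₐ[F] M}

variable (E)

include E in
/-- no ramification -/
theorem exists_unif (hM : IsCE Ω κ) (hc : ∀ f, algebraMap L M (ι f) = κ f) (P : Pl Ω M) :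
    ∃ t : L, P.v (algebraMap L M t) = exp (-1) := by
  rcases cases hM P with ⟨P₁, rfl⟩ | ⟨Q, rfl⟩
  · obtain ⟨u, hu⟩ := P₁.surj (exp (-1))
    refine ⟨ι u, ?_⟩
    rw [hc, Over.v_iota hM (conP_Over hM P₁), hu]
  · set a : Ω := Q (xK F K) with ha
    have hint : IsIntegral E a := Algebra.IsIntegral.isIntegral a
    set q := minpoly E a with hq
    have hsep : ((q.map (algebraMap E Ω)).derivative.eval a) ≠ 0 := by
      rw [Polynomial.derivative_map, Polynomial.eval_map_algebraMap]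
      exact (minpoly.irreducible hint).separable.aeval_derivative_ne_zero (minpoly.aeval E a)
    have hroot : (q.map (algebraMap E Ω)).IsRoot a := by
      rw [Polynomial.IsRoot, Polynomial.eval_map_algebraMap]
      exact minpoly.aeval E a
    obtain ⟨q₁, hq₁⟩ := Polynomial.dvd_iff_isRoot.mpr hroot
    have hq₁a : q₁.eval a ≠ 0 := by
      rw [hq₁] at hsep
      simpa [Polynomial.derivative_mul] using hsep
    refine ⟨Polynomial.aeval (ι (xK F K)) q, ?_⟩
    have h1 : algebraMap L M (Polynomial.aeval (ι (xK F K)) q) =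
        Polynomial.aeval (κ (xK F K)) (q.map (algebraMap E Ω)) := by
      rw [Polynomial.aeval_map_algebraMap, ← Polynomial.aeval_algebraMap_apply, hc]
    have h2 : Polynomial.aeval (κ (xK F K)) q₁ =
        mu κ (Polynomial.aeval (1 ⊗ₜ xK F K : Ω ⊗[F] K) q₁) := by
      rw [← Polynomial.aeval_algHom_apply, mu_tmul, map_one, one_mul]
    have h3 : CE2_280.ev Q (Polynomial.aeval (1 ⊗ₜ xK F K : Ω ⊗[F] K) q₁) = q₁.eval a := by
      rw [← Polynomial.aeval_algHom_apply, ev_tmul, one_mul, ← ha, Polynomial.coe_aeval_eq_eval]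
    have h4 : κ (xK F K) - algebraMap Ω M a = mu κ (piT F K a) := by
      rw [piT, map_sub, mu_tmul, mu_tmul, map_one, map_one, one_mul, mul_one]
    rw [h1, hq₁, map_mul, map_sub, Polynomial.aeval_X, Polynomial.aeval_C, h4, map_mul, h2,
      (plQ_At hM Q).eq_one (t := Polynomial.aeval (1 ⊗ₜ xK F K : Ω ⊗[F] K) q₁)
        (by rw [h3]; exact hq₁a), mul_one]
    exact (plQ_At hM Q).v_pi hM

end Unif

section Dvd

variable {L M Ω : Type*} [Field Ω] [Field L] [Field M] [Algebra Ω M] [Algebra L M]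
  {w : Valuation L ℤᵐ⁰} {P : Pl Ω M}

theorem eq_one_iff (h : ∀ f : L, P.v (algebraMap L M f) ≤ 1 ↔ w f ≤ 1) (f : L) :
    P.v (algebraMap L M f) = 1 ↔ w f = 1 := by
  by_cases hf : f = 0
  · simp [hf]
  have hP0 : P.v (algebraMap L M f) ≠ 0 := (Valuation.ne_zero_iff _).mpr (by simpa using hf)
  have hw0 : w f ≠ 0 := (Valuation.ne_zero_iff _).mpr hf
  have h1 := h f
  have h2 := h f⁻¹
  rw [map_inv₀, map_inv₀, map_inv₀, inv_le_one₀ (zero_lt_iff.mpr hP0),
    inv_le_one₀ (zero_lt_iff.mpr hw0)] at h2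
  constructor
  · intro h3; exact le_antisymm (h1.mp h3.le) (h2.mp h3.ge)
  · intro h3; exact le_antisymm (h1.mpr h3.le) (h2.mpr h3.ge)

/-- divisibility of the order is inherited -/
theorem dvd_log (h : ∀ f : L, P.v (algebraMap L M f) ≤ 1 ↔ w f ≤ 1) {t : L}
    (ht : P.v (algebraMap L M t) = exp (-1)) {f : L} {N : ℤ}
    (hN : N ∣ log (P.v (algebraMap L M f))) : N ∣ log (w f) := by
  by_cases hf : f = 0
  · simp [hf]
  have hP0 : P.v (algebraMap L M f) ≠ 0 := (Valuation.ne_zero_iff _).mpr (by simpa using hf)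
  have ht0 : t ≠ 0 := by
    rintro rfl
    rw [map_zero, map_zero] at ht
    exact exp_ne_zero ht.symm
  set n := log (P.v (algebraMap L M f)) with hn
  have h1 : P.v (algebraMap L M (f * t ^ n)) = 1 := by
    rw [map_mul, map_mul, map_zpow₀, map_zpow₀, ht, ← exp_log hP0, ← hn, ← exp_zsmul, ← exp_add,
      ← exp_zero]
    congr 1
    simp
  have h2 := (eq_one_iff h _).mp h1
  have hw0 : w f ≠ 0 := (Valuation.ne_zero_iff _).mpr hf
  have hwt : w t ≠ 0 := (Valuation.ne_zero_iff _).mpr ht0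
  rw [map_mul, map_zpow₀] at h2
  have h3 := congrArg log h2
  rw [log_mul hw0 (zpow_ne_zero _ hwt), log_zpow, log_one] at h3
  have h4 : log (w f) = -(n * log (w t)) := by
    rw [smul_eq_mul] at h3
    linarith
  rw [h4]
  exact (Dvd.dvd.mul_right hN _).neg_right

/-- normalised valuations are restrictions -/
theorem eq_of_surj (h : ∀ f : L, P.v (algebraMap L M f) ≤ 1 ↔ w f ≤ 1) {t : L}
    (ht : P.v (algebraMap L M t) = exp (-1)) (hw : ∃ f : L, w f = exp (-1)) (f : L) :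
    P.v (algebraMap L M f) = w f := by
  have hs : ∀ (u : Valuation L ℤᵐ⁰), (∃ f : L, u f = exp (-1)) → Function.Surjective u := by
    rintro u ⟨s, hs⟩ y
    by_cases hy : y = 0
    · exact ⟨0, by rw [map_zero, hy]⟩
    · refine ⟨s ^ (-log y), ?_⟩
      rw [map_zpow₀, hs, ← exp_zsmul]
      conv_rhs => rw [← exp_log hy]
      congr 1
      simp
  have h1 : (P.v.comap (algebraMap L M)).IsEquiv w := by
    rw [Valuation.isEquiv_iff_val_le_one]
    exact fun {f} => h f
  have h2 := eq_of_isEquiv_surj h1 (hs _ ⟨t, ht⟩) (hs _ hw)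
  exact congrArg (fun u => u f) h2

end Dvd

section Centre

open Crest.Agent.R013.Tors7_235

variable {F K Ω L M : Type*} [Field F] [IsAlgClosed F] [Field K] [Algebra F K]
  [Algebra (RatFunc F) K] [IsScalarTower F (RatFunc F) K] [FiniteDimensional (RatFunc F) K]
  [Algebra.IsSeparable (RatFunc F) K]
  [Field Ω] [IsAlgClosed Ω] [Algebra F Ω] [Algebra K Ω] [IsScalarTower F K Ω]
  [Field L] [Algebra K L] [Algebra F L] [IsScalarTower F K L]
  [Field M] [Algebra Ω M] [Algebra F M] [IsScalarTower F Ω M]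
  [Algebra L M] [Algebra K M] [IsScalarTower K L M] [IsScalarTower K Ω M]
  [Algebra (RatFunc Ω) M] [IsScalarTower Ω (RatFunc Ω) M]
  [FiniteDimensional (RatFunc Ω) M] [Algebra.IsSeparable (RatFunc Ω) M]
  {ι : K →ₐ[F] L} {κ : K →ₐ[F] M} {w : Valuation L ℤᵐ⁰} {P : Pl Ω M}

theorem lt_one_iff' (h : ∀ f : L, P.v (algebraMap L M f) ≤ 1 ↔ w f ≤ 1) (f : L) :
    P.v (algebraMap L M f) < 1 ↔ w f < 1 := by
  rw [lt_iff_le_and_ne, lt_iff_le_and_ne, h f, Ne, Ne, eq_one_iff h f]

/-- the diagonal -/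
theorem eq_plQ (hM : IsCE Ω κ) (hc : ∀ f, algebraMap L M (ι f) = κ f)
    (h : ∀ f : L, P.v (algebraMap L M f) ≤ 1 ↔ w f ≤ 1) (hw : AtQ ι w) :
    P = plQ hM (IsScalarTower.toAlgHom F K Ω) := by
  refine At.unique hM (Q := IsScalarTower.toAlgHom F K Ω) (fun f => ?_) (plQ_At hM _)
  have e : κ f - algebraMap Ω M (IsScalarTower.toAlgHom F K Ω f) =
      algebraMap L M (ι f - algebraMap K L f) := by
    rw [map_sub, hc, IsScalarTower.coe_toAlgHom', ← IsScalarTower.algebraMap_apply,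
      ← IsScalarTower.algebraMap_apply]
  rw [e, lt_one_iff' h]
  exact hw.2 f

/-- the places over `P₀` -/
theorem eq_conP (hM : IsCE Ω κ) (hc : ∀ f, algebraMap L M (ι f) = κ f)
    (h : ∀ f : L, P.v (algebraMap L M f) ≤ 1 ↔ w f ≤ 1) {P₀ : Pl F K} (hw : OverP ι P₀ w) :
    P = conP hM P₀ := by
  refine Over.unique hM (P := P₀) ⟨fun f hf => ?_, fun f hf => ?_⟩ (conP_Over hM P₀)
  · rw [← hc, h]; exact hw.2.1 f hf
  · rw [← hc, lt_one_iff' h]; exact hw.2.2 f hf

/-- conversely: a valuation below the diagonal place is `AtQ` -/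
theorem atQ_of_eq (hM : IsCE Ω κ) (hc : ∀ f, algebraMap L M (ι f) = κ f)
    (h : ∀ f : L, P.v (algebraMap L M f) ≤ 1 ↔ w f ≤ 1)
    (hw : ∀ b : K, b ≠ 0 → w (algebraMap K L b) = 1)
    (hP : P = plQ hM (IsScalarTower.toAlgHom F K Ω)) : AtQ ι w := by
  refine ⟨hw, fun f => ?_⟩
  have e : κ f - algebraMap Ω M (IsScalarTower.toAlgHom F K Ω f) =
      algebraMap L M (ι f - algebraMap K L f) := by
    rw [map_sub, hc, IsScalarTower.coe_toAlgHom', ← IsScalarTower.algebraMap_apply,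
      ← IsScalarTower.algebraMap_apply]
  rw [← lt_one_iff' h, ← e, hP]
  exact plQ_At hM _ f

theorem overP_of_eq (hM : IsCE Ω κ) (hc : ∀ f, algebraMap L M (ι f) = κ f)
    (h : ∀ f : L, P.v (algebraMap L M f) ≤ 1 ↔ w f ≤ 1)
    (hw : ∀ b : K, b ≠ 0 → w (algebraMap K L b) = 1) {P₀ : Pl F K}
    (hP : P = conP hM P₀) : OverP ι P₀ w := by
  refine ⟨hw, fun f hf => ?_, fun f hf => ?_⟩
  · rw [← h, hc, hP]; exact (conP_Over hM P₀).1 f hf
  · rw [← lt_one_iff' h, hc, hP]; exact (conP_Over hM P₀).2 f hf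

end Centre

end Crest.Agent.R013.TG4_225
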