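import Crest.Agent.R013.TP10_928
import Crest.Agent.R013.SSDefs_332

/-!
# R013 / C-TP (helper928), part 11: the vertices of `Red332`

`vtx w : Vtx base K (kap w)` for a norm `w : Nm C K` (332), `ρ = red`, order of the reduction
`(vtx w).toRedD.rdv e x = od w x e`.
-/

set_option autoImplicit false
set_option linter.unusedSectionVars false
set_option linter.style.haveILetI false

namespace Crest.Agent.R013.TP_928

open scoped NNReal
open WithZero Module IsLocalRing
open Crest.Agent.R013.RR7_948 Crest.Agent.R013.RR8_948 Crest.Agent.R013.RR9_948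
open Crest.Agent.R013.RR11_948 Crest.Agent.R013.PicD_398 Crest.Agent.R013.Frob1_914
open Crest.Agent.R013.Red332

section

variable (C : Type*) [NormedField C] [IsUltrametricDist C]

/-- the identity from the integers to the valuation subring -/
def toVS {K : Type*} [Field K] (v : Valuation K ℝ≥0) : v.integer →+* v.valuationSubring where
  toFun x := ⟨x.1, x.2⟩
  map_one' := rfl
  map_mul' _ _ := rfl
  map_zero' := rfl
  map_add' _ _ := rfl

/-- residue data of the constants -/
noncomputable def base : Res C (Ct C) ℝ≥0 where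
  v := NormedField.valuation
  ρ := (residue (NormedField.valuation (K := C)).valuationSubring).comp (toVS _)
  ρ_eq_zero x := by
    have h := rc_eq_zero_iff (C := C) (c := x.1) x.2
    rw [rc_def x.2] at h
    exact h
  surj t := by
    obtain ⟨c, hc, h⟩ := rc_surj (C := C) t
    refine ⟨⟨c, hc⟩, ?_⟩
    rw [← h, rc_def hc]
    rfl

variable {C}

theorem base_v (c : C) : (base C).v c = ‖c‖₊ := rfl

theorem base_ρ (c : C) (h : (base C).v c ≤ 1) : (base C).ρ ⟨c, h⟩ = rc c := by
  rw [rc_def h]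
  rfl

variable {K : Type*} [Field K] [Algebra C K] (w : Nm C K)

/-- the vertex of a norm -/
noncomputable def vtx : Vtx (base C) K (kap w) where
  v := w.v
  ρ := (residue w.v.valuationSubring).comp (toVS _)
  ρ_eq_zero x := by
    have h := Red332.red_eq_zero_iff w (f := x.1) x.2
    rw [red_def w x.2] at h
    exact h
  surj t := by
    obtain ⟨c, hc, h⟩ := red_surj w t
    refine ⟨⟨c, hc⟩, ?_⟩
    rw [← h, red_def w hc]
    rfl
  v_algebraMap := w.hC
  val := w.val
  comm c h h' := by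
    have h1 := red_C w c h
    rw [red_def w h'] at h1
    rw [base_ρ]
    exact h1

theorem vtx_v (f : K) : (vtx w).v f = w.v f := rfl

theorem vtx_ρ (f : K) (h : (vtx w).v f ≤ 1) : (vtx w).ρ ⟨f, h⟩ = Red332.red w f := by
  rw [red_def w h]
  rfl

theorem rd_vtx (f : K) (c : C) (h : (vtx w).toRedD.v (f / algebraMap C K c) = 1) :
    (vtx w).toRedD.rd f c h = Red332.red w (f * (algebraMap C K c)⁻¹) := by
  refine (vtx_ρ w (f / algebraMap C K c) h.le).trans ?_
  rw [div_eq_mul_inv]

variable [Algebra (RatFunc (Ct C)) (kap w)] [IsScalarTower (Ct C) (RatFunc (Ct C)) (kap w)]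
  [FiniteDimensional (RatFunc (Ct C)) (kap w)] [Algebra.IsSeparable (RatFunc (Ct C)) (kap w)]

/-- the order of the reduction -/
theorem rdv_vtx (e : Additive Kˣ) (x : Pl (Ct C) (kap w)) :
    (vtx w).toRedD.rdv e x = od w x (e.toMul : K) := by
  obtain ⟨c, hc0, hc⟩ := exists_C w (e.toMul : K) (Units.ne_zero e.toMul)
  have hc' : (vtx w).toRedD.v ((e.toMul : K) / algebraMap C K c) = 1 := by
    rw [div_eq_mul_inv]; exact hc
  rw [(vtx w).toRedD.rdv_eq e hc0 hc', od_eq_of x hc]
  have h1 := rd_vtx w (e.toMul : K) c hc'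
  have h2 := v_eq (k := Ct C) ((vtx w).toRedD.rd_ne_zero (e.toMul : K) c hc') x
  rw [← h1, h2, log_exp, neg_neg]

/-- the reduction is a `p^n`-th power up to constants -/
theorem rdv_vtx_mem (e : Additive Kˣ) {m : ℕ} {c : C} {y : kap w} (hc0 : c ≠ 0)
    (hc : w.v ((e.toMul : K) * (algebraMap C K c)⁻¹) = 1)
    (hy : Red332.red w ((e.toMul : K) * (algebraMap C K c)⁻¹) = y ^ m) :
    ∃ z ∈ Prin (Ct C) (kap w), (vtx w).toRedD.rdv e = m • z := by
  have hc' : (vtx w).toRedD.v ((e.toMul : K) / algebraMap C K c) = 1 := by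
    rw [div_eq_mul_inv]; exact hc
  have h1 := rd_vtx w (e.toMul : K) c hc'
  have h0 : Red332.red w ((e.toMul : K) * (algebraMap C K c)⁻¹) ≠ 0 := red_ne_zero w hc
  rcases Nat.eq_zero_or_pos m with hm | hm
  · subst hm
    refine ⟨0, zero_mem _, ?_⟩
    rw [(vtx w).toRedD.rdv_eq e hc0 hc', h1, hy, pow_zero, divf_one, zero_smul]
  have hy0 : y ≠ 0 := by
    rintro rfl
    rw [zero_pow hm.ne'] at hy
    exact h0 hy
  refine ⟨divf (k := Ct C) y, ⟨y, hy0, rfl⟩, ?_⟩
  rw [(vtx w).toRedD.rdv_eq e hc0 hc', h1, hy]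
  have h3 := map_nsmul (dv (Ct C) (kap w)) m (Additive.ofMul (Units.mk0 y hy0))
  rw [← ofMul_pow, dv_ofMul, dv_ofMul] at h3
  simpa using h3

/-- if the divisor of the reduction is `m` times a principal divisor, the reduction is an `m`-th
power (`Ct` algebraically closed) -/
theorem exists_pow_of_rdv [IsAlgClosed (Ct C)] (e : Additive Kˣ) {m : ℕ} (hm : m ≠ 0)
    (h : ∃ z ∈ Prin (Ct C) (kap w), (vtx w).toRedD.rdv e = m • z) {c : C} (hc0 : c ≠ 0)
    (hc : w.v ((e.toMul : K) * (algebraMap C K c)⁻¹) = 1) :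
    ∃ y : kap w, y ≠ 0 ∧ Red332.red w ((e.toMul : K) * (algebraMap C K c)⁻¹) = y ^ m := by
  have hc' : (vtx w).toRedD.v ((e.toMul : K) / algebraMap C K c) = 1 := by
    rw [div_eq_mul_inv]; exact hc
  have h1 := rd_vtx w (e.toMul : K) c hc'
  have h0 : Red332.red w ((e.toMul : K) * (algebraMap C K c)⁻¹) ≠ 0 := red_ne_zero w hc
  obtain ⟨z, ⟨g, hg, rfl⟩, hz⟩ := h
  rw [(vtx w).toRedD.rdv_eq e hc0 hc', h1] at hz
  set f := Red332.red w ((e.toMul : K) * (algebraMap C K c)⁻¹) with hf
  have h3 : divf (k := Ct C) (g ^ m) = m • divf (k := Ct C) g := by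
    have h3 := map_nsmul (dv (Ct C) (kap w)) m (Additive.ofMul (Units.mk0 g hg))
    rw [← ofMul_pow, dv_ofMul, dv_ofMul] at h3
    simpa using h3
  have h4 : divf (k := Ct C) (f * (g ^ m)⁻¹) = 0 := by
    rw [divf_mul h0 (inv_ne_zero (pow_ne_zero m hg)), divf_inv (pow_ne_zero m hg), h3, hz]
    abel
  obtain ⟨t, ht⟩ := exists_const_of_divf_eq_zero (k := Ct C) (K := kap w)
    (IntermediateField.eq_bot_of_isAlgClosed_of_isAlgebraic _) (mul_ne_zero h0 (inv_ne_zero (pow_ne_zero m hg))) h4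
  obtain ⟨s, hs⟩ := IsAlgClosed.exists_pow_nat_eq t (Nat.pos_of_ne_zero hm)
  have h5 : f = (algebraMap (Ct C) (kap w) s * g) ^ m := by
    rw [mul_pow, ← map_pow, hs, ← ht, mul_assoc, inv_mul_cancel₀ (pow_ne_zero m hg), mul_one]
  refine ⟨_, ?_, h5⟩
  intro h6
  rw [h6, zero_pow hm] at h5
  exact h0 h5

end

end Crest.Agent.R013.TP_928
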