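import Crest.Agent.R013.TP11_928
import Crest.Agent.R013.Rank_770

/-!
# R013 / C-TP (helper928), part 12: slopes on a semistable structure

`S : SSK k C K` (332).
* `ord S d f` order of (the reduction of) `f` at the direction `d`;
* `SlopeDvd S`: if `m ∣ div f` then `m ∣ ord` at all disc directions and at both ends of an annulus
  the sum of the orders is divisible by `m`;
* `sl S : Tate p (Pic C K) →ₗ[ℤ_[p]] (S.Ed → ℤ_[p])`, the slopes at the ends `e0`.
* `TPS`: Galois action, Frobenius, covering group, forms.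
-/

set_option autoImplicit false
set_option linter.unusedSectionVars false
set_option linter.style.haveILetI false

namespace Crest.Agent.R013.TP_928

open scoped NNReal
open WithZero Module PadicInt
open Crest.Agent.R013.RR7_948 Crest.Agent.R013.RR8_948 Crest.Agent.R013.RR9_948
open Crest.Agent.R013.RR11_948 Crest.Agent.R013.PicD_398 Crest.Agent.R013.Frob1_914
open Crest.Agent.R013.Red332 Crest.Agent.R013.SSK_332

section slope

variable {k C K : Type*} [NontriviallyNormedField k] [CompleteSpace k]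
    [NormedField C] [IsUltrametricDist C] [NormedAlgebra k C] [Algebra.IsAlgebraic k C]
    [Field K] [Algebra C K] (S : SSK k C K)

/-- order at a direction -/
noncomputable def ord (d : S.Dir) (f : K) : ℤ := Red332.od (S.nm d.1) d.2 f

/-- order at a direction as a homomorphism -/
noncomputable def ordHom (d : S.Dir) : Additive Kˣ →+ ℤ :=
  AddMonoidHom.mk' (fun e => ord S d (e.toMul : K))
    (fun e f => Red332.od_mul d.2 (Units.ne_zero e.toMul) (Units.ne_zero f.toMul))

theorem ordHom_apply (d : S.Dir) (e : Additive Kˣ) : ordHom S d e = ord S d (e.toMul : K) := rfl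

variable [Algebra (RatFunc C) K]
  [IsScalarTower C (RatFunc C) K] [FiniteDimensional (RatFunc C) K]
  [Algebra.IsSeparable (RatFunc C) K]

/-- the slope formula modulo `m` -/
def SlopeDvd : Prop :=
  ∀ (m : ℕ) (f : K), f ≠ 0 → (∃ x : Pl C K →₀ ℤ, divf (k := C) f = m • x) →
    (∀ d, S.IsDisc d → (m : ℤ) ∣ ord S d f) ∧
    ∀ e, (m : ℤ) ∣ ord S (S.e0 e) f + ord S (S.e1 e) f

/-- `h` represents the class `z` at level `n` -/
def RepK (p : ℕ) (n : ℕ) (z : Pic C K) (h : K) : Prop :=
  ∃ x : Pl C K →₀ ℤ, cls x = z ∧ divf (k := C) h = (p ^ n) • x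

theorem rep_iff_repK {p : ℕ} {n : ℕ} {z : Pic C K} {e : Additive Kˣ} :
    Rep p (dv C K) (Prin C K) n z e ↔ RepK p n z (e.toMul : K) := Iff.rfl

variable [IsAlgClosed C]

theorem hCbot : algebraicClosure C K = ⊥ :=
  IntermediateField.eq_bot_of_isAlgClosed_of_isAlgebraic _

theorem ordHom_const (d : S.Dir) (e : Additive Kˣ) (h : dv C K e = 0) : ordHom S d e = 0 := by
  obtain ⟨c, hc0, hc⟩ := exists_const_of_dv_eq_zero hCbot h
  rw [ordHom_apply, hc]
  exact Red332.od_C d.2 hc0

variable (p : ℕ) [hp : Fact p.Prime]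

/-- the slopes -/
noncomputable def sl : Tate p (Pic C K) →ₗ[ℤ_[p]] (S.Ed → ℤ_[p]) :=
  LinearMap.pi fun e => slope (dv C K) (Prin C K) (mem_Prin_iff C K) (ordHom S (S.e0 e))
    (ordHom_const S (S.e0 e))

variable {p}

theorem sl_apply (u : Tate p (Pic C K)) (e : S.Ed) : sl S p u e =
    slope (dv C K) (Prin C K) (mem_Prin_iff C K) (ordHom S (S.e0 e))
      (ordHom_const S (S.e0 e)) u := rfl

theorem sl_spec {u : Tate p (Pic C K)} {n : ℕ} {h : K} (h0 : h ≠ 0) (hr : RepK p n (u n) h)
    (e : S.Ed) : toZModPow n (sl S p u e) = ((ord S (S.e0 e) h : ℤ) : ZMod (p ^ n)) := by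
  rw [sl_apply, slope_spec (dv C K) (Prin C K) (mem_Prin_iff C K) (ordHom S (S.e0 e))
    (ordHom_const S (S.e0 e)) u (n := n) (e := Additive.ofMul (Units.mk0 h h0)) hr]
  rfl

theorem sl_eq_zero_iff (u : Tate p (Pic C K)) : sl S p u = 0 ↔
    ∀ n (h : K), h ≠ 0 → RepK p n (u n) h → ∀ e, ((p ^ n : ℕ) : ℤ) ∣ ord S (S.e0 e) h := by
  constructor
  · intro h n f hf0 hf e
    have h1 := congrFun h e
    rw [Pi.zero_apply, sl_apply, slope_eq_zero_iff] at h1
    exact_mod_cast h1 n (Additive.ofMul (Units.mk0 f hf0)) hf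
  · intro h
    funext e
    rw [Pi.zero_apply, sl_apply, slope_eq_zero_iff]
    intro n f hf
    have := h n (f.toMul : K) (Units.ne_zero _) hf e
    exact_mod_cast this

/-- a class modulo `p^n` with given slopes lifts: surjectivity onto a submodule is tested
modulo `p` (see `surjective_of_mod`) -/
theorem exists_repK (u : Tate p (Pic C K)) (n : ℕ) : ∃ h : K, h ≠ 0 ∧ RepK p n (u n) h := by
  obtain ⟨e, he⟩ := exists_rep (p := p) (mem_Prin_iff C K) (u.pow_smul_apply n)
  exact ⟨(e.toMul : K), Units.ne_zero _, he⟩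

end slope

end Crest.Agent.R013.TP_928
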