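import Crest.Agent.R013.TP19_928
import Crest.Agent.R013.TP16_928
import Crest.Agent.R013.HU14_522
import Crest.Agent.R013.Desc8_372

/-!
# R013 / C-FIN (helper928), part 6: **(D1)**

From a level of `S : SSK ℚ_[p] C Y` over a finite extension `κ` of `ℚ_p`, a covering group `A` with
an idempotent `c` and a disc end `em` at a rational place: for every `ε` a point `s ∈ ℚ_p`, `|s| < ε`
and a class `u` of the Tate module whose form has coefficients in `κ` and exact order `m` at `s`.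
-/

set_option autoImplicit false
set_option linter.unusedSectionVars false
set_option linter.style.haveILetI false

namespace Crest.Agent.R013.Fin_928

open scoped NNReal
open WithZero Module PadicInt PowerSeries
open Crest.Agent.R013.Cell_408
open Crest.Agent.R013.HU6_522
open Crest.Agent.R013.RR7_948 Crest.Agent.R013.RR8_948 Crest.Agent.R013.RR9_948
open Crest.Agent.R013.RR11_948 Crest.Agent.R013.PicD_398 Crest.Agent.R013.Frob1_914
open Crest.Agent.R013.Red332 Crest.Agent.R013.SSK_332 Crest.Agent.R013.TP_928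
open Crest.Agent.R013.EE809 Crest.Agent.R013.Desc_372 Crest.Agent.R013.HU14_522
open Crest.Agent.R013.DEm_719 Crest.Agent.R013.HU3_522 Crest.Agent.R013.LemD_323

variable {p : ℕ} [hp : Fact p.Prime]
variable {C : Type*} [NormedField C] [IsUltrametricDist C] [NormedAlgebra ℚ_[p] C]
  [Algebra.IsAlgebraic ℚ_[p] C] [IsAlgClosed C] [CharZero C]
variable {Y : Type*} [Field Y] [Algebra C Y] [Algebra (RatFunc C) Y]
  [IsScalarTower C (RatFunc C) Y] [FiniteDimensional (RatFunc C) Y]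
  [Algebra.IsSeparable (RatFunc C) Y]
variable {κ Y0 : Type*} [Field κ] [Field Y0] [Algebra ℚ_[p] κ] [FiniteDimensional ℚ_[p] κ]
  [Algebra κ C] [IsScalarTower ℚ_[p] κ C] [Algebra κ Y0] [Algebra Y0 Y] [Algebra κ Y]
  [IsScalarTower κ C Y] [IsScalarTower κ Y0 Y] [CE κ C Y0 Y]
variable {S : SSK ℚ_[p] C Y} {D : Set S.Dir}
variable {F : Type*} [NontriviallyNormedField F] [NormedAlgebra ℚ_[p] F] [IsUltrametricDist F]
  [CompleteSpace F] [CharZero F] [Algebra C F] [IsScalarTower ℚ_[p] C F]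
  [Algebra ℤ_[p] F] [IsScalarTower ℤ_[p] ℚ_[p] F]
variable {A : Type*} [Group A] [Fintype A] [MulAction A S.Ed]

section inst

variable (p) in
theorem normal_C (k₁ : Type*) [Field k₁] [Algebra ℚ_[p] k₁] [Algebra k₁ C]
    [IsScalarTower ℚ_[p] k₁ C] : Normal k₁ C := by
  haveI : Algebra.IsAlgebraic k₁ C := Algebra.IsAlgebraic.tower_top (K := ℚ_[p]) k₁
  exact normal_iff.mpr fun x =>
    ⟨(Algebra.IsAlgebraic.isAlgebraic x).isIntegral, IsAlgClosed.splits _⟩

theorem isGalois_C : IsGalois ℚ_[p] C := by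
  haveI : Normal ℚ_[p] C := normal_C p ℚ_[p]
  exact ⟨⟩

theorem norm_zp (z : ℤ_[p]) : ‖algebraMap ℤ_[p] F z‖ ≤ 1 := by
  rw [IsScalarTower.algebraMap_apply ℤ_[p] ℚ_[p] F, norm_algebraMap']
  exact z.norm_le_one

theorem norm_p_lt_one : ‖((p : ℕ) : F)‖ < 1 := by
  have h : ((p : ℕ) : F) = algebraMap ℚ_[p] F (p : ℚ_[p]) := (map_natCast _ p).symm
  rw [h, norm_algebraMap']
  exact Padic.norm_p_lt_one

end inst

section galF

variable (hσ : ∀ a, ‖algebraMap C F a‖ = ‖a‖)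
  (hd : DenseRange (algebraMap C F))

/-- the automorphism of `F` given by an automorphism of `C` over `ℚ_p` -/
noncomputable def galF (s : C ≃ₐ[ℚ_[p]] C) : F →+* F :=
  extF (algebraMap C F) hσ hd (s : C →+* C) (fun a => norm_mapE s a)

theorem galF_apply (s : C ≃ₐ[ℚ_[p]] C) (a : C) :
    galF hσ hd s (algebraMap C F a) = algebraMap C F (s a) :=
  extF_apply _ hσ hd _ _ a

theorem norm_galF (s : C ≃ₐ[ℚ_[p]] C) (a : F) : ‖galF hσ hd s a‖ = ‖a‖ :=
  norm_extF _ hσ hd _ _ a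

theorem galF_zp (s : C ≃ₐ[ℚ_[p]] C) (z : ℤ_[p]) :
    galF hσ hd s (algebraMap ℤ_[p] F z) = algebraMap ℤ_[p] F z := by
  rw [IsScalarTower.algebraMap_apply ℤ_[p] ℚ_[p] F, IsScalarTower.algebraMap_apply ℚ_[p] C F,
    galF_apply, s.commutes]

/-- the action on power series -/
noncomputable def galW (s : C ≃ₐ[ℚ_[p]] C) : PowerSeries F →ₗ[ℤ_[p]] PowerSeries F where
  toFun f := PowerSeries.map (galF hσ hd s) f
  map_add' := map_add _
  map_smul' z f := by
    ext n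
    rw [PowerSeries.coeff_map, PowerSeries.coeff_smul, RingHom.id_apply, PowerSeries.coeff_smul,
      PowerSeries.coeff_map, Algebra.smul_def, Algebra.smul_def, map_mul, galF_zp]

theorem coeff_galW (s : C ≃ₐ[ℚ_[p]] C) (f : PowerSeries F) (n : ℕ) :
    coeff n (galW hσ hd s f) = galF hσ hd s (coeff n f) := by
  change coeff n (PowerSeries.map (galF hσ hd s) f) = _
  rw [PowerSeries.coeff_map]

end galF

variable (hk : DiscNorm ℚ_[p]) (em : Y →+* EE ℚ_[p] C)
  (hc : ∀ c : C, em (algebraMap C Y c) = mono 0 c (EE809.finDef_const c))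
  (hι : ∀ z, ∃ a b : BD ℚ_[p] C, b ≠ 0 ∧ em z * bdE b = bdE a)
  (hσ : ∀ a, ‖algebraMap C F a‖ = ‖a‖) (hd : DenseRange (algebraMap C F))

variable (F) in
/-- the form of a class -/
noncomputable def omF : Tate p (Pic C Y) →ₗ[ℤ_[p]] PowerSeries F :=
  omT hk em hι (algebraMap C F) hσ norm_p_lt_one norm_zp

theorem omF_bd (u : Tate p (Pic C Y)) : LemD_323.Bd 1 (omF F hk em hι hσ u) := by
  refine ⟨1, fun n => ?_⟩
  rw [one_pow, mul_one]
  exact HU4_522.Om_int _ _ n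

section main

variable [CharP (Ct C) p] [Normal κ C] [IsGalois ℚ_[p] C]

/-- the input of the theorem on invariant forms -/
noncomputable def mkTPS (H : Lvl S κ Y0 (⊥ : IntermediateField κ C) D)
    (cov : A →* (Y ≃ₐ[C] Y))
    (cov_gal : ∀ (α : A) (g : Y ≃ₐ[Y0] Y) (f : Y), cov α (g f) = g (cov α f))
    (cov_v : ∀ α w, ∃ w', ∀ f, (S.nm w).v (cov α f) = (S.nm w').v f)
    (cov_e0 : ∀ (α : A) e f, f ≠ 0 → ord S (S.e0 (α • e)) (cov α f) = ord S (S.e0 e) f)
    (c : A → ℤ_[p]) (idem : ∀ α, ∑ β, c β * c (β⁻¹ * α) = c α)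
    (hem : ∀ (g : Y ≃ₐ[Y0] Y) (z : Y) (n : ℤ),
      (em (g z)).co n = CE.res κ C Y0 Y g ((em z).co n)) :
    TPS p S (CE.Gam Y0 Y (⊥ : IntermediateField κ C)) A (PowerSeries F) where
  gal g := si κ g.1
  gal_v g v f := H.gal_v g v f
  gal_e0 g e f _ := H.gal_e0 g e f
  gal_e1 g e f _ := H.gal_e1 g e f
  a := (exists_a ℚ_[p] Y Y0 (⊥ : IntermediateField κ C) p).choose
  ha := (exists_a ℚ_[p] Y Y0 (⊥ : IntermediateField κ C) p).choose_spec.1
  res := (exists_a ℚ_[p] Y Y0 (⊥ : IntermediateField κ C) p).choose_spec.2.1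
  frob := (exists_a ℚ_[p] Y Y0 (⊥ : IntermediateField κ C) p).choose_spec.2.2.choose
  frob_res := (exists_a ℚ_[p] Y Y0 (⊥ : IntermediateField κ C) p).choose_spec.2.2.choose_spec
  span v := H.span_fixed v
  cov := cov
  cov_gal α g f := cov_gal α g.1 f
  cov_v := cov_v
  cov_e0 := cov_e0
  c := c
  idem := idem
  gW g := galW hσ hd ((CE.res κ C Y0 Y g.1).restrictScalars ℚ_[p])
  om := omF F hk em hι hσ
  om_gal g u := by
    refine omT_gal hk em hι (algebraMap C F) hσ norm_p_lt_one norm_zp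
      (galF hσ hd ((CE.res κ C Y0 Y g.1).restrictScalars ℚ_[p])) (norm_galF hσ hd _)
      (si κ g.1) ((CE.res κ C Y0 Y g.1).restrictScalars ℚ_[p] : C →ₐ[ℚ_[p]] C)
      (fun a => norm_mapE ((CE.res κ C Y0 Y g.1).restrictScalars ℚ_[p]) a) (fun z => ?_)
      (fun a => galF_apply hσ hd _ a) u
    ext n
    exact hem g.1 z n

variable [Algebra (ZMod p) (Ct C)] [Algebra.IsAlgebraic (ZMod p) (Ct C)]

include hc hd in
/-- **(D1)** -/
theorem exists_class (H : Lvl S κ Y0 (⊥ : IntermediateField κ C) D)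
    (cov : A →* (Y ≃ₐ[C] Y))
    (cov_gal : ∀ (α : A) (g : Y ≃ₐ[Y0] Y) (f : Y), cov α (g f) = g (cov α f))
    (cov_v : ∀ α w, ∃ w', ∀ f, (S.nm w).v (cov α f) = (S.nm w').v f)
    (cov_e0 : ∀ (α : A) e f, f ≠ 0 → ord S (S.e0 (α • e)) (cov α f) = ord S (S.e0 e) f)
    (c : A → ℤ_[p]) (idem : ∀ α, ∑ β, c β * c (β⁻¹ * α) = c α)
    (hem : ∀ (g : Y ≃ₐ[Y0] Y) (z : Y) (n : ℤ),
      (em (g z)).co n = CE.res κ C Y0 Y g ((em z).co n))
    (hM3 : ∀ d : TPS p S (CE.Gam Y0 Y (⊥ : IntermediateField κ C)) A (PowerSeries F),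
      d.cov = cov → d.c = c →
      (∀ u : Tate p (Pic C Y), (∃ D : S.Dir, ∀ n, ∃ f : Y, f ≠ 0 ∧ RepK p n (u n) f ∧
        gn (th (S.em D f) * S.em D f⁻¹) ≤ ‖(p : C)‖ ^ n) → d.om u = 0) → d.OmZero)
    (hSl : ∀ lam : S.Ed → ZMod p, bdry S (ZMod p) lam = 0 →
      ∃ f : Y, f ≠ 0 ∧ (∃ x : Pl C Y →₀ ℤ, divf (k := C) f = p • x) ∧
        ∀ e, ((ord S (S.e0 e) f : ℤ) : ZMod p) = lam e)
    (m : ℕ) (hm : m * finrank ℚ_[p] κ <
      finrank ℚ_[p] (Rank_770.eker (fun α => ((c α : ℤ_[p]) : ℚ_[p])) (bdry S ℚ_[p])))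
    {ε : ℝ} (hε : 0 < ε) :
    ∃ s : ℚ_[p], ‖s‖ < ε ∧ ∃ u : Tate p (Pic C Y),
      (∀ n, ∃ a : κ, coeff n (omF F hk em hι hσ u) = algebraMap C F (algebraMap κ C a)) ∧
      (∀ l < m, coeff l (shift (algebraMap ℚ_[p] F s) (omF F hk em hι hσ u)) = 0) ∧
      coeff m (shift (algebraMap ℚ_[p] F s) (omF F hk em hι hσ u)) ≠ 0 := by
  haveI : Fact (DiscNorm ℚ_[p]) := ⟨hk⟩
  let d := mkTPS hk em hι hσ hd H cov cov_gal cov_v cov_e0 c idem hem
  have h0 : d.OmZero := by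
    refine hM3 d rfl rfl fun u hu => ?_
    obtain ⟨D, hD⟩ := hu
    refine omT_zero hk em hc hι (algebraMap C F) hσ norm_p_lt_one norm_zp S D u ⟨1, fun n => ?_⟩
    obtain ⟨f, hf0, hf, hb⟩ := hD n
    exact ⟨f, hf0, hf, by rw [one_mul]; exact hb⟩
  have h1 : d.OmInj := fun u _ hu =>
    omT_inj hk em hc hι (algebraMap C F) hσ norm_p_lt_one norm_zp S u hu
  let k' : IntermediateField ℚ_[p] C := (⊥ : IntermediateField κ C).restrictScalars ℚ_[p]
  have hk'm : ∀ a : κ, algebraMap κ C a ∈ k' := fun a =>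
    (⊥ : IntermediateField κ C).algebraMap_mem a
  have hk'r : ∀ x ∈ k', ∃ a : κ, algebraMap κ C a = x := fun x hx =>
    IntermediateField.mem_bot.mp (show x ∈ (⊥ : IntermediateField κ C) from hx)
  have e1 : κ ≃ₗ[ℚ_[p]] k' := LinearEquiv.ofBijective
    { toFun := fun a => ⟨algebraMap κ C a, hk'm a⟩
      map_add' := fun a b => Subtype.ext (map_add _ a b)
      map_smul' := fun a b => Subtype.ext (by
        change algebraMap κ C (a • b) = a • algebraMap κ C b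
        rw [Algebra.smul_def, map_mul, ← IsScalarTower.algebraMap_apply, Algebra.smul_def]) }
    ⟨fun a b h => (algebraMap κ C).injective (congrArg Subtype.val h), fun x => by
      obtain ⟨a, ha⟩ := hk'r x.1 x.2
      exact ⟨a, Subtype.ext ha⟩⟩
  haveI : FiniteDimensional ℚ_[p] k' := Module.Finite.equiv e1
  have hfr : finrank ℚ_[p] k' = finrank ℚ_[p] κ := e1.symm.finrank_eq
  obtain ⟨s, hs, u, hu, h2, h3, h4⟩ := exists_order_class d (slopeDvd S) h0 h1 (bdry S ℚ_[p])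
    (fun lam hl => onto_of_mod' S hSl lam hl) k' hd
    (fun g => galF hσ hd ((CE.res κ C Y0 Y g.1).restrictScalars ℚ_[p]))
    (fun g => isometry_extF _ _ _ _ _) (fun g c => galF_apply hσ hd _ c)
    (fun g f n => coeff_galW hσ hd _ f n)
    (fun s => by
      let s₁ : C ≃ₐ[κ] C := AlgEquiv.ofRingEquiv (f := s.toRingEquiv) fun x =>
        s.commutes (⟨algebraMap κ C x, hk'm x⟩ : k')
      refine ⟨⟨CE.lift κ C Y0 Y s₁, ?_⟩, fun c => ?_⟩
      · rw [CE.mem_Gam]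
        intro c hc
        obtain ⟨a, rfl⟩ := IntermediateField.mem_bot.mp hc
        rw [CE.lift_algebraMap]
        exact congrArg _ (s₁.commutes a)
      · change (si κ _ : SI C Y C Y).s c = s c
        rw [si_s, CE.res_lift]
        rfl)
    one_pos (fun u _ => omF_bd hk em hι hσ u) m (by rw [hfr]; exact hm) hε
  refine ⟨s, hs, u, fun n => ?_, h3, h4⟩
  obtain ⟨x, hx, hx'⟩ := h2 n
  obtain ⟨a, rfl⟩ := hk'r x hx
  exact ⟨a, hx'.symm⟩

end main

end Crest.Agent.R013.Fin_928
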