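import Crest.Agent.R013.TP20_928
import Crest.Agent.R013.SD5_940
import Crest.Agent.R013.InhC1_770

/-!
# R013 / C-FIN (helper928), part 7: **(D2)**

* `exists_F` : a complete field `F ⊇ C` with dense `C`;
* `PY`, `ru_Y`, `isExp_Y` : the place of `Y` given by `phi : Y →+* maxUnramified k K`;
* `io_gal` : equivariance of the expansion for the semilinear automorphisms fixing the place;
* `concl_of_cov` : **(D)** : a level `Lvl S κ Y0 ⊥ D`, a covering group with idempotent, a fixed place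
  ⟹ `Concl p k K P x δ η`.
-/

set_option autoImplicit false
set_option linter.unusedSectionVars false
set_option linter.style.haveILetI false

namespace Crest.Agent.R013.Fin_928

open scoped NNReal
open WithZero Module PadicInt PowerSeries
open Crest.NumberTheoryR.Sect
open Crest.Agent.R013.Cell_408
open Crest.Agent.R013.HU6_522
open Crest.Agent.R013.RR7_948 Crest.Agent.R013.RR8_948 Crest.Agent.R013.RR9_948
open Crest.Agent.R013.RR11_948 Crest.Agent.R013.PicD_398 Crest.Agent.R013.Frob1_914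
open Crest.Agent.R013.Red332 Crest.Agent.R013.SSK_332 Crest.Agent.R013.TP_928
open Crest.Agent.R013.EE809 Crest.Agent.R013.Desc_372 Crest.Agent.R013.HU14_522
open Crest.Agent.R013.DEm_719 Crest.Agent.R013.HU3_522 Crest.Agent.R013.LemD_323
open Crest.Agent.R013.Small2_940 Crest.Agent.R013.Small4_940 Crest.Agent.R013.Good5_940
open Crest.Agent.R013.SD1_940 Crest.Agent.R013.SD2_940 Crest.Agent.R013.HU11_522
open Crest.Agent.R013.Puis_702 (mapL coeff_mapL)

section F

universe u

/-- a completion of `C` -/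
theorem exists_F (p : ℕ) [hp : Fact p.Prime] (C : Type u) [NormedField C] [IsUltrametricDist C]
    [NormedAlgebra ℚ_[p] C] [CharZero C] :
    ∃ (F : Type u) (_ : NontriviallyNormedField F) (_ : NormedAlgebra ℚ_[p] F)
      (_ : IsUltrametricDist F) (_ : CompleteSpace F) (_ : CharZero F) (_ : Algebra C F)
      (_ : IsScalarTower ℚ_[p] C F) (_ : Algebra ℤ_[p] F) (_ : IsScalarTower ℤ_[p] ℚ_[p] F),
      (∀ a, ‖algebraMap C F a‖ = ‖a‖) ∧ DenseRange (algebraMap C F) := by
  let F := UniformSpace.Completion C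
  let hnn : NontriviallyNormedField F :=
    { (inferInstance : NormedField F) with
      non_trivial := by
        obtain ⟨c, hc⟩ := NontriviallyNormedField.non_trivial (α := ℚ_[p])
        exact ⟨algebraMap ℚ_[p] F c, by rw [norm_algebraMap']; exact hc⟩ }
  have hult : IsUltrametricDist F := by
    apply IsUltrametricDist.isUltrametricDist_of_isNonarchimedean_norm
    intro x y
    induction x, y using UniformSpace.Completion.induction_on₂ with
    | hp => exact isClosed_le (by fun_prop) (by fun_prop)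
    | ih x y =>
      rw [← UniformSpace.Completion.coe_add, UniformSpace.Completion.norm_coe,
        UniformSpace.Completion.norm_coe, UniformSpace.Completion.norm_coe]
      exact IsUltrametricDist.norm_add_le_max x y
  let iZ : Algebra ℤ_[p] F := ((algebraMap ℚ_[p] F).comp (algebraMap ℤ_[p] ℚ_[p])).toAlgebra
  have tZ : @IsScalarTower ℤ_[p] ℚ_[p] F _ _ iZ.toSMul :=
    @IsScalarTower.of_algebraMap_eq ℤ_[p] ℚ_[p] F _ _ _ _ _ iZ fun c => rfl
  have hcz : CharZero F := charZero_of_injective_algebraMap (algebraMap ℚ_[p] F).injective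
  exact ⟨F, hnn, inferInstance, hult, inferInstance, hcz, inferInstance, inferInstance, iZ, tZ,
    fun a => UniformSpace.Completion.norm_coe a, UniformSpace.Completion.denseRange_coe⟩

end F

section place

variable {p : ℕ} [hpF : Fact p.Prime] {k : Type*} [Field k] [CharZero k] [Algebra ℚ_[p] k]
  [FiniteDimensional ℚ_[p] k]
  {K : Type*} [Field K] [Algebra k K]
  [Algebra (RatFunc k) K] [IsScalarTower k (RatFunc k) K] [FiniteDimensional (RatFunc k) K]
  {P : Valuation (AlgebraicClosure K) ℝ≥0} {x : K}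
  {C : Type*} [NormedField C] [IsUltrametricDist C] [NormedAlgebra ℚ_[p] C]
  [Algebra.IsAlgebraic ℚ_[p] C]
  {Y : Type*} [Field Y] [Algebra C Y]
  {J : maxUnramified k K →+* LaurentSeries (Cb k K)} {e : Cb k K ≃+* C}
  {E0 : IntermediateField K (AlgebraicClosure K)} {phi : Y →+* maxUnramified k K}

/-- the place of `Y` -/
noncomputable def PY (P : Valuation (AlgebraicClosure K) ℝ≥0) (phi : Y →+* maxUnramified k K) :
    Valuation Y ℝ≥0 :=
  (P.comap (algebraMap (maxUnramified k K) (AlgebraicClosure K))).comap phi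

theorem PY_apply (z : Y) : PY P phi z = P (phi z : AlgebraicClosure K) := rfl

theorem ru_Y (hP : IsRationalPlace k K (P.comap (algebraMap K (AlgebraicClosure K))))
    (hx : IsUniformizerAt (P.comap (algebraMap K (AlgebraicClosure K))) x) (h : PH e E0 phi)
    {x0 : Y} (hx0 : phi x0 = algebraMap K (maxUnramified k K) x) :
    RU (algebraMap C Y) (PY P phi) x0 where
  rat a ha := by
    obtain ⟨c, hc⟩ := (ru_M hP hx).rat (phi a) ha
    refine ⟨e c, ?_⟩
    have h1 : iM k K c = phi (algebraMap C Y (e c)) := by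
      rw [h.con, RingEquiv.symm_apply_apply]
    rw [h1, ← map_sub] at hc
    exact hc
  lt_one := by
    have h1 := (ru_M hP hx).lt_one
    rw [← hx0] at h1
    exact h1
  unif a ha := by
    have h1 := (ru_M hP hx).unif (phi a) ha
    rw [← hx0] at h1
    exact h1
  ne := by
    rintro rfl
    rw [map_zero] at hx0
    exact (ru_M hP hx).ne hx0.symm

theorem isExp_Y
    (hJ : IsExp (iM k K) (P.comap (algebraMap (maxUnramified k K) (AlgebraicClosure K)))
        (algebraMap K (maxUnramified k K) x) J) (h : PH e E0 phi)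
    {x0 : Y} (hx0 : phi x0 = algebraMap K (maxUnramified k K) x) :
    IsExp (algebraMap C Y) (PY P phi) x0 (io e J phi) where
  con c := io_C hJ h c
  par := by
    rw [io_apply, hx0, hJ.par]
    refine HahnSeries.ext (funext fun i => ?_)
    rw [coeff_mapL, HahnSeries.coeff_single, HahnSeries.coeff_single]
    split_ifs
    · exact map_one _
    · exact map_zero _
  nonneg a ha n hn := by
    rw [coeff_io, hJ.nonneg (phi a) ha n hn, map_zero]

/-- equivariance of the expansion -/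
theorem io_gal (hP : IsRationalPlace k K (P.comap (algebraMap K (AlgebraicClosure K))))
    (hx : IsUniformizerAt (P.comap (algebraMap K (AlgebraicClosure K))) x)
    (hJ : IsExp (iM k K) (P.comap (algebraMap (maxUnramified k K) (AlgebraicClosure K)))
        (algebraMap K (maxUnramified k K) x) J) (h : PH e E0 phi)
    {x0 : Y} (hx0 : phi x0 = algebraMap K (maxUnramified k K) x)
    (g : Y →+* Y) (t : C →+* C) (hgc : ∀ c, g (algebraMap C Y c) = algebraMap C Y (t c))
    (hgx : g x0 = x0) (hgP : ∀ a, PY P phi a ≤ 1 → PY P phi (g a) ≤ 1) (z : Y) :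
    mapL t (io e J phi z) = io e J phi (g z) := by
  refine HahnSeries.ext (funext fun i => ?_)
  rw [coeff_mapL]
  exact ((isExp_Y hJ h hx0).equiv (isExp_Y hJ h hx0) (ru_Y hP hx h hx0) (ru_Y hP hx h hx0).ne
    g t hgc hgx hgP z i).symm

end place

/-- the order which is used -/
def ordI (p : ℕ) : ℕ := if p = 2 then 2 else 1

theorem ordI_le (p : ℕ) : ordI p ≤ 2 := by
  unfold ordI
  split_ifs <;> omega

theorem ordI_spec (p : ℕ) [hp : Fact p.Prime] : ordI p + 1 = p ^ 0 * (ordI p + 1) ∧ 2 ≤ ordI p + 1 ∧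
    ¬ p ∣ ordI p + 1 := by
  unfold ordI
  split_ifs with h
  · subst h
    exact ⟨by norm_num, by norm_num, by norm_num⟩
  · refine ⟨by ring, by norm_num, fun hd => h ?_⟩
    exact (Nat.prime_dvd_prime_iff_eq hp.out Nat.prime_two).mp hd

section main

universe u

variable {p : ℕ} [hpF : Fact p.Prime] {k : Type*} [Field k] [CharZero k] [Algebra ℚ_[p] k]
  [FiniteDimensional ℚ_[p] k]
  {K : Type*} [Field K] [Algebra k K]
  [Algebra (RatFunc k) K] [IsScalarTower k (RatFunc k) K] [FiniteDimensional (RatFunc k) K]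
  {P : Valuation (AlgebraicClosure K) ℝ≥0} {x : K}
  {C : Type u} [NormedField C] [IsUltrametricDist C] [NormedAlgebra ℚ_[p] C]
  [Algebra.IsAlgebraic ℚ_[p] C] [CharZero C] [IsAlgClosed C]
  {Y : Type*} [Field Y] [Algebra C Y] [Algebra (RatFunc C) Y] [IsScalarTower C (RatFunc C) Y]
  [FiniteDimensional (RatFunc C) Y]
  {e : Cb k K ≃+* C}
  {E0 : IntermediateField K (AlgebraicClosure K)} {phi : Y →+* maxUnramified k K}
variable {κ Y0 : Type*} [Field κ] [Field Y0] [Algebra ℚ_[p] κ] [FiniteDimensional ℚ_[p] κ]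
  [Algebra κ C] [IsScalarTower ℚ_[p] κ C] [Algebra κ Y0] [Algebra Y0 Y] [Algebra κ Y]
  [IsScalarTower κ C Y] [IsScalarTower κ Y0 Y] [CE κ C Y0 Y]
variable {S : SSK ℚ_[p] C Y} {D : Set S.Dir}
variable {A : Type*} [Group A] [Fintype A] [MulAction A S.Ed]
variable [CharP (Ct C) p] [Algebra (ZMod p) (Ct C)] [Algebra.IsAlgebraic (ZMod p) (Ct C)]
  [Normal κ C] [IsGalois ℚ_[p] C]

set_option maxHeartbeats 1000000 in
/-- **(D)** -/
theorem concl_of_cov (hP : IsRationalPlace k K (P.comap (algebraMap K (AlgebraicClosure K))))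
    (hx : IsUniformizerAt (P.comap (algebraMap K (AlgebraicClosure K))) x)
    (he : ∀ a : ℚ_[p], e (algebraMap k (Cb k K) (algebraMap ℚ_[p] k a)) = algebraMap ℚ_[p] C a)
    [FiniteDimensional K E0] (hE0 : E0 ≤ maxUnramified k K) (h : PH e E0 phi)
    {x0 : Y0} (hx0 : phi (algebraMap Y0 Y x0) = algebraMap K (maxUnramified k K) x)
    (hfix : ∀ (g : Y ≃ₐ[Y0] Y) (a : Y), PY P phi a ≤ 1 → PY P phi (g a) ≤ 1)
    (H : Lvl S κ Y0 (⊥ : IntermediateField κ C) D)
    (cov : A →* (Y ≃ₐ[C] Y))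
    (cov_gal : ∀ (α : A) (g : Y ≃ₐ[Y0] Y) (f : Y), cov α (g f) = g (cov α f))
    (cov_v : ∀ α w, ∃ w', ∀ f, (S.nm w).v (cov α f) = (S.nm w').v f)
    (cov_e0 : ∀ (α : A) e f, f ≠ 0 → ord S (S.e0 (α • e)) (cov α f) = ord S (S.e0 e) f)
    (c : A → ℤ_[p]) (idem : ∀ α, ∑ β, c β * c (β⁻¹ * α) = c α)
    (hM3 : ∀ {F : Type u} [NontriviallyNormedField F] [NormedAlgebra ℚ_[p] F]
      [IsUltrametricDist F] [CompleteSpace F] [CharZero F] [Algebra C F] [IsScalarTower ℚ_[p] C F]
      [Algebra ℤ_[p] F] [IsScalarTower ℤ_[p] ℚ_[p] F]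
      (d : TPS p S (CE.Gam Y0 Y (⊥ : IntermediateField κ C)) A (PowerSeries F)),
      d.cov = cov → d.c = c →
      (∀ u : Tate p (Pic C Y), (∃ D : S.Dir, ∀ n, ∃ f : Y, f ≠ 0 ∧ RepK p n (u n) f ∧
        gn (th (S.em D f) * S.em D f⁻¹) ≤ ‖(p : C)‖ ^ n) → d.om u = 0) → d.OmZero)
    (hSl : ∀ lam : S.Ed → ZMod p, bdry S (ZMod p) lam = 0 →
      ∃ f : Y, f ≠ 0 ∧ (∃ x : Pl C Y →₀ ℤ, divf (k := C) f = p • x) ∧
        ∀ e, ((ord S (S.e0 e) f : ℤ) : ZMod p) = lam e)
    (hrk : 2 * finrank ℚ_[p] κ <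
      finrank ℚ_[p] (Rank_770.eker (fun α => ((c α : ℤ_[p]) : ℚ_[p])) (bdry S ℚ_[p])))
    {δ η : ℝ≥0} (hδ : 0 < δ) (hη : 0 < η) : Concl p k K P x δ η := by
  haveI hk : Fact (DiscNorm ℚ_[p]) := inferInstance
  obtain ⟨J, hJ⟩ := exists_JM hP hx
  obtain ⟨F, iF1, iF2, iF3, iF4, iF5, iF6, iF7, iF8, iF9, hσ, hd⟩ := exists_F p C
  obtain ⟨N, hN'⟩ := exists_N1 (p := p) hP hx hJ he hE0
  have hN := hN' N le_rfl h
  have hem : ∀ (g : Y ≃ₐ[Y0] Y) (z : Y) (n : ℤ),
      (emP hN (g z)).co n = CE.res κ C Y0 Y g ((emP hN z).co n) := by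
    intro g z n
    let t : C →ₐ[ℚ_[p]] C := (CE.res κ C Y0 Y g).restrictScalars ℚ_[p]
    have ht : ∀ a, ‖t a‖ = ‖a‖ := fun a =>
      norm_mapE ((CE.res κ C Y0 Y g).restrictScalars ℚ_[p]) a
    have hgc : ∀ c, (g : Y →+* Y) (algebraMap C Y c) = algebraMap C Y ((t : C →+* C) c) :=
      fun c => (CE.algebraMap_res κ C Y0 Y g c).symm
    have h1 := emP_equiv hN (g : Y →+* Y) t ht
      (fun z => io_gal hP hx hJ h hx0 (g : Y →+* Y) (t : C →+* C) hgc (g.commutes x0)
        (fun a ha => hfix g a ha) z) z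
    exact congrArg (fun f : EE ℚ_[p] C => f.co n) h1
  let k' : IntermediateField ℚ_[p] C := (⊥ : IntermediateField κ C).restrictScalars ℚ_[p]
  haveI : FiniteDimensional ℚ_[p] k' :=
    FiniteDimensional.trans ℚ_[p] κ (⊥ : IntermediateField κ C)
  obtain ⟨h1, h2, h3⟩ := ordI_spec p
  refine SD5_940.concl_of_tate hN hσ norm_p_lt_one norm_zp hP hx hJ h he hE0 hd k' h1 h2 h3
    (fun ε hε => ?_) hδ hη
  obtain ⟨s, hs, u, hu1, hu2, hu3⟩ := exists_class hk.out (emP hN) (fun c => emP_C hN hJ h c)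
    (emP_hι hN) hσ hd H cov cov_gal cov_v cov_e0 c idem hem (fun d h1 h2 h3 => hM3 d h1 h2 h3) hSl
    (ordI p) (lt_of_le_of_lt (Nat.mul_le_mul_right _ (ordI_le p)) hrk) hε
  refine ⟨s, hs, u, fun n => ?_, hu2, hu3⟩
  obtain ⟨a, ha⟩ := hu1 n
  exact ⟨algebraMap κ C a, (⊥ : IntermediateField κ C).algebraMap_mem a, ha.symm⟩

end main

end Crest.Agent.R013.Fin_928
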