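import Crest.Agent.R013.TP1_928

/-!
# R013 / C-TP (helper928), part 2: finiteness of Tate modules, Frobenius

* `Tate.finite`: `Tate p A` is finitely generated over `ℤ_[p]` if `A[p]` is finite;
* `Tate.eq_zero_of_fixed`;
* `exists_pow_smul_mem_range`;
* `Tate.surjective_of_mod`: surjectivity onto `ℤ_[p]^ι` is tested modulo `p`.
-/

set_option autoImplicit false
set_option linter.unusedSectionVars false

namespace Crest.Agent.R013.TP_928

open PadicInt

variable {p : ℕ} [hp : Fact p.Prime] {A : Type*} [AddCommGroup A]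

/-- a `p`-adic integer with prescribed digits -/
theorem exists_digits (e : ℕ → ℕ) : ∃ a : ℤ_[p], ∀ n,
    toZModPow n a = ((∑ j ∈ Finset.range n, p ^ j * e j : ℕ) : ZMod (p ^ n)) := by
  have h : ∀ i, (p : ℤ) ^ i ∣ ((∑ j ∈ Finset.range (i + 1), p ^ j * e j : ℕ) : ℤ) -
      ((∑ j ∈ Finset.range i, p ^ j * e j : ℕ) : ℤ) := fun i => by
    rw [Finset.sum_range_succ]
    push_cast
    simp
  refine ⟨PadicInt.ofIntSeq _ (PadicInt.isCauSeq_padicNorm_of_pow_dvd_sub
    (fun n => ((∑ j ∈ Finset.range n, p ^ j * e j : ℕ) : ℤ)) p h), fun n => ?_⟩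
  rw [PadicInt.toZModPow_ofIntSeq_of_pow_dvd_sub
    (fun n => ((∑ j ∈ Finset.range n, p ^ j * e j : ℕ) : ℤ)) p h n, Int.cast_natCast]

namespace Tate

theorem finite (hfin : Finite {x : A // p • x = 0}) : Module.Finite ℤ_[p] (Tate p A) := by
  classical
  have hfin' : Fintype {x : A // p • x = 0} := Fintype.ofFinite _
  -- a lift of every element which is a first component
  let g : {x : A // p • x = 0} → Tate p A := fun x =>
    if h : ∃ u : Tate p A, u 1 = x.1 then h.choose else 0
  have hg : ∀ u : Tate p A, ∃ x : {x : A // p • x = 0}, (g x) 1 = u 1 := by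
    intro u
    refine ⟨⟨u 1, by have := u.pow_smul_apply 1; simpa using this⟩, ?_⟩
    have h : ∃ v : Tate p A, v 1 = u 1 := ⟨u, rfl⟩
    have h1 : g ⟨u 1, by have := u.pow_smul_apply 1; simpa using this⟩ = h.choose := by
      simp only [g]
      rw [dif_pos h]
    rw [h1]
    exact h.choose_spec
  choose x hx using hg
  -- one step of the expansion
  let st : Tate p A → Tate p A := fun u =>
    (u - g (x u)).shift (by rw [sub_apply, hx, sub_self])
  have hst : ∀ u, u = g (x u) + p • st u := by
    intro u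
    simp only [st]
    rw [smul_shift]
    abel
  have hexp : ∀ (u : Tate p A) (n : ℕ),
      u = ∑ j ∈ Finset.range n, (p ^ j) • g (x (st^[j] u)) + (p ^ n) • (st^[n] u) := by
    intro u n
    induction n with
    | zero => simp
    | succ n ih =>
      conv_lhs => rw [ih, hst (st^[n] u)]
      rw [Finset.sum_range_succ, smul_add, pow_succ, mul_smul, Function.iterate_succ_apply']
      abel
  refine ⟨⟨Finset.univ.image g, ?_⟩⟩
  rw [eq_top_iff]
  rintro u -
  have hdig : ∀ s : {x : A // p • x = 0}, ∃ a : ℤ_[p], ∀ n, toZModPow n a =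
      ((∑ j ∈ Finset.range n, p ^ j * (if x (st^[j] u) = s then 1 else 0) : ℕ) :
        ZMod (p ^ n)) := fun s => exists_digits _
  choose a ha using hdig
  have key : u = ∑ s, a s • g s := by
    ext n
    have hsum : (∑ s, a s • g s : Tate p A) n = ∑ s, (a s • g s) n := by
      have h0 : ∀ t : Finset {x : A // p • x = 0},
          (∑ s ∈ t, a s • g s : Tate p A) n = ∑ s ∈ t, (a s • g s) n := by
        intro t
        induction t using Finset.induction_on with
        | empty => simp
        | insert b t hb ih => rw [Finset.sum_insert hb, Finset.sum_insert hb, add_apply, ih]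
      exact h0 _
    rw [hsum]
    have h1 : u n = (∑ j ∈ Finset.range n, (p ^ j) • g (x (st^[j] u)) : Tate p A) n := by
      conv_lhs => rw [hexp u n]
      rw [add_apply, nsmul_apply, pow_smul_apply, add_zero]
    have h2 : ∀ m, (∑ j ∈ Finset.range m, (p ^ j) • g (x (st^[j] u)) : Tate p A) n =
        ∑ j ∈ Finset.range m, (p ^ j) • (g (x (st^[j] u)) n) := by
      intro m
      induction m with
      | zero => simp
      | succ m ih => rw [Finset.sum_range_succ, Finset.sum_range_succ, add_apply, ih, nsmul_apply]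
    rw [h1, h2]
    have h3 : ∀ s, (a s • g s) n =
        (∑ j ∈ Finset.range n, p ^ j * (if x (st^[j] u) = s then 1 else 0)) • g s n :=
      fun s => smul_apply_of (ha s n) _
    simp_rw [h3, Finset.sum_smul]
    rw [Finset.sum_comm]
    refine Finset.sum_congr rfl fun j _ => ?_
    rw [Finset.sum_eq_single (x (st^[j] u))]
    · simp
    · intro b _ hb
      rw [if_neg (Ne.symm hb)]
      simp
    · simp
  rw [key]
  exact Submodule.sum_mem _ fun s _ => Submodule.smul_mem _ _
    (Submodule.subset_span (by simp))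

/-- fixed vectors of an endomorphism with finitely many fixed points -/
theorem eq_zero_of_fixed {f : A →+ A} (hfin : {x : A | f x = x ∧ ∃ n, (p ^ n) • x = 0}.Finite)
    {u : Tate p A} (h : Tate.map f u = u) : u = 0 := by
  have hex : ∀ x : A, ∃ n : ℕ, x ∈ {x : A | f x = x ∧ ∃ n, (p ^ n) • x = 0} →
      (p ^ n) • x = 0 := by
    intro x
    by_cases hx : ∃ n, (p ^ n) • x = 0
    · obtain ⟨n, hn⟩ := hx
      exact ⟨n, fun _ => hn⟩
    · exact ⟨0, fun h => absurd h.2 hx⟩
  choose e he using hex
  obtain ⟨N, hN⟩ : ∃ N, ∀ x ∈ {x : A | f x = x ∧ ∃ n, (p ^ n) • x = 0}, (p ^ N) • x = 0 := by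
    refine ⟨hfin.toFinset.sup e, fun x hx => ?_⟩
    have h1 : e x ≤ hfin.toFinset.sup e := Finset.le_sup (f := e) (by simpa using hx)
    rw [← Nat.sub_add_cancel h1, pow_add, mul_smul, he x hx, smul_zero]
  ext n
  rw [← u.pow_smul_apply_add n N, zero_apply]
  refine hN _ ⟨?_, _, u.pow_smul_apply _⟩
  rw [← map_apply, h]

end Tate

/-- an injective endomorphism of a lattice has finite cokernel -/
theorem exists_pow_smul_mem_range {N : Type*} [AddCommGroup N] [Module ℤ_[p] N]
    [Module.Finite ℤ_[p] N] [Module.IsTorsionFree ℤ_[p] N] (f : N →ₗ[ℤ_[p]] N)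
    (hf : Function.Injective f) :
    ∃ c : ℕ, ∀ x : N, ((p : ℤ_[p]) ^ c) • x ∈ LinearMap.range f := by
  classical
  have hfree : Module.Free ℤ_[p] N := inferInstance
  let b := Module.finBasis ℤ_[p] N
  let M := LinearMap.toMatrix b b f
  have hdet : M.det ≠ 0 := by
    intro h0
    obtain ⟨v, hv, h1⟩ := Matrix.exists_mulVec_eq_zero_iff.mpr h0
    apply hv
    have h2 : f (b.equivFun.symm v) = 0 := by
      apply b.equivFun.injective
      rw [map_zero]
      have h3 := LinearMap.toMatrix_mulVec_repr b b f (b.equivFun.symm v)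
      have h4 : (b.repr (b.equivFun.symm v) : _ → ℤ_[p]) = v := by
        exact b.equivFun.apply_symm_apply v
      rw [h4] at h3
      rw [Module.Basis.equivFun_apply, ← h3]
      exact h1
    have h3 := hf (h2.trans (map_zero f).symm)
    rw [← b.equivFun.apply_symm_apply v, h3, map_zero]
  refine ⟨M.det.valuation, fun x => ?_⟩
  have h1 : M.det • x ∈ LinearMap.range f := by
    let g : N →ₗ[ℤ_[p]] N := Matrix.toLin b b M.adjugate
    refine ⟨g x, ?_⟩
    have h2 : f ∘ₗ g = M.det • LinearMap.id := by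
      apply (LinearMap.toMatrix b b).injective
      rw [LinearMap.toMatrix_comp b b b, LinearMap.toMatrix_toLin, Matrix.mul_adjugate,
        map_smul, LinearMap.toMatrix_id]
    have h3 := congrArg (fun l : N →ₗ[ℤ_[p]] N => l x) h2
    simpa using h3
  rw [PadicInt.unitCoeff_spec hdet, mul_comm, mul_smul] at h1
  have h2 : (((PadicInt.unitCoeff hdet)⁻¹ : ℤ_[p]ˣ) : ℤ_[p]) •
      (((p : ℤ_[p]) ^ M.det.valuation) • ((PadicInt.unitCoeff hdet : ℤ_[p]ˣ) : ℤ_[p]) • x) ∈
        LinearMap.range f := Submodule.smul_mem _ _ h1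
  rw [smul_comm (((PadicInt.unitCoeff hdet)⁻¹ : ℤ_[p]ˣ) : ℤ_[p]), smul_smul
    (((PadicInt.unitCoeff hdet)⁻¹ : ℤ_[p]ˣ) : ℤ_[p])] at h2
  simpa using h2

/-- surjectivity onto `ℤ_[p]^ι` can be tested modulo `p` -/
theorem surjective_of_mod {T : Type*} [AddCommGroup T] [Module ℤ_[p] T] {ι : Type*} [Finite ι]
    (L : T →ₗ[ℤ_[p]] (ι → ℤ_[p]))
    (h : ∀ a : ι → ZMod p, ∃ u : T, ∀ i, toZMod (L u i) = a i) : Function.Surjective L := by
  classical
  have hι : Fintype ι := Fintype.ofFinite ι
  rw [← LinearMap.range_eq_top, eq_top_iff]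
  refine Submodule.le_of_le_smul_of_le_jacobson_bot (I := Ideal.span {(p : ℤ_[p])})
    (Module.Finite.fg_top) ?_ ?_
  · rw [IsLocalRing.jacobson_eq_maximalIdeal _ bot_ne_top, PadicInt.maximalIdeal_eq_span_p]
  · rintro a -
    obtain ⟨u, hu⟩ := h (fun i => toZMod (a i))
    have h1 : ∀ i, ∃ b : ℤ_[p], a i - L u i = p * b := by
      intro i
      have : a i - L u i ∈ RingHom.ker (toZMod (p := p)) := by
        rw [RingHom.mem_ker, map_sub, hu, sub_self]
      rw [PadicInt.ker_toZMod, PadicInt.maximalIdeal_eq_span_p] at this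
      exact Ideal.mem_span_singleton.mp this
    choose b hb using h1
    have h2 : a = L u + (p : ℤ_[p]) • b := by
      funext i
      simp only [Pi.add_apply, Pi.smul_apply, smul_eq_mul, ← hb]
      ring
    rw [h2]
    refine Submodule.add_mem_sup (LinearMap.mem_range_self L u) ?_
    exact Submodule.smul_mem_smul (Ideal.mem_span_singleton_self _) Submodule.mem_top

end Crest.Agent.R013.TP_928
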