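import Crest.Agent.R013.TP2_928

/-!
# R013 / C-TP (helper928), part 3: slopes and reductions on the Tate module of a class group

`δ : E →+ D` ("divisor of a function"), `P` = principal divisors.  For `u` in `Tate p (D ⧸ P)`
a representative at level `n` is `e : E` with `δ e = p^n • x`, `x` in the class `u n`.
* `slope ρ : Tate p (D ⧸ P) →ₗ[ℤ_[p]] ℤ_[p]` for `ρ : E →+ ℤ` trivial on constants;
* `T0 r` = classes whose representatives have `r e ∈ p^n D'`, `red r : T0 r → Tate p (D' ⧸ P')`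
  for `r : E →+ D'` trivial on constants with values in `P'`.
-/

set_option autoImplicit false
set_option linter.unusedSectionVars false

namespace Crest.Agent.R013.TP_928

open PadicInt

variable {p : ℕ} [hp : Fact p.Prime]
variable {E D : Type*} [AddCommGroup E] [AddCommGroup D]

/-- `e` represents the class `z` at level `n` -/
def Rep (p : ℕ) (δ : E →+ D) (P : AddSubgroup D) (n : ℕ) (z : D ⧸ P) (e : E) : Prop :=
  ∃ x : D, (x : D ⧸ P) = z ∧ δ e = (p ^ n) • x

section rep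

variable {δ : E →+ D} {P : AddSubgroup D} (hP : ∀ d, d ∈ P ↔ ∃ e, δ e = d)

include hP in
theorem exists_rep {n : ℕ} {z : D ⧸ P} (hz : (p ^ n) • z = 0) : ∃ e, Rep p δ P n z e := by
  obtain ⟨x, rfl⟩ := QuotientAddGroup.mk_surjective z
  have h1 : (((p ^ n) • x : D) : D ⧸ P) = 0 := by
    rw [QuotientAddGroup.mk_nsmul]
    exact hz
  rw [QuotientAddGroup.eq_zero_iff, hP] at h1
  obtain ⟨e, he⟩ := h1
  exact ⟨e, x, rfl, he⟩

theorem Rep.add {n : ℕ} {z z' : D ⧸ P} {e e' : E} (h : Rep p δ P n z e) (h' : Rep p δ P n z' e') :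
    Rep p δ P n (z + z') (e + e') := by
  obtain ⟨x, rfl, hx⟩ := h
  obtain ⟨y, rfl, hy⟩ := h'
  exact ⟨x + y, by rw [QuotientAddGroup.mk_add], by rw [map_add, hx, hy, smul_add]⟩

theorem Rep.smul {n : ℕ} {z : D ⧸ P} {e : E} (h : Rep p δ P n z e) (m : ℕ) :
    Rep p δ P n (m • z) (m • e) := by
  obtain ⟨x, rfl, hx⟩ := h
  exact ⟨m • x, by rw [QuotientAddGroup.mk_nsmul], by rw [map_nsmul, hx, smul_comm]⟩

theorem Rep.neg {n : ℕ} {z : D ⧸ P} {e : E} (h : Rep p δ P n z e) :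
    Rep p δ P n (-z) (-e) := by
  obtain ⟨x, rfl, hx⟩ := h
  exact ⟨-x, by rw [QuotientAddGroup.mk_neg], by rw [map_neg, hx, smul_neg]⟩

theorem Rep.sub {n : ℕ} {z z' : D ⧸ P} {e e' : E} (h : Rep p δ P n z e) (h' : Rep p δ P n z' e') :
    Rep p δ P n (z - z') (e - e') := by
  rw [sub_eq_add_neg, sub_eq_add_neg]
  exact h.add h'.neg

theorem rep_zero {n : ℕ} : Rep p δ P n 0 0 := ⟨0, rfl, by simp⟩

variable [IsAddTorsionFree D]

include hP in
/-- two representatives differ by a constant and a `p^n`-th power -/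
theorem Rep.exists_sub {n : ℕ} {z : D ⧸ P} {e e' : E} (h : Rep p δ P n z e)
    (h' : Rep p δ P n z e') : ∃ c f, δ c = 0 ∧ e' = e + c + (p ^ n) • f := by
  obtain ⟨x, rfl, hx⟩ := h
  obtain ⟨y, hy1, hy⟩ := h'
  rw [QuotientAddGroup.eq, hP] at hy1
  obtain ⟨f, hf⟩ := hy1
  refine ⟨e' - e + (p ^ n) • f, -f, ?_, ?_⟩
  · rw [map_add, map_sub, map_nsmul, hf, hx, hy, smul_add, smul_neg]
    abel
  · rw [smul_neg]
    abel

include hP in
/-- representatives at consecutive levels -/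
theorem Rep.exists_succ {n : ℕ} {z : D ⧸ P} {e e' : E} (h : Rep p δ P n (p • z) e)
    (h' : Rep p δ P (n + 1) z e') : ∃ c f, δ c = 0 ∧ e' = e + c + (p ^ n) • f := by
  refine Rep.exists_sub hP h ?_
  obtain ⟨y, rfl, hy⟩ := h'
  exact ⟨p • y, by rw [QuotientAddGroup.mk_nsmul], by rw [hy, pow_succ, mul_smul]⟩

/-- a representative at level `n + m` of `z` is a representative at level `n` of `p^m z` -/
theorem Rep.down {n m : ℕ} {z : D ⧸ P} {e : E} (h : Rep p δ P (n + m) z e) :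
    Rep p δ P n ((p ^ m) • z) e := by
  obtain ⟨y, rfl, hy⟩ := h
  exact ⟨(p ^ m) • y, by rw [QuotientAddGroup.mk_nsmul], by rw [hy, pow_add, mul_smul]⟩

end rep

section slope

variable (δ : E →+ D) (P : AddSubgroup D) (hP : ∀ d, d ∈ P ↔ ∃ e, δ e = d)
  [IsAddTorsionFree D] (ρ : E →+ ℤ) (hρ : ∀ c, δ c = 0 → ρ c = 0)

include hP hρ in
theorem exists_slope (u : Tate p (D ⧸ P)) : ∃ a : ℤ_[p], ∀ n e, Rep p δ P n (u n) e →
    toZModPow n a = ((ρ e : ℤ) : ZMod (p ^ n)) := by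
  choose e he using fun n => exists_rep (p := p) hP (u.pow_smul_apply n)
  have hc : ∀ {n : ℕ} {a b : E}, (∃ c f, δ c = 0 ∧ b = a + c + (p ^ n) • f) →
      (p : ℤ) ^ n ∣ ρ b - ρ a := by
    rintro n a b ⟨c, f, h1, rfl⟩
    rw [map_add, map_add, hρ c h1, map_nsmul]
    exact ⟨ρ f, by simp⟩
  have h : ∀ i, (p : ℤ) ^ i ∣ ρ (e (i + 1)) - ρ (e i) := fun i => hc
    (Rep.exists_succ hP (by rw [u.apply_succ]; exact he i) (he (i + 1)))
  refine ⟨PadicInt.ofIntSeq _ (PadicInt.isCauSeq_padicNorm_of_pow_dvd_sub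
    (fun n => ρ (e n)) p h), fun n a ha => ?_⟩
  rw [PadicInt.toZModPow_ofIntSeq_of_pow_dvd_sub (fun n => ρ (e n)) p h n]
  have h1 := hc (Rep.exists_sub hP (he n) ha)
  rw [ZMod.intCast_eq_intCast_iff_dvd_sub]
  exact_mod_cast h1

/-- the slope of a vector of the Tate module -/
noncomputable def slope : Tate p (D ⧸ P) →ₗ[ℤ_[p]] ℤ_[p] where
  toFun u := (exists_slope δ P hP ρ hρ u).choose
  map_add' u v := by
    rw [← ext_of_toZModPow]
    intro n
    obtain ⟨e, he⟩ := exists_rep (p := p) hP (u.pow_smul_apply n)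
    obtain ⟨f, hf⟩ := exists_rep (p := p) hP (v.pow_smul_apply n)
    rw [map_add, (exists_slope δ P hP ρ hρ u).choose_spec n e he,
      (exists_slope δ P hP ρ hρ v).choose_spec n f hf,
      (exists_slope δ P hP ρ hρ (u + v)).choose_spec n (e + f) (he.add hf)]
    simp
  map_smul' a u := by
    rw [← ext_of_toZModPow]
    intro n
    obtain ⟨e, he⟩ := exists_rep (p := p) hP (u.pow_smul_apply n)
    rw [RingHom.id_apply, smul_eq_mul, map_mul,
      (exists_slope δ P hP ρ hρ u).choose_spec n e he,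
      (exists_slope δ P hP ρ hρ (a • u)).choose_spec n (rp a n • e) (he.smul (rp a n)),
      map_nsmul, ← natCast_rp a n]
    simp

theorem slope_spec (u : Tate p (D ⧸ P)) {n : ℕ} {e : E} (he : Rep p δ P n (u n) e) :
    toZModPow n (slope δ P hP ρ hρ u) = ((ρ e : ℤ) : ZMod (p ^ n)) :=
  (exists_slope δ P hP ρ hρ u).choose_spec n e he

theorem slope_eq_zero_iff (u : Tate p (D ⧸ P)) : slope δ P hP ρ hρ u = 0 ↔
    ∀ n e, Rep p δ P n (u n) e → (p : ℤ) ^ n ∣ ρ e := by
  constructor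
  · intro h n e he
    have h1 := slope_spec δ P hP ρ hρ u he
    rw [h, map_zero] at h1
    have h2 := (ZMod.intCast_zmod_eq_zero_iff_dvd (ρ e) (p ^ n)).mp h1.symm
    exact_mod_cast h2
  · intro h
    rw [← ext_of_toZModPow]
    intro n
    obtain ⟨e, he⟩ := exists_rep (p := p) hP (u.pow_smul_apply n)
    rw [slope_spec δ P hP ρ hρ u he, map_zero, ZMod.intCast_zmod_eq_zero_iff_dvd]
    exact_mod_cast h n e he

end slope

section red

variable (δ : E →+ D) (P : AddSubgroup D) (hP : ∀ d, d ∈ P ↔ ∃ e, δ e = d)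
  [IsAddTorsionFree D] {D' : Type*} [AddCommGroup D'] [IsAddTorsionFree D']
  (P' : AddSubgroup D') (r : E →+ D') (hr : ∀ c, δ c = 0 → r c = 0) (hrP : ∀ e, r e ∈ P')

/-- classes with all reductions divisible by `p^n` -/
noncomputable def T0 (p : ℕ) [Fact p.Prime] (δ : E →+ D) (P : AddSubgroup D)
    (hP : ∀ d, d ∈ P ↔ ∃ e, δ e = d) (r : E →+ D')
    (hr : ∀ c, δ c = 0 → r c = 0) : Submodule ℤ_[p] (Tate p (D ⧸ P)) where
  carrier := {u | ∀ n e, Rep p δ P n (u n) e → ∃ y, r e = (p ^ n) • y}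
  zero_mem' := by
    intro n e he
    obtain ⟨c, f, h1, h2⟩ := Rep.exists_sub hP (rep_zero (p := p) (δ := δ) (P := P) (n := n)) he
    exact ⟨r f, by rw [h2, map_add, map_add, hr c h1, map_zero, map_nsmul]; simp⟩
  add_mem' := by
    intro u v hu hv n e he
    obtain ⟨a, ha⟩ := exists_rep (p := p) hP (u.pow_smul_apply n)
    obtain ⟨b, hb⟩ := exists_rep (p := p) hP (v.pow_smul_apply n)
    obtain ⟨c, f, h1, h2⟩ := Rep.exists_sub hP (ha.add hb) he
    obtain ⟨y, hy⟩ := hu n a ha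
    obtain ⟨z, hz⟩ := hv n b hb
    exact ⟨y + z + r f, by
      rw [h2, map_add, map_add, map_add, hr c h1, map_nsmul, hy, hz]
      simp [smul_add]⟩
  smul_mem' := by
    intro m u hu n e he
    obtain ⟨a, ha⟩ := exists_rep (p := p) hP (u.pow_smul_apply n)
    obtain ⟨c, f, h1, h2⟩ := Rep.exists_sub hP (ha.smul (rp m n)) he
    obtain ⟨y, hy⟩ := hu n a ha
    exact ⟨rp m n • y + r f, by
      rw [h2, map_add, map_add, hr c h1, map_nsmul, map_nsmul, hy, smul_add, smul_comm, add_zero]⟩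

variable {P'} {r}

theorem mem_T0_iff (u : Tate p (D ⧸ P)) : u ∈ T0 p δ P hP r hr ↔
    ∀ n e, Rep p δ P n (u n) e → ∃ y, r e = (p ^ n) • y := Iff.rfl

/-- membership is tested on one representative at each level -/
theorem mem_T0_of (u : Tate p (D ⧸ P))
    (h : ∀ n, ∃ e, Rep p δ P n (u n) e ∧ ∃ y, r e = (p ^ n) • y) : u ∈ T0 p δ P hP r hr := by
  intro n e he
  obtain ⟨a, ha, y, hy⟩ := h n
  obtain ⟨c, f, h1, h2⟩ := Rep.exists_sub hP ha he
  exact ⟨y + r f, by rw [h2, map_add, map_add, hr c h1, map_nsmul, hy]; simp [smul_add]⟩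

include hr hrP in
theorem exists_red {u : Tate p (D ⧸ P)} (hu : u ∈ T0 p δ P hP r hr) :
    ∃ v : Tate p (D' ⧸ P'), ∀ n e y, Rep p δ P n (u n) e → r e = (p ^ n) • y →
      v n = (y : D' ⧸ P') := by
  choose e he using fun n => exists_rep (p := p) hP (u.pow_smul_apply n)
  choose y hy using fun n => hu n (e n) (he n)
  have inj : ∀ {n : ℕ} {a b : D'}, (p ^ n) • a = (p ^ n) • b → a = b := by
    intro n a b hab
    exact IsAddTorsionFree.nsmul_right_injective (pow_ne_zero _ hp.out.ne_zero) hab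
  have key : ∀ {n : ℕ} {a b : E} {s t : D'}, (∃ c f, δ c = 0 ∧ b = a + c + (p ^ n) • f) →
      r a = (p ^ n) • s → r b = (p ^ n) • t → (t : D' ⧸ P') = s := by
    rintro n a b s t ⟨c, f, h1, rfl⟩ h2 h3
    rw [map_add, map_add, hr c h1, add_zero, map_nsmul, h2, ← smul_add] at h3
    rw [← inj h3, QuotientAddGroup.mk_add]
    have : ((r f : D') : D' ⧸ P') = 0 := (QuotientAddGroup.eq_zero_iff _).mpr (hrP f)
    rw [this, add_zero]
  refine ⟨Tate.mk (fun n => (y n : D' ⧸ P')) ?_ ?_, ?_⟩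
  · have h1 : r (e 0) = y 0 := by simpa using hy 0
    rw [← h1]
    exact (QuotientAddGroup.eq_zero_iff _).mpr (hrP _)
  · intro n
    rw [← QuotientAddGroup.mk_nsmul]
    refine key (Rep.exists_succ hP (by rw [u.apply_succ]; exact he n) (he (n + 1))) (hy n) ?_
    rw [hy (n + 1), pow_succ, mul_smul]
  · intro n a z ha hz
    rw [Tate.mk_apply]
    exact (key (Rep.exists_sub hP (he n) ha) (hy n) hz).symm

/-- the reduction on the Tate module -/
noncomputable def red (hrP : ∀ e, r e ∈ P') :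
    T0 p δ P hP r hr →ₗ[ℤ_[p]] Tate p (D' ⧸ P') where
  toFun u := (exists_red δ P hP hr hrP u.2).choose
  map_add' u v := by
    ext n
    obtain ⟨a, ha⟩ := exists_rep (p := p) hP ((u : Tate p (D ⧸ P)).pow_smul_apply n)
    obtain ⟨b, hb⟩ := exists_rep (p := p) hP ((v : Tate p (D ⧸ P)).pow_smul_apply n)
    obtain ⟨y, hy⟩ := u.2 n a ha
    obtain ⟨z, hz⟩ := v.2 n b hb
    rw [Tate.add_apply, (exists_red δ P hP hr hrP u.2).choose_spec n a y ha hy,
      (exists_red δ P hP hr hrP v.2).choose_spec n b z hb hz,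
      (exists_red δ P hP hr hrP (u + v).2).choose_spec n (a + b) (y + z) (ha.add hb)
        (by rw [map_add, hy, hz, smul_add]), QuotientAddGroup.mk_add]
  map_smul' m u := by
    ext n
    obtain ⟨a, ha⟩ := exists_rep (p := p) hP ((u : Tate p (D ⧸ P)).pow_smul_apply n)
    obtain ⟨y, hy⟩ := u.2 n a ha
    rw [RingHom.id_apply, Tate.smul_apply, (exists_red δ P hP hr hrP u.2).choose_spec n a y ha hy,
      (exists_red δ P hP hr hrP (m • u).2).choose_spec n (rp m n • a) (rp m n • y)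
        (ha.smul (rp m n)) (by rw [map_nsmul, hy, smul_comm]), QuotientAddGroup.mk_nsmul]

theorem red_spec (hrP : ∀ e, r e ∈ P') (u : T0 p δ P hP r hr) {n : ℕ} {e : E} {y : D'}
    (he : Rep p δ P n ((u : Tate p (D ⧸ P)) n) e) (hy : r e = (p ^ n) • y) :
    red δ P hP hr hrP u n = (y : D' ⧸ P') :=
  (exists_red δ P hP hr hrP u.2).choose_spec n e y he hy

/-- kernel of the reduction: the reduction of a representative is `p^n` times a principal
divisor -/
theorem red_eq_zero_iff (hrP : ∀ e, r e ∈ P') (u : T0 p δ P hP r hr) :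
    red δ P hP hr hrP u = 0 ↔ ∀ n e, Rep p δ P n ((u : Tate p (D ⧸ P)) n) e →
      ∃ y ∈ P', r e = (p ^ n) • y := by
  constructor
  · intro h n e he
    obtain ⟨y, hy⟩ := u.2 n e he
    refine ⟨y, ?_, hy⟩
    have h1 := red_spec δ P hP hr hrP u he hy
    rw [h, Tate.zero_apply] at h1
    exact (QuotientAddGroup.eq_zero_iff _).mp h1.symm
  · intro h
    ext n
    obtain ⟨e, he⟩ := exists_rep (p := p) hP ((u : Tate p (D ⧸ P)).pow_smul_apply n)
    obtain ⟨y, hy1, hy2⟩ := h n e he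
    rw [red_spec δ P hP hr hrP u he hy2, Tate.zero_apply]
    exact (QuotientAddGroup.eq_zero_iff _).mpr hy1

end red

end Crest.Agent.R013.TP_928
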