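import Crest.Agent.R013.TP3_928

/-!
# R013 / C-TP (helper928), part 4: Frobenius correction and invariant forms

* `correct`: the Frobenius correction `u' = p^c u - u0`;
* `TPData`, `TPData.forms`: the space of invariant forms.
-/

set_option autoImplicit false
set_option linter.unusedSectionVars false

namespace Crest.Agent.R013.TP_928

open PadicInt Module

variable {p : ℕ} [hp : Fact p.Prime]

/-- **Frobenius correction.** -/
theorem correct {T N : Type*} [AddCommGroup T] [Module ℤ_[p] T] [AddCommGroup N]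
    [Module ℤ_[p] N] [Module.Finite ℤ_[p] N] [Module.IsTorsionFree ℤ_[p] N]
    (T0 : Submodule ℤ_[p] T) (s : T0 →ₗ[ℤ_[p]] N) (fT : T →ₗ[ℤ_[p]] T) (fN : N →ₗ[ℤ_[p]] N)
    (h1 : ∀ u, fT u - u ∈ T0)
    (hs : ∀ (w : T0) (hw : fT w ∈ T0), s ⟨fT w, hw⟩ = fN (s w))
    (hinj : ∀ x, fN x = x → x = 0) :
    ∃ c : ℕ, ∀ u : T, ∃ u0 : T0,
      s ⟨fT ((p ^ c) • u - u0) - ((p ^ c) • u - u0), h1 _⟩ = 0 := by
  classical
  have hstab : ∀ w : T0, fT w ∈ T0 := fun w => by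
    have := T0.add_mem (h1 w) w.2
    simpa using this
  let U0 := LinearMap.range s
  have hU0 : ∀ x ∈ U0, fN x - x ∈ U0 := by
    rintro _ ⟨w, rfl⟩
    refine ⟨⟨fT w, hstab w⟩ - w, ?_⟩
    rw [map_sub, hs]
  let g : U0 →ₗ[ℤ_[p]] U0 := (fN - LinearMap.id).restrict (p := U0) (q := U0) (by
    intro x hx
    simpa using hU0 x hx)
  have hg : Function.Injective g := by
    rw [← LinearMap.ker_eq_bot, LinearMap.ker_eq_bot']
    intro x hx
    have h2 : fN x - x = 0 := by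
      have := congrArg Subtype.val hx
      simpa [g] using this
    exact Subtype.ext (hinj _ (sub_eq_zero.mp h2))
  have hNn : IsNoetherian ℤ_[p] N := isNoetherian_of_isNoetherianRing_of_finite _ _
  obtain ⟨c, hc⟩ := exists_pow_smul_mem_range g hg
  refine ⟨c, fun u => ?_⟩
  let w : T0 := ⟨fT u - u, h1 u⟩
  obtain ⟨x, hx⟩ := hc ⟨s w, ⟨w, rfl⟩⟩
  obtain ⟨u0, hu0⟩ := x.2
  refine ⟨u0, ?_⟩
  have h3 : fN (s u0) - s u0 = ((p : ℤ_[p]) ^ c) • s w := by
    have := congrArg Subtype.val hx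
    simp only [g, LinearMap.coe_restrict_apply, LinearMap.sub_apply, LinearMap.id_apply,
      Submodule.coe_smul] at this
    rw [hu0]
    exact this
  have h4 : (⟨fT ((p ^ c) • u - u0) - ((p ^ c) • u - u0), h1 _⟩ : T0) =
      (p ^ c) • w - (⟨fT u0, hstab u0⟩ - u0) := by
    apply Subtype.ext
    simp only [w, map_sub, map_nsmul, Submodule.coe_sub, Submodule.coe_smul_of_tower, smul_sub]
    abel
  rw [h4, map_sub, map_sub, map_nsmul, hs, h3, ← Nat.cast_pow, Nat.cast_smul_eq_nsmul, sub_self]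

/-- the input of the theorem on invariant forms -/
structure TPData (p : ℕ) [Fact p.Prime] (T N W G : Type*) [AddCommGroup T] [Module ℤ_[p] T]
    [AddCommGroup N] [Module ℤ_[p] N] [AddCommGroup W] [Module ℤ_[p] W] where
  /-- action of the Galois group on the Tate module -/
  gT : G → T →ₗ[ℤ_[p]] T
  /-- action of the Galois group on the forms -/
  gW : G → W →ₗ[ℤ_[p]] W
  /-- classes with zero slopes -/
  T0 : Submodule ℤ_[p] T
  /-- reduction -/
  s : T0 →ₗ[ℤ_[p]] N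
  /-- Frobenius -/
  fT : T →ₗ[ℤ_[p]] T
  fN : N →ₗ[ℤ_[p]] N
  fT_sub : ∀ u, fT u - u ∈ T0
  s_fT : ∀ (w : T0) (hw : fT w ∈ T0), s ⟨fT w, hw⟩ = fN (s w)
  fN_inj : ∀ x, fN x = x → x = 0
  /-- slopes are Galois invariant -/
  gT_sub : ∀ g u, gT g u - u ∈ T0
  /-- a vector which is Frobenius invariant modulo `ker s` is Galois invariant modulo `ker s` -/
  gen : ∀ u, s ⟨fT u - u, fT_sub u⟩ = 0 → ∀ g, s ⟨gT g u - u, gT_sub g u⟩ = 0
  /-- the idempotent -/
  e : T →ₗ[ℤ_[p]] T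
  e_e : ∀ u, e (e u) = e u
  e_T0 : ∀ w ∈ T0, e w ∈ T0
  e_fT : ∀ u, e (fT u) = fT (e u)
  e_s : ∀ (w : T0), s w = 0 → s ⟨e w, e_T0 w w.2⟩ = 0
  /-- the forms -/
  om : T →ₗ[ℤ_[p]] W
  om_gT : ∀ g u, om (gT g u) = gW g (om u)
  e_gT : ∀ g u, e (gT g u) = gT g (e u)
  /-- (M3) -/
  om_zero : ∀ (w : T0), e (w : T) = w → s w = 0 → om (w : T) = 0
  /-- (NC) -/
  om_inj : ∀ u, e u = u → om u = 0 → u ∈ T0

namespace TPData

variable {T N W G : Type*} [AddCommGroup T] [Module ℤ_[p] T]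
    [AddCommGroup N] [Module ℤ_[p] N] [AddCommGroup W] [Module ℤ_[p] W]
    [Module.Finite ℤ_[p] N] [Module.IsTorsionFree ℤ_[p] N]
    (d : TPData p T N W G)

/-- the classes in the `e`-part which are invariant modulo the kernel of the reduction -/
def M : Submodule ℤ_[p] T where
  carrier := {u | d.e u = u ∧ d.s ⟨d.fT u - u, d.fT_sub u⟩ = 0}
  zero_mem' := ⟨map_zero _, by
    have : (⟨d.fT 0 - 0, d.fT_sub 0⟩ : d.T0) = 0 := Subtype.ext (by simp)
    rw [this, map_zero]⟩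
  add_mem' := by
    rintro u v ⟨h1, h2⟩ ⟨h3, h4⟩
    refine ⟨by rw [map_add, h1, h3], ?_⟩
    have : (⟨d.fT (u + v) - (u + v), d.fT_sub _⟩ : d.T0) =
        ⟨d.fT u - u, d.fT_sub u⟩ + ⟨d.fT v - v, d.fT_sub v⟩ := Subtype.ext (by simp; abel)
    rw [this, map_add, h2, h4, add_zero]
  smul_mem' := by
    rintro a u ⟨h1, h2⟩
    refine ⟨by rw [map_smul, h1], ?_⟩
    have : (⟨d.fT (a • u) - a • u, d.fT_sub _⟩ : d.T0) =
        a • ⟨d.fT u - u, d.fT_sub u⟩ := Subtype.ext (by simp [smul_sub])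
    rw [this, map_smul, h2, smul_zero]

/-- elements of `M` have Galois invariant forms -/
theorem om_fixed {u : T} (hu : u ∈ d.M) (g : G) : d.gW g (d.om u) = d.om u := by
  rw [← d.om_gT, ← sub_eq_zero, ← map_sub]
  have h1 : d.e (d.gT g u - u) = d.gT g u - u := by rw [map_sub, d.e_gT, hu.1]
  exact d.om_zero ⟨_, d.gT_sub g u⟩ h1 (d.gen u hu.2 g)

/-- on `M` the form vanishes iff the slope vanishes -/
theorem om_eq_zero_iff {u : T} (hu : u ∈ d.M) : d.om u = 0 ↔ u ∈ d.T0 := by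
  refine ⟨d.om_inj u hu.1, fun h => ?_⟩
  have hf : d.fT u ∈ d.T0 := by
    have := d.T0.add_mem (d.fT_sub u) h
    simpa using this
  refine d.om_zero ⟨u, h⟩ hu.1 (d.fN_inj _ ?_)
  have h1 := hu.2
  have h2 : (⟨d.fT u - u, d.fT_sub u⟩ : d.T0) = ⟨d.fT u, hf⟩ - ⟨u, h⟩ := Subtype.ext rfl
  rw [h2, map_sub, sub_eq_zero] at h1
  exact (d.s_fT ⟨u, h⟩ hf).symm.trans h1

/-- every element of the `e`-part is, up to `p^c` and zero slope classes, in `M` -/
theorem exists_mem_M : ∃ c : ℕ, ∀ u : T, d.e u = u → ∃ v ∈ d.M, (p ^ c) • u - v ∈ d.T0 := by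
  obtain ⟨c, hc⟩ := correct d.T0 d.s d.fT d.fN d.fT_sub d.s_fT d.fN_inj
  refine ⟨c, fun u hu => ?_⟩
  obtain ⟨u0, h0⟩ := hc u
  refine ⟨d.e ((p ^ c) • u - u0), ⟨d.e_e _, ?_⟩, ?_⟩
  · have h1 := d.e_s _ h0
    have h2 : (⟨d.fT (d.e ((p ^ c) • u - u0)) - d.e ((p ^ c) • u - u0), d.fT_sub _⟩ : d.T0) =
        ⟨d.e (d.fT ((p ^ c) • u - u0) - ((p ^ c) • u - u0)),
          d.e_T0 _ (d.fT_sub ((p ^ c) • u - u0))⟩ := by
      apply Subtype.ext
      change d.fT (d.e ((p ^ c) • u - u0)) - d.e ((p ^ c) • u - u0) =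
        d.e (d.fT ((p ^ c) • u - u0) - ((p ^ c) • u - u0))
      rw [map_sub d.e (d.fT ((p ^ c) • u - u0)), d.e_fT]
    rw [h2]
    exact h1
  · have h1 : (p ^ c) • u - d.e ((p ^ c) • u - u0) = d.e u0 := by
      rw [map_sub, map_nsmul, hu]
      abel
    rw [h1]
    exact d.e_T0 _ u0.2

end TPData

/-- rank over `ℚ_[p]` of the span of a `ℤ_[p]`-submodule: linear independence -/
theorem linearIndependent_padic {W : Type*} [AddCommGroup W] [Module ℚ_[p] W] [Module ℤ_[p] W]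
    [IsScalarTower ℤ_[p] ℚ_[p] W] {ι : Type*} {b : ι → W} :
    LinearIndependent ℤ_[p] b ↔ LinearIndependent ℚ_[p] b :=
  LinearIndependent.iff_fractionRing ℤ_[p] ℚ_[p]

namespace TPData

variable {T N W G : Type*} [AddCommGroup T] [Module ℤ_[p] T]
    [AddCommGroup N] [Module ℤ_[p] N] [AddCommGroup W] [Module ℚ_[p] W] [Module ℤ_[p] W]
    [IsScalarTower ℤ_[p] ℚ_[p] W]
    [Module.Finite ℤ_[p] N] [Module.IsTorsionFree ℤ_[p] N]
    (d : TPData p T N W G)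

/-- **Invariant forms.** `slope : T → L` with kernel `T0`; the slopes `lam i` of elements of the
`e`-part linearly independent.  Then there is a space of invariant forms of dimension `≥ |ι|`. -/
theorem forms {L : Type*} [AddCommGroup L] [Module ℤ_[p] L] (slope : T →ₗ[ℤ_[p]] L)
    (hslope : ∀ u, slope u = 0 ↔ u ∈ d.T0) {ι : Type*} (u : ι → T)
    (hu : ∀ i, d.e (u i) = u i) (hli : LinearIndependent ℤ_[p] (fun i => slope (u i))) :
    ∃ v : ι → T, (∀ i, v i ∈ d.M) ∧ LinearIndependent ℚ_[p] (fun i => d.om (v i)) := by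
  obtain ⟨c, hc⟩ := d.exists_mem_M
  choose v hv1 hv2 using fun i => hc (u i) (hu i)
  refine ⟨v, hv1, ?_⟩
  rw [← linearIndependent_padic]
  have hv3 : ∀ i, slope (v i) = ((p : ℤ_[p]) ^ c) • slope (u i) := by
    intro i
    have h1 := (hslope _).mpr (hv2 i)
    rw [map_sub, map_nsmul, sub_eq_zero] at h1
    rw [← h1, ← Nat.cast_pow, Nat.cast_smul_eq_nsmul]
  rw [linearIndependent_iff'] at hli ⊢
  intro t a ha i hi
  have h1 : ∑ i ∈ t, a i • d.om (v i) = d.om (∑ i ∈ t, a i • v i) := by simp [map_sum]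
  have hM : ∑ i ∈ t, a i • v i ∈ d.M :=
    Submodule.sum_mem _ fun i _ => Submodule.smul_mem _ _ (hv1 i)
  rw [h1, d.om_eq_zero_iff hM, ← hslope, map_sum] at ha
  simp_rw [map_smul, hv3] at ha
  have h2 : ∑ i ∈ t, (a i * (p : ℤ_[p]) ^ c) • slope (u i) = 0 := by
    simpa [mul_smul] using ha
  have h3 := hli t _ h2 i hi
  rcases mul_eq_zero.mp h3 with h | h
  · exact h
  · exact absurd h (pow_ne_zero _ (by exact_mod_cast hp.out.ne_zero))

/-- elements of the span of the forms of `M` come from `M` up to a power of `p` -/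
theorem exists_of_mem_span {x : W} (hx : x ∈ Submodule.span ℚ_[p] (d.om '' (d.M : Set T))) :
    ∃ (c : ℕ) (u : T), u ∈ d.M ∧ ((p : ℚ_[p]) ^ c) • x = d.om u := by
  induction hx using Submodule.span_induction with
  | mem x hx =>
    obtain ⟨u, hu, rfl⟩ := hx
    exact ⟨0, u, hu, by simp⟩
  | zero => exact ⟨0, 0, d.M.zero_mem, by simp⟩
  | add x y _ _ hx hy =>
    obtain ⟨c, u, hu, h1⟩ := hx
    obtain ⟨c', u', hu', h2⟩ := hy
    refine ⟨c + c', ((p : ℤ_[p]) ^ c') • u + ((p : ℤ_[p]) ^ c) • u',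
      d.M.add_mem (d.M.smul_mem _ hu) (d.M.smul_mem _ hu'), ?_⟩
    have hp1 : ∀ (n : ℕ) (w : W), ((p : ℤ_[p]) ^ n) • w = ((p : ℚ_[p]) ^ n) • w := by
      intro n w
      rw [← algebraMap_smul ℚ_[p] ((p : ℤ_[p]) ^ n) w]
      simp
    rw [map_add, map_smul, map_smul, ← h1, ← h2, hp1, hp1, smul_add, smul_smul, smul_smul,
      pow_add]
    congr 2
    ring
  | smul a x _ hx =>
    obtain ⟨c, u, hu, h1⟩ := hx
    obtain ⟨n, b, hb⟩ : ∃ (n : ℕ) (b : ℤ_[p]), (b : ℚ_[p]) = (p : ℚ_[p]) ^ n * a := by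
      obtain ⟨n, hn⟩ : ∃ n : ℕ, ‖(p : ℚ_[p]) ^ n * a‖ ≤ 1 := by
        obtain ⟨n, hn⟩ := pow_unbounded_of_one_lt ‖a‖ (show (1 : ℝ) < p by
          exact_mod_cast hp.out.one_lt)
        refine ⟨n, ?_⟩
        rw [norm_mul, norm_pow, Padic.norm_p, inv_pow]
        rw [inv_mul_le_iff₀ (pow_pos (by exact_mod_cast hp.out.pos) n), mul_one]
        exact hn.le
      exact ⟨n, ⟨_, hn⟩, rfl⟩
    refine ⟨n + c, b • u, d.M.smul_mem _ hu, ?_⟩
    rw [map_smul, ← h1, ← algebraMap_smul ℚ_[p] b, smul_smul, smul_smul, pow_add]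
    congr 1
    have : algebraMap ℤ_[p] ℚ_[p] b = (b : ℚ_[p]) := rfl
    rw [this, hb]
    ring

end TPData

end Crest.Agent.R013.TP_928
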