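import Crest.Agent.R013.TP4_928

/-!
# R013 / C-TP (helper928), part 5: equivariance

`Act δ P r P'` = compatible additive endomorphisms of `E, D, D'` (an automorphism acting on
functions, divisors, and the divisors of the reductions).  Functoriality of `Tate`, `T0`, `red`,
`slope`.  The operator `eop c act = ∑ c a • act a` of an element of the group ring.
-/

set_option autoImplicit false
set_option linter.unusedSectionVars false

namespace Crest.Agent.R013.TP_928

open PadicInt Module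

variable {p : ℕ} [hp : Fact p.Prime]
variable {E D D' : Type*} [AddCommGroup E] [AddCommGroup D] [AddCommGroup D']

/-- compatible endomorphisms of functions, divisors, reduced divisors -/
structure Act (δ : E →+ D) (P : AddSubgroup D) (r : E →+ D') (P' : AddSubgroup D') where
  aE : E →+ E
  aD : D →+ D
  aD' : D' →+ D'
  δ_aE : ∀ e, δ (aE e) = aD (δ e)
  r_aE : ∀ e, r (aE e) = aD' (r e)
  mem : ∀ d ∈ P, aD d ∈ P
  mem' : ∀ d ∈ P', aD' d ∈ P'

namespace Act

variable {δ : E →+ D} {P : AddSubgroup D} {r : E →+ D'} {P' : AddSubgroup D'}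

/-- the action on classes -/
def pic (a : Act δ P r P') : D ⧸ P →+ D ⧸ P :=
  QuotientAddGroup.map P P a.aD (fun d hd => a.mem d hd)

/-- the action on classes of the reductions -/
def pic' (a : Act δ P r P') : D' ⧸ P' →+ D' ⧸ P' :=
  QuotientAddGroup.map P' P' a.aD' (fun d hd => a.mem' d hd)

@[simp] theorem pic_mk (a : Act δ P r P') (d : D) : a.pic (d : D ⧸ P) = (a.aD d : D ⧸ P) := rfl
@[simp] theorem pic'_mk (a : Act δ P r P') (d : D') : a.pic' (d : D' ⧸ P') = (a.aD' d : D' ⧸ P') :=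
  rfl

theorem rep_map (a : Act δ P r P') {n : ℕ} {z : D ⧸ P} {e : E} (h : Rep p δ P n z e) :
    Rep p δ P n (a.pic z) (a.aE e) := by
  obtain ⟨x, rfl, hx⟩ := h
  exact ⟨a.aD x, rfl, by rw [a.δ_aE, hx, map_nsmul]⟩

/-- the action on the Tate module -/
noncomputable def tate (a : Act δ P r P') : Tate p (D ⧸ P) →ₗ[ℤ_[p]] Tate p (D ⧸ P) :=
  Tate.map a.pic

/-- the action on the Tate module of the reductions -/
noncomputable def tate' (a : Act δ P r P') : Tate p (D' ⧸ P') →ₗ[ℤ_[p]] Tate p (D' ⧸ P') :=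
  Tate.map a.pic'

theorem tate_apply (a : Act δ P r P') (u : Tate p (D ⧸ P)) (n : ℕ) :
    a.tate u n = a.pic (u n) := rfl

theorem rep_tate (a : Act δ P r P') {n : ℕ} {u : Tate p (D ⧸ P)} {e : E}
    (h : Rep p δ P n (u n) e) : Rep p δ P n (a.tate u n) (a.aE e) := a.rep_map h

variable (hP : ∀ d, d ∈ P ↔ ∃ e, δ e = d) [IsAddTorsionFree D] [IsAddTorsionFree D']
  (hr : ∀ c, δ c = 0 → r c = 0) (hrP : ∀ e, r e ∈ P')

theorem tate_mem_T0 (a : Act δ P r P') {u : Tate p (D ⧸ P)} (hu : u ∈ T0 p δ P hP r hr) :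
    a.tate u ∈ T0 p δ P hP r hr := by
  refine mem_T0_of δ P hP hr _ fun n => ?_
  obtain ⟨e, he⟩ := exists_rep (p := p) hP (u.pow_smul_apply n)
  obtain ⟨y, hy⟩ := hu n e he
  exact ⟨a.aE e, a.rep_tate he, a.aD' y, by rw [a.r_aE, hy, map_nsmul]⟩

theorem red_tate (a : Act δ P r P') (u : T0 p δ P hP r hr)
    (hu : a.tate (u : Tate p (D ⧸ P)) ∈ T0 p δ P hP r hr) :
    red δ P hP hr hrP ⟨a.tate (u : Tate p (D ⧸ P)), hu⟩ = a.tate' (red δ P hP hr hrP u) := by
  ext n
  obtain ⟨e, he⟩ := exists_rep (p := p) hP ((u : Tate p (D ⧸ P)).pow_smul_apply n)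
  obtain ⟨y, hy⟩ := u.2 n e he
  rw [red_spec δ P hP hr hrP ⟨a.tate (u : Tate p (D ⧸ P)), hu⟩ (a.rep_tate he)
    (y := a.aD' y) (by rw [a.r_aE, hy, map_nsmul])]
  unfold tate'
  rw [Tate.map_apply, red_spec δ P hP hr hrP u he hy, pic'_mk]

/-- if the reductions of `a e` and `e` agree modulo `p^n D'` then `a u - u` has zero slopes -/
theorem sub_mem_T0 (a : Act δ P r P') (u : Tate p (D ⧸ P))
    (h : ∀ n e, Rep p δ P n (u n) e → ∃ y, a.aD' (r e) - r e = (p ^ n) • y) :
    a.tate u - u ∈ T0 p δ P hP r hr := by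
  refine mem_T0_of δ P hP hr _ fun n => ?_
  obtain ⟨e, he⟩ := exists_rep (p := p) hP (u.pow_smul_apply n)
  exact ⟨a.aE e - e, (a.rep_tate he).sub he, by rw [map_sub, a.r_aE]; exact h n e he⟩

/-- comparison of two actions whose reductions agree on representatives -/
theorem red_sub_eq_zero_of {a : Act δ P r P'} {u : Tate p (D ⧸ P)}
    (hmem : a.tate u - u ∈ T0 p δ P hP r hr)
    (h : ∀ n e, Rep p δ P n (u n) e → ∃ y ∈ P', r (a.aE e) - r e = (p ^ n) • y) :
    red δ P hP hr hrP ⟨a.tate u - u, hmem⟩ = 0 := by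
  ext n
  obtain ⟨e, he⟩ := exists_rep (p := p) hP (u.pow_smul_apply n)
  obtain ⟨y, hy1, hy2⟩ := h n e he
  rw [red_spec δ P hP hr hrP ⟨a.tate u - u, hmem⟩ ((a.rep_tate he).sub he) (y := y)
    (by rw [map_sub, hy2]), Tate.zero_apply]
  exact (QuotientAddGroup.eq_zero_iff _).mpr hy1

/-- the converse -/
theorem of_red_sub_eq_zero {a : Act δ P r P'} {u : Tate p (D ⧸ P)}
    (hmem : a.tate u - u ∈ T0 p δ P hP r hr)
    (h0 : red δ P hP hr hrP ⟨a.tate u - u, hmem⟩ = 0) (n : ℕ) (e : E)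
    (he : Rep p δ P n (u n) e) : ∃ y ∈ P', r (a.aE e) - r e = (p ^ n) • y := by
  have h1 := (red_eq_zero_iff δ P hP hr hrP ⟨a.tate u - u, hmem⟩).mp h0 n (a.aE e - e)
    ((a.rep_tate he).sub he)
  rw [map_sub] at h1
  exact h1

end Act

section groupring

variable {A : Type*} [Group A] [Fintype A] {T : Type*} [AddCommGroup T] [Module ℤ_[p] T]

/-- the operator of an element of the group ring -/
noncomputable def eop (c : A → ℤ_[p]) (act : A → T →ₗ[ℤ_[p]] T) : T →ₗ[ℤ_[p]] T :=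
  ∑ a, c a • act a

theorem eop_apply (c : A → ℤ_[p]) (act : A → T →ₗ[ℤ_[p]] T) (u : T) :
    eop c act u = ∑ a, c a • act a u := by
  simp [eop]

theorem eop_eop (c : A → ℤ_[p]) (hc : ∀ a, ∑ b, c b * c (b⁻¹ * a) = c a)
    (act : A → T →ₗ[ℤ_[p]] T) (hact : ∀ a b u, act (a * b) u = act a (act b u)) (u : T) :
    eop c act (eop c act u) = eop c act u := by
  rw [eop_apply c act (eop c act u), eop_apply c act u]
  have h1 : ∀ b : A, c b • act b (∑ a, c a • act a u) =
      ∑ a, (c b * c (b⁻¹ * a)) • act a u := by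
    intro b
    rw [map_sum, Finset.smul_sum]
    refine Fintype.sum_equiv (Equiv.mulLeft b) _ _ (fun a => ?_)
    rw [map_smul, smul_smul, ← hact]
    simp
  rw [Finset.sum_congr rfl (fun b _ => h1 b), Finset.sum_comm]
  refine Finset.sum_congr rfl fun a _ => ?_
  rw [← Finset.sum_smul, hc a]

end groupring

end Crest.Agent.R013.TP_928
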