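import Crest.Agent.R013.TP5_928

/-!
# R013 / C-TP (helper928), part 6: `TPData` from actions on functions and divisors

`TPIn` collects the geometric input; `TPIn.data : TPData`.
`slopes`: the linear map `T → (ι → ℤ_[p])` of finitely many slopes, with kernel `T0`.
-/

set_option autoImplicit false
set_option linter.unusedSectionVars false
set_option linter.style.haveILetI false

namespace Crest.Agent.R013.TP_928

open PadicInt Module

variable {p : ℕ} [hp : Fact p.Prime]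
variable {E D D' : Type*} [AddCommGroup E] [AddCommGroup D] [AddCommGroup D']
variable {δ : E →+ D} {P : AddSubgroup D} {r : E →+ D'} {P' : AddSubgroup D'}

section slopes

variable (hP : ∀ d, d ∈ P ↔ ∃ e, δ e = d) [IsAddTorsionFree D] [IsAddTorsionFree D']
  (hr : ∀ c, δ c = 0 → r c = 0) {ι : Type*} (ρ : ι → D' →+ ℤ)

/-- the vector of slopes -/
noncomputable def slopes : Tate p (D ⧸ P) →ₗ[ℤ_[p]] (ι → ℤ_[p]) :=
  LinearMap.pi fun i => slope δ P hP ((ρ i).comp r) (fun c hc => by simp [hr c hc])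

theorem slopes_spec {u : Tate p (D ⧸ P)} {n : ℕ} {e : E} (he : Rep p δ P n (u n) e) (i : ι) :
    toZModPow n (slopes hP hr ρ u i) = ((ρ i (r e) : ℤ) : ZMod (p ^ n)) := by
  unfold slopes
  rw [LinearMap.pi_apply, slope_spec δ P hP _ _ u he]
  rfl

/-- the kernel of the slopes is `T0` if the `ρ i` detect divisibility by `p^n` -/
theorem slopes_eq_zero_iff
    (hdet : ∀ n e, (∃ x, δ e = (p ^ n) • x) → (∀ i, (p : ℤ) ^ n ∣ ρ i (r e)) →
      ∃ y, r e = (p ^ n) • y) (u : Tate p (D ⧸ P)) :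
    slopes hP hr ρ u = 0 ↔ u ∈ T0 p δ P hP r hr := by
  constructor
  · intro h n e he
    refine hdet n e ?_ fun i => ?_
    · obtain ⟨x, -, hx⟩ := he
      exact ⟨x, hx⟩
    · have h1 := congrFun h i
      unfold slopes at h1
      rw [LinearMap.pi_apply, Pi.zero_apply, slope_eq_zero_iff] at h1
      exact h1 n e he
  · intro h
    funext i
    unfold slopes
    rw [LinearMap.pi_apply, Pi.zero_apply, slope_eq_zero_iff]
    intro n e he
    obtain ⟨y, hy⟩ := h n e he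
    exact ⟨ρ i y, by rw [AddMonoidHom.comp_apply, hy, map_nsmul]; simp⟩

end slopes

/-- the geometric input -/
structure TPIn (p : ℕ) [Fact p.Prime] (δ : E →+ D) (P : AddSubgroup D) (r : E →+ D')
    (P' : AddSubgroup D') (G A W : Type*) [AddCommGroup W] [Module ℤ_[p] W]
    [Group A] [Fintype A] where
  hP : ∀ d, d ∈ P ↔ ∃ e, δ e = d
  tfD : IsAddTorsionFree D
  tfD' : IsAddTorsionFree D'
  hr : ∀ c, δ c = 0 → r c = 0
  hrP : ∀ e, r e ∈ P'
  fin : Finite {x : D' ⧸ P' // p • x = 0}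
  /-- Frobenius -/
  frob : Act δ P r P'
  fix : {x : D' ⧸ P' | frob.pic' x = x ∧ ∃ n, (p ^ n) • x = 0}.Finite
  /-- the slopes of Frobenius conjugates agree -/
  frob_sub : ∀ (n : ℕ) (e : E), (∃ x, δ e = (p ^ n) • x) →
    ∃ y, frob.aD' (r e) - r e = (p ^ n) • y
  /-- the Galois group -/
  gal : G → Act δ P r P'
  /-- on reductions every Galois element is, on a given function, a power of Frobenius -/
  gal_r : ∀ g e, ∃ a : ℕ, r ((gal g).aE e) = (frob.aD')^[a] (r e)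
  /-- the covering group -/
  cov : A → Act δ P r P'
  c : A → ℤ_[p]
  idem : ∀ a, ∑ b, c b * c (b⁻¹ * a) = c a
  cov_mul : ∀ a b z, (cov (a * b)).pic z = (cov a).pic ((cov b).pic z)
  cov_frob : ∀ a z, (cov a).pic (frob.pic z) = frob.pic ((cov a).pic z)
  cov_gal : ∀ a g z, (cov a).pic ((gal g).pic z) = (gal g).pic ((cov a).pic z)
  /-- forms -/
  gW : G → W →ₗ[ℤ_[p]] W
  om : Tate p (D ⧸ P) →ₗ[ℤ_[p]] W
  om_gal : ∀ g u, om ((gal g).tate u) = gW g (om u)
  /-- (M3): a vector of the `e`-part all of whose reductions are `p^n`-th powers has zero form -/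
  om_zero : ∀ u : Tate p (D ⧸ P), eop c (fun a => (cov a).tate) u = u →
    (∀ n e, Rep p δ P n (u n) e → ∃ y ∈ P', r e = (p ^ n) • y) → om u = 0
  /-- (NC): a vector of the `e`-part with zero form has slopes zero -/
  om_inj : ∀ u : Tate p (D ⧸ P), eop c (fun a => (cov a).tate) u = u → om u = 0 →
    ∀ n e, Rep p δ P n (u n) e → ∃ y, r e = (p ^ n) • y

theorem Act.iterate_sub (f : Act δ P r P') {n : ℕ} {x : D'} {S : AddSubgroup D'}
    (hS : ∀ y ∈ S, f.aD' y ∈ S) (h : ∃ y ∈ S, f.aD' x - x = (p ^ n) • y) (a : ℕ) :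
    ∃ y ∈ S, (f.aD')^[a] x - x = (p ^ n) • y := by
  obtain ⟨y, hy, h1⟩ := h
  induction a with
  | zero => exact ⟨0, S.zero_mem, by simp⟩
  | succ a ih =>
    obtain ⟨z, hz, h2⟩ := ih
    refine ⟨f.aD' z + y, S.add_mem (hS z hz) hy, ?_⟩
    have h3 : (f.aD')^[a] x = x + (p ^ n) • z := by rw [← h2]; abel
    rw [Function.iterate_succ_apply', h3, map_add, map_nsmul, smul_add, ← h1]
    abel

theorem Tate.map_comp_comm {A : Type*} [AddCommGroup A] {f g h k : A →+ A}
    (hc : ∀ z, f (g z) = h (k z)) (u : Tate p A) :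
    Tate.map f (Tate.map g u) = Tate.map h (Tate.map k u) := by
  ext n
  exact hc _

namespace TPIn

variable {G A W : Type*} [AddCommGroup W] [Module ℤ_[p] W] [Group A] [Fintype A]
  (d : TPIn p δ P r P' G A W)

/-- the module of classes -/
abbrev Tm (_ : TPIn p δ P r P' G A W) : Type _ := Tate p (D ⧸ P)

/-- the kernel of the slopes -/
noncomputable def K0 : Submodule ℤ_[p] (Tate p (D ⧸ P)) :=
  haveI := d.tfD
  haveI := d.tfD'
  T0 p δ P d.hP r d.hr

theorem mem_K0 (u : Tate p (D ⧸ P)) : u ∈ d.K0 ↔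
    ∀ n e, Rep p δ P n (u n) e → ∃ y, r e = (p ^ n) • y := Iff.rfl

/-- the reduction -/
noncomputable def sred : d.K0 →ₗ[ℤ_[p]] Tate p (D' ⧸ P') :=
  haveI := d.tfD
  haveI := d.tfD'
  red δ P d.hP d.hr d.hrP

theorem sred_eq_zero_iff (u : d.K0) : d.sred u = 0 ↔
    ∀ n e, Rep p δ P n ((u : Tate p (D ⧸ P)) n) e → ∃ y ∈ P', r e = (p ^ n) • y := by
  haveI := d.tfD
  haveI := d.tfD'
  exact red_eq_zero_iff δ P d.hP d.hr d.hrP u

theorem frob_sub_mem (u : Tate p (D ⧸ P)) : d.frob.tate u - u ∈ d.K0 := by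
  haveI := d.tfD
  haveI := d.tfD'
  exact d.frob.sub_mem_T0 d.hP d.hr u fun n e he => d.frob_sub n e
    (by obtain ⟨x, -, hx⟩ := he; exact ⟨x, hx⟩)

theorem gal_sub_mem (g : G) (u : Tate p (D ⧸ P)) : (d.gal g).tate u - u ∈ d.K0 := by
  haveI := d.tfD
  haveI := d.tfD'
  refine (d.gal g).sub_mem_T0 d.hP d.hr u fun n e he => ?_
  obtain ⟨x, -, hx⟩ := he
  obtain ⟨a, ha⟩ := d.gal_r g e
  obtain ⟨y, hy⟩ := d.frob_sub n e ⟨x, hx⟩
  obtain ⟨z, -, hz⟩ := d.frob.iterate_sub (S := ⊤) (by simp) ⟨y, trivial, hy⟩ a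
  exact ⟨z, by rw [← (d.gal g).r_aE, ha, hz]⟩

theorem cov_mem (a : A) {u : Tate p (D ⧸ P)} (hu : u ∈ d.K0) : (d.cov a).tate u ∈ d.K0 := by
  haveI := d.tfD
  haveI := d.tfD'
  exact (d.cov a).tate_mem_T0 d.hP d.hr hu

/-- the idempotent -/
noncomputable def e : Tate p (D ⧸ P) →ₗ[ℤ_[p]] Tate p (D ⧸ P) :=
  eop d.c (fun a => (d.cov a).tate)

theorem e_apply (u : Tate p (D ⧸ P)) : d.e u = ∑ a, d.c a • (d.cov a).tate u :=
  eop_apply _ _ _

theorem e_mem {u : Tate p (D ⧸ P)} (hu : u ∈ d.K0) : d.e u ∈ d.K0 := by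
  rw [e_apply]
  exact Submodule.sum_mem _ fun a _ => Submodule.smul_mem _ _ (d.cov_mem a hu)

/-- the data of part 4 -/
noncomputable def data : TPData p (Tate p (D ⧸ P)) (Tate p (D' ⧸ P')) W G where
  gT g := (d.gal g).tate
  gW := d.gW
  T0 := d.K0
  s := d.sred
  fT := d.frob.tate
  fN := d.frob.tate'
  fT_sub := d.frob_sub_mem
  s_fT w hw := by
    haveI := d.tfD
    haveI := d.tfD'
    exact d.frob.red_tate d.hP d.hr d.hrP w hw
  fN_inj x hx := Tate.eq_zero_of_fixed d.fix hx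
  gT_sub := d.gal_sub_mem
  gen u h0 g := by
    haveI := d.tfD
    haveI := d.tfD'
    refine Act.red_sub_eq_zero_of d.hP d.hr d.hrP (d.gal_sub_mem g u) fun n e he => ?_
    obtain ⟨y, hy1, hy2⟩ := Act.of_red_sub_eq_zero d.hP d.hr d.hrP (d.frob_sub_mem u) h0 n e he
    obtain ⟨a, ha⟩ := d.gal_r g e
    rw [d.frob.r_aE] at hy2
    obtain ⟨z, hz, hz'⟩ := d.frob.iterate_sub (S := P') d.frob.mem' ⟨y, hy1, hy2⟩ a
    exact ⟨z, hz, by rw [ha, hz']⟩
  e := d.e
  e_e u := eop_eop d.c d.idem _ (fun a b v => by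
    ext n
    exact d.cov_mul a b _) u
  e_T0 w hw := d.e_mem hw
  e_fT u := by
    rw [d.e_apply, d.e_apply, map_sum]
    refine Finset.sum_congr rfl fun a _ => ?_
    rw [map_smul]
    congr 1
    exact Tate.map_comp_comm (d.cov_frob a) u
  e_s w hw := by
    haveI := d.tfD
    haveI := d.tfD'
    have h1 : (⟨d.e w, d.e_mem w.2⟩ : d.K0) =
        ∑ a, d.c a • (⟨(d.cov a).tate w, d.cov_mem a w.2⟩ : d.K0) := by
      apply Subtype.ext
      rw [Submodule.coe_sum]
      exact d.e_apply _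
    rw [h1, map_sum]
    refine Finset.sum_eq_zero fun a _ => ?_
    rw [map_smul]
    have h2 : d.sred ⟨(d.cov a).tate w, d.cov_mem a w.2⟩ = (d.cov a).tate' (d.sred w) :=
      (d.cov a).red_tate d.hP d.hr d.hrP w (d.cov_mem a w.2)
    rw [h2, hw, map_zero, smul_zero]
  om := d.om
  om_gT := d.om_gal
  e_gT g u := by
    rw [d.e_apply, d.e_apply, map_sum]
    refine Finset.sum_congr rfl fun a _ => ?_
    rw [map_smul]
    congr 1
    exact Tate.map_comp_comm (d.cov_gal a g) u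
  om_zero w hw h0 := d.om_zero _ hw ((d.sred_eq_zero_iff w).mp h0)
  om_inj u hu h0 := (d.mem_K0 u).mpr (d.om_inj u hu h0)

theorem data_e : d.data.e = d.e := rfl
theorem data_om : d.data.om = d.om := rfl
theorem data_T0 : d.data.T0 = d.K0 := rfl

theorem finite_N (d : TPIn p δ P r P' G A W) : Module.Finite ℤ_[p] (Tate p (D' ⧸ P')) :=
  Tate.finite d.fin

end TPIn

end Crest.Agent.R013.TP_928
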