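import Crest.Agent.R013.TP7_928

/-!
# R013 / C-TP (helper928), part 8: vertices and induced actions

* `Res K κ Γ`: a valuation with a surjective residue map; `Res.ind`: the isomorphism of residue
  fields induced by an isometric isomorphism.
* `Vtx B K κ`: a vertex over the residue data `B` of the constants; `Vtx.toRedD`, `Vtx.ind : SI`.
* `rall X : Additive Kˣ →+ ∀ v, Pl Ct (κ v) →₀ ℤ`, `PrinR`.
* `VAut X`: an automorphism permuting the vertices; `VAut.act : Act ..`.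
* finiteness of the `p`-torsion and of the Frobenius fixed `p`-power torsion of the class group of
  all reductions.
-/

set_option autoImplicit false
set_option linter.unusedSectionVars false
set_option linter.style.haveILetI false

namespace Crest.Agent.R013.TP_928

open WithZero Module
open Crest.Agent.R013.RR7_948 Crest.Agent.R013.RR8_948 Crest.Agent.R013.RR9_948
open Crest.Agent.R013.RR11_948 Crest.Agent.R013.PicD_398 Crest.Agent.R013.Frob1_914

/-- a valuation with a residue field -/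
structure Res (K κ : Type*) [Field K] [Field κ] (Γ : Type*)
    [LinearOrderedCommGroupWithZero Γ] where
  v : Valuation K Γ
  ρ : v.integer →+* κ
  ρ_eq_zero : ∀ x, ρ x = 0 ↔ v x < 1
  surj : Function.Surjective ρ

namespace Res

variable {K κ K' κ' : Type*} [Field K] [Field κ] [Field K'] [Field κ'] {Γ : Type*}
  [LinearOrderedCommGroupWithZero Γ] (R : Res K κ Γ) (R' : Res K' κ' Γ)

/-- the map of valuation rings -/
def intMap (σ : K ≃+* K') (h : ∀ f, R'.v (σ f) = R.v f) : R.v.integer →+* R'.v.integer :=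
  (σ : K →+* K').restrict R.v.integer R'.v.integer (fun f hf => by
    change R'.v (σ f) ≤ 1
    rw [h]
    exact hf)

theorem intMap_apply (σ : K ≃+* K') (h : ∀ f, R'.v (σ f) = R.v f) (x : R.v.integer) :
    ((R.intMap R' σ h x : R'.v.integer) : K') = σ x := rfl

/-- the map of residue fields -/
noncomputable def indHom (σ : K ≃+* K') (h : ∀ f, R'.v (σ f) = R.v f) : κ →+* κ' :=
  RingHom.liftOfSurjective R.ρ R.surj ⟨R'.ρ.comp (R.intMap R' σ h), by
    intro x hx
    rw [RingHom.mem_ker, R.ρ_eq_zero] at hx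
    rw [RingHom.mem_ker, RingHom.comp_apply, R'.ρ_eq_zero, intMap_apply, h]
    exact hx⟩

theorem indHom_ρ (σ : K ≃+* K') (h : ∀ f, R'.v (σ f) = R.v f) (x : R.v.integer) :
    R.indHom R' σ h (R.ρ x) = R'.ρ (R.intMap R' σ h x) :=
  RingHom.liftOfRightInverse_comp_apply _ _ _ _ _

theorem indHom_surjective (σ : K ≃+* K') (h : ∀ f, R'.v (σ f) = R.v f) :
    Function.Surjective (R.indHom R' σ h) := by
  intro y
  obtain ⟨x, rfl⟩ := R'.surj y
  refine ⟨R.ρ ⟨σ.symm x, ?_⟩, ?_⟩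
  · change R.v (σ.symm x) ≤ 1
    rw [← h, σ.apply_symm_apply]
    exact x.2
  · rw [indHom_ρ]
    congr 1
    apply Subtype.ext
    rw [intMap_apply]
    exact σ.apply_symm_apply _

/-- the isomorphism of residue fields -/
noncomputable def ind (σ : K ≃+* K') (h : ∀ f, R'.v (σ f) = R.v f) : κ ≃+* κ' :=
  RingEquiv.ofBijective (R.indHom R' σ h) ⟨(R.indHom R' σ h).injective, R.indHom_surjective R' σ h⟩

theorem ind_ρ (σ : K ≃+* K') (h : ∀ f, R'.v (σ f) = R.v f) (x : R.v.integer) :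
    R.ind R' σ h (R.ρ x) = R'.ρ (R.intMap R' σ h x) := R.indHom_ρ R' σ h x

theorem ind_ρ_mk (σ : K ≃+* K') (h : ∀ f, R'.v (σ f) = R.v f) (f : K) (hf : R.v f ≤ 1)
    (hf' : R'.v (σ f) ≤ 1) : R.ind R' σ h (R.ρ ⟨f, hf⟩) = R'.ρ ⟨σ f, hf'⟩ :=
  R.ind_ρ R' σ h ⟨f, hf⟩

end Res

section vtx

variable {C K Ct : Type*} [Field C] [Field K] [Algebra C K] [Field Ct]
  {Γ : Type*} [LinearOrderedCommGroupWithZero Γ]

/-- a vertex over the residue data `B` of the constants -/
structure Vtx (B : Res C Ct Γ) (K κ : Type*) [Field K] [Algebra C K] [Field κ] [Algebra Ct κ]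
    extends Res K κ Γ where
  v_algebraMap : ∀ c : C, v (algebraMap C K c) = B.v c
  val : ∀ f : K, f ≠ 0 → ∃ c : C, v f = B.v c
  comm : ∀ (c : C) (h : B.v c ≤ 1) (h' : v (algebraMap C K c) ≤ 1),
    ρ ⟨algebraMap C K c, h'⟩ = algebraMap Ct κ (B.ρ ⟨c, h⟩)

namespace Vtx

variable {B : Res C Ct Γ} {κ κ' : Type*} [Field κ] [Algebra Ct κ] [Field κ'] [Algebra Ct κ']
  (X : Vtx B K κ) (X' : Vtx B K κ')

/-- the reduction datum of a vertex -/
noncomputable def toRedD : RedD C K Ct κ Γ where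
  v := X.v
  val f hf := by
    obtain ⟨c, hc⟩ := X.val f hf
    refine ⟨c, ?_, by rw [X.v_algebraMap, hc]⟩
    rintro rfl
    rw [map_zero, map_eq_zero] at hc
    exact hf hc
  ρ := X.ρ
  ρ_eq_zero := X.ρ_eq_zero
  const c h := ⟨_, X.comm c (by rw [← X.v_algebraMap]; exact h) h⟩

theorem base_isom (σ : SI C K C K) (h : ∀ f, X'.v (σ.f f) = X.v f) (c : C) :
    B.v (σ.s c) = B.v c := by
  rw [← X'.v_algebraMap, ← σ.comm, h, X.v_algebraMap]

/-- the semilinear isomorphism of the residue fields -/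
noncomputable def ind (σ : SI C K C K) (h : ∀ f, X'.v (σ.f f) = X.v f) : SI Ct κ Ct κ' where
  s := B.ind B σ.s (X.base_isom X' σ h)
  f := X.toRes.ind X'.toRes σ.f h
  comm t := by
    obtain ⟨⟨c, hc⟩, rfl⟩ := B.surj t
    have hc' : X.v (algebraMap C K c) ≤ 1 := by rw [X.v_algebraMap]; exact hc
    have hc1 : B.v c ≤ 1 := hc
    rw [← X.comm c hc hc', B.ind_ρ_mk B σ.s _ c hc
      (by rw [X.base_isom X' σ h]; exact hc), Res.ind_ρ_mk _ _ _ _ _ _ (by rw [h]; exact hc')]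
    have h2 : X'.v (algebraMap C K (σ.s c)) ≤ 1 := by
      rw [X'.v_algebraMap, X.base_isom X' σ h]; exact hc
    rw [← X'.comm (σ.s c) (by rw [X.base_isom X' σ h]; exact hc) h2]
    congr 1
    exact Subtype.ext (σ.comm c)

theorem ind_f (σ : SI C K C K) (h : ∀ f, X'.v (σ.f f) = X.v f) :
    (X.ind X' σ h).f = X.toRes.ind X'.toRes σ.f h := rfl

theorem ind_s (σ : SI C K C K) (h : ∀ f, X'.v (σ.f f) = X.v f) :
    (X.ind X' σ h).s = B.ind B σ.s (X.base_isom X' σ h) := rfl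

theorem ind_ρ (σ : SI C K C K) (h : ∀ f, X'.v (σ.f f) = X.v f) (f : K) (hf : X.v f ≤ 1)
    (hf' : X'.v (σ.f f) ≤ 1) :
    (X.ind X' σ h).f (X.ρ ⟨f, hf⟩) = X'.ρ ⟨σ.f f, hf'⟩ :=
  Res.ind_ρ_mk _ _ _ _ _ _ _

end Vtx

end vtx

section all

variable {C K Ct : Type*} [Field C] [Field K] [Algebra C K] [Algebra (RatFunc C) K]
  [IsScalarTower C (RatFunc C) K] [FiniteDimensional (RatFunc C) K]
  [Algebra.IsSeparable (RatFunc C) K] [Field Ct] {V : Type*}
  (κ : V → Type*) [∀ v, Field (κ v)] [∀ v, Algebra Ct (κ v)]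
  [∀ v, Algebra (RatFunc Ct) (κ v)] [∀ v, IsScalarTower Ct (RatFunc Ct) (κ v)]
  [∀ v, FiniteDimensional (RatFunc Ct) (κ v)] [∀ v, Algebra.IsSeparable (RatFunc Ct) (κ v)]
  {Γ : Type*} [LinearOrderedCommGroupWithZero Γ] {B : Res C Ct Γ}

variable (Ct) in
/-- families of principal divisors -/
noncomputable def PrinR : AddSubgroup (∀ v, Pl Ct (κ v) →₀ ℤ) :=
  AddSubgroup.pi Set.univ fun v => Prin Ct (κ v)

theorem mem_PrinR (x : ∀ v, Pl Ct (κ v) →₀ ℤ) : x ∈ PrinR Ct κ ↔ ∀ v, x v ∈ Prin Ct (κ v) := by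
  unfold PrinR
  rw [AddSubgroup.mem_pi]
  simp

variable {κ} (X : ∀ v, Vtx B K (κ v))

/-- the divisors of all reductions -/
noncomputable def rall : Additive Kˣ →+ (∀ v, Pl Ct (κ v) →₀ ℤ) :=
  AddMonoidHom.mk' (fun e v => (X v).toRedD.rdv e) (fun e f => by
    funext v
    exact map_add _ _ _)

theorem rall_apply (e : Additive Kˣ) (v : V) : rall X e v = (X v).toRedD.rdv e := rfl

theorem rall_mem (e : Additive Kˣ) : rall X e ∈ PrinR Ct κ :=
  (mem_PrinR κ _).mpr fun v => (X v).toRedD.rdv_mem_Prin e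

theorem rall_const (hC : algebraicClosure C K = ⊥) (e : Additive Kˣ) (h : dv C K e = 0) :
    rall X e = 0 := by
  obtain ⟨c, -, hc⟩ := exists_const_of_dv_eq_zero hC h
  funext v
  exact (X v).toRedD.rdv_const e hc

/-- an automorphism permuting the vertices -/
structure VAut where
  σ : SI C K C K
  /-- the source vertex -/
  t : V → V
  h : ∀ w f, (X w).v (σ.f f) = (X (t w)).v f

namespace VAut

variable {X} (a : VAut X)

/-- the induced isomorphism of residue fields -/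
noncomputable def τ (w : V) : SI Ct (κ (a.t w)) Ct (κ w) := (X (a.t w)).ind (X w) a.σ (a.h w)

/-- the action on families of divisors -/
noncomputable def aD' : (∀ v, Pl Ct (κ v) →₀ ℤ) →+ (∀ v, Pl Ct (κ v) →₀ ℤ) :=
  AddMonoidHom.mk' (fun x w => (a.τ w).D (x (a.t w))) (fun x y => by
    funext w
    exact map_add _ _ _)

theorem aD'_apply (x : ∀ v, Pl Ct (κ v) →₀ ℤ) (w : V) : a.aD' x w = (a.τ w).D (x (a.t w)) := rfl

/-- the action on functions -/
noncomputable def aE : Additive Kˣ →+ Additive Kˣ :=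
  MonoidHom.toAdditive (Units.map ((a.σ.f : K ≃+* K) : K →* K))

theorem aE_toMul (e : Additive Kˣ) : (((a.aE e).toMul : Kˣ) : K) = a.σ.f (e.toMul : K) := rfl

/-- the action -/
noncomputable def act : Act (dv C K) (Prin C K) (rall X) (PrinR Ct κ) where
  aE := a.aE
  aD := (a.σ.D : (Pl C K →₀ ℤ) →+ (Pl C K →₀ ℤ))
  aD' := a.aD'
  δ_aE e := a.σ.divf_f (Units.ne_zero e.toMul)
  r_aE e := by
    funext w
    rw [aD'_apply, rall_apply, rall_apply]
    exact (X (a.t w)).toRedD.rdv_map (X w).toRedD a.σ (a.τ w) (a.h w)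
      (fun f hf => ((X (a.t w)).ind_ρ (X w) a.σ (a.h w) f hf _).symm) e
  mem d hd := a.σ.map_prin hd
  mem' d hd := by
    rw [mem_PrinR] at hd ⊢
    intro w
    exact (a.τ w).map_prin (hd (a.t w))

end VAut

/-! ### finiteness -/

section fin

variable (Ct κ) in
/-- the class group of all reductions embeds in the product of the class groups -/
noncomputable def toPics : ((∀ v, Pl Ct (κ v) →₀ ℤ) ⧸ PrinR Ct κ) →+ (∀ v, Pic Ct (κ v)) :=
  QuotientAddGroup.lift (PrinR Ct κ) (AddMonoidHom.mk' (fun x v => cls (x v)) (fun x y => by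
    funext v
    exact map_add _ _ _)) (by
    intro x hx
    rw [mem_PrinR] at hx
    funext v
    exact cls_eq_zero_iff.mpr (hx v))

theorem toPics_mk (x : ∀ v, Pl Ct (κ v) →₀ ℤ) (v : V) :
    toPics Ct κ (x : (∀ v, Pl Ct (κ v) →₀ ℤ) ⧸ PrinR Ct κ) v = cls (x v) := rfl

theorem toPics_injective : Function.Injective (toPics Ct κ) := by
  rw [injective_iff_map_eq_zero]
  intro z hz
  obtain ⟨x, rfl⟩ := QuotientAddGroup.mk_surjective z
  rw [QuotientAddGroup.eq_zero_iff, mem_PrinR]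
  intro v
  exact cls_eq_zero_iff.mp (congrFun hz v)

variable {p : ℕ} [Fintype V]

theorem finite_torsion (h : ∀ v, Finite {z : Pic Ct (κ v) // p • z = 0}) :
    Finite {x : (∀ v, Pl Ct (κ v) →₀ ℤ) ⧸ PrinR Ct κ // p • x = 0} := by
  haveI := h
  refine Finite.of_injective
    (fun x => (fun v => ⟨toPics Ct κ x.1 v, ?_⟩ : ∀ v, {z : Pic Ct (κ v) // p • z = 0})) ?_
  · have h1 : p • toPics Ct κ x.1 = 0 := by rw [← map_nsmul, x.2, map_zero]
    exact congrFun h1 v
  · intro x y hxy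
    apply Subtype.ext
    apply toPics_injective
    funext v
    exact congrArg Subtype.val (congrFun hxy v)

theorem finite_fixed (φ : ∀ v, SI Ct (κ v) Ct (κ v))
    (f : ((∀ v, Pl Ct (κ v) →₀ ℤ) ⧸ PrinR Ct κ) →+ ((∀ v, Pl Ct (κ v) →₀ ℤ) ⧸ PrinR Ct κ))
    (hf : ∀ z v, toPics Ct κ (f z) v = (φ v).pic (toPics Ct κ z v))
    (h : ∀ v, {z : Pic Ct (κ v) | (φ v).pic z = z ∧ ∃ n : ℕ, (p ^ n) • z = 0}.Finite) :
    {z | f z = z ∧ ∃ n : ℕ, (p ^ n) • z = 0}.Finite := by
  refine Set.Finite.of_finite_image (f := toPics Ct κ) ?_ (toPics_injective.injOn)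
  refine (Set.Finite.pi' h).subset ?_
  rintro _ ⟨z, ⟨hz, n, hn⟩, rfl⟩ v
  refine ⟨by rw [← hf, hz], n, ?_⟩
  have h1 : (p ^ n) • toPics Ct κ z = 0 := by rw [← map_nsmul, hn, map_zero]
  exact congrFun h1 v

end fin

end all

end Crest.Agent.R013.TP_928
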