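import Crest.Agent.R013.TP8_928

/-!
# R013 / C-TP (helper928), part 9: automorphisms of an algebraic closure of `F_q`

`exists_pow`: an automorphism of `Ct` (algebraic over `F_p`, algebraically closed) which fixes
`{c | c ^ q = c}` is, on every finite set, a power of `c ↦ c ^ q`.
-/

set_option autoImplicit false
set_option linter.unusedSectionVars false
set_option linter.style.haveILetI false

namespace Crest.Agent.R013.TP_928

open Module Polynomial

section powers

variable {p : ℕ} [hp : Fact p.Prime] {F : Type*} [Field F] [CharP F p] [Algebra (ZMod p) F]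

variable (p F) in
/-- the elements with `c ^ q = c` -/
noncomputable def Fq (a : ℕ) : IntermediateField (ZMod p) F where
  carrier := {c | c ^ p ^ a = c}
  mul_mem' := by
    intro x y hx hy
    change (x * y) ^ p ^ a = x * y
    rw [mul_pow, hx, hy]
  one_mem' := one_pow _
  add_mem' := by
    intro x y hx hy
    change (x + y) ^ p ^ a = x + y
    rw [add_pow_char_pow, hx, hy]
  zero_mem' := zero_pow (pow_pos hp.out.pos a).ne'
  algebraMap_mem' := by
    intro c
    change algebraMap (ZMod p) F c ^ p ^ a = algebraMap (ZMod p) F c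
    rw [← map_pow, ZMod.pow_card_pow]
  inv_mem' := by
    intro x hx
    change (x⁻¹) ^ p ^ a = x⁻¹
    rw [inv_pow, hx]

theorem mem_Fq {a : ℕ} {c : F} : c ∈ Fq p F a ↔ c ^ p ^ a = c := Iff.rfl

theorem coe_Fq {a : ℕ} (ha : a ≠ 0) :
    ((Fq p F a : IntermediateField (ZMod p) F) : Set F) =
      (X ^ p ^ a - X : F[X]).rootSet F := by
  ext c
  have h0 : (X ^ p ^ a - X : F[X]) ≠ 0 :=
    FiniteField.X_pow_card_pow_sub_X_ne_zero F ha hp.out.one_lt
  rw [mem_rootSet_of_ne h0, SetLike.mem_coe, mem_Fq]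
  simp [sub_eq_zero]

theorem finite_Fq {a : ℕ} (ha : a ≠ 0) : Finite (Fq p F a) := by
  change Finite ((Fq p F a : IntermediateField (ZMod p) F) : Set F)
  rw [coe_Fq ha]
  exact (rootSet_finite _ _).to_subtype

theorem card_Fq [IsAlgClosed F] {a : ℕ} (ha : a ≠ 0) : Nat.card (Fq p F a) = p ^ a := by
  have h1 : Nat.card (Fq p F a) = Nat.card ((X ^ p ^ a - X : F[X]).rootSet F) := by
    change Nat.card ((Fq p F a : IntermediateField (ZMod p) F) : Set F) = _
    rw [coe_Fq ha]
  rw [h1, Nat.card_eq_fintype_card, card_rootSet_eq_natDegree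
    (galois_poly_separable p _ (dvd_pow_self p ha)) (IsAlgClosed.splits _),
    FiniteField.X_pow_card_pow_sub_X_natDegree_eq F ha hp.out.one_lt]

/-- automorphisms fixing `F_q` are powers of Frobenius on finite sets -/
theorem exists_pow [IsAlgClosed F] [Algebra.IsAlgebraic (ZMod p) F] {a : ℕ} (ha : a ≠ 0)
    (s : F ≃+* F) (hs : ∀ c, c ^ p ^ a = c → s c = c) {S : Set F} (hS : S.Finite) :
    ∃ m : ℕ, ∀ c ∈ S, s c = c ^ (p ^ a) ^ m := by
  haveI := finite_Fq (p := p) (F := F) ha
  haveI : Fintype (Fq p F a) := Fintype.ofFinite _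
  haveI : Finite S := hS
  haveI : Algebra.IsAlgebraic (Fq p F a) F := Algebra.IsAlgebraic.tower_top (K := ZMod p) _
  let L := IntermediateField.adjoin (Fq p F a) S
  haveI : FiniteDimensional (Fq p F a) L :=
    IntermediateField.finiteDimensional_adjoin fun x _ => Algebra.IsIntegral.isIntegral x
  haveI : Finite L := Module.finite_of_finite (Fq p F a)
  let s' : F ≃ₐ[Fq p F a] F := AlgEquiv.ofRingEquiv (f := s) (fun c => hs _ c.2)
  obtain ⟨n, hn⟩ := (FiniteField.bijective_frobeniusAlgHom_pow (Fq p F a) L).2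
    ((s'.restrictNormal L : L ≃ₐ[Fq p F a] L) : L →ₐ[Fq p F a] L)
  refine ⟨n.1, fun c hc => ?_⟩
  have hcL : c ∈ L := IntermediateField.subset_adjoin _ _ hc
  have h1 : ((s'.restrictNormal L) ⟨c, hcL⟩ : F) = s c :=
    AlgEquiv.restrictNormal_commutes s' L ⟨c, hcL⟩
  have h2 := DFunLike.congr_fun hn ⟨c, hcL⟩
  have h3 : (FiniteField.frobeniusAlgHom (Fq p F a) L ^ n.1) ⟨c, hcL⟩ =
      (⟨c, hcL⟩ : L) ^ (Fintype.card (Fq p F a)) ^ n.1 := by
    rw [AlgHom.coe_pow, FiniteField.coe_frobeniusAlgHom, pow_iterate]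
  have h4 : (Fintype.card (Fq p F a)) = p ^ a := by
    rw [← Nat.card_eq_fintype_card, card_Fq ha]
  rw [← h1]
  have h5 : (s'.restrictNormal L) ⟨c, hcL⟩ = (⟨c, hcL⟩ : L) ^ (p ^ a) ^ n.1 := by
    rw [← h4, ← h3]
    exact h2.symm
  rw [h5]
  rfl

end powers

end Crest.Agent.R013.TP_928
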