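import Crest.Agent.R013.TopZ_803
import Crest.Agent.R013.LemD3_623
import Crest.Agent.R013.CAsm7_588
import Crest.Agent.R013.KL1_770

/-!
# Row 13: `S0015` and `S0016`
-/

set_option autoImplicit false

namespace Crest.Agent.R013.TopFin_803

open scoped NNReal Topology
open Filter Crest.NumberTheoryR Crest.NumberTheoryR.Sect SE_669 CGood_588 GoodP_797 VData_803 TopB_803
  TopS_803

/-- **LEMW + ANNU** (623). -/
theorem annP : AnnP_669.AnnP := by
  intro k E Ω U V _ _ _ _ _ _ _ _ _ _ _ _ _ _ y hG ϖ hϖ hd s hs n hn hsn _ _ _ _ d X j σ hNB _ xU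
    hjx _ _ hUΩ
  exact LemC623.lemw' hG hϖ hd hs hn hsn X j σ hNB xU hjx hUΩ

/-- **B-MAIN.** -/
theorem bMain (p : ℕ) [Fact p.Prime] : BMain p := TopZ_803.bMain_of_ann annP p

/-- **Part C.** -/
theorem goodPall (p : ℕ) [hp : Fact p.Prime] : GOODPall p := by
  refine CAsm7_588.goodpall ?_
  intro C _ _ _ _ _ _ Y _ _ _ _ _ S lam h
  exact KL_770.slopes_onto S hp.out.pos lam h

/-- **`S0016`.** -/
theorem s0016 (p : ℕ) [Fact p.Prime] (k : Type) [Field k]
    [Algebra ℚ_[p] k] [FiniteDimensional ℚ_[p] k]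
    (K : Type) [Field K] [Algebra k K] [Algebra (RatFunc k) K] [IsScalarTower k (RatFunc k) K]
    [FunctionField k K] (hc : algebraicClosure k K = ⊥) (hg : 2 ≤ genus k K)
    (v : Valuation K ℝ≥0) (hv : ExtendsPadicNorm k K p v)
    (w : Valuation (AlgebraicClosure K) ℝ≥0)
    (hw : w.comap (algebraMap K (AlgebraicClosure K)) = v) :
    ∀ a : AlgebraicClosure K, ∀ ε : ℝ≥0, 0 < ε →
      ∃ b : maxUnramified k K, w (a - (b : AlgebraicClosure K)) < ε :=
  TopS_803.s0016_of (bMain p) (goodPall p) k K hc hg v hv w hw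

/-- **`S0015`.** -/
theorem s0015 (p : ℕ) [Fact p.Prime] (k : Type) [Field k]
    [Algebra ℚ_[p] k] [FiniteDimensional ℚ_[p] k]
    (K : Type) [Field K] [Algebra k K] [Algebra (RatFunc k) K] [IsScalarTower k (RatFunc k) K]
    [FunctionField k K] (hc : algebraicClosure k K = ⊥) (hg : 2 ≤ genus k K) :
    (∀ vt : Valuation (maxUnramified k K) ℝ≥0, LiesOverRationalPlace k K vt →
        ∃ s : ConstGal k K →* PiGroup k K, IsSection k K s ∧ Set.range s = decomp k K vt) ∧
    (∀ s : ConstGal k K →* PiGroup k K, IsSection k K s →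
        ∃ vt : Valuation (maxUnramified k K) ℝ≥0, LiesOverRationalPlace k K vt ∧
          Set.range s = decomp k K vt) ∧
    (∀ vt vt' : Valuation (maxUnramified k K) ℝ≥0, LiesOverRationalPlace k K vt →
        LiesOverRationalPlace k K vt' → decomp k K vt = decomp k K vt' →
        (vt.comap (algebraMap K (maxUnramified k K))).IsEquiv
          (vt'.comap (algebraMap K (maxUnramified k K)))) :=
  TopR_803.s0015_of (bMain p) (goodPall p) k K hc hg

end Crest.Agent.R013.TopFin_803
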