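import Crest.Agent.R013.TopN_803
import Crest.Agent.R013.TopL_803

/-!
# Row 13, part B: B-MAIN from the end step
-/

set_option autoImplicit false

namespace Crest.Agent.R013.TopM_803

open Crest.Agent.R013.TopB_803 Crest.Agent.R013.VData_803

/-- **B-MAIN from the end step.** -/
theorem bMain_of_end {p : ℕ} [Fact p.Prime] (h : EndP p) : BMain p :=
  bMain_of (TopL_803.liftP p) (TopN_803.nbP p) h

end Crest.Agent.R013.TopM_803
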