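import Crest.Agent.R013.TopB_803
import Crest.Agent.R013.NB10_92

/-!
# Row 13, part B: `NBP` is a theorem (92's `nb_of_vdata`)
-/

set_option autoImplicit false
set_option linter.unusedSectionVars false
set_option linter.style.haveILetI false

namespace Crest.Agent.R013.TopN_803

open scoped NNReal Topology
open Filter Crest.NumberTheoryR.Sect SE_669 CGood_588 GoodP_797 VData_803 TopB_803
open Crest.Agent.R013.BTor6_914 (Lbar LC LC_le_Lbar)
open Crest.Agent.R013.Set_803 Crest.Agent.R013.Gl946 Crest.Agent.R013.NB_92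
  Crest.Agent.R013.CutCov_92 Crest.Agent.R013.Half_930

/-- `NBDisc` (92) gives `NBData`. -/
theorem nbData_of_disc {p : ℕ} [Fact p.Prime] {k : Type} [Field k] [Algebra ℚ_[p] k]
    [FiniteDimensional ℚ_[p] k] {K : Type} [Field K] [Algebra k K] [Algebra (RatFunc k) K]
    [IsScalarTower k (RatFunc k) K] [FiniteDimensional (RatFunc k) K]
    {v P : Valuation (AlgebraicClosure K) ℝ≥0}
    {C : IntermediateField k (AlgebraicClosure K)} {R : ℝ≥0} {x : K} {q c : AlgebraicClosure K}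
    {s : ℝ≥0} (hs : 1 < s) {π : AlgebraicClosure K} (h : NBDisc p v P C R x q c hs π) :
    NBData p k K P x s hs π v := by
  obtain ⟨C2, f2, hC, D2, E, iE, iu, ic, A, y, hy, hd, π₀, hπ₀, π', hπ'0, hπ'R, rfl, hSD, hL⟩ := h
  have hnt : ∃ z : E, 1 < ‖z‖ := by
    letI := nC D2.hv C2
    letI := A
    obtain ⟨z, hz⟩ := NontriviallyNormedField.non_trivial (α := C2)
    exact ⟨algebraMap C2 E z, by rw [norm_algebraMap']; exact hz⟩
  letI iE' : NontriviallyNormedField E := { iE with non_trivial := hnt }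
  obtain ⟨U, V, iV, iEV, d, X, j, σ, h1, h2, h3, h4, -, h6⟩ := hL
  exact ⟨C2, f2, π'.2, fun e => hπ'0 (Subtype.ext e), q, c, R, D2,
    fun f => hSD _ (IntermediateField.algebraMap_mem _ f), hπ'R, E, iE', A, iu, ic, y, hy, hd, π₀,
    hπ₀, U, V, iV, iEV, d, X, j, σ, h1, h2, h3, h4,
    fun f hf hfU hfD => h6 f hf hfU hfD⟩

/-- **B-NB** for vertex data. -/
theorem nbP (p : ℕ) [hp : Fact p.Prime] : NBP p := by
  intro s hs a hsa k _ _ _ K _ _ _ _ _ hcl hg P x hP hx C π q c R v M l Y hV hL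
  haveI : CharZero k := charZero_of_injective_algebraMap (algebraMap ℚ_[p] k).injective
  have hp0 : (0 : ℝ≥0) < p := by exact_mod_cast hp.out.pos
  have hnp : ‖(p : ℚ_[p])‖₊ = (p : ℝ≥0)⁻¹ := by
    apply NNReal.coe_injective
    rw [coe_nnnorm, Padic.norm_p, NNReal.coe_inv, NNReal.coe_natCast]
  rw [hnp] at hsa hV
  have hsa' : s < (p : ℝ≥0) ^ (a + 1) := by
    have h1 : s ≤ (p : ℝ≥0) ^ a := by
      rw [inv_pow] at hsa
      exact (mul_inv_le_iff₀ (pow_pos hp0 a)).1 hsa |>.trans_eq (one_mul _)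
    refine h1.trans_lt ?_
    exact pow_lt_pow_right₀ (by exact_mod_cast hp.out.one_lt) (Nat.lt_succ_self a)
  obtain ⟨C1, h, hU, h1, h2, h3, h4, h5, h6⟩ := hL
  haveI := h1
  exact nbData_of_disc hs (nb_of_vdata hcl hg hP hx hs hsa' hV (C1 := C1) (h := h)
    { fin := h1
      mem := hU
      ne := h3
      ldiv := h4
      gt := h5
      np := fun C' hC' _ g hg => h6 g (LC_le_Lbar hg) })

end Crest.Agent.R013.TopN_803
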