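import Mathlib
import Crest.Agent.R013.Tors15_235
import Crest.Agent.R013.BTor7_914
import Crest.Agent.R013.GRA_903

/-!
# Row 13, leaf TORS (helper235), part 16: the forms consumed by part B (`TORS` of helper914) and by
C-GR (`InTors` of helper903/helper921).
-/

set_option autoImplicit false
set_option linter.all false

namespace Crest.Agent.R013.Tors16_235

open WithZero Module
open Crest.Agent.R013.RR7_948 Crest.Agent.R013.RR8_948 Crest.Agent.R013.RR11_948
open Crest.Agent.R013.RR12_948 Crest.Agent.R013.GR3_921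

universe u v

/-- 914's form of TORS -/
theorem tors_prop : Crest.Agent.R013.BTor7_914.TORS.{u, v} := by
  intro F L _ _ _ _ _ _ _ _ hg l hl
  obtain ⟨D, f, hf, hD, hn⟩ := Tors15_235.tors (F := F) (K := L) hg hl
  refine ⟨D, f, hf, ?_, fun g hg h => hn g hg h.symm⟩
  rw [← hD, natCast_zsmul]

/-- function form, for any `HasGen` structure -/
theorem exists_h {F : Type u} {K : Type v} [Field F] [IsAlgClosed F] [CharZero F] [Field K]
    [Algebra F K] {g : ℕ} (hK : HasGen F K g) (hg : 1 ≤ g) {l : ℕ} (hl : l.Prime) :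
    ∃ h : K, h ≠ 0 ∧ (∀ P : Pl F K, ∃ m : ℤ, P.v h = exp ((l : ℤ) * m)) ∧
      ∀ f : K, f ^ l ≠ h := by
  obtain ⟨i, j, f, s, rfl⟩ := hK
  obtain ⟨D, h, hh, hD, hn⟩ := Tors15_235.tors (F := F) (K := K) hg hl
  have hD' : divf (k := F) h = (l : ℤ) • D := by rw [← hD, natCast_zsmul]
  refine ⟨h, hh, fun P => ⟨-D P, ?_⟩, ?_⟩
  · rw [v_eq hh, hD']
    congr 1
    simp
  · exact Crest.Agent.R013.BTor7_914.no_root hl.ne_zero hh hD' fun g hg h => hn g hg h.symm

/-- 903's form of TORS -/
theorem inTors (C : Type*) [NormedField C] [IsAlgClosed C] [CharZero C] (p : ℕ)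
    [hp : Fact p.Prime] : Crest.Agent.R013.GRK_903.InTors.{u} C p := by
  intro K _ _ g hK hg
  exact exists_h hK hg hp.out

end Crest.Agent.R013.Tors16_235
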