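import Crest.Agent.R013.U6_337
import Crest.Agent.R013.AAsm_349

/-!
Row 13, part A, leaf A-U (helper337): the frozen interface `HStmt` between the patching part
(helper337) and the assembly of `UTau`.
-/

set_option autoImplicit false

noncomputable section

namespace Crest.Agent.R013.UH_337

open scoped NNReal ENNReal
open Polynomial IntermediateField
open Crest.NumberTheoryR.Sect
open Crest.Agent.R013.LiftA_168 Crest.Agent.R013.U2_337 Crest.Agent.R013.RZ_365
open Crest.Agent.R013.A2b_275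

/-- the data of `rk2_false` at a finite level `L` -/
def DataAt {F M : Type*} [Field F] [Field M] [Algebra F M] (v₀ : Valuation F ℝ≥0) (l : ℕ) (X : F)
    (A₀ A₁ : ValuationSubring F) (L : IntermediateField F M) : Prop :=
  ∃ Y A A' : ValuationSubring L, A ≤ Y ∧ A' ≤ Y ∧
    Y.comap (algebraMap F L) = v₀.valuationSubring ∧ A.comap (algebraMap F L) = A₀ ∧
    A'.comap (algebraMap F L) = A₁ ∧
    (∀ b : L, A.valuation (b ^ l) ≠ A.valuation (algebraMap F L X)) ∧
    (∀ b : L, A'.valuation (b ^ l) ≠ A'.valuation (algebraMap F L X))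

/-- **The patching statement**: if there is no non split pair at a finite level `L`, then there is
`H ∈ M` with `H ^ l` fixed by `σ`, `H ^ l ~ π' g ^ l` at all points with `|X| < 1` and
`H ^ l ~ g ^ l` at all points with `|X| > 1`; here `X = x ^ l / π'`. -/
def HStmt (p : ℕ) [Fact p.Prime] (k : Type*) [Field k] [Algebra ℚ_[p] k]
    (K : Type*) [Field K] [Algebra k K] : Prop :=
  ∀ (σ : maxUnramified k K ≃ₐ[K] maxUnramified k K) (l : ℕ), l.Prime → l ≠ p →
  ∀ (k₁ C : IntermediateField k (maxUnramified k K)), FiniteDimensional k k₁ →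
  ∀ (h₁ : k₁ ≤ C), Algebra.IsAlgebraic k C → (∀ c ∈ C, σ c = c) →
  ∀ (nC : Valuation C ℝ≥0), (∀ q : ℚ_[p], nC (algebraMap k C (algebraMap ℚ_[p] k q)) = ‖q‖₊) →
  ResClosed nC → (∀ r : ℝ≥0, r < 1 → ∃ c, r < nC c ∧ nC c < 1) →
  ∀ (x X : maxUnramified k K) (π' : k₁), π' ≠ 0 →
    X * (π' : maxUnramified k K) = x ^ l → σ x = x → Transcendental k₁ X →
  ∀ (v₀ : Valuation k₁⟮X⟯ ℝ≥0) (A₀ A₁ : ValuationSubring k₁⟮X⟯),
    IsG (nC.comap (IntermediateField.inclusion h₁).toRingHom) v₀ (AdjoinSimple.gen k₁ X) →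
    R2 (nC.comap (IntermediateField.inclusion h₁).toRingHom) (AdjoinSimple.gen k₁ X) A₀ →
    R2 (nC.comap (IntermediateField.inclusion h₁).toRingHom) (AdjoinSimple.gen k₁ X)⁻¹ A₁ →
  ∀ (L : IntermediateField k₁⟮X⟯ (maxUnramified k K)), FiniteDimensional k₁⟮X⟯ L →
    (∀ a ∈ L, σ a = a) → ¬ DataAt v₀ l (AdjoinSimple.gen k₁ X) A₀ A₁ L →
  ∃ H : maxUnramified k K, σ (H ^ l) = H ^ l ∧
    (∀ φ : maxUnramified k K → ℝ≥0∞, IsPt p k (maxUnramified k K) φ → φ X < 1 →
      ∃ g, σ g = g ∧ φ (H ^ l / (π' * g ^ l) - 1) < 1) ∧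
    (∀ φ : maxUnramified k K → ℝ≥0∞, IsPt p k (maxUnramified k K) φ → 1 < φ X →
      ∃ g, σ g = g ∧ φ (H ^ l / g ^ l - 1) < 1)

/-- existence of the Gauss norm and of the rank two ring on `k(X)` -/
def QStmt (F : Type*) [Field F] (k : Type*) [Field k] [Algebra k F] : Prop :=
  ∀ (vk : Valuation k ℝ≥0) (X : F), Transcendental k X → k⟮X⟯ = ⊤ →
    (∃ v₀ : Valuation F ℝ≥0, IsG vk v₀ X) ∧ ∃ B : ValuationSubring F, R2 vk X B

end Crest.Agent.R013.UH_337
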