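import Crest.Agent.R013.UQ_478
import Crest.Agent.R013.UH_337

/-!
Row 13, part A, leaf (Q) of A-U (helper478), file 2: `UH_337.QStmt`, and its instances on `k⟮X⟯`.
-/

set_option autoImplicit false

noncomputable section

namespace Crest.Agent.R013.UQ2_478

open scoped NNReal
open Polynomial IntermediateField
open Crest.Agent.R013.LiftA_168 Crest.Agent.R013.U2_337

theorem hgen_of_top {F k : Type*} [Field F] [Field k] [Algebra k F] {X : F} (h : k⟮X⟯ = ⊤) (f : F) :
    ∃ P Q : k[X], aeval X Q ≠ 0 ∧ f = aeval X P / aeval X Q := by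
  have hf : f ∈ k⟮X⟯ := by rw [h]; trivial
  obtain ⟨r, s, h1⟩ := (IntermediateField.mem_adjoin_simple_iff k f).1 hf
  by_cases hs : aeval X s = 0
  · exact ⟨0, 1, by simp, by rw [h1, hs]; simp⟩
  · exact ⟨r, s, hs, h1⟩

/-- **(Q)** -/
theorem qStmt (F : Type*) [Field F] (k : Type*) [Field k] [Algebra k F] : UH_337.QStmt F k :=
  fun vk X hX h => ⟨UQ_478.exists_isG vk X hX (hgen_of_top h), UQ_478.exists_R2 vk hX⟩

/-- `k⟮X⟯` is generated by `gen`. -/
theorem adjoin_gen (k : Type*) {M : Type*} [Field k] [Field M] [Algebra k M] (X : M) :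
    k⟮AdjoinSimple.gen k X⟯ = (⊤ : IntermediateField k k⟮X⟯) := by
  apply IntermediateField.lift_injective k⟮X⟯
  rw [IntermediateField.lift_adjoin_simple, IntermediateField.lift_top]
  rfl

/-- `gen` is transcendental. -/
theorem transc_gen {k M : Type*} [Field k] [Field M] [Algebra k M] {X : M}
    (h : Transcendental k X) : Transcendental k (AdjoinSimple.gen k X) := by
  intro h1
  apply h
  have h2 : IsAlgebraic k (algebraMap k⟮X⟯ M (AdjoinSimple.gen k X)) := h1.algebraMap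
  rwa [AdjoinSimple.algebraMap_gen] at h2

/-- generation of `k⟮X⟯` by fractions in `gen`. -/
theorem hgen_gen (k : Type*) {M : Type*} [Field k] [Field M] [Algebra k M] (X : M) (f : k⟮X⟯) :
    ∃ P Q : k[X], aeval (AdjoinSimple.gen k X) Q ≠ 0 ∧
      f = aeval (AdjoinSimple.gen k X) P / aeval (AdjoinSimple.gen k X) Q :=
  hgen_of_top (adjoin_gen k X) f

/-- generation of `k⟮X⟯` by fractions in `gen⁻¹`. -/
theorem hgen_gen_inv (k : Type*) {M : Type*} [Field k] [Field M] [Algebra k M] (X : M)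
    (f : k⟮X⟯) : ∃ P Q : k[X], aeval (AdjoinSimple.gen k X)⁻¹ Q ≠ 0 ∧
      f = aeval (AdjoinSimple.gen k X)⁻¹ P / aeval (AdjoinSimple.gen k X)⁻¹ Q := by
  refine hgen_of_top (X := (AdjoinSimple.gen k X)⁻¹) ?_ f
  rw [eq_top_iff, ← adjoin_gen k X, IntermediateField.adjoin_simple_le_iff]
  have h := inv_mem (IntermediateField.mem_adjoin_simple_self k (AdjoinSimple.gen k X)⁻¹)
  rwa [inv_inv] at h

/-- all the valuations needed on `k⟮X⟯`. -/
theorem exists_all {k M : Type*} [Field k] [Field M] [Algebra k M] (vk : Valuation k ℝ≥0) {X : M}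
    (h : Transcendental k X) :
    ∃ (v₀ : Valuation k⟮X⟯ ℝ≥0) (A₀ A₁ : ValuationSubring k⟮X⟯), IsG vk v₀ (AdjoinSimple.gen k X) ∧
      R2 vk (AdjoinSimple.gen k X) A₀ ∧ R2 vk (AdjoinSimple.gen k X)⁻¹ A₁ := by
  have h1 := transc_gen h
  obtain ⟨v₀, hv⟩ := UQ_478.exists_isG vk _ h1 (hgen_gen k X)
  obtain ⟨A₀, hA⟩ := UQ_478.exists_R2 vk h1
  have h2 : Transcendental k (AdjoinSimple.gen k X)⁻¹ := fun h3 => h1 (by
    have h4 := h3.inv
    rwa [inv_inv] at h4)
  obtain ⟨A₁, hA1⟩ := UQ_478.exists_R2 vk h2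
  exact ⟨v₀, A₀, A₁, hv, hA, hA1⟩

end Crest.Agent.R013.UQ2_478
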