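import Crest.Agent.R013.U9_337
import Crest.Agent.R013.UH_337
import Crest.Agent.R013.UQ2_478
import Crest.Agent.R013.LemT5_874

/-!
Row 13, part A, leaf A-U (helper337), file 10: the patching statement `HStmt`.
-/

set_option autoImplicit false
set_option linter.unusedSectionVars false
set_option linter.style.haveILetI false

noncomputable section

namespace Crest.Agent.R013.U10_337

open scoped NNReal ENNReal
open Polynomial IntermediateField
open Crest.NumberTheoryR.Sect
open Crest.Agent.R013.LiftA_168 Crest.Agent.R013.U2_337 Crest.Agent.R013.RZ_365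
open Crest.Agent.R013.U3_337 Crest.Agent.R013.U4_337 Crest.Agent.R013.U6_337
open Crest.Agent.R013.A2b_275 Crest.Agent.R013.U1_337 Crest.Agent.R013.U7_337
open Crest.Agent.R013.U8_337 Crest.Agent.R013.U9_337 Crest.Agent.R013.UH_337

theorem isPt_restrict {p : ℕ} [Fact p.Prime] {k : Type*} [Field k] [Algebra ℚ_[p] k]
    {K M : Type*} [Field K] [Field M] [Algebra k K] [Algebra K M] [Algebra k M]
    [IsScalarTower k K M] {φ : M → ℝ≥0∞} (hφ : IsPt p k M φ) (U : IntermediateField K M) :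
    IsPt p k U (fun a => φ a) where
  add a b := hφ.add a b
  mul a b h1 h2 := hφ.mul a b h1 h2
  inv a ha := hφ.inv a fun h => ha (Subtype.ext h)
  ext c := hφ.ext c

/-- the fixed field over a fixed subfield -/
def fixIF {F K M : Type*} [Field F] [Field K] [Field M] [Algebra K M] [Algebra F M]
    (σ : M ≃ₐ[K] M) (h : ∀ f : F, σ (algebraMap F M f) = algebraMap F M f) :
    IntermediateField F M where
  carrier := {a | σ a = a}
  mul_mem' {a b} ha hb := by
    change σ (a * b) = a * b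
    rw [map_mul, show σ a = a from ha, show σ b = b from hb]
  add_mem' {a b} ha hb := by
    change σ (a + b) = a + b
    rw [map_add, show σ a = a from ha, show σ b = b from hb]
  algebraMap_mem' f := h f
  inv_mem' a ha := by
    change σ a⁻¹ = a⁻¹
    rw [map_inv₀, show σ a = a from ha]

theorem mem_fixIF {F K M : Type*} [Field F] [Field K] [Field M] [Algebra K M] [Algebra F M]
    {σ : M ≃ₐ[K] M} {h : ∀ f : F, σ (algebraMap F M f) = algebraMap F M f} {a : M} :
    a ∈ fixIF σ h ↔ σ a = a := Iff.rfl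

theorem exists_r (a : ℝ≥0) (ha0 : 0 < a) (ha1 : a < 1) (e : ℕ) :
    ∃ r : ℝ≥0, r < 1 ∧ a < r ^ e := by
  rcases Nat.eq_zero_or_pos e with rfl | he
  · exact ⟨0, zero_lt_one, by rw [pow_zero]; exact ha1⟩
  · set r : ℝ≥0 := a ^ (((e + 1 : ℕ) : ℝ)⁻¹) with hr
    have h1 : r ^ (e + 1) = a := NNReal.rpow_inv_natCast_pow a (Nat.succ_ne_zero e)
    have hr0 : 0 < r := by
      rcases eq_or_ne r 0 with h0 | h0
      · rw [h0, zero_pow (Nat.succ_ne_zero e)] at h1
        exact absurd h1 ha0.ne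
      · exact pos_iff_ne_zero.2 h0
    have hr1 : r < 1 := by
      by_contra hcon
      push Not at hcon
      have := one_le_pow₀ (n := e + 1) hcon
      rw [h1] at this
      exact absurd ha1 (not_lt.2 this)
    refine ⟨r, hr1, ?_⟩
    rw [← h1]
    exact pow_lt_pow_right_of_lt_one₀ hr0 hr1 (Nat.lt_succ_self e)

section Alg

open scoped IntermediateField.algebraAdjoinAdjoin in
theorem alg_of_transc {k M : Type*} [Field k] [Field M] [Algebra k M] (y : M)
    (h : ∀ a : M, IsAlgebraic k⟮y⟯ a) (t : M) (ht : Transcendental k t) (a : M) :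
    IsAlgebraic k⟮t⟯ a := by
  have h0 : Algebra.IsAlgebraic k⟮y⟯ M := ⟨h⟩
  have h1 : Algebra.IsAlgebraic (Algebra.adjoin k {y}) M :=
    (IsFractionRing.comap_isAlgebraic_iff (A := Algebra.adjoin k {y})
      (K := IntermediateField.adjoin k {y})).2 h0
  have h2 : Algebra.trdeg k M ≤ 1 := by
    have := Algebra.IsAlgebraic.trdeg_le_cardinalMk k ({y} : Set M)
    simpa using this
  have h3 : AlgebraicIndependent k (fun _ : Unit => t) := algebraicIndependent_unique_type_iff.2 ht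
  have h4 : IsTranscendenceBasis k (fun _ : Unit => t) :=
    h3.isTranscendenceBasis_of_lift_trdeg_le_of_finite (by simpa using h2)
  have h5 := h4.isAlgebraic_field
  have h6 : Set.range (fun _ : Unit => t) = {t} := by simp
  rw [h6] at h5
  exact h5.isAlgebraic a

theorem aeval_mem {k₁ M : Type*} [Field k₁] [Field M] [Algebra k₁ M] {S : Subfield M}
    (hk : ∀ c : k₁, algebraMap k₁ M c ∈ S) {t : M} (ht : t ∈ S) (P : k₁[X]) : aeval t P ∈ S := by
  rw [aeval_eq_sum_range]
  refine sum_mem fun i _ => ?_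
  rw [Algebra.smul_def]
  exact mul_mem (hk _) (pow_mem ht _)

theorem map_mem {k K M : Type*} [Field k] [Field K] [Field M]
    [Algebra k K] [Algebra K M] [Algebra k M] [IsScalarTower k K M] (y₀ : K) (a : K)
    (ha : a ∈ k⟮y₀⟯) : algebraMap K M a ∈ (k⟮algebraMap K M y₀⟯).toSubfield := by
  rw [mem_adjoin_simple_iff] at ha
  obtain ⟨P, Q, rfl⟩ := ha
  rw [map_div₀, ← aeval_algebraMap_apply, ← aeval_algebraMap_apply]
  refine div_mem (aeval_mem (fun c => ?_) ?_ P) (aeval_mem (fun c => ?_) ?_ Q)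
  · exact IntermediateField.algebraMap_mem _ _
  · exact mem_adjoin_simple_self k _
  · exact IntermediateField.algebraMap_mem _ _
  · exact mem_adjoin_simple_self k _

theorem finite_up {k K M : Type*} [Field k] [Field K] [Field M]
    [Algebra k K] [Algebra K M] [Algebra k M] [IsScalarTower k K M] (y₀ : K)
    [FiniteDimensional k⟮y₀⟯ K] [FiniteDimensional K M] :
    FiniteDimensional k⟮algebraMap K M y₀⟯ M := by
  have h1 : FiniteDimensional k⟮y₀⟯ M := FiniteDimensional.trans k⟮y₀⟯ K M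
  let g : k⟮y₀⟯ →+* k⟮algebraMap K M y₀⟯ :=
    ((algebraMap K M).comp (algebraMap k⟮y₀⟯ K)).codRestrict (k⟮algebraMap K M y₀⟯).toSubfield
      fun a => map_mem y₀ _ a.2
  let _ : Algebra k⟮y₀⟯ k⟮algebraMap K M y₀⟯ := g.toAlgebra
  have : IsScalarTower k⟮y₀⟯ k⟮algebraMap K M y₀⟯ M :=
    IsScalarTower.of_algebraMap_eq fun s => IsScalarTower.algebraMap_apply k⟮y₀⟯ K M s
  exact Module.Finite.of_restrictScalars_finite k⟮y₀⟯ k⟮algebraMap K M y₀⟯ M

/-- `M` is algebraic over `k₁(X)` -/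
theorem isAlgebraic_M {k k₁ K M : Type*} [Field k] [Field k₁] [Field K] [Field M] [Algebra k k₁]
    [Algebra k K] [Algebra K M] [Algebra k M] [IsScalarTower k K M] [Algebra k₁ M]
    [IsScalarTower k k₁ M] [Algebra.IsAlgebraic K M] (y₀ : K) [FiniteDimensional k⟮y₀⟯ K] {X : M}
    (hX : Transcendental k X) : Algebra.IsAlgebraic k₁⟮X⟯ M := by
  have h1 : Algebra.IsAlgebraic k⟮y₀⟯ M := Algebra.IsAlgebraic.trans k⟮y₀⟯ K M
  have h2 := map_mem (k := k) (M := M) y₀
  let g : k⟮y₀⟯ →+* k⟮algebraMap K M y₀⟯ :=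
    ((algebraMap K M).comp (algebraMap k⟮y₀⟯ K)).codRestrict (k⟮algebraMap K M y₀⟯).toSubfield
      fun a => h2 _ a.2
  have h3 : ∀ a : M, IsAlgebraic k⟮algebraMap K M y₀⟯ a := fun a =>
    isAlgebraic_mono g (fun s => (IsScalarTower.algebraMap_apply k⟮y₀⟯ K M s).symm)
      (h1.isAlgebraic a)
  have h4 := alg_of_transc _ h3 X hX
  have h5 : ∀ a ∈ k⟮X⟯, a ∈ (k₁⟮X⟯).toSubfield := by
    intro a ha
    rw [mem_adjoin_simple_iff] at ha
    obtain ⟨P, Q, rfl⟩ := ha
    have hk : ∀ c : k, algebraMap k M c ∈ (k₁⟮X⟯).toSubfield := by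
      intro c
      rw [IsScalarTower.algebraMap_apply k k₁ M]
      exact IntermediateField.algebraMap_mem _ _
    exact div_mem (aeval_mem hk (mem_adjoin_simple_self k₁ _) P)
      (aeval_mem hk (mem_adjoin_simple_self k₁ _) Q)
  let g' : k⟮X⟯ →+* k₁⟮X⟯ :=
    (algebraMap k⟮X⟯ M).codRestrict (k₁⟮X⟯).toSubfield fun a => h5 _ a.2
  exact ⟨fun a => isAlgebraic_mono g' (fun _ => rfl) (h4 a)⟩

end Alg

section Main

variable {p : ℕ} [Fact p.Prime] {k k₁ C K M : Type*} [Field k] [Field k₁] [Field C] [Field K]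
  [Field M] [Algebra ℚ_[p] k] [FiniteDimensional ℚ_[p] k] [Algebra k k₁] [FiniteDimensional k k₁]
  [Algebra k C] [Algebra k₁ C] [IsScalarTower k k₁ C] [Algebra.IsAlgebraic k C]
  [Algebra k K] [Algebra K M] [Algebra k M] [IsScalarTower k K M] [Algebra k₁ M]
  [IsScalarTower k k₁ M] [Algebra C M] [IsScalarTower k C M] [IsScalarTower k₁ C M]
  [Algebra.IsAlgebraic K M]

/-- **The patching statement**, abstract form. -/
theorem main (y₀ : K) [FiniteDimensional k⟮y₀⟯ K] (σ : M ≃ₐ[K] M)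
    (hCσ : ∀ c : C, σ (algebraMap C M c) = algebraMap C M c) {l : ℕ} (hl : l.Prime) (hlp : l ≠ p)
    (hKum : ∀ U : IntermediateField K M, FiniteDimensional K U → ∀ h : U,
      (∀ u : Valuation U ℝ≥0, IsPlace k u → ∃ a : U, u h = u a ^ l) → ∃ y : M, y ^ l = h)
    {nC : Valuation C ℝ≥0}
    (hnC : ∀ q : ℚ_[p], nC (algebraMap k C (algebraMap ℚ_[p] k q)) = ‖q‖₊)
    (hres : ResClosed nC) (hdense : ∀ r : ℝ≥0, r < 1 → ∃ c, r < nC c ∧ nC c < 1)
    {vk : Valuation k₁ ℝ≥0} (hCk : ∀ c, nC (algebraMap k₁ C c) = vk c)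
    {x X : M} {π' : k₁} (hπ' : π' ≠ 0) (hX : X * algebraMap k₁ M π' = x ^ l) (hσx : σ x = x)
    (hXt : Transcendental k₁ X) {v₀ : Valuation k₁⟮X⟯ ℝ≥0} {A₀ A₁ : ValuationSubring k₁⟮X⟯}
    (hv₀ : IsG vk v₀ (AdjoinSimple.gen k₁ X)) (hA₀ : R2 vk (AdjoinSimple.gen k₁ X) A₀)
    (hA₁ : R2 vk (AdjoinSimple.gen k₁ X)⁻¹ A₁) (L : IntermediateField k₁⟮X⟯ M)
    [FiniteDimensional k₁⟮X⟯ L] (hLσ : ∀ a ∈ L, σ a = a)
    (hno : ¬ DataAt v₀ l (AdjoinSimple.gen k₁ X) A₀ A₁ L) :
    ∃ H : M, σ (H ^ l) = H ^ l ∧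
      (∀ φ : M → ℝ≥0∞, IsPt p k M φ → φ X < 1 →
        ∃ g, σ g = g ∧ φ (H ^ l / (algebraMap k₁ M π' * g ^ l) - 1) < 1) ∧
      (∀ φ : M → ℝ≥0∞, IsPt p k M φ → 1 < φ X →
        ∃ g, σ g = g ∧ φ (H ^ l / g ^ l - 1) < 1) := by
  classical
  have hσk₁ : ∀ c : k₁, σ (algebraMap k₁ M c) = algebraMap k₁ M c := fun c => by
    rw [IsScalarTower.algebraMap_apply k₁ C M, hCσ]
  have hπ'0 : algebraMap k₁ M π' ≠ 0 := (_root_.map_ne_zero _).2 hπ'
  have hσX : σ X = X := by
    have e : X = x ^ l / algebraMap k₁ M π' := by rw [← hX, mul_div_cancel_right₀ _ hπ'0]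
    rw [e, map_div₀, map_pow, hσx, hσk₁]
  have hσF : ∀ f : k₁⟮X⟯, σ (algebraMap k₁⟮X⟯ M f) = algebraMap k₁⟮X⟯ M f := by
    intro f
    obtain ⟨P, Q, -, hf⟩ := UQ2_478.hgen_gen k₁ X f
    have hP : ∀ P : k₁[X], σ (aeval X P) = aeval X P := by
      intro P
      rw [aeval_eq_sum_range, map_sum]
      refine Finset.sum_congr rfl fun i _ => ?_
      rw [Algebra.smul_def, map_mul, map_pow, hσX, hσk₁]
    rw [hf, map_div₀, ← aeval_algebraMap_apply, ← aeval_algebraMap_apply,
      AdjoinSimple.algebraMap_gen, map_div₀, hP, hP]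
  set E : IntermediateField k₁⟮X⟯ M := fixIF σ hσF with hE
  have hLE : L ≤ E := fun a ha => hLσ a ha
  -- the algebra structures
  letI iC : Algebra C E := RingHom.toAlgebra
    { toFun := fun c => ⟨algebraMap C M c, hCσ c⟩
      map_one' := Subtype.ext (map_one _)
      map_mul' := fun _ _ => Subtype.ext (map_mul _ _ _)
      map_zero' := Subtype.ext (map_zero _)
      map_add' := fun _ _ => Subtype.ext (map_add _ _ _) }
  letI ik : Algebra k E := RingHom.toAlgebra ((algebraMap C E).comp (algebraMap k C))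
  have hCE : ∀ c : C, ((algebraMap C E c : E) : M) = algebraMap C M c := fun _ => rfl
  have hk₁E : ∀ c : k₁, ((algebraMap k₁ E c : E) : M) = algebraMap k₁ M c := fun _ => rfl
  haveI t2 : IsScalarTower k₁ C E := IsScalarTower.of_algebraMap_eq fun c => Subtype.ext (by
    rw [hCE, hk₁E, ← IsScalarTower.algebraMap_apply])
  haveI t3 : IsScalarTower k C E := IsScalarTower.of_algebraMap_eq fun _ => rfl
  haveI t4 : IsScalarTower k k₁ E := IsScalarTower.of_algebraMap_eq fun c => by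
    rw [IsScalarTower.algebraMap_apply k C E, IsScalarTower.algebraMap_apply k₁ C E,
      ← IsScalarTower.algebraMap_apply k k₁ C]
  have hkE : ∀ c : k, ((algebraMap k E c : E) : M) = algebraMap k M c := fun c => by
    rw [IsScalarTower.algebraMap_apply k C E, hCE, ← IsScalarTower.algebraMap_apply]
  have hp : nC (p : C) = (p : ℝ≥0)⁻¹ := by
    have := hnC (p : ℚ_[p])
    rw [map_natCast, map_natCast] at this
    rw [this]
    ext
    rw [coe_nnnorm, Padic.norm_p, NNReal.coe_inv, NNReal.coe_natCast]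
  have hp0 : (0 : ℝ≥0) < (p : ℝ≥0)⁻¹ := by
    have := (Fact.out : p.Prime).pos
    positivity
  have hp1 : (p : ℝ≥0)⁻¹ < 1 := by
    refine inv_lt_one_of_one_lt₀ ?_
    exact_mod_cast (Fact.out : p.Prime).one_lt
  haveI : CharZero k := charZero_of_injective_algebraMap (algebraMap ℚ_[p] k).injective
  haveI : CharZero k₁ := charZero_of_injective_algebraMap (algebraMap k k₁).injective
  have hpk : (p : k₁) ≠ 0 := Nat.cast_ne_zero.2 (Fact.out : p.Prime).ne_zero
  have hpk1 : vk (p : k₁) < 1 := by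
    rw [← hCk, map_natCast, hp]
    exact hp1
  have hXk : Transcendental k X := fun h => hXt (h.tower_top k₁)
  haveI : Algebra.IsAlgebraic k₁⟮X⟯ M := isAlgebraic_M y₀ hXk
  obtain ⟨A, h₀, c₁, e₀, G, hA, hdvd, hh₀, hc₁, hAc, hG0, hG, hplace⟩ :=
    exists_level (vk := vk) (X := AdjoinSimple.gen k₁ X) E hCk hres (UQ2_478.transc_gen hXt)
      (UQ2_478.adjoin_gen k₁ X) hv₀ hA₀ hA₁ hl.ne_zero hpk hpk1 L hLE hno
  -- the radius
  obtain ⟨r, hr1, hr2⟩ := exists_r (nC (p : C)) (by rw [hp]; exact hp0) (by rw [hp]; exact hp1) e₀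
  obtain ⟨π₂, hπ₂r, hπ₂1⟩ := hdense r hr1
  have hπ₂0 : π₂ ≠ 0 := by
    rintro rfl
    rw [map_zero] at hπ₂r
    exact absurd hπ₂r (by simp)
  have hπ₂2 : nC (p : C) < nC π₂ ^ e₀ := hr2.trans_le (pow_le_pow_left₀ zero_le hπ₂r.le _)
  -- the field `U`
  let b := Module.finBasis k k₁
  let S : Set M := {x, X, (h₀ : M), algebraMap C M c₁, algebraMap C M π₂} ∪
    ((fun g : E => (g : M)) '' (G : Set E)) ∪ Set.range (fun i => algebraMap k₁ M (b i))
  have hSσ : ∀ a ∈ S, σ a = a := by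
    rintro a ((ha | ⟨g, -, rfl⟩) | ⟨i, rfl⟩)
    · rcases ha with rfl | rfl | rfl | rfl | rfl
      · exact hσx
      · exact hσX
      · exact h₀.2
      · exact hCσ _
      · exact hCσ _
    · exact g.2
    · exact hσk₁ _
  have hSfin : S.Finite := by
    refine Set.Finite.union (Set.Finite.union (Set.toFinite _) ?_) (Set.finite_range _)
    exact (Finset.finite_toSet G).image _
  haveI : Finite S := hSfin
  set U : IntermediateField K M := IntermediateField.adjoin K S with hU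
  haveI hUfd : FiniteDimensional K U :=
    IntermediateField.finiteDimensional_adjoin fun a _ => Algebra.IsIntegral.isIntegral a
  have hUσ : ∀ a : U, σ (a : M) = a := by
    have h1 : U ≤ fixIF (F := K) σ (fun f => σ.commutes f) :=
      IntermediateField.adjoin_le_iff.2 fun a ha => hSσ a ha
    exact fun a => h1 a.2
  have hSU : ∀ a ∈ S, a ∈ U := fun a ha => IntermediateField.subset_adjoin K S ha
  have hkU : ∀ c : k₁, algebraMap k₁ M c ∈ U := by
    intro c
    rw [← b.sum_repr c, map_sum]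
    refine sum_mem fun i _ => ?_
    rw [Algebra.smul_def, map_mul, ← IsScalarTower.algebraMap_apply k k₁ M,
      IsScalarTower.algebraMap_apply k K M]
    exact mul_mem (U.algebraMap_mem _) (hSU _ (Or.inr ⟨i, rfl⟩))
  letI iU : Algebra U E := RingHom.toAlgebra
    { toFun := fun c => ⟨c.1, hUσ c⟩
      map_one' := rfl
      map_mul' := fun _ _ => rfl
      map_zero' := rfl
      map_add' := fun _ _ => rfl }
  letI ikU : Algebra k₁ U := RingHom.toAlgebra
    { toFun := fun c => ⟨algebraMap k₁ M c, hkU c⟩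
      map_one' := Subtype.ext (map_one _)
      map_mul' := fun _ _ => Subtype.ext (map_mul _ _ _)
      map_zero' := Subtype.ext (map_zero _)
      map_add' := fun _ _ => Subtype.ext (map_add _ _ _) }
  have hUE : ∀ c : U, ((algebraMap U E c : E) : M) = c := fun _ => rfl
  have hk₁U : ∀ c : k₁, ((algebraMap k₁ U c : U) : M) = algebraMap k₁ M c := fun _ => rfl
  have hkU' : ∀ c : k, ((algebraMap k U c : U) : M) = algebraMap k M c := fun _ => rfl
  haveI s1 : IsScalarTower k k₁ U := IsScalarTower.of_algebraMap_eq fun c => Subtype.ext (by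
    rw [hk₁U, hkU', ← IsScalarTower.algebraMap_apply])
  haveI s2 : IsScalarTower k U E := IsScalarTower.of_algebraMap_eq fun c => Subtype.ext (by
    rw [hUE, hkU', hkE])
  haveI s3 : IsScalarTower k₁ U E := IsScalarTower.of_algebraMap_eq fun c => Subtype.ext (by
    rw [hUE, hk₁U, hk₁E])
  -- the elements of `U`
  have mem1 : ∀ a, a ∈ ({x, X, (h₀ : M), algebraMap C M c₁, algebraMap C M π₂} : Set M) → a ∈ U :=
    fun a ha => hSU a (Or.inl (Or.inl ha))
  let X' : U := ⟨X, mem1 X (by simp)⟩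
  let x' : U := ⟨x, mem1 x (by simp)⟩
  let h₀' : U := ⟨h₀, mem1 h₀ (by simp)⟩
  let c₁' : U := ⟨algebraMap C M c₁, mem1 _ (by simp)⟩
  let π₂' : U := ⟨algebraMap C M π₂, mem1 _ (by simp)⟩
  have hGU : ∀ g ∈ G, ∃ g' : U, algebraMap U E g' = g := fun g hg =>
    ⟨⟨(g : M), hSU _ (Or.inl (Or.inr ⟨g, hg, rfl⟩))⟩, rfl⟩
  have eX' : algebraMap U E X' = algebraMap k₁⟮X⟯ E (AdjoinSimple.gen k₁ X) := rfl
  have eh₀ : algebraMap U E h₀' = h₀ := rfl
  have ec₁ : algebraMap U E c₁' = algebraMap C E c₁ := rfl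
  have eπ₂ : algebraMap U E π₂' = algebraMap C E π₂ := rfl
  have hX't : Transcendental k₁ X' := by
    intro h
    apply hXt
    have h1 : IsAlgebraic k₁ (algebraMap U E X') := h.algebraMap
    obtain ⟨P, hP0, hP⟩ := h1
    refine ⟨P, hP0, ?_⟩
    have h2 : ((aeval (algebraMap U E X') P : E) : M) = aeval X P := by
      rw [aeval_eq_sum_range, aeval_eq_sum_range]
      push_cast
      rfl
    rw [← h2, hP]
    rfl
  have hzU : algebraMap U E (zc A X') = zc A (algebraMap k₁⟮X⟯ E (AdjoinSimple.gen k₁ X)) := by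
    rw [zc, zc, map_div₀, ← aeval_algebraMap_apply, ← aeval_algebraMap_apply, eX']
  have heX : U9_337.eX X' c₁' l ≠ 0 := by
    have hc₁alg : IsAlgebraic k₁ c₁' := by
      have h1 : IsAlgebraic k₁ c₁ := (Algebra.IsAlgebraic.isAlgebraic (R := k) c₁).tower_top k₁
      have h2 : IsAlgebraic k₁ (algebraMap U E c₁') := by
        rw [ec₁]
        exact h1.algebraMap
      exact (isAlgebraic_algebraMap_iff (algebraMap U E).injective).1 h2
    refine div_ne_zero ?_ ?_
    · intro h0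
      apply hX't
      rw [eq_neg_of_add_eq_zero_left h0]
      exact (hc₁alg.pow l).neg
    · rintro h0
      apply hX't
      rw [h0]
      exact isAlgebraic_zero
  have hH : U8_337.Hyp p (k₁ := k₁) (U := U) (C := C) (E := E) nC A X' h₀'
      (U9_337.eX X' c₁' l) π₂' π₂ l e₀ G :=
    { hπ₂ := eπ₂
      hπ₂1 := hπ₂1
      hπ₂2 := hπ₂2
      hh₀ := fun h => hh₀ (by rw [← eh₀, h, map_zero])
      he := heX
      hGU := hGU
      hG0 := hG0
      hG := by
        intro O hO1 hO2 hO3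
        rw [hzU] at hO2 hO3
        rw [map_natCast] at hO3
        obtain ⟨g, hg, hg1⟩ := hG O hO1 hO2 (by rw [map_natCast]; exact hO3)
        refine ⟨g, hg, ?_⟩
        rw [map_div₀, eX, map_div₀, map_add, map_pow, eX', eh₀, ec₁]
        exact hg1 }
  have hfdU : FiniteDimensional k⟮algebraMap K U y₀⟯ U := finite_up y₀
  obtain ⟨h, hh0, hpl, hp1', hp2'⟩ := level_result hnC hCk hA hX't hH hdvd hc₁ ec₁ hAc
    (fun O u => hplace X' h₀' eX' eh₀ O u) hl.ne_zero
    (fun h => hlp ((Nat.prime_dvd_prime_iff_eq Fact.out hl).1 h).symm) (algebraMap K U y₀) hπ₂0 x'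
    π' hπ' (Subtype.ext hX)
  obtain ⟨H, hH'⟩ := hKum U hUfd h hpl
  refine ⟨H, ?_, ?_, ?_⟩
  · rw [hH']; exact hUσ h
  · intro φ hφ h1
    obtain ⟨g, -, hg⟩ := hp1' (fun a => φ a) (isPt_restrict hφ U) h1
    refine ⟨g, hUσ g, ?_⟩
    rw [hH']
    exact hg
  · intro φ hφ h1
    obtain ⟨g, -, hg⟩ := hp2' (fun a => φ a) (isPt_restrict hφ U) h1
    refine ⟨g, hUσ g, ?_⟩
    rw [hH']
    exact hg

end Main

section Final

variable {p : ℕ} [Fact p.Prime] {k : Type*} [Field k] [Algebra ℚ_[p] k]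
  [FiniteDimensional ℚ_[p] k] [CharZero k] {K : Type*} [Field K] [Algebra k K]
  [Algebra (RatFunc k) K] [IsScalarTower k (RatFunc k) K] [FiniteDimensional (RatFunc k) K]

theorem hStmt : HStmt p k K := by
  intro σ l hl hlp k₁ C hk₁ h₁ hCalg hCσ nC hnC hres hdense x X π' hπ' hX hσx hXt v₀ A₀ A₁ hv₀
    hA₀ hA₁ L hLfd hLσ hno
  let i1 : Algebra k₁ C := (IntermediateField.inclusion h₁).toRingHom.toAlgebra
  have i2 : @IsScalarTower k k₁ C _ i1.toSMul _ := IsScalarTower.of_algebraMap_eq fun _ => rfl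
  have i3 : @IsScalarTower k₁ C (maxUnramified k K) i1.toSMul _ _ :=
    IsScalarTower.of_algebraMap_eq fun _ => rfl
  have i4 : FiniteDimensional k⟮algebraMap (RatFunc k) K RatFunc.X⟯ K :=
    finite_adjoin RatFunc.adjoin_X
  have h2 : ∀ c : C, σ (algebraMap C (maxUnramified k K) c) = algebraMap C (maxUnramified k K) c :=
    fun c => hCσ c.1 c.2
  have h3 : ∀ U : IntermediateField K (maxUnramified k K), FiniteDimensional K U → ∀ h : U,
      (∀ u : Valuation U ℝ≥0, IsPlace k u → ∃ a : U, u h = u a ^ l) →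
        ∃ y : maxUnramified k K, y ^ l = h :=
    fun U hU h hh => LemT_874.exists_root_of_val U.val hl.ne_zero h hh
  have h4 : ∀ c : k₁, nC (algebraMap k₁ C c) =
      (nC.comap (IntermediateField.inclusion h₁).toRingHom) c := fun c => rfl
  exact main (k₁ := k₁) (C := C) (algebraMap (RatFunc k) K RatFunc.X) σ h2 hl hlp h3 hnC hres
    hdense h4 hπ' hX hσx hXt hv₀ hA₀ hA₁ L hLσ hno

end Final

end Crest.Agent.R013.U10_337
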