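import Crest.Agent.R013.A2b_275

/-!
Row 13, part A, leaf A-U (helper337), file 1: separation of two invariant points by an invariant
element, and the final contradiction: an element whose `l`-th power is close to `1` at an invariant
point is invariant.
-/

set_option autoImplicit false

noncomputable section

namespace Crest.Agent.R013.U1_337

open scoped NNReal ENNReal
open Crest.Agent.R013.A2b_275

variable {p : ℕ} [Fact p.Prime] {k M : Type*} [Field k] [Algebra ℚ_[p] k] [Field M] [Algebra k M]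

/-- powers of a value -/
theorem pt_prod {φ : M → ℝ≥0∞} (h : IsPt p k M φ) {α : ℝ≥0∞} {ι : Type*} (s : Finset ι)
    (f : ι → M) (hf : ∀ i ∈ s, φ (f i) = α) : φ (∏ i ∈ s, f i) = α ^ s.card := by
  classical
  induction s using Finset.induction_on with
  | empty => simp [h.map_one]
  | insert a s ha ih =>
    have h1 : φ (f a) = α := hf a (Finset.mem_insert_self _ _)
    have h2 : φ (∏ i ∈ s, f i) = α ^ s.card := ih fun i hi => hf i (Finset.mem_insert_of_mem hi)
    rw [Finset.prod_insert ha, Finset.card_insert_of_notMem ha, pow_succ', h.mul, h1, h2]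
    · rw [h1, h2]
      by_cases hα : α = 0
      · right
        rw [hα]
        exact ENNReal.pow_ne_top ENNReal.zero_ne_top
      · exact Or.inl hα
    · rw [h1, h2]
      by_cases hα : α = ∞
      · left
        rw [hα]
        intro h0
        rcases Nat.eq_zero_or_pos s.card with h3 | h3
        · rw [h3, pow_zero] at h0
          exact one_ne_zero h0
        · rw [ENNReal.top_pow h3.ne'] at h0
          exact ENNReal.top_ne_zero h0
      · exact Or.inr hα

theorem pow_inj {a b : ℝ≥0∞} {n : ℕ} (hn : n ≠ 0) (h : a ^ n = b ^ n) : a = b :=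
  (ENNReal.pow_right_strictMono hn).injective h

/-- **Separation**: two different points invariant under `σ` (of finite orbits) differ on a
`σ`-invariant element. -/
theorem exists_fixed_ne {φ₁ φ₂ : M → ℝ≥0∞} (h₁ : IsPt p k M φ₁) (h₂ : IsPt p k M φ₂)
    (σ : M ≃+* M) (hfin : ∀ a : M, ∃ n : ℕ, 0 < n ∧ (σ ^ n) a = a)
    (i₁ : ∀ a, φ₁ (σ a) = φ₁ a) (i₂ : ∀ a, φ₂ (σ a) = φ₂ a) (hne : φ₁ ≠ φ₂) :
    ∃ x, σ x = x ∧ φ₁ x ≠ φ₂ x := by
  obtain ⟨a, ha⟩ := Function.ne_iff.1 hne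
  obtain ⟨n, hn, hna⟩ := hfin a
  have key : ∀ φ : M → ℝ≥0∞, (∀ b, φ (σ b) = φ b) → ∀ i : ℕ, φ ((σ ^ i) a) = φ a := by
    intro φ hφ i
    induction i with
    | zero => simp
    | succ i ih =>
      rw [pow_succ', RingAut.mul_apply, hφ, ih]
  refine ⟨∏ i ∈ Finset.range n, (σ ^ i) a, ?_, ?_⟩
  · rw [map_prod]
    have e1 : ∀ i, σ ((σ ^ i) a) = (σ ^ (i + 1)) a := fun i => by
      rw [pow_succ', RingAut.mul_apply]
    rw [Finset.prod_congr rfl fun i _ => e1 i]
    obtain ⟨m, rfl⟩ : ∃ m, n = m + 1 := ⟨n - 1, by omega⟩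
    rw [Finset.prod_range_succ, hna, Finset.prod_range_succ' (fun i => (σ ^ i) a)]
    simp
  · rw [pt_prod h₁ _ _ fun i _ => key φ₁ i₁ i, pt_prod h₂ _ _ fun i _ => key φ₂ i₂ i]
    intro h
    rw [Finset.card_range] at h
    exact ha (pow_inj hn.ne' h)

/-- The unit ball of a point is a valuation ring. -/
def unitRing {φ : M → ℝ≥0∞} (h : IsPt p k M φ) : ValuationSubring M where
  carrier := {a | φ a ≤ 1}
  mul_mem' {a b} ha hb := by
    change φ (a * b) ≤ 1
    have ha' : φ a ≤ 1 := ha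
    have hb' : φ b ≤ 1 := hb
    rw [h.mul a b (Or.inr (ne_top_of_le_ne_top ENNReal.one_ne_top hb'))
      (Or.inr (ne_top_of_le_ne_top ENNReal.one_ne_top ha'))]
    exact mul_le_one' ha' hb'
  one_mem' := by
    change φ 1 ≤ 1
    rw [h.map_one]
  add_mem' {a b} ha hb := (h.add a b).trans (max_le ha hb)
  zero_mem' := by
    change φ 0 ≤ 1
    rw [h.map_zero]
    exact zero_le
  neg_mem' {a} ha := by
    change φ (-a) ≤ 1
    rw [h.map_neg]
    exact ha
  mem_or_inv_mem' a := by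
    change φ a ≤ 1 ∨ φ a⁻¹ ≤ 1
    by_cases ha : a = 0
    · left; rw [ha, h.map_zero]; exact zero_le
    · rw [h.inv a ha, ENNReal.inv_le_one]
      exact le_total _ _

theorem mem_unitRing {φ : M → ℝ≥0∞} (h : IsPt p k M φ) (a : M) : a ∈ unitRing h ↔ φ a ≤ 1 :=
  Iff.rfl

theorem unitRing_lt_one_iff {φ : M → ℝ≥0∞} (h : IsPt p k M φ) (a : M) :
    (unitRing h).valuation a < 1 ↔ φ a < 1 := by
  by_cases ha : a = 0
  · rw [ha, map_zero, h.map_zero]
    simp
  · have h1 : (unitRing h).valuation a < 1 ↔ ¬ (unitRing h).valuation a⁻¹ ≤ 1 := by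
      rw [map_inv₀, not_le, one_lt_inv₀ (zero_lt_iff.2 ((Valuation.ne_zero_iff _).2 ha))]
    rw [h1, ValuationSubring.valuation_le_one_iff, mem_unitRing, h.inv a ha, ENNReal.inv_le_one,
      not_le]

/-- the point lemma: `φ (a * b) < 1` if `φ a ≤ 1`, `φ b < 1` -/
theorem mul_lt {φ : M → ℝ≥0∞} (h : IsPt p k M φ) {a b : M} (ha : φ a ≤ 1) (hb : φ b < 1) :
    φ (a * b) < 1 := by
  rw [h.mul a b (Or.inr (ne_top_of_lt hb))
      (Or.inr (ne_top_of_le_ne_top ENNReal.one_ne_top ha))]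
  calc φ a * φ b ≤ 1 * φ b := mul_le_mul_left ha _
    _ = φ b := one_mul _
    _ < 1 := hb

theorem add_lt {φ : M → ℝ≥0∞} (h : IsPt p k M φ) {a b : M} (ha : φ a < 1) (hb : φ b < 1) :
    φ (a + b) < 1 := (h.add a b).trans_lt (max_lt ha hb)

/-- an `l`-th root of unity close to `1` is `1`. -/
theorem eq_one_of_near {φ : M → ℝ≥0∞} (h : IsPt p k M φ) {l : ℕ} (hl : l.Prime)
    (hlp : φ (l : M) = 1) {η : M} (hη : η ^ l = 1) (h1 : φ (η - 1) < 1) : η = 1 := by
  by_contra hne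
  have hprim : IsPrimitiveRoot η l := by
    have h2 : orderOf η = l := by
      have h3 : orderOf η ∣ l := orderOf_dvd_of_pow_eq_one hη
      rcases (Nat.dvd_prime hl).1 h3 with h4 | h4
      · exact absurd (orderOf_eq_one_iff.1 h4) hne
      · exact h4
    rw [← h2]
    exact IsPrimitiveRoot.orderOf η
  set R := unitRing h
  have hηR : η ∈ R := by
    have h2 : φ (η - 1 + 1) ≤ 1 := (h.add _ _).trans (max_le h1.le h.map_one.le)
    rwa [sub_add_cancel] at h2
  -- sum of η^i, i < l is 0 and is ≡ l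
  have hs : ∑ i ∈ Finset.range l, η ^ i = 0 := hprim.geom_sum_eq_zero hl.one_lt
  have h3 : φ ((l : M) - ∑ i ∈ Finset.range l, η ^ i) < 1 := by
    have e : (l : M) - ∑ i ∈ Finset.range l, η ^ i =
        -(∑ i ∈ Finset.range l, (η ^ i - 1)) := by
      rw [Finset.sum_sub_distrib]
      simp
    rw [e, h.map_neg, ← unitRing_lt_one_iff h]
    refine Valuation.map_sum_lt _ one_ne_zero fun i _ => ?_
    rw [unitRing_lt_one_iff h]
    obtain ⟨q, hq⟩ : ∃ q ∈ R, η ^ i - 1 = q * (η - 1) := by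
      refine ⟨∑ j ∈ Finset.range i, η ^ j, sum_mem fun j _ => pow_mem hηR j, ?_⟩
      rw [geom_sum_mul]
    rw [hq.2]
    exact mul_lt h hq.1 h1
  rw [hs, sub_zero, hlp] at h3
  exact lt_irrefl _ h3

/-- **The final step**: `y ^ l` close to `1` at a `σ`-invariant point and `σ`-invariant implies
that `y` is `σ`-invariant. -/
theorem fixed_of_near_one {φ : M → ℝ≥0∞} (h : IsPt p k M φ) {l : ℕ} (hl : l.Prime)
    (hlp : φ (l : M) = 1) (σ : M ≃+* M) (hσ : ∀ a, φ (σ a) = φ a) {ζ : M}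
    (hζ : IsPrimitiveRoot ζ l) (hσζ : σ ζ = ζ) {y : M} (hy : σ (y ^ l) = y ^ l)
    (h1 : φ (y ^ l - 1) < 1) : σ y = y := by
  have hy0 : y ≠ 0 := by
    rintro rfl
    rw [zero_pow hl.ne_zero, zero_sub, h.map_neg, h.map_one] at h1
    exact lt_irrefl _ h1
  set R := unitRing h
  have hyl : R.valuation (y ^ l) = 1 := by
    have : R.valuation (y ^ l - 1) < R.valuation 1 := by
      rw [map_one]; exact (unitRing_lt_one_iff h _).2 h1
    have h2 := Valuation.map_eq_of_sub_lt _ this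
    rw [h2, map_one]
  have hyu : R.valuation y = 1 := by
    rw [map_pow] at hyl
    exact (pow_eq_one_iff_of_nonneg zero_le hl.ne_zero).1 hyl
  -- product decomposition
  have hprod : ∏ z ∈ Polynomial.nthRootsFinset l (1 : M), (y - z * 1) = y ^ l - 1 ^ l :=
    (hζ.pow_sub_pow_eq_prod_sub_mul y 1 hl.pos).symm
  obtain ⟨z, hz, hz1⟩ : ∃ z ∈ Polynomial.nthRootsFinset l (1 : M), R.valuation (y - z) < 1 := by
    by_contra hcon
    push Not at hcon
    have h3 : 1 ≤ R.valuation (∏ z ∈ Polynomial.nthRootsFinset l (1 : M), (y - z * 1)) := by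
      rw [map_prod]
      refine Finset.one_le_prod' fun z hz => ?_
      rw [mul_one]
      exact hcon z hz
    rw [hprod, one_pow] at h3
    exact absurd ((unitRing_lt_one_iff h _).2 h1) (not_lt.2 h3)
  have hzl : z ^ l = 1 := (Polynomial.mem_nthRootsFinset hl.pos 1).1 hz
  have hσz : σ z = z := by
    have : NeZero l := ⟨hl.ne_zero⟩
    obtain ⟨i, -, rfl⟩ := hζ.eq_pow_of_pow_eq_one hzl
    rw [map_pow, hσζ]
  have hzu : R.valuation z = 1 := by
    have : R.valuation z ^ l = 1 := by rw [← map_pow, hzl, map_one]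
    exact (pow_eq_one_iff_of_nonneg zero_le hl.ne_zero).1 this
  set η := σ y / y with hη
  have hηl : η ^ l = 1 := by
    rw [hη, div_pow, ← map_pow, hy, div_self (pow_ne_zero _ hy0)]
  have hηu : R.valuation η = 1 := by
    have : R.valuation η ^ l = 1 := by rw [← map_pow, hηl, map_one]
    exact (pow_eq_one_iff_of_nonneg zero_le hl.ne_zero).1 this
  have hση : σ y = η * y := by rw [hη, div_mul_cancel₀ _ hy0]
  have h4 : φ (η * y - z) < 1 := by
    rw [← hση, ← hσz, ← map_sub, hσ]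
    exact (unitRing_lt_one_iff h _).1 hz1
  have h5 : φ ((η - 1) * z) < 1 := by
    have e : (η - 1) * z = (η * y - z) + -(η * (y - z)) := by ring
    rw [e]
    refine add_lt h h4 ?_
    rw [h.map_neg]
    refine mul_lt h ?_ ((unitRing_lt_one_iff h _).1 hz1)
    rw [← mem_unitRing h, ← ValuationSubring.valuation_le_one_iff]
    exact hηu.le
  have h6 : φ (η - 1) < 1 := by
    rw [← unitRing_lt_one_iff h] at h5 ⊢
    rwa [map_mul, hzu, mul_one] at h5
  have h7 : η = 1 := eq_one_of_near h hl hlp hηl h6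
  rw [hση, h7, one_mul]

/-- **The contradiction**: `h ~ π'` at one invariant point and `h ~ 1` at another one is
impossible if `σ` moves the `l`-th root `ϖ` of `π'` and `h` has an `l`-th root in `M`. -/
theorem contra {φ₁ φ₂ : M → ℝ≥0∞} (h₁ : IsPt p k M φ₁) (h₂ : IsPt p k M φ₂) {l : ℕ}
    (hl : l.Prime) (hlp : l ≠ p) (σ : M ≃+* M)
    (i₁ : ∀ a, φ₁ (σ a) = φ₁ a) (i₂ : ∀ a, φ₂ (σ a) = φ₂ a) {ζ : M}
    (hζ : IsPrimitiveRoot ζ l) (hσζ : σ ζ = ζ) {H ϖ g₁ g₂ : M} (hϖ : σ ϖ ≠ ϖ)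
    (hHσ : σ (H ^ l) = H ^ l) (hϖσ : σ (ϖ ^ l) = ϖ ^ l) (hg₁ : σ g₁ = g₁) (hg₂ : σ g₂ = g₂)
    (n₁ : φ₁ (H ^ l / (ϖ ^ l * g₁ ^ l) - 1) < 1) (n₂ : φ₂ (H ^ l / g₂ ^ l - 1) < 1) : False := by
  have hl1 : ‖((l : ℚ_[p]))‖₊ = 1 := by
    have : ‖((l : ℚ_[p]))‖ = 1 := by
      rw [Padic.norm_natCast_eq_one_iff]
      exact (Nat.coprime_primes Fact.out hl).2 hlp.symm
    exact NNReal.eq this
  have hval : ∀ φ : M → ℝ≥0∞, IsPt p k M φ → φ (l : M) = 1 := by
    intro φ hφ
    have := hφ.ext (l : ℚ_[p])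
    rw [map_natCast, map_natCast, hl1] at this
    exact this
  have a₁ : σ (H / (ϖ * g₁)) = H / (ϖ * g₁) := by
    refine fixed_of_near_one h₁ hl (hval φ₁ h₁) σ i₁ hζ hσζ ?_ ?_
    · rw [div_pow, mul_pow, map_div₀, map_mul, hHσ, hϖσ, map_pow, hg₁]
    · rwa [div_pow, mul_pow]
  have a₂ : σ (H / g₂) = H / g₂ := by
    refine fixed_of_near_one h₂ hl (hval φ₂ h₂) σ i₂ hζ hσζ ?_ ?_
    · rw [div_pow, map_div₀, hHσ, map_pow, hg₂]
    · rwa [div_pow]
  have hH0 : H ≠ 0 := by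
    rintro rfl
    rw [zero_pow hl.ne_zero, zero_div, zero_sub, h₂.map_neg, h₂.map_one] at n₂
    exact lt_irrefl _ n₂
  have hg20 : g₂ ≠ 0 := by
    rintro rfl
    rw [zero_pow hl.ne_zero, div_zero, zero_sub, h₂.map_neg, h₂.map_one] at n₂
    exact lt_irrefl _ n₂
  have hg10 : ϖ * g₁ ≠ 0 := by
    intro h0
    rw [← mul_pow, h0, zero_pow hl.ne_zero, div_zero, zero_sub, h₁.map_neg, h₁.map_one] at n₁
    exact lt_irrefl _ n₁
  have b₂ : σ H = H := by
    rw [map_div₀, hg₂] at a₂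
    exact (div_left_inj' hg20).1 a₂
  rw [map_div₀, b₂, map_mul, hg₁] at a₁
  have hσϖ0 : σ ϖ * g₁ ≠ 0 := by
    refine mul_ne_zero ?_ (right_ne_zero_of_mul hg10)
    rw [Ne, map_eq_zero]
    exact left_ne_zero_of_mul hg10
  rw [div_eq_div_iff hσϖ0 hg10] at a₁
  have b₁ := mul_left_cancel₀ hH0 a₁
  exact hϖ (mul_right_cancel₀ (right_ne_zero_of_mul hg10) b₁).symm

end Crest.Agent.R013.U1_337
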