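import Crest.Agent.R013.LiftA_168

/-!
Row 13, part A, leaf A-U (helper337), file 2: rank two valuation rings `(η; X = 0)` over the Gauss
norm: uniqueness on `k(X)`, values, existence.
-/

set_option autoImplicit false

noncomputable section

namespace Crest.Agent.R013.U2_337

open scoped NNReal
open Polynomial
open Crest.Agent.R013.LiftA_168

variable {k F : Type*} [Field k] [Field F] [Algebra k F] (vk : Valuation k ℝ≥0) (X : F)

/-- A valuation ring composed of a norm over the Gauss norm `|X| = 1` and of a place of its residue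
field with `X = 0`. -/
structure R2 (B : ValuationSubring F) : Prop where
  int : ∀ c : k, vk c ≤ 1 → algebraMap k F c ∈ B
  ne : X ≠ 0
  small : ∀ c : k, vk c < 1 → ∀ n : ℕ, B.valuation (algebraMap k F c) < B.valuation X ^ n
  lt : B.valuation X < 1

variable {vk X}

theorem R2.X_pos {B : ValuationSubring F} (h : R2 vk X B) : 0 < B.valuation X :=
  zero_lt_iff.2 ((Valuation.ne_zero_iff _).2 h.ne)

theorem R2.val_one {B : ValuationSubring F} (h : R2 vk X B) {c : k} (hc : vk c = 1) :
    B.valuation (algebraMap k F c) = 1 := by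
  have hc0 : c ≠ 0 := by rintro rfl; rw [map_zero] at hc; exact zero_ne_one hc
  apply le_antisymm
  · exact (B.valuation_le_one_iff _).2 (h.int c hc.le)
  · have h1 := (B.valuation_le_one_iff _).2 (h.int c⁻¹ (by rw [map_inv₀, hc, inv_one]))
    rw [map_inv₀, map_inv₀] at h1
    exact (inv_le_one₀ (zero_lt_iff.2 ((Valuation.ne_zero_iff _).2
      ((_root_.map_ne_zero _).2 hc0)))).1 h1

theorem R2.ratio {B : ValuationSubring F} (h : R2 vk X B) {a b : k} (hb : b ≠ 0)
    (hab : vk a ≤ vk b) : B.valuation (algebraMap k F a) ≤ B.valuation (algebraMap k F b) := by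
  have hb' : algebraMap k F b ≠ 0 := (_root_.map_ne_zero _).2 hb
  have h1 : algebraMap k F (a / b) ∈ B := by
    refine h.int _ ?_
    rw [map_div₀]
    exact div_le_one_of_le₀ hab zero_le
  have h2 := (B.valuation_le_one_iff _).2 h1
  rw [map_div₀, map_div₀] at h2
  exact (div_le_one₀ (zero_lt_iff.2 ((Valuation.ne_zero_iff _).2 hb'))).1 h2

theorem R2.ratio_lt {B : ValuationSubring F} (h : R2 vk X B) {a b : k} (hb : b ≠ 0)
    (hab : vk a < vk b) (n : ℕ) :
    B.valuation (algebraMap k F a) < B.valuation (algebraMap k F b) * B.valuation X ^ n := by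
  have hb' : algebraMap k F b ≠ 0 := (_root_.map_ne_zero _).2 hb
  have h1 : vk (a / b) < 1 := by
    rw [map_div₀]
    exact (div_lt_one₀ (zero_lt_iff.2 ((Valuation.ne_zero_iff _).2 hb))).2 hab
  have h2 := h.small _ h1 n
  rw [map_div₀, map_div₀] at h2
  rw [mul_comm]
  exact (div_lt_iff₀ (zero_lt_iff.2 ((Valuation.ne_zero_iff _).2 hb'))).1 h2

/-- the dominant term of a polynomial -/
theorem exists_index (P : k[X]) (hP : P ≠ 0) :
    ∃ j, P.coeff j ≠ 0 ∧ (∀ i, vk (P.coeff i) ≤ vk (P.coeff j)) ∧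
      ∀ i < j, vk (P.coeff i) < vk (P.coeff j) := by
  classical
  obtain ⟨m, hm, hmax⟩ := P.support.exists_max_image (fun i => vk (P.coeff i))
    (Polynomial.support_nonempty.2 hP)
  have hex : ∃ j, vk (P.coeff j) = vk (P.coeff m) := ⟨m, rfl⟩
  have hmax' : ∀ i, vk (P.coeff i) ≤ vk (P.coeff m) := by
    intro i
    by_cases hi : i ∈ P.support
    · exact hmax i hi
    · rw [Polynomial.notMem_support_iff.1 hi, map_zero]; exact zero_le
  have hm0 : vk (P.coeff m) ≠ 0 := (Valuation.ne_zero_iff _).2 (Polynomial.mem_support_iff.1 hm)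
  refine ⟨Nat.find hex, ?_, ?_, ?_⟩
  · intro h0
    have := Nat.find_spec hex
    rw [h0, map_zero] at this
    exact hm0 this.symm
  · intro i
    rw [Nat.find_spec hex]
    exact hmax' i
  · intro i hi
    rw [Nat.find_spec hex]
    exact lt_of_le_of_ne (hmax' i) (Nat.find_min hex hi)

theorem R2.dom {B : ValuationSubring F} (h : R2 vk X B) (P : k[X]) {j : ℕ}
    (hj : P.coeff j ≠ 0) (h1 : ∀ i, vk (P.coeff i) ≤ vk (P.coeff j))
    (h2 : ∀ i < j, vk (P.coeff i) < vk (P.coeff j)) :
    B.valuation (aeval X P) =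
      B.valuation (algebraMap k F (P.coeff j)) * B.valuation X ^ j := by
  have hjs : j ∈ P.support := Polynomial.mem_support_iff.2 hj
  have hpos : 0 < B.valuation (algebraMap k F (P.coeff j)) * B.valuation X ^ j :=
    mul_pos (zero_lt_iff.2 ((Valuation.ne_zero_iff _).2 ((_root_.map_ne_zero _).2 hj)))
      (pow_pos h.X_pos _)
  have e1 : aeval X P = ∑ i ∈ P.support, algebraMap k F (P.coeff i) * X ^ i := by
    rw [aeval_def, eval₂_eq_sum, Polynomial.sum]
  have e2 : aeval X P - algebraMap k F (P.coeff j) * X ^ j =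
      ∑ i ∈ P.support.erase j, algebraMap k F (P.coeff i) * X ^ i := by
    rw [e1, ← Finset.add_sum_erase _ _ hjs]; ring
  have e3 : B.valuation (aeval X P - algebraMap k F (P.coeff j) * X ^ j) <
      B.valuation (algebraMap k F (P.coeff j) * X ^ j) := by
    rw [e2]
    refine Valuation.map_sum_lt _ ?_ fun i hi => ?_
    · rw [map_mul, map_pow]; exact hpos.ne'
    · rw [map_mul, map_pow, map_mul, map_pow]
      rcases lt_or_gt_of_ne (Finset.ne_of_mem_erase hi) with hij | hij
      · have := h.ratio_lt hj (h2 i hij) (j - i)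
        calc B.valuation (algebraMap k F (P.coeff i)) * B.valuation X ^ i
            < (B.valuation (algebraMap k F (P.coeff j)) * B.valuation X ^ (j - i)) *
                B.valuation X ^ i := mul_lt_mul_of_pos_right this (pow_pos h.X_pos _)
          _ = _ := by rw [mul_assoc, ← pow_add]; congr 2; omega
      · have hle := h.ratio hj (h1 i)
        have hp : 0 < B.valuation (algebraMap k F (P.coeff j)) :=
          zero_lt_iff.2 ((Valuation.ne_zero_iff _).2 ((_root_.map_ne_zero _).2 hj))
        calc B.valuation (algebraMap k F (P.coeff i)) * B.valuation X ^ i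
            ≤ B.valuation (algebraMap k F (P.coeff j)) * B.valuation X ^ i :=
              mul_le_mul_left hle _
          _ < B.valuation (algebraMap k F (P.coeff j)) * B.valuation X ^ j := by
              refine mul_lt_mul_of_pos_left ?_ hp
              exact pow_lt_pow_right_of_lt_one₀ h.X_pos h.lt hij
  have := Valuation.map_eq_of_sub_lt _ e3
  rw [this, map_mul, map_pow]

/-- the common form of an element of `k(X)` at all rings of type `R2` and all Gauss norms -/
theorem exists_form (hgen : ∀ f : F, ∃ P Q : k[X], aeval X Q ≠ 0 ∧ f = aeval X P / aeval X Q)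
    (f : F) (hf : f ≠ 0) : ∃ (a : k) (m : ℤ), a ≠ 0 ∧
      (∀ B : ValuationSubring F, R2 vk X B →
        B.valuation f = B.valuation (algebraMap k F a) * B.valuation X ^ m) ∧
      ∀ v : Valuation F ℝ≥0, IsG vk v X → v f = vk a := by
  obtain ⟨P, Q, hQ, rfl⟩ := hgen f
  have hQ0 : Q ≠ 0 := by rintro rfl; exact hQ (map_zero _)
  have hP0 : P ≠ 0 := by rintro rfl; rw [map_zero, zero_div] at hf; exact hf rfl
  obtain ⟨i, hi, hi1, hi2⟩ := exists_index (vk := vk) P hP0
  obtain ⟨j, hj, hj1, hj2⟩ := exists_index (vk := vk) Q hQ0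
  refine ⟨P.coeff i / Q.coeff j, (i : ℤ) - j, div_ne_zero hi hj, ?_, ?_⟩
  · intro B hB
    rw [map_div₀, hB.dom P hi hi1 hi2, hB.dom Q hj hj1 hj2, map_div₀, map_div₀,
      zpow_sub₀ hB.X_pos.ne', zpow_natCast, zpow_natCast, mul_div_mul_comm]
  · intro v hv
    rw [map_div₀, hv.aeval_eq P hi1, hv.aeval_eq Q hj1, map_div₀]

theorem R2.le_one_iff {B : ValuationSubring F} (h : R2 vk X B) {a : k} (ha : a ≠ 0) (m : ℤ) :
    B.valuation (algebraMap k F a) * B.valuation X ^ m ≤ 1 ↔ vk a < 1 ∨ (vk a = 1 ∧ 0 ≤ m) := by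
  have hX := h.X_pos
  rcases lt_trichotomy (vk a) 1 with h1 | h1 | h1
  · refine iff_of_true ?_ (Or.inl h1)
    have h2 := h.small a h1 m.natAbs
    rcases Int.natAbs_eq m with h3 | h3
    · rw [h3, zpow_natCast]
      calc _ ≤ (1 : B.ValueGroup) * B.valuation X ^ m.natAbs :=
            mul_le_mul_left ((h.small a h1 0).le.trans (by rw [pow_zero])) _
        _ ≤ 1 * 1 := mul_le_mul_right (pow_le_one₀ zero_le h.lt.le) _
        _ = 1 := one_mul _
    · rw [h3, zpow_neg, zpow_natCast]
      exact (mul_inv_lt_iff₀ (pow_pos hX _)).2 (by rwa [one_mul]) |>.le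
  · rw [h.val_one h1, one_mul]
    constructor
    · intro h2
      refine Or.inr ⟨h1, ?_⟩
      by_contra hm
      push Not at hm
      obtain ⟨n, rfl⟩ : ∃ n : ℕ, m = -(n + 1 : ℕ) := ⟨(-m - 1).toNat, by omega⟩
      rw [zpow_neg, zpow_natCast] at h2
      have h3 := (inv_le_one₀ (pow_pos hX _)).1 h2
      exact absurd (pow_lt_one₀ zero_le h.lt (Nat.succ_ne_zero n)) (not_lt.2 h3)
    · rintro (h2 | ⟨-, h2⟩)
      · exact absurd h2 (by rw [h1]; exact lt_irrefl _)
      · obtain ⟨n, rfl⟩ := Int.eq_ofNat_of_zero_le h2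
        rw [zpow_natCast]
        exact pow_le_one₀ zero_le h.lt.le
  · refine iff_of_false ?_ ?_
    · intro h2
      have hai : vk a⁻¹ < 1 := by
        rw [map_inv₀]; exact inv_lt_one_of_one_lt₀ h1
      have hB0 : 0 < B.valuation (algebraMap k F a) :=
        zero_lt_iff.2 ((Valuation.ne_zero_iff _).2 ((_root_.map_ne_zero _).2 ha))
      have h3 := h.small a⁻¹ hai m.natAbs
      rw [map_inv₀, map_inv₀] at h3
      have h4 : B.valuation X ^ m.natAbs ≤ B.valuation X ^ m := by
        rw [← zpow_natCast]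
        rcases Int.natAbs_eq m with h5 | h5
        · rw [← h5]
        · have h6 : m ≤ (m.natAbs : ℤ) := by omega
          exact zpow_le_zpow_right_of_le_one₀ hX h.lt.le h6
      have h7 : (B.valuation (algebraMap k F a))⁻¹ < B.valuation X ^ m := h3.trans_le h4
      rw [inv_lt_iff_one_lt_mul₀ hB0, mul_comm] at h7
      exact absurd h2 (not_le.2 h7)
    · rintro (h2 | ⟨h2, -⟩)
      · exact absurd h2 (not_lt.2 h1.le)
      · exact absurd h2 h1.ne'

/-- **Uniqueness** of the rank two ring on `k(X)`. -/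
theorem R2.unique (hgen : ∀ f : F, ∃ P Q : k[X], aeval X Q ≠ 0 ∧ f = aeval X P / aeval X Q)
    {B B' : ValuationSubring F} (h : R2 vk X B) (h' : R2 vk X B') : B = B' := by
  ext f
  by_cases hf : f = 0
  · rw [hf]; exact iff_of_true B.zero_mem B'.zero_mem
  · obtain ⟨a, m, ha, h1, -⟩ := exists_form (vk := vk) hgen f hf
    rw [← B.valuation_le_one_iff, ← B'.valuation_le_one_iff, h1 B h, h1 B' h', h.le_one_iff ha,
      h'.le_one_iff ha]

/-- `hd` of `rk2_false`: a unit of the Gauss norm is a power of `X` times a unit of `B`. -/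
theorem R2.exists_zpow (hgen : ∀ f : F, ∃ P Q : k[X], aeval X Q ≠ 0 ∧ f = aeval X P / aeval X Q)
    {B : ValuationSubring F} (h : R2 vk X B) {v : Valuation F ℝ≥0} (hv : IsG vk v X) {f : F}
    (hf : v f = 1) : ∃ n : ℤ, B.valuation (f * X ^ n) = 1 := by
  have hf0 : f ≠ 0 := by rintro rfl; rw [map_zero] at hf; exact zero_ne_one hf
  obtain ⟨a, m, ha, h1, h2⟩ := exists_form (vk := vk) hgen f hf0
  have h3 : vk a = 1 := (h2 v hv).symm.trans hf
  refine ⟨-m, ?_⟩
  rw [map_mul, h1 B h, h.val_one h3, one_mul, map_zpow₀, zpow_neg,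
    mul_inv_cancel₀ (zpow_ne_zero _ h.X_pos.ne')]

end Crest.Agent.R013.U2_337
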