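import Crest.Agent.R013.U2_337
import Crest.Agent.R013.RZ2_365

/-!
Row 13, part A, leaf A-U (helper337), file 3: at every composite valuation ring `O` over `z = 0`,
`z = A(X) / (1 + X A(X))`, the element `h₀ / e`, `e = (X + c₁ ^ l) / X`, is an `l`-th power up to
`1`-units.
-/

set_option autoImplicit false

noncomputable section

namespace Crest.Agent.R013.U3_337

open scoped NNReal
open Polynomial IntermediateField
open Crest.Agent.R013.LiftA_168 Crest.Agent.R013.U2_337 Crest.Agent.R013.RZ_365

section General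

variable {k K : Type*} [Field k] [Field K] [Algebra k K] {vk : Valuation k ℝ≥0}
  {O : ValuationSubring K}

theorem val_pos {Γ : Type*} [LinearOrderedCommGroupWithZero Γ] (w : Valuation K Γ) {a : K}
    (ha : a ≠ 0) : 0 < w a := zero_lt_iff.2 ((Valuation.ne_zero_iff _).2 ha)

theorem le_one (hO : ∀ c : k, vk c ≤ 1 → algebraMap k K c ∈ O) {c : k} (hc : vk c ≤ 1) :
    O.valuation (algebraMap k K c) ≤ 1 := (O.valuation_le_one_iff _).2 (hO c hc)

theorem eq_one (hO : ∀ c : k, vk c ≤ 1 → algebraMap k K c ∈ O) {c : k} (hc : vk c = 1) :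
    O.valuation (algebraMap k K c) = 1 := by
  have hc0 : c ≠ 0 := by rintro rfl; rw [map_zero] at hc; exact zero_ne_one hc
  refine le_antisymm (le_one hO hc.le) ?_
  have h1 := le_one hO (c := c⁻¹) (by rw [map_inv₀, hc, inv_one])
  rw [map_inv₀, map_inv₀] at h1
  exact (inv_le_one₀ (val_pos _ ((_root_.map_ne_zero _).2 hc0))).1 h1

theorem aeval_le (hO : ∀ c : k, vk c ≤ 1 → algebraMap k K c ∈ O) {A : k[X]}
    (hA : ∀ i, vk (A.coeff i) ≤ 1) {t : K} (ht : O.valuation t ≤ 1) :
    O.valuation (aeval t A) ≤ 1 := by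
  rw [aeval_eq_sum_range]
  refine Valuation.map_sum_le _ fun i _ => ?_
  rw [Algebra.smul_def, map_mul, map_pow]
  exact mul_le_one' (le_one hO (hA i)) (pow_le_one₀ zero_le ht)

theorem aeval_of_gt (hO : ∀ c : k, vk c ≤ 1 → algebraMap k K c ∈ O) {A : k[X]} (hA : MI vk A)
    {t : K} (ht : 1 < O.valuation t) : 1 ≤ O.valuation (aeval t A) := by
  have ht0 : t ≠ 0 := by rintro rfl; rw [map_zero] at ht; exact absurd ht (by simp)
  rw [aeval_eq_sum_range, Finset.sum_range_succ, hA.monic.coeff_natDegree, one_smul]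
  have h1 : O.valuation (∑ i ∈ Finset.range A.natDegree, A.coeff i • t ^ i) <
      O.valuation (t ^ A.natDegree) := by
    refine Valuation.map_sum_lt _ ?_ fun i hi => ?_
    · exact (Valuation.ne_zero_iff _).2 (pow_ne_zero _ ht0)
    · rw [Algebra.smul_def, map_mul, map_pow, map_pow]
      calc O.valuation (algebraMap k K (A.coeff i)) * O.valuation t ^ i
          ≤ 1 * O.valuation t ^ i := mul_le_mul_left (le_one hO (hA.le i)) _
        _ = O.valuation t ^ i := one_mul _
        _ < O.valuation t ^ A.natDegree := pow_lt_pow_right₀ ht (Finset.mem_range.1 hi)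
  rw [Valuation.map_add_eq_of_lt_right _ h1, map_pow]
  exact one_le_pow₀ ht.le

/-- Taylor: `A(s) ≡ A(t)` if `s ≡ t`. -/
theorem aeval_congr (hO : ∀ c : k, vk c ≤ 1 → algebraMap k K c ∈ O) {A : k[X]}
    (hA : ∀ i, vk (A.coeff i) ≤ 1) {s t : K} (hs : O.valuation s ≤ 1) (ht : O.valuation t ≤ 1)
    (h : O.valuation (s - t) < 1) : O.valuation (aeval s A - aeval t A) < 1 := by
  rw [aeval_eq_sum_range, aeval_eq_sum_range, ← Finset.sum_sub_distrib]
  refine Valuation.map_sum_lt _ one_ne_zero fun i _ => ?_
  rw [← smul_sub, Algebra.smul_def, map_mul]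
  have h1 : O.valuation (s ^ i - t ^ i) < 1 := by
    obtain ⟨q, hq, hq1⟩ : ∃ q, O.valuation q ≤ 1 ∧ s ^ i - t ^ i = (s - t) * q := by
      refine ⟨∑ j ∈ Finset.range i, s ^ j * t ^ (i - 1 - j), ?_, ?_⟩
      · refine Valuation.map_sum_le _ fun j _ => ?_
        rw [map_mul, map_pow, map_pow]
        exact mul_le_one' (pow_le_one₀ zero_le hs) (pow_le_one₀ zero_le ht)
      · exact ((Commute.all s t).mul_geom_sum₂ i).symm
    rw [hq1, map_mul]
    calc O.valuation (s - t) * O.valuation q ≤ O.valuation (s - t) * 1 := mul_le_mul_right hq _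
      _ = O.valuation (s - t) := mul_one _
      _ < 1 := h
  calc O.valuation (algebraMap k K (A.coeff i)) * O.valuation (s ^ i - t ^ i)
      ≤ 1 * O.valuation (s ^ i - t ^ i) := mul_le_mul_left (le_one hO (hA i)) _
    _ = O.valuation (s ^ i - t ^ i) := one_mul _
    _ < 1 := h1

/-- the three regions: `z` small at `O` means `X` infinite or `A(X)` small -/
theorem zc_lt_iff (hO : ∀ c : k, vk c ≤ 1 → algebraMap k K c ∈ O) {A : k[X]} (hA : MI vk A)
    {t : K} (hne : aeval t (1 + X * A) ≠ 0) : O.valuation (zc A t) < 1 ↔ 1 < O.valuation t ∨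
      (O.valuation t ≤ 1 ∧ O.valuation (aeval t A) < 1) := by
  have hD : aeval t (1 + X * A) = 1 + t * aeval t A := by
    rw [map_add, map_mul, aeval_X, map_one]
  rcases lt_or_ge 1 (O.valuation t) with ht | ht
  · refine iff_of_true ?_ (Or.inl ht)
    have h1 := aeval_of_gt hO hA ht
    have h0 : aeval t A ≠ 0 := by
      intro h0; rw [h0, map_zero] at h1; exact absurd h1 (by simp)
    have h2 : 1 < O.valuation (t * aeval t A) := by
      rw [map_mul]
      calc (1 : O.ValueGroup) < O.valuation t := ht
        _ = O.valuation t * 1 := (mul_one _).symm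
        _ ≤ O.valuation t * O.valuation (aeval t A) := mul_le_mul_right h1 _
    have h3 : O.valuation (1 + t * aeval t A) = O.valuation t * O.valuation (aeval t A) := by
      rw [Valuation.map_add_eq_of_lt_right _ (by rw [map_one]; exact h2), map_mul]
    rw [zc, hD, map_div₀, h3, div_lt_one₀ (by rw [← map_mul]; exact zero_lt_one.trans h2)]
    calc O.valuation (aeval t A) = 1 * O.valuation (aeval t A) := (one_mul _).symm
      _ < O.valuation t * O.valuation (aeval t A) := mul_lt_mul_of_pos_right ht (val_pos _ h0)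
  · constructor
    · intro h
      refine Or.inr ⟨ht, ?_⟩
      by_contra hcon
      push Not at hcon
      have h1 : O.valuation (aeval t A) = 1 := le_antisymm (aeval_le hO hA.le ht) hcon
      have h2 : O.valuation (aeval t (1 + X * A)) ≤ 1 := aeval_le hO hA.den.le ht
      rw [zc, map_div₀, h1] at h
      rw [div_lt_one₀ (val_pos _ hne)] at h
      exact absurd h (not_lt.2 h2)
    · rintro (h | ⟨-, h⟩)
      · exact absurd h (not_lt.2 ht)
      · have h1 : O.valuation (t * aeval t A) < 1 := by
          rw [map_mul]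
          calc O.valuation t * O.valuation (aeval t A) ≤ 1 * O.valuation (aeval t A) :=
                mul_le_mul_left ht _
            _ = O.valuation (aeval t A) := one_mul _
            _ < 1 := h
        have h2 : O.valuation (1 + t * aeval t A) = 1 := by
          rw [Valuation.map_add_eq_of_lt_left _ (by rw [map_one]; exact h1), map_one]
        rwa [zc, hD, map_div₀, h2, div_one]

end General

end Crest.Agent.R013.U3_337
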