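import Crest.Agent.R013.U3_337

/-!
Row 13, part A, leaf A-U (helper337), file 4: at every composite valuation ring `O` over `z = 0`,
`z = A(X) / (1 + X A(X))`, the element `h₀ / e`, `e = (X + c₁ ^ l) / X`, is an `l`-th power up to
`1`-units.
-/

set_option autoImplicit false

noncomputable section

namespace Crest.Agent.R013.U4_337

open scoped NNReal
open Polynomial IntermediateField
open Crest.Agent.R013.LiftA_168 Crest.Agent.R013.U2_337 Crest.Agent.R013.RZ_365
open Crest.Agent.R013.U3_337

section Small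

variable {K : Type*} [Field K] {O : ValuationSubring K}

theorem val_eq_one_of_near {a : K} (h : O.valuation (a - 1) < 1) : O.valuation a = 1 := by
  have h1 : O.valuation (a - 1) < O.valuation 1 := by rwa [map_one]
  have h2 := Valuation.map_eq_of_sub_lt _ h1
  rwa [map_one] at h2

theorem near_mul {a b : K} (ha : O.valuation (a - 1) < 1) (hb : O.valuation (b - 1) < 1) :
    O.valuation (a * b - 1) < 1 := by
  have e : a * b - 1 = a * (b - 1) + (a - 1) := by ring
  rw [e]
  refine Valuation.map_add_lt _ ?_ ha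
  rw [map_mul, val_eq_one_of_near ha, one_mul]
  exact hb

theorem near_inv {a : K} (ha : O.valuation (a - 1) < 1) : O.valuation (a⁻¹ - 1) < 1 := by
  have h1 := val_eq_one_of_near ha
  have ha0 : a ≠ 0 := by rintro rfl; rw [map_zero] at h1; exact zero_ne_one h1
  have e : a⁻¹ - 1 = -(a⁻¹ * (a - 1)) := by field_simp; ring
  rw [e, Valuation.map_neg, map_mul, map_inv₀, h1, inv_one, one_mul]
  exact ha

theorem near_div {a b : K} (ha : O.valuation (a - 1) < 1) (hb : O.valuation (b - 1) < 1) :
    O.valuation (a / b - 1) < 1 := by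
  rw [div_eq_mul_inv]
  exact near_mul ha (near_inv hb)

theorem near_pow {a : K} (ha : O.valuation (a - 1) < 1) (n : ℕ) :
    O.valuation (a ^ n - 1) < 1 := by
  induction n with
  | zero => simp
  | succ n ih => rw [pow_succ]; exact near_mul ih ha

end Small

section Comap

variable {L E : Type*} [Field L] [Field E] [Algebra L E] {O : ValuationSubring E}

theorem comap_le_one (a : L) : (O.comap (algebraMap L E)).valuation a ≤ 1 ↔
    O.valuation (algebraMap L E a) ≤ 1 := by
  rw [ValuationSubring.valuation_le_one_iff, ValuationSubring.valuation_le_one_iff,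
    ValuationSubring.mem_comap]

theorem comap_le (a b : L) (hb : b ≠ 0) : (O.comap (algebraMap L E)).valuation a ≤
    (O.comap (algebraMap L E)).valuation b ↔
    O.valuation (algebraMap L E a) ≤ O.valuation (algebraMap L E b) := by
  have h1 := comap_le_one (O := O) (a / b)
  rw [map_div₀, map_div₀, map_div₀, div_le_one₀ (val_pos _ hb),
    div_le_one₀ (val_pos _ ((_root_.map_ne_zero _).2 hb))] at h1
  exact h1

theorem comap_lt (a b : L) (hb : b ≠ 0) : (O.comap (algebraMap L E)).valuation a <
    (O.comap (algebraMap L E)).valuation b ↔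
    O.valuation (algebraMap L E a) < O.valuation (algebraMap L E b) := by
  by_cases ha : a = 0
  · rw [ha, map_zero, map_zero, map_zero]
    exact iff_of_true (val_pos _ hb) (val_pos _ ((_root_.map_ne_zero _).2 hb))
  · rw [← not_le, ← not_le, comap_le b a ha]

theorem comap_eq (a b : L) (ha : a ≠ 0) (hb : b ≠ 0) : (O.comap (algebraMap L E)).valuation a =
    (O.comap (algebraMap L E)).valuation b ↔
    O.valuation (algebraMap L E a) = O.valuation (algebraMap L E b) := by
  rw [le_antisymm_iff, le_antisymm_iff, comap_le a b hb, comap_le b a ha]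

theorem R2.comap {k : Type*} [Field k] [Algebra k L] [Algebra k E] [IsScalarTower k L E]
    {vk : Valuation k ℝ≥0} {t : L} (h : R2 vk (algebraMap L E t) O) :
    R2 vk t (O.comap (algebraMap L E)) := by
  have ht : t ≠ 0 := by
    rintro rfl; exact h.ne (map_zero _)
  refine ⟨fun c hc => ?_, ht, fun c hc n => ?_, ?_⟩
  · rw [ValuationSubring.mem_comap, ← IsScalarTower.algebraMap_apply]
    exact h.int c hc
  · rw [← map_pow, comap_lt _ _ (pow_ne_zero _ ht), ← IsScalarTower.algebraMap_apply, map_pow,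
      map_pow]
    exact h.small c hc n
  · have := (comap_lt (O := O) t 1 one_ne_zero).2 (by rw [map_one, map_one]; exact h.lt)
    rwa [map_one] at this

end Comap

section Core

variable {k C L E : Type*} [Field k] [Field C] [Field L] [Field E] [Algebra k C] [Algebra k L]
  [Algebra k E] [Algebra C E] [Algebra L E] [IsScalarTower k C E] [IsScalarTower k L E]
  {vk : Valuation k ℝ≥0} {nC : Valuation C ℝ≥0} {O : ValuationSubring E}

/-- units are `l`-th powers up to `1`-units -/
theorem exists_of_unit (hO : ∀ c, nC c ≤ 1 → algebraMap C E c ∈ O)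
    (hsm : ∀ c, nC c < 1 → O.valuation (algebraMap C E c) < 1)
    (hres : ∀ a ∈ O, ∃ c, nC c ≤ 1 ∧ O.valuation (a - algebraMap C E c) < 1) {l : ℕ}
    (hroot : ∀ c, nC c = 1 → ∃ d, nC (d ^ l - c) < 1) {u : E} (hu : O.valuation u = 1) :
    ∃ d : C, O.valuation (algebraMap C E d) = 1 ∧
      O.valuation (u * algebraMap C E d ^ l - 1) < 1 := by
  obtain ⟨c, hc1, hc2⟩ := hres u ((O.valuation_le_one_iff _).1 hu.le)
  have hc : nC c = 1 := by
    refine le_antisymm hc1 ?_
    by_contra hlt
    push Not at hlt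
    have h1 := Valuation.map_add_lt _ hc2 (hsm c hlt)
    rw [sub_add_cancel, hu] at h1
    exact lt_irrefl _ h1
  have hci : nC c⁻¹ = 1 := by rw [map_inv₀, hc, inv_one]
  have hc0 : c ≠ 0 := by rintro rfl; rw [map_zero] at hc; exact zero_ne_one hc
  obtain ⟨d, hd⟩ := hroot c⁻¹ hci
  have hdl : nC (d ^ l) = 1 := by
    rw [← hci]
    exact Valuation.map_eq_of_sub_lt _ (by rwa [hci])
  have h2 : O.valuation (algebraMap C E (d ^ l)) = 1 := eq_one hO hdl
  have h3 : O.valuation (algebraMap C E c) = 1 := eq_one hO hc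
  have h4 : O.valuation (algebraMap C E (d ^ l - c⁻¹)) < 1 := hsm _ hd
  by_cases hl : l = 0
  · subst hl
    refine ⟨1, by simp, ?_⟩
    have e : u * algebraMap C E 1 ^ 0 - 1 = (u - algebraMap C E c) +
        algebraMap C E (c - 1) := by rw [map_sub, map_one]; ring
    rw [e]
    refine Valuation.map_add_lt _ hc2 (hsm _ ?_)
    have e2 : c - 1 = c * (d ^ 0 - c⁻¹) := by rw [mul_sub, mul_inv_cancel₀ hc0, pow_zero, mul_one]
    rw [e2, map_mul, hc, one_mul]
    exact hd
  refine ⟨d, ?_, ?_⟩
  · rw [map_pow, map_pow] at h2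
    exact (pow_eq_one_iff_of_nonneg zero_le hl).1 h2
  · have e : u * algebraMap C E d ^ l - 1 = (u - algebraMap C E c) * algebraMap C E (d ^ l) +
        algebraMap C E c * algebraMap C E (d ^ l - c⁻¹) := by
      rw [map_sub, map_inv₀, map_pow, mul_sub, mul_inv_cancel₀ ((_root_.map_ne_zero _).2 hc0)]
      ring
    rw [e]
    refine Valuation.map_add_lt _ ?_ ?_
    · rw [map_mul, h2, mul_one]; exact hc2
    · rw [map_mul, h3, one_mul]; exact h4

/-- the ring `O` over `z = 0`, `x = 0` is of type `R2` -/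
theorem r2_zero (hO : ∀ c, vk c ≤ 1 → algebraMap k E c ∈ O) {A : k[X]} (hA : MI vk A)
    (hdvd : (Polynomial.X : k[X]) ∣ A) {x : E} (hx0 : x ≠ 0) (hz0 : zc A x ≠ 0)
    (hsm : ∀ c, vk c < 1 → ∀ n : ℕ, O.valuation (algebraMap k E c / zc A x ^ n) < 1)
    (hx : O.valuation x < 1) : R2 vk x O := by
  refine ⟨hO, hx0, fun c hc n => ?_, hx⟩
  obtain ⟨A', rfl⟩ := hdvd
  have hA' : ∀ i, vk (A'.coeff i) ≤ 1 := by
    intro i
    have := hA.le (i + 1)
    rwa [Polynomial.coeff_X_mul] at this
  have h1 : O.valuation (aeval x (Polynomial.X * A')) ≤ O.valuation x := by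
    rw [map_mul, aeval_X, map_mul]
    calc O.valuation x * O.valuation (aeval x A') ≤ O.valuation x * 1 :=
          mul_le_mul_right (aeval_le hO hA' hx.le) _
      _ = O.valuation x := mul_one _
  have h2 : O.valuation (aeval x (1 + Polynomial.X * (Polynomial.X * A'))) = 1 := by
    rw [map_add, map_one, map_mul, aeval_X]
    rw [Valuation.map_add_eq_of_lt_left _ ?_, map_one]
    rw [map_one, map_mul]
    calc O.valuation x * O.valuation (aeval x (Polynomial.X * A'))
        ≤ O.valuation x * O.valuation x := mul_le_mul_right h1 _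
      _ ≤ O.valuation x * 1 := mul_le_mul_right hx.le _
      _ = O.valuation x := mul_one _
      _ < 1 := hx
  have h3 : O.valuation (zc (Polynomial.X * A') x) ≤ O.valuation x := by
    rw [zc, map_div₀, h2, div_one]; exact h1
  have h4 := hsm c hc n
  rw [map_div₀, map_pow, div_lt_one₀ (pow_pos (val_pos _ hz0) _)] at h4
  exact h4.trans_le (pow_le_pow_left₀ zero_le h3 n)

/-- the ring `O` over `z = 0`, `x = ∞` is of type `R2` -/
theorem r2_inf (hO : ∀ c, vk c ≤ 1 → algebraMap k E c ∈ O) {A : k[X]} (hA : MI vk A)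
    {x : E} (hz0 : zc A x ≠ 0)
    (hsm : ∀ c, vk c < 1 → ∀ n : ℕ, O.valuation (algebraMap k E c / zc A x ^ n) < 1)
    (hx : 1 < O.valuation x) : R2 vk x⁻¹ O := by
  have hx0 : x ≠ 0 := by rintro rfl; rw [map_zero] at hx; exact absurd hx (by simp)
  refine ⟨hO, inv_ne_zero hx0, fun c hc n => ?_, ?_⟩
  · have h1 := aeval_of_gt hO hA hx
    have h0 : aeval x A ≠ 0 := by
      intro h0; rw [h0, map_zero] at h1; exact absurd h1 (by simp)
    have h2 : 1 < O.valuation (x * aeval x A) := by
      rw [map_mul]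
      calc (1 : O.ValueGroup) < O.valuation x := hx
        _ = O.valuation x * 1 := (mul_one _).symm
        _ ≤ O.valuation x * O.valuation (aeval x A) := mul_le_mul_right h1 _
    have h3 : O.valuation (aeval x (1 + Polynomial.X * A)) =
        O.valuation x * O.valuation (aeval x A) := by
      rw [map_add, map_one, map_mul, aeval_X,
        Valuation.map_add_eq_of_lt_right _ (by rw [map_one]; exact h2), map_mul]
    have h4 : O.valuation (zc A x) = O.valuation x⁻¹ := by
      rw [zc, map_div₀, h3, map_inv₀, mul_comm, div_mul_eq_div_div, div_self (val_pos _ h0).ne',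
        one_div]
    have h5 := hsm c hc n
    rw [map_div₀, map_pow, div_lt_one₀ (pow_pos (val_pos _ hz0) _), h4] at h5
    exact h5
  · rw [map_inv₀]
    exact inv_lt_one_of_one_lt₀ hx

theorem core (hCk : ∀ c, nC (algebraMap k C c) = vk c) {π : k} (hπ0 : π ≠ 0)
    (X : L) (hXt : Transcendental k X) (A : k[X]) (hA : MI vk A)
    (hdvd : (Polynomial.X : k[X]) ∣ A)
    (l : ℕ) (c₁ : C) (hc₁ : nC c₁ = 1) (hAc : nC (aeval (-c₁ ^ l) A) = 1) (h₀ : L)
    (hβα : ∀ v : Valuation L ℝ≥0, IsG vk v X →
      (v (h₀ - 1) < 1 ∧ ∀ B : ValuationSubring L, B ≤ v.valuationSubring → R2 vk X B →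
        ∃ b, B.valuation (b ^ l) = B.valuation X) ∨
      (v (h₀ * X - 1) < 1 ∧ ∀ B : ValuationSubring L, B ≤ v.valuationSubring → R2 vk X⁻¹ B →
        ∃ b, B.valuation (b ^ l) = B.valuation X))
    (halg : ∀ a : E, IsAlgebraic k⟮zc A (algebraMap L E X)⟯ a)
    (O : ValuationSubring E) (hO : ∀ c, nC c ≤ 1 → algebraMap C E c ∈ O)
    (hz : O.valuation (zc A (algebraMap L E X)) < 1)
    (hπ : ∀ n : ℕ, O.valuation (algebraMap k E π / zc A (algebraMap L E X) ^ n) < 1)
    (hres : ∀ a ∈ O, ∃ c, nC c ≤ 1 ∧ O.valuation (a - algebraMap C E c) < 1)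
    (hroot : ∀ c, nC c = 1 → ∃ d, nC (d ^ l - c) < 1) :
    ∃ g : E, g ≠ 0 ∧ O.valuation (algebraMap L E h₀ /
      ((algebraMap L E X + algebraMap C E c₁ ^ l) / algebraMap L E X) * g ^ l - 1) < 1 := by
  have hX0 : X ≠ 0 := by
    rintro rfl
    exact hXt isAlgebraic_zero
  set x := algebraMap L E X with hx
  set z := zc A x with hzdef
  set c := algebraMap C E c₁ with hcdef
  have hx0 : x ≠ 0 := (_root_.map_ne_zero _).2 hX0
  have hxt : Transcendental k x := by
    rw [hx]
    exact (transcendental_algebraMap_iff (algebraMap L E).injective).2 hXt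
  have hOk : ∀ c, vk c ≤ 1 → algebraMap k E c ∈ O := by
    intro c hc
    rw [IsScalarTower.algebraMap_apply k C E]
    exact hO _ (by rwa [hCk])
  have hA0 : aeval x A ≠ 0 := fun h => hxt ⟨A, hA.monic.ne_zero, h⟩
  have hD0 : aeval x (1 + Polynomial.X * A) ≠ 0 := fun h => hxt ⟨_, hA.den.monic.ne_zero, h⟩
  have hz0 : z ≠ 0 := div_ne_zero hA0 hD0
  obtain ⟨v, hv1, hv2, hv3, hv4, hv5⟩ := exists_norm_of_composite vk hπ0 hz0 hOk hz hπ halg
  have hGz : IsG vk v z := ⟨hv1, hv3.le, hv2⟩
  have hGx : IsG vk v x := isG_of_zc hA hGz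
  set vL : Valuation L ℝ≥0 := v.comap (algebraMap L E) with hvL
  have hGX : IsG vk vL X := by
    refine ⟨fun c => ?_, hGx.le, fun f i => ?_⟩
    · rw [hvL, Valuation.comap_apply, ← IsScalarTower.algebraMap_apply]
      exact hGx.ext c
    · rw [hvL, Valuation.comap_apply, ← aeval_algebraMap_apply]
      exact hGx.coeff_le f i
  set OL := O.comap (algebraMap L E) with hOL
  have hOLv : OL ≤ vL.valuationSubring := fun a ha => hv4 _ ha
  have hsmk : ∀ c, vk c < 1 → ∀ n : ℕ, O.valuation (algebraMap k E c / z ^ n) < 1 :=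
    fun c hc n => small_div vk hπ0 hOk hπ c hc n
  have hsm : ∀ c, nC c < 1 → O.valuation (algebraMap C E c) < 1 := by
    intro c hc
    obtain ⟨m, hm⟩ : ∃ m : ℕ, nC c ^ m < vk π :=
      exists_pow_lt_of_lt_one (pos_iff_ne_zero.2 ((vk.ne_zero_iff).2 hπ0)) hc
    have h1 : nC (c ^ m / algebraMap k C π) ≤ 1 := by
      rw [map_div₀, map_pow, hCk]
      exact div_le_one_of_le₀ hm.le zero_le
    have h2 : O.valuation (algebraMap C E (c ^ m / algebraMap k C π)) ≤ 1 :=
      (O.valuation_le_one_iff _).2 (hO _ h1)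
    have h3 : O.valuation (algebraMap k E π) < 1 := by
      have := hπ 0
      rwa [pow_zero, div_one] at this
    rw [map_div₀, ← IsScalarTower.algebraMap_apply k C E, map_div₀, map_pow, map_pow,
      div_le_one₀ (val_pos _ ((_root_.map_ne_zero _).2 hπ0))] at h2
    by_contra hcon
    push Not at hcon
    exact absurd (h2.trans_lt h3) (not_lt.2 (one_le_pow₀ hcon))
  have hc : O.valuation (c ^ l) = 1 := by
    rw [map_pow, hcdef, eq_one hO hc₁, one_pow]
  have hc0 : c ^ l ≠ 0 := by
    intro h0; rw [h0, map_zero] at hc; exact zero_ne_one hc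
  have key : ∀ u : E, O.valuation u = 1 → ∃ d : E, d ≠ 0 ∧ O.valuation (u * d ^ l - 1) < 1 := by
    intro u hu
    obtain ⟨d, hd1, hd2⟩ := exists_of_unit hO hsm hres hroot hu
    refine ⟨algebraMap C E d, ?_, hd2⟩
    intro h0
    rw [h0, map_zero] at hd1
    exact zero_ne_one hd1
  set y := algebraMap L E h₀ with hy
  have hβ : vL (h₀ - 1) < 1 → O.valuation y = 1 := by
    intro h
    have h1 : O.valuation (y - 1) < 1 := hv5 _ (by
      rw [hvL, Valuation.comap_apply, map_sub, map_one] at h; exact h)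
    exact val_eq_one_of_near h1
  have hα : vL (h₀ * X - 1) < 1 → O.valuation (y * x) = 1 := by
    intro h
    have h1 : O.valuation (y * x - 1) < 1 := hv5 _ (by
      rw [hvL, Valuation.comap_apply, map_sub, map_mul, map_one] at h; exact h)
    exact val_eq_one_of_near h1
  have hbX : ∀ b : L, OL.valuation (b ^ l) = OL.valuation X →
      O.valuation (algebraMap L E b ^ l) = O.valuation x := by
    intro b hb
    have hb0 : b ^ l ≠ 0 := by
      intro h0
      rw [h0, map_zero] at hb
      exact (val_pos _ hX0).ne hb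
    rw [← map_pow]
    exact (comap_eq _ _ hb0 hX0).1 hb
  rcases (zc_lt_iff hOk hA hD0).1 hz with hgt | ⟨hle, hAx⟩
  · -- `x = ∞`
    have hr2 : R2 vk x⁻¹ O := r2_inf hOk hA hz0 hsmk hgt
    have he : O.valuation ((x + c ^ l) / x) = 1 := by
      have : O.valuation (x + c ^ l) = O.valuation x :=
        Valuation.map_add_eq_of_lt_left _ (by rw [hc]; exact hgt)
      rw [map_div₀, this, div_self (val_pos _ hx0).ne']
    rcases hβα vL hGX with ⟨h1, -⟩ | ⟨h1, h2⟩
    · obtain ⟨d, hd0, hd⟩ := key (y / ((x + c ^ l) / x)) (by rw [map_div₀, hβ h1, he, div_one])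
      exact ⟨d, hd0, hd⟩
    · obtain ⟨b, hb⟩ := h2 OL hOLv (by
        refine R2.comap ?_
        rw [map_inv₀]
        exact hr2)
      have hb1 := hbX b hb
      have hb0 : algebraMap L E b ^ l ≠ 0 := by
        intro h0; rw [h0, map_zero] at hb1; exact (val_pos _ hx0).ne hb1
      obtain ⟨d, hd0, hd⟩ := key (y / ((x + c ^ l) / x) * algebraMap L E b ^ l) (by
        rw [map_mul, map_div₀, he, div_one, hb1, ← map_mul, hα h1])
      by_cases hl : l = 0
      · refine ⟨d, hd0, ?_⟩
        subst hl
        simpa using hd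
      refine ⟨algebraMap L E b * d, mul_ne_zero ?_ hd0, ?_⟩
      · intro h0; rw [h0, zero_pow hl] at hb0; exact hb0 rfl
      · rw [mul_pow, ← mul_assoc]
        exact hd
  · rcases lt_or_eq_of_le hle with hlt | heq
    · -- `x = 0`
      have hr2 : R2 vk x O := r2_zero hOk hA hdvd hx0 hz0 hsmk hlt
      have he : O.valuation (x + c ^ l) = 1 := by
        rw [Valuation.map_add_eq_of_lt_right _ (by rw [hc]; exact hlt), hc]
      rcases hβα vL hGX with ⟨h1, h2⟩ | ⟨h1, -⟩
      · obtain ⟨b, hb⟩ := h2 OL hOLv (R2.comap hr2)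
        have hb1 := hbX b hb
        have hb0 : algebraMap L E b ^ l ≠ 0 := by
          intro h0; rw [h0, map_zero] at hb1; exact (val_pos _ hx0).ne hb1
        obtain ⟨d, hd0, hd⟩ := key (y / ((x + c ^ l) / x) / algebraMap L E b ^ l) (by
          rw [map_div₀, map_div₀, map_div₀, he, hb1, hβ h1, one_div_one_div,
            div_self (val_pos _ hx0).ne'])
        by_cases hl : l = 0
        · refine ⟨d, hd0, ?_⟩
          subst hl
          simpa using hd
        have hb00 : algebraMap L E b ≠ 0 := by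
          intro h0; rw [h0, zero_pow hl] at hb0; exact hb0 rfl
        refine ⟨d / algebraMap L E b, div_ne_zero hd0 hb00, ?_⟩
        have e : y / ((x + c ^ l) / x) * (d / algebraMap L E b) ^ l =
            y / ((x + c ^ l) / x) / algebraMap L E b ^ l * d ^ l := by
          rw [div_pow]; ring
        rw [e]
        exact hd
      · obtain ⟨d, hd0, hd⟩ := key (y / ((x + c ^ l) / x)) (by
          have e : y / ((x + c ^ l) / x) = y * x / (x + c ^ l) := by
            rw [div_div_eq_mul_div]
          rw [e, map_div₀, hα h1, he, div_one])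
        exact ⟨d, hd0, hd⟩
    · -- `x` a unit
      have hxc : O.valuation (x + c ^ l) = 1 := by
        refine le_antisymm ((O.valuation.map_add _ _).trans (max_le hle hc.le)) ?_
        by_contra hcon
        push Not at hcon
        have h1 : O.valuation (aeval x A - aeval (-c ^ l) A) < 1 := by
          refine aeval_congr hOk hA.le hle ?_ ?_
          · rw [Valuation.map_neg]; exact hc.le
          · rw [sub_neg_eq_add]; exact hcon
        have h2 : aeval (-c ^ l) A = algebraMap C E (aeval (-c₁ ^ l) A) := by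
          rw [← aeval_algebraMap_apply, map_neg, map_pow]
        have h3 : O.valuation (aeval (-c ^ l) A) = 1 := by rw [h2]; exact eq_one hO hAc
        have h4 : O.valuation (aeval x A) = 1 := by
          rw [← h3]
          exact Valuation.map_eq_of_sub_lt _ (by rwa [h3])
        rw [h4] at hAx
        exact lt_irrefl _ hAx
      have hy1 : O.valuation y = 1 := by
        rcases hβα vL hGX with ⟨h1, -⟩ | ⟨h1, -⟩
        · exact hβ h1
        · have := hα h1
          rwa [map_mul, heq, mul_one] at this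
      obtain ⟨d, hd0, hd⟩ := key (y / ((x + c ^ l) / x)) (by
        rw [map_div₀, map_div₀, hxc, heq, hy1, div_one, div_one])
      exact ⟨d, hd0, hd⟩

end Core

end Crest.Agent.R013.U4_337
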