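import Crest.Agent.R013.U4_337
import Crest.Agent.R013.RZ3_365

/-!
Row 13, part A, leaf A-U (helper337), file 5: choice of the data `B`, `A`, `c₁`, `h₀`.
-/

set_option autoImplicit false

noncomputable section

namespace Crest.Agent.R013.U5_337

open scoped NNReal
open Polynomial IntermediateField
open Crest.Agent.R013.LiftA_168 Crest.Agent.R013.U2_337 Crest.Agent.R013.RZ_365
open Crest.Agent.R013.U3_337 Crest.Agent.R013.U4_337

section Root

variable {L Γ : Type*} [Field L] [LinearOrderedCommGroupWithZero Γ]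

theorem val_one_of_root (u : Valuation L Γ) (a : ℕ → L) (n : ℕ) (x : L)
    (h : ∑ i ∈ Finset.range (n + 1), a i * x ^ i = 0) (ha0 : u (a 0) = 1) (han : u (a n) = 1)
    (hle : ∀ i, u (a i) ≤ 1) : u x = 1 := by
  rcases lt_trichotomy (u x) 1 with hx | hx | hx
  · exfalso
    rw [Finset.sum_range_succ'] at h
    simp only [pow_zero, mul_one] at h
    have h1 : u (∑ i ∈ Finset.range n, a (i + 1) * x ^ (i + 1)) < 1 := by
      refine Valuation.map_sum_lt _ one_ne_zero fun i _ => ?_
      rw [map_mul, map_pow]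
      calc u (a (i + 1)) * u x ^ (i + 1) ≤ 1 * u x ^ (i + 1) := mul_le_mul_left (hle _) _
        _ = u x ^ (i + 1) := one_mul _
        _ < 1 := pow_lt_one₀ zero_le hx (Nat.succ_ne_zero i)
    have h2 : a 0 = -∑ i ∈ Finset.range n, a (i + 1) * x ^ (i + 1) := by
      rw [eq_neg_iff_add_eq_zero, add_comm]; exact h
    rw [h2, Valuation.map_neg] at ha0
    exact absurd ha0 h1.ne
  · exact hx
  · exfalso
    have hx0 : x ≠ 0 := by rintro rfl; rw [map_zero] at hx; exact absurd hx (by simp)
    rw [Finset.sum_range_succ] at h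
    have h1 : u (∑ i ∈ Finset.range n, a i * x ^ i) < u (x ^ n) := by
      refine Valuation.map_sum_lt _ ?_ fun i hi => ?_
      · exact (Valuation.ne_zero_iff _).2 (pow_ne_zero _ hx0)
      · rw [map_mul, map_pow, map_pow]
        calc u (a i) * u x ^ i ≤ 1 * u x ^ i := mul_le_mul_left (hle _) _
          _ = u x ^ i := one_mul _
          _ < u x ^ n := pow_lt_pow_right₀ hx (Finset.mem_range.1 hi)
    have h2 : a n * x ^ n = -∑ i ∈ Finset.range n, a i * x ^ i := by
      rw [eq_neg_iff_add_eq_zero, add_comm]; exact h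
    have h3 : u (a n * x ^ n) = u (x ^ n) := by rw [map_mul, han, one_mul]
    rw [← h3, h2, Valuation.map_neg] at h1
    exact lt_irrefl _ h1

end Root

section Poly

variable {k L : Type*} [Field k] [Field L] [Algebra k L]

open scoped IntermediateField.algebraAdjoinAdjoin in
/-- an algebraic element of `L / k(X)` is a unit at the places of the finite `X`-line outside the
zeros of a polynomial -/
theorem exists_poly (X h₀ : L) (hh : h₀ ≠ 0) (halg : IsAlgebraic k⟮X⟯ h₀) :
    ∃ B : k[X], aeval X B ≠ 0 ∧ ∀ u : Valuation L ℝ≥0, (∀ c : k, c ≠ 0 → u (algebraMap k L c) = 1) →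
      u X ≤ 1 → u (aeval X B) = 1 → u h₀ = 1 := by
  have h1 : IsAlgebraic (Algebra.adjoin k {X}) h₀ :=
    (IsFractionRing.isAlgebraic_iff (Algebra.adjoin k {X}) k⟮X⟯ L).2 halg
  obtain ⟨q, hq0, hq⟩ := h1.exists_nonzero_coeff_and_aeval_eq_zero
    (mem_nonZeroDivisors_of_ne_zero hh)
  have hq' : q ≠ 0 := by rintro rfl; exact hq0 (coeff_zero 0)
  have hr : ∀ a : Algebra.adjoin k {X}, ∃ P : k[X], aeval X P = (a : L) := by
    rintro ⟨a, ha⟩
    rw [Algebra.adjoin_singleton_eq_range_aeval] at ha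
    exact ha
  choose P hP using hr
  refine ⟨P (q.coeff 0) * P (q.leadingCoeff), ?_, ?_⟩
  · rw [map_mul, hP, hP]
    refine mul_ne_zero ?_ ?_
    · exact fun h => hq0 (Subtype.ext h)
    · exact fun h => leadingCoeff_ne_zero.2 hq' (Subtype.ext h)
  · intro u hu hX hB
    have hint : ∀ a : Algebra.adjoin k {X}, u (a : L) ≤ 1 := by
      intro a
      rw [← hP a, aeval_eq_sum_range]
      refine Valuation.map_sum_le _ fun i _ => ?_
      rw [Algebra.smul_def, map_mul, map_pow]
      refine mul_le_one' ?_ (pow_le_one₀ zero_le hX)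
      by_cases hc : (P a).coeff i = 0
      · rw [hc, map_zero, map_zero]; exact zero_le_one
      · exact (hu _ hc).le
    rw [map_mul, map_mul, hP, hP] at hB
    have hB0 : u (q.coeff 0 : L) = 1 := by
      refine le_antisymm (hint _) ?_
      by_contra hcon
      push Not at hcon
      have : u (q.coeff 0 : L) * u (q.leadingCoeff : L) < 1 :=
        mul_lt_one_of_nonneg_of_lt_one_left zero_le hcon (hint _)
      rw [hB] at this
      exact lt_irrefl _ this
    have hBn : u (q.coeff q.natDegree : L) = 1 := by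
      rw [hB0, one_mul] at hB
      exact hB
    refine val_one_of_root u (fun i => (q.coeff i : L)) q.natDegree h₀ ?_ hB0 hBn fun i => hint _
    rw [aeval_eq_sum_range] at hq
    rw [← hq]
    exact Finset.sum_congr rfl fun i _ => rfl

end Poly

section A

variable {k : Type*} [Field k] {vk : Valuation k ℝ≥0}

/-- the monic integral polynomial `A` whose zeros contain the zeros of `B` in the unit disc -/
theorem exists_A (B : k[X]) (hB : B ≠ 0) : ∃ A : k[X], MI vk A ∧ (X : k[X]) ∣ A ∧
    ∃ b : k, b ≠ 0 ∧ ∀ {K : Type*} [Field K] [Algebra k K] (O : ValuationSubring K),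
      (∀ c : k, vk c ≤ 1 → algebraMap k K c ∈ O) →
      (∀ c : k, vk c < 1 → O.valuation (algebraMap k K c) < 1) → ∀ t : K, O.valuation t ≤ 1 →
      O.valuation (aeval t A) = 1 → O.valuation (algebraMap k K b * aeval t B) = 1 := by
  classical
  -- the maximal index of the maximal coefficient
  obtain ⟨m, hm, hmax⟩ := B.support.exists_max_image (fun i => vk (B.coeff i))
    (Polynomial.support_nonempty.2 hB)
  have hmax' : ∀ i, vk (B.coeff i) ≤ vk (B.coeff m) := by
    intro i
    by_cases hi : i ∈ B.support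
    · exact hmax i hi
    · rw [Polynomial.notMem_support_iff.1 hi, map_zero]; exact zero_le
  obtain ⟨j, hj, hjmax⟩ := (B.support.filter fun i => vk (B.coeff i) = vk (B.coeff m)).exists_max_image
    id ⟨m, Finset.mem_filter.2 ⟨hm, rfl⟩⟩
  rw [Finset.mem_filter] at hj
  have hj0 : B.coeff j ≠ 0 := Polynomial.mem_support_iff.1 hj.1
  have hvj : vk (B.coeff j) ≠ 0 := (Valuation.ne_zero_iff _).2 hj0
  have hle : ∀ i, vk (B.coeff i) ≤ vk (B.coeff j) := fun i => (hmax' i).trans hj.2.ge
  have hlt : ∀ i, j < i → vk (B.coeff i) < vk (B.coeff j) := by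
    intro i hi
    refine lt_of_le_of_ne (hle i) fun h => ?_
    have hi0 : i ∈ B.support := by
      rw [Polynomial.mem_support_iff]
      intro h0
      rw [h0, map_zero] at h
      exact hvj h.symm
    have := hjmax i (Finset.mem_filter.2 ⟨hi0, h.trans hj.2⟩)
    exact absurd hi (not_lt.2 this)
  set b := (B.coeff j)⁻¹ with hb
  set D : k[X] := ∑ i ∈ Finset.range (j + 1), monomial i (b * B.coeff i) with hD
  have hDc : ∀ i, D.coeff i = if i ≤ j then b * B.coeff i else 0 := by
    intro i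
    rw [hD, Polynomial.finsetSum_coeff]
    simp only [Polynomial.coeff_monomial]
    rw [Finset.sum_ite_eq']
    simp only [Finset.mem_range, Nat.lt_succ_iff]
  have hDm : D.Monic := by
    refine Polynomial.monic_of_natDegree_le_of_coeff_eq_one j ?_ ?_
    · rw [Polynomial.natDegree_le_iff_coeff_eq_zero]
      intro i hi
      rw [hDc, if_neg (not_le.2 hi)]
    · rw [hDc, if_pos le_rfl, hb, inv_mul_cancel₀ hj0]
  have hbB : ∀ i, vk (b * B.coeff i) ≤ 1 := by
    intro i
    rw [map_mul, hb, map_inv₀, inv_mul_eq_div]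
    exact div_le_one_of_le₀ (hle i) zero_le
  have hD1 : MI vk D := by
    refine ⟨hDm, fun i => ?_⟩
    rw [hDc]
    split_ifs
    · exact hbB i
    · rw [map_zero]; exact zero_le
  refine ⟨X * D, MI.var.mul hD1, dvd_mul_right _ _, b, inv_ne_zero hj0, ?_⟩
  intro K _ _ O hO hsm t ht hA
  rw [map_mul, aeval_X, map_mul] at hA
  have h1 : O.valuation (aeval t D) ≤ 1 := aeval_le hO hD1.le ht
  have h2 : O.valuation (aeval t D) = 1 := by
    refine le_antisymm h1 ?_
    by_contra hcon
    push Not at hcon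
    have : O.valuation t * O.valuation (aeval t D) < 1 :=
      mul_lt_one_of_nonneg_of_lt_one_right ht zero_le hcon
    rw [hA] at this
    exact lt_irrefl _ this
  have h3 : O.valuation (algebraMap k K b * aeval t B - aeval t D) < 1 := by
    have e : algebraMap k K b * aeval t B - aeval t D = aeval t (C b * B - D) := by
      rw [map_sub, map_mul, aeval_C]
    rw [e, aeval_eq_sum_range]
    refine Valuation.map_sum_lt _ one_ne_zero fun i _ => ?_
    rw [Algebra.smul_def, map_mul, map_pow, coeff_sub, coeff_C_mul, hDc]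
    by_cases hi : i ≤ j
    · rw [if_pos hi, sub_self, map_zero, map_zero, zero_mul]; exact zero_lt_one
    · rw [if_neg hi, sub_zero]
      refine mul_lt_one_of_nonneg_of_lt_one_left zero_le (hsm _ ?_) (pow_le_one₀ zero_le ht)
      rw [map_mul, hb, map_inv₀, inv_mul_eq_div]
      exact (div_lt_one₀ (zero_lt_iff.2 hvj)).2 (hlt i (not_le.1 hi))
  rw [← h2]
  exact Valuation.map_eq_of_sub_lt _ (by rwa [h2])

end A

section C

variable {k C : Type*} [Field k] [Field C] [Algebra k C] {vk : Valuation k ℝ≥0}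
  {nC : Valuation C ℝ≥0}

theorem norm_aeval_le (hCk : ∀ c, nC (algebraMap k C c) = vk c) {A : k[X]}
    (hA : ∀ i, vk (A.coeff i) ≤ 1) {c : C} (hc : nC c ≤ 1) : nC (aeval c A) ≤ 1 := by
  rw [aeval_eq_sum_range]
  refine Valuation.map_sum_le _ fun i _ => ?_
  rw [Algebra.smul_def, map_mul, map_pow, hCk]
  exact mul_le_one' (hA i) (pow_le_one₀ zero_le hc)

theorem norm_aeval_congr (hCk : ∀ c, nC (algebraMap k C c) = vk c) {A : k[X]}
    (hA : ∀ i, vk (A.coeff i) ≤ 1) {s t : C} (hs : nC s ≤ 1) (ht : nC t ≤ 1)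
    (h : nC (s - t) < 1) : nC (aeval s A - aeval t A) < 1 := by
  rw [aeval_eq_sum_range, aeval_eq_sum_range, ← Finset.sum_sub_distrib]
  refine Valuation.map_sum_lt _ one_ne_zero fun i _ => ?_
  rw [← smul_sub, Algebra.smul_def, map_mul, hCk, ← (Commute.all s t).mul_geom_sum₂ i, map_mul]
  have h1 : nC (∑ j ∈ Finset.range i, s ^ j * t ^ (i - 1 - j)) ≤ 1 := by
    refine Valuation.map_sum_le _ fun j _ => ?_
    rw [map_mul, map_pow, map_pow]
    exact mul_le_one' (pow_le_one₀ zero_le hs) (pow_le_one₀ zero_le ht)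
  exact mul_lt_one_of_nonneg_of_lt_one_right (hA i) zero_le
    (mul_lt_one_of_nonneg_of_lt_one_left zero_le h h1)

theorem exists_c1 (hCk : ∀ c, nC (algebraMap k C c) = vk c) (hC : ResClosed nC) {A : k[X]}
    (hA : MI vk A) {l : ℕ} (hl : l ≠ 0) :
    ∃ c₁ : C, nC c₁ = 1 ∧ nC (aeval (-c₁ ^ l) A) = 1 := by
  -- a root of `X A - 1`
  set P : k[X] := X * A - 1 with hP
  have hXA : MI vk (X * A) := MI.var.mul hA
  have hdeg : (X * A).natDegree = A.natDegree + 1 := natDegree_X_mul hA.monic.ne_zero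
  have hPm : P.Monic := by
    rw [hP]
    refine hXA.monic.sub_of_left ?_
    rw [degree_one, degree_eq_natDegree hXA.monic.ne_zero, hdeg]
    exact_mod_cast Nat.succ_pos _
  have hPd : P.natDegree ≠ 0 := by
    rw [hP, natDegree_sub_eq_left_of_natDegree_lt (by rw [natDegree_one, hdeg]; omega), hdeg]
    omega
  have hPi : ∀ i, vk (P.coeff i) ≤ 1 := by
    intro i
    rw [hP, coeff_sub]
    exact (vk.map_sub _ _).trans (max_le (hXA.le i) (MI.one.le i))
  obtain ⟨c₂, hc₂, hc₂'⟩ := hC (P.map (algebraMap k C)) (hPm.map _)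
    (by rw [natDegree_map]; exact hPd) (fun i => by rw [coeff_map, hCk]; exact hPi i)
  rw [eval_map_algebraMap, hP, map_sub, map_mul, aeval_X, map_one] at hc₂'
  have h1 : nC (c₂ * aeval c₂ A) = 1 := by
    rw [← map_one nC]
    exact Valuation.map_eq_of_sub_lt _ (by rwa [map_one])
  have h2 : nC (aeval c₂ A) ≤ 1 := norm_aeval_le hCk hA.le hc₂
  have h3 : nC c₂ = 1 := by
    refine le_antisymm hc₂ ?_
    by_contra hcon
    push Not at hcon
    rw [map_mul] at h1
    have : nC c₂ * nC (aeval c₂ A) < 1 := mul_lt_one_of_nonneg_of_lt_one_left zero_le hcon h2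
    rw [h1] at this
    exact lt_irrefl _ this
  have h4 : nC (aeval c₂ A) = 1 := by rwa [map_mul, h3, one_mul] at h1
  -- an `l`-th root of `-c₂`
  set R : C[X] := X ^ l + Polynomial.C c₂ with hR
  obtain ⟨c₁, hc₁, hc₁'⟩ := hC R (monic_X_pow_add_C c₂ hl)
    (by rw [hR, natDegree_X_pow_add_C]; exact hl) (fun i => by
      rw [hR, coeff_add, coeff_X_pow, coeff_C]
      refine (nC.map_add _ _).trans (max_le ?_ ?_)
      · split_ifs
        · rw [map_one]
        · rw [map_zero]; exact zero_le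
      · split_ifs
        · exact hc₂
        · rw [map_zero]; exact zero_le)
  rw [hR, eval_add, eval_pow, eval_X, eval_C] at hc₁'
  have h5 : nC (c₁ ^ l) = 1 := by
    have h6 : nC (c₁ ^ l - -c₂) < nC (-c₂) := by rwa [sub_neg_eq_add, Valuation.map_neg, h3]
    rw [Valuation.map_eq_of_sub_lt _ h6, Valuation.map_neg, h3]
  refine ⟨c₁, ?_, ?_⟩
  · rw [map_pow] at h5
    exact (pow_eq_one_iff_of_nonneg zero_le hl).1 h5
  · have h7 : nC (aeval (-c₁ ^ l) A - aeval c₂ A) < 1 := by
      refine norm_aeval_congr hCk hA.le ?_ hc₂ ?_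
      · rw [Valuation.map_neg, h5]
      · have e : -c₁ ^ l - c₂ = -(c₁ ^ l + c₂) := by ring
        rw [e, Valuation.map_neg]
        exact hc₁'
    rw [← h4]
    exact Valuation.map_eq_of_sub_lt _ (by rwa [h4])

theorem exists_root (hC : ResClosed nC) {l : ℕ} (hl : l ≠ 0) (c : C) (hc : nC c = 1) :
    ∃ d, nC (d ^ l - c) < 1 := by
  obtain ⟨d, -, hd⟩ := hC (X ^ l - Polynomial.C c) (monic_X_pow_sub_C c hl)
    (by rw [natDegree_X_pow_sub_C]; exact hl) (fun i => by
      rw [coeff_sub, coeff_X_pow, coeff_C]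
      refine (nC.map_sub _ _).trans (max_le ?_ ?_)
      · split_ifs
        · rw [map_one]
        · rw [map_zero]; exact zero_le
      · split_ifs
        · exact hc.le
        · rw [map_zero]; exact zero_le)
  rw [eval_sub, eval_pow, eval_X, eval_C] at hd
  exact ⟨d, hd⟩

end C

section H

variable {k L : Type*} [Field k] [Field L] [Algebra k L] {vk : Valuation k ℝ≥0}

/-- the element `h₀` -/
theorem exists_h0 (hnt : ∃ c, vk c ≠ 0 ∧ vk c ≠ 1) (X : L) (hX : Transcendental k X)
    [FiniteDimensional k⟮X⟯ L] (β α : Valuation L ℝ≥0 → Prop)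
    (hdich : ∀ v : Valuation L ℝ≥0, IsG vk v X → β v ∨ α v) (v₁ : Valuation L ℝ≥0)
    (hv₁ : IsG vk v₁ X) :
    ∃ h₀ : L, h₀ ≠ 0 ∧ ∀ v : Valuation L ℝ≥0, IsG vk v X →
      (v (h₀ - 1) < 1 ∧ β v) ∨ (v (h₀ * X - 1) < 1 ∧ α v) := by
  classical
  have hX0 : X ≠ 0 := by rintro rfl; exact hX isAlgebraic_zero
  have hfin := finite_isG hnt X
  have : Finite {w : Valuation L ℝ≥0 | IsG vk w X} := hfin
  obtain ⟨h₀, hh⟩ := weak_approx (ι := {w : Valuation L ℝ≥0 | IsG vk w X}) hnt (fun w => w.1)
    Subtype.val_injective (fun i c => i.2.ext c) (fun w => if β w.1 then 1 else X⁻¹) 1 one_pos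
  have key : ∀ v : Valuation L ℝ≥0, IsG vk v X →
      (v (h₀ - 1) < 1 ∧ β v) ∨ (v (h₀ * X - 1) < 1 ∧ α v) := by
    intro v hv
    have h1 := hh ⟨v, hv⟩
    have h2 := hdich v hv
    by_cases hβ : β v
    · left
      simp only [if_pos hβ] at h1
      exact ⟨h1, hβ⟩
    · right
      simp only [if_neg hβ] at h1
      refine ⟨?_, h2.resolve_left hβ⟩
      have e : h₀ * X - 1 = (h₀ - X⁻¹) * X := by rw [sub_mul, inv_mul_cancel₀ hX0]
      rw [e, map_mul, hv.val_eq_one, mul_one]
      exact h1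
  refine ⟨h₀, ?_, key⟩
  rintro rfl
  rcases key v₁ hv₁ with ⟨h, -⟩ | ⟨h, -⟩
  · rw [zero_sub, Valuation.map_neg, map_one] at h; exact lt_irrefl _ h
  · rw [zero_mul, zero_sub, Valuation.map_neg, map_one] at h; exact lt_irrefl _ h

end H

end Crest.Agent.R013.U5_337
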