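import Crest.Agent.R013.U5_337
import Crest.Agent.R013.RZ4_365

/-!
Row 13, part A, leaf A-U (helper337), file 6: if there are no non split pairs over `(η; 0, ∞)` at a
finite level `L`, then compactness gives the data of the patching problem.
-/

set_option autoImplicit false

noncomputable section

namespace Crest.Agent.R013.U6_337

open scoped NNReal
open Polynomial IntermediateField
open Crest.Agent.R013.LiftA_168 Crest.Agent.R013.U2_337 Crest.Agent.R013.RZ_365
open Crest.Agent.R013.U3_337 Crest.Agent.R013.U4_337 Crest.Agent.R013.U5_337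

section Alg

variable {k F E : Type*} [Field k] [Field F] [Field E] [Algebra k F] [Algebra F E] [Algebra k E]
  [IsScalarTower k F E]

theorem hgen_of_top {X : F} (hF : k⟮X⟯ = ⊤) (f : F) :
    ∃ P Q : k[X], aeval X Q ≠ 0 ∧ f = aeval X P / aeval X Q := by
  have hf : f ∈ k⟮X⟯ := by rw [hF]; exact mem_top
  rw [mem_adjoin_simple_iff] at hf
  obtain ⟨P, Q, hPQ⟩ := hf
  by_cases hQ : aeval X Q = 0
  · refine ⟨0, 1, by rw [map_one]; exact one_ne_zero, ?_⟩
    rw [hPQ, hQ, div_zero, map_zero, zero_div]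
  · exact ⟨P, Q, hQ, hPQ⟩

theorem top_inv {X : F} (hF : k⟮X⟯ = ⊤) : k⟮X⁻¹⟯ = ⊤ := by
  rw [eq_top_iff, ← hF, adjoin_simple_le_iff]
  have := (k⟮X⁻¹⟯).inv_mem (mem_adjoin_simple_self k X⁻¹)
  rwa [inv_inv] at this

theorem isAlgebraic_mono {S T E : Type*} [Field S] [Field T] [Field E] [Algebra S E] [Algebra T E]
    (g : S →+* T) (hg : ∀ s, algebraMap T E (g s) = algebraMap S E s) {a : E}
    (h : IsAlgebraic S a) : IsAlgebraic T a := by
  obtain ⟨P, hP0, hP⟩ := h
  refine ⟨P.map g, (Polynomial.map_ne_zero_iff g.injective).2 hP0, ?_⟩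
  rw [aeval_def, eval₂_map]
  have e : (algebraMap T E).comp g = algebraMap S E := RingHom.ext hg
  rw [e]
  exact hP

theorem map_mem_adjoin {X : F} (hF : k⟮X⟯ = ⊤) (f : F) :
    algebraMap F E f ∈ k⟮algebraMap F E X⟯ := by
  obtain ⟨P, Q, -, rfl⟩ := hgen_of_top hF f
  rw [map_div₀, ← aeval_algebraMap_apply, ← aeval_algebraMap_apply]
  have hP : ∀ P : k[X], aeval (algebraMap F E X) P ∈ k⟮algebraMap F E X⟯ := by
    intro P
    rw [aeval_eq_sum_range]
    refine sum_mem fun i _ => ?_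
    rw [Algebra.smul_def]
    exact mul_mem (IntermediateField.algebraMap_mem _ _)
      (pow_mem (mem_adjoin_simple_self k _) _)
  exact div_mem (hP P) (hP Q)

theorem isAlgebraic_adjoin {X : F} (hF : k⟮X⟯ = ⊤) [Algebra.IsAlgebraic F E] (a : E) :
    IsAlgebraic k⟮algebraMap F E X⟯ a := by
  let f : F →+* k⟮algebraMap F E X⟯ :=
    (algebraMap F E).codRestrict k⟮algebraMap F E X⟯.toSubfield (map_mem_adjoin hF)
  exact isAlgebraic_mono f (fun _ => rfl) (Algebra.IsAlgebraic.isAlgebraic (R := F) a)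

theorem finite_adjoin {X : F} (hF : k⟮X⟯ = ⊤) [FiniteDimensional F E] :
    FiniteDimensional k⟮algebraMap F E X⟯ E := by
  let f : F →+* k⟮algebraMap F E X⟯ :=
    (algebraMap F E).codRestrict k⟮algebraMap F E X⟯.toSubfield (map_mem_adjoin hF)
  let _ : Algebra F k⟮algebraMap F E X⟯ := f.toAlgebra
  have : IsScalarTower F k⟮algebraMap F E X⟯ E := IsScalarTower.of_algebraMap_eq fun _ => rfl
  exact Module.Finite.of_restrictScalars_finite F k⟮algebraMap F E X⟯ E

/-- `X` is algebraic over `k(z)` -/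
theorem isAlgebraic_zc_self {vk : Valuation k ℝ≥0} {A : k[X]} (hA : MI vk A) {x : E}
    (hx : Transcendental k x) : IsAlgebraic k⟮zc A x⟯ x := by
  have hA0 : aeval x A ≠ 0 := fun h => hx ⟨A, hA.monic.ne_zero, h⟩
  have hD0 : aeval x (1 + Polynomial.X * A) ≠ 0 := fun h => hx ⟨_, hA.den.monic.ne_zero, h⟩
  have hz0 : zc A x ≠ 0 := div_ne_zero hA0 hD0
  set K0 := k⟮zc A x⟯ with hK0
  let z : K0 := ⟨zc A x, mem_adjoin_simple_self k _⟩
  have hz : z ≠ 0 := fun h => hz0 (congrArg Subtype.val h)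
  refine ⟨Polynomial.C z * (1 + Polynomial.X * A).map (algebraMap k K0) - A.map (algebraMap k K0),
    ?_, ?_⟩
  · intro h
    have h1 := congrArg (fun p : K0[X] => p.coeff (A.natDegree + 1)) h
    simp only [coeff_sub, coeff_C_mul, coeff_map, coeff_zero] at h1
    rw [← hA.natDegree_den, hA.den.monic.coeff_natDegree, hA.natDegree_den,
      coeff_eq_zero_of_natDegree_lt (Nat.lt_succ_self _), map_one, mul_one, map_zero,
      sub_zero] at h1
    exact hz h1
  · rw [map_sub, map_mul, aeval_C, aeval_map_algebraMap, aeval_map_algebraMap]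
    change zc A x * _ - _ = 0
    rw [zc, div_mul_cancel₀ _ hD0, sub_self]

theorem isAlgebraic_zc {vk : Valuation k ℝ≥0} {A : k[X]} (hA : MI vk A) {X : F}
    (hX : Transcendental k X) (hF : k⟮X⟯ = ⊤) [Algebra.IsAlgebraic F E] (a : E) :
    IsAlgebraic k⟮zc A (algebraMap F E X)⟯ a := by
  set x := algebraMap F E X with hx
  have hxt : Transcendental k x := by
    rw [hx]
    exact (transcendental_algebraMap_iff (algebraMap F E).injective).2 hX
  set K0 := k⟮zc A x⟯ with hK0
  set A1 : IntermediateField K0 E := algebraicClosure K0 E with hA1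
  have hxA : x ∈ A1 := (mem_algebraicClosure_iff (F := K0) (E := E)).2 (isAlgebraic_zc_self hA hxt)
  have hkA : ∀ c : k, algebraMap k E c ∈ A1 := by
    intro c
    rw [IsScalarTower.algebraMap_apply k K0 E]
    exact A1.algebraMap_mem _
  have hFA : ∀ f : F, algebraMap F E f ∈ A1 := by
    intro f
    obtain ⟨P, Q, -, rfl⟩ := hgen_of_top hF f
    rw [map_div₀, ← aeval_algebraMap_apply, ← aeval_algebraMap_apply]
    have hP : ∀ P : k[X], aeval x P ∈ A1 := by
      intro P
      rw [aeval_eq_sum_range]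
      refine sum_mem fun i _ => ?_
      rw [Algebra.smul_def]
      exact mul_mem (hkA _) (pow_mem hxA _)
    exact div_mem (hP P) (hP Q)
  let f : F →+* A1 := (algebraMap F E).codRestrict A1.toSubfield hFA
  obtain ⟨P, hP0, hP⟩ := Algebra.IsAlgebraic.isAlgebraic (R := F) a
  have h1 : IsAlgebraic A1 a := by
    refine ⟨P.map f, (Polynomial.map_ne_zero_iff f.injective).2 hP0, ?_⟩
    rw [aeval_def, eval₂_map]
    exact hP
  have : Algebra.IsAlgebraic K0 A1 := algebraicClosure.isAlgebraic K0 E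
  exact h1.restrictScalars K0

end Alg

section Rel

open scoped IntermediateField.algebraAdjoinAdjoin in
/-- the relation of an algebraic element over `k[X]` -/
theorem exists_rel {k E : Type*} [Field k] [Field E] [Algebra k E] (x h₀ : E) (hh : h₀ ≠ 0)
    (halg : IsAlgebraic k⟮x⟯ h₀) :
    ∃ (P : ℕ → k[X]) (n : ℕ), aeval x (P 0) ≠ 0 ∧ aeval x (P n) ≠ 0 ∧
      ∑ i ∈ Finset.range (n + 1), aeval x (P i) * h₀ ^ i = 0 := by
  have h1 : IsAlgebraic (Algebra.adjoin k {x}) h₀ :=
    (IsFractionRing.isAlgebraic_iff (Algebra.adjoin k {x}) k⟮x⟯ E).2 halg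
  obtain ⟨q, hq0, hq⟩ := h1.exists_nonzero_coeff_and_aeval_eq_zero
    (mem_nonZeroDivisors_of_ne_zero hh)
  have hq' : q ≠ 0 := by rintro rfl; exact hq0 (coeff_zero 0)
  have hr : ∀ a : Algebra.adjoin k {x}, ∃ P : k[X], aeval x P = (a : E) := by
    rintro ⟨a, ha⟩
    rw [Algebra.adjoin_singleton_eq_range_aeval] at ha
    exact ha
  choose P hP using hr
  refine ⟨fun i => P (q.coeff i), q.natDegree, ?_, ?_, ?_⟩
  · rw [hP]
    exact fun h => hq0 (Subtype.ext h)
  · rw [hP]
    exact fun h => leadingCoeff_ne_zero.2 hq' (Subtype.ext h)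
  · rw [aeval_eq_sum_range] at hq
    rw [← hq]
    refine Finset.sum_congr rfl fun i _ => ?_
    rw [hP]
    rfl

theorem unit_of_rel {k U Γ : Type*} [Field k] [Field U] [Algebra k U]
    [LinearOrderedCommGroupWithZero Γ] (u : Valuation U Γ) {x h₀ : U} {P : ℕ → k[X]} {n : ℕ}
    (h : ∑ i ∈ Finset.range (n + 1), aeval x (P i) * h₀ ^ i = 0)
    (hu : ∀ c : k, c ≠ 0 → u (algebraMap k U c) = 1) (hx : u x ≤ 1)
    (hB : u (aeval x (P 0 * P n)) = 1) : u h₀ = 1 := by
  have hint : ∀ Q : k[X], u (aeval x Q) ≤ 1 := by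
    intro Q
    rw [aeval_eq_sum_range]
    refine Valuation.map_sum_le _ fun i _ => ?_
    rw [Algebra.smul_def, map_mul, map_pow]
    refine mul_le_one' ?_ (pow_le_one₀ zero_le hx)
    by_cases hc : Q.coeff i = 0
    · rw [hc, map_zero, map_zero]; exact zero_le_one
    · exact (hu _ hc).le
  rw [map_mul, map_mul] at hB
  have hB0 : u (aeval x (P 0)) = 1 := by
    refine le_antisymm (hint _) ?_
    by_contra hcon
    push Not at hcon
    have : u (aeval x (P 0)) * u (aeval x (P n)) < 1 :=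
      mul_lt_one_of_nonneg_of_lt_one_left zero_le hcon (hint _)
    rw [hB] at this
    exact lt_irrefl _ this
  have hBn : u (aeval x (P n)) = 1 := by
    rw [hB0, one_mul] at hB
    exact hB
  exact val_one_of_root u (fun i => aeval x (P i)) n h₀ h hB0 hBn fun i => hint _

end Rel

section Level

variable {k F M C : Type*} [Field k] [Field F] [Field M] [Field C] [Algebra k F] [Algebra F M]
  [Algebra k M] [IsScalarTower k F M] {vk : Valuation k ℝ≥0} {X : F}

/-- no non split pair at level `L`: at each `v` one of the two sides is split -/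
theorem dich (hF : k⟮X⟯ = ⊤) {v₀ : Valuation F ℝ≥0} (hv₀ : IsG vk v₀ X)
    {A₀ A₁ : ValuationSubring F} (hA₀ : R2 vk X A₀) (hA₁ : R2 vk X⁻¹ A₁) (l : ℕ)
    (L : IntermediateField F M)
    (hno : ¬ ∃ Y A A' : ValuationSubring L, A ≤ Y ∧ A' ≤ Y ∧
        Y.comap (algebraMap F L) = v₀.valuationSubring ∧ A.comap (algebraMap F L) = A₀ ∧
        A'.comap (algebraMap F L) = A₁ ∧
        (∀ b : L, A.valuation (b ^ l) ≠ A.valuation (algebraMap F L X)) ∧
        (∀ b : L, A'.valuation (b ^ l) ≠ A'.valuation (algebraMap F L X)))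
    (v : Valuation L ℝ≥0) (hv : IsG vk v (algebraMap F L X)) :
    (∀ B : ValuationSubring L, B ≤ v.valuationSubring → R2 vk (algebraMap F L X) B →
      ∃ b, B.valuation (b ^ l) = B.valuation (algebraMap F L X)) ∨
    (∀ B : ValuationSubring L, B ≤ v.valuationSubring → R2 vk (algebraMap F L X)⁻¹ B →
      ∃ b, B.valuation (b ^ l) = B.valuation (algebraMap F L X)) := by
  by_contra hcon
  push Not at hcon
  obtain ⟨⟨B, hB, hB2, hBn⟩, ⟨B', hB', hB2', hBn'⟩⟩ := hcon
  refine hno ⟨v.valuationSubring, B, B', hB, hB', ?_, ?_, ?_, hBn, hBn'⟩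
  · ext f
    rw [ValuationSubring.mem_comap, Valuation.mem_valuationSubring_iff,
      Valuation.mem_valuationSubring_iff]
    obtain ⟨P, Q, -, rfl⟩ := hgen_of_top hF f
    rw [map_div₀, map_div₀, map_div₀, ← aeval_algebraMap_apply, ← aeval_algebraMap_apply]
    obtain ⟨i, hi, -⟩ := exists_max_coeff vk P
    obtain ⟨j, hj, -⟩ := exists_max_coeff vk Q
    rw [hv.aeval_eq P hi, hv.aeval_eq Q hj, hv₀.aeval_eq P hi, hv₀.aeval_eq Q hj]
  · exact R2.unique (hgen_of_top hF) (R2.comap hB2) hA₀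
  · refine R2.unique (hgen_of_top (top_inv hF)) (R2.comap ?_) hA₁
    rw [map_inv₀]
    exact hB2'

variable [Algebra k C]

/-- **compactness**: the data of the patching problem at a finite level -/
theorem exists_level (E : IntermediateField F M) [Algebra C E] [IsScalarTower k C E]
    {nC : Valuation C ℝ≥0} (hCk : ∀ c, nC (algebraMap k C c) = vk c) (hC : ResClosed nC)
    [Algebra.IsAlgebraic F M] (hX : Transcendental k X) (hF : k⟮X⟯ = ⊤) {v₀ : Valuation F ℝ≥0}
    (hv₀ : IsG vk v₀ X) {A₀ A₁ : ValuationSubring F} (hA₀ : R2 vk X A₀) (hA₁ : R2 vk X⁻¹ A₁)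
    {l : ℕ} (hl : l ≠ 0) {π : k} (hπ0 : π ≠ 0) (hπ1 : vk π < 1) (L : IntermediateField F M)
    [FiniteDimensional F L] (hLE : L ≤ E)
    (hno : ¬ ∃ Y A A' : ValuationSubring L, A ≤ Y ∧ A' ≤ Y ∧
        Y.comap (algebraMap F L) = v₀.valuationSubring ∧ A.comap (algebraMap F L) = A₀ ∧
        A'.comap (algebraMap F L) = A₁ ∧
        (∀ b : L, A.valuation (b ^ l) ≠ A.valuation (algebraMap F L X)) ∧
        (∀ b : L, A'.valuation (b ^ l) ≠ A'.valuation (algebraMap F L X))) :
    ∃ (A : k[X]) (h₀ : E) (c₁ : C) (e₀ : ℕ) (G : Finset E),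
      MI vk A ∧ (Polynomial.X : k[X]) ∣ A ∧ h₀ ≠ 0 ∧ nC c₁ = 1 ∧ nC (aeval (-c₁ ^ l) A) = 1 ∧
      (∀ g ∈ G, g ≠ 0) ∧
      (∀ O : ValuationSubring E, (∀ c, nC c ≤ 1 → algebraMap C E c ∈ O) →
        O.valuation (zc A (algebraMap F E X)) < 1 →
        O.valuation (algebraMap k E π / zc A (algebraMap F E X) ^ e₀) < 1 →
        ∃ g ∈ G, O.valuation (h₀ / ((algebraMap F E X + algebraMap C E c₁ ^ l) /
          algebraMap F E X) * g ^ l - 1) < 1) ∧
      ∀ {U : Type*} [Field U] [Algebra k U] [Algebra U E] [IsScalarTower k U E]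
        (X' h₀' : U), algebraMap U E X' = algebraMap F _ X →
        algebraMap U E h₀' = h₀ → ∀ (O : ValuationSubring U) (u : Valuation U ℝ≥0),
        (∀ c : k, vk c ≤ 1 → algebraMap k U c ∈ O) →
        (∀ c : k, vk c < 1 → O.valuation (algebraMap k U c) < 1) →
        (∀ c : k, c ≠ 0 → u (algebraMap k U c) = 1) → (∀ a ∈ O, u a ≤ 1) →
        O.valuation X' ≤ 1 → O.valuation (aeval X' A) = 1 → u h₀' = 1 := by
  classical
  have hnt : ∃ c, vk c ≠ 0 ∧ vk c ≠ 1 := ⟨π, (Valuation.ne_zero_iff _).2 hπ0, hπ1.ne⟩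
  set XL : L := algebraMap F L X with hXL
  have hXLt : Transcendental k XL := by
    rw [hXL]
    exact (transcendental_algebraMap_iff (algebraMap F L).injective).2 hX
  let _ : Algebra L E := (IntermediateField.inclusion hLE).toRingHom.toAlgebra
  have hLEc : ∀ a : L, ((algebraMap L E a : E) : M) = (a : M) := fun a => rfl
  have : IsScalarTower k L E := IsScalarTower.of_algebraMap_eq fun c => rfl
  have : IsScalarTower F L E := IsScalarTower.of_algebraMap_eq fun c => rfl
  -- finite dimensional over `k(X)`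
  have hfd : FiniteDimensional k⟮XL⟯ L := finite_adjoin hF
  -- one norm over the Gauss norm
  obtain ⟨v₁, hv₁⟩ : ∃ v₁ : Valuation L ℝ≥0, IsG vk v₁ XL := by
    obtain ⟨v₁, hv₁⟩ := exists_ext_val (K := L) v₀
    refine ⟨v₁, fun c => ?_, ?_, fun f i => ?_⟩
    · rw [IsScalarTower.algebraMap_apply k F L, hv₁, hv₀.ext]
    · rw [hXL, hv₁]; exact hv₀.le
    · rw [hXL, aeval_algebraMap_apply, hv₁]; exact hv₀.coeff_le f i
  obtain ⟨h₀, hh0, hβα⟩ := exists_h0 hnt XL hXLt _ _ (dich hF hv₀ hA₀ hA₁ l L hno) v₁ hv₁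
  have hh0E : algebraMap L E h₀ ≠ 0 := (_root_.map_ne_zero _).2 hh0
  set x : E := algebraMap F E X with hx
  have hxL : algebraMap L E XL = x := rfl
  have halgE : Algebra.IsAlgebraic F E := inferInstance
  have hxt : Transcendental k x := by
    rw [hx]
    exact (transcendental_algebraMap_iff (algebraMap F E).injective).2 hX
  obtain ⟨P, n, hP0, hPn, hrel⟩ := exists_rel (k := k) x (algebraMap L E h₀) hh0E
    (isAlgebraic_adjoin hF _)
  have hB0 : P 0 * P n ≠ 0 := by
    intro h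
    have h1 := congrArg (aeval x) h
    rw [map_mul, map_zero] at h1
    exact mul_ne_zero hP0 hPn h1
  obtain ⟨A, hA, hdvd, b, hb0, hAB⟩ := exists_A (vk := vk) (P 0 * P n) hB0
  obtain ⟨c₁, hc₁, hAc⟩ := exists_c1 hCk hC hA hl
  have hA0 : aeval x A ≠ 0 := fun h => hxt ⟨A, hA.monic.ne_zero, h⟩
  have hD0 : aeval x (1 + Polynomial.X * A) ≠ 0 := fun h => hxt ⟨_, hA.den.monic.ne_zero, h⟩
  have hz0 : zc A x ≠ 0 := div_ne_zero hA0 hD0
  have halgz : ∀ a : E, IsAlgebraic k⟮zc A x⟯ a := fun a => isAlgebraic_zc hA hX hF a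
  obtain ⟨e₀, G, hG0, hG⟩ := lift3 (K := E) {a | ∃ c : C, nC c ≤ 1 ∧ algebraMap C E c = a}
    (zc A x) (algebraMap k E π)
    (algebraMap L E h₀ / ((x + algebraMap C E c₁ ^ l) / x)) hz0 l (by
      intro O hO hz hπ
      have hO' : ∀ c, nC c ≤ 1 → algebraMap C E c ∈ O := fun c hc => hO _ ⟨c, hc, rfl⟩
      have hres : ∀ a ∈ O, ∃ c, nC c ≤ 1 ∧ O.valuation (a - algebraMap C E c) < 1 := by
        have hk : ∀ a ∈ k⟮zc A x⟯, a ∈ C⟮zc A x⟯ := by
          intro a ha
          rw [mem_adjoin_simple_iff] at ha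
          obtain ⟨P, Q, rfl⟩ := ha
          have hP : ∀ P : k[X], aeval (zc A x) P ∈ C⟮zc A x⟯ := by
            intro P
            rw [aeval_eq_sum_range]
            refine sum_mem fun i _ => ?_
            rw [Algebra.smul_def, IsScalarTower.algebraMap_apply k C E]
            exact mul_mem (IntermediateField.algebraMap_mem _ _)
              (pow_mem (mem_adjoin_simple_self C _) _)
          exact div_mem (hP P) (hP Q)
        let g : k⟮zc A x⟯ →+* C⟮zc A x⟯ :=
          (algebraMap k⟮zc A x⟯ E).codRestrict C⟮zc A x⟯.toSubfield fun a => hk _ a.2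
        refine fun a ha => exists_const' nC (π := algebraMap k C π)
          ((_root_.map_ne_zero _).2 hπ0) hz0 hO' hz (fun n => ?_) hC
          (fun a => isAlgebraic_mono g (fun _ => rfl) (halgz a)) a ha
        rw [← IsScalarTower.algebraMap_apply k C E]
        exact hπ n
      exact core hCk hπ0 XL hXLt A hA hdvd l c₁ hc₁ hAc h₀ hβα halgz O hO' hz hπ hres
        (exists_root hC hl))
  refine ⟨A, algebraMap L E h₀, c₁, e₀, G, hA, hdvd, hh0E, hc₁, hAc, hG0, ?_, ?_⟩
  · intro O hO hz hπ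
    exact hG O (by rintro _ ⟨c, hc, rfl⟩; exact hO c hc) hz hπ
  · intro U _ _ _ _ X' h₀' hX' hh' O u hOk hOk' huk hOu hXO hAO
    have h1 := hAB O hOk hOk' X' hXO hAO
    have h2 : u (algebraMap k U b * aeval X' (P 0 * P n)) = 1 := by
      have h3 := hOu _ ((O.valuation_le_one_iff _).1 h1.le)
      have h4 := hOu _ ((O.valuation_le_one_iff _).1 (show O.valuation
        (algebraMap k U b * aeval X' (P 0 * P n))⁻¹ ≤ 1 by rw [map_inv₀, h1, inv_one]))
      rw [map_inv₀] at h4
      refine le_antisymm h3 ?_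
      have h5 : u (algebraMap k U b * aeval X' (P 0 * P n)) ≠ 0 := by
        rw [Valuation.ne_zero_iff]
        intro h0
        rw [h0, map_zero] at h1
        exact zero_ne_one h1
      exact (inv_le_one₀ (zero_lt_iff.2 h5)).1 h4
    rw [map_mul, huk b hb0, one_mul] at h2
    have hXU : u X' ≤ 1 := hOu _ ((O.valuation_le_one_iff _).1 hXO)
    refine unit_of_rel u (P := P) (n := n) ?_ huk hXU h2
    apply (algebraMap U E).injective
    rw [map_sum, map_zero, ← hrel]
    refine Finset.sum_congr rfl fun i _ => ?_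
    rw [map_mul, map_pow, hh', ← aeval_algebraMap_apply, hX']

end Level

end Crest.Agent.R013.U6_337
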