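import Crest.Agent.R013.U1_337
import Crest.Agent.R013.U6_337
import Crest.Agent.R013.Rk2b_894
import Crest.Agent.R013.Ax2_280

/-!
Row 13, part A, leaf A-U (helper337), file 7: points at the finite level `U`: values of algebraic
elements, and the transport of the output of compactness to the points of `U`.
-/

set_option autoImplicit false

noncomputable section

namespace Crest.Agent.R013.U7_337

open scoped NNReal ENNReal
open Polynomial IntermediateField
open Crest.Agent.R013.LiftA_168 Crest.Agent.R013.U2_337 Crest.Agent.R013.RZ_365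
open Crest.Agent.R013.U3_337 Crest.Agent.R013.U4_337
open Crest.Agent.R013.A2b_275 Crest.Agent.R013.U1_337

section Int

variable {p : ℕ} [Fact p.Prime]

/-- the embedding of `ℚ_p` -/
abbrev iQ (p : ℕ) [Fact p.Prime] (k : Type*) [Field k] [Algebra ℚ_[p] k] (M : Type*) [Field M]
    [Algebra k M] : ℚ_[p] →+* M := (algebraMap k M).comp (algebraMap ℚ_[p] k)

/-- integral over `ℤ_p` -/
def IntZ {R : Type*} [Field R] (i : ℚ_[p] →+* R) (c : R) : Prop :=
  ∃ P : ℚ_[p][X], P.Monic ∧ (∀ j, ‖P.coeff j‖₊ ≤ 1) ∧ eval₂ i c P = 0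

theorem IntZ.map {R S : Type*} [Field R] [Field S] {i : ℚ_[p] →+* R} (f : R →+* S)
    {i' : ℚ_[p] →+* S} (hi : ∀ q, f (i q) = i' q) {c : R} (h : IntZ i c) : IntZ i' (f c) := by
  obtain ⟨P, hP, h1, h2⟩ := h
  refine ⟨P, hP, h1, ?_⟩
  have e : i' = f.comp i := RingHom.ext fun q => (hi q).symm
  rw [e, ← hom_eval₂, h2, map_zero]

theorem IntZ.of_map {R S : Type*} [Field R] [Field S] {i : ℚ_[p] →+* R} (f : R →+* S)
    {i' : ℚ_[p] →+* S} (hi : ∀ q, f (i q) = i' q) {c : R} (h : IntZ i' (f c)) : IntZ i c := by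
  obtain ⟨P, hP, h1, h2⟩ := h
  refine ⟨P, hP, h1, ?_⟩
  have e : i' = f.comp i := RingHom.ext fun q => (hi q).symm
  apply f.injective
  rw [hom_eval₂, ← e, h2, map_zero]

theorem IntZ.le_one {R Γ : Type*} [Field R] [LinearOrderedCommGroupWithZero Γ] {i : ℚ_[p] →+* R}
    {c : R} (h : IntZ i c) (u : Valuation R Γ) (hu : ∀ q : ℚ_[p], ‖q‖₊ ≤ 1 → u (i q) ≤ 1) :
    u c ≤ 1 := by
  obtain ⟨P, hP, h1, h2⟩ := h
  by_contra hcon
  push Not at hcon
  rw [eval₂_eq_sum_range, Finset.sum_range_succ, hP.coeff_natDegree, map_one, one_mul] at h2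
  have hc0 : c ≠ 0 := by rintro rfl; rw [map_zero] at hcon; exact absurd hcon (by simp)
  have h3 : u (∑ j ∈ Finset.range P.natDegree, i (P.coeff j) * c ^ j) < u (c ^ P.natDegree) := by
    refine Valuation.map_sum_lt _ ((Valuation.ne_zero_iff _).2 (pow_ne_zero _ hc0)) fun j hj => ?_
    rw [map_mul, map_pow, map_pow]
    calc u (i (P.coeff j)) * u c ^ j ≤ 1 * u c ^ j := mul_le_mul_left (hu _ (h1 j)) _
      _ = u c ^ j := one_mul _
      _ < u c ^ P.natDegree := pow_lt_pow_right₀ hcon (Finset.mem_range.1 hj)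
  have h4 : c ^ P.natDegree = -∑ j ∈ Finset.range P.natDegree, i (P.coeff j) * c ^ j := by
    rw [eq_neg_iff_add_eq_zero, add_comm]; exact h2
  rw [h4, Valuation.map_neg] at h3
  exact lt_irrefl _ h3

variable {k : Type*} [Field k] [Algebra ℚ_[p] k] [FiniteDimensional ℚ_[p] k] {C : Type*} [Field C]
  [Algebra k C] [Algebra.IsAlgebraic k C] {nC : Valuation C ℝ≥0}

/-- the elements of norm `≤ 1` are integral over `ℤ_p` -/
theorem exists_int_poly (hnC : ∀ q : ℚ_[p], nC (algebraMap k C (algebraMap ℚ_[p] k q)) = ‖q‖₊)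
    {c : C} (hc : nC c ≤ 1) : IntZ (iQ p k C) c := by
  let _ : Algebra ℚ_[p] C := (iQ p k C).toAlgebra
  have : IsScalarTower ℚ_[p] k C := IsScalarTower.of_algebraMap_eq fun _ => rfl
  have : Algebra.IsAlgebraic ℚ_[p] C := Algebra.IsAlgebraic.trans ℚ_[p] k C
  have h1 := Crest.Agent.R013.Ax_280.w_eq_spectralNorm nC hnC c
  have hci : IsIntegral ℚ_[p] c := Algebra.IsIntegral.isIntegral c
  have h2 : spectralValue (minpoly ℚ_[p] c) ≤ 1 := by
    have : spectralNorm ℚ_[p] C c ≤ 1 := by rw [← h1]; exact_mod_cast hc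
    exact this
  refine ⟨minpoly ℚ_[p] c, minpoly.monic hci, fun j => ?_, minpoly.aeval ℚ_[p] c⟩
  exact (spectralValue_le_one_iff (minpoly.monic hci)).1 h2 j

end Int

section Pt

variable {p : ℕ} [Fact p.Prime] {k : Type*} [Field k] [Algebra ℚ_[p] k] {U : Type*} [Field U]
  [Algebra k U] {φ : U → ℝ≥0∞}

theorem unit_le (hφ : IsPt p k U φ) (a : U) : (unitRing hφ).valuation a ≤ 1 ↔ φ a ≤ 1 := by
  rw [ValuationSubring.valuation_le_one_iff, mem_unitRing]

theorem unit_eq (hφ : IsPt p k U φ) (a : U) : (unitRing hφ).valuation a = 1 ↔ φ a = 1 := by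
  rw [eq_iff_le_not_lt, eq_iff_le_not_lt, unit_le hφ, unitRing_lt_one_iff hφ]

theorem unit_gt (hφ : IsPt p k U φ) (a : U) : 1 < (unitRing hφ).valuation a ↔ 1 < φ a := by
  rw [← not_le, ← not_le, unit_le hφ]

theorem near_one (hφ : IsPt p k U φ) {a : U} (h : φ (a - 1) < 1) : φ a = 1 :=
  (unit_eq hφ a).1 (val_eq_one_of_near ((unitRing_lt_one_iff hφ _).2 h))

theorem IntZ.pt_le (hφ : IsPt p k U φ) {c : U} (h : IntZ (iQ p k U) c) : φ c ≤ 1 := by
  rw [← unit_le hφ]
  refine h.le_one _ fun q hq => ?_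
  rw [unit_le hφ]
  change φ (algebraMap k U (algebraMap ℚ_[p] k q)) ≤ 1
  rw [hφ.ext q]
  exact_mod_cast hq

variable [FiniteDimensional ℚ_[p] k] {C E : Type*} [Field C] [Field E]
  [Algebra k C] [Algebra.IsAlgebraic k C] {nC : Valuation C ℝ≥0} [Algebra k E] [Algebra C E]
  [Algebra U E] [IsScalarTower k U E] [IsScalarTower k C E]

theorem pt_le_of_norm_le (hnC : ∀ q : ℚ_[p], nC (algebraMap k C (algebraMap ℚ_[p] k q)) = ‖q‖₊)
    (hφ : IsPt p k U φ) {c : C} {c' : U} (h : algebraMap U E c' = algebraMap C E c)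
    (hc : nC c ≤ 1) : φ c' ≤ 1 := by
  refine IntZ.pt_le hφ (IntZ.of_map (algebraMap U E) (i' := iQ p k E) (fun q => ?_) ?_)
  · exact (IsScalarTower.algebraMap_apply k U E _).symm
  · rw [h]
    refine IntZ.map (algebraMap C E) (fun q => ?_) (exists_int_poly hnC hc)
    exact (IsScalarTower.algebraMap_apply k C E _).symm

/-- **values of algebraic elements at points** -/
theorem pt_eq (hnC : ∀ q : ℚ_[p], nC (algebraMap k C (algebraMap ℚ_[p] k q)) = ‖q‖₊)
    (hφ : IsPt p k U φ) {c : C} {c' : U} (h : algebraMap U E c' = algebraMap C E c) :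
    φ c' = nC c := by
  by_cases hc0 : c = 0
  · have : c' = 0 := by
      apply (algebraMap U E).injective
      rw [h, hc0, map_zero, map_zero]
    rw [this, hφ.map_zero, hc0, map_zero, ENNReal.coe_zero]
  have hc'0 : c' ≠ 0 := by
    rintro rfl
    rw [map_zero] at h
    exact hc0 ((_root_.map_eq_zero _).1 h.symm)
  let _ : Algebra ℚ_[p] C := (iQ p k C).toAlgebra
  have : IsScalarTower ℚ_[p] k C := IsScalarTower.of_algebraMap_eq fun _ => rfl
  have : Algebra.IsAlgebraic ℚ_[p] C := Algebra.IsAlgebraic.trans ℚ_[p] k C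
  obtain ⟨n, hn, b, hb, hnb⟩ := exists_pow_val (F := ℚ_[p]) nC hc0
    (Algebra.IsAlgebraic.isAlgebraic c)
  have hnb' : nC (c ^ n) = ‖b‖₊ := hnb.trans (hnC b)
  have hb1 : ‖b‖₊ ≠ 0 := nnnorm_ne_zero_iff.2 hb
  have hbU : iQ p k U b ≠ 0 := (_root_.map_ne_zero _).2 hb
  have hbC : algebraMap ℚ_[p] C b ≠ 0 := (_root_.map_ne_zero _).2 hb
  have hE : algebraMap C E (algebraMap ℚ_[p] C b) = algebraMap U E (iQ p k U b) := by
    change algebraMap C E (algebraMap k C (algebraMap ℚ_[p] k b)) =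
      algebraMap U E (algebraMap k U (algebraMap ℚ_[p] k b))
    rw [← IsScalarTower.algebraMap_apply k C E, ← IsScalarTower.algebraMap_apply k U E]
  have h1 : φ (c' ^ n / iQ p k U b) ≤ 1 := by
    refine pt_le_of_norm_le (c := c ^ n / algebraMap ℚ_[p] C b) (E := E) hnC hφ ?_ ?_
    · rw [map_div₀, map_pow, h, map_div₀, map_pow, hE]
    · rw [map_div₀, hnb, div_self]
      exact (Valuation.ne_zero_iff _).2 hbC
  have h2 : φ (c' ^ n / iQ p k U b)⁻¹ ≤ 1 := by
    refine pt_le_of_norm_le (c := (c ^ n / algebraMap ℚ_[p] C b)⁻¹) (E := E) hnC hφ ?_ ?_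
    · rw [map_inv₀, map_div₀, map_pow, h, map_inv₀, map_div₀, map_pow, hE]
    · rw [map_inv₀, map_div₀, hnb, div_self, inv_one]
      exact (Valuation.ne_zero_iff _).2 hbC
  have h3 : φ (c' ^ n / iQ p k U b) = 1 := by
    refine le_antisymm h1 ?_
    rw [hφ.inv _ (div_ne_zero (pow_ne_zero _ hc'0) hbU)] at h2
    exact ENNReal.inv_le_one.1 h2
  have hφb : φ (iQ p k U b) = ‖b‖₊ := hφ.ext b
  have h4 : φ (c' ^ n) = ‖b‖₊ := by
    have e : c' ^ n = (c' ^ n / iQ p k U b) * iQ p k U b := by rw [div_mul_cancel₀ _ hbU]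
    rw [e, hφ.mul _ _ (Or.inl (by rw [h3]; exact one_ne_zero))
      (Or.inr (by rw [h3]; exact ENNReal.one_ne_top)), h3, one_mul, hφb]
  have h5 : φ (c' ^ n) = φ c' ^ n := by
    have := pt_prod hφ (α := φ c') (Finset.range n) (fun _ => c') (fun _ _ => rfl)
    rwa [Finset.prod_const, Finset.card_range] at this
  refine pow_inj hn.ne' ?_
  rw [← h5, h4, ← ENNReal.coe_pow, ← map_pow, hnb']

/-- transport of the output of compactness to the points of `U` -/
theorem lift_pt (hnC : ∀ q : ℚ_[p], nC (algebraMap k C (algebraMap ℚ_[p] k q)) = ‖q‖₊)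
    (hφ : IsPt p k U φ) {z π F : E} {z' π' F' : U} (hz : algebraMap U E z' = z)
    (hπ : algebraMap U E π' = π) (hF : algebraMap U E F' = F) {e₀ l : ℕ} {G : Finset E}
    (hGU : ∀ g ∈ G, ∃ g' : U, algebraMap U E g' = g) (hG0 : ∀ g ∈ G, g ≠ 0)
    (hG : ∀ O : ValuationSubring E, (∀ c, nC c ≤ 1 → algebraMap C E c ∈ O) →
      O.valuation z < 1 → O.valuation (π / z ^ e₀) < 1 →
      ∃ g ∈ G, O.valuation (F * g ^ l - 1) < 1)
    (h1 : φ z' < 1) (h2 : φ (π' / z' ^ e₀) < 1) : ∃ g : U, g ≠ 0 ∧ φ (F' * g ^ l - 1) < 1 := by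
  obtain ⟨O, hO⟩ := Rk2_894.exists_extend (N := E) (unitRing hφ)
  have hOle : ∀ a : U, O.valuation (algebraMap U E a) ≤ 1 ↔ φ a ≤ 1 := by
    intro a
    rw [ValuationSubring.valuation_le_one_iff, ← ValuationSubring.mem_comap, hO, mem_unitRing]
  have hOlt : ∀ a : U, O.valuation (algebraMap U E a) < 1 ↔ φ a < 1 := by
    intro a
    have h3 := comap_lt (O := O) a 1 one_ne_zero
    rw [map_one, map_one, map_one] at h3
    rw [← h3, hO, unitRing_lt_one_iff hφ]
  obtain ⟨g, hg, hg1⟩ := hG O (fun c hc => by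
      rw [← ValuationSubring.valuation_le_one_iff]
      refine IntZ.le_one (i := iQ p k E) ?_ _ fun q hq => ?_
      · refine IntZ.map (algebraMap C E) (fun q => ?_) (exists_int_poly hnC hc)
        exact (IsScalarTower.algebraMap_apply k C E _).symm
      · have e : iQ p k E q = algebraMap U E (iQ p k U q) :=
          IsScalarTower.algebraMap_apply k U E _
        rw [e, hOle]
        change φ (algebraMap k U (algebraMap ℚ_[p] k q)) ≤ 1
        rw [hφ.ext]
        exact_mod_cast hq)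
    (by rw [← hz, hOlt]; exact h1)
    (by rw [← hz, ← hπ, ← map_pow, ← map_div₀, hOlt]; exact h2)
  obtain ⟨g', hg'⟩ := hGU g hg
  refine ⟨g', ?_, ?_⟩
  · rintro rfl
    rw [map_zero] at hg'
    exact hG0 g hg hg'.symm
  · rw [← hF, ← hg', ← map_pow, ← map_mul, ← map_one (algebraMap U E), ← map_sub, hOlt] at hg1
    exact hg1

end Pt

end Crest.Agent.R013.U7_337
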