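import Crest.Agent.R013.U7_337
import Crest.Agent.R013.PPt_894

/-!
Row 13, part A, leaf A-U (helper337), file 8: patching at the finite level `U`.
-/

set_option autoImplicit false
set_option linter.unusedSectionVars false

noncomputable section

namespace Crest.Agent.R013.U8_337

open scoped NNReal ENNReal
open Polynomial IntermediateField
open Crest.NumberTheoryR.Sect
open Crest.Agent.R013.LiftA_168 Crest.Agent.R013.U2_337 Crest.Agent.R013.RZ_365
open Crest.Agent.R013.U3_337 Crest.Agent.R013.U4_337 Crest.Agent.R013.U6_337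
open Crest.Agent.R013.A2b_275 Crest.Agent.R013.U1_337 Crest.Agent.R013.U7_337

theorem transcendental_zc {k E : Type*} [Field k] [Field E] [Algebra k E] {vk : Valuation k ℝ≥0}
    {A : k[X]} (hA : MI vk A) {x : E} (hx : Transcendental k x) : Transcendental k (zc A x) := by
  intro h
  have h1 : Algebra.IsAlgebraic k k⟮zc A x⟯ := isAlgebraic_adjoin_simple h.isIntegral
  exact hx ((isAlgebraic_zc_self hA hx).restrictScalars k)

open scoped IntermediateField.algebraAdjoinAdjoin in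
/-- change of variable: `K/k(t)` is finite for every transcendental `t`. -/
theorem finite_adjoin' {k K : Type*} [Field k] [Field K] [Algebra k K] (x : K)
    [FiniteDimensional k⟮x⟯ K] (t : K)
    (ht : Transcendental k t) : FiniteDimensional k⟮t⟯ K := by
  have h1 : Algebra.IsAlgebraic (Algebra.adjoin k {x}) K :=
    (IsFractionRing.comap_isAlgebraic_iff (A := Algebra.adjoin k {x})
      (K := IntermediateField.adjoin k {x})).2 inferInstance
  have h2 : Algebra.trdeg k K ≤ 1 := by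
    have := Algebra.IsAlgebraic.trdeg_le_cardinalMk k ({x} : Set K)
    simpa using this
  have h3 : AlgebraicIndependent k (fun _ : Unit => t) := algebraicIndependent_unique_type_iff.2 ht
  have h4 : IsTranscendenceBasis k (fun _ : Unit => t) :=
    h3.isTranscendenceBasis_of_lift_trdeg_le_of_finite (by simpa using h2)
  have h5 := h4.isAlgebraic_field
  have h6 : Set.range (fun _ : Unit => t) = {t} := by simp
  rw [h6] at h5
  have h7 : Algebra.EssFiniteType k (IntermediateField.adjoin k {x}) := by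
    rw [IntermediateField.essFiniteType_iff]
    exact IntermediateField.fg_adjoin_of_finite (Set.finite_singleton x)
  have h8 : Algebra.EssFiniteType k K := .comp k (IntermediateField.adjoin k {x}) K
  have h9 : Algebra.EssFiniteType (IntermediateField.adjoin k {t}) K := .of_comp k _ K
  obtain ⟨s, hs⟩ := IntermediateField.fg_top (IntermediateField.adjoin k {t}) K
  have h3 : FiniteDimensional (IntermediateField.adjoin k {t})
      (IntermediateField.adjoin (IntermediateField.adjoin k {t}) (s : Set K)) :=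
    IntermediateField.finiteDimensional_adjoin fun x _ => (h5.isAlgebraic x).isIntegral
  rw [hs] at h3
  exact Module.Finite.of_surjective
    (IntermediateField.topEquiv (F := IntermediateField.adjoin k {t}) (E := K)).toLinearMap
    IntermediateField.topEquiv.surjective

section Level

variable {p : ℕ} [Fact p.Prime] {k k₁ U C E : Type*} [Field k] [Field k₁] [Field U] [Field C]
  [Field E] [Algebra ℚ_[p] k] [FiniteDimensional ℚ_[p] k] [Algebra k k₁] [Algebra k C]
  [Algebra k₁ C] [IsScalarTower k k₁ C] [Algebra.IsAlgebraic k C] [Algebra k U] [Algebra k₁ U]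
  [IsScalarTower k k₁ U] [Algebra k E] [Algebra k₁ E] [IsScalarTower k k₁ E] [Algebra C E]
  [IsScalarTower k C E] [IsScalarTower k₁ C E] [Algebra U E] [IsScalarTower k U E]
  [IsScalarTower k₁ U E] {nC : Valuation C ℝ≥0} {vk : Valuation k₁ ℝ≥0}


theorem tow (c : k₁) : algebraMap U E (algebraMap k₁ U c) = algebraMap C E (algebraMap k₁ C c) := by
  rw [← IsScalarTower.algebraMap_apply k₁ U E, ← IsScalarTower.algebraMap_apply k₁ C E]

variable (hnC : ∀ q : ℚ_[p], nC (algebraMap k C (algebraMap ℚ_[p] k q)) = ‖q‖₊)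
  (hCk : ∀ c, nC (algebraMap k₁ C c) = vk c)

include hnC hCk in
theorem pt_k1 (E : Type*) [Field E] [Algebra k E] [Algebra k₁ E] [IsScalarTower k k₁ E]
    [Algebra C E] [IsScalarTower k C E] [IsScalarTower k₁ C E] [Algebra U E] [IsScalarTower k U E]
    [IsScalarTower k₁ U E] {φ : U → ℝ≥0∞} (hφ : IsPt p k U φ) (c : k₁) :
    φ (algebraMap k₁ U c) = vk c := by
  rw [pt_eq (C := C) (E := E) hnC hφ (tow c), hCk]

include hnC hCk in
theorem hO1 (E : Type*) [Field E] [Algebra k E] [Algebra k₁ E] [IsScalarTower k k₁ E]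
    [Algebra C E] [IsScalarTower k C E] [IsScalarTower k₁ C E] [Algebra U E] [IsScalarTower k U E]
    [IsScalarTower k₁ U E] {φ : U → ℝ≥0∞} (hφ : IsPt p k U φ) (c : k₁) (hc : vk c ≤ 1) :
    algebraMap k₁ U c ∈ unitRing hφ := by
  rw [mem_unitRing, pt_k1 hnC hCk E hφ]
  exact_mod_cast hc

variable {A : k₁[X]} {X' : U} (hA : MI vk A) (hXt : Transcendental k₁ X')

include hXt hA in
theorem ne0 : aeval X' A ≠ 0 ∧ aeval X' (1 + X * A) ≠ 0 ∧ zc A X' ≠ 0 := by
  have hA0 : aeval X' A ≠ 0 := fun h => hXt ⟨A, hA.monic.ne_zero, h⟩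
  have hD0 : aeval X' (1 + X * A) ≠ 0 := fun h => hXt ⟨_, hA.den.monic.ne_zero, h⟩
  exact ⟨hA0, hD0, div_ne_zero hA0 hD0⟩

include hnC hCk hA hXt in
theorem region (E : Type*) [Field E] [Algebra k E] [Algebra k₁ E] [IsScalarTower k k₁ E]
    [Algebra C E] [IsScalarTower k C E] [IsScalarTower k₁ C E] [Algebra U E] [IsScalarTower k U E]
    [IsScalarTower k₁ U E] {φ : U → ℝ≥0∞} (hφ : IsPt p k U φ) :
    φ (zc A X') < 1 ↔ 1 < φ X' ∨ (φ X' ≤ 1 ∧ φ (aeval X' A) < 1) := by
  rw [← unitRing_lt_one_iff hφ, zc_lt_iff (hO1 hnC hCk E hφ) hA (ne0 hA hXt).2.1, unit_gt hφ,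
    unit_le hφ, unitRing_lt_one_iff hφ]

variable {h₀' e' z₂ π₂' : U} {h₀ : E} {π₂ : C} {l e₀ : ℕ} {G : Finset E}

/-- the hypotheses of the patching problem -/
structure Hyp (p : ℕ) [Fact p.Prime] {k₁ U C E : Type*} [Field k₁] [Field U]
    [Field C] [Field E] [Algebra k₁ U] [Algebra C E] [Algebra U E] (nC : Valuation C ℝ≥0)
    (A : k₁[X]) (X' h₀' e' π₂' : U) (π₂ : C) (l e₀ : ℕ) (G : Finset E) : Prop where
  hπ₂ : algebraMap U E π₂' = algebraMap C E π₂
  hπ₂1 : nC π₂ < 1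
  hπ₂2 : nC (p : C) < nC π₂ ^ e₀
  hh₀ : h₀' ≠ 0
  he : e' ≠ 0
  hGU : ∀ g ∈ G, ∃ g' : U, algebraMap U E g' = g
  hG0 : ∀ g ∈ G, g ≠ 0
  hG : ∀ O : ValuationSubring E, (∀ c, nC c ≤ 1 → algebraMap C E c ∈ O) →
      O.valuation (algebraMap U E (zc A X')) < 1 →
      O.valuation (algebraMap U E (p : U) / algebraMap U E (zc A X') ^ e₀) < 1 →
      ∃ g ∈ G, O.valuation (algebraMap U E (h₀' / e') * g ^ l - 1) < 1

variable (H : Hyp p (k₁ := k₁) (U := U) (C := C) (E := E) nC A X' h₀' e' π₂' π₂ l e₀ G)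

include hnC H in
/-- the annulus: `h₀ ~ e g ^ l` -/
theorem annulus (hπ0 : π₂ ≠ 0) {φ : U → ℝ≥0∞} (hφ : IsPt p k U φ) (h1 : φ (zc A X') < 1)
    (h2 : 1 ≤ φ (zc A X' / π₂')) : ∃ g : U, g ≠ 0 ∧ φ (h₀' / e' * g ^ l - 1) < 1 := by
  have hπ'0 : π₂' ≠ 0 := by
    rintro rfl
    have := H.hπ₂
    rw [map_zero] at this
    exact hπ0 ((_root_.map_eq_zero _).1 this.symm)
  refine lift_pt (C := C) (E := E) hnC hφ (z' := zc A X') (π' := (p : U)) rfl rfl rfl H.hGU H.hG0
    H.hG h1 ?_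
  set O := unitRing hφ with hO
  have h3 : O.valuation π₂' ≤ O.valuation (zc A X') := by
    have h4 : 1 ≤ O.valuation (zc A X' / π₂') := by
      rw [← not_lt, unitRing_lt_one_iff hφ, not_lt]; exact h2
    rw [map_div₀, one_le_div₀ (val_pos _ hπ'0)] at h4
    exact h4
  have h5 : φ ((p : U) / π₂' ^ e₀) < 1 := by
    rw [pt_eq (C := C) (E := E) (c := (p : C) / π₂ ^ e₀) hnC hφ (by
      rw [map_div₀, map_pow, H.hπ₂, map_natCast, map_div₀, map_pow, map_natCast])]
    rw [map_div₀, map_pow]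
    have h6 : nC (p : C) / nC π₂ ^ e₀ < 1 :=
      (div_lt_one₀ (pow_pos (zero_lt_iff.2 ((Valuation.ne_zero_iff _).2 hπ0)) _)).2 H.hπ₂2
    exact_mod_cast h6
  rw [← unitRing_lt_one_iff hφ] at h5 ⊢
  have hzpos : 0 < O.valuation (zc A X') := (val_pos _ hπ'0).trans_le h3
  rw [map_div₀, map_pow, div_lt_one₀ (pow_pos (val_pos _ hπ'0) _)] at h5
  rw [map_div₀, map_pow, div_lt_one₀ (pow_pos hzpos _)]
  exact h5.trans_le (pow_le_pow_left₀ zero_le h3 _)

include hnC hCk hA hXt H in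
/-- **patching at the level `U`** -/
theorem patch [Algebra.IsAlgebraic k k₁] (hlp : ¬ p ∣ l) (y : U) [FiniteDimensional k⟮y⟯ U]
    (hπ0 : π₂ ≠ 0) :
    ∃ h : U, h ≠ 0 ∧ (∀ φ : U → ℝ≥0∞, IsPt p k U φ → φ (zc A X') < 1 →
        ∃ g : U, g ≠ 0 ∧ φ (h / (e' * g ^ l) - 1) < 1) ∧
      (∀ φ : U → ℝ≥0∞, IsPt p k U φ → 1 ≤ φ (zc A X') →
        ∃ g : U, g ≠ 0 ∧ φ (h / (h₀' * g ^ l) - 1) < 1) ∧
      (∀ u : Valuation U ℝ≥0, IsPlace k u → ∃ φ : U → ℝ≥0∞, IsPt p k U φ ∧
        ∀ a, φ a ≠ ∞ ↔ u a ≤ 1) := by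
  have hπ'0 : π₂' ≠ 0 := by
    rintro rfl
    have := H.hπ₂
    rw [map_zero] at this
    exact hπ0 ((_root_.map_eq_zero _).1 this.symm)
  have hzt : Transcendental k₁ (zc A X') := transcendental_zc hA hXt
  have hπalg : IsAlgebraic k π₂' := by
    have h1 : IsAlgebraic k π₂ := Algebra.IsAlgebraic.isAlgebraic π₂
    have h2 : IsAlgebraic k (algebraMap U E π₂') := by
      rw [H.hπ₂]
      exact h1.algebraMap
    exact (isAlgebraic_algebraMap_iff (algebraMap U E).injective).1 h2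
  have hz₂t : Transcendental k (zc A X' / π₂') := by
    intro h
    have h1 : IsAlgebraic k (zc A X') := by
      have := h.mul hπalg
      rwa [div_mul_cancel₀ _ hπ'0] at this
    exact hzt (h1.tower_top k₁)
  have hfd : FiniteDimensional k⟮zc A X' / π₂'⟯ U := finite_adjoin' y _ hz₂t
  set vk₀ : Valuation k ℝ≥0 := nC.comap (algebraMap k C) with hvk₀
  obtain ⟨h, hh, hpt⟩ := PPt_894.patch_pt p vk₀ (fun q => hnC q) (zc A X' / π₂') hz₂t l hlp h₀' e'
    H.hh₀ H.he (by
      intro v hv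
      have hvφ : IsPt p k U (fun a => (v a : ℝ≥0∞)) := isPt_of_valuation v fun c => by
        rw [hv.ext]
        exact hnC c
      have h1 : v (zc A X' / π₂') = 1 := hv.val_eq_one
      have h2 : v π₂' = nC π₂ := by
        have := pt_eq (C := C) (E := E) hnC hvφ H.hπ₂
        exact_mod_cast this
      have h3 : v (zc A X') = nC π₂ := by
        rw [map_div₀, div_eq_one_iff_eq ((Valuation.ne_zero_iff _).2 hπ'0)] at h1
        rw [h1, h2]
      obtain ⟨g, hg0, hg⟩ := annulus hnC H hπ0 hvφ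
        (by
          change ((v (zc A X') : ℝ≥0) : ℝ≥0∞) < 1
          rw [h3]
          exact_mod_cast H.hπ₂1)
        (by
          change (1 : ℝ≥0∞) ≤ ((v (zc A X' / π₂') : ℝ≥0) : ℝ≥0∞)
          rw [h1]
          exact_mod_cast le_refl _)
      have hg' : v (h₀' / e' * g ^ l - 1) < 1 := by exact_mod_cast hg
      refine ⟨g⁻¹, inv_ne_zero hg0, ?_⟩
      have hgl : g ^ l ≠ 0 := pow_ne_zero _ hg0
      have e1 : h₀' / e' - g⁻¹ ^ l = (h₀' / e' * g ^ l - 1) * (g ^ l)⁻¹ := by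
        rw [sub_mul, one_mul, mul_assoc, mul_inv_cancel₀ hgl, mul_one, inv_pow]
      have e2 : v (h₀' / e' * g ^ l) = 1 := by
        rw [← map_one v]
        exact Valuation.map_eq_of_sub_lt _ (by rwa [map_one])
      have e3 : v (h₀' / e') = v (g ^ l)⁻¹ := by
        rw [map_mul] at e2
        rw [map_inv₀]
        exact eq_inv_of_mul_eq_one_left e2
      rw [e1, map_mul, e3]
      exact mul_lt_of_lt_one_left (zero_lt_iff.2 ((Valuation.ne_zero_iff _).2 (inv_ne_zero hgl)))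
        hg')
  refine ⟨h, hh, ?_, ?_, fun u hu => PPt_894.exists_pt_of_place p _ hz₂t u hu⟩
  · intro φ hφ h1
    rcases lt_or_ge (φ (zc A X' / π₂')) 1 with h2 | h2
    · exact (hpt φ hφ).1 h2
    · obtain ⟨g₂, hg₂0, hg₂⟩ := (hpt φ hφ).2 h2
      obtain ⟨g₃, hg₃0, hg₃⟩ := annulus hnC H hπ0 hφ h1 h2
      refine ⟨g₂ / g₃, div_ne_zero hg₂0 hg₃0, ?_⟩
      rw [← unitRing_lt_one_iff hφ] at hg₂ hg₃ ⊢
      have e1 : h / (e' * (g₂ / g₃) ^ l) = (h / (h₀' * g₂ ^ l)) * (h₀' / e' * g₃ ^ l) := by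
        have h3 := H.hh₀
        have h4 := H.he
        have h5 : g₃ ^ l ≠ 0 := pow_ne_zero _ hg₃0
        have h6 : g₂ ^ l ≠ 0 := pow_ne_zero _ hg₂0
        rw [div_pow]
        generalize g₃ ^ l = a at *
        generalize g₂ ^ l = b at *
        field_simp
      rw [e1]
      exact near_mul hg₂ hg₃
  · intro φ hφ h1
    refine (hpt φ hφ).2 ?_
    have h2 : φ π₂' < 1 := by
      rw [pt_eq (C := C) (E := E) hnC hφ H.hπ₂]
      exact_mod_cast H.hπ₂1
    rw [← not_lt, ← unitRing_lt_one_iff hφ, not_lt] at h1 ⊢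
    rw [← unitRing_lt_one_iff hφ] at h2
    rw [map_div₀, one_le_div₀ (val_pos _ hπ'0)]
    exact h2.le.trans h1

end Level

end Crest.Agent.R013.U8_337
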