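import Crest.Agent.R013.U8_337

/-!
Row 13, part A, leaf A-U (helper337), file 9: the patched element at the level `U`: its divisor is
divisible by `l`, its classes at the points with `|X| < 1` and `|X| > 1`.
-/

set_option autoImplicit false
set_option linter.unusedSectionVars false

noncomputable section

namespace Crest.Agent.R013.U9_337

open scoped NNReal ENNReal
open Polynomial IntermediateField
open Crest.NumberTheoryR.Sect
open Crest.Agent.R013.LiftA_168 Crest.Agent.R013.U2_337 Crest.Agent.R013.RZ_365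
open Crest.Agent.R013.U3_337 Crest.Agent.R013.U4_337 Crest.Agent.R013.U6_337
open Crest.Agent.R013.A2b_275 Crest.Agent.R013.U1_337 Crest.Agent.R013.U7_337
open Crest.Agent.R013.U8_337

variable {p : ℕ} [Fact p.Prime] {k k₁ U C E : Type*} [Field k] [Field k₁] [Field U] [Field C]
  [Field E] [Algebra ℚ_[p] k] [FiniteDimensional ℚ_[p] k] [Algebra k k₁] [Algebra k C]
  [Algebra k₁ C] [IsScalarTower k k₁ C] [Algebra.IsAlgebraic k C] [Algebra k U] [Algebra k₁ U]
  [IsScalarTower k k₁ U] [Algebra k E] [Algebra k₁ E] [IsScalarTower k k₁ E] [Algebra C E]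
  [IsScalarTower k C E] [IsScalarTower k₁ C E] [Algebra U E] [IsScalarTower k U E]
  [IsScalarTower k₁ U E] {nC : Valuation C ℝ≥0} {vk : Valuation k₁ ℝ≥0}

/-- `e = (X + c ^ l) / X` -/
abbrev eX {U : Type*} [Field U] (X c : U) (l : ℕ) : U := (X + c ^ l) / X

section local_

variable {φ : U → ℝ≥0∞} (hφ : IsPt p k U φ) {X c : U} {l : ℕ} (hX0 : X ≠ 0) (hc : φ c = 1)

include hc in
theorem c_pow : (unitRing hφ).valuation (c ^ l) = 1 := by
  rw [map_pow, (unit_eq hφ c).2 hc, one_pow]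

include hX0 hc in
/-- at `|X| > 1`: `e ~ 1` -/
theorem e_inf (h : 1 < (unitRing hφ).valuation X) : (unitRing hφ).valuation (eX X c l - 1) < 1 := by
  have e1 : eX X c l - 1 = c ^ l / X := by
    rw [eX]; field_simp; ring
  rw [e1, map_div₀, c_pow hφ hc, one_div]
  exact inv_lt_one_of_one_lt₀ h

include hX0 hc in
/-- at `|X| < 1`: `e ~ c ^ l / X` -/
theorem e_zero (h : (unitRing hφ).valuation X < 1) :
    (unitRing hφ).valuation (eX X c l / (c ^ l / X) - 1) < 1 := by
  have hcl := c_pow (l := l) hφ hc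
  have hc0 : c ^ l ≠ 0 := by
    intro h0; rw [h0, map_zero] at hcl; exact zero_ne_one hcl
  have e1 : eX X c l / (c ^ l / X) - 1 = X / c ^ l := by
    rw [eX]; field_simp; ring
  rw [e1, map_div₀, hcl, div_one]
  exact h

end local_

variable (hnC : ∀ q : ℚ_[p], nC (algebraMap k C (algebraMap ℚ_[p] k q)) = ‖q‖₊)
  (hCk : ∀ c, nC (algebraMap k₁ C c) = vk c) {A : k₁[X]} {X' : U} (hA : MI vk A)
  (hXt : Transcendental k₁ X') {h₀' c₁' π₂' : U} {c₁ π₂ : C} {l e₀ : ℕ} {G : Finset E}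
  (H : Hyp p (k₁ := k₁) (U := U) (C := C) (E := E) nC A X' h₀' (eX X' c₁' l) π₂' π₂ l e₀ G)
  (hdvd : (Polynomial.X : k₁[X]) ∣ A) (hc₁ : nC c₁ = 1)
  (hcc : algebraMap U E c₁' = algebraMap C E c₁) (hAc : nC (aeval (-c₁ ^ l) A) = 1)
  (hplace : ∀ (O : ValuationSubring U) (u : Valuation U ℝ≥0),
    (∀ c : k₁, vk c ≤ 1 → algebraMap k₁ U c ∈ O) →
    (∀ c : k₁, vk c < 1 → O.valuation (algebraMap k₁ U c) < 1) →
    (∀ c : k₁, c ≠ 0 → u (algebraMap k₁ U c) = 1) → (∀ a ∈ O, u a ≤ 1) →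
    O.valuation X' ≤ 1 → O.valuation (aeval X' A) = 1 → u h₀' = 1)

include hnC hCk hA hXt H hdvd hc₁ hcc hAc hplace in
theorem level_result [Algebra.IsAlgebraic k k₁] (hl : l ≠ 0) (hlp : ¬ p ∣ l) (y : U)
    [FiniteDimensional k⟮y⟯ U] (hπ0 : π₂ ≠ 0) (x' : U) (π' : k₁) (hπ' : π' ≠ 0)
    (hX : X' * algebraMap k₁ U π' = x' ^ l) :
    ∃ h : U, h ≠ 0 ∧ (∀ u : Valuation U ℝ≥0, IsPlace k u → ∃ a : U, u h = u a ^ l) ∧
      (∀ φ : U → ℝ≥0∞, IsPt p k U φ → φ X' < 1 →
        ∃ g : U, g ≠ 0 ∧ φ (h / (algebraMap k₁ U π' * g ^ l) - 1) < 1) ∧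
      (∀ φ : U → ℝ≥0∞, IsPt p k U φ → 1 < φ X' → ∃ g : U, g ≠ 0 ∧ φ (h / g ^ l - 1) < 1) := by
  have hX0 : X' ≠ 0 := by rintro rfl; exact hXt isAlgebraic_zero
  have hπU : algebraMap k₁ U π' ≠ 0 := (_root_.map_ne_zero _).2 hπ'
  have hx0 : x' ≠ 0 := by
    rintro rfl
    rw [zero_pow hl] at hX
    exact mul_ne_zero hX0 hπU hX
  have hcpt : ∀ φ : U → ℝ≥0∞, IsPt p k U φ → φ c₁' = 1 := by
    intro φ hφ
    rw [pt_eq (C := C) (E := E) hnC hφ hcc, hc₁, ENNReal.coe_one]
  have hc0 : c₁' ≠ 0 := by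
    rintro rfl
    rw [map_zero] at hcc
    rw [(_root_.map_eq_zero _).1 hcc.symm, map_zero] at hc₁
    exact zero_ne_one hc₁
  obtain ⟨h, hh, hI, hII, hpl⟩ := patch hnC hCk hA hXt H hlp y hπ0
  refine ⟨h, hh, ?_, ?_, ?_⟩
  · -- places
    intro u hu
    obtain ⟨φ, hφ, hφu⟩ := hpl u hu
    set O := unitRing hφ with hO
    have hOu : ∀ a ∈ O, u a ≤ 1 := fun a ha =>
      (hφu a).1 (ne_top_of_le_ne_top ENNReal.one_ne_top ha)
    have hu1 : ∀ a : U, φ a ≠ ∞ → φ a ≠ 0 → u a = 1 := by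
      intro a h1 h2
      have ha : a ≠ 0 := by rintro rfl; exact h2 hφ.map_zero
      have h3 := (hφu a).1 h1
      have h4 := (hφu a⁻¹).1 (by rw [hφ.inv a ha]; exact ENNReal.inv_ne_top.2 h2)
      rw [map_inv₀] at h4
      exact le_antisymm h3 ((inv_le_one₀ (val_pos _ ha)).1 h4)
    have hO1 : ∀ a : U, O.valuation a = 1 → u a = 1 := by
      intro a ha
      have := (unit_eq hφ a).1 ha
      exact hu1 a (by rw [this]; exact ENNReal.one_ne_top) (by rw [this]; exact one_ne_zero)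
    have huk : ∀ c : k₁, c ≠ 0 → u (algebraMap k₁ U c) = 1 := by
      intro c hc
      have h1 := pt_k1 hnC hCk E hφ c
      refine hu1 _ (by rw [h1]; exact ENNReal.coe_ne_top) (by
        rw [h1, Ne, ENNReal.coe_eq_zero]
        exact (Valuation.ne_zero_iff _).2 hc)
    have hOk : ∀ c : k₁, vk c ≤ 1 → algebraMap k₁ U c ∈ O := U8_337.hO1 hnC hCk E hφ
    have hOk' : ∀ c : k₁, vk c < 1 → O.valuation (algebraMap k₁ U c) < 1 := by
      intro c hc
      rw [unitRing_lt_one_iff hφ, pt_k1 hnC hCk E hφ]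
      exact_mod_cast hc
    have hcl : O.valuation (c₁' ^ l) = 1 := c_pow hφ (hcpt φ hφ)
    have huX : u X' = u x' ^ l := by
      rw [← map_pow, ← hX, map_mul, huk π' hπ', mul_one]
    rcases lt_or_ge (φ (zc A X')) 1 with h1 | h1
    · obtain ⟨g, hg0, hg⟩ := hI φ hφ h1
      have h2 : u (h / (eX X' c₁' l * g ^ l)) = 1 :=
        hO1 _ (val_eq_one_of_near ((unitRing_lt_one_iff hφ _).2 hg))
      have he0 := H.he
      have h3 : u h = u (eX X' c₁' l) * u g ^ l := by
        rw [map_div₀, map_mul, map_pow] at h2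
        exact (div_eq_one_iff_eq (mul_ne_zero ((Valuation.ne_zero_iff _).2 he0)
          (pow_ne_zero _ ((Valuation.ne_zero_iff _).2 hg0)))).1 h2
      have h4 : u (eX X' c₁' l) = 1 ∨ u (eX X' c₁' l) = (u x' ^ l)⁻¹ := by
        rcases (region hnC hCk hA hXt E hφ).1 h1 with h5 | ⟨h5, h6⟩
        · left
          exact hO1 _ (val_eq_one_of_near (e_inf hφ hX0 (hcpt φ hφ) ((unit_gt hφ _).2 h5)))
        · rw [← unit_le hφ] at h5
          rw [← unitRing_lt_one_iff hφ] at h6
          rcases lt_or_eq_of_le h5 with h7 | h7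
          · right
            have h8 : u (X' + c₁' ^ l) = 1 := hO1 _ (by
              rw [Valuation.map_add_eq_of_lt_right _ (by rw [hcl]; exact h7), hcl])
            rw [eX, map_div₀, h8, huX, one_div]
          · left
            refine hO1 _ ?_
            rw [eX, map_div₀, h7, div_one]
            refine le_antisymm ((O.valuation.map_add _ _).trans (max_le h5 hcl.le)) ?_
            by_contra hcon
            push Not at hcon
            have h9 : O.valuation (aeval X' A - aeval (-c₁' ^ l) A) < 1 := by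
              refine aeval_congr hOk hA.le h5 ?_ ?_
              · rw [Valuation.map_neg]; exact hcl.le
              · rw [sub_neg_eq_add]; exact hcon
            have h10 : φ (aeval (-c₁' ^ l) A) = 1 := by
              rw [pt_eq (C := C) (E := E) (c := aeval (-c₁ ^ l) A) hnC hφ, hAc, ENNReal.coe_one]
              rw [← aeval_algebraMap_apply, ← aeval_algebraMap_apply, map_neg, map_neg, map_pow,
                map_pow, hcc]
            have h11 := (unit_eq hφ _).2 h10
            have h12 : O.valuation (aeval X' A) = 1 := by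
              rw [← h11]
              exact Valuation.map_eq_of_sub_lt _ (by rwa [h11])
            rw [h12] at h6
            exact lt_irrefl _ h6
      rcases h4 with h4 | h4
      · exact ⟨g, by rw [h3, h4, one_mul]⟩
      · refine ⟨g / x', ?_⟩
        rw [h3, h4, map_div₀, div_pow, div_eq_mul_inv, mul_comm]
    · obtain ⟨g, hg0, hg⟩ := hII φ hφ h1
      have h2 : u (h / (h₀' * g ^ l)) = 1 :=
        hO1 _ (val_eq_one_of_near ((unitRing_lt_one_iff hφ _).2 hg))
      have h00 := H.hh₀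
      have h3 : u h = u h₀' * u g ^ l := by
        rw [map_div₀, map_mul, map_pow] at h2
        exact (div_eq_one_iff_eq (mul_ne_zero ((Valuation.ne_zero_iff _).2 h00)
          (pow_ne_zero _ ((Valuation.ne_zero_iff _).2 hg0)))).1 h2
      have h4 : ¬ (1 < φ X' ∨ (φ X' ≤ 1 ∧ φ (aeval X' A) < 1)) := fun h =>
        absurd ((region hnC hCk hA hXt E hφ).2 h) (not_lt.2 h1)
      push Not at h4
      have h5 : O.valuation X' ≤ 1 := (unit_le hφ _).2 h4.1
      have h6 : O.valuation (aeval X' A) = 1 := by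
        refine le_antisymm (aeval_le hOk hA.le h5) ?_
        rw [← not_lt, unitRing_lt_one_iff hφ, not_lt]
        exact h4.2 h4.1
      have h7 : u h₀' = 1 := hplace O u hOk hOk' huk hOu h5 h6
      exact ⟨g, by rw [h3, h7, one_mul]⟩
  · intro φ hφ h1
    set O := unitRing hφ with hO
    have hOk : ∀ c : k₁, vk c ≤ 1 → algebraMap k₁ U c ∈ O := U8_337.hO1 hnC hCk E hφ
    have h1' : O.valuation X' < 1 := (unitRing_lt_one_iff hφ _).2 h1
    have h2 : φ (aeval X' A) < 1 := by
      obtain ⟨A', hA'⟩ := hdvd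
      have hA'i : ∀ i, vk (A'.coeff i) ≤ 1 := by
        intro i
        have := hA.le (i + 1)
        rwa [hA', Polynomial.coeff_X_mul] at this
      rw [← unitRing_lt_one_iff hφ, hA', map_mul, aeval_X, map_mul]
      exact mul_lt_one_of_nonneg_of_lt_one_left zero_le h1' (aeval_le hOk hA'i h1'.le)
    obtain ⟨g, hg0, hg⟩ := hI φ hφ ((region hnC hCk hA hXt E hφ).2 (Or.inr ⟨h1.le, h2⟩))
    have h3 := e_zero (l := l) hφ hX0 (hcpt φ hφ) h1'
    have he0 := H.he
    have hcl0 : c₁' ^ l ≠ 0 := pow_ne_zero _ hc0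
    refine ⟨c₁' * g / x', div_ne_zero (mul_ne_zero hc0 hg0) hx0, ?_⟩
    rw [← unitRing_lt_one_iff hφ] at hg ⊢
    have hgl : g ^ l ≠ 0 := pow_ne_zero _ hg0
    have e1 : h / (algebraMap k₁ U π' * (c₁' * g / x') ^ l) =
        (h / (eX X' c₁' l * g ^ l)) * (eX X' c₁' l / (c₁' ^ l / X')) := by
      rw [div_pow, mul_pow, ← hX]
      generalize g ^ l = b at *
      generalize c₁' ^ l = d at *
      generalize eX X' c₁' l = e at *
      field_simp
    rw [e1]
    exact near_mul hg h3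
  · intro φ hφ h1
    obtain ⟨g, hg0, hg⟩ := hI φ hφ ((region hnC hCk hA hXt E hφ).2 (Or.inl h1))
    have h3 := e_inf (l := l) hφ hX0 (hcpt φ hφ) ((unit_gt hφ _).2 h1)
    have he0 := H.he
    refine ⟨g, hg0, ?_⟩
    rw [← unitRing_lt_one_iff hφ] at hg ⊢
    have hgl : g ^ l ≠ 0 := pow_ne_zero _ hg0
    have e1 : h / g ^ l = (h / (eX X' c₁' l * g ^ l)) * eX X' c₁' l := by
      generalize g ^ l = b at *
      generalize eX X' c₁' l = e at *
      field_simp
    rw [e1]
    exact near_mul hg h3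

end Crest.Agent.R013.U9_337
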