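import Crest.Agent.R013.U2_337
import Crest.Agent.R013.PL1_109

/-!
Row 13, part A, leaf (Q) of A-U (helper478): existence on `F = k(X)`.

* `exists_isG` : the Gauss norm with `|X| = 1` exists on `k(X)`, for every `vk : Valuation k ℝ≥0`;
* `exists_R2`  : for `X` transcendental over `k` in any field `F` there is a valuation ring of `F`
  of type `R2 vk X` (composite of a norm over the Gauss norm and the place `X = 0`).
-/

set_option autoImplicit false

noncomputable section

namespace Crest.Agent.R013.UQ_478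

open scoped NNReal
open Polynomial
open Crest.Agent.R013.LiftA_168 Crest.Agent.R013.U2_337 Crest.Agent.R013.PL_109

variable {k F : Type*} [Field k] [Field F] [Algebra k F] (vk : Valuation k ℝ≥0) (X : F)

/-- **(Q1)** the Gauss norm `|X| = 1` on `k(X)`. -/
theorem exists_isG (hX : Transcendental k X)
    (hgen : ∀ f : F, ∃ P Q : k[X], aeval X Q ≠ 0 ∧ f = aeval X P / aeval X Q) :
    ∃ v : Valuation F ℝ≥0, IsG vk v X := by
  let _ : Algebra k[X] F := (aeval X : k[X] →ₐ[k] F).toRingHom.toAlgebra
  have hmap : ∀ P : k[X], algebraMap k[X] F P = aeval X P := fun _ => rfl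
  have hinj : Function.Injective (algebraMap k[X] F) := transcendental_iff_injective.1 hX
  have : FaithfulSMul k[X] F := (faithfulSMul_iff_algebraMap_injective k[X] F).2 hinj
  have : IsFractionRing k[X] F := IsFractionRing.of_field k[X] F fun z => by
    obtain ⟨P, Q, -, h⟩ := hgen z
    exact ⟨P, Q, h⟩
  have h0 : nonZeroDivisors k[X] ≤ (gval vk 1 one_ne_zero).supp.primeCompl := by
    intro f hf hf'
    exact gf_ne_zero vk one_ne_zero (nonZeroDivisors.ne_zero hf) hf'
  have key : ∀ P : k[X], (gval vk 1 one_ne_zero).extendToLocalization h0 F (aeval X P) =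
      gf vk 1 P := fun P =>
    Valuation.extendToLocalization_apply_map_apply _ h0 F P
  refine ⟨(gval vk 1 one_ne_zero).extendToLocalization h0 F, ?_, ?_, ?_⟩
  · intro c
    have h1 := key (C c)
    rw [aeval_C, gf_C] at h1
    exact h1
  · have h1 := key Polynomial.X
    rw [aeval_X] at h1
    rw [h1]
    apply gf_le
    intro j
    rw [one_pow, mul_one, coeff_X]
    split_ifs
    · rw [map_one]
    · rw [map_zero]; exact zero_le
  · intro f i
    rw [key]
    simpa using le_gf vk 1 f i

variable {X}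

/-- the ring of the `f` with `f X ^ n = P(X)`, `|P_i| ≤ 1`, `|P_i| < 1` for `i < n`. -/
def ringA (hX0 : X ≠ 0) : Subring F where
  carrier := {f | ∃ (n : ℕ) (P : k[X]), f * X ^ n = aeval X P ∧ (∀ i, vk (P.coeff i) ≤ 1) ∧
    ∀ i < n, vk (P.coeff i) < 1}
  one_mem' := ⟨0, 1, by simp, fun i => by
    rw [coeff_one]; split_ifs <;> simp, fun i hi => absurd hi (Nat.not_lt_zero _)⟩
  zero_mem' := ⟨0, 0, by simp, fun i => by simp, fun i hi => absurd hi (Nat.not_lt_zero _)⟩
  neg_mem' := by
    rintro f ⟨n, P, h1, h2, h3⟩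
    refine ⟨n, -P, by rw [map_neg, ← h1, neg_mul], fun i => ?_, fun i hi => ?_⟩
    · rw [coeff_neg, Valuation.map_neg]; exact h2 i
    · rw [coeff_neg, Valuation.map_neg]; exact h3 i hi
  add_mem' := by
    rintro f g ⟨n, P, h1, h2, h3⟩ ⟨m, Q, h1', h2', h3'⟩
    refine ⟨n + m, P * Polynomial.X ^ m + Q * Polynomial.X ^ n, ?_, fun i => ?_, fun i hi => ?_⟩
    · rw [map_add, map_mul, map_mul, map_pow, map_pow, aeval_X, ← h1, ← h1', pow_add]; ring
    · rw [coeff_add]
      refine (vk.map_add _ _).trans (max_le ?_ ?_)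
      · rw [coeff_mul_X_pow']
        split_ifs
        · exact h2 _
        · rw [map_zero]; exact zero_le
      · rw [coeff_mul_X_pow']
        split_ifs
        · exact h2' _
        · rw [map_zero]; exact zero_le
    · rw [coeff_add]
      refine (vk.map_add _ _).trans_lt (max_lt ?_ ?_)
      · rw [coeff_mul_X_pow']
        split_ifs
        · exact h3 _ (by omega)
        · rw [map_zero]; exact one_pos
      · rw [coeff_mul_X_pow']
        split_ifs
        · exact h3' _ (by omega)
        · rw [map_zero]; exact one_pos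
  mul_mem' := by
    rintro f g ⟨n, P, h1, h2, h3⟩ ⟨m, Q, h1', h2', h3'⟩
    refine ⟨n + m, P * Q, ?_, fun i => ?_, fun i hi => ?_⟩
    · rw [map_mul, ← h1, ← h1', pow_add]; ring
    · rw [coeff_mul]
      refine vk.map_sum_le fun p _ => ?_
      rw [map_mul]
      exact mul_le_one' (h2 _) (h2' _)
    · rw [coeff_mul]
      refine vk.map_sum_lt one_ne_zero fun p hp => ?_
      rw [Finset.HasAntidiagonal.mem_antidiagonal] at hp
      rw [map_mul]
      rcases lt_or_ge p.1 n with hlt | hge
      · exact mul_lt_one_of_lt_of_le (h3 _ hlt) (h2' _)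
      · rw [mul_comm]; exact mul_lt_one_of_lt_of_le (h3' _ (by omega)) (h2 _)

/-- the ideal `f X ^ n = P(X)`, `|P_i| ≤ 1`, `|P_i| < 1` for `i ≤ n`. -/
def idealI (hX0 : X ≠ 0) : Ideal (ringA vk (k := k) hX0) where
  carrier := {f | ∃ (n : ℕ) (P : k[X]), (f : F) * X ^ n = aeval X P ∧ (∀ i, vk (P.coeff i) ≤ 1) ∧
    ∀ i ≤ n, vk (P.coeff i) < 1}
  zero_mem' := ⟨0, 0, by simp, fun i => by simp, fun i hi => by simp⟩
  add_mem' := by
    rintro f g ⟨n, P, h1, h2, h3⟩ ⟨m, Q, h1', h2', h3'⟩
    refine ⟨n + m, P * Polynomial.X ^ m + Q * Polynomial.X ^ n, ?_, fun i => ?_, fun i hi => ?_⟩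
    · rw [map_add, map_mul, map_mul, map_pow, map_pow, aeval_X, ← h1, ← h1', pow_add]
      push_cast; ring
    · rw [coeff_add]
      refine (vk.map_add _ _).trans (max_le ?_ ?_)
      · rw [coeff_mul_X_pow']
        split_ifs
        · exact h2 _
        · rw [map_zero]; exact zero_le
      · rw [coeff_mul_X_pow']
        split_ifs
        · exact h2' _
        · rw [map_zero]; exact zero_le
    · rw [coeff_add]
      refine (vk.map_add _ _).trans_lt (max_lt ?_ ?_)
      · rw [coeff_mul_X_pow']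
        split_ifs
        · exact h3 _ (by omega)
        · rw [map_zero]; exact one_pos
      · rw [coeff_mul_X_pow']
        split_ifs
        · exact h3' _ (by omega)
        · rw [map_zero]; exact one_pos
  smul_mem' := by
    rintro f g ⟨m, Q, h1', h2', h3'⟩
    obtain ⟨n, P, h1, h2, h3⟩ := f.2
    refine ⟨n + m, P * Q, ?_, fun i => ?_, fun i hi => ?_⟩
    · rw [map_mul, ← h1, ← h1', pow_add, smul_eq_mul, Subring.coe_mul]; ring
    · rw [coeff_mul]
      refine vk.map_sum_le fun p _ => ?_
      rw [map_mul]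
      exact mul_le_one' (h2 _) (h2' _)
    · rw [coeff_mul]
      refine vk.map_sum_lt one_ne_zero fun p hp => ?_
      rw [Finset.HasAntidiagonal.mem_antidiagonal] at hp
      rw [map_mul]
      rcases lt_or_ge p.1 n with hlt | hge
      · exact mul_lt_one_of_lt_of_le (h3 _ hlt) (h2' _)
      · rw [mul_comm]; exact mul_lt_one_of_lt_of_le (h3' _ (by omega)) (h2 _)

theorem idealI_ne_top (hX : Transcendental k X) (hX0 : X ≠ 0) : idealI vk (k := k) hX0 ≠ ⊤ := by
  intro h
  have h1 : (1 : ringA vk (k := k) hX0) ∈ idealI vk (k := k) hX0 := by rw [h]; trivial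
  obtain ⟨n, P, h2, -, h3⟩ := h1
  have h4 : aeval X (Polynomial.X ^ n : k[X]) = aeval X P := by
    rw [← h2, map_pow, aeval_X]; simp
  have h5 : (Polynomial.X ^ n : k[X]) = P := transcendental_iff_injective.1 hX h4
  have h6 := h3 n le_rfl
  rw [← h5, coeff_X_pow_self, map_one] at h6
  exact lt_irrefl _ h6

/-- **(Q2)** the rank two ring. -/
theorem exists_R2 (hX : Transcendental k X) : ∃ B : ValuationSubring F, R2 vk X B := by
  have hX0 : X ≠ 0 := by
    rintro rfl
    exact hX isAlgebraic_zero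
  obtain ⟨B, hB1, hB2⟩ := Ideal.image_subset_nonunits_valuationSubring (K := F)
    (idealI vk (k := k) hX0) (idealI_ne_top vk hX hX0)
  have hlt : ∀ (f : F) (n : ℕ) (P : k[X]), f * X ^ n = aeval X P → (∀ i, vk (P.coeff i) ≤ 1) →
      (∀ i ≤ n, vk (P.coeff i) < 1) → B.valuation f < 1 := by
    intro f n P h1 h2 h3
    have hf : f ∈ ringA vk (k := k) hX0 := ⟨n, P, h1, h2, fun i hi => h3 i hi.le⟩
    have h4 : (⟨f, hf⟩ : ringA vk (k := k) hX0) ∈ idealI vk (k := k) hX0 := ⟨n, P, h1, h2, h3⟩
    exact (ValuationSubring.mem_nonunits_iff B).1 (hB2 ⟨_, h4, rfl⟩)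
  refine ⟨B, ?_, hX0, ?_, ?_⟩
  · intro c hc
    refine hB1 (?_ : algebraMap k F c ∈ ringA vk (k := k) hX0)
    refine ⟨0, C c, by simp, fun i => ?_, fun i hi => absurd hi (Nat.not_lt_zero _)⟩
    rw [coeff_C]
    split_ifs
    · exact hc
    · rw [map_zero]; exact zero_le
  · intro c hc n
    have h1 := hlt (algebraMap k F c / X ^ n) n (C c)
      (by rw [div_mul_cancel₀ _ (pow_ne_zero _ hX0), aeval_C]) (fun i => ?_) (fun i hi => ?_)
    · rw [map_div₀, map_pow] at h1
      exact (div_lt_one₀ (pow_pos (zero_lt_iff.2 ((Valuation.ne_zero_iff _).2 hX0)) _)).1 h1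
    · rw [coeff_C]
      split_ifs
      · exact hc.le
      · rw [map_zero]; exact zero_le
    · rw [coeff_C]
      split_ifs
      · exact hc
      · rw [map_zero]; exact one_pos
  · refine hlt X 0 Polynomial.X (by simp) (fun i => ?_) (fun i hi => ?_)
    · rw [coeff_X]
      split_ifs
      · rw [map_one]
      · rw [map_zero]; exact zero_le
    · obtain rfl : i = 0 := by omega
      simp

end Crest.Agent.R013.UQ_478
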