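import Crest.Agent.R013.AEFin_854
import Crest.Agent.R013.UH_337
import Crest.Agent.R013.UQ_478

/-!
# Row 13, A-U, assembly (S) of helper337 #4015, part 1: auxiliary facts.

* `pt_const` : values of a point at constants;
* `exists_pow_fix` : elements of the image of a pro-`l` element have `l`-power orbits;
* `isAlgebraic_top` : `AlgebraicClosure K` is algebraic over `k₁(X)`.
-/

set_option autoImplicit false
set_option linter.unusedVariables false
set_option linter.unusedSectionVars false
set_option linter.style.haveILetI false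

noncomputable section

namespace Crest.Agent.R013.UAsm_854

open Crest.NumberTheoryR.Sect
open Crest.Agent.R013 Crest.Agent.R013.Fp4_831 Crest.Agent.R013.Tau2_512
  Crest.Agent.R013.Tau5_512 Crest.Agent.R013.A2b_275
open scoped NNReal ENNReal IntermediateField

section const

variable {p : ℕ} [Fact p.Prime] {k : Type*} [Field k] [Algebra ℚ_[p] k] [FiniteDimensional ℚ_[p] k]
  {K : Type*} [Field K] [Algebra k K]

/-- values of a point at constants -/
theorem pt_const {φ : maxUnramified k K → ℝ≥0∞} (h : IsPt p k (maxUnramified k K) φ)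
    {W : Valuation (constField k K) ℝ≥0}
    (hW : ∀ q : ℚ_[p], W (APt_349.iQ p k (constField k K) q) = ‖q‖₊)
    [Algebra.IsAlgebraic k (constField k K)] (c : constField k K) :
    φ (c : maxUnramified k K) = W c := by
  letI : Algebra ℚ_[p] (maxUnramified k K) :=
    ((algebraMap k (maxUnramified k K)).comp (algebraMap ℚ_[p] k)).toAlgebra
  haveI : IsScalarTower ℚ_[p] k (maxUnramified k K) := IsScalarTower.of_algebraMap_eq fun _ => rfl
  have hfin : ∀ c : constField k K, φ (c : maxUnramified k K) ≠ ∞ := by
    intro c
    refine h.ne_top_of_isIntegral ?_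
    letI : Algebra ℚ_[p] (constField k K) := (APt_349.iQ p k (constField k K)).toAlgebra
    haveI : IsScalarTower ℚ_[p] k (constField k K) := IsScalarTower.of_algebraMap_eq fun _ => rfl
    haveI : Algebra.IsAlgebraic ℚ_[p] (constField k K) := Algebra.IsAlgebraic.trans ℚ_[p] k _
    have h1 : IsIntegral ℚ_[p] c := (Algebra.IsAlgebraic.isAlgebraic c).isIntegral
    have h2 : (algebraMap ℚ_[p] (maxUnramified k K)) =
        (algebraMap (constField k K) (maxUnramified k K)).comp
          (algebraMap ℚ_[p] (constField k K)) := rfl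
    obtain ⟨P, hP, hPc⟩ := h1
    refine ⟨P, hP, ?_⟩
    rw [h2]
    have h3 := Polynomial.hom_eval₂ P (algebraMap ℚ_[p] (constField k K))
      (algebraMap (constField k K) (maxUnramified k K)) c
    rw [hPc, map_zero] at h3
    exact h3.symm
  have h' : IsPt p k (constField k K) (fun c => φ (c : maxUnramified k K)) :=
    { add := fun a b => h.add _ _
      mul := fun a b h1 h2 => h.mul _ _ h1 h2
      inv := fun a ha => h.inv _ (by simpa using ha)
      ext := fun q => h.ext q }
  have h1 := APt_349.W_unique (p := p) (k := k) (L := constField k K)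
    (W := h'.toValuation hfin) (W' := W) (fun q => by
      have h2 := h'.coe_toValuation hfin (APt_349.iQ p k (constField k K) q)
      have h3 := h'.ext q
      exact_mod_cast h2.trans h3) hW c
  rw [← h'.coe_toValuation hfin c, h1]

end const

section orbit

variable {k : Type*} [Field k] {K : Type*} [Field K] [Algebra k K]

theorem exists_pow_fix (s : ConstGal k K →* PiGroup k K) (hs : IsSection k K s) {l : ℕ}
    {t : ConstGal k K} (hpro : ∀ N : OpenNormalSubgroup (ConstGal k K), ∃ n : ℕ, t ^ (l ^ n) ∈ N)
    [IsGalois k (constField k K)] (a : maxUnramified k K) : ∃ n : ℕ, ((s t) ^ (l ^ n)) a = a := by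
  let U : Subgroup (ConstGal k K) := (MulAction.stabilizer (PiGroup k K) a).comap s
  have hU : IsOpen (U : Set (ConstGal k K)) := by
    have h1 : IsOpen ((MulAction.stabilizer (PiGroup k K) a : Subgroup (PiGroup k K)) :
        Set (PiGroup k K)) := stabilizer_isOpen_of_isIntegral (K := K) a
    exact h1.preimage hs.1
  obtain ⟨N, hN⟩ := Fp4_831.exists_openNormal_le U hU
  obtain ⟨n, hn⟩ := hpro N
  refine ⟨n, ?_⟩
  have h2 : t ^ (l ^ n) ∈ U := hN hn
  have h3 : s (t ^ (l ^ n)) • a = a := h2
  rw [map_pow] at h3
  exact h3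

end orbit

section alg

variable {k : Type*} [Field k] {K : Type*} [Field K] [Algebra k K] [CharZero k]
  [Algebra (RatFunc k) K] [IsScalarTower k (RatFunc k) K] [FiniteDimensional (RatFunc k) K]

/-- `AlgebraicClosure K` is algebraic over `k₁(X)`. -/
theorem isAlgebraic_top (k₁ : IntermediateField k (maxUnramified k K)) (X : maxUnramified k K)
    (hX : Transcendental k X) : Algebra.IsAlgebraic k₁⟮X⟯ (AlgebraicClosure K) := by
  let L : IntermediateField K (maxUnramified k K) := K⟮X⟯
  have hfd : FiniteDimensional K L :=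
    IntermediateField.adjoin.finiteDimensional (Algebra.IsIntegral.isIntegral _)
  have h2 : IsScalarTower (RatFunc k) K L := inferInstance
  have h0 : IsScalarTower k L (maxUnramified k K) := IsScalarTower.of_algebraMap_eq fun _ => rfl
  have h1 : IsScalarTower k (RatFunc k) L := by
    refine IsScalarTower.of_algebraMap_eq fun c => ?_
    rw [IsScalarTower.algebraMap_apply (RatFunc k) K L,
      ← IsScalarTower.algebraMap_apply k (RatFunc k) K, ← IsScalarTower.algebraMap_apply k K L]
  have h3 : FiniteDimensional (RatFunc k) L := FiniteDimensional.trans (RatFunc k) K L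
  let XL : L := ⟨X, IntermediateField.mem_adjoin_simple_self K X⟩
  have hXL : Transcendental k XL := by
    intro h
    obtain ⟨P, hP0, hP⟩ := h
    refine hX ⟨P, hP0, ?_⟩
    have := congrArg (algebraMap L (maxUnramified k K)) hP
    rw [map_zero, ← Polynomial.aeval_algebraMap_apply] at this
    exact this
  have h4 := One_622.finite_adjoin (k := k) XL hXL
  have h6 : Algebra.IsAlgebraic k⟮XL⟯ L := inferInstance
  have h7 : Algebra.IsAlgebraic L (AlgebraicClosure K) := by
    have h8 : Algebra.IsAlgebraic K (AlgebraicClosure K) := inferInstance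
    exact Algebra.IsAlgebraic.tower_top (K := K) L
  have h5 : Algebra.IsAlgebraic k⟮XL⟯ (AlgebraicClosure K) := Algebra.IsAlgebraic.trans k⟮XL⟯ L _
  have hmem : ∀ a : k⟮XL⟯, ((a : L) : maxUnramified k K) ∈ k₁⟮X⟯ := by
    intro a
    have h8 : k⟮XL⟯ ≤ ((k₁⟮X⟯).restrictScalars k).comap (L.val.restrictScalars k) := by
      rw [IntermediateField.adjoin_simple_le_iff]
      exact IntermediateField.mem_adjoin_simple_self k₁ X
    exact h8 a.2
  let g : k⟮XL⟯ →+* k₁⟮X⟯ :=
    ((algebraMap L (maxUnramified k K)).comp (algebraMap k⟮XL⟯ L)).codRestrict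
      (k₁⟮X⟯).toSubfield hmem
  exact ⟨fun a => U6_337.isAlgebraic_mono g (fun _ => rfl) (h5.isAlgebraic a)⟩

end alg

end Crest.Agent.R013.UAsm_854
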