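import Crest.Agent.R013.UH_337
import Crest.Agent.R013.UQ_478

/-!
# Row 13, A-U, assembly (S) of helper337 #4015, part 2: the simple extension `k₁(X)`.
-/

set_option autoImplicit false
set_option linter.unusedVariables false
set_option linter.unusedTactic false

noncomputable section

namespace Crest.Agent.R013.UAsm_854

open Polynomial
open Crest.Agent.R013 Crest.Agent.R013.LiftA_168 Crest.Agent.R013.U2_337
open scoped NNReal ENNReal IntermediateField

variable {k F : Type*} [Field k] [Field F] [Algebra k F] {vk : Valuation k ℝ≥0} {X : F}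

/-- the Gauss norm of `X` is the Gauss norm of `X⁻¹` -/
theorem isG_inv {v : Valuation F ℝ≥0} (hv : IsG vk v X) (hX1 : v X = 1) : IsG vk v X⁻¹ := by
  have hX0 : X ≠ 0 := by rintro rfl; rw [map_zero] at hX1; exact zero_ne_one hX1
  refine ⟨hv.ext, ?_, fun f i => ?_⟩
  · rw [map_inv₀, hX1, inv_one]
  · by_cases hi : i ≤ f.natDegree
    · let _ : Invertible X⁻¹ := invertibleOfNonzero (inv_ne_zero hX0)
      have h1 := Polynomial.eval₂_reverse_mul_pow (algebraMap k F) X⁻¹ f
      have h2 : (⅟(X⁻¹) : F) = X := by rw [invOf_eq_inv, inv_inv]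
      rw [h2] at h1
      have h3 : v (aeval X⁻¹ f) = v (aeval X f.reverse) := by
        rw [aeval_def, ← h1, map_mul, map_pow, map_inv₀, hX1, inv_one, one_pow, mul_one, aeval_def]
      rw [h3]
      have h4 := hv.coeff_le f.reverse (revAt f.natDegree i)
      rwa [coeff_reverse, revAt_invol] at h4
    · rw [coeff_eq_zero_of_natDegree_lt (not_le.1 hi), map_zero]
      exact zero_le

theorem isG_one {v : Valuation F ℝ≥0} (hv : IsG vk v X) : v X = 1 := by
  refine le_antisymm hv.le ?_
  have h1 := hv.coeff_le Polynomial.X 1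
  rwa [coeff_X_one, map_one, aeval_X] at h1

section simple

variable {M : Type*} [Field M] [Algebra k M] (x : M)

open IntermediateField

theorem gen_hgen (f : k⟮x⟯) : ∃ P Q : k[X], aeval (AdjoinSimple.gen k x) Q ≠ 0 ∧
    f = aeval (AdjoinSimple.gen k x) P / aeval (AdjoinSimple.gen k x) Q := by
  have hco : ∀ P : k[X], ((aeval (AdjoinSimple.gen k x) P : k⟮x⟯) : M) = aeval x P := by
    intro P
    have h := Polynomial.aeval_algebraMap_apply M (AdjoinSimple.gen k x) P
    rw [AdjoinSimple.algebraMap_gen] at h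
    exact h.symm
  obtain ⟨P, Q, hPQ⟩ := (mem_adjoin_simple_iff k (f : M)).1 f.2
  by_cases hQ : aeval x Q = 0
  · refine ⟨0, 1, by rw [map_one]; exact one_ne_zero, ?_⟩
    apply Subtype.ext
    rw [hPQ, hQ, div_zero, map_zero, zero_div]
    rfl
  · refine ⟨P, Q, ?_, ?_⟩
    · intro h
      apply hQ
      rw [← hco, h]
      rfl
    · apply Subtype.ext
      rw [hPQ]
      change _ = ((aeval (AdjoinSimple.gen k x) P / aeval (AdjoinSimple.gen k x) Q : k⟮x⟯) : M)
      rw [IntermediateField.coe_div, hco, hco]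

theorem gen_top : k⟮AdjoinSimple.gen k x⟯ = ⊤ := by
  rw [eq_top_iff]
  intro f _
  obtain ⟨P, Q, -, h⟩ := gen_hgen x f
  exact (mem_adjoin_simple_iff k f).2 ⟨P, Q, h⟩

theorem gen_transcendental (hx : Transcendental k x) :
    Transcendental k (AdjoinSimple.gen k x) := by
  have h := (transcendental_algebraMap_iff (R := k) (A := M) (a := AdjoinSimple.gen k x)
    (algebraMap k⟮x⟯ M).injective).1 (by rwa [AdjoinSimple.algebraMap_gen])
  exact h

end simple

end Crest.Agent.R013.UAsm_854
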