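import Crest.Agent.R013.UA1_854
import Crest.Agent.R013.UA2_854
import Crest.Agent.R013.U1_337
import Crest.Agent.R013.Rk2_894

/-!
# Row 13, A-U, assembly (S) of helper337 #4015: `UIn` from `HStmt`, `S16` and the constants of 512.
-/

set_option autoImplicit false
set_option linter.unusedVariables false
set_option linter.unusedSectionVars false

noncomputable section

namespace Crest.Agent.R013.UAsm_854

open Crest.NumberTheoryR.Sect
open Crest.Agent.R013 Crest.Agent.R013.Fp4_831 Crest.Agent.R013.Tau2_512 Crest.Agent.R013.Tau1_512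
  Crest.Agent.R013.Tau5_512 Crest.Agent.R013.A2b_275 Crest.Agent.R013.UH_337
  Crest.Agent.R013.U2_337 Crest.Agent.R013.LiftA_168
open scoped NNReal ENNReal IntermediateField
open IntermediateField

/-- **(C)** the constants fixed by `σ` (helper512). -/
def CAt (p : ℕ) [Fact p.Prime] (k : Type*) [Field k] [Algebra ℚ_[p] k] (K : Type*) [Field K]
    [Algebra k K] (W : Valuation (constField k K) ℝ≥0) (σ : PiGroup k K) : Prop :=
  ∃ (C : IntermediateField k (maxUnramified k K)) (nC : Valuation C ℝ≥0),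
    Algebra.IsAlgebraic k C ∧ (∀ c, c ∈ C ↔ IsAlgebraic k c ∧ σ c = c) ∧
    (∀ q : ℚ_[p], nC (algebraMap k C (algebraMap ℚ_[p] k q)) = ‖q‖₊) ∧
    (∀ c : C, ∀ c' : constField k K, (c' : maxUnramified k K) = c → nC c = W c') ∧
    RZ_365.ResClosed nC ∧ (∀ r : ℝ≥0, r < 1 → ∃ c, r < nC c ∧ nC c < 1)

variable {p : ℕ} [Fact p.Prime] {k : Type*} [Field k] [Algebra ℚ_[p] k] [FiniteDimensional ℚ_[p] k]
  {K : Type*} [Field K] [Algebra k K] [Algebra (RatFunc k) K] [IsScalarTower k (RatFunc k) K]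
  [FiniteDimensional (RatFunc k) K]

/-- multiplication by a constant -/
theorem pt_mul_const {φ : maxUnramified k K → ℝ≥0∞} (h : IsPt p k (maxUnramified k K) φ)
    {W : Valuation (constField k K) ℝ≥0} (hc : ∀ c : constField k K,
      φ (c : maxUnramified k K) = W c) (a : maxUnramified k K) (c : constField k K) (hc0 : c ≠ 0) :
    φ (a * c) = φ a * W c := by
  rw [h.mul a c (Or.inr (by rw [hc]; exact ENNReal.coe_ne_top))
    (Or.inl (by
      rw [hc]
      exact_mod_cast (Valuation.ne_zero_iff W).2 hc0)), hc]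

theorem pt_pow {φ : maxUnramified k K → ℝ≥0∞} (h : IsPt p k (maxUnramified k K) φ)
    (a : maxUnramified k K) (n : ℕ) : φ (a ^ n) = φ a ^ n := by
  have h1 := U1_337.pt_prod h (Finset.range n) (fun _ => a) (fun _ _ => rfl)
  rwa [Finset.prod_const, Finset.card_range] at h1

/-- the elements of `k₁(X)` are fixed -/
theorem fix_adjoin (σ : PiGroup k K) (k₁ : IntermediateField k (maxUnramified k K))
    (hk₁ : ∀ c ∈ k₁, σ c = c) {X : maxUnramified k K} (hX : σ X = X) :
    ∀ f ∈ k₁⟮X⟯, σ f = f := by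
  let E : IntermediateField k₁ (maxUnramified k K) :=
    { RingHom.eqLocusField (σ : maxUnramified k K →+* maxUnramified k K) (RingHom.id _) with
      algebraMap_mem' := fun c => hk₁ _ c.2 }
  have h : k₁⟮X⟯ ≤ E := by
    rw [adjoin_simple_le_iff]
    exact hX
  intro f hf
  exact h hf

set_option maxHeartbeats 1600000 in
/-- **The core of (U').** -/
theorem core (HS : HStmt p k K) (h16 : AAsm_349.S16 p k K)
    {W : Valuation (constField k K) ℝ≥0}
    (hW : ∀ q : ℚ_[p], W (APt_349.iQ p k (constField k K) q) = ‖q‖₊) {l : ℕ} (hlp : l ≠ p) {ϖ : k}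
    (H : Hyp k W l ϖ) {P : Subgroup (ConstGal k K)} {τ φ : ConstGal k K}
    {vp : ℕ → constField k K} (hP : IsProl l P) (hT : TauData W l ϖ P τ φ vp)
    (s : ConstGal k K →* PiGroup k K) (hs : IsSection k K s) (j : ℕ)
    (hC : CAt p k K W (s (τ ^ l ^ j))) {φ₁ φ₂ : maxUnramified k K → ℝ≥0∞}
    (h₁ : IsPt p k (maxUnramified k K) φ₁) (h₂ : IsPt p k (maxUnramified k K) φ₂)
    (i₁ : ∀ a, φ₁ (s (τ ^ l ^ j) a) = φ₁ a) (i₂ : ∀ a, φ₂ (s (τ ^ l ^ j) a) = φ₂ a)
    (x : maxUnramified k K) (hx : s (τ ^ l ^ j) x = x) (hlt : φ₁ x < φ₂ x) : False := by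
  classical
  have hchar : CharZero k := charZero_of_injective_algebraMap (algebraMap ℚ_[p] k).injective
  have hcl : IsAlgClosure k (constField k K) := Tau7_512.isAlgClosure_constField
  have hacl : IsAlgClosed (constField k K) := hcl.isAlgClosed
  have halg : Algebra.IsAlgebraic k (constField k K) := hcl.isAlgebraic
  have hgal : IsGalois k (constField k K) := IsAlgClosure.isGalois k (constField k K)
  have hl := H.prime
  set σ : PiGroup k K := s (τ ^ l ^ j) with hσdef
  have hσc : ∀ c : constField k K, σ (c : maxUnramified k K) =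
      (((τ ^ l ^ j) c : constField k K) : maxUnramified k K) := hs.2 (τ ^ l ^ j)
  have hc₁ := pt_const h₁ hW
  have hc₂ := pt_const h₂ hW
  have hinj : Function.Injective (fun c : constField k K => (c : maxUnramified k K)) :=
    Subtype.val_injective
  -- the constant `π₀`
  obtain ⟨r, hr1, hr2⟩ := ENNReal.lt_iff_exists_nnreal_btwn.1
    (ENNReal.pow_right_strictMono hl.ne_zero hlt)
  have hr1' : φ₁ x ^ l < r := hr1
  have hr2' : (r : ℝ≥0∞) < φ₂ x ^ l := hr2
  have htop : φ₁ x ^ l ≠ ∞ := (hr1'.trans ENNReal.coe_lt_top).ne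
  set a : ℝ≥0 := (φ₁ x ^ l).toNNReal with ha
  have ha' : (a : ℝ≥0∞) = φ₁ x ^ l := ENNReal.coe_toNNReal htop
  have har : a < r := by rw [← ENNReal.coe_lt_coe, ha']; exact hr1'
  obtain ⟨π₀, hπfix, hπ1, hπ2, hπ3⟩ := hT.between a r har j
  have hπ0 : π₀ ≠ 0 := by
    rintro rfl
    rw [map_zero] at hπ1
    exact absurd hπ1 (not_lt.2 zero_le)
  have hWπ0 : W π₀ ≠ 0 := (Valuation.ne_zero_iff W).2 hπ0
  obtain ⟨y, hy⟩ := IsAlgClosed.exists_pow_nat_eq π₀ hl.pos
  have hy0 : y ≠ 0 := by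
    rintro rfl
    rw [zero_pow hl.ne_zero] at hy
    exact hπ0 hy.symm
  have hτy := hπ3 y hy
  -- the root of unity
  set ζ : constField k K := y / (τ ^ l ^ j) y with hζdef
  have hτy0 : (τ ^ l ^ j) y ≠ 0 := (_root_.map_ne_zero _).2 hy0
  have hζl : ζ ^ l = 1 := by
    rw [hζdef, div_pow, ← map_pow, hy, hπfix, div_self hπ0]
  have hζ1 : ζ ≠ 1 := by
    intro h
    rw [hζdef, div_eq_one_iff_eq hτy0] at h
    exact hτy h.symm
  have hτζ : τ ζ = ζ := hT.tau_MU ζ ⟨l, hl.pos, H.wl, hζl⟩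
  have hτζ' : ∀ m : ℕ, (τ ^ m) ζ = ζ := by
    intro m
    induction m with
    | zero => simp
    | succ m ih => rw [pow_succ, AlgEquiv.mul_apply, hτζ, ih]
  -- `X`
  set X : maxUnramified k K := x ^ l * ((π₀⁻¹ : constField k K) : maxUnramified k K) with hXdef
  have hπM : (π₀ : maxUnramified k K) ≠ 0 := fun h => hπ0 (Subtype.ext h)
  have hXπ : X * (π₀ : maxUnramified k K) = x ^ l := by
    have h3 : ((π₀⁻¹ : constField k K) : maxUnramified k K) * (π₀ : maxUnramified k K) = 1 := by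
      have := congrArg (Subtype.val : constField k K → maxUnramified k K) (inv_mul_cancel₀ hπ0)
      exact this
    rw [hXdef, mul_assoc, h3, mul_one]
  have hv₁ : φ₁ X = φ₁ x ^ l * (W π₀⁻¹ : ℝ≥0) := by
    rw [hXdef, pt_mul_const h₁ hc₁ _ _ (inv_ne_zero hπ0), pt_pow h₁]
  have hv₂ : φ₂ X = φ₂ x ^ l * (W π₀⁻¹ : ℝ≥0) := by
    rw [hXdef, pt_mul_const h₂ hc₂ _ _ (inv_ne_zero hπ0), pt_pow h₂]
  have hX1 : φ₁ X < 1 := by
    rw [hv₁, ← ha', ← ENNReal.coe_mul, map_inv₀]
    have : a * (W π₀)⁻¹ < 1 := by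
      rw [← div_eq_mul_inv, div_lt_one₀ (zero_lt_iff.2 hWπ0)]
      exact hπ1
    exact_mod_cast this
  have hX2 : 1 < φ₂ X := by
    have h3 : ((W π₀ : ℝ≥0) : ℝ≥0∞) < φ₂ x ^ l := lt_trans (by exact_mod_cast hπ2) hr2'
    have h4 : (W π₀⁻¹ : ℝ≥0) ≠ 0 := (Valuation.ne_zero_iff W).2 (inv_ne_zero hπ0)
    have h5 := (ENNReal.mul_lt_mul_iff_left (c := ((W π₀⁻¹ : ℝ≥0) : ℝ≥0∞))
      (by exact_mod_cast h4) ENNReal.coe_ne_top).2 h3
    rw [hv₂]
    refine lt_of_eq_of_lt ?_ h5
    rw [← ENNReal.coe_mul, ← map_mul, mul_inv_cancel₀ hπ0, map_one, ENNReal.coe_one]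
  -- transcendence
  have hxt : Transcendental k x := by
    intro h
    let c : constField k K := ⟨x, by
      change x ∈ algebraicClosure k (maxUnramified k K)
      rw [mem_algebraicClosure_iff]
      exact h⟩
    have e1 : φ₁ x = W c := hc₁ c
    have e2 : φ₂ x = W c := hc₂ c
    rw [e1, e2] at hlt
    exact lt_irrefl _ hlt
  -- the field `k₁`
  let S : Set (maxUnramified k K) := {(π₀ : maxUnramified k K), (ζ : maxUnramified k K)}
  let k₁ : IntermediateField k (maxUnramified k K) := IntermediateField.adjoin k S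
  have hconstint : ∀ c : constField k K, IsIntegral k (c : maxUnramified k K) := fun c =>
    ((halg.isAlgebraic c).isIntegral).map (constField k K).val
  have hk₁fd : FiniteDimensional k k₁ := by
    refine IntermediateField.finiteDimensional_adjoin fun z hz => ?_
    rcases hz with rfl | hz
    · exact hconstint _
    · rw [Set.mem_singleton_iff] at hz
      rw [hz]
      exact hconstint _
  obtain ⟨C, nC, hCalg, hCmem, hCp, hCW, hCres, hCdense⟩ := hC
  have hσπ : σ (π₀ : maxUnramified k K) = π₀ := by rw [hσc, hπfix]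
  have hσζ : σ (ζ : maxUnramified k K) = ζ := by rw [hσc, hτζ']
  have hk₁C : k₁ ≤ C := by
    rw [IntermediateField.adjoin_le_iff]
    intro z hz
    rcases hz with rfl | hz
    · exact (hCmem _).2 ⟨(hconstint _).isAlgebraic, hσπ⟩
    · rw [Set.mem_singleton_iff] at hz
      rw [hz]
      exact (hCmem _).2 ⟨(hconstint _).isAlgebraic, hσζ⟩
  have hσC : ∀ c ∈ C, σ c = c := fun c hc => ((hCmem c).1 hc).2
  let π₁ : k₁ := ⟨π₀, IntermediateField.subset_adjoin k S (Or.inl rfl)⟩
  let ζ₁ : k₁ := ⟨ζ, IntermediateField.subset_adjoin k S (Or.inr rfl)⟩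
  have hπ₁0 : π₁ ≠ 0 := fun h => hπM (congrArg Subtype.val h)
  have hXt : Transcendental k X := by
    intro h
    refine hxt (IsAlgebraic.of_pow hl.pos ?_)
    rw [← hXπ]
    exact h.mul (hconstint π₀).isAlgebraic
  have hXt₁ : Transcendental k₁ X := by
    intro h
    have h3 : Algebra.IsAlgebraic k k₁ := inferInstance
    exact hXt (h.restrictScalars k)
  have hσX : σ X = X := by
    have h3 : σ X * (π₀ : maxUnramified k K) = X * π₀ := by
      rw [hXπ]
      conv_lhs => rw [← hσπ]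
      rw [← map_mul, hXπ, map_pow, hx]
    exact mul_right_cancel₀ hπM h3
  -- the Gauss norm and the two rings
  set vk : Valuation k₁ ℝ≥0 := nC.comap (IntermediateField.inclusion hk₁C).toRingHom with hvk
  set XF : k₁⟮X⟯ := AdjoinSimple.gen k₁ X with hXF
  have hXFt : Transcendental k₁ XF := gen_transcendental X hXt₁
  have hXF0 : XF ≠ 0 := by
    intro h
    rw [h] at hXFt
    exact hXFt isAlgebraic_zero
  have hgen := gen_hgen (k := k₁) X
  obtain ⟨v₀, hv₀⟩ := UQ_478.exists_isG (vk := vk) (X := XF) hXFt hgen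
  obtain ⟨A₀, hA₀⟩ := UQ_478.exists_R2 (vk := vk) (X := XF) hXFt
  have hXFt' : Transcendental k₁ XF⁻¹ := by
    intro h
    have h3 := h.inv
    rw [inv_inv] at h3
    exact hXFt h3
  obtain ⟨A₁, hA₁⟩ := UQ_478.exists_R2 (vk := vk) (X := XF⁻¹) hXFt'
  have hvX : v₀ XF = 1 := isG_one hv₀
  have hvk_const : ∀ (c : k₁) (c' : constField k K), (c' : maxUnramified k K) = c →
      vk c = W c' := by
    intro c c' hcc
    exact hCW (IntermediateField.inclusion hk₁C c) c' hcc
  -- `|ζ - 1| = 1`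
  have hWζ : W ζ = 1 := w_of_pow_eq_one hl.pos hζl
  have hWζ1 : W (ζ - 1) = 1 := by
    refine le_antisymm ((Valuation.map_sub W ζ 1).trans (by rw [hWζ, map_one, max_self])) ?_
    by_contra hcon
    rw [not_le] at hcon
    have hφl : φ₁ (l : maxUnramified k K) = 1 := by
      have h3 := hc₁ (l : constField k K)
      rw [H.wl, ENNReal.coe_one] at h3
      exact h3
    have h3 : (ζ : maxUnramified k K) = 1 := by
      refine U1_337.eq_one_of_near h₁ hl hφl ?_ ?_
      · have := congrArg (Subtype.val : constField k K → maxUnramified k K) hζl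
        exact this
      · have h4 := hc₁ (ζ - 1)
        have h5 : φ₁ ((ζ : maxUnramified k K) - 1) = (W (ζ - 1) : ℝ≥0) := h4
        rw [h5]
        exact_mod_cast hcon
    exact hζ1 (Subtype.ext h3)
  -- `σ` over `k₁(X)`
  have hσk₁ : ∀ c ∈ k₁, σ c = c := fun c hc => hσC c (hk₁C hc)
  have hσF := fix_adjoin σ k₁ hσk₁ hσX
  let τF : maxUnramified k K ≃ₐ[k₁⟮X⟯] maxUnramified k K :=
    AlgEquiv.ofRingEquiv (f := (σ : maxUnramified k K ≃+* maxUnramified k K))
      (fun f => hσF f f.2)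
  have hτF : ∀ a, τF a = σ a := fun _ => rfl
  have hτFpow : ∀ (m : ℕ) (a : maxUnramified k K), (τF ^ m) a = (σ ^ m) a := by
    intro m
    induction m with
    | zero => intro a; rfl
    | succ m ih => intro a; rw [pow_succ, pow_succ, AlgEquiv.mul_apply, AlgEquiv.mul_apply, ih, hτF]
  have hpro : ∀ a : maxUnramified k K, ∃ n, (τF ^ l ^ n) a = a := by
    intro a
    obtain ⟨n, hn⟩ := exists_pow_fix s hs (hP τ hT.tau_mem) a
    refine ⟨n, ?_⟩
    rw [hτFpow, hσdef, map_pow, ← pow_mul, mul_comm, pow_mul]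
    generalize (s τ) ^ l ^ n = g at hn ⊢
    generalize l ^ j = m
    induction m with
    | zero => rfl
    | succ m ih => rw [pow_succ, AlgEquiv.mul_apply, hn, ih]
  -- `t = x / y`
  set t : maxUnramified k K := x / (y : maxUnramified k K) with htdef
  have hyM : (y : maxUnramified k K) ≠ 0 := fun h => hy0 (Subtype.ext h)
  have hyl : (y : maxUnramified k K) ^ l = π₀ := by
    have := congrArg (Subtype.val : constField k K → maxUnramified k K) hy
    exact this
  have htl : t ^ l = X := by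
    rw [htdef, div_pow, hyl, ← hXπ, mul_div_cancel_right₀ _ hπM]
  have hσy : σ (y : maxUnramified k K) * ζ = y := by
    rw [hσc]
    have h3 : (τ ^ l ^ j) y * ζ = y := by rw [hζdef, mul_div_cancel₀ _ hτy0]
    have := congrArg (Subtype.val : constField k K → maxUnramified k K) h3
    exact this
  have hσy0 : σ (y : maxUnramified k K) ≠ 0 := (_root_.map_ne_zero _).2 hyM
  have hσt : σ t = ζ * t := by
    rw [htdef, map_div₀, hx]
    rw [div_eq_iff hσy0]
    rw [mul_comm, ← mul_assoc, hσy, mul_div_cancel₀ _ hyM]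
  -- application of `rk2_false`
  have hζF : algebraMap k₁⟮X⟯ (maxUnramified k K) (algebraMap k₁ k₁⟮X⟯ ζ₁) = ζ := rfl
  have hv0const : ∀ c : k₁, v₀ (algebraMap k₁ k₁⟮X⟯ c) = vk c := hv₀.ext
  have hXFM : algebraMap k₁⟮X⟯ (maxUnramified k K) XF = X := AdjoinSimple.algebraMap_gen k₁ X
  have hcharF : CharZero k₁⟮X⟯ :=
    charZero_of_injective_algebraMap (R := k) (algebraMap k k₁⟮X⟯).injective
  have hΩ : Algebra.IsAlgebraic k₁⟮X⟯ (AlgebraicClosure K) := isAlgebraic_top k₁ X hXt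
  have hvkQ : ∀ q : ℚ_[p], vk (algebraMap k k₁ (algebraMap ℚ_[p] k q)) = ‖q‖₊ := fun q => hCp q
  refine Rk2_894.rk2_false (F := k₁⟮X⟯) (M := maxUnramified k K) (Ω := AlgebraicClosure K) v₀
    ?_ ?_ l hl τF hpro XF (algebraMap k₁ k₁⟮X⟯ ζ₁) t (by rw [htl, hXFM]) (by rw [hτF, hζF, hσt])
    ?_ ?_ A₀ A₁ hvX hA₀.lt ?_ ?_ ?_ ?_
  · -- nontrivial
    refine ⟨algebraMap k₁ k₁⟮X⟯ (algebraMap k k₁ (algebraMap ℚ_[p] k (p : ℚ_[p])⁻¹)), ?_⟩
    have h3 : ‖((p : ℚ_[p])⁻¹)‖₊ = (p : ℝ≥0) := by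
      apply NNReal.eq
      rw [coe_nnnorm, norm_inv, Padic.norm_p, inv_inv]
      rfl
    rw [hv0const, hvkQ, h3]
    exact_mod_cast (Fact.out : p.Prime).one_lt
  · -- density
    intro W' hW' a ε hε
    refine h16 (W'.comap (algebraMap K (AlgebraicClosure K))) (fun q => ?_) W' rfl a ε hε
    have h3 := hvkQ q
    rw [← hv0const, ← hW'] at h3
    exact h3
  · -- `ζ ^ l = 1`
    rw [← map_pow]
    have h3 : ζ₁ ^ l = 1 := by
      apply Subtype.ext
      exact congrArg (Subtype.val : constField k K → maxUnramified k K) hζl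
    rw [h3, map_one]
  · rw [← map_one (algebraMap k₁ k₁⟮X⟯), ← map_sub, hv0const, hvk_const (ζ₁ - 1) (ζ - 1) rfl, hWζ1]
  · have h3 := hA₁.lt
    rw [map_inv₀, inv_lt_one₀ (zero_lt_iff.2 ((Valuation.ne_zero_iff _).2 hXF0))] at h3
    exact h3
  · intro f hf
    exact hA₀.exists_zpow hgen hv₀ hf
  · intro f hf
    obtain ⟨n, hn⟩ := hA₁.exists_zpow (U6_337.hgen_of_top (U6_337.top_inv (gen_top X)))
      (isG_inv hv₀ hvX) hf
    refine ⟨-n, ?_⟩
    rwa [inv_zpow', ] at hn
  · intro L hLfd hLfix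
    by_contra hno
    obtain ⟨g, hg1, hg2, hg3⟩ := HS σ l hl hlp k₁ C hk₁fd hk₁C hCalg hσC nC hCp hCres hCdense x X π₁
      hπ₁0 hXπ hx hXt₁ v₀ A₀ A₁ hv₀ hA₀ hA₁ L hLfd hLfix hno
    obtain ⟨g₁, hg₁, n₁⟩ := hg2 φ₁ h₁ hX1
    obtain ⟨g₂, hg₂, n₂⟩ := hg3 φ₂ h₂ hX2
    have hprim : IsPrimitiveRoot (ζ : maxUnramified k K) l := by
      have h1 : orderOf (ζ : maxUnramified k K) = l := by
        have : Fact l.Prime := ⟨hl⟩
        refine orderOf_eq_prime ?_ fun h2 => hζ1 (Subtype.ext h2)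
        exact congrArg (Subtype.val : constField k K → maxUnramified k K) hζl
      rw [← h1]
      exact IsPrimitiveRoot.orderOf _
    refine U1_337.contra h₁ h₂ hl hlp (σ : maxUnramified k K ≃+* maxUnramified k K) i₁ i₂ hprim hσζ
      (H := g) (ϖ := (y : maxUnramified k K)) (g₁ := g₁) (g₂ := g₂) ?_ hg1 ?_ hg₁ hg₂ ?_ n₂
    · intro h
      have h3 : σ (y : maxUnramified k K) = y := h
      rw [hσc] at h3
      exact hτy (Subtype.ext h3)
    · rw [hyl]; exact hσπ
    · rw [hyl]; exact n₁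

/-- **(U') of #2717**, from 337's `HStmt`, S0016 and 512's constants. -/
theorem uin_of {k K : Type} [Field k] [Algebra ℚ_[p] k] [FiniteDimensional ℚ_[p] k]
    [Field K] [Algebra k K] [Algebra (RatFunc k) K] [IsScalarTower k (RatFunc k) K]
    [FiniteDimensional (RatFunc k) K] (HS : HStmt p k K) (h16 : AAsm_349.S16 p k K)
    (HC : ∀ (W : Valuation (constField k K) ℝ≥0)
      (_ : ∀ q : ℚ_[p], W (APt_349.iQ p k (constField k K) q) = ‖q‖₊) (l : ℕ) (_ : l ≠ p) (ϖ : k)
      (_ : Hyp k W l ϖ) (P : Subgroup (ConstGal k K)) (τ φ : ConstGal k K)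
      (vp : ℕ → constField k K) (_ : TauData W l ϖ P τ φ vp)
      (s : ConstGal k K →* PiGroup k K) (_ : IsSection k K s) (j : ℕ),
      CAt p k K W (s (τ ^ l ^ j))) : AEFin_854.UIn p k K := by
  intro W hW l hl hlp _ ϖ H P τ φ vp hco hP hT s hs n φ₁ φ₂ h₁ h₂ i₁ i₂
  by_contra hne
  have hchar : CharZero k := charZero_of_injective_algebraMap (algebraMap ℚ_[p] k).injective
  have hcl : IsAlgClosure k (constField k K) := Tau7_512.isAlgClosure_constField
  have hgal : IsGalois k (constField k K) := IsAlgClosure.isGalois k (constField k K)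
  have hCn := HC W hW l hlp ϖ H P τ φ vp hT s hs n
  obtain ⟨x, hx, hxne⟩ := U1_337.exists_fixed_ne h₁ h₂
    ((s (τ ^ l ^ n) : PiGroup k K) : maxUnramified k K ≃+* maxUnramified k K) (fun a => by
      obtain ⟨m, hm⟩ := exists_pow_fix s hs (hP τ hT.tau_mem) a
      refine ⟨l ^ m, pow_pos hl.pos m, ?_⟩
      have h1 : (s (τ ^ l ^ n)) ^ l ^ m = ((s τ) ^ l ^ m) ^ l ^ n := by
        rw [map_pow, ← pow_mul, ← pow_mul, mul_comm]
      have h2 : ((s (τ ^ l ^ n)) ^ l ^ m) a = a := by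
        rw [h1]
        generalize (s τ) ^ l ^ m = g at hm
        generalize l ^ n = N
        induction N with
        | zero => rfl
        | succ N ih => rw [pow_succ, AlgEquiv.mul_apply, hm, ih]
      have h3 : ∀ (N : ℕ) (b : maxUnramified k K),
          ((((s (τ ^ l ^ n) : PiGroup k K) : maxUnramified k K ≃+* maxUnramified k K)) ^ N) b =
            ((s (τ ^ l ^ n)) ^ N) b := by
        intro N
        induction N with
        | zero => intro b; rfl
        | succ N ih =>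
          intro b
          rw [pow_succ, pow_succ, RingAut.mul_apply, AlgEquiv.mul_apply, ih]
          rfl
      rw [h3, h2]) i₁ i₂ hne
  have hx' : s (τ ^ l ^ n) x = x := hx
  rcases lt_or_gt_of_ne hxne with h | h
  · exact core HS h16 hW hlp H hP hT s hs n hCn h₁ h₂ i₁ i₂ x hx' h
  · exact core HS h16 hW hlp H hP hT s hs n hCn h₂ h₁ i₂ i₁ x hx' h

end Crest.Agent.R013.UAsm_854
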