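import Crest.Agent.R013.A2b_275
import Crest.Agent.R013.Ax2_280

/-!
# Row 13, part A, leaf A-U, (PE): the values of a point at algebraic elements
-/

set_option autoImplicit false

namespace Crest.Agent.R013.UPE_920

open scoped NNReal ENNReal
open Crest.Agent.R013.A2b_275

variable {p : ℕ} [Fact p.Prime]

/-- The value of a point at an element algebraic over `ℚ_p` is the spectral value of its minimal
polynomial. -/
theorem pt_eq_spectral {k U : Type*} [Field k] [Algebra ℚ_[p] k] [Field U] [Algebra k U]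
    [Algebra ℚ_[p] U] [IsScalarTower ℚ_[p] k U] {φ : U → ℝ≥0∞} (hφ : IsPt p k U φ) {c : U}
    (hc : IsIntegral ℚ_[p] c) :
    φ c ≠ ∞ ∧ ((φ c).toNNReal : ℝ) = spectralValue (minpoly ℚ_[p] c) := by
  have hne : ∀ a : algebraicClosure ℚ_[p] U, φ a ≠ ∞ := fun a =>
    hφ.ne_top_of_isIntegral ((mem_algebraicClosure_iff.1 a.2).isIntegral)
  have h : IsPt p ℚ_[p] (algebraicClosure ℚ_[p] U) (fun a => φ a) :=
    { add := fun a b => hφ.add a b
      mul := fun a b h1 h2 => hφ.mul a b h1 h2
      inv := fun a ha => hφ.inv a (fun h0 => ha (Subtype.ext h0))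
      ext := fun q => by
        have := hφ.ext q
        rw [← IsScalarTower.algebraMap_apply] at this
        exact this }
  refine ⟨hφ.ne_top_of_isIntegral hc, ?_⟩
  let w := h.toValuation hne
  let c₀ : algebraicClosure ℚ_[p] U := ⟨c, mem_algebraicClosure_iff.2 hc.isAlgebraic⟩
  have hw : ∀ q : ℚ_[p], w (algebraMap ℚ_[p] (algebraicClosure ℚ_[p] U) q) = ‖q‖₊ := by
    intro q
    have h1 := h.coe_toValuation hne (algebraMap ℚ_[p] (algebraicClosure ℚ_[p] U) q)
    have h2 := h.ext q
    have h3 : ((w (algebraMap ℚ_[p] (algebraicClosure ℚ_[p] U) q) : ℝ≥0) : ℝ≥0∞) = ‖q‖₊ := by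
      rw [h1]; exact h2
    exact_mod_cast h3
  have h1 := Crest.Agent.R013.Ax_280.w_eq_spectralNorm w hw c₀
  have h2 : spectralNorm ℚ_[p] (algebraicClosure ℚ_[p] U) c₀ =
      spectralValue (minpoly ℚ_[p] c) := by
    unfold spectralNorm
    congr 1
    exact (minpoly.algebraMap_eq (algebraMap (algebraicClosure ℚ_[p] U) U).injective c₀).symm
  rw [← h2, ← h1]
  rfl

/-- **(PE)** The value of a point at an algebraic element is its norm. -/
theorem pt_eq {k U : Type*} [Field k] [Algebra ℚ_[p] k] [Algebra.IsAlgebraic ℚ_[p] k] [Field U]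
    [Algebra k U] {φ : U → ℝ≥0∞} (hφ : IsPt p k U φ) {C : Type*} [Field C] [Algebra k C]
    [Algebra.IsAlgebraic k C] (nC : Valuation C ℝ≥0)
    (hnC : ∀ q : ℚ_[p], nC (algebraMap k C (algebraMap ℚ_[p] k q)) = ‖q‖₊)
    {E : Type*} [Field E] [Algebra C E] [Algebra U E] [Algebra k E] [IsScalarTower k C E]
    [IsScalarTower k U E] {c : C} {c' : U} (h : algebraMap U E c' = algebraMap C E c) :
    φ c' = nC c := by
  let _ : Algebra ℚ_[p] U := ((algebraMap k U).comp (algebraMap ℚ_[p] k)).toAlgebra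
  have : IsScalarTower ℚ_[p] k U := IsScalarTower.of_algebraMap_eq fun _ => rfl
  let _ : Algebra ℚ_[p] C := ((algebraMap k C).comp (algebraMap ℚ_[p] k)).toAlgebra
  have : IsScalarTower ℚ_[p] k C := IsScalarTower.of_algebraMap_eq fun _ => rfl
  let _ : Algebra ℚ_[p] E := ((algebraMap k E).comp (algebraMap ℚ_[p] k)).toAlgebra
  have : IsScalarTower ℚ_[p] k E := IsScalarTower.of_algebraMap_eq fun _ => rfl
  have : IsScalarTower ℚ_[p] C E := IsScalarTower.of_algebraMap_eq fun q => by
    change algebraMap k E (algebraMap ℚ_[p] k q) = algebraMap C E (algebraMap k C _)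
    rw [← IsScalarTower.algebraMap_apply k C E]
  have : IsScalarTower ℚ_[p] U E := IsScalarTower.of_algebraMap_eq fun q => by
    change algebraMap k E (algebraMap ℚ_[p] k q) = algebraMap U E (algebraMap k U _)
    rw [← IsScalarTower.algebraMap_apply k U E]
  have : Algebra.IsAlgebraic ℚ_[p] C := Algebra.IsAlgebraic.trans ℚ_[p] k C
  have hmin : minpoly ℚ_[p] c' = minpoly ℚ_[p] c := by
    rw [← minpoly.algebraMap_eq (algebraMap U E).injective c', h,
      minpoly.algebraMap_eq (algebraMap C E).injective c]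
  have hcint : IsIntegral ℚ_[p] c := (Algebra.IsAlgebraic.isAlgebraic c).isIntegral
  have hcint' : IsIntegral ℚ_[p] c' := by
    have h1 : IsIntegral ℚ_[p] (algebraMap U E c') := by
      rw [h]; exact hcint.map (IsScalarTower.toAlgHom ℚ_[p] C E)
    exact (isIntegral_algebraMap_iff (algebraMap U E).injective).1 h1
  obtain ⟨h1, h2⟩ := pt_eq_spectral hφ hcint'
  have h3 := Crest.Agent.R013.Ax_280.w_eq_spectralNorm nC (fun q => hnC q) c
  have h4 : ((φ c').toNNReal : ℝ) = (nC c : ℝ) := by
    rw [h2, h3, hmin]; rfl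
  rw [← ENNReal.coe_toNNReal h1]
  exact_mod_cast h4

end Crest.Agent.R013.UPE_920
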