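import Crest.Agent.R013.M2c_797
import Crest.Agent.R013.Set10_803
import Crest.Agent.R013.Cof5_669
import Crest.Agent.R013.VData_803

/-!
# R013 / VSup1 (helper797): vertex data from `GOOD'`

`VSupply p` of `VData_803`: the data of `GoodAt` give the vertex data `VData`, with the same
`C, π, q, c, R, v`.  The field `M` is `K C (s', z')` where `s', z'` are the vertex functions of
Lemma M2 (`M2c_797.exists_vertex_field`) over `K k̄`.
-/

set_option autoImplicit false
set_option linter.unusedSectionVars false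
set_option linter.style.haveILetI false

namespace Crest.Agent.R013.VSup1_797

open scoped NNReal Topology
open Filter Polynomial IntermediateField Crest.NumberTheoryR.Sect
open Crest.Agent.R013.A2a_275 Crest.Agent.R013.Gl946
open Crest.Agent.R013.ResP_168 Crest.Agent.R013.LiftA_168 Crest.Agent.R013.NP_168
open Crest.Agent.R013.SE_669 Crest.Agent.R013.CGood_588 Crest.Agent.R013.GoodP_797
open Crest.Agent.R013.Cof1_669 Crest.Agent.R013.Cof2_669 Crest.Agent.R013.Cof5_669
open Crest.Agent.R013.Set_803 Crest.Agent.R013.VData_803 Crest.Agent.R013.BTor6_914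
open Crest.Agent.R013.M2c_797

variable {p : ℕ} [Fact p.Prime] {k : Type*} [Field k] [Algebra ℚ_[p] k] {K : Type*} [Field K]
  [Algebra k K]

local notation "Kb" => AlgebraicClosure K

/-! ### the closure of `kb(t)` -/

/-- an element expanded on the disc is in the closure of any subfield containing `C` and `x` -/
theorem mem_cl_of_rep [FiniteDimensional ℚ_[p] k] {Ω : Type*} [Field Ω] [Algebra k Ω]
    {P v : Valuation Ω ℝ≥0} {C : IntermediateField k Ω} {R : ℝ≥0} {x q c : Ω}
    [FiniteDimensional k C] (D : DiscData p v P C R x q c) {f : Ω} {G H : PowerSeries C}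
    (h : IsRep v P C R x f G H) {F : Subfield Ω} (hC : ∀ a : C, (a : Ω) ∈ F) (hx : x ∈ F) :
    f ∈ cl v (F : Set Ω) := by
  intro ε hε
  have e1 := h.v_eq (hR := D.hR) (hx := D.hx)
  have hH : evW v C R D.hR x D.hx ⟨H, mem_BS.2 h.bH⟩ ≠ 0 := by
    intro h0
    have h1 := D.evW_injective (h0.trans (map_zero _).symm)
    exact h.ne (congrArg Subtype.val h1)
  have hf : toCpl v f = evW v C R D.hR x D.hx ⟨G, mem_BS.2 h.bG⟩ /
      evW v C R D.hR x D.hx ⟨H, mem_BS.2 h.bH⟩ := by
    rw [eq_div_iff hH, e1]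
  have t1 := tendsto_psum (hx := D.hx) (⟨G, mem_BS.2 h.bG⟩ : BS v C R D.hR)
  have t2 := tendsto_psum (hx := D.hx) (⟨H, mem_BS.2 h.bH⟩ : BS v C R D.hR)
  have t3 := (t1.div t2 hH).const_sub (toCpl v f)
  rw [← hf, sub_self] at t3
  have t4 := t3.norm
  rw [norm_zero] at t4
  obtain ⟨n, hn⟩ := ((t4.eventually (gt_mem_nhds (show (0 : ℝ) < ε from hε))).exists)
  have hps : ∀ G : PowerSeries C, psum (cf G) x n ∈ F := by
    intro G
    exact F.sum_mem fun i _ => F.mul_mem (hC _) (F.pow_mem hx i)
  refine ⟨psum (cf G) x n / psum (cf H) x n, F.div_mem (hps G) (hps H), ?_⟩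
  have h3 : ‖toCpl v (f - psum (cf G) x n / psum (cf H) x n)‖ < ε := by
    rw [map_sub, map_div₀]
    exact hn
  rw [norm_toCpl] at h3
  exact_mod_cast h3

/-! ### Galois extensions of `K k̄` inside `maxUnramified` -/

theorem kb_le_max [CharZero k] [Algebra (RatFunc k) K] [IsScalarTower k (RatFunc k) K]
    [FunctionField k K] {a : Kb} (ha : a ∈ kb k K) : a ∈ maxUnramified k K :=
  MaxUnr_97.mem_maxUnramified_of_isIntegral _ (mem_kb.1 ha)

theorem Kgeo_le_max [CharZero k] [Algebra (RatFunc k) K] [IsScalarTower k (RatFunc k) K]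
    [FunctionField k K] : Kgeo k K ≤ maxUnramified k K := by
  unfold Kgeo
  rw [IntermediateField.adjoin_le_iff]
  exact fun a ha => kb_le_max ha

theorem exists_galois [CharZero k] [Algebra (RatFunc k) K] [IsScalarTower k (RatFunc k) K]
    [FunctionField k K] (s : Finset Kb) (hs : ∀ a ∈ s, a ∈ maxUnramified k K) :
    ∃ N : IntermediateField (Kgeo k K) Kb, FiniteDimensional (Kgeo k K) N ∧
      IsGalois (Kgeo k K) N ∧ (∀ a ∈ s, a ∈ N) ∧ ∀ a ∈ N, a ∈ maxUnramified k K := by
  haveI : CharZero K := charZero_of_injective_algebraMap (algebraMap k K).injective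
  haveI : CharZero (Kgeo k K) := charZero_of_injective_algebraMap (algebraMap K (Kgeo k K)).injective
  haveI : Normal (Kgeo k K) Kb := Normal.tower_top_of_normal K _ _
  have hL : Kgeo k K ≤ maxUnramified k K := Kgeo_le_max
  let MU : IntermediateField (Kgeo k K) Kb := IntermediateField.extendScalars hL
  haveI hMU : Normal (Kgeo k K) MU := by
    rw [IntermediateField.normal_iff_forall_map_le]
    intro σ a ha
    obtain ⟨b, hb, rfl⟩ := ha
    have h1 := (IntermediateField.normal_iff_forall_map_le.1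
      (inferInstance : Normal K (maxUnramified k K))) (σ.restrictScalars K)
    exact h1 ⟨b, hb, rfl⟩
  let A : IntermediateField (Kgeo k K) Kb := IntermediateField.adjoin _ (s : Set Kb)
  haveI : FiniteDimensional (Kgeo k K) A := by
    refine IntermediateField.finiteDimensional_adjoin fun x _ => ?_
    exact (Algebra.IsIntegral.isIntegral (R := K) x).tower_top
  have hA : A ≤ MU := by
    rw [IntermediateField.adjoin_le_iff]
    exact fun a ha => hs a ha
  refine ⟨normalClosure (Kgeo k K) A Kb, inferInstance, {}, ?_, ?_⟩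
  · intro a ha
    exact IntermediateField.le_normalClosure A (IntermediateField.subset_adjoin _ _ ha)
  · intro a ha
    exact IntermediateField.normalClosure_le_iff_of_normal.2 hA ha

/-! ### the constants -/

/-- the algebra `kb → K k̄` -/
@[reducible] noncomputable def algGeo (k : Type*) [Field k] (K : Type*) [Field K] [Algebra k K] :
    Algebra (kb k K) (Kgeo k K) :=
  RingHom.toAlgebra
    { toFun := fun a => ⟨(a : AlgebraicClosure K), kb_le_Kgeo a.2⟩
      map_one' := rfl
      map_mul' := fun _ _ => rfl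
      map_zero' := rfl
      map_add' := fun _ _ => rfl }

theorem isG_kb {v : Valuation Kb ℝ≥0} {C : IntermediateField k Kb} {t : Kb} (hG : GaussAt C t v) :
    IsG (v.comap (algebraMap (kb k K) Kb)) v t := by
  have hG' : GaussAt (kb k K) t v := Set_803.GaussAt.mono hG fun a ha =>
    mem_algebraicClosure_iff.1 ha
  refine ⟨fun c => rfl, (gaussAt_norm hG).le, fun f i => ?_⟩
  by_cases hi : i < f.natDegree + 1
  · have h1 := hG' (f.natDegree + 1) (fun i => ((f.coeff i : kb k K) : Kb)) (fun i => (f.coeff i).2)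
    rw [psum_eq_aeval f t _ (Nat.lt_succ_self _)] at h1
    rw [h1]
    exact Finset.le_sup (f := fun i => v ((f.coeff i : kb k K) : Kb)) (Finset.mem_range.2 hi)
  · rw [f.coeff_eq_zero_of_natDegree_lt (by omega), map_zero]
    exact zero_le

/-! ### vertex data from a tower vertex -/

/-- **Vertex data from a tower vertex**: `S, Z ∈ maxUnramified`, `Z ^ p - Z ≡ S ^ m`, the coordinate
`t` being congruent to a polynomial in `S` over `k̄`. -/
theorem vdata_of_tower [FiniteDimensional ℚ_[p] k] [Algebra (RatFunc k) K]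
    [IsScalarTower k (RatFunc k) K] [FunctionField k K] {P : Valuation Kb ℝ≥0} {x : K}
    (hP : IsRationalPlace k K (P.comap (algebraMap K Kb)))
    (hx : IsUniformizerAt (P.comap (algebraMap K Kb)) x)
    {η : ℝ≥0} (hη : η ≤ 1) {C : IntermediateField k Kb} (hC : FiniteDimensional k C)
    {π q c : Kb} {v : Valuation Kb ℝ≥0} (hπC : π ∈ C) (hqC : q ∈ C) (hcC : c ∈ C)
    (hπ0 : π ≠ 0) (hc0 : c ≠ 0) (hvq : v q < η * v π) (hvc : v c < η * v π)
    (hv : ExtendsPadicNorm k Kb p v) {R : ℝ≥0} (hR : v π < η * R)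
    (hD : DiscEmb K C P (algebraMap K Kb x) R v)
    (hG : GaussAt C ((algebraMap K Kb x - q) / c) v)
    {S Z : Kb} (hSu : S ∈ maxUnramified k K) (hZu : Z ∈ maxUnramified k K)
    (hS : v S ≤ 1) (hZ : v Z ≤ 1) {m : ℕ} (hm : 2 ≤ m) (hpm : ¬ p ∣ m)
    (hSZ : v (Z ^ p - Z - S ^ m) < 1) {f : (kb k K)[X]}
    (hf : ∀ i, v ((f.coeff i : kb k K) : Kb) ≤ 1)
    (hft : v (aeval S f - (algebraMap K Kb x - q) / c) < 1) :
    ∃ (M : IntermediateField K Kb) (l : ℕ) (Y : Kb), VData p k K P x η C π q c R v M l Y := by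
  classical
  haveI := hC
  haveI : CharZero k := charZero_of_injective_algebraMap (algebraMap ℚ_[p] k).injective
  have hp : p.Prime := Fact.out
  set X0 : Kb := algebraMap K Kb x with hX0
  set t : Kb := (X0 - q) / c with ht
  have D : DiscData p v P C R X0 q c := discData_of_good hP hx hη hqC hcC hc0 hvq hvc hv hR hG
  have hCkb : ∀ a ∈ C, a ∈ kb k K := fun a ha => le_kb C ha
  -- the coordinate in `K k̄`
  have hX0g : X0 ∈ Kgeo k K := (Kgeo k K).algebraMap_mem x
  have htg : t ∈ Kgeo k K := by
    rw [ht]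
    exact div_mem (sub_mem hX0g (kb_le_Kgeo (hCkb q hqC))) (kb_le_Kgeo (hCkb c hcC))
  letI : Algebra (kb k K) (Kgeo k K) := algGeo k K
  haveI : IsScalarTower (kb k K) (Kgeo k K) Kb := IsScalarTower.of_algebraMap_eq fun a => rfl
  let t0 : Kgeo k K := ⟨t, htg⟩
  let v0 : Valuation (kb k K) ℝ≥0 := v.comap (algebraMap (kb k K) Kb)
  have hw : IsG v0 v (algebraMap (Kgeo k K) Kb t0) := isG_kb hG
  -- the closure
  have hcl : ∀ a : Kgeo k K, algebraMap (Kgeo k K) Kb a ∈
      cl v (IntermediateField.adjoin (kb k K) {algebraMap (Kgeo k K) Kb t0} : Set Kb) := by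
    set F : Subfield Kb :=
      (IntermediateField.adjoin (kb k K) {algebraMap (Kgeo k K) Kb t0}).toSubfield with hF
    have hkF : ∀ a ∈ kb k K, a ∈ F := fun a ha =>
      (IntermediateField.adjoin (kb k K) {algebraMap (Kgeo k K) Kb t0}).algebraMap_mem ⟨a, ha⟩
    have htF : t ∈ F := IntermediateField.mem_adjoin_simple_self (kb k K) _
    have hxF : X0 ∈ F := by
      have h1 : X0 = q + c * t := D.x_eq
      rw [h1]
      exact F.add_mem (hkF q (hCkb q hqC)) (F.mul_mem (hkF c (hCkb c hcC)) htF)
    have hKF : ∀ g : K, algebraMap K Kb g ∈ clF v F := by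
      intro g
      obtain ⟨G, H, h⟩ := DiscData.isRep_of_discEmb hD g
      exact mem_cl_of_rep D h (fun a => hkF _ (hCkb _ a.2)) hxF
    have h1 : Kgeo k K ≤ (clF v F).toIntermediateField hKF := by
      unfold Kgeo
      rw [IntermediateField.adjoin_le_iff]
      intro a ha
      exact subset_cl v _ (hkF a ha)
    intro a
    exact h1 a.2
  have hres : ResRat v0 v t0 := resRat_of_cl hw hcl
  have hp1 : v0 (p : kb k K) < 1 := by
    have h1 : v0 (p : kb k K) = v (p : Kb) := by
      change v (algebraMap (kb k K) Kb (p : kb k K)) = _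
      rw [map_natCast]
    rw [h1, val_p hv]
    exact inv_lt_one_of_one_lt₀ (by exact_mod_cast hp.one_lt)
  obtain ⟨N, hN1, hN2, hN3, hN4⟩ := exists_galois (k := k) (K := K) {S, Z} (by
    intro a ha
    rw [Finset.mem_insert, Finset.mem_singleton] at ha
    rcases ha with rfl | rfl
    · exact hSu
    · exact hZu)
  obtain ⟨E, hEN, s', hs', z', hz', h1, h2, h3, h4⟩ := exists_vertex_field (N := N) hp hp1 hw hres
    (hN3 S (by simp)) (hN3 Z (by simp)) hS hZ hpm (by omega) hSZ hf hft
  -- the prime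
  obtain ⟨l, hl, hlm⟩ := Nat.exists_prime_and_dvd (n := m) (by omega)
  have hlp : l ≠ p := by
    rintro rfl
    exact hpm hlm
  have hpl : p.Coprime l := (Nat.coprime_primes hp hl).2 hlp.symm
  have hpcm : p.Coprime m := (Nat.Prime.coprime_iff_not_dvd hp).2 hpm
  -- the field
  set M : IntermediateField K Kb := KC K C ⊔ IntermediateField.adjoin K {s', z'} with hM
  have hCM : ∀ a ∈ C, a ∈ M := fun a ha => (le_sup_left : KC K C ≤ M) (le_KC ha)
  have hsM : s' ∈ M := (le_sup_right : IntermediateField.adjoin K {s', z'} ≤ M)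
    (IntermediateField.subset_adjoin _ _ (Or.inl rfl))
  have hzM : z' ∈ M := (le_sup_right : IntermediateField.adjoin K {s', z'} ≤ M)
    (IntermediateField.subset_adjoin _ _ (Or.inr rfl))
  have hMU : M ≤ maxUnramified k K := by
    refine sup_le ?_ ?_
    · unfold KC
      rw [IntermediateField.adjoin_le_iff]
      exact fun a ha => kb_le_max (hCkb a ha)
    · rw [IntermediateField.adjoin_le_iff]
      rintro a (rfl | rfl)
      · exact hN4 _ (hEN hs')
      · exact hN4 _ (hEN hz')
  haveI hfin : FiniteDimensional K M := by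
    haveI : FiniteDimensional K (KC K C) := finite_KC C
    haveI : FiniteDimensional K (IntermediateField.adjoin K {s', z'}) :=
      IntermediateField.finiteDimensional_adjoin fun a _ => Algebra.IsIntegral.isIntegral a
    exact IntermediateField.finiteDimensional_sup _ _
  have hLE : ∀ a ∈ Lbar k M, a ∈ E := by
    have hKE : ∀ a : K, algebraMap K Kb a ∈ E := fun a => by
      have h5 := E.algebraMap_mem (algebraMap K (Kgeo k K) a)
      rwa [← IsScalarTower.algebraMap_apply] at h5
    have hkE : ∀ a ∈ kb k K, a ∈ E := fun a ha => E.algebraMap_mem (⟨a, kb_le_Kgeo ha⟩ : Kgeo k K)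
    have h5 : Lbar k M ≤ E.restrictScalars K := by
      unfold Lbar
      refine sup_le (sup_le ?_ ?_) ?_
      · unfold KC
        rw [IntermediateField.adjoin_le_iff]
        exact fun a ha => hkE a (hCkb a ha)
      · rw [IntermediateField.adjoin_le_iff]
        rintro a (rfl | rfl)
        · exact hs'
        · exact hz'
      · rw [IntermediateField.adjoin_le_iff]
        intro a ha
        exact hkE a (mem_kb.2 ha)
    exact fun a ha => h5 ha
  have hML : M ≤ Lbar k M := le_sup_left
  refine ⟨M, l, z', hC, hπC, hqC, hcC, hπ0, hc0, hv, hvq, hvc, hR, hD, hG, hfin, hCM, hMU, hl, hlp,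
    hzM, h2, ?_, ?_⟩
  · intro A hA
    set w : Valuation (Lbar k M) ℝ≥0 := v.comap (algebraMap (Lbar k M) Kb) with hwd
    have hA' : A ≤ w.valuationSubring := fun a ha => hA a ha
    have h6 : w ((⟨z', hML hzM⟩ : Lbar k M) ^ p - ⟨z', hML hzM⟩ - 1 * (⟨s', hML hsM⟩ : Lbar k M) ^ m) < 1 := by
      rw [one_mul]
      exact h3
    exact AVal_168.exists_unit_mul_pow (w := w) (A := A) (y := (⟨z', hML hzM⟩ : Lbar k M))
      (t := (⟨s', hML hsM⟩ : Lbar k M)) (a := 1) (h := (⟨z', hML hzM⟩ : Lbar k M)) hp.one_lt hpcm hlm hA'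
      (map_one _) (map_one _) h1 h6 (by rw [sub_self, map_zero]; exact zero_lt_one)
  · intro g hg hlt
    rw [Valuation.map_sub_swap] at hlt
    exact h4 l hl.one_lt hpl g (hLE g hg) hlt

end Crest.Agent.R013.VSup1_797
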