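import Mathlib
import Crest.Agent.R013.Inh14_770
import Crest.Agent.R013.TP19_928
import Crest.Agent.R013.TopE1_957
import Crest.Agent.R013.A2c_398

/-!
# Row 13, part C, stage Y (helper770 for 957 / 928 / 588): the covering group on `PY.inh`

`K ⊆ L ⊆ Y`, both Galois over `K`; `S : SSK k C K`, `P' : Spl S L`, `PY : Spl S Y`;
`cov : A →* Gal(Y/K)`.

* `actVc`, `actEc` : the actions of `A` on vertices and edges of `PY.inh`;
* `actS` : `ActS` of 928;
* `cov_v`, `cov_e0` : fields of 928's `TPS`;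
* `vL` : restriction of vertices to `L`; equivariance, surjectivity, conjugacy in the fibres,
  completely split ==> the fibres are torsors under `Gal(Y/L)`.
-/

set_option autoImplicit false
set_option linter.all false
open WithZero
open scoped NNReal
open Crest.Agent.R013.RR7_948 Crest.Agent.R013.Red332 Crest.Agent.R013.EE809
open Crest.Agent.R013.Cell_408 (FinDef DiscNorm)
open Crest.Agent.R013.SSK_332 Crest.Agent.R013.Inh_770 Crest.Agent.R013.TP_928

namespace Crest.Agent.R013.YR_770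

variable {k : Type*} [NontriviallyNormedField k] [CompleteSpace k] [IsUltrametricDist k]
variable {C : Type*} [NormedField C] [IsUltrametricDist C] [NormedAlgebra k C]
variable [Algebra.IsAlgebraic k C] [IsAlgClosed C] [hk : Fact (DiscNorm k)]
variable {K : Type*} [Field K] [Algebra C K] [Algebra (RatFunc C) K]
  [IsScalarTower C (RatFunc C) K] [FiniteDimensional (RatFunc C) K]
  [Algebra.IsSeparable (RatFunc C) K]
variable {Y : Type*} [Field Y] [Algebra C Y] [Algebra K Y] [IsScalarTower C K Y]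
  [FiniteDimensional K Y] [IsGalois K Y]

section cov

variable {S : SSK k C K} (PY : Spl S Y) {A : Type*} [Group A] (cov : A →* (Y ≃ₐ[K] Y))

/-- the action of `A` on the vertices -/
@[reducible] noncomputable def actVc : MulAction A PY.inh.V :=
  letI := PY.actV PY.ffL
  MulAction.compHom (PY.SL PY.ffL).V cov

/-- the action of `A` on the edges -/
@[reducible] noncomputable def actEc : MulAction A PY.inh.Ed :=
  letI := PY.actE PY.ffL
  MulAction.compHom (PY.SL PY.ffL).Ed cov

/-- `cov` over `C` -/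
def covC : A →* (Y ≃ₐ[C] Y) := (A2_398.resC C K Y).comp cov

theorem covC_apply (a : A) (f : Y) : covC (C := C) cov a f = cov a f := rfl

theorem smulV (a : A) (w : PY.inh.V) :
    (actVc PY cov).toSMul.smul a w = PY.smV PY.ffL (cov a) w := rfl

theorem smulE (a : A) (e : PY.inh.Ed) :
    (actEc PY cov).toSMul.smul a e = (PY.actE PY.ffL).toSMul.smul (cov a) e := rfl

theorem nmV (a : A) (w : PY.inh.V) (f : Y) :
    (PY.inh.nm ((actVc PY cov).toSMul.smul a w)).v (covC (C := C) cov a f) = (PY.inh.nm w).v f :=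
  PY.smV_nm PY.ffL (cov a) w f

theorem actS : letI := actVc PY cov; letI := actEc PY cov
    Fin_928.ActS PY.inh (covC (C := C) cov) := by
  letI := actVc PY cov
  letI := actEc PY cov
  refine ⟨fun a w f => nmV PY cov a w f, fun a e f => ?_, fun a e f => ?_⟩
  · have h1 := PY.e0_act_fst PY.ffL (cov a) e
    change ((PY.SL PY.ffL).nm ((PY.SL PY.ffL).e0 ((PY.actE PY.ffL).toSMul.smul (cov a) e)).1).v
      (cov a f) = _
    rw [h1]
    exact PY.smV_nm PY.ffL (cov a) _ f
  · have h1 := PY.e1_act_fst PY.ffL (cov a) e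
    change ((PY.SL PY.ffL).nm ((PY.SL PY.ffL).e1 ((PY.actE PY.ffL).toSMul.smul (cov a) e)).1).v
      (cov a f) = _
    rw [h1]
    exact PY.smV_nm PY.ffL (cov a) _ f

/-- field `cov_v` of 928's `TPS` -/
theorem cov_v (a : A) (w : PY.inh.V) :
    ∃ w' : PY.inh.V, ∀ f, (PY.inh.nm w).v (covC (C := C) cov a f) = (PY.inh.nm w').v f := by
  refine ⟨PY.smV PY.ffL (cov a⁻¹) w, fun f => ?_⟩
  have h1 := PY.smV_nm PY.ffL (cov a⁻¹) w (cov a f)
  have h2 : (cov a⁻¹) (cov a f) = f := by
    change (cov a⁻¹ * cov a) f = f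
    rw [← map_mul, inv_mul_cancel, map_one]
    rfl
  rw [h2] at h1
  exact h1.symm

/-- field `cov_e0` of 928's `TPS` -/
theorem cov_e0 (a : A) (e : PY.inh.Ed) (f : Y) (hf : f ≠ 0) :
    ord PY.inh (PY.inh.e0 ((actEc PY cov).toSMul.smul a e)) (covC (C := C) cov a f) =
      ord PY.inh (PY.inh.e0 e) f :=
  PY.od_e0_act PY.ffL (cov a) e f hf

theorem cov_e1 (a : A) (e : PY.inh.Ed) (f : Y) (hf : f ≠ 0) :
    ord PY.inh (PY.inh.e1 ((actEc PY cov).toSMul.smul a e)) (covC (C := C) cov a f) =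
      ord PY.inh (PY.inh.e1 e) f :=
  PY.od_e1_act PY.ffL (cov a) e f hf

end cov

section two

variable {L : Type*} [Field L] [Algebra C L] [Algebra K L] [IsScalarTower C K L]
  [FiniteDimensional K L] [IsGalois K L] [Algebra L Y] [IsScalarTower K L Y] [IsScalarTower C L Y]
variable {S : SSK k C K} (P : Spl S L) (PY : Spl S Y)

theorem exists_vL (w : PY.inh.V) : ∃ w' : P.inh.V,
    (∀ f : L, (P.inh.nm w').v f = (PY.inh.nm w).v (algebraMap L Y f)) ∧
      P.vK P.ffL w' = PY.vK PY.ffL w := by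
  obtain ⟨w', h1, h2⟩ := P.exists_V P.ffL ((PY.inh.nm w).v.comap (algebraMap L Y))
    (PY.vK PY.ffL w) (fun f => by
      rw [Valuation.comap_apply, ← IsScalarTower.algebraMap_apply]
      exact PY.vK_nm PY.ffL w f)
  refine ⟨w', fun f => ?_, h2⟩
  change ((P.SL P.ffL).nm w').v f = _
  rw [h1]
  rfl

/-- restriction of the vertices -/
noncomputable def vL (w : PY.inh.V) : P.inh.V := (exists_vL P PY w).choose

theorem vL_nm (w : PY.inh.V) (f : L) :
    (P.inh.nm (vL P PY w)).v f = (PY.inh.nm w).v (algebraMap L Y f) :=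
  (exists_vL P PY w).choose_spec.1 f

theorem vK_vL (w : PY.inh.V) : P.vK P.ffL (vL P PY w) = PY.vK PY.ffL w :=
  (exists_vL P PY w).choose_spec.2

theorem vL_comap (w : PY.inh.V) :
    (PY.inh.nm w).v.comap (algebraMap L Y) = (P.inh.nm (vL P PY w)).v := by
  ext f
  exact congrArg _ (vL_nm P PY w f).symm

theorem eq_vL {w : PY.inh.V} {w' : P.inh.V}
    (h : ∀ f, (P.inh.nm w').v f = (PY.inh.nm w).v (algebraMap L Y f)) : w' = vL P PY w := by
  apply P.inh.nm_inj
  apply Nm.ext'
  intro f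
  rw [h, vL_nm]

theorem eq_of_nm {w w' : PY.inh.V} (h : ∀ f, (PY.inh.nm w).v f = (PY.inh.nm w').v f) : w = w' := by
  apply PY.inh.nm_inj
  apply Nm.ext'
  exact h

/-- every extension of a vertex of `L` to `Y` is a vertex -/
theorem exists_over (w' : P.inh.V) (W : Valuation Y ℝ≥0)
    (hW : ∀ f : L, W (algebraMap L Y f) = (P.inh.nm w').v f) :
    ∃ w : PY.inh.V, (PY.inh.nm w).v = W ∧ vL P PY w = w' := by
  obtain ⟨w, h1, h2⟩ := PY.exists_V PY.ffL W (P.vK P.ffL w') (fun f => by
    rw [IsScalarTower.algebraMap_apply K L Y, hW]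
    exact P.vK_nm P.ffL w' f)
  refine ⟨w, h1, (eq_vL P PY fun f => ?_).symm⟩
  change _ = ((PY.SL PY.ffL).nm w).v _
  rw [h1, hW]

variable (cov : (L ≃ₐ[K] L) →* (Y ≃ₐ[K] Y))

/-- restriction of the vertices is equivariant -/
theorem vL_smV (b : Y ≃ₐ[K] Y) (a : L ≃ₐ[K] L)
    (hab : ∀ f, b (algebraMap L Y f) = algebraMap L Y (a f)) (w : PY.inh.V) :
    vL P PY (PY.smV PY.ffL b w) = P.smV P.ffL a (vL P PY w) := by
  apply P.eq_smV P.ffL
  intro f
  have h1 := vL_nm P PY (PY.smV PY.ffL b w) (a f)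
  have h2 := vL_nm P PY w f
  have h3 := PY.smV_nm PY.ffL b w (algebraMap L Y f)
  rw [hab] at h3
  exact h1.trans (h3.trans h2.symm)

/-- the vertices over a vertex of `L` are conjugate under `Gal(Y/L)` -/
theorem exists_conj_L (w w' : PY.inh.V) (h : vL P PY w = vL P PY w') :
    ∃ g : Y ≃ₐ[L] Y, ∀ f, (PY.inh.nm w').v (g f) = (PY.inh.nm w).v f := by
  haveI : IsGalois L Y := IsGalois.tower_top_of_isGalois K L Y
  obtain ⟨g, hg⟩ := Unr9_957.exists_conj_normal (F := L) (E := Y) (PY.inh.nm w').v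
    (PY.inh.nm w).v (by rw [vL_comap P PY, vL_comap P PY, h])
  exact ⟨g, fun f => (hg f).symm⟩

/-- completely split: the stabiliser is trivial -/
theorem eq_one_of_split {w : Valuation Y ℝ≥0} (hs : TopE1_957.SplitAt (w.comap (algebraMap L Y)) Y)
    (g : Y ≃ₐ[L] Y) (h : ∀ f, w (g f) = w f) : g = 1 := by
  ext f
  change g f = f
  by_contra hne
  have h0 : 0 < w (g f - f) := (Valuation.pos_iff w).2 (sub_ne_zero.2 hne)
  obtain ⟨x, hx⟩ := hs w rfl f _ h0
  have h1 : g f - f = g (f - algebraMap L Y x) - (f - algebraMap L Y x) := by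
    rw [map_sub, AlgEquiv.commutes]
    ring
  have h2 : w (g f - f) ≤ max (w (g (f - algebraMap L Y x))) (w (f - algebraMap L Y x)) := by
    rw [h1]
    exact Valuation.map_sub _ _ _
  rw [h, max_self] at h2
  exact absurd (lt_of_le_of_lt h2 hx) (lt_irrefl _)

end two

end Crest.Agent.R013.YR_770
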