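import Mathlib
import Crest.Agent.R013.YR1_770

/-!
# Row 13, part C, stage Y (helper770), part 2: fibres of the vertices, stabilisers, numbers

`K ⊆ L ⊆ Y`, `Y/L` completely split at the vertices of `P.inh`.

* `exists_vert` : every vertex of `L` is under a vertex of `Y`;
* `card_fibre` : the fibres have `[Y : L]` elements;
* `card_V`, `card_Ed`;
* `stab` : an automorphism `b` of `Y`, commuting with `Gal(Y/L)`, of order prime to `[Y : L]`,
  fixes `w` if its restriction fixes `vL w`.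
-/

set_option autoImplicit false
set_option linter.all false
open WithZero
open scoped NNReal
open Crest.Agent.R013.RR7_948 Crest.Agent.R013.Red332 Crest.Agent.R013.EE809
open Crest.Agent.R013.Cell_408 (FinDef DiscNorm)
open Crest.Agent.R013.SSK_332 Crest.Agent.R013.Inh_770 Crest.Agent.R013.TP_928

namespace Crest.Agent.R013.YR_770

variable {k : Type*} [NontriviallyNormedField k] [CompleteSpace k] [IsUltrametricDist k]
variable {C : Type*} [NormedField C] [IsUltrametricDist C] [NormedAlgebra k C]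
variable [Algebra.IsAlgebraic k C] [IsAlgClosed C] [hk : Fact (DiscNorm k)]
variable {K : Type*} [Field K] [Algebra C K] [Algebra (RatFunc C) K]
  [IsScalarTower C (RatFunc C) K] [FiniteDimensional (RatFunc C) K]
  [Algebra.IsSeparable (RatFunc C) K]
variable {Y : Type*} [Field Y] [Algebra C Y] [Algebra K Y] [IsScalarTower C K Y]
  [FiniteDimensional K Y] [IsGalois K Y]
variable {L : Type*} [Field L] [Algebra C L] [Algebra K L] [IsScalarTower C K L]
  [FiniteDimensional K L] [IsGalois K L] [Algebra L Y] [IsScalarTower K L Y] [IsScalarTower C L Y]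
variable {S : SSK k C K} (P : Spl S L) (PY : Spl S Y)

/-- every vertex of `L` is under a vertex of `Y` -/
theorem exists_vert (w' : P.inh.V) : ∃ w : PY.inh.V, vL P PY w = w' := by
  obtain ⟨w0, hw0⟩ := PY.vK_surj PY.ffL (P.vK P.ffL w')
  obtain ⟨a, ha⟩ := P.exists_conj_V P.ffL (vL P PY w0) w' (by
    rw [← hw0]
    exact vK_vL P PY w0)
  have h := vL_smV P PY (a.liftNormal Y) a (fun f => a.liftNormal_commutes Y f) w0
  exact ⟨PY.smV PY.ffL (a.liftNormal Y) w0, h.trans (P.eq_smV P.ffL ha).symm⟩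

/-- the action of `Gal(Y/L)` on the vertices over a vertex `w'` of `L` -/
noncomputable def gV (g : Y ≃ₐ[L] Y) (w : PY.inh.V) : PY.inh.V :=
  PY.smV PY.ffL (g.restrictScalars K) w

theorem gV_nm (g : Y ≃ₐ[L] Y) (w : PY.inh.V) (f : Y) :
    (PY.inh.nm (gV PY g w)).v (g f) = (PY.inh.nm w).v f :=
  PY.smV_nm PY.ffL (g.restrictScalars K) w f

theorem eq_gV {g : Y ≃ₐ[L] Y} {w w' : PY.inh.V}
    (h : ∀ f, (PY.inh.nm w').v (g f) = (PY.inh.nm w).v f) : w' = gV PY g w :=
  PY.eq_smV PY.ffL (a := g.restrictScalars K) h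

theorem gV_mul (g h : Y ≃ₐ[L] Y) (w : PY.inh.V) : gV PY (g * h) w = gV PY g (gV PY h w) := by
  refine (eq_gV PY (g := g * h) fun f => ?_).symm
  have h1 := gV_nm PY g (gV PY h w) (h f)
  rw [gV_nm PY h w f] at h1
  exact h1

theorem gV_one (w : PY.inh.V) : gV PY (1 : Y ≃ₐ[L] Y) w = w :=
  (eq_gV PY (g := (1 : Y ≃ₐ[L] Y)) fun f => rfl).symm

theorem vL_gV (g : Y ≃ₐ[L] Y) (w : PY.inh.V) : vL P PY (gV PY g w) = vL P PY w := by
  refine (eq_vL P PY fun f => ?_).symm
  have h1 := gV_nm PY g w (algebraMap L Y f)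
  rw [AlgEquiv.commutes] at h1
  rw [h1, vL_nm]

/-- the stabilisers in `Gal(Y/L)` are trivial -/
theorem gV_free {w : PY.inh.V} (hs : TopE1_957.SplitAt (P.inh.nm (vL P PY w)).v Y)
    {g : Y ≃ₐ[L] Y} (h : gV PY g w = w) : g = 1 := by
  refine eq_one_of_split (w := (PY.inh.nm w).v) ?_ g fun f => ?_
  · rw [vL_comap P PY]
    exact hs
  · have h1 := gV_nm PY g w f
    rwa [h] at h1

/-- the fibre over `w'` is a torsor -/
theorem gV_bij {w' : P.inh.V} (hs : TopE1_957.SplitAt (P.inh.nm w').v Y) (w : PY.inh.V)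
    (hw : vL P PY w = w') :
    Function.Bijective (fun g : Y ≃ₐ[L] Y =>
      (⟨gV PY g w, by rw [vL_gV, hw]⟩ : {u : PY.inh.V // vL P PY u = w'})) := by
  subst hw
  constructor
  · intro g h hgh
    have h1 : gV PY g w = gV PY h w := congrArg Subtype.val hgh
    have h2 : gV PY (h⁻¹ * g) w = w := by
      rw [gV_mul, h1, ← gV_mul, inv_mul_cancel, gV_one]
    have h3 := gV_free P PY hs h2
    exact (inv_mul_eq_one.mp h3).symm
  · rintro ⟨u, hu⟩
    obtain ⟨g, hg⟩ := exists_conj_L P PY w u hu.symm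
    exact ⟨g, Subtype.ext (eq_gV PY hg).symm⟩

/-- the fibres have `[Y : L]` elements -/
theorem card_fibre {w' : P.inh.V} (hs : TopE1_957.SplitAt (P.inh.nm w').v Y) :
    Nat.card {u : PY.inh.V // vL P PY u = w'} = Module.finrank L Y := by
  haveI : IsGalois L Y := IsGalois.tower_top_of_isGalois K L Y
  haveI : FiniteDimensional L Y := FiniteDimensional.right K L Y
  obtain ⟨w, hw⟩ := exists_vert P PY w'
  rw [← IsGalois.card_aut_eq_finrank]
  exact (Nat.card_congr (Equiv.ofBijective _ (gV_bij P PY hs w hw))).symm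

/-- number of vertices over a set of vertices -/
theorem card_over (T : Set P.inh.V) (hs : ∀ w', TopE1_957.SplitAt (P.inh.nm w').v Y) :
    Nat.card {w : PY.inh.V // vL P PY w ∈ T} = Module.finrank L Y * Nat.card T := by
  letI := P.inh.fV
  letI := PY.inh.fV
  have e : {w : PY.inh.V // vL P PY w ∈ T} ≃ Σ t : T, {u : PY.inh.V // vL P PY u = t} :=
    { toFun := fun w => ⟨⟨vL P PY w.1, w.2⟩, ⟨w.1, rfl⟩⟩
      invFun := fun x => ⟨x.2.1, by rw [x.2.2]; exact x.1.2⟩
      left_inv := fun w => rfl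
      right_inv := by
        rintro ⟨⟨t, ht⟩, ⟨u, hu⟩⟩
        change vL P PY u = t at hu
        subst hu
        rfl }
  haveI : Finite T := Subtype.finite
  letI := Fintype.ofFinite T
  rw [Nat.card_congr e, Nat.card_sigma]
  rw [Finset.sum_congr rfl fun t _ => card_fibre P PY (hs t.1), Finset.sum_const, Finset.card_univ,
    smul_eq_mul, Nat.card_eq_fintype_card, mul_comm]

theorem card_V (hs : ∀ w', TopE1_957.SplitAt (P.inh.nm w').v Y) :
    Nat.card PY.inh.V = Module.finrank L Y * Nat.card P.inh.V := by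
  have h1 := card_over P PY Set.univ hs
  rw [Nat.card_congr (Equiv.subtypeUnivEquiv fun w => Set.mem_univ _),
    Nat.card_congr (Equiv.Set.univ _)] at h1
  exact h1

theorem card_Ed : Nat.card PY.inh.Ed = Module.finrank L Y * Nat.card P.inh.Ed := by
  have h1 : Nat.card PY.inh.Ed = _ := PY.card_Ed PY.ffL
  have h2 : Nat.card P.inh.Ed = _ := P.card_Ed P.ffL
  rw [h1, h2, ← Module.finrank_mul_finrank K L Y]
  ring

/-- **stabilisers**: `b` restricting to `a`, commuting with `Gal(Y/L)`, `b ^ m = 1`,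
`m` prime to `[Y : L]` -/
theorem stab {w : PY.inh.V} (hs : TopE1_957.SplitAt (P.inh.nm (vL P PY w)).v Y)
    (b : Y ≃ₐ[K] Y) (hb : ∀ (g : Y ≃ₐ[L] Y) (f : Y), b (g f) = g (b f))
    {m : ℕ} (hm : b ^ m = 1) (hcop : m.Coprime (Module.finrank L Y))
    (hw : ∀ f : L, (PY.inh.nm w).v (b (algebraMap L Y f)) = (PY.inh.nm w).v (algebraMap L Y f)) :
    PY.smV PY.ffL b w = w := by
  haveI : IsGalois L Y := IsGalois.tower_top_of_isGalois K L Y
  haveI : FiniteDimensional L Y := FiniteDimensional.right K L Y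
  -- the fibre of `b • w`
  have h0 : b.symm = b ^ (m - 1) ∨ m = 0 := by
    rcases Nat.eq_zero_or_pos m with h | h
    · exact Or.inr h
    · left
      have h1 : b⁻¹ = b ^ (m - 1) := by
        rw [inv_eq_iff_mul_eq_one, ← pow_succ', Nat.sub_add_cancel h, hm]
      exact h1
  -- `b` maps the constants of `L` into ... : the restriction of `b • w` to `L`
  have hL : ∀ j : ℕ, ∀ f : L, ∃ f' : L, (b ^ j) (algebraMap L Y f) = algebraMap L Y f' := by
    intro j f
    have h1 := (AlgEquiv.restrictNormal_commutes (b ^ j) L f)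
    exact ⟨_, h1.symm⟩
  have hwj : ∀ j : ℕ, ∀ f : L,
      (PY.inh.nm w).v ((b ^ j) (algebraMap L Y f)) = (PY.inh.nm w).v (algebraMap L Y f) := by
    intro j
    induction j with
    | zero => intro f; rfl
    | succ j ih =>
      intro f
      obtain ⟨f', hf'⟩ := hL j f
      rw [pow_succ']
      change (PY.inh.nm w).v (b ((b ^ j) (algebraMap L Y f))) = _
      rw [hf', hw, ← hf', ih]
  have hbs : ∀ f : L, (PY.inh.nm w).v (b.symm (algebraMap L Y f)) =
      (PY.inh.nm w).v (algebraMap L Y f) := by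
    intro f
    have h1 := AlgEquiv.restrictNormal_commutes b.symm L f
    have h2 := hw (b.symm.restrictNormal L f)
    rw [h1, AlgEquiv.apply_symm_apply] at h2
    rw [h2]
  have hfib : vL P PY (PY.smV PY.ffL b w) = vL P PY w := by
    refine (eq_vL P PY fun f => ?_).symm
    have h1 : (PY.inh.nm (PY.smV PY.ffL b w)).v (b (b.symm (algebraMap L Y f))) =
      (PY.inh.nm w).v (b.symm (algebraMap L Y f)) := PY.smV_nm PY.ffL b w _
    rw [AlgEquiv.apply_symm_apply] at h1
    rw [h1, hbs, vL_nm]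
  obtain ⟨g, hg⟩ := exists_conj_L P PY w (PY.smV PY.ffL b w) hfib.symm
  have hg' : PY.smV PY.ffL b w = gV PY g w := eq_gV PY hg
  -- powers
  have hcomm : ∀ (h : Y ≃ₐ[L] Y) (u : PY.inh.V),
      PY.smV PY.ffL b (gV PY h u) = gV PY h (PY.smV PY.ffL b u) := by
    intro h u
    refine eq_gV PY fun f => ?_
    have h1 : (PY.inh.nm (PY.smV PY.ffL b (gV PY h u))).v (b (h (b.symm f))) =
      (PY.inh.nm (gV PY h u)).v (h (b.symm f)) := PY.smV_nm PY.ffL b _ _
    rw [gV_nm, hb, AlgEquiv.apply_symm_apply] at h1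
    rw [h1]
    have h2 : (PY.inh.nm (PY.smV PY.ffL b u)).v (b (b.symm f)) =
      (PY.inh.nm u).v (b.symm f) := PY.smV_nm PY.ffL b _ _
    rw [AlgEquiv.apply_symm_apply] at h2
    exact h2.symm
  have hpow : ∀ j : ℕ, PY.smV PY.ffL (b ^ j) w = gV PY (g ^ j) w := by
    intro j
    induction j with
    | zero =>
      rw [pow_zero, pow_zero, gV_one]
      exact (PY.eq_smV PY.ffL (a := 1) fun f => rfl).symm
    | succ j ih =>
      have h1 : PY.smV PY.ffL (b ^ (j + 1)) w = PY.smV PY.ffL b (PY.smV PY.ffL (b ^ j) w) := by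
        refine (PY.eq_smV PY.ffL (a := b ^ (j + 1)) fun f => ?_).symm
        have h2 := PY.smV_nm PY.ffL b (PY.smV PY.ffL (b ^ j) w) ((b ^ j) f)
        have h3 := PY.smV_nm PY.ffL (b ^ j) w f
        rw [pow_succ']
        exact h2.trans h3
      rw [h1, ih, hcomm, hg', ← gV_mul, pow_succ]
  have h1 : g ^ m = 1 := by
    refine gV_free P PY hs ?_
    rw [← hpow, hm]
    exact (PY.eq_smV PY.ffL (a := 1) fun f => rfl).symm
  have h2 : g ^ (Module.finrank L Y) = 1 := by
    rw [← IsGalois.card_aut_eq_finrank]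
    exact pow_card_eq_one'
  have h3 : g = 1 := by
    have h4 := pow_gcd_eq_one.2 ⟨h1, h2⟩
    have h5 : m.gcd (Module.finrank L Y) = 1 := hcop
    rwa [h5, pow_one] at h4
  rw [hg', h3, gV_one]

end Crest.Agent.R013.YR_770
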