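import Mathlib
import Crest.Agent.R013.YR2_770
import Crest.Agent.R013.RedD7_310

/-!
# Row 13, part C, stage Y (helper770), part 3: the rank inequality

`A = Gal(L/K)`, `cov : A →* Gal(Y/K)` over the restriction to `L`, commuting with `Gal(Y/L)`,
`[Y : L]` prime to `|A|`.

* `stab_cov`, `stab_nm` : `cov a` fixes `w` as soon as `a` fixes `vL w`;
* `rank` : `n * nE ≤ dim e·ker d + n * n0`;
* `n0_lt` : `n0 < nE` from the genus formula.
-/

set_option autoImplicit false
set_option linter.all false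
open WithZero
open scoped NNReal
open Crest.Agent.R013.RR7_948 Crest.Agent.R013.Red332 Crest.Agent.R013.EE809
open Crest.Agent.R013.Cell_408 (FinDef DiscNorm)
open Crest.Agent.R013.SSK_332 Crest.Agent.R013.Inh_770 Crest.Agent.R013.TP_928
open Crest.Agent.R013.GR3_921 (HasGen)

namespace Crest.Agent.R013.YR_770

variable {k : Type*} [NontriviallyNormedField k] [CompleteSpace k] [IsUltrametricDist k]
variable {C : Type*} [NormedField C] [IsUltrametricDist C] [NormedAlgebra k C]
variable [Algebra.IsAlgebraic k C] [IsAlgClosed C] [hk : Fact (DiscNorm k)]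
variable {K : Type*} [Field K] [Algebra C K] [Algebra (RatFunc C) K]
  [IsScalarTower C (RatFunc C) K] [FiniteDimensional (RatFunc C) K]
  [Algebra.IsSeparable (RatFunc C) K]
variable {Y : Type*} [Field Y] [Algebra C Y] [Algebra K Y] [IsScalarTower C K Y]
  [FiniteDimensional K Y] [IsGalois K Y]
variable {L : Type*} [Field L] [Algebra C L] [Algebra K L] [IsScalarTower C K L]
  [FiniteDimensional K L] [IsGalois K L] [Algebra L Y] [IsScalarTower K L Y] [IsScalarTower C L Y]
variable {S : SSK k C K} (P : Spl S L) (PY : Spl S Y)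
variable {cov : (L ≃ₐ[K] L) →* (Y ≃ₐ[K] Y)}

section stab

variable (hcov : ∀ a f, cov a (algebraMap L Y f) = algebraMap L Y (a f))
  (hcomm : ∀ a (g : Y ≃ₐ[L] Y) (f : Y), cov a (g f) = g (cov a f))
  (hs : ∀ w' : P.inh.V, TopE1_957.SplitAt (P.inh.nm w').v Y)
  (hcop : (Nat.card (L ≃ₐ[K] L)).Coprime (Module.finrank L Y))

include hcov in
theorem vL_act (a : L ≃ₐ[K] L) (w : PY.inh.V) :
    vL P PY (PY.smV PY.ffL (cov a) w) = P.smV P.ffL a (vL P PY w) :=
  vL_smV P PY (cov a) a (hcov a) w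

include hcov hcomm hs hcop in
/-- `cov a` fixes `w` if `a` fixes `vL w` -/
theorem stab_cov {w : PY.inh.V} {a : L ≃ₐ[K] L}
    (h : ∀ f, (P.inh.nm (vL P PY w)).v (a f) = (P.inh.nm (vL P PY w)).v f) :
    PY.smV PY.ffL (cov a) w = w := by
  refine stab P PY (hs _) (cov a) (hcomm a) (m := Nat.card (L ≃ₐ[K] L)) ?_ hcop fun f => ?_
  · rw [← map_pow, pow_card_eq_one', map_one]
  · rw [hcov, ← vL_nm P PY, ← vL_nm P PY, h]

include hcov hcomm hs hcop in
/-- `stab` in terms of norms -/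
theorem stab_nm {w : PY.inh.V} {a : L ≃ₐ[K] L}
    (h : ∀ f, (P.inh.nm (vL P PY w)).v (a f) = (P.inh.nm (vL P PY w)).v f) (f : Y) :
    (PY.inh.nm w).v (cov a f) = (PY.inh.nm w).v f := by
  have h1 := stab_cov P PY hcov hcomm hs hcop h
  have h2 : (PY.inh.nm (PY.smV PY.ffL (cov a) w)).v (cov a f) = (PY.inh.nm w).v f :=
    PY.smV_nm PY.ffL (cov a) w f
  rwa [h1] at h2

/-- the converse -/
theorem stab_of {w : PY.inh.V} {a : L ≃ₐ[K] L} (hcov : ∀ a f, cov a (algebraMap L Y f) =
      algebraMap L Y (a f))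
    (h : PY.smV PY.ffL (cov a) w = w) (f : L) :
    (P.inh.nm (vL P PY w)).v (a f) = (P.inh.nm (vL P PY w)).v f := by
  have h2 : (PY.inh.nm (PY.smV PY.ffL (cov a) w)).v (cov a (algebraMap L Y f)) =
    (PY.inh.nm w).v (algebraMap L Y f) := PY.smV_nm PY.ffL (cov a) w _
  rw [h, hcov] at h2
  rw [vL_nm, vL_nm, h2]

end stab

/-! ### free vertices of `L` -/

/-- the free vertices over vertices of genus `0` -/
def V0 : Set P.inh.V := {w' | HasGen (Ct C) (kap (S.nm (P.vK P.ffL w'))) 0 ∧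
  ∀ σ : L ≃ₐ[K] L, (∀ f, (P.inh.nm w').v (σ f) = (P.inh.nm w').v f) → σ = 1}

theorem smV_mul (a b : L ≃ₐ[K] L) (w : P.inh.V) :
    P.smV P.ffL a (P.smV P.ffL b w) = P.smV P.ffL (a * b) w :=
  P.eq_smV P.ffL (a := a * b) fun f => by
    have h1 := P.smV_nm P.ffL a (P.smV P.ffL b w) (b f)
    have h2 := P.smV_nm P.ffL b w f
    exact h1.trans h2

theorem smV_mem {w : P.inh.V} (hw : w ∈ V0 P) (a : L ≃ₐ[K] L) : P.smV P.ffL a w ∈ V0 P := by
  refine ⟨?_, fun σ hσ => ?_⟩
  · have h1 : P.vK P.ffL (P.smV P.ffL a w) = P.vK P.ffL w := P.vK_smV P.ffL a w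
    exact (congrArg (fun v => HasGen (Ct C) (kap (S.nm v)) 0) h1).mpr hw.1
  · have h1 : a⁻¹ * σ * a = 1 := by
      refine hw.2 _ fun f => ?_
      have h2 : (P.inh.nm (P.smV P.ffL a w)).v (a ((a⁻¹ * σ * a) f)) =
        (P.inh.nm w).v ((a⁻¹ * σ * a) f) := P.smV_nm P.ffL a w _
      have h3 : (P.inh.nm (P.smV P.ffL a w)).v (a f) = (P.inh.nm w).v f := P.smV_nm P.ffL a w _
      have h4 : a ((a⁻¹ * σ * a) f) = σ (a f) := by
        change a (a.symm (σ (a f))) = _
        rw [AlgEquiv.apply_symm_apply]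
      rw [← h2, h4, hσ, h3]
    have h2 : σ = a * (a⁻¹ * σ * a) * a⁻¹ := by group
    rw [h2, h1, mul_one, mul_inv_cancel]

/-- the fibre through a free vertex -/
theorem fibre_bij {w : P.inh.V} (hw : w ∈ V0 P) :
    Function.Bijective (fun a : L ≃ₐ[K] L =>
      (⟨P.smV P.ffL a w, P.vK_smV P.ffL a w⟩ :
        {u : P.inh.V // P.vK P.ffL u = P.vK P.ffL w})) := by
  constructor
  · intro a b hab
    have h1 : P.smV P.ffL a w = P.smV P.ffL b w := congrArg Subtype.val hab
    have h2 : b⁻¹ * a = 1 := by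
      refine hw.2 _ fun f => ?_
      have h3 := P.smV_nm P.ffL b w ((b⁻¹ * a) f)
      have h4 : b ((b⁻¹ * a) f) = a f := by
        change b (b.symm (a f)) = _
        rw [AlgEquiv.apply_symm_apply]
      rw [h4, ← h1] at h3
      exact h3.symm.trans (P.smV_nm P.ffL a w f)
    exact (inv_mul_eq_one.mp h2).symm
  · rintro ⟨u, hu⟩
    obtain ⟨a, ha⟩ := P.exists_conj_V P.ffL w u hu.symm
    exact ⟨a, Subtype.ext (P.eq_smV P.ffL ha).symm⟩

/-- `|V0| = |A| n0` with `n0 ≤` number of vertices of genus `0` -/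
theorem card_V0 : ∃ n0 : ℕ, Nat.card (V0 P) = Nat.card (L ≃ₐ[K] L) * n0 ∧
    n0 ≤ Nat.card {v : S.V // HasGen (Ct C) (kap (S.nm v)) 0} := by
  classical
  letI := P.inh.fV
  letI := S.fV
  let T : Set S.V := (P.vK P.ffL) '' (V0 P)
  refine ⟨Nat.card T, ?_, ?_⟩
  · have e : (V0 P) ≃ Σ t : T, {u : P.inh.V // P.vK P.ffL u = t} :=
      { toFun := fun w => ⟨⟨P.vK P.ffL w.1, w.1, w.2, rfl⟩, ⟨w.1, rfl⟩⟩
        invFun := fun x => ⟨x.2.1, by
          obtain ⟨⟨t, w, hw, hwt⟩, ⟨u, hu⟩⟩ := x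
          obtain ⟨a, ha⟩ := P.exists_conj_V P.ffL w u (hwt.trans hu.symm)
          have h1 := P.eq_smV P.ffL ha
          change u ∈ V0 P
          rw [h1]
          exact smV_mem P hw a⟩
        left_inv := fun w => rfl
        right_inv := by
          rintro ⟨⟨t, ht⟩, ⟨u, hu⟩⟩
          change P.vK P.ffL u = t at hu
          subst hu
          rfl }
    haveI : Finite T := Subtype.finite
    letI := Fintype.ofFinite T
    rw [Nat.card_congr e, Nat.card_sigma]
    have h1 : ∀ t : T, Nat.card {u : P.inh.V // P.vK P.ffL u = t} = Nat.card (L ≃ₐ[K] L) := by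
      rintro ⟨t, w, hw, rfl⟩
      exact (Nat.card_congr (Equiv.ofBijective _ (fibre_bij P hw))).symm
    rw [Finset.sum_congr rfl fun t _ => h1 t, Finset.sum_const, Finset.card_univ,
      smul_eq_mul, Nat.card_eq_fintype_card, Nat.card_eq_fintype_card, mul_comm]
  · refine Nat.card_le_card_of_injective
      (fun t : T => (⟨t.1, ?_⟩ : {v : S.V // HasGen (Ct C) (kap (S.nm v)) 0})) ?_
    · obtain ⟨w, hw, hwt⟩ := t.2
      rw [← hwt]
      exact hw.1
    · intro t t' h
      have h' := congrArg Subtype.val h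
      exact Subtype.ext h'

section rank

variable [Fintype (L ≃ₐ[K] L)] {F : Type*} [Field F] [CharZero F]
  (hcov : ∀ a f, cov a (algebraMap L Y f) = algebraMap L Y (a f))
  (hcomm : ∀ a (g : Y ≃ₐ[L] Y) (f : Y), cov a (g f) = g (cov a f))
  (hs : ∀ w' : P.inh.V, TopE1_957.SplitAt (P.inh.nm w').v Y)
  (hcop : (Nat.card (L ≃ₐ[K] L)).Coprime (Module.finrank L Y))

include hcov hcomm hs hcop in
/-- **rank** -/
theorem rank {e : (L ≃ₐ[K] L) → F} (he : Rank_770.IsIdem e) (h0 : e ≠ 0)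
    (hdich : ∀ w' : P.inh.V, (HasGen (Ct C) (kap (S.nm (P.vK P.ffL w'))) 0 ∧
        ∀ σ : L ≃ₐ[K] L, (∀ f, (P.inh.nm w').v (σ f) = (P.inh.nm w').v f) → σ = 1) ∨
      ∀ (B : Subgroup (L ≃ₐ[K] L)) [Fintype B],
        (∀ σ, σ ∈ B ↔ ∀ f, (P.inh.nm w').v (σ f) = (P.inh.nm w').v f) →
        ∀ a, ∑ b : B, e (a * b) = 0)
    (d : (PY.inh.Ed → F) →ₗ[F] (PY.inh.V → F))
    (hd : letI := actVc PY cov; letI := actEc PY cov;
      ∀ (a : L ≃ₐ[K] L) f, d (Rank_770.act F PY.inh.Ed a f) = Rank_770.act F PY.inh.V a (d f)) :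
    Module.finrank L Y * Nat.card S.Ed ≤
      (letI := actEc PY cov; Module.finrank F (Rank_770.eker e d)) +
      Module.finrank L Y * Nat.card {v : S.V // HasGen (Ct C) (kap (S.nm v)) 0} := by
  classical
  letI iV := actVc PY cov
  letI iE := actEc PY cov
  letI := PY.inh.fV
  letI := PY.inh.fEd
  obtain ⟨n0, hn0, hn0'⟩ := card_V0 P
  let W0 : SubMulAction (L ≃ₐ[K] L) PY.inh.V :=
    { carrier := {w | vL P PY w ∈ V0 P}
      smul_mem' := fun a w hw => by
        change vL P PY (PY.smV PY.ffL (cov a) w) ∈ V0 P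
        have h1 := vL_act P PY hcov a w
        rw [h1]
        exact smV_mem P hw a }
  have hcovinj : ∀ a : L ≃ₐ[K] L, cov a = 1 → a = 1 := by
    intro a ha
    ext f
    apply (algebraMap L Y).injective
    rw [← hcov, ha]
    rfl
  have key := Rank_770.rank_ge (k := F) he h0 (E := PY.inh.Ed) (V := PY.inh.V)
    (fun a x hx => hcovinj a (PY.act_free PY.ffL (cov a) x hx)) W0
    (fun a x hx hax => hx.2 a (fun f => stab_of P PY hcov hax f))
    (fun v hv => by
      rcases hdich (vL P PY v) with h | h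
      · exact absurd h hv
      · let B : Subgroup (L ≃ₐ[K] L) :=
          { carrier := {σ | ∀ f, (P.inh.nm (vL P PY v)).v (σ f) = (P.inh.nm (vL P PY v)).v f}
            mul_mem' := fun {a b} ha hb f => by
              change (P.inh.nm (vL P PY v)).v (a (b f)) = _
              rw [ha, hb]
            one_mem' := fun f => rfl
            inv_mem' := fun {a} ha f => by
              have h1 := ha (a.symm f)
              rw [AlgEquiv.apply_symm_apply] at h1
              exact h1.symm }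
        refine ⟨B, Fintype.ofFinite B, fun b hb => ?_, ?_⟩
        · exact stab_cov P PY hcov hcomm hs hcop hb
        · letI := Fintype.ofFinite B
          exact h B (fun σ => Iff.rfl))
    d hd (Module.finrank L Y * Nat.card S.Ed) (Module.finrank L Y * n0)
    (by
      rw [← Nat.card_eq_fintype_card, ← Nat.card_eq_fintype_card, card_Ed P PY]
      have h2 : Nat.card P.inh.Ed = _ := P.card_Ed P.ffL
      rw [h2, ← IsGalois.card_aut_eq_finrank K L]
      ring)
    (by
      have h1 : Nat.card W0 = Module.finrank L Y * Nat.card (V0 P) := card_over P PY (V0 P) hs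
      rw [h1, hn0, ← Nat.card_eq_fintype_card]
      ring)
  exact key.trans (Nat.add_le_add_left (Nat.mul_le_mul_left _ hn0') _)

end rank

/-- **`n0 < nE`**: the genus formula -/
theorem n0_lt [CharZero C] (S : SSK k C K) {g : ℕ} (hg : HasGen C K g) (h2 : 2 ≤ g)
    (hVE : Nat.card S.V ≤ Nat.card S.Ed) :
    Nat.card {v : S.V // HasGen (Ct C) (kap (S.nm v)) 0} < Nat.card S.Ed := by
  classical
  letI := S.fV
  letI := S.fEd
  have hle : Nat.card {v : S.V // HasGen (Ct C) (kap (S.nm v)) 0} ≤ Nat.card S.V :=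
    Nat.card_le_card_of_injective Subtype.val Subtype.val_injective
  by_contra hcon
  push Not at hcon
  have e1 : Nat.card {v : S.V // HasGen (Ct C) (kap (S.nm v)) 0} = Nat.card S.V :=
    le_antisymm hle (hVE.trans hcon)
  have e2 : Nat.card S.V = Nat.card S.Ed := le_antisymm hVE (hcon.trans hle)
  have hall : ∀ v : S.V, HasGen (Ct C) (kap (S.nm v)) 0 := by
    intro v
    have hinj : Function.Injective (Subtype.val : {v : S.V // HasGen (Ct C) (kap (S.nm v)) 0} → S.V) :=
      Subtype.val_injective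
    have hb := (Nat.bijective_iff_injective_and_card _).2 ⟨hinj, e1⟩
    obtain ⟨u, hu⟩ := hb.2 v
    rw [← hu]
    exact u.2
  have h3 := RedD_310.genus_hasGen S hg (γ := fun _ => 0) hall
  rw [Finset.sum_const_zero, ← Nat.card_eq_fintype_card, ← Nat.card_eq_fintype_card] at h3
  omega

end Crest.Agent.R013.YR_770
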