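import Mathlib
import Crest.Agent.R013.YR3_770
import Crest.Agent.R013.A2e_398
import Crest.Agent.R013.GRK1_903

/-!
# Row 13, part C, stage Y (helper770), part 4: `A2Data` (398) on `PY.inh`

`D : A2Data p S L`, `PY : Spl S Y`, `Y / L` completely split at the vertices of `D.spl.inh`,
`cov : Gal(L/K) →* Gal(Y/K)` lifting, commuting with `Gal(Y/L)`.

* `kap_bij` : same residue fields;
* `cinjS` : 359's `CInjS p PY.inh (covC cov) ..`;
* `rank_A2`, `le_rank`, `lt_rank` : `m * r < dim eker`.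
-/

set_option autoImplicit false
set_option linter.all false
open WithZero
open scoped NNReal
open Crest.Agent.R013.RR7_948 Crest.Agent.R013.Red332 Crest.Agent.R013.EE809
open Crest.Agent.R013.Cell_408 (FinDef DiscNorm)
open Crest.Agent.R013.SSK_332 Crest.Agent.R013.Inh_770 Crest.Agent.R013.TP_928
open Crest.Agent.R013.GR3_921 (HasGen)
open Crest.Agent.R013.A2_398 Crest.Agent.R013.Kumv2_275

namespace Crest.Agent.R013.YR_770

variable {p : ℕ} [hp : Fact p.Prime]
variable {k : Type*} [NontriviallyNormedField k] [CompleteSpace k] [IsUltrametricDist k]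
variable {C : Type*} [NormedField C] [IsUltrametricDist C] [NormedAlgebra k C]
variable [Algebra.IsAlgebraic k C] [IsAlgClosed C] [hk : Fact (DiscNorm k)] [CharP (Ct C) p]
variable {K : Type*} [Field K] [Algebra C K] [Algebra (RatFunc C) K]
  [IsScalarTower C (RatFunc C) K] [FiniteDimensional (RatFunc C) K]
  [Algebra.IsSeparable (RatFunc C) K]
variable {Y : Type*} [Field Y] [Algebra C Y] [Algebra K Y] [IsScalarTower C K Y]
  [FiniteDimensional K Y] [IsGalois K Y]
variable {L : Type*} [Field L] [Algebra C L] [Algebra K L] [IsScalarTower C K L]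
  [FiniteDimensional K L] [IsGalois K L] [Algebra L Y] [IsScalarTower K L Y] [IsScalarTower C L Y]

section kap

variable {S : SSK k C K} (P : Spl S L) (PY : Spl S Y)

omit [CharP (Ct C) p] in
/-- the residue fields do not change -/
theorem kap_bij (hs : ∀ w' : P.inh.V, TopE1_957.SplitAt (P.inh.nm w').v Y) (W : PY.inh.V) :
    Function.Bijective (kapMap (P.inh.nm (vL P PY W)) (PY.inh.nm W) (vL_comap P PY W)) := by
  refine GRK_903.kapMap_bijective_of_dense _ _ _ fun z => ?_
  obtain ⟨g, hg⟩ := hs (vL P PY W) (PY.inh.nm W).v (vL_comap P PY W) z 1 one_pos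
  refine ⟨g, ?_⟩
  rwa [Valuation.map_sub_swap] at hg

end kap

variable {S : SSK k C K} (D : A2Data p S L) (PY : Spl S Y)
  {cov : (L ≃ₐ[K] L) →* (Y ≃ₐ[K] Y)}
  (hcov : ∀ a f, cov a (algebraMap L Y f) = algebraMap L Y (a f))
  (hcomm : ∀ a (g : Y ≃ₐ[L] Y) (f : Y), cov a (g f) = g (cov a f))
  (hs : ∀ w' : D.spl.inh.V, TopE1_957.SplitAt (D.spl.inh.nm w').v Y)
  (hcop : (Nat.card (L ≃ₐ[K] L)).Coprime (Module.finrank L Y))

include hcov hcomm hs hcop in
/-- **359's `CInjS`** -/
theorem cinjS [PerfectField (Ct C)] (φ : ZMod p →+* Ct C) :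
    M3_359.CInjS p PY.inh (covC (C := C) cov) (fun a => φ (PadicInt.toZMod (D.c a))) :=
  D.cinjS PY.inh (covC (C := C) cov) hcov φ fun W =>
    ⟨D.spl.vK D.spl.ffL (vL D.spl PY W), D.spl.inh.nm (vL D.spl PY W),
      D.spl.vK_comap D.spl.ffL _, vL_comap D.spl PY W, (kap_bij D.spl PY hs W).2,
      fun a ha f => stab_nm D.spl PY hcov hcomm hs hcop ha f⟩

theorem isIdem_c : Rank_770.IsIdem (fun a : L ≃ₐ[K] L => ((D.c a : ℤ_[p]) : ℚ_[p])) := by
  intro a
  have h := congrArg (PadicInt.Coe.ringHom (p := p)) (D.c_idem a)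
  rw [map_sum] at h
  simp only [map_mul] at h
  exact h

theorem c_ne' : (fun a : L ≃ₐ[K] L => ((D.c a : ℤ_[p]) : ℚ_[p])) ≠ 0 := by
  intro h
  apply D.c_ne
  funext a
  exact PadicInt.ext (congrFun h a)

include hcov hcomm hs hcop in
/-- **rank**, for the boundary map -/
theorem rank_A2 :
    Module.finrank L Y * Nat.card S.Ed ≤
      (letI := actEc PY cov; Module.finrank ℚ_[p] (Rank_770.eker
        (fun a : L ≃ₐ[K] L => ((D.c a : ℤ_[p]) : ℚ_[p])) (Fin_928.bdry PY.inh ℚ_[p]))) +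
      Module.finrank L Y * Nat.card (A2_398.V0 S) := by
  letI iV := actVc PY cov
  letI iE := actEc PY cov
  refine rank D.spl PY hcov hcomm hs hcop (isIdem_c D) (c_ne' D) ?_ (Fin_928.bdry PY.inh ℚ_[p])
    (fun a f => Fin_928.bdry_act (actS PY cov) a f)
  intro w'
  rcases D.dich w' with h | h
  · exact Or.inl h
  · refine Or.inr fun B _ hB a => ?_
    have h := congrArg (PadicInt.Coe.ringHom (p := p)) (h B hB a)
    rw [map_sum, map_zero] at h
    exact h

include hcov hcomm hs hcop in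
/-- `n ≤ dim e·ker` -/
theorem le_rank (hlt : Nat.card (A2_398.V0 S) < Nat.card S.Ed) :
    Module.finrank L Y ≤
      (letI := actEc PY cov; Module.finrank ℚ_[p] (Rank_770.eker
        (fun a : L ≃ₐ[K] L => ((D.c a : ℤ_[p]) : ℚ_[p])) (Fin_928.bdry PY.inh ℚ_[p]))) := by
  have h1 := rank_A2 D PY hcov hcomm hs hcop
  have h2 : Module.finrank L Y * (Nat.card (A2_398.V0 S) + 1) ≤
      Module.finrank L Y * Nat.card S.Ed := Nat.mul_le_mul_left _ hlt
  rw [mul_add, mul_one] at h2
  omega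

include hcov hcomm hs hcop in
/-- hypothesis `hm` of 928's `exists_class` -/
theorem lt_rank (hlt : Nat.card (A2_398.V0 S) < Nat.card S.Ed) {N : ℕ}
    (hN : N < Module.finrank L Y) :
    N < (letI := actEc PY cov; Module.finrank ℚ_[p] (Rank_770.eker
        (fun a : L ≃ₐ[K] L => ((D.c a : ℤ_[p]) : ℚ_[p])) (Fin_928.bdry PY.inh ℚ_[p]))) :=
  lt_of_lt_of_le hN (le_rank D PY hcov hcomm hs hcop hlt)

end Crest.Agent.R013.YR_770
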